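import Crest.Agent.R214.BoxN2a
import Crest.Agent.R214.BoxN2b
import Crest.Agent.R214.BoxN2c
import Crest.Agent.R214.BoxN2d
import Crest.Agent.R214.BoxN2e

/-! Row 214, region N2 (helper76): `a1 ≥ .004`, `a2 ≥ 1/π`. -/

set_option autoImplicit false

namespace Crest.Agent.R214

theorem lo_of_pi {a2 : ℝ} (h2 : 1 / Real.pi ≤ a2) : ((3183 : ℤ) : ℝ) / 10 ^ 4 ≤ a2 := by
  refine le_trans ?_ h2
  have hpi := Real.pi_lt_d4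
  rw [le_div_iff₀ Real.pi_pos]
  push_cast
  nlinarith

/-- `V ∈ [.125,.26]`, all `a1 ≥ .004`, `a2 ≥ 1/π` -/
theorem N2a {V a1 a2 : ℝ} (hV : 1 / 8 ≤ V) (hV' : V ≤ 26 / 100) (h1 : 4 / 1000 ≤ a1)
    (h1V : a1 ≤ V) (h2V : V ≤ a2) (h2 : 1 / Real.pi ≤ a2) (h2' : a2 ≤ 1) : Good V a1 a2 := by
  refine Tr.sound trN2a _ trN2a_chk ⟨?_, ?_, lo_of_pi h2, ?_, ?_, ?_⟩ h1V h2V
  all_goals (push_cast; linarith)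

theorem N2b1 {V a1 a2 : ℝ} (hV : 26 / 100 ≤ V) (hV' : V ≤ 28 / 100) (h1 : 4 / 1000 ≤ a1)
    (h1' : a1 ≤ 8 / 100) (h2V : V ≤ a2) (h2 : 1 / Real.pi ≤ a2) (h2' : a2 ≤ 1) :
    Good V a1 a2 := by
  refine Tr.sound trN2b _ trN2b_chk ⟨?_, ?_, lo_of_pi h2, ?_, ?_, ?_⟩ (by linarith) h2V
  all_goals (push_cast; linarith)

theorem N2b2 {V a1 a2 : ℝ} (hV : 28 / 100 ≤ V) (hV' : V ≤ 30 / 100) (h1 : 4 / 1000 ≤ a1)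
    (h1' : a1 ≤ 5 / 100) (h2V : V ≤ a2) (h2 : 1 / Real.pi ≤ a2) (h2' : a2 ≤ 1) :
    Good V a1 a2 := by
  refine Tr.sound trN2c _ trN2c_chk ⟨?_, ?_, lo_of_pi h2, ?_, ?_, ?_⟩ (by linarith) h2V
  all_goals (push_cast; linarith)

theorem N2b3 {V a1 a2 : ℝ} (hV : 30 / 100 ≤ V) (hV' : V ≤ 33 / 100) (h1 : 4 / 1000 ≤ a1)
    (h1' : a1 ≤ 4 / 100) (h2V : V ≤ a2) (h2 : 1 / Real.pi ≤ a2) (h2' : a2 ≤ 1) :
    Good V a1 a2 := by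
  refine Tr.sound trN2d _ trN2d_chk ⟨?_, ?_, lo_of_pi h2, ?_, ?_, ?_⟩ (by linarith) h2V
  all_goals (push_cast; linarith)

theorem N2b4 {V a1 a2 : ℝ} (hV : 33 / 100 ≤ V) (hV' : V ≤ 366 / 1000) (h1 : 4 / 1000 ≤ a1)
    (h1' : a1 ≤ 8 / 100) (h2V : V ≤ a2) (h2 : 1 / Real.pi ≤ a2) (h2' : a2 ≤ 1) :
    Good V a1 a2 := by
  refine Tr.sound trN2e _ trN2e_chk ⟨?_, ?_, lo_of_pi h2, ?_, ?_, ?_⟩ (by linarith) h2V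
  all_goals (push_cast; linarith)

end Crest.Agent.R214
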