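import Crest.Agent.R214.BoxN2Defs

/-! Row 214, regions N1, N2, certificate tree `trN2f` (generated, helper76). -/

set_option autoImplicit false
set_option maxRecDepth 100000

namespace Crest.Agent.R214

def trN2f : Tr :=
  (.sb 6591 (.sa 645 (.sb 4887 (.sa 342 (.sa 191 (.sb 4035 (.sa 115 (lf (1032) (22225) [115,7356,167,7903,321,8354,564,8397,882,8227,1252,7937,1649,7577,2046,7181,2416,6782,2734,6416,2977,6119,3131,5923,3183,5855] 10 3224 0 1000) (lf (1663) (20661) [191,5426,242,6201,391,7092,629,7455,939,7482,1300,7327,1687,7070,2074,6760,2435,6436,2745,6133,2983,5885,3132,5723,3183,5666] 10 3224 0 1000)) (lf (1047) (18320) [191,8214,256,8451,448,8672,754,8666,1152,8511,1616,8268,2113,7972,2610,7653,3074,7335,3472,6717,3778,6042,3970,5547,4035,5364] 10 3224 0 1000)) (lf (2142) (16079) [342,5705,390,6116,532,6800,758,7250,1052,7452,1395,7491,1762,7435,2130,7327,2473,7198,2767,7072,2993,6968,3135,6900,3183,6876] 10 3224 0 1000)) (lf (2772) (14790) [645,5611,688,5792,815,6181,1017,6539,1280,6773,1586,6887,1914,6913,2242,6883,2549,6823,2811,6754,3013,6693,3140,6651,3183,6637]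 10 3224 0 1000)) (lf (1066) (13554) [645,9023,717,9031,929,9026,1266,8974,1705,8871,2217,8729,2766,8562,3315,8312,3826,7804,4266,7287,4603,6829,4815,6508,4887,6392] 10 3224 0 1000)) (lf (3905) (9247) [1250,5897,1283,5973,1379,6169,1533,6416,1733,6654,1966,6853,2217,7005,2467,7114,2700,7189,2900,7237,3054,7266,3150,7282,3183,7286] 10 3224 0 1000)) (lf (1125) (-1125) [1250,9875,1341,9886,1608,9911,2032,9936,2585,9957,3229,9970,3920,9976,4612,9981,5256,9985,5809,9988,6233,9991,6500,9992,6591,9992] 10 3224 0 1000))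

theorem trN2f_chk : trN2f.chk ⟨40, 1250, 3183, 10000, 1000, 1250⟩ = true := by
  decide +kernel

end Crest.Agent.R214
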