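import Crest.Agent.R214.BoxN2
import Crest.Agent.R214.BoxN1a
import Crest.Agent.R214.BoxN2f

/-! Row 214, region N1 (helper76): `V ≤ .12`, all `a1`, `a2 ≥ 1/π`; and the extension of N2
to `V ∈ [.1,.125]`. -/

set_option autoImplicit false

namespace Crest.Agent.R214

/-- `0 ≤ V ≤ .12`, all `a1 ≥ 0`, `a2 ≥ 1/π` -/
theorem N1 {V a1 a2 : ℝ} (hV' : V ≤ 12 / 100) (h1 : 0 ≤ a1)
    (h1V : a1 ≤ V) (h2V : V ≤ a2) (h2 : 1 / Real.pi ≤ a2) (h2' : a2 ≤ 1) : Good V a1 a2 := by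
  refine Tr.sound trN1a _ trN1a_chk ⟨?_, ?_, lo_of_pi h2, ?_, ?_, ?_⟩ h1V h2V
  all_goals (push_cast; linarith)

/-- `V ∈ [.1,.125]`, all `a1 ≥ .004`, `a2 ≥ 1/π` -/
theorem N2f {V a1 a2 : ℝ} (hV : 1 / 10 ≤ V) (hV' : V ≤ 1 / 8) (h1 : 4 / 1000 ≤ a1)
    (h1V : a1 ≤ V) (h2V : V ≤ a2) (h2 : 1 / Real.pi ≤ a2) (h2' : a2 ≤ 1) : Good V a1 a2 := by
  refine Tr.sound trN2f _ trN2f_chk ⟨?_, ?_, lo_of_pi h2, ?_, ?_, ?_⟩ h1V h2V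
  all_goals (push_cast; linarith)

end Crest.Agent.R214
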