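import Mathlib

/-!
# Row 214: finite certificates for the one-dimensional inequality
-/

set_option autoImplicit false

open MeasureTheory Set

namespace Crest.Agent.R214

/-- square of the capped 2-d profile (half units) -/
noncomputable def w2 (a : ℝ) : ℝ := min (Real.pi * a) (min 1 (Real.pi * (1 - a)))

/-- the capped 2-d profile (half units): `min (√(πa)) 1 (√(π(1-a)))` -/
noncomputable def I2 (a : ℝ) : ℝ := √(w2 a)

/-- the 3-d profile in half units for `V ≤ 1/2` -/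
noncomputable def mm (V : ℝ) : ℝ :=
  min (min ((36 * Real.pi) ^ ((1 : ℝ) / 3) * V ^ ((2 : ℝ) / 3)) (2 * √(Real.pi * V))) 2 / 2

/-- the vertical weight of the line method -/
noncomputable def hL (s0 sg a : ℝ) : ℝ := √(1 - (max (s0 + sg * a) 0 / I2 a) ^ 2)

/-- the line method gives a strict inequality -/
def Good (V a1 a2 : ℝ) : Prop :=
  ∃ s0 sg : ℝ, (∀ a ∈ Icc a1 a2, s0 + sg * a ≤ I2 a) ∧
    mm V < s0 + sg * V + ∫ a in a1..a2, hL s0 sg a

theorem hL_nonneg (s0 sg a : ℝ) : 0 ≤ hL s0 sg a := Real.sqrt_nonneg _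

theorem hL_le_one (s0 sg a : ℝ) : hL s0 sg a ≤ 1 := by
  unfold hL
  apply Real.sqrt_le_one.2
  nlinarith [sq_nonneg (max (s0 + sg * a) 0 / I2 a)]

theorem w2_measurable : Measurable w2 := by
  unfold w2
  fun_prop

theorem hL_measurable (s0 sg : ℝ) : Measurable (hL s0 sg) := by
  unfold hL I2
  have := w2_measurable
  fun_prop

theorem hL_intervalIntegrable (s0 sg x y : ℝ) : IntervalIntegrable (hL s0 sg) volume x y := by
  rw [intervalIntegrable_iff]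
  apply Measure.integrableOn_of_bounded (M := 1)
  · simp
  · exact (hL_measurable s0 sg).aestronglyMeasurable
  · filter_upwards with a
    rw [Real.norm_of_nonneg (hL_nonneg _ _ _)]
    exact hL_le_one _ _ _

theorem w2_concave {x y t : ℝ} (ht : 0 ≤ t) (ht1 : t ≤ 1) :
    (1 - t) * w2 x + t * w2 y ≤ w2 ((1 - t) * x + t * y) := by
  unfold w2
  have h1 : 0 ≤ 1 - t := by linarith
  refine le_min ?_ (le_min ?_ ?_)
  · have a1 := min_le_left (Real.pi * x) (min 1 (Real.pi * (1 - x)))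
    have a2 := min_le_left (Real.pi * y) (min 1 (Real.pi * (1 - y)))
    nlinarith [mul_le_mul_of_nonneg_left a1 h1, mul_le_mul_of_nonneg_left a2 ht]
  · have a1 := (min_le_right (Real.pi * x) (min 1 (Real.pi * (1 - x)))).trans (min_le_left _ _)
    have a2 := (min_le_right (Real.pi * y) (min 1 (Real.pi * (1 - y)))).trans (min_le_left _ _)
    nlinarith [mul_le_mul_of_nonneg_left a1 h1, mul_le_mul_of_nonneg_left a2 ht]
  · have a1 := (min_le_right (Real.pi * x) (min 1 (Real.pi * (1 - x)))).trans (min_le_right _ _)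
    have a2 := (min_le_right (Real.pi * y) (min 1 (Real.pi * (1 - y)))).trans (min_le_right _ _)
    nlinarith [mul_le_mul_of_nonneg_left a1 h1, mul_le_mul_of_nonneg_left a2 ht]

/-- pointwise certificate -/
def OK (s0 sg x q : ℝ) : Prop :=
  0 ≤ q ∧ q ≤ 1 ∧ 0 ≤ w2 x ∧ (max (s0 + sg * x) 0) ^ 2 ≤ (1 - q ^ 2) * w2 x

theorem OK.hL {s0 sg x q : ℝ} (h : OK s0 sg x q) : q ≤ hL s0 sg x := by
  obtain ⟨h0, h1, h2, h3⟩ := h
  unfold R214.hL
  apply Real.le_sqrt_of_sq_le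
  rw [div_pow, I2, Real.sq_sqrt h2]
  rcases h2.eq_or_lt with h4 | h4
  · rw [← h4]; simp only [div_zero, sub_zero]; nlinarith
  · have : max (s0 + sg * x) 0 ^ 2 / w2 x ≤ 1 - q ^ 2 := by
      rw [div_le_iff₀ h4]; exact h3
    linarith

theorem OK.le_I2 {s0 sg x q : ℝ} (h : OK s0 sg x q) : s0 + sg * x ≤ I2 x := by
  obtain ⟨h0, h1, h2, h3⟩ := h
  have h4 : max (s0 + sg * x) 0 ≤ I2 x := by
    apply Real.le_sqrt_of_sq_le
    nlinarith [mul_nonneg (sq_nonneg q) h2]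
  exact (le_max_left _ _).trans h4

theorem cs_aux {G1 G2 A B u v t : ℝ} (hA : 0 ≤ A) (hB : 0 ≤ B)
    (hu : 0 ≤ u) (hv : 0 ≤ v) (ht : 0 ≤ t) (ht1 : t ≤ 1) (h1 : G1 ^ 2 ≤ A * u)
    (h2 : G2 ^ 2 ≤ B * v) :
    ((1 - t) * G1 + t * G2) ^ 2 ≤ ((1 - t) * A + t * B) * ((1 - t) * u + t * v) := by
  have h3 : 2 * (G1 * G2) ≤ A * v + B * u := by
    have h4 : (G1 * G2) ^ 2 ≤ (A * u) * (B * v) := by
      rw [mul_pow]
      exact mul_le_mul h1 h2 (sq_nonneg _) (mul_nonneg hA hu)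
    have h5 : (2 * (G1 * G2)) ^ 2 ≤ (A * v + B * u) ^ 2 := by
      nlinarith [sq_nonneg (A * v - B * u)]
    exact (abs_le_of_sq_le_sq' h5 (by positivity)).2
  have h6 : 0 ≤ 1 - t := by linarith
  nlinarith [mul_le_mul_of_nonneg_left h1 (mul_nonneg h6 h6),
    mul_le_mul_of_nonneg_left h2 (mul_nonneg ht ht),
    mul_le_mul_of_nonneg_left h3 (mul_nonneg h6 ht)]

theorem OK.interp {s0 sg x y q r t : ℝ} (hx : OK s0 sg x q) (hy : OK s0 sg y r)
    (ht : 0 ≤ t) (ht1 : t ≤ 1) :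
    OK s0 sg ((1 - t) * x + t * y) ((1 - t) * q + t * r) := by
  obtain ⟨h0, h1, h2, h3⟩ := hx
  obtain ⟨k0, k1, k2, k3⟩ := hy
  have h6 : 0 ≤ 1 - t := by linarith
  have hw := w2_concave (x := x) (y := y) ht ht1
  have hw0 : 0 ≤ (1 - t) * w2 x + t * w2 y := by positivity
  refine ⟨by positivity, by nlinarith, hw0.trans hw, ?_⟩
  have e1 : 0 ≤ 1 - q ^ 2 := by nlinarith
  have e2 : 0 ≤ 1 - r ^ 2 := by nlinarith
  have h7 := cs_aux e1 e2 h2 k2
    ht ht1 h3 k3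
  have h8 : max (s0 + sg * ((1 - t) * x + t * y)) 0 ≤
      (1 - t) * max (s0 + sg * x) 0 + t * max (s0 + sg * y) 0 := by
    apply max_le
    · have a1 := le_max_left (s0 + sg * x) 0
      have a2 := le_max_left (s0 + sg * y) 0
      nlinarith [mul_le_mul_of_nonneg_left a1 h6, mul_le_mul_of_nonneg_left a2 ht]
    · have a1 := le_max_right (s0 + sg * x) 0
      have a2 := le_max_right (s0 + sg * y) 0
      positivity
  have h9 : (max (s0 + sg * ((1 - t) * x + t * y)) 0) ^ 2 ≤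
      ((1 - t) * max (s0 + sg * x) 0 + t * max (s0 + sg * y) 0) ^ 2 :=
    pow_le_pow_left₀ (le_max_right _ _) h8 2
  have h10 : (1 - t) * (1 - q ^ 2) + t * (1 - r ^ 2) ≤ 1 - ((1 - t) * q + t * r) ^ 2 := by
    nlinarith [mul_nonneg (mul_nonneg h6 ht) (sq_nonneg (q - r))]
  have h11 : 0 ≤ (1 - t) * (1 - q ^ 2) + t * (1 - r ^ 2) := by positivity
  calc _ ≤ _ := h9
    _ ≤ _ := h7
    _ ≤ (1 - ((1 - t) * q + t * r) ^ 2) * ((1 - t) * w2 x + t * w2 y) :=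
        mul_le_mul_of_nonneg_right h10 hw0
    _ ≤ _ := mul_le_mul_of_nonneg_left hw (h11.trans h10)

theorem OK.mid {s0 sg x y a : ℝ} (hx : OK s0 sg x 0) (hy : OK s0 sg y 0) (h1 : x ≤ a)
    (h2 : a ≤ y) : s0 + sg * a ≤ I2 a := by
  rcases (h1.trans h2).eq_or_lt with h | h
  · have : a = x := by linarith
    rw [this]; exact hx.le_I2
  · have hd : 0 < y - x := by linarith
    have ht : 0 ≤ (a - x) / (y - x) := div_nonneg (by linarith) hd.le
    have ht1 : (a - x) / (y - x) ≤ 1 := by rw [div_le_one hd]; linarith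
    have h3 := (hx.interp hy ht ht1).le_I2
    have e : (1 - (a - x) / (y - x)) * x + (a - x) / (y - x) * y = a := by
      field_simp; ring
    rw [e] at h3
    exact h3

theorem trap_le {s0 sg x y q r : ℝ} (hx : OK s0 sg x q) (hy : OK s0 sg y r) (hxy : x ≤ y) :
    (y - x) * (q + r) / 2 ≤ ∫ a in x..y, hL s0 sg a := by
  rcases hxy.eq_or_lt with h | h
  · subst h; simp
  · have hd : 0 < y - x := by linarith
    have h1 : ∫ a in x..y, (q + (r - q) / (y - x) * (a - x)) = (y - x) * (q + r) / 2 := by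
      rw [intervalIntegral.integral_add (by simp) (by
        apply Continuous.intervalIntegrable; fun_prop)]
      rw [intervalIntegral.integral_const_mul]
      rw [intervalIntegral.integral_sub (by simp) (by simp)]
      simp only [intervalIntegral.integral_const, integral_id, smul_eq_mul]
      field_simp
      ring
    rw [← h1]
    apply intervalIntegral.integral_mono_on hxy
    · apply Continuous.intervalIntegrable; fun_prop
    · exact hL_intervalIntegrable _ _ _ _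
    · intro a ha
      have ht : 0 ≤ (a - x) / (y - x) := div_nonneg (by linarith [ha.1]) hd.le
      have ht1 : (a - x) / (y - x) ≤ 1 := by rw [div_le_one hd]; linarith [ha.2]
      have h3 := (hx.interp hy ht ht1).hL
      have e : (1 - (a - x) / (y - x)) * x + (a - x) / (y - x) * y = a := by
        field_simp; ring
      rw [e] at h3
      refine le_trans (le_of_eq ?_) h3
      field_simp
      ring

/-! ### integer certificates: all abscissae, coefficients and `q`s in units of `10⁻⁴` -/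

/-- `10¹⁰ w2` from below -/
def WI (X : ℤ) : ℤ := min (3141592 * X) (min 10000000000 (3141592 * (10000 - X)))

/-- integer version of `OK` -/
def okI (S T X Q : ℤ) : Bool :=
  decide (0 ≤ Q) && (decide (Q ≤ 10000) && (decide (0 ≤ X) && (decide (X ≤ 10000) &&
    (decide (S * 10000 + T * X ≤ 0) ||
      decide ((S * 10000 + T * X) ^ 2 * 100 ≤ (100000000 - Q ^ 2) * WI X)))))

theorem WI_le {X : ℤ} (h0 : 0 ≤ X) (h1 : X ≤ 10000) :
    (WI X : ℝ) / 10 ^ 10 ≤ w2 ((X : ℝ) / 10 ^ 4) := by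
  have h0' : (0 : ℝ) ≤ X := by exact_mod_cast h0
  have h1' : (X : ℝ) ≤ 10000 := by exact_mod_cast h1
  have hpi := Real.pi_gt_d6
  unfold WI w2
  push_cast
  refine le_min ?_ (le_min ?_ ?_)
  · have := min_le_left (3141592 * (X : ℝ)) (min 10000000000 (3141592 * (10000 - (X : ℝ))))
    rw [div_le_iff₀ (by positivity)]
    nlinarith
  · have := (min_le_right (3141592 * (X : ℝ)) (min 10000000000 (3141592 * (10000 - (X : ℝ))))).trans
      (min_le_left _ _)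
    rw [div_le_iff₀ (by positivity)]
    nlinarith
  · have := (min_le_right (3141592 * (X : ℝ)) (min 10000000000 (3141592 * (10000 - (X : ℝ))))).trans
      (min_le_right _ _)
    rw [div_le_iff₀ (by positivity)]
    nlinarith

theorem okI_sound {S T X Q : ℤ} (h : okI S T X Q = true) :
    OK ((S : ℝ) / 10 ^ 4) ((T : ℝ) / 10 ^ 4) ((X : ℝ) / 10 ^ 4) ((Q : ℝ) / 10 ^ 4) := by
  simp only [okI, Bool.and_eq_true, Bool.or_eq_true, decide_eq_true_eq] at h
  obtain ⟨hQ0, hQ1, hX0, hX1, h⟩ := h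
  have hQ0' : (0 : ℝ) ≤ Q := by exact_mod_cast hQ0
  have hQ1' : (Q : ℝ) ≤ 10000 := by exact_mod_cast hQ1
  have hX0' : (0 : ℝ) ≤ X := by exact_mod_cast hX0
  have hX1' : (X : ℝ) ≤ 10000 := by exact_mod_cast hX1
  have hpi := Real.pi_gt_d6
  have hw : 0 ≤ w2 ((X : ℝ) / 10 ^ 4) := by
    unfold w2
    refine le_min (by positivity) (le_min zero_le_one (mul_nonneg Real.pi_pos.le ?_))
    rw [sub_nonneg, div_le_one (by positivity)]
    norm_num
    exact hX1'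
  refine ⟨by positivity, by rw [div_le_one (by positivity)]; norm_num; exact hQ1', hw, ?_⟩
  have hq : (0 : ℝ) ≤ 1 - ((Q : ℝ) / 10 ^ 4) ^ 2 := by
    have : ((Q : ℝ) / 10 ^ 4) ≤ 1 := by rw [div_le_one (by positivity)]; norm_num; exact hQ1'
    have h' : 0 ≤ ((Q : ℝ) / 10 ^ 4) := by positivity
    nlinarith
  rcases h with h | h
  · have h' : (S : ℝ) * 10000 + T * X ≤ 0 := by exact_mod_cast h
    have : max ((S : ℝ) / 10 ^ 4 + T / 10 ^ 4 * (X / 10 ^ 4)) 0 = 0 := by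
      apply max_eq_right
      have e : (S : ℝ) / 10 ^ 4 + T / 10 ^ 4 * (X / 10 ^ 4) = (S * 10000 + T * X) / 10 ^ 8 := by
        ring
      rw [e]
      exact div_nonpos_of_nonpos_of_nonneg h' (by positivity)
    rw [this]
    have := mul_nonneg hq hw
    simpa using this
  · have h' : ((S : ℝ) * 10000 + T * X) ^ 2 * 100 ≤ (100000000 - Q ^ 2) * WI X := by
      exact_mod_cast h
    have h3 : (max ((S : ℝ) / 10 ^ 4 + T / 10 ^ 4 * (X / 10 ^ 4)) 0) ^ 2 ≤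
        ((S : ℝ) / 10 ^ 4 + T / 10 ^ 4 * (X / 10 ^ 4)) ^ 2 := by
      rcases le_total ((S : ℝ) / 10 ^ 4 + T / 10 ^ 4 * (X / 10 ^ 4)) 0 with h4 | h4
      · rw [max_eq_right h4]; nlinarith [sq_nonneg ((S : ℝ) / 10 ^ 4 + T / 10 ^ 4 * (X / 10 ^ 4))]
      · rw [max_eq_left h4]
    refine h3.trans ?_
    have e : (S : ℝ) / 10 ^ 4 + T / 10 ^ 4 * (X / 10 ^ 4) = (S * 10000 + T * X) / 10 ^ 8 := by
      ring
    rw [e]
    have h5 := WI_le hX0 hX1
    have h6 := mul_le_mul_of_nonneg_left h5 hq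
    refine le_trans ?_ h6
    have e2 : (1 - ((Q : ℝ) / 10 ^ 4) ^ 2) * ((WI X : ℝ) / 10 ^ 10) =
        ((100000000 - Q ^ 2) * WI X) / 10 ^ 18 := by ring
    rw [e2, div_pow, div_le_div_iff₀ (by positivity) (by positivity)]
    nlinarith

/-- check of the nodes `(X, Q)` -/
def chkN (S T : ℤ) : List (ℤ × ℤ) → Bool
  | [] => true
  | [(x, q)] => okI S T x q
  | (x, q) :: (y, r) :: l => okI S T x q && (decide (x ≤ y) && chkN S T ((y, r) :: l))

/-- trapezoid sum in units of `10⁻⁸/2` -/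
def trap : List (ℤ × ℤ) → ℤ
  | [] => 0
  | [_] => 0
  | (x, q) :: (y, r) :: l => (y - x) * (q + r) + trap ((y, r) :: l)

/-- last abscissa -/
def lastX (x : ℤ) : List (ℤ × ℤ) → ℤ
  | [] => x
  | (y, _) :: l => lastX y l

/-- first and last abscissae in `[A, B]` -/
def endsIn (A B : ℤ) : List (ℤ × ℤ) → Bool
  | [] => true
  | (x, _) :: l => decide (A ≤ x) && decide ((lastX x l) ≤ B)

theorem chkN_head {S T x q : ℤ} {l : List (ℤ × ℤ)} (h : chkN S T ((x, q) :: l) = true) :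
    okI S T x q = true := by
  cases l with
  | nil => simpa [chkN] using h
  | cons p l =>
    obtain ⟨y, r⟩ := p
    simp only [chkN, Bool.and_eq_true] at h
    exact h.1

theorem trap_sound {S T : ℤ} : ∀ (l : List (ℤ × ℤ)) (x q : ℤ), chkN S T ((x, q) :: l) = true →
    (x ≤ (lastX x l)) ∧
    (trap ((x, q) :: l) : ℝ) / (2 * 10 ^ 8) ≤
      ∫ a in ((x : ℝ) / 10 ^ 4)..(((lastX x l) : ℝ) / 10 ^ 4),
        hL ((S : ℝ) / 10 ^ 4) ((T : ℝ) / 10 ^ 4) a := by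
  intro l
  induction l with
  | nil => intro x q h; simp [trap, lastX]
  | cons p l ih =>
    obtain ⟨y, r⟩ := p
    intro x q h
    have h0 := h
    simp only [chkN, Bool.and_eq_true, decide_eq_true_eq] at h
    obtain ⟨h1, h2, h3⟩ := h
    obtain ⟨i1, i2⟩ := ih y r h3
    have hy := chkN_head h3
    have e : lastX x ((y, r) :: l) = lastX y l := rfl
    rw [e]
    refine ⟨h2.trans i1, ?_⟩
    rw [← intervalIntegral.integral_add_adjacent_intervals
      (hL_intervalIntegrable _ _ ((x : ℝ) / 10 ^ 4) ((y : ℝ) / 10 ^ 4))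
      (hL_intervalIntegrable _ _ _ _)]
    have h4 : (x : ℝ) / 10 ^ 4 ≤ (y : ℝ) / 10 ^ 4 := by
      have : (x : ℝ) ≤ y := by exact_mod_cast h2
      gcongr
    have h5 := trap_le (okI_sound h1) (okI_sound hy) h4
    refine le_trans (le_of_eq ?_) (add_le_add h5 i2)
    simp only [trap]
    push_cast
    ring

/-- supporting lines of the profile -/
theorem mm_le_sphere {V p : ℝ} (hV : 0 ≤ V) (hp : 0 < p) :
    mm V ≤ p * V + (2 * Real.pi / 3) / p ^ 2 := by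
  have h1 : mm V ≤ (36 * Real.pi) ^ ((1 : ℝ) / 3) * V ^ ((2 : ℝ) / 3) / 2 := by
    unfold mm
    have := (min_le_left (min ((36 * Real.pi) ^ ((1 : ℝ) / 3) * V ^ ((2 : ℝ) / 3))
      (2 * √(Real.pi * V))) 2).trans (min_le_left _ _)
    linarith
  refine h1.trans ?_
  set K : ℝ := (36 * Real.pi) ^ ((1 : ℝ) / 3) with hK
  set X : ℝ := V ^ ((1 : ℝ) / 3) with hX
  have hpi := Real.pi_pos
  have hK3 : K ^ 3 = 36 * Real.pi := by
    rw [hK, ← Real.rpow_natCast, ← Real.rpow_mul (by positivity)]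
    norm_num
  have hX3 : X ^ 3 = V := by
    rw [hX, ← Real.rpow_natCast, ← Real.rpow_mul hV]
    norm_num
  have hX2 : V ^ ((2 : ℝ) / 3) = X ^ 2 := by
    rw [hX, ← Real.rpow_natCast, ← Real.rpow_mul hV]
    norm_num
  have hX0 : 0 ≤ X := Real.rpow_nonneg hV _
  have hK0 : 0 ≤ K := Real.rpow_nonneg (by positivity) _
  rw [hX2]
  have e : p * V + (2 * Real.pi / 3) / p ^ 2 - K * X ^ 2 / 2 =
      p * (X - K / (3 * p)) ^ 2 * (X + K / (6 * p)) := by
    have hpi' : Real.pi = K ^ 3 / 36 := by rw [hK3]; ring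
    rw [hpi', ← hX3]
    field_simp
    ring
  have : 0 ≤ p * (X - K / (3 * p)) ^ 2 * (X + K / (6 * p)) := by positivity
  linarith

theorem mm_le_tube {V p : ℝ} (hV : 0 ≤ V) (hp : 0 < p) :
    mm V ≤ p * V + Real.pi / (4 * p) := by
  have h1 : mm V ≤ √(Real.pi * V) := by
    unfold mm
    have := (min_le_left (min ((36 * Real.pi) ^ ((1 : ℝ) / 3) * V ^ ((2 : ℝ) / 3))
      (2 * √(Real.pi * V))) 2).trans (min_le_right _ _)
    linarith
  refine h1.trans ?_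
  have hpi := Real.pi_pos
  apply Real.sqrt_le_iff.2
  constructor
  · positivity
  · have : (p * V + Real.pi / (4 * p)) ^ 2 - Real.pi * V * 1 = (p * V - Real.pi / (4 * p)) ^ 2 := by
      field_simp
      ring
    nlinarith [sq_nonneg (p * V - Real.pi / (4 * p))]

theorem mm_le_one (V : ℝ) : mm V ≤ 1 := by
  unfold mm
  have := min_le_right (min ((36 * Real.pi) ^ ((1 : ℝ) / 3) * V ^ ((2 : ℝ) / 3))
      (2 * √(Real.pi * V))) 2
  linarith

/-- a supporting line: weights `l1, l2` (and `1-l1-l2` for the constant 1), slopes `p1, p2` -/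
def cst (l1 p1 l2 p2 : ℚ) : ℚ :=
  l1 * (2 * 3.141593 / 3) / p1 ^ 2 + l2 * 3.141593 / (4 * p2) + (1 - l1 - l2)

def okS (l1 p1 l2 p2 : ℚ) : Bool :=
  decide (0 ≤ l1) && (decide (0 ≤ l2) && (decide (l1 + l2 ≤ 1) &&
    (decide (0 < p1) && decide (0 < p2))))

theorem okS_sound {l1 p1 l2 p2 : ℚ} (h : okS l1 p1 l2 p2 = true) {V : ℝ} (hV : 0 ≤ V) :
    mm V ≤ ((l1 * p1 + l2 * p2 : ℚ) : ℝ) * V + ((cst l1 p1 l2 p2 : ℚ) : ℝ) := by
  simp only [okS, Bool.and_eq_true, decide_eq_true_eq] at h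
  obtain ⟨h1, h2, h3, h4, h5⟩ := h
  have h1' : (0 : ℝ) ≤ l1 := by exact_mod_cast h1
  have h2' : (0 : ℝ) ≤ l2 := by exact_mod_cast h2
  have h3' : (l1 : ℝ) + l2 ≤ 1 := by exact_mod_cast h3
  have h4' : (0 : ℝ) < p1 := by exact_mod_cast h4
  have h5' : (0 : ℝ) < p2 := by exact_mod_cast h5
  have a1 := mm_le_sphere hV h4'
  have a2 := mm_le_tube hV h5'
  have a3 := mm_le_one V
  have hpi := Real.pi_lt_d6
  have b1 : (2 * Real.pi / 3) / (p1 : ℝ) ^ 2 ≤ (2 * 3.141593 / 3) / (p1 : ℝ) ^ 2 := by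
    gcongr
  have b2 : Real.pi / (4 * (p2 : ℝ)) ≤ 3.141593 / (4 * (p2 : ℝ)) := by
    gcongr
  have c1 := mul_le_mul_of_nonneg_left (a1.trans (add_le_add_right b1 _)) h1'
  have c2 := mul_le_mul_of_nonneg_left (a2.trans (add_le_add_right b2 _)) h2'
  have c3 := mul_le_mul_of_nonneg_left a3 (by linarith : (0 : ℝ) ≤ 1 - l1 - l2)
  unfold cst
  push_cast
  have e : mm V = l1 * mm V + l2 * mm V + (1 - l1 - l2) * mm V := by ring
  rw [e]
  have d1 : (l1 : ℝ) * (p1 * V + (2 * 3.141593 / 3) / (p1 : ℝ) ^ 2) = l1 * p1 * V +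
    l1 * (2 * (3141593 / 1000000) / 3) / (p1 : ℝ) ^ 2 := by ring
  have d2 : (l2 : ℝ) * (p2 * V + 3.141593 / (4 * (p2 : ℝ))) = l2 * p2 * V +
    l2 * (3141593 / 1000000) / (4 * (p2 : ℝ)) := by ring
  norm_num at c1 c2 d1 d2 ⊢
  linarith

/-- leaf data -/
structure Lf where
  S : ℤ
  T : ℤ
  nd : List (ℤ × ℤ)
  l1 : ℚ
  p1 : ℚ
  l2 : ℚ
  p2 : ℚ

/-- a rectangle `a1 ∈ [al,al'], a2 ∈ [lo,hi], V ∈ [vl,vh]` in units `10⁻⁴` -/
structure Rc where
  al : ℤ
  al' : ℤ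
  lo : ℤ
  hi : ℤ
  vl : ℤ
  vh : ℤ

/-- membership -/
def Rc.mem (R : Rc) (V a1 a2 : ℝ) : Prop :=
  (R.al : ℝ) / 10 ^ 4 ≤ a1 ∧ a1 ≤ (R.al' : ℝ) / 10 ^ 4 ∧ (R.lo : ℝ) / 10 ^ 4 ≤ a2 ∧
    a2 ≤ (R.hi : ℝ) / 10 ^ 4 ∧ (R.vl : ℝ) / 10 ^ 4 ≤ V ∧ V ≤ (R.vh : ℝ) / 10 ^ 4

/-- the value check at the volume `v` with slack `d` -/
def Lf.val (L : Lf) (d : ℚ) (v : ℤ) : Bool :=
  decide ((L.l1 * L.p1 + L.l2 * L.p2 - L.T / 10 ^ 4) * (v / 10 ^ 4) + cst L.l1 L.p1 L.l2 L.p2 + d <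
    L.S / 10 ^ 4 + (trap L.nd : ℚ) / (2 * 10 ^ 8))

/-- check of a leaf with slack `d` -/
def Lf.chkd (L : Lf) (d : ℚ) (R : Rc) : Bool :=
  okI L.S L.T R.al 0 && (okI L.S L.T R.hi 0 && (chkN L.S L.T L.nd && (endsIn R.al' R.lo L.nd &&
    (okS L.l1 L.p1 L.l2 L.p2 && (decide (0 ≤ R.vl) && (L.val d R.vl && L.val d R.vh))))))

/-- what a leaf proves: an explicit line, uniformly in the rectangle -/
theorem Lf.soundd {L : Lf} {d : ℚ} {R : Rc} (h : L.chkd d R = true) :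
    (∀ a ∈ Icc ((R.al : ℝ) / 10 ^ 4) ((R.hi : ℝ) / 10 ^ 4),
      (L.S : ℝ) / 10 ^ 4 + (L.T : ℝ) / 10 ^ 4 * a ≤ I2 a) ∧
    ∀ {V a1 a2 : ℝ}, R.mem V a1 a2 → a1 ≤ a2 →
      mm V + d < (L.S : ℝ) / 10 ^ 4 + (L.T : ℝ) / 10 ^ 4 * V +
        ∫ a in a1..a2, hL ((L.S : ℝ) / 10 ^ 4) ((L.T : ℝ) / 10 ^ 4) a := by
  simp only [Lf.chkd, Bool.and_eq_true, decide_eq_true_eq] at h
  obtain ⟨c1, c2, c3, c4, c5, c6, c7, c8⟩ := h
  have k1 := okI_sound c1
  have k2 := okI_sound c2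
  simp only [Int.cast_zero, zero_div] at k1 k2
  refine ⟨fun a ha => k1.mid k2 ha.1 ha.2, ?_⟩
  intro V a1 a2 hm h12
  obtain ⟨m1, m2, m3, m4, m5, m6⟩ := hm
  have hint : (trap L.nd : ℝ) / (2 * 10 ^ 8) ≤
      ∫ a in a1..a2, hL ((L.S : ℝ) / 10 ^ 4) ((L.T : ℝ) / 10 ^ 4) a := by
    cases hnd : L.nd with
    | nil =>
      simp only [trap, Int.cast_zero, zero_div]
      exact intervalIntegral.integral_nonneg h12 fun a _ => hL_nonneg _ _ _
    | cons p l =>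
      obtain ⟨x, q⟩ := p
      rw [hnd] at c3 c4
      obtain ⟨t1, t2⟩ := trap_sound l x q c3
      simp only [endsIn, Bool.and_eq_true, decide_eq_true_eq] at c4
      obtain ⟨e1, e2⟩ := c4
      have e1' : (R.al' : ℝ) / 10 ^ 4 ≤ (x : ℝ) / 10 ^ 4 := by
        have : (R.al' : ℝ) ≤ x := by exact_mod_cast e1
        gcongr
      have e2' : ((lastX x l : ℤ) : ℝ) / 10 ^ 4 ≤ (R.lo : ℝ) / 10 ^ 4 := by
        have : ((lastX x l : ℤ) : ℝ) ≤ R.lo := by exact_mod_cast e2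
        gcongr
      refine t2.trans ?_
      apply intervalIntegral.integral_mono_interval (m2.trans e1') ?_ (e2'.trans m3)
      · filter_upwards with a using hL_nonneg _ _ _
      · exact hL_intervalIntegrable _ _ _ _
      · have : (x : ℝ) ≤ ((lastX x l : ℤ) : ℝ) := by exact_mod_cast t1
        gcongr
  have hV0 : 0 ≤ V := by
    refine le_trans ?_ m5
    have : (0 : ℝ) ≤ R.vl := by exact_mod_cast c6
    positivity
  have hs := okS_sound c5 hV0
  simp only [Lf.val, decide_eq_true_eq] at c7 c8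
  have c7' : ((L.l1 * L.p1 + L.l2 * L.p2 : ℚ) - (L.T : ℝ) / 10 ^ 4) * ((R.vl : ℝ) / 10 ^ 4) +
      (cst L.l1 L.p1 L.l2 L.p2 : ℚ) + d < (L.S : ℝ) / 10 ^ 4 + (trap L.nd : ℝ) / (2 * 10 ^ 8) := by
    have := (Rat.cast_lt (K := ℝ)).2 c7
    push_cast at this ⊢
    exact this
  have c8' : ((L.l1 * L.p1 + L.l2 * L.p2 : ℚ) - (L.T : ℝ) / 10 ^ 4) * ((R.vh : ℝ) / 10 ^ 4) +
      (cst L.l1 L.p1 L.l2 L.p2 : ℚ) + d < (L.S : ℝ) / 10 ^ 4 + (trap L.nd : ℝ) / (2 * 10 ^ 8) := by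
    have := (Rat.cast_lt (K := ℝ)).2 c8
    push_cast at this ⊢
    exact this
  set D : ℝ := ((L.l1 * L.p1 + L.l2 * L.p2 : ℚ) : ℝ) - (L.T : ℝ) / 10 ^ 4 with hD
  have h3 : D * V + (cst L.l1 L.p1 L.l2 L.p2 : ℚ) + d <
      (L.S : ℝ) / 10 ^ 4 + (trap L.nd : ℝ) / (2 * 10 ^ 8) := by
    rcases le_total 0 D with hd | hd
    · have := mul_le_mul_of_nonneg_left m6 hd
      linarith
    · have := mul_le_mul_of_nonpos_left m5 hd
      linarith
  have h4 : ((L.l1 * L.p1 + L.l2 * L.p2 : ℚ) : ℝ) * V = D * V + (L.T : ℝ) / 10 ^ 4 * V := by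
    rw [hD]; ring
  linarith

/-- check of a leaf -/
def Lf.chk (L : Lf) (R : Rc) : Bool := L.chkd 0 R

theorem Lf.sound {L : Lf} {R : Rc} (h : L.chk R = true) {V a1 a2 : ℝ} (hm : R.mem V a1 a2)
    (h1 : a1 ≤ V) (h2 : V ≤ a2) : Good V a1 a2 := by
  obtain ⟨k1, k2⟩ := Lf.soundd (L := L) (d := 0) h
  refine ⟨(L.S : ℝ) / 10 ^ 4, (L.T : ℝ) / 10 ^ 4, fun a ha => k1 a ⟨hm.1.trans ha.1,
    ha.2.trans hm.2.2.2.1⟩, ?_⟩
  have := k2 hm (h1.trans h2)
  simpa using this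

/-- decision tree -/
inductive Tr
  | leaf (L : Lf)
  | emp
  | sa (x : ℤ) (l r : Tr)
  | sb (x : ℤ) (l r : Tr)
  | sv (x : ℤ) (l r : Tr)

/-- check of a tree -/
def Tr.chk : Tr → Rc → Bool
  | .leaf L, R => L.chk R
  | .emp, R => decide (R.vh < R.al) || decide (R.hi < R.vl)
  | .sa x l r, R => l.chk { R with al' := x } && r.chk { R with al := x }
  | .sb x l r, R => l.chk { R with hi := x } && r.chk { R with lo := x }
  | .sv x l r, R => l.chk { R with vh := x } && r.chk { R with vl := x }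

theorem Tr.sound : ∀ (t : Tr) (R : Rc), t.chk R = true → ∀ {V a1 a2 : ℝ}, R.mem V a1 a2 →
    a1 ≤ V → V ≤ a2 → Good V a1 a2 := by
  intro t
  induction t with
  | leaf L => intro R h V a1 a2 hm h1 h2; exact L.sound h hm h1 h2
  | emp =>
    intro R h V a1 a2 hm h1 h2
    exfalso
    obtain ⟨m1, m2, m3, m4, m5, m6⟩ := hm
    simp only [Tr.chk, Bool.or_eq_true, decide_eq_true_eq] at h
    rcases h with h | h
    · have h' : (R.vh : ℝ) < R.al := by exact_mod_cast h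
      have : (R.vh : ℝ) / 10 ^ 4 < (R.al : ℝ) / 10 ^ 4 := by gcongr
      linarith
    · have h' : (R.hi : ℝ) < R.vl := by exact_mod_cast h
      have : (R.hi : ℝ) / 10 ^ 4 < (R.vl : ℝ) / 10 ^ 4 := by gcongr
      linarith
  | sa x l r ihl ihr =>
    intro R h V a1 a2 hm h1 h2
    obtain ⟨m1, m2, m3, m4, m5, m6⟩ := hm
    simp only [Tr.chk, Bool.and_eq_true] at h
    rcases le_total a1 ((x : ℝ) / 10 ^ 4) with hx | hx
    · exact ihl _ h.1 ⟨m1, hx, m3, m4, m5, m6⟩ h1 h2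
    · exact ihr _ h.2 ⟨hx, m2, m3, m4, m5, m6⟩ h1 h2
  | sb x l r ihl ihr =>
    intro R h V a1 a2 hm h1 h2
    obtain ⟨m1, m2, m3, m4, m5, m6⟩ := hm
    simp only [Tr.chk, Bool.and_eq_true] at h
    rcases le_total a2 ((x : ℝ) / 10 ^ 4) with hx | hx
    · exact ihl _ h.1 ⟨m1, m2, m3, hx, m5, m6⟩ h1 h2
    · exact ihr _ h.2 ⟨m1, m2, hx, m4, m5, m6⟩ h1 h2
  | sv x l r ihl ihr =>
    intro R h V a1 a2 hm h1 h2
    obtain ⟨m1, m2, m3, m4, m5, m6⟩ := hm
    simp only [Tr.chk, Bool.and_eq_true] at h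
    rcases le_total V ((x : ℝ) / 10 ^ 4) with hx | hx
    · exact ihl _ h.1 ⟨m1, m2, m3, m4, m5, hx⟩ h1 h2
    · exact ihr _ h.2 ⟨m1, m2, m3, m4, hx, m6⟩ h1 h2

/-- check of a tree without `V`-splits, with slack `d` and an extra test `pr` of the leaves:
one line for all `V` of the rectangle -/
def Tr.chkU (pr : Lf → Bool) (d : ℚ) : Tr → Rc → Bool
  | .leaf L, R => pr L && L.chkd d R
  | .emp, _ => false
  | .sa x l r, R => l.chkU pr d { R with al' := x } && r.chkU pr d { R with al := x }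
  | .sb x l r, R => l.chkU pr d { R with hi := x } && r.chkU pr d { R with lo := x }
  | .sv _ _ _, _ => false

theorem Tr.soundU (pr : Lf → Bool) (d : ℚ) : ∀ (t : Tr) (R : Rc), t.chkU pr d R = true →
    ∀ {a1 a2 : ℝ}, (R.al : ℝ) / 10 ^ 4 ≤ a1 → a1 ≤ (R.al' : ℝ) / 10 ^ 4 →
      (R.lo : ℝ) / 10 ^ 4 ≤ a2 → a2 ≤ (R.hi : ℝ) / 10 ^ 4 → a1 ≤ a2 →
      ∃ L : Lf, pr L = true ∧
        (∀ a ∈ Icc a1 a2, (L.S : ℝ) / 10 ^ 4 + (L.T : ℝ) / 10 ^ 4 * a ≤ I2 a) ∧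
        ∀ V : ℝ, (R.vl : ℝ) / 10 ^ 4 ≤ V → V ≤ (R.vh : ℝ) / 10 ^ 4 →
          mm V + d < (L.S : ℝ) / 10 ^ 4 + (L.T : ℝ) / 10 ^ 4 * V +
            ∫ a in a1..a2, hL ((L.S : ℝ) / 10 ^ 4) ((L.T : ℝ) / 10 ^ 4) a := by
  intro t
  induction t with
  | leaf L =>
    intro R h a1 a2 m1 m2 m3 m4 h12
    simp only [Tr.chkU, Bool.and_eq_true] at h
    obtain ⟨k1, k2⟩ := Lf.soundd h.2
    exact ⟨L, h.1, fun a ha => k1 a ⟨m1.trans ha.1, ha.2.trans m4⟩,
      fun V v1 v2 => k2 ⟨m1, m2, m3, m4, v1, v2⟩ h12⟩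
  | emp =>
    intro R h
    simp [Tr.chkU] at h
  | sa x l r ihl ihr =>
    intro R h a1 a2 m1 m2 m3 m4 h12
    simp only [Tr.chkU, Bool.and_eq_true] at h
    rcases le_total a1 ((x : ℝ) / 10 ^ 4) with hx | hx
    · exact ihl _ h.1 m1 hx m3 m4 h12
    · exact ihr _ h.2 hx m2 m3 m4 h12
  | sb x l r ihl ihr =>
    intro R h a1 a2 m1 m2 m3 m4 h12
    simp only [Tr.chkU, Bool.and_eq_true] at h
    rcases le_total a2 ((x : ℝ) / 10 ^ 4) with hx | hx
    · exact ihl _ h.1 m1 m2 m3 hx h12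
    · exact ihr _ h.2 m1 m2 hx m4 h12
  | sv x l r _ _ =>
    intro R h
    simp [Tr.chkU] at h

/-- example of use -/
example : Tr.chk (.leaf ⟨0, 0, [(0, 10000), (10000, 10000)], 0, 1, 0, 1⟩)
    ⟨0, 0, 10000, 10000, 4000, 5000⟩ = false := by decide +kernel

end Crest.Agent.R214
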