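import Crest.Agent.R214.SD2
import Crest.Agent.R214.Box

/-! Row 214 (helper12): the line method with an affine line under `I2`, in the form `hL`. -/

set_option autoImplicit false

open MeasureTheory Set Filter Topology

namespace Crest.Agent.R214

namespace Line

/-- the horizontal weight -/
noncomputable def cL (s0 sg a : ℝ) : ℝ := max (s0 + sg * a) 0 / I2 a

theorem hL_eq (s0 sg a : ℝ) : hL s0 sg a = √(1 - cL s0 sg a ^ 2) := rfl

theorem I2_nn (x : ℝ) : 0 ≤ I2 x := Real.sqrt_nonneg _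

theorem I2_continuous : Continuous I2 := by unfold I2 w2; fun_prop

theorem I2_ge {y : ℝ} (h0 : 0 ≤ y) (h1 : y ≤ 1) : √(y * (1 - y)) ≤ I2 y := by
  unfold I2 w2
  have hpi := Real.pi_gt_three
  refine Real.sqrt_le_sqrt (le_min ?_ (le_min ?_ ?_))
  · nlinarith [mul_nonneg h0 (sub_nonneg.2 h1)]
  · nlinarith [mul_nonneg h0 (sub_nonneg.2 h1)]
  · nlinarith [mul_nonneg h0 (sub_nonneg.2 h1), mul_nonneg (sub_nonneg.2 h1) (sub_nonneg.2 h1)]

theorem I2_pos' {y : ℝ} (h0 : 0 < y) (h1 : y < 1) : 0 < I2 y :=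
  lt_of_lt_of_le (Real.sqrt_pos.2 (mul_pos h0 (by linarith))) (I2_ge h0.le h1.le)

theorem I2_zero : I2 0 = 0 := by
  unfold I2 w2
  rw [Real.sqrt_eq_zero']
  exact (min_le_left _ _).trans (by simp)

theorem I2_one : I2 1 = 0 := by
  unfold I2 w2
  rw [Real.sqrt_eq_zero']
  exact (min_le_right _ _).trans ((min_le_right _ _).trans (by simp))

theorem cL_nonneg (s0 sg a : ℝ) : 0 ≤ cL s0 sg a := div_nonneg (le_max_right _ _) (I2_nn _)

theorem cL_le_one {s0 sg a : ℝ} (h : s0 + sg * a ≤ I2 a) : cL s0 sg a ≤ 1 :=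
  div_le_one_of_le₀ (max_le h (I2_nn _)) (I2_nn _)

/-- near `0` -/
theorem cL_le_left {s0 sg y : ℝ} (h : s0 ≤ 0) (h0 : 0 ≤ y) (h1 : y ≤ 1 / 2) :
    cL s0 sg y ≤ |sg| * √(2 * y) := by
  rcases h0.eq_or_lt with h2 | h2
  · rw [← h2]
    unfold cL
    rw [I2_zero, div_zero]
    positivity
  unfold cL
  have hI : 0 < I2 y := I2_pos' h2 (by linarith)
  rw [div_le_iff₀ hI]
  have h3 : √(y * (1 - y)) ≤ I2 y := I2_ge h0 (by linarith)
  have h4 : √(y / 2) ≤ I2 y := (Real.sqrt_le_sqrt (by nlinarith)).trans h3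
  have h5 : √(2 * y) * √(y / 2) = y := by
    rw [← Real.sqrt_mul (by positivity)]
    have : 2 * y * (y / 2) = y ^ 2 := by ring
    rw [this, Real.sqrt_sq h0]
  have h6 : |sg| * y ≤ |sg| * √(2 * y) * I2 y := by
    have h7 : |sg| * √(2 * y) * √(y / 2) ≤ |sg| * √(2 * y) * I2 y :=
      mul_le_mul_of_nonneg_left h4 (by positivity)
    rw [mul_assoc, h5] at h7
    exact h7
  refine (max_le ?_ (by positivity)).trans h6
  have := le_abs_self sg
  nlinarith

/-- near `1` -/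
theorem cL_le_right {s0 sg y : ℝ} (h : s0 + sg ≤ 0) (h0 : 1 / 2 ≤ y) (h1 : y ≤ 1) :
    cL s0 sg y ≤ |sg| * √(2 * (1 - y)) := by
  rcases h1.eq_or_lt with h2 | h2
  · rw [h2]
    unfold cL
    rw [I2_one, div_zero]
    positivity
  unfold cL
  have hI : 0 < I2 y := I2_pos' (by linarith) h2
  rw [div_le_iff₀ hI]
  have h3 : √(y * (1 - y)) ≤ I2 y := I2_ge (by linarith) h1
  have h4 : √((1 - y) / 2) ≤ I2 y := (Real.sqrt_le_sqrt (by nlinarith)).trans h3
  have h8 : 0 ≤ 1 - y := by linarith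
  have h5 : √(2 * (1 - y)) * √((1 - y) / 2) = 1 - y := by
    rw [← Real.sqrt_mul (by positivity)]
    have : 2 * (1 - y) * ((1 - y) / 2) = (1 - y) ^ 2 := by ring
    rw [this, Real.sqrt_sq h8]
  have h6 : |sg| * (1 - y) ≤ |sg| * √(2 * (1 - y)) * I2 y := by
    have h7 : |sg| * √(2 * (1 - y)) * √((1 - y) / 2) ≤ |sg| * √(2 * (1 - y)) * I2 y :=
      mul_le_mul_of_nonneg_left h4 (by positivity)
    rw [mul_assoc, h5] at h7
    exact h7
  refine (max_le ?_ (by positivity)).trans h6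
  have := neg_abs_le sg
  nlinarith

theorem cL_continuousOn {s0 sg a1 a2 : ℝ} (h0 : 0 ≤ a1) (h1 : a2 ≤ 1)
    (hg : ∀ a ∈ Icc a1 a2, s0 + sg * a ≤ I2 a) : ContinuousOn (cL s0 sg) (Icc a1 a2) := by
  intro y hy
  have hy0 : 0 ≤ y := h0.trans hy.1
  have hy1 : y ≤ 1 := hy.2.trans h1
  rcases hy0.eq_or_lt with h2 | h2
  · -- y = 0
    subst h2
    have hs : s0 ≤ 0 := by
      have := hg 0 hy
      rw [I2_zero] at this
      linarith
    have e0 : cL s0 sg 0 = 0 := by unfold cL; rw [I2_zero, div_zero]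
    show Tendsto (cL s0 sg) (𝓝[Icc a1 a2] 0) (𝓝 (cL s0 sg 0))
    rw [e0]
    have ht : Tendsto (fun y : ℝ => |sg| * √(2 * y)) (𝓝[Icc a1 a2] 0) (𝓝 0) := by
      have hc : Continuous fun y : ℝ => |sg| * √(2 * y) := by fun_prop
      have := hc.tendsto 0
      simp only [mul_zero, Real.sqrt_zero] at this
      exact this.mono_left nhdsWithin_le_nhds
    refine squeeze_zero' (Eventually.of_forall fun y => cL_nonneg _ _ _) ?_ ht
    have h3 : ∀ᶠ y in 𝓝[Icc a1 a2] (0 : ℝ), y < 1 / 2 :=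
      nhdsWithin_le_nhds (Iio_mem_nhds (by norm_num))
    filter_upwards [h3, self_mem_nhdsWithin] with z hz hz2
    exact cL_le_left hs (h0.trans hz2.1) hz.le
  rcases hy1.eq_or_lt with h3 | h3
  · subst h3
    have hs : s0 + sg ≤ 0 := by
      have := hg 1 hy
      rw [I2_one] at this
      linarith
    have e0 : cL s0 sg 1 = 0 := by unfold cL; rw [I2_one, div_zero]
    show Tendsto (cL s0 sg) (𝓝[Icc a1 a2] 1) (𝓝 (cL s0 sg 1))
    rw [e0]
    have ht : Tendsto (fun y : ℝ => |sg| * √(2 * (1 - y))) (𝓝[Icc a1 a2] 1) (𝓝 0) := by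
      have hc : Continuous fun y : ℝ => |sg| * √(2 * (1 - y)) := by fun_prop
      have := hc.tendsto 1
      simp only [sub_self, mul_zero, Real.sqrt_zero] at this
      exact this.mono_left nhdsWithin_le_nhds
    refine squeeze_zero' (Eventually.of_forall fun y => cL_nonneg _ _ _) ?_ ht
    have h4 : ∀ᶠ y in 𝓝[Icc a1 a2] (1 : ℝ), 1 / 2 < y :=
      nhdsWithin_le_nhds (Ioi_mem_nhds (by norm_num))
    filter_upwards [h4, self_mem_nhdsWithin] with z hz hz2
    exact cL_le_right hs hz.le (hz2.2.trans h1)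
  · refine ContinuousAt.continuousWithinAt ?_
    unfold cL
    refine ContinuousAt.div ?_ I2_continuous.continuousAt (I2_pos' h2 h3).ne'
    fun_prop

end Line

open Line

/-- **LINE METHOD** with an affine line under `I2` -/
theorem SD.line {P a1 a2 s0 sg : ℝ} {a J : ℝ → ℝ} (S : SD P a J)
    (hJ : ∀ᵐ x : ℝ, I2 (a x) ≤ J x) (h0 : 0 ≤ a1) (h12 : a1 ≤ a2) (h1 : a2 ≤ 1)
    (hae : ∀ᵐ x : ℝ, a1 ≤ a x ∧ a x ≤ a2)
    (ha1 : ∀ δ > 0, 0 < volume ({x | a x < a1 + δ} ∩ Ico 0 1))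
    (ha2 : ∀ δ > 0, 0 < volume ({x | a2 - δ < a x} ∩ Ico 0 1))
    (hg : ∀ x ∈ Icc a1 a2, s0 + sg * x ≤ I2 x) :
    s0 + sg * (∫ x in (0:ℝ)..1, a x) + ∫ x in a1..a2, hL s0 sg x ≤ P / 2 := by
  have hc := cL_continuousOn h0 h1 hg
  refine S.lm_affine h12 hae ha1 ha2 (cL s0 sg) (hL s0 sg) hc ?_ (fun x _ => cL_nonneg _ _ _)
    (fun x _ => hL_nonneg _ _ _) (fun x hx => ?_) s0 sg ?_
  · show ContinuousOn (fun x => √(1 - cL s0 sg x ^ 2)) (Icc a1 a2)
    exact (continuousOn_const.sub (hc.pow 2)).sqrt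
  · rw [hL_eq, Real.sq_sqrt]
    · linarith
    · have h2 := cL_le_one (hg x hx)
      have h3 := cL_nonneg s0 sg x
      nlinarith
  · filter_upwards [hae, hJ] with x hx hJx
    have h2 : s0 + sg * a x ≤ cL s0 sg (a x) * I2 (a x) := by
      rcases (I2_nn (a x)).eq_or_lt with h3 | h3
      · have := hg _ hx
        rw [← h3] at this ⊢
        rw [mul_zero]
        exact this
      · unfold cL
        rw [div_mul_cancel₀ _ h3.ne']
        exact le_max_left _ _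
    exact h2.trans (mul_le_mul_of_nonneg_left hJx (cL_nonneg _ _ _))

end Crest.Agent.R214
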