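import Crest.Agent.R214.Box

/-!
# Row 214: the planar one-dimensional inequality (closed form)
-/

set_option autoImplicit false

open MeasureTheory Set

namespace Crest.Agent.R214

/-- vertical weight for the uncapped profile `√(πa)` -/
noncomputable def hP (s0 sg a : ℝ) : ℝ := √(1 - (max (s0 + sg * a) 0 / √(Real.pi * a)) ^ 2)

theorem hP_nonneg (s0 sg a : ℝ) : 0 ≤ hP s0 sg a := Real.sqrt_nonneg _

theorem hP_le_one (s0 sg a : ℝ) : hP s0 sg a ≤ 1 := by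
  unfold hP
  apply Real.sqrt_le_one.2
  nlinarith [sq_nonneg (max (s0 + sg * a) 0 / √(Real.pi * a))]

theorem hP_measurable (s0 sg : ℝ) : Measurable (hP s0 sg) := by
  unfold hP
  fun_prop

theorem hP_intervalIntegrable (s0 sg x y : ℝ) : IntervalIntegrable (hP s0 sg) volume x y := by
  rw [intervalIntegrable_iff]
  apply Measure.integrableOn_of_bounded (M := 1)
  · simp
  · exact (hP_measurable s0 sg).aestronglyMeasurable
  · filter_upwards with a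
    rw [Real.norm_of_nonneg (hP_nonneg _ _ _)]
    exact hP_le_one _ _ _

theorem I2_eq_sqrt {a : ℝ} (_h0 : 0 ≤ a) (h1 : a ≤ 1 / Real.pi) : I2 a = √(Real.pi * a) := by
  unfold I2 w2
  have hpi := Real.pi_pos
  have h3 := Real.pi_gt_three
  have e1 : Real.pi * a ≤ 1 := by
    calc Real.pi * a ≤ Real.pi * (1 / Real.pi) := by gcongr
      _ = 1 := by field_simp
  have e2 : Real.pi * a ≤ Real.pi * (1 - a) := by
    apply mul_le_mul_of_nonneg_left _ hpi.le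
    nlinarith
  rw [min_eq_left (le_min e1 e2)]

theorem hL_eq_hP {s0 sg a : ℝ} (h0 : 0 ≤ a) (h1 : a ≤ 1 / Real.pi) :
    hL s0 sg a = hP s0 sg a := by
  unfold hL hP
  rw [I2_eq_sqrt h0 h1]

/-- comparison function (in the radius) -/
noncomputable def FE (e s d p r : ℝ) : ℝ :=
  -(1 / 6) * (1 + e * s / d) * (√(d ^ 2 - (r - p / r) ^ 2)) ^ 3 +
    (1 / 4) * √(d ^ 2 - (r - p / r) ^ 2) *
      ((r - p / r) * (r + p / r) - e * s * (r - p / r) ^ 2 / d)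

theorem FE_hasDerivAt {e s d p r : ℝ} (hd : 0 < d) (hr : 0 < r)
    (hq : 0 < d ^ 2 - (r - p / r) ^ 2) :
    HasDerivAt (FE e s d p)
      (√(d ^ 2 - (r - p / r) ^ 2) * r - (r - p / r) ^ 2 * (r + p / r) *
        ((r + p / r) - e * s * (r - p / r) / d) / (4 * r * √(d ^ 2 - (r - p / r) ^ 2))) r := by
  have hr' : r ≠ 0 := hr.ne'
  have hk : HasDerivAt (fun r : ℝ => p / r) (-p / r ^ 2) r := by
    have h := (hasDerivAt_inv hr').const_mul p
    have e1 : (fun y : ℝ => p * y⁻¹) = fun r : ℝ => p / r := by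
      funext y; rw [div_eq_mul_inv]
    rw [e1] at h
    exact h.congr_deriv (by field_simp)
  have hz : HasDerivAt (fun r : ℝ => r - p / r) ((r + p / r) / r) r :=
    ((hasDerivAt_id' r).fun_sub hk).congr_deriv (by field_simp; ring)
  have hw : HasDerivAt (fun r : ℝ => r + p / r) ((r - p / r) / r) r :=
    ((hasDerivAt_id' r).fun_add hk).congr_deriv (by field_simp; ring)
  have hq0 : √(d ^ 2 - (r - p / r) ^ 2) ≠ 0 := (Real.sqrt_pos.2 hq).ne'
  have hqq : HasDerivAt (fun r : ℝ => √(d ^ 2 - (r - p / r) ^ 2))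
      (-((r - p / r) * ((r + p / r) / r)) / √(d ^ 2 - (r - p / r) ^ 2)) r := by
    have := ((hz.fun_pow 2).const_sub (d ^ 2)).sqrt hq.ne'
    refine this.congr_deriv ?_
    generalize √(d ^ 2 - (r - p / r) ^ 2) = q at hq0
    generalize (r + p / r) / r = u
    generalize r - p / r = v
    simp only [Nat.cast_ofNat, Nat.add_one_sub_one, pow_one]
    field_simp
  have h := ((hqq.fun_pow 3).const_mul (-(1 / 6) * (1 + e * s / d))).fun_add
    ((hqq.const_mul (1 / 4)).fun_mul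
      ((hz.fun_mul hw).fun_sub (((hz.fun_pow 2).const_mul (e * s)).div_const d)))
  refine h.congr_deriv ?_
  have h2 : (r - p / r) + (r + p / r) = 2 * r := by ring
  generalize √(d ^ 2 - (r - p / r) ^ 2) = q at hq0
  generalize r - p / r = z at h2 ⊢
  generalize r + p / r = w at h2 ⊢
  have h3 : q * r = q * (z + w) ^ 2 / (4 * r) := by
    rw [h2]; field_simp; ring
  rw [h3]
  simp only [Nat.cast_ofNat, Nat.add_one_sub_one, pow_one]
  field_simp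
  ring

/-- the derivative is at most `q r` -/
theorem FE_deriv_le {e s d p r : ℝ} (he : e = 1 ∨ e = -1) (hs : 0 < s) (hd : 0 < d) (hp : 0 ≤ p)
    (hsd : s ^ 2 = d ^ 2 + 4 * p) (hr : 0 < r) (hq : 0 < d ^ 2 - (r - p / r) ^ 2) :
    √(d ^ 2 - (r - p / r) ^ 2) * r - (r - p / r) ^ 2 * (r + p / r) *
        ((r + p / r) - e * s * (r - p / r) / d) / (4 * r * √(d ^ 2 - (r - p / r) ^ 2)) ≤
      √(d ^ 2 - (r - p / r) ^ 2) * r := by
  have hw : 0 < r + p / r := by positivity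
  have hzw : (r + p / r) ^ 2 = (r - p / r) ^ 2 + 4 * p := by field_simp; ring
  have hq0 : 0 < √(d ^ 2 - (r - p / r) ^ 2) := Real.sqrt_pos.2 hq
  set z := r - p / r
  set w := r + p / r
  have h1 : (s * |z| / d) ^ 2 ≤ w ^ 2 := by
    rw [div_pow, mul_pow, sq_abs, div_le_iff₀ (by positivity), hzw, hsd]
    nlinarith
  have h2 : s * |z| / d ≤ w := (abs_le_of_sq_le_sq' h1 hw.le).2
  have h3 : 0 ≤ w - e * s * z / d := by
    have : e * s * z / d ≤ s * |z| / d := by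
      apply div_le_div_of_nonneg_right _ hd.le
      rcases he with rfl | rfl
      · nlinarith [le_abs_self z]
      · nlinarith [neg_le_abs z]
    linarith
  have : 0 ≤ z ^ 2 * w * (w - e * s * z / d) /
      (4 * r * √(d ^ 2 - z ^ 2)) := by positivity
  linarith

theorem hP_eq {s d p a : ℝ} (hs : 0 < s) (hp : 0 ≤ p) (hsd : s ^ 2 = d ^ 2 + 4 * p)
    (ha : 0 < a) :
    hP (Real.pi * p / s) (1 / s) a =
      √(d ^ 2 - (√(a / Real.pi) - p / √(a / Real.pi)) ^ 2) / s := by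
  have hpi := Real.pi_pos
  set r := √(a / Real.pi) with hr
  have hr0 : 0 < r := Real.sqrt_pos.2 (by positivity)
  have hra : a = Real.pi * r ^ 2 := by
    rw [hr, Real.sq_sqrt (by positivity)]; field_simp
  have h1 : √(Real.pi * a) = Real.pi * r := by
    rw [hra, show Real.pi * (Real.pi * r ^ 2) = (Real.pi * r) ^ 2 by ring]
    exact Real.sqrt_sq (by positivity)
  unfold hP
  rw [h1, max_eq_left (by positivity)]
  have h2 : (Real.pi * p / s + 1 / s * a) / (Real.pi * r) = (r + p / r) / s := by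
    rw [hra]; field_simp; ring
  rw [h2]
  have h3 : 1 - ((r + p / r) / s) ^ 2 = (d ^ 2 - (r - p / r) ^ 2) / s ^ 2 := by
    have : (r + p / r) ^ 2 = (r - p / r) ^ 2 + 4 * p := by field_simp; ring
    have hs2 : s ^ 2 ≠ 0 := by positivity
    rw [div_pow, this, eq_div_iff hs2, sub_mul, div_mul_cancel₀ _ hs2]
    linarith
  rw [h3, Real.sqrt_div' _ (by positivity), Real.sqrt_sq hs.le]

theorem FE_cont {e s d p α β : ℝ} (h : 0 < α ∨ p = 0) :
    ContinuousOn (fun a => 2 * Real.pi / s * FE e s d p (√(a / Real.pi))) (Icc α β) := by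
  rcases h with h | h
  · have hpi := Real.pi_pos
    have hk : ContinuousOn (fun a : ℝ => p / √(a / Real.pi)) (Icc α β) := by
      apply ContinuousOn.div continuousOn_const (by fun_prop)
      intro a ha
      have : 0 < a := h.trans_le ha.1
      exact (Real.sqrt_pos.2 (by positivity)).ne'
    unfold FE
    fun_prop
  · subst h
    unfold FE
    simp only [zero_div, sub_zero, add_zero]
    fun_prop

theorem half_le {e s d p α β : ℝ} (he : e = 1 ∨ e = -1) (hs : 0 < s) (hd : 0 < d) (hp : 0 ≤ p)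
    (hsd : s ^ 2 = d ^ 2 + 4 * p) (h0 : 0 ≤ α) (hαβ : α ≤ β) (hα : 0 < α ∨ p = 0)
    (hpos : ∀ a ∈ Ioo α β, 0 < d ^ 2 - (√(a / Real.pi) - p / √(a / Real.pi)) ^ 2) :
    2 * Real.pi / s * FE e s d p (√(β / Real.pi)) -
      2 * Real.pi / s * FE e s d p (√(α / Real.pi)) ≤
      ∫ a in α..β, hP (Real.pi * p / s) (1 / s) a := by
  have hpi := Real.pi_pos
  have hder : ∀ a ∈ Ioo α β, HasDerivAt (fun a => 2 * Real.pi / s * FE e s d p (√(a / Real.pi)))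
      (2 * Real.pi / s * ((√(d ^ 2 - (√(a / Real.pi) - p / √(a / Real.pi)) ^ 2) *
        √(a / Real.pi) - (√(a / Real.pi) - p / √(a / Real.pi)) ^ 2 *
        (√(a / Real.pi) + p / √(a / Real.pi)) *
        ((√(a / Real.pi) + p / √(a / Real.pi)) -
          e * s * (√(a / Real.pi) - p / √(a / Real.pi)) / d) / (4 * √(a / Real.pi) *
          √(d ^ 2 - (√(a / Real.pi) - p / √(a / Real.pi)) ^ 2))) *
        (1 / Real.pi / (2 * √(a / Real.pi))))) a := by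
    intro a ha
    have ha0 : 0 < a := h0.trans_lt ha.1
    have hr0 : 0 < √(a / Real.pi) := Real.sqrt_pos.2 (by positivity)
    have h1 : HasDerivAt (fun a : ℝ => √(a / Real.pi)) (1 / Real.pi / (2 * √(a / Real.pi))) a := by
      exact ((hasDerivAt_id' a).div_const Real.pi).sqrt (by positivity)
    have h2 := FE_hasDerivAt (e := e) (s := s) hd hr0 (hpos a ha)
    exact (h2.comp a h1).const_mul (2 * Real.pi / s)
  apply intervalIntegral.sub_le_integral_of_hasDeriv_right_of_le hαβ (FE_cont hα)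
    (fun a ha => (hder a ha).hasDerivWithinAt)
  · have := hP_intervalIntegrable (Real.pi * p / s) (1 / s) α β
    rwa [intervalIntegrable_iff_integrableOn_Icc_of_le hαβ] at this
  · intro a ha
    have ha0 : 0 < a := h0.trans_lt ha.1
    have hr0 : 0 < √(a / Real.pi) := Real.sqrt_pos.2 (by positivity)
    have h3 := FE_deriv_le he hs hd hp hsd hr0 (hpos a ha)
    rw [hP_eq hs hp hsd ha0]
    set r := √(a / Real.pi)
    set X := (√(d ^ 2 - (r - p / r) ^ 2) * r - (r - p / r) ^ 2 * (r + p / r) *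
        ((r + p / r) - e * s * (r - p / r) / d) / (4 * r * √(d ^ 2 - (r - p / r) ^ 2)))
    have h4 : 2 * Real.pi / s * (X * (1 / Real.pi / (2 * r))) = X / (s * r) := by
      field_simp
    rw [h4, div_le_div_iff₀ (by positivity) hs]
    nlinarith [mul_le_mul_of_nonneg_right h3 hs.le]

theorem rsqrt {ρ : ℝ} (h : 0 ≤ ρ) : √(Real.pi * ρ ^ 2 / Real.pi) = ρ := by
  have hpi := Real.pi_pos
  rw [show Real.pi * ρ ^ 2 / Real.pi = ρ ^ 2 by field_simp]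
  exact Real.sqrt_sq h

theorem zpos {ρ1 ρ2 r : ℝ} (h0 : 0 ≤ ρ1) (h1 : ρ1 < r) (h2 : r < ρ2) :
    0 < (ρ2 - ρ1) ^ 2 - (r - ρ1 * ρ2 / r) ^ 2 := by
  have hr : 0 < r := h0.trans_lt h1
  have e : (ρ2 - ρ1) ^ 2 - (r - ρ1 * ρ2 / r) ^ 2 =
      (ρ2 ^ 2 - r ^ 2) * (r ^ 2 - ρ1 ^ 2) / r ^ 2 := by
    field_simp
    ring
  rw [e]
  have a1 : 0 < ρ2 ^ 2 - r ^ 2 := by nlinarith
  have a2 : 0 < r ^ 2 - ρ1 ^ 2 := by nlinarith
  positivity

/-- Lemma E: the closed-form lower bound of the vertical integral for a chord of `√(πa)` -/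
theorem lemmaE {ρ1 ρ2 : ℝ} (h0 : 0 ≤ ρ1) (h : ρ1 < ρ2) :
    2 * Real.pi / 3 * (ρ2 - ρ1) ^ 2 ≤
      ∫ a in (Real.pi * ρ1 ^ 2)..(Real.pi * ρ2 ^ 2),
        hP (Real.pi * (ρ1 * ρ2) / (ρ1 + ρ2)) (1 / (ρ1 + ρ2)) a := by
  have hpi := Real.pi_pos
  have hρ2 : 0 < ρ2 := h0.trans_lt h
  have hs : 0 < ρ1 + ρ2 := by linarith
  have hd : 0 < ρ2 - ρ1 := by linarith
  have hp : 0 ≤ ρ1 * ρ2 := by positivity
  have hsd : (ρ1 + ρ2) ^ 2 = (ρ2 - ρ1) ^ 2 + 4 * (ρ1 * ρ2) := by ring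
  set m := √(ρ1 * ρ2) with hm
  have hm0 : 0 ≤ m := Real.sqrt_nonneg _
  have hm2 : m ^ 2 = ρ1 * ρ2 := Real.sq_sqrt hp
  have hm1 : ρ1 ≤ m := by
    apply Real.le_sqrt_of_sq_le; nlinarith
  have hm3 : m ≤ ρ2 := by
    apply Real.sqrt_le_iff.2 ⟨hρ2.le, by nlinarith⟩
  have hpos : ∀ a : ℝ, Real.pi * ρ1 ^ 2 < a → a < Real.pi * ρ2 ^ 2 →
      0 < (ρ2 - ρ1) ^ 2 - (√(a / Real.pi) - ρ1 * ρ2 / √(a / Real.pi)) ^ 2 := by
    intro a ha1 ha2
    apply zpos h0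
    · apply Real.lt_sqrt_of_sq_lt
      rw [lt_div_iff₀ hpi]; linarith
    · rw [Real.sqrt_lt' hρ2, div_lt_iff₀ hpi]; linarith
  have hzm : m - ρ1 * ρ2 / m = 0 := by
    rcases hm0.eq_or_lt with h1 | h1
    · rw [← h1]; simp
    · rw [← hm2]; field_simp; ring
  have FEm : ∀ e : ℝ, FE e (ρ1 + ρ2) (ρ2 - ρ1) (ρ1 * ρ2) m =
      -(1 / 6) * (1 + e * (ρ1 + ρ2) / (ρ2 - ρ1)) * (ρ2 - ρ1) ^ 3 := by
    intro e
    unfold FE
    rw [hzm]
    simp only [ne_eq, OfNat.ofNat_ne_zero, not_false_eq_true, zero_pow, sub_zero, zero_mul,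
      mul_zero, zero_div, add_zero, sub_self, Real.sqrt_sq hd.le]
  have FE2 : ∀ e : ℝ, FE e (ρ1 + ρ2) (ρ2 - ρ1) (ρ1 * ρ2) ρ2 = 0 := by
    intro e
    unfold FE
    have : (ρ2 - ρ1) ^ 2 - (ρ2 - ρ1 * ρ2 / ρ2) ^ 2 = 0 := by field_simp; ring
    rw [this]
    simp
  have I1 : 2 * Real.pi / (ρ1 + ρ2) *
      (-(1 / 6) * (1 + (-1) * (ρ1 + ρ2) / (ρ2 - ρ1)) * (ρ2 - ρ1) ^ 3) ≤
      ∫ a in (Real.pi * ρ1 ^ 2)..(Real.pi * m ^ 2),
        hP (Real.pi * (ρ1 * ρ2) / (ρ1 + ρ2)) (1 / (ρ1 + ρ2)) a := by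
    rcases h0.eq_or_lt with h1 | h1
    · have e1 : m = 0 := by rw [hm, ← h1]; simp
      rw [e1, ← h1]
      simp
      have : 1 + -ρ2 / ρ2 = 0 := by field_simp; ring
      rw [this]; simp
    · have := half_le (e := -1) (α := Real.pi * ρ1 ^ 2) (β := Real.pi * m ^ 2) (Or.inr rfl)
        hs hd hp hsd (by positivity) (by gcongr) (Or.inl (by positivity))
        (fun a ha => hpos a ha.1 (ha.2.trans_le (by gcongr)))
      rw [rsqrt hm0, rsqrt h0, FEm] at this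
      have FE1 : FE (-1) (ρ1 + ρ2) (ρ2 - ρ1) (ρ1 * ρ2) ρ1 = 0 := by
        unfold FE
        have : (ρ2 - ρ1) ^ 2 - (ρ1 - ρ1 * ρ2 / ρ1) ^ 2 = 0 := by field_simp; ring
        rw [this]
        simp
      rw [FE1, mul_zero, sub_zero] at this
      exact this
  have I2' : -(2 * Real.pi / (ρ1 + ρ2) *
      (-(1 / 6) * (1 + 1 * (ρ1 + ρ2) / (ρ2 - ρ1)) * (ρ2 - ρ1) ^ 3)) ≤
      ∫ a in (Real.pi * m ^ 2)..(Real.pi * ρ2 ^ 2),
        hP (Real.pi * (ρ1 * ρ2) / (ρ1 + ρ2)) (1 / (ρ1 + ρ2)) a := by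
    have hcase : 0 < Real.pi * m ^ 2 ∨ ρ1 * ρ2 = 0 := by
      rcases hp.eq_or_lt with h1 | h1
      · right; exact h1.symm
      · left; rw [hm2]; positivity
    have := half_le (e := 1) (α := Real.pi * m ^ 2) (β := Real.pi * ρ2 ^ 2) (Or.inl rfl)
      hs hd hp hsd (by positivity) (by gcongr) hcase
      (fun a ha => hpos a (lt_of_le_of_lt (by gcongr) ha.1) ha.2)
    rw [rsqrt hm0, rsqrt hρ2.le, FEm, FE2, mul_zero, zero_sub] at this
    exact this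
  rw [← intervalIntegral.integral_add_adjacent_intervals
    (hP_intervalIntegrable _ _ (Real.pi * ρ1 ^ 2) (Real.pi * m ^ 2))
    (hP_intervalIntegrable _ _ _ _)]
  refine le_trans (le_of_eq ?_) (add_le_add I1 I2')
  field_simp
  ring

theorem mm_eq_sphere {V p : ℝ} (hV : 0 ≤ V) (hp : 0 < p)
    (h : mm V = p * V + (2 * Real.pi / 3) / p ^ 2) : V = 4 * Real.pi / 3 / p ^ 3 := by
  have h1 : mm V ≤ (36 * Real.pi) ^ ((1 : ℝ) / 3) * V ^ ((2 : ℝ) / 3) / 2 := by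
    unfold mm
    have := (min_le_left (min ((36 * Real.pi) ^ ((1 : ℝ) / 3) * V ^ ((2 : ℝ) / 3))
      (2 * √(Real.pi * V))) 2).trans (min_le_left _ _)
    linarith
  rw [h] at h1
  set K : ℝ := (36 * Real.pi) ^ ((1 : ℝ) / 3) with hK
  set X : ℝ := V ^ ((1 : ℝ) / 3) with hX
  have hpi := Real.pi_pos
  have hK3 : K ^ 3 = 36 * Real.pi := by
    rw [hK, ← Real.rpow_natCast, ← Real.rpow_mul (by positivity)]
    norm_num
  have hX3 : X ^ 3 = V := by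
    rw [hX, ← Real.rpow_natCast, ← Real.rpow_mul hV]
    norm_num
  have hX2 : V ^ ((2 : ℝ) / 3) = X ^ 2 := by
    rw [hX, ← Real.rpow_natCast, ← Real.rpow_mul hV]
    norm_num
  have hX0 : 0 ≤ X := Real.rpow_nonneg hV _
  have hK0 : 0 < K := Real.rpow_pos_of_pos (by positivity) _
  rw [hX2] at h1
  have e : p * V + (2 * Real.pi / 3) / p ^ 2 - K * X ^ 2 / 2 =
      p * (X - K / (3 * p)) ^ 2 * (X + K / (6 * p)) := by
    have hpi' : Real.pi = K ^ 3 / 36 := by rw [hK3]; ring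
    rw [hpi', ← hX3]
    field_simp
    ring
  have h2 : p * (X - K / (3 * p)) ^ 2 * (X + K / (6 * p)) ≤ 0 := by linarith
  have h3 : 0 < X + K / (6 * p) := by positivity
  have h4 : (X - K / (3 * p)) ^ 2 ≤ 0 := by
    by_contra hc
    push Not at hc
    have : 0 < p * (X - K / (3 * p)) ^ 2 * (X + K / (6 * p)) := by positivity
    linarith
  have h5 : X = K / (3 * p) := by
    have := pow_eq_zero_iff (two_ne_zero) |>.1 (le_antisymm h4 (sq_nonneg _))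
    linarith
  rw [← hX3, h5, div_pow, hK3]
  field_simp
  ring

theorem mm_eq_tube {V p : ℝ} (hV : 0 ≤ V) (hp : 0 < p)
    (h : mm V = p * V + Real.pi / (4 * p)) : V = Real.pi / (4 * p ^ 2) := by
  have h1 : mm V ≤ √(Real.pi * V) := by
    unfold mm
    have := (min_le_left (min ((36 * Real.pi) ^ ((1 : ℝ) / 3) * V ^ ((2 : ℝ) / 3))
      (2 * √(Real.pi * V))) 2).trans (min_le_right _ _)
    linarith
  rw [h] at h1
  have hpi := Real.pi_pos
  have h2 : (p * V + Real.pi / (4 * p)) ^ 2 ≤ Real.pi * V := by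
    have := pow_le_pow_left₀ (by positivity) h1 2
    rwa [Real.sq_sqrt (by positivity)] at this
  have h3 : (p * V + Real.pi / (4 * p)) ^ 2 - Real.pi * V = (p * V - Real.pi / (4 * p)) ^ 2 := by
    field_simp
    ring
  have h4 : (p * V - Real.pi / (4 * p)) ^ 2 ≤ 0 := by linarith
  have h5 := pow_eq_zero_iff (two_ne_zero) |>.1 (le_antisymm h4 (sq_nonneg _))
  field_simp at h5 ⊢
  linarith

/-- closed form of the planar inequality, with the equality cases -/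
theorem planar_mm {ρ1 ρ2 v : ℝ} (h0 : 0 ≤ ρ1) (h : ρ1 ≤ ρ2) (h2 : 0 < ρ2) (hv : 0 ≤ v) :
    mm v ≤ (v + Real.pi * (ρ1 * ρ2)) / (ρ1 + ρ2) + 2 * Real.pi / 3 * (ρ2 - ρ1) ^ 2 ∧
    (mm v = (v + Real.pi * (ρ1 * ρ2)) / (ρ1 + ρ2) + 2 * Real.pi / 3 * (ρ2 - ρ1) ^ 2 →
      (ρ1 = ρ2 ∧ v = Real.pi * ρ1 ^ 2) ∨ (ρ1 = 0 ∧ v = 4 * Real.pi / 3 * ρ2 ^ 3)) := by
  have hpi := Real.pi_pos
  have hs : 0 < ρ1 + ρ2 := by linarith
  have hp : 0 < 1 / (ρ1 + ρ2) := by positivity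
  have a1 := mm_le_sphere hv hp
  have a2 := mm_le_tube hv hp
  set B := (v + Real.pi * (ρ1 * ρ2)) / (ρ1 + ρ2) + 2 * Real.pi / 3 * (ρ2 - ρ1) ^ 2 with hB
  have e1 : B - (1 / (ρ1 + ρ2) * v + (2 * Real.pi / 3) / (1 / (ρ1 + ρ2)) ^ 2) =
      Real.pi * (ρ1 * ρ2) * (1 / (ρ1 + ρ2) - 8 / 3) := by
    rw [hB]; field_simp; ring
  have e2 : B - (1 / (ρ1 + ρ2) * v + Real.pi / (4 * (1 / (ρ1 + ρ2)))) =
      Real.pi * (ρ2 - ρ1) ^ 2 * (2 / 3 - 1 / (4 * (ρ1 + ρ2))) := by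
    rw [hB]; field_simp; ring
  have hp12 : 0 ≤ ρ1 * ρ2 := by positivity
  rcases lt_trichotomy (ρ1 + ρ2) (3 / 8) with hc | hc | hc
  · have h3 : 0 < 1 / (ρ1 + ρ2) - 8 / 3 := by
      rw [sub_pos, lt_div_iff₀ hs]; linarith
    have h4 : 0 ≤ Real.pi * (ρ1 * ρ2) * (1 / (ρ1 + ρ2) - 8 / 3) := by positivity
    refine ⟨by linarith, fun heq => Or.inr ?_⟩
    have h5 : Real.pi * (ρ1 * ρ2) * (1 / (ρ1 + ρ2) - 8 / 3) = 0 := by linarith
    have h6 : ρ1 * ρ2 = 0 := by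
      rcases mul_eq_zero.1 h5 with h7 | h7
      · rcases mul_eq_zero.1 h7 with h8 | h8
        · exact absurd h8 hpi.ne'
        · exact h8
      · exact absurd h7 h3.ne'
    have h7 : ρ1 = 0 := by
      rcases mul_eq_zero.1 h6 with h8 | h8
      · exact h8
      · exact absurd h8 h2.ne'
    refine ⟨h7, ?_⟩
    have h8 := mm_eq_sphere hv hp (by linarith)
    rw [h8, h7]
    field_simp
    ring
  · have h3 : 1 / (ρ1 + ρ2) - 8 / 3 = 0 := by rw [hc]; norm_num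
    have h3' : 2 / 3 - 1 / (4 * (ρ1 + ρ2)) = 0 := by rw [hc]; norm_num
    rw [h3, mul_zero] at e1
    rw [h3', mul_zero] at e2
    refine ⟨by linarith, fun heq => ?_⟩
    exfalso
    have h8 := mm_eq_sphere hv hp (by linarith)
    have h9 := mm_eq_tube hv hp (by linarith)
    rw [h8, hc] at h9
    norm_num at h9
    nlinarith
  · have h3 : 0 < 2 / 3 - 1 / (4 * (ρ1 + ρ2)) := by
      rw [sub_pos, div_lt_div_iff₀ (by positivity) (by norm_num)]; linarith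
    have h4 : 0 ≤ Real.pi * (ρ2 - ρ1) ^ 2 * (2 / 3 - 1 / (4 * (ρ1 + ρ2))) := by positivity
    refine ⟨by linarith, fun heq => Or.inl ?_⟩
    have h5 : Real.pi * (ρ2 - ρ1) ^ 2 * (2 / 3 - 1 / (4 * (ρ1 + ρ2))) = 0 := by linarith
    have h6 : (ρ2 - ρ1) ^ 2 = 0 := by
      rcases mul_eq_zero.1 h5 with h7 | h7
      · rcases mul_eq_zero.1 h7 with h8 | h8
        · exact absurd h8 hpi.ne'
        · exact h8
      · exact absurd h7 h3.ne'
    have h7 : ρ1 = ρ2 := by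
      have := pow_eq_zero_iff (two_ne_zero) |>.1 h6
      linarith
    refine ⟨h7, ?_⟩
    have h8 := mm_eq_tube hv hp (by linarith)
    rw [h8, ← h7]
    have h9 : ρ1 ≠ 0 := by rw [h7]; exact h2.ne'
    field_simp
    ring

/-- **N3**: the planar one-dimensional inequality with its equality cases. -/
theorem planar_dir {a1 a2 v : ℝ} (h0 : 0 ≤ a1) (h1 : a1 ≤ v) (h2 : v ≤ a2) (hv : 0 < v) :
    ∃ s0 sg : ℝ, 0 ≤ s0 ∧ 0 < sg ∧ (∀ a ∈ Icc a1 a2, s0 + sg * a ≤ √(Real.pi * a)) ∧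
      mm v ≤ s0 + sg * v + ∫ a in a1..a2, hP s0 sg a ∧
      (mm v = s0 + sg * v + ∫ a in a1..a2, hP s0 sg a →
        (a1 = v ∧ a2 = v) ∨ (a1 = 0 ∧ v = 4 * Real.pi / 3 * √(a2 / Real.pi) ^ 3)) := by
  have hpi := Real.pi_pos
  have ha2 : 0 < a2 := hv.trans_le h2
  obtain ⟨ρ1, hρ1, e1⟩ : ∃ ρ : ℝ, 0 ≤ ρ ∧ a1 = Real.pi * ρ ^ 2 :=
    ⟨√(a1 / Real.pi), Real.sqrt_nonneg _, by rw [Real.sq_sqrt (by positivity)]; field_simp⟩
  obtain ⟨ρ2, hρ2, e2, e2'⟩ : ∃ ρ : ℝ, 0 < ρ ∧ a2 = Real.pi * ρ ^ 2 ∧ √(a2 / Real.pi) = ρ :=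
    ⟨√(a2 / Real.pi), Real.sqrt_pos.2 (by positivity),
      by rw [Real.sq_sqrt (by positivity)]; field_simp, rfl⟩
  have h12 : ρ1 ≤ ρ2 := by
    have : Real.pi * ρ1 ^ 2 ≤ Real.pi * ρ2 ^ 2 := by rw [← e1, ← e2]; linarith
    have : ρ1 ^ 2 ≤ ρ2 ^ 2 := le_of_mul_le_mul_left this hpi
    exact (abs_le_of_sq_le_sq' this hρ2.le).2
  have hs : 0 < ρ1 + ρ2 := by linarith
  obtain ⟨k1, k2⟩ := planar_mm hρ1 h12 hρ2 hv.le
  have hE : 2 * Real.pi / 3 * (ρ2 - ρ1) ^ 2 ≤ ∫ a in a1..a2,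
      hP (Real.pi * (ρ1 * ρ2) / (ρ1 + ρ2)) (1 / (ρ1 + ρ2)) a := by
    rcases h12.eq_or_lt with h | h
    · rw [e1, e2, h]; simp
    · rw [e1, e2]; exact lemmaE hρ1 h
  have eB : (v + Real.pi * (ρ1 * ρ2)) / (ρ1 + ρ2) =
      Real.pi * (ρ1 * ρ2) / (ρ1 + ρ2) + 1 / (ρ1 + ρ2) * v := by
    field_simp; ring
  refine ⟨Real.pi * (ρ1 * ρ2) / (ρ1 + ρ2), 1 / (ρ1 + ρ2), by positivity, by positivity, ?_, ?_, ?_⟩
  · intro a ha
    obtain ⟨r, hr, e3⟩ : ∃ ρ : ℝ, 0 ≤ ρ ∧ a = Real.pi * ρ ^ 2 := by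
      have ha0 : 0 ≤ a := h0.trans ha.1
      exact ⟨√(a / Real.pi), Real.sqrt_nonneg _, by
        rw [Real.sq_sqrt (by positivity)]; field_simp⟩
    have l1 : ρ1 ≤ r := by
      have : Real.pi * ρ1 ^ 2 ≤ Real.pi * r ^ 2 := by rw [← e1, ← e3]; exact ha.1
      have : ρ1 ^ 2 ≤ r ^ 2 := le_of_mul_le_mul_left this hpi
      exact (abs_le_of_sq_le_sq' this hr).2
    have l2 : r ≤ ρ2 := by
      have : Real.pi * r ^ 2 ≤ Real.pi * ρ2 ^ 2 := by rw [← e2, ← e3]; exact ha.2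
      have : r ^ 2 ≤ ρ2 ^ 2 := le_of_mul_le_mul_left this hpi
      exact (abs_le_of_sq_le_sq' this hρ2.le).2
    have e4 : √(Real.pi * a) = Real.pi * r := by
      rw [e3, show Real.pi * (Real.pi * r ^ 2) = (Real.pi * r) ^ 2 by ring]
      exact Real.sqrt_sq (by positivity)
    rw [e4, e3]
    have e5 : Real.pi * (ρ1 * ρ2) / (ρ1 + ρ2) + 1 / (ρ1 + ρ2) * (Real.pi * r ^ 2) =
        Real.pi * ((ρ1 * ρ2 + r ^ 2) / (ρ1 + ρ2)) := by field_simp
    rw [e5]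
    apply mul_le_mul_of_nonneg_left _ hpi.le
    rw [div_le_iff₀ hs]
    nlinarith [mul_nonneg (sub_nonneg.2 l1) (sub_nonneg.2 l2)]
  · rw [eB] at k1
    linarith
  · intro heq
    rw [eB] at k1 k2
    have h5 := k2 (by linarith)
    rcases h5 with ⟨h6, h7⟩ | ⟨h6, h7⟩
    · left
      constructor
      · rw [e1, h7]
      · rw [e2, h7, h6]
    · right
      refine ⟨by rw [e1, h6]; ring, ?_⟩
      rw [e2', h7]

/-- consequence for the capped profile: a direction with `a2 ≤ 1/π` -/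
theorem planar_capped {a1 a2 v : ℝ} (h0 : 0 ≤ a1) (h1 : a1 ≤ v) (h2 : v ≤ a2) (hv : 0 < v)
    (ha2 : a2 ≤ 1 / Real.pi) :
    ∃ s0 sg : ℝ, (∀ a ∈ Icc a1 a2, s0 + sg * a ≤ I2 a) ∧
      mm v ≤ s0 + sg * v + ∫ a in a1..a2, hL s0 sg a ∧
      (mm v = s0 + sg * v + ∫ a in a1..a2, hL s0 sg a →
        (a1 = v ∧ a2 = v) ∨ (a1 = 0 ∧ v = 4 * Real.pi / 3 * √(a2 / Real.pi) ^ 3)) := by
  obtain ⟨s0, sg, -, -, k1, k2, k3⟩ := planar_dir h0 h1 h2 hv
  have e : ∫ a in a1..a2, hL s0 sg a = ∫ a in a1..a2, hP s0 sg a := by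
    apply intervalIntegral.integral_congr
    intro a ha
    rw [uIcc_of_le (h1.trans h2)] at ha
    exact hL_eq_hP (h0.trans ha.1) (ha.2.trans ha2)
  refine ⟨s0, sg, fun a ha => ?_, ?_, ?_⟩
  · rw [I2_eq_sqrt (h0.trans ha.1) (ha.2.trans ha2)]
    exact k1 a ha
  · rw [e]; exact k2
  · rw [e]; exact k3

end Crest.Agent.R214
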