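import Crest.Agent.R214.M5g
import Crest.Agent.R214.Line
import Crest.Agent.R214.Planar

/-! Row 214 (helper12): equality sets all of whose slices have area `≤ 1/π` are standard. -/

set_option autoImplicit false

open MeasureTheory Filter Set Crest.GeometryTopology.PeriodicPerimeter
open scoped Topology ENNReal

namespace Crest.Agent.R214

open Model (Ival Ival_nonneg)

theorem mm_eq_Ival (V : ℝ) : mm V = Ival V / 2 := rfl

theorem Ico_Ioc {p : ℝ → Prop} (h : 0 < volume ({t | p t} ∩ Ico 0 1)) :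
    volume ({t | p t} ∩ Ioc 0 1) ≠ 0 := by
  intro h0
  have h1 : {t | p t} ∩ Ico (0:ℝ) 1 ⊆ ({t | p t} ∩ Ioc 0 1) ∪ {0} := by
    rintro t ⟨h2, h3⟩
    rcases h3.1.eq_or_lt with h4 | h4
    · exact Or.inr h4.symm
    · exact Or.inl ⟨h2, h4, h3.2.le⟩
  have h2 : volume ({t | p t} ∩ Ico (0:ℝ) 1) = 0 :=
    measure_mono_null h1 (measure_union_null h0 (by simp))
  exact h.ne' h2

/-- essential range data of a direction, and the line method in equality form -/
theorem planar_dir_eq {E : Set (Ev 3)} (hE : MeasurableSet E)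
    (hp : IsLatticePeriodic E) (h0 : 0 < periodicVolume E)
    (hP : periodicPerimeter E = ENNReal.ofReal (Ival (periodicVolume E))) (d : Fin 3)
    (hd : ∀ᵐ t : ℝ, sl d E t ≤ 1 / Real.pi) :
    (∀ᵐ t : ℝ, sl d E t = periodicVolume E) ∨
      ∃ r : ℝ, 0 < r ∧ periodicVolume E = 4 * Real.pi * r ^ 3 / 3 ∧
        Ival (periodicVolume E) = 4 * Real.pi * r ^ 2 ∧ BallDir E d r := by
  have hpi := Real.pi_pos
  set V := periodicVolume E with hVdef
  have hfin : periodicPerimeter E ≠ ∞ := by rw [hP]; exact ENNReal.ofReal_ne_top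
  have hPr : (periodicPerimeter E).toReal = Ival V := by
    rw [hP, ENNReal.toReal_ofReal (Ival_nonneg h0.le)]
  have S := sd3 hE hp hfin d
  have hint : ∫ x in (0:ℝ)..1, sl d E x = V := integral_sl hE
  obtain ⟨a1, a2, k1, k2, k3, k4, k5, k6⟩ := S.exists_range
  have ha2 : a2 ≤ 1 / Real.pi := by
    by_contra hcon
    push Not at hcon
    obtain ⟨x, -, hx1, hx2⟩ := exists_of_ae_pos hd (k6 (a2 - 1 / Real.pi) (by linarith))
    have hx2' : a2 - (a2 - 1 / Real.pi) < sl d E x := hx2
    linarith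
  have hV1 : a1 ≤ V := by
    have h1 : ∫ x in (0:ℝ)..1, (a1 : ℝ) ≤ ∫ x in (0:ℝ)..1, sl d E x :=
      intervalIntegral.integral_mono_ae zero_le_one intervalIntegrable_const
        (S.intervalIntegrable_a 0 1) (k4.mono fun x hx => hx.1)
    rw [hint] at h1
    simpa using h1
  have hV2 : V ≤ a2 := by
    have h1 : ∫ x in (0:ℝ)..1, sl d E x ≤ ∫ x in (0:ℝ)..1, (a2 : ℝ) :=
      intervalIntegral.integral_mono_ae zero_le_one (S.intervalIntegrable_a 0 1)
        intervalIntegrable_const (k4.mono fun x hx => hx.2)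
    rw [hint] at h1
    simpa using h1
  obtain ⟨s0, sg, c1, c2, c3⟩ := planar_capped k1 hV1 hV2 h0 ha2
  have hL1 := S.line (Eventually.of_forall fun x => le_rfl) k1 k2 k3 k4 k5 k6 c1
  rw [hint, hPr, ← mm_eq_Ival] at hL1
  rcases c3 (le_antisymm c2 hL1) with ⟨e1, e2⟩ | ⟨e1, e2⟩
  · left
    filter_upwards [k4] with t ht
    have h1 := ht.1
    have h2 := ht.2
    rw [e1] at h1
    rw [e2] at h2
    exact le_antisymm h2 h1
  · right
    have ha20 : 0 < a2 := h0.trans_le hV2
    obtain ⟨r, hr, e3⟩ : ∃ r : ℝ, 0 < r ∧ √(a2 / Real.pi) = r :=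
      ⟨_, Real.sqrt_pos.2 (by positivity), rfl⟩
    have e4 : a2 = Real.pi * r ^ 2 := by
      rw [← e3, Real.sq_sqrt (by positivity)]; field_simp
    have e5 : V = 4 * Real.pi * r ^ 3 / 3 := by rw [e2, e3]; ring
    have hVr : (36 * Real.pi) ^ ((1 : ℝ) / 3) * V ^ ((2 : ℝ) / 3) = 4 * Real.pi * r ^ 2 := by
      have h1 : 36 * Real.pi * V ^ 2 = (4 * Real.pi * r ^ 2) ^ 3 := by
        rw [e5]; ring
      have h2 : V ^ ((2 : ℝ) / 3) = (V ^ 2) ^ ((1 : ℝ) / 3) := by
        rw [← Real.rpow_natCast, ← Real.rpow_mul h0.le]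
        norm_num
      rw [h2, ← Real.mul_rpow (by positivity) (by positivity), h1, ← Real.rpow_natCast,
        ← Real.rpow_mul (by positivity)]
      norm_num
    have hI1 : Ival V ≤ 4 * Real.pi * r ^ 2 := by
      rw [← hVr]
      exact (min_le_left _ _).trans (min_le_left _ _)
    -- lower bound by the ball field
    have hI2 : 4 * Real.pi * r ^ 2 ≤ Ival V := by
      have hA : (0:ℝ) < a2 := ha20
      have h5 : ∀ δ > 0, 0 < volume ({x | sl d E x < 0 + δ} ∩ Ico 0 1) := by
        rw [e1] at k5; exact k5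
      have key := S.lm_affine (a1 := 0) (a2 := a2) hA.le
        (by filter_upwards [k4] with x hx; exact ⟨(S.a01 x).1, hx.2⟩) h5 k6 (cB a2) (hB a2)
        (cB_cont a2).continuousOn (hB_cont a2).continuousOn
        (fun s _ => Real.sqrt_nonneg _) (fun s _ => Real.sqrt_nonneg _)
        (fun s _ => (ch_ball hA s).le) 0 (1 / r) (by
          filter_upwards [k4, hd] with x hx hx2
          have hx0 := (S.a01 x).1
          rw [I2_eq_sqrt hx0 hx2, cB_eq hA ⟨hx0, hx.2⟩, zero_add, ← Real.sqrt_mul (by positivity)]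
          have e6 : sl d E x / a2 * (Real.pi * sl d E x) = (1 / r * sl d E x) ^ 2 := by
            rw [e4]; field_simp
          rw [e6, Real.sqrt_sq (by positivity)])
      have e7 : ∫ s in (0:ℝ)..a2, hB a2 s = 2 * a2 / 3 := by
        have := prim_hB hA
        unfold prim at this
        rw [intervalIntegral.integral_same, sub_zero] at this
        exact this
      rw [hint, e7, hPr, e4, e5] at key
      have e8 : 0 + 1 / r * (4 * Real.pi * r ^ 3 / 3) + 2 * (Real.pi * r ^ 2) / 3 =
          2 * Real.pi * r ^ 2 := by field_simp; ring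
      rw [e8, ← e5] at key
      linarith
    refine ⟨r, hr, e5, le_antisymm hI1 hI2, ?_, ?_, ?_, ?_⟩
    · filter_upwards [k4] with t ht
      rw [← e4]; exact ht.2
    · intro η hη
      rw [← e4]
      exact Ico_Ioc (k6 η hη)
    · intro η hη
      refine Ico_Ioc (p := fun t => sl d E t < η) ?_
      have := k5 η hη
      rwa [e1, zero_add] at this
    · filter_upwards [hd] with t ht
      have := iso2_torus (slice_measurable (d := d) hE t) (slice_periodic (d := d) hp t)
      rw [show periodicVolume (slice d E t) = sl d E t from rfl,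
        I2_eq_sqrt (sl_nonneg t) ht] at this
      exact this

/-- **(C)**: equality sets with all slices of area `≤ 1/π` -/
theorem planar_eq {E : Set (Ev 3)} (hE : MeasurableSet E)
    (hp : IsLatticePeriodic E) (h0 : 0 < periodicVolume E) (h1 : periodicVolume E ≤ 1 / 2)
    (hP : periodicPerimeter E = ENNReal.ofReal (Ival (periodicVolume E)))
    (hd : ∀ d, ∀ᵐ t : ℝ, sl d E t ≤ 1 / Real.pi) : IsStandardRegion (periodicVolume E) E := by
  have hpi := Real.pi_pos
  by_cases hc : ∃ d, ∀ᵐ t : ℝ, sl d E t = periodicVolume E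
  · obtain ⟨d, h⟩ := hc
    exact eq_e1 iso2Thm class2Thm hE hp h0 h1 hP d h
  have hc : ∀ d, ¬ ∀ᵐ t : ℝ, sl d E t = periodicVolume E := not_exists.1 hc
  have hall : ∀ d, ∃ r : ℝ, 0 < r ∧ periodicVolume E = 4 * Real.pi * r ^ 3 / 3 ∧
        Ival (periodicVolume E) = 4 * Real.pi * r ^ 2 ∧ BallDir E d r := by
    intro d
    rcases planar_dir_eq hE hp h0 hP d (hd d) with h | h
    · exact absurd h (hc d)
    · exact h
  obtain ⟨r, hr, e1, e2, -⟩ := hall 0
  refine eq_e2 hE hp hr e1 hP e2 fun d => ?_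
  obtain ⟨r', hr', e3, -, hB⟩ := hall d
  have : r' = r := by
    have h3 : r' ^ 3 = r ^ 3 := by
      have h4 : 4 * Real.pi * r' ^ 3 / 3 = 4 * Real.pi * r ^ 3 / 3 := by rw [← e3, ← e1]
      field_simp at h4
      linarith
    exact (pow_left_inj₀ hr'.le hr.le (by norm_num)).1 h3
  rw [← this]
  exact hB

end Crest.Agent.R214
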