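import Crest.Agent.R214.Rig2

/-!
# Row 214, M7: rigidity of the disc profile (2-D)
-/

set_option autoImplicit false

open MeasureTheory Filter Set
open scoped Topology

namespace Crest.Agent.R214

/-- `c` for the disc -/
noncomputable def cD (A α : ℝ) : ℝ := min (|α| / A) 1
/-- `h` for the disc -/
noncomputable def hD (A α : ℝ) : ℝ := Real.sqrt (1 - cD A α ^ 2)
/-- `v` for the disc -/
noncomputable def vD (A : ℝ) (n : ℕ) (α : ℝ) : ℝ :=
  1 / 2 / (max (cD A α) (dl n) * max (hD A α) (dl n))

theorem cD_cont (A : ℝ) : Continuous (cD A) := by unfold cD; fun_prop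
theorem hD_cont (A : ℝ) : Continuous (hD A) := by
  have := cD_cont A
  unfold hD
  fun_prop

theorem vdenD_pos {x y : ℝ} (n : ℕ) : 0 < max x (dl n) * max y (dl n) :=
  mul_pos (lt_max_of_lt_right (dl_pos n)) (lt_max_of_lt_right (dl_pos n))

theorem vD_cont (A : ℝ) (n : ℕ) : Continuous (vD A n) := by
  unfold vD
  have h1 := cD_cont A
  have h2 := hD_cont A
  refine Continuous.div (by fun_prop) (by fun_prop) fun x => (vdenD_pos n).ne'

theorem cD_nonneg {A : ℝ} (hA : 0 < A) (α : ℝ) : 0 ≤ cD A α :=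
  le_min (by positivity) zero_le_one

theorem ch_disc {A : ℝ} (hA : 0 < A) (α : ℝ) : cD A α ^ 2 + hD A α ^ 2 = 1 := by
  have h0 := cD_nonneg hA α
  have h1 : cD A α ≤ 1 := min_le_right _ _
  unfold hD
  rw [Real.sq_sqrt (by nlinarith)]
  ring

theorem cD_eq {A α : ℝ} (hA : 0 < A) (h : α ∈ Icc 0 A) : cD A α = α / A := by
  unfold cD
  rw [abs_of_nonneg h.1, min_eq_left ((div_le_one hA).2 h.2)]

theorem hD_eq {A α : ℝ} (hA : 0 < A) (h : α ∈ Icc 0 A) : hD A α = Real.sqrt (1 - (α / A) ^ 2) := by
  unfold hD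
  rw [cD_eq hA h]

theorem integral_quarter : ∫ x in (0 : ℝ)..1, Real.sqrt (1 - x ^ 2) = Real.pi / 4 := by
  have hc : Continuous fun x : ℝ => Real.sqrt (1 - x ^ 2) := by fun_prop
  have h1 := integral_sqrt_one_sub_sq
  rw [← intervalIntegral.integral_add_adjacent_intervals (hc.intervalIntegrable (-1) 0)
    (hc.intervalIntegrable 0 1)] at h1
  have h2 : ∫ x in (-1 : ℝ)..0, Real.sqrt (1 - x ^ 2) = ∫ x in (0 : ℝ)..1, Real.sqrt (1 - x ^ 2) := by
    have := intervalIntegral.integral_comp_neg (a := (0 : ℝ)) (b := 1)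
      (fun x : ℝ => Real.sqrt (1 - x ^ 2))
    simp only [neg_sq, neg_zero] at this
    exact this.symm
  rw [h2] at h1
  linarith

theorem prim_hD {A : ℝ} (hA : 0 < A) : prim (hD A) A - prim (hD A) 0 = Real.pi * A / 4 := by
  unfold prim
  rw [intervalIntegral.integral_same, sub_zero]
  have h1 : ∫ β in (0 : ℝ)..A, hD A β = ∫ β in (0 : ℝ)..A, Real.sqrt (1 - (β / A) ^ 2) := by
    refine intervalIntegral.integral_congr fun t ht => ?_
    rw [uIcc_of_le hA.le] at ht
    exact hD_eq hA ht
  rw [h1, intervalIntegral.integral_comp_div (fun x => Real.sqrt (1 - x ^ 2)) hA.ne', zero_div,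
    div_self hA.ne', integral_quarter]
  simp
  ring

/-- **Rigidity of the disc profile** -/
theorem rig_disc {P : ℝ} {a J : ℝ → ℝ} (S : SD P a J) {r : ℝ} (hr : 0 < r) (hr2 : r ≤ 1 / 2)
    (hle : ∀ᵐ t, a t ≤ 2 * r)
    (hsup : ∀ η > 0, volume ({t | 2 * r - η < a t} ∩ Ioc 0 1) ≠ 0)
    (hinf : ∀ η > 0, volume ({t | a t < η} ∩ Ioc 0 1) ≠ 0)
    (hJ : ∀ᵐ t, 0 < a t → 1 ≤ J t)
    (hP : P ≤ 2 * Real.pi * r)
    (hV : ∫ t in (0 : ℝ)..1, a t = Real.pi * r ^ 2) :
    ∃ t0 : ℝ, ∀ᵐ t, a t = 2 * Real.sqrt (r ^ 2 - dZ (t - t0) ^ 2) := by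
  classical
  set A : ℝ := 2 * r with hAdef
  have hA : 0 < A := by positivity
  have hpi := Real.pi_pos
  -- replace `J`
  have S' : SD P a (fun t => if 0 < a t then 1 else 0) := by
    refine S.mono ?_ ?_ (fun x => by split_ifs <;> norm_num) ?_
    · intro t
      simp only [S.per_a t]
    · exact Measurable.ite (measurableSet_lt measurable_const S.meas_a) measurable_const
        measurable_const
    · filter_upwards [hJ] with t ht
      split_ifs with h
      · exact ht h
      · exact S.J0 t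
  have hcJ : ∀ t, a t ≤ A → cD A (a t) * (2 * (if 0 < a t then (1 : ℝ) else 0)) = 1 / r * a t := by
    intro t ht
    have h0 := (S.a01 t).1
    rw [cD_eq hA ⟨h0, ht⟩]
    split_ifs with h
    · rw [hAdef]; field_simp
    · have : a t = 0 := le_antisymm (not_lt.1 h) h0
      rw [this]; simp
  have hai : IntegrableOn a (Ioc 0 1) := by
    refine Integrable.mono' (g := fun _ => (1 : ℝ)) (integrableOn_const (by simp))
      S.meas_a.aestronglyMeasurable (Eventually.of_forall fun t => ?_)
    rw [Real.norm_of_nonneg (S.a01 t).1]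
    exact (S.a01 t).2
  have hcJae : ∀ᵐ t ∂(volume.restrict (Ioc (0 : ℝ) 1)),
      1 / r * a t = cD A (a t) * (2 * (if 0 < a t then (1 : ℝ) else 0)) := by
    refine ae_restrict_of_ae ?_
    filter_upwards [hle] with t ht
    exact (hcJ t ht).symm
  have hF : IntegrableOn (fun t => cD A (a t) * (2 * (if 0 < a t then (1 : ℝ) else 0)))
      (Ioc 0 1) := (Integrable.const_mul hai (1 / r)).congr hcJae
  have hFv : ∫ t in Ioc (0 : ℝ) 1, cD A (a t) * (2 * (if 0 < a t then (1 : ℝ) else 0)) =
      Real.pi * r := by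
    rw [← integral_congr_ae hcJae, integral_const_mul,
      ← intervalIntegral.integral_of_le zero_le_one, hV]
    field_simp
  -- the height function
  set s : ℝ → ℝ := fun α => r * Real.sqrt (1 - (α / A) ^ 2) with hs
  have hsc : Continuous s := by rw [hs]; fun_prop
  have hypos : ∀ β ∈ Ioo 0 A, 0 < 1 - (β / A) ^ 2 := by
    intro β hβ
    have h1 := (div_lt_one hA).2 hβ.2
    have h2 : 0 < β / A := div_pos hβ.1 hA
    nlinarith
  have key := rig_height S' (c := cD A) (h := hD A) (s := s) (v := vD A) hle hsup hinf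
    (cD_cont A) (hD_cont A) (vD_cont A) (cD_nonneg hA)
    (fun α => Real.sqrt_nonneg _) (fun n α => by
      unfold vD
      exact div_nonneg (by norm_num) (vdenD_pos n).le)
    (fun α _ => ch_disc hA α) hF (by
      rw [hFv, prim_hD hA]
      refine hP.trans (le_of_eq ?_)
      rw [hAdef]
      ring) (by
      intro n
      refine ae_restrict_of_ae ?_
      filter_upwards [hle] with t ht
      have h0 := (S.a01 t).1
      have c0 : 0 ≤ cD A (a t) := cD_nonneg hA _
      have h0' : 0 ≤ hD A (a t) := Real.sqrt_nonneg _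
      have hj0 : (0 : ℝ) ≤ (if 0 < a t then (1 : ℝ) else 0) := by split_ifs <;> norm_num
      have hj1 : (if 0 < a t then (1 : ℝ) else 0) ≤ 1 := by split_ifs <;> norm_num
      unfold vD
      generalize cD A (a t) = x at *
      generalize hD A (a t) = y at *
      generalize (if 0 < a t then (1 : ℝ) else 0) = j at *
      have hx : x ≤ max x (dl n) := le_max_left _ _
      have hy : y ≤ max y (dl n) := le_max_left _ _
      have hx0 : 0 < max x (dl n) := lt_max_of_lt_right (dl_pos n)
      have hy0 : 0 < max y (dl n) := lt_max_of_lt_right (dl_pos n)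
      generalize max x (dl n) = X at *
      generalize max y (dl n) = Y at *
      have e2 : y * (1 / 2 / (X * Y)) * (x * (2 * j)) = (x * y) / (X * Y) * j := by
        field_simp
      rw [e2]
      have e3 : (x * y) / (X * Y) ≤ 1 := by
        apply div_le_one_of_le₀ _ (by positivity)
        exact mul_le_mul hx hy h0' (by positivity)
      exact mul_le_one₀ e3 hj0 hj1) (by
      intro α hα
      refine prim_lim (w0 := fun α => 1 / 2 * cD A α / hD A α) _ (fun n => ?_) hsc.continuousOn
        ?_ ?_ ?_ ?_ hα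
      · exact ((cD_cont A).pow 2).mul (vD_cont A n)
      · intro β hβ
        have hpos := hypos β hβ
        have h1 : HasDerivAt (fun x : ℝ => 1 - (x / A) ^ 2) (-(2 * (β / A) * (1 / A))) β := by
          have := (((hasDerivAt_id β).div_const A).pow 2).const_sub 1
          simpa using this
        have h2 := (h1.sqrt hpos.ne').const_mul r
        have h3 : Real.sqrt (1 - (β / A) ^ 2) ≠ 0 := (Real.sqrt_pos.2 hpos).ne'
        have e : -(1 / 2 * (β / A) / Real.sqrt (1 - (β / A) ^ 2)) =
            r * (-(2 * (β / A) * (1 / A)) / (2 * Real.sqrt (1 - (β / A) ^ 2))) := by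
          have hrA : r = A / 2 := by rw [hAdef]; ring
          rw [hrA]
          field_simp
        show HasDerivAt _ (-(1 / 2 * cD A β / hD A β)) β
        rw [hD_eq hA ⟨hβ.1.le, hβ.2.le⟩, cD_eq hA ⟨hβ.1.le, hβ.2.le⟩, e]
        exact h2
      · intro β hβ
        exact div_nonneg (mul_nonneg (by norm_num) (cD_nonneg hA _)) (Real.sqrt_nonneg _)
      · intro n β hβ
        have hy : 0 < hD A β := by
          rw [hD_eq hA ⟨hβ.1.le, hβ.2.le⟩]
          exact Real.sqrt_pos.2 (hypos β hβ)
        have hx : 0 ≤ cD A β := cD_nonneg hA _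
        unfold vD
        generalize cD A β = x at *
        generalize hD A β = y at *
        have hx1 : x ≤ max x (dl n) := le_max_left _ _
        have hy1 : y ≤ max y (dl n) := le_max_left _ _
        have hx0 : 0 < max x (dl n) := lt_max_of_lt_right (dl_pos n)
        have hy0 : 0 < max y (dl n) := lt_max_of_lt_right (dl_pos n)
        generalize max x (dl n) = X at *
        generalize max y (dl n) = Y at *
        refine ⟨by positivity, ?_⟩
        have e3 : x ^ 2 * (1 / 2 / (X * Y)) = (x / X) * (1 / 2 * x / Y) := by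
          field_simp
        rw [e3]
        have e4 : x / X ≤ 1 := div_le_one_of_le₀ hx1 (by positivity)
        calc (x / X) * (1 / 2 * x / Y) ≤ 1 * (1 / 2 * x / Y) := by gcongr
          _ ≤ 1 / 2 * x / y := by rw [one_mul]; gcongr
      · intro β hβ
        have hy : 0 < hD A β := by
          rw [hD_eq hA ⟨hβ.1.le, hβ.2.le⟩]
          exact Real.sqrt_pos.2 (hypos β hβ)
        have hx : 0 < cD A β := by
          rw [cD_eq hA ⟨hβ.1.le, hβ.2.le⟩]
          exact div_pos hβ.1 hA
        unfold vD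
        have h1 := max_dl_tendsto hx
        have h2 := max_dl_tendsto hy
        have h3 : Tendsto (fun n => cD A β ^ 2 * (1 / 2 /
            (max (cD A β) (dl n) * max (hD A β) (dl n)))) atTop
            (𝓝 (cD A β ^ 2 * (1 / 2 / (cD A β * hD A β)))) :=
          tendsto_const_nhds.mul (tendsto_const_nhds.div (h1.mul h2) (by positivity))
        have e5 : 1 / 2 * cD A β / hD A β =
            cD A β ^ 2 * (1 / 2 / (cD A β * hD A β)) := by field_simp
        show Tendsto _ _ (𝓝 (1 / 2 * cD A β / hD A β))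
        rw [e5]
        exact h3) hsc.continuousOn (by
      rw [hs]
      simp only
      rw [div_self hA.ne']
      simp) hA.le
  obtain ⟨t0, ht0⟩ := key
  refine ⟨t0, ?_⟩
  -- lower bound of `a`
  have hlow : ∀ᵐ t ∂(volume.restrict (Ioc (0 : ℝ) 1)),
      2 * Real.sqrt (r ^ 2 - dZ (t - t0) ^ 2) ≤ a t := by
    filter_upwards [ht0, ae_restrict_of_ae hle] with t h1 h2
    have h0 := (S.a01 t).1
    have hd := dZ_nonneg (t - t0)
    have h3 : s (a t) ^ 2 = r ^ 2 * (1 - (a t / A) ^ 2) := by
      rw [hs]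
      simp only
      rw [mul_pow, Real.sq_sqrt]
      have h3 := div_le_one_of_le₀ h2 hA.le
      have h4 : 0 ≤ a t / A := div_nonneg h0 hA.le
      nlinarith
    have h4 : 0 ≤ s (a t) := mul_nonneg hr.le (Real.sqrt_nonneg _)
    have h5 : s (a t) ^ 2 ≤ dZ (t - t0) ^ 2 := pow_le_pow_left₀ h4 h1 2
    have h6 : a t = 2 * Real.sqrt (r ^ 2 - s (a t) ^ 2) := by
      have : r ^ 2 - s (a t) ^ 2 = (a t / 2) ^ 2 := by
        rw [h3, hAdef]
        field_simp
        ring
      rw [this, Real.sqrt_sq (by positivity)]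
      ring
    rw [h6]
    have := Real.sqrt_le_sqrt (show r ^ 2 - dZ (t - t0) ^ 2 ≤ r ^ 2 - s (a t) ^ 2 by linarith)
    linarith
  have hgc : Continuous fun t => 2 * Real.sqrt (r ^ 2 - dZ (t - t0) ^ 2) := by
    have := dZ_continuous
    fun_prop
  have hgi : IntegrableOn (fun t => 2 * Real.sqrt (r ^ 2 - dZ (t - t0) ^ 2)) (Ioc 0 1) :=
    hgc.integrableOn_Ioc
  have hdi : ∫ t in Ioc (0 : ℝ) 1, (a t - 2 * Real.sqrt (r ^ 2 - dZ (t - t0) ^ 2)) = 0 := by
    rw [integral_sub hai hgi, ← intervalIntegral.integral_of_le zero_le_one,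
      ← intervalIntegral.integral_of_le zero_le_one, hV, integral_disc hr hr2]
    ring
  have h7 : ∀ᵐ t ∂(volume.restrict (Ioc (0 : ℝ) 1)),
      a t = 2 * Real.sqrt (r ^ 2 - dZ (t - t0) ^ 2) := by
    have h8 := (integral_eq_zero_iff_of_nonneg_ae (by
      filter_upwards [hlow] with t ht
      simp only [Pi.zero_apply, Pi.sub_apply]
      linarith) (hai.sub hgi)).1 hdi
    filter_upwards [h8] with t ht
    simp only [Pi.zero_apply, Pi.sub_apply] at ht
    linarith
  exact ae_of_periodic S.per_a (fun t => by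
    have : t + 1 - t0 = (t - t0) + 1 := by ring
    simp only [this, dZ_per (t - t0)]) h7

end Crest.Agent.R214
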