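import Crest.Agent.R214.Fub
import Crest.Agent.R214.Rig3

/-!
# Row 214, M7: a set with the marginals of a periodic ball is the ball
-/

set_option autoImplicit false

open MeasureTheory Filter Set Crest.GeometryTopology.PeriodicPerimeter
open scoped Topology ENNReal

namespace Crest.Agent.R214

theorem dZ_add_int (t : ℝ) (m : ℤ) : dZ (t + m) = dZ t := by
  unfold dZ
  rw [round_add_intCast]
  push_cast
  congr 1
  ring

/-- a periodic property that holds a.e. in the cell holds a.e. -/
theorem ae_of_cell {n : ℕ} {p : Ev n → Prop} (hp : ∀ v, HasIntegerCoords v → ∀ x, p (x + v) ↔ p x)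
    (h : ∀ᵐ x ∂(volume.restrict (unitCell n)), p x) : ∀ᵐ x, p x := by
  rw [ae_restrict_iff' (measurableSet_cell n), ae_iff] at h
  rw [ae_iff]
  refine (fd_cell n).measure_zero_of_invariant _ (fun g => ?_) ?_
  · ext x
    rw [mem_vadd_set_iff_neg_vadd_mem]
    have h1 : (-g : Lam n) +ᵥ x = x + ((-g : Lam n) : Ev n) := by
      show ((-g : Lam n) : Ev n) + x = x + ((-g : Lam n) : Ev n)
      exact add_comm _ _
    rw [h1]
    exact not_congr (hp _ (-g : Lam n).2 x)
  · refine measure_mono_null ?_ h
    rintro x ⟨h1, h2⟩ h3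
    exact h1 (h3 h2)

/-- periodic ball around `c`, squared radius `q` -/
def pball {n : ℕ} (c : Fin n → ℝ) (q : ℝ) : Set (Ev n) := {x | ∑ i, dZ (x i - c i) ^ 2 < q}

/-- the weight -/
noncomputable def wt {n : ℕ} (c : Fin n → ℝ) (x : Ev n) : ℝ := ∑ i, dZ (x i - c i) ^ 2

theorem wt_continuous {n : ℕ} (c : Fin n → ℝ) : Continuous (wt c) := by
  unfold wt
  refine continuous_finsetSum _ fun i _ => ?_
  exact (dZ_continuous.comp (by fun_prop)).pow 2

theorem pball_measurable {n : ℕ} (c : Fin n → ℝ) (q : ℝ) : MeasurableSet (pball c q) :=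
  measurableSet_lt (wt_continuous c).measurable measurable_const

theorem wt_per {n : ℕ} (c : Fin n → ℝ) {v : Ev n} (hv : HasIntegerCoords v) (x : Ev n) :
    wt c (x + v) = wt c x := by
  unfold wt
  refine Finset.sum_congr rfl fun i _ => ?_
  obtain ⟨m, hm⟩ := hv i
  have : (x + v) i - c i = (x i - c i) + (m : ℝ) := by
    rw [PiLp.add_apply, hm]
    ring
  rw [this, dZ_add_int]

theorem pball_periodic {n : ℕ} (c : Fin n → ℝ) (q : ℝ) : IsLatticePeriodic (pball c q) := by
  intro v hv x
  show wt c (x + v) < q ↔ wt c x < q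
  rw [wt_per c hv]

theorem wt_ins {n : ℕ} (d : Fin (n + 1)) (c : Fin (n + 1) → ℝ) (t : ℝ) (y : Ev n) :
    wt c (ins d t y) = dZ (t - c d) ^ 2 + wt (fun j => c (d.succAbove j)) y := by
  unfold wt
  rw [Fin.sum_univ_succAbove _ d, ins_same]
  simp_rw [ins_succAbove]

theorem slice_pball {n : ℕ} (d : Fin (n + 1)) (c : Fin (n + 1) → ℝ) (q t : ℝ) :
    slice d (pball c q) t = pball (fun j => c (d.succAbove j)) (q - dZ (t - c d) ^ 2) := by
  ext y
  show wt c (ins d t y) < q ↔ wt (fun j => c (d.succAbove j)) y < q - dZ (t - c d) ^ 2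
  rw [wt_ins]
  constructor <;> intro h <;> linarith

theorem countable_dZ (c s : ℝ) : {t : ℝ | dZ (t - c) ^ 2 = s}.Countable := by
  have h1 : {t : ℝ | dZ (t - c) ^ 2 = s} ⊆
      range (fun m : ℤ => c + m + Real.sqrt s) ∪ range (fun m : ℤ => c + m - Real.sqrt s) := by
    intro t ht
    have h2 : |t - c - round (t - c)| = Real.sqrt s := by
      have : dZ (t - c) ^ 2 = s := ht
      rw [← this, Real.sqrt_sq (dZ_nonneg _)]
      rfl
    rcases abs_choice (t - c - round (t - c)) with h | h
    · left
      refine ⟨round (t - c), ?_⟩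
      simp only
      rw [← h2, h]
      ring
    · right
      refine ⟨round (t - c), ?_⟩
      simp only
      rw [← h2, h]
      ring
  exact ((countable_range _).union (countable_range _)).mono h1

/-- level sets of the weight are null -/
theorem wt_level_null : ∀ (n : ℕ) (c : Fin (n + 1) → ℝ) (q : ℝ),
    volume {x : Ev (n + 1) | wt c x = q} = 0 := by
  intro n
  induction n with
  | zero =>
    intro c q
    have hm : MeasurableSet {x : Ev 1 | wt c x = q} :=
      measurableSet_eq_fun (wt_continuous c).measurable measurable_const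
    rw [← (ins_mp (0 : Fin 1)).measure_preimage_emb (ins_emb _)]
    rw [Measure.volume_eq_prod, Measure.measure_prod_null ((ins_emb _).measurable hm)]
    have h1 : ∀ᵐ t : ℝ, t ∉ {t : ℝ | dZ (t - c 0) ^ 2 = q} :=
      (measure_eq_zero_iff_ae_notMem).1 ((countable_dZ (c 0) q).measure_zero volume)
    filter_upwards [h1] with t ht
    have h2 : Prod.mk t ⁻¹' ((fun p : ℝ × Ev 0 => ins (0 : Fin 1) p.1 p.2) ⁻¹'
        {x : Ev 1 | wt c x = q}) = ∅ := by
      ext y
      simp only [mem_preimage, mem_empty_iff_false, iff_false]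
      intro h3
      apply ht
      have h4 : wt c (ins (0 : Fin 1) t y) = q := h3
      rw [wt_ins] at h4
      have h5 : wt (fun j => c ((0 : Fin 1).succAbove j)) y = 0 := by
        unfold wt
        simp
      rw [h5, add_zero] at h4
      exact h4
    rw [h2]
    simp
  | succ n ih =>
    intro c q
    have hm : MeasurableSet {x : Ev (n + 2) | wt c x = q} :=
      measurableSet_eq_fun (wt_continuous c).measurable measurable_const
    rw [← (ins_mp (0 : Fin (n + 2))).measure_preimage_emb (ins_emb _)]
    rw [Measure.volume_eq_prod, Measure.measure_prod_null ((ins_emb _).measurable hm)]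
    refine Eventually.of_forall fun t => ?_
    have h2 : Prod.mk t ⁻¹' ((fun p : ℝ × Ev (n + 1) => ins (0 : Fin (n + 2)) p.1 p.2) ⁻¹'
        {x : Ev (n + 2) | wt c x = q}) =
        {y | wt (fun j => c ((0 : Fin (n + 2)).succAbove j)) y = q - dZ (t - c 0) ^ 2} := by
      ext y
      show wt c (ins (0 : Fin (n + 2)) t y) = q ↔
        wt (fun j => c ((0 : Fin (n + 2)).succAbove j)) y = q - dZ (t - c 0) ^ 2
      rw [wt_ins]
      constructor <;> intro h <;> linarith
    show volume (Prod.mk t ⁻¹' ((fun p : ℝ × Ev (n + 1) => ins (0 : Fin (n + 2)) p.1 p.2) ⁻¹'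
        {x : Ev (n + 2) | wt c x = q})) = 0
    rw [h2]
    exact ih _ _

/-- marginals -/
theorem marg {n : ℕ} {E : Set (Ev (n + 1))} (hE : MeasurableSet E) (d : Fin (n + 1)) {w : ℝ → ℝ}
    (hw : Continuous w) : ∫ x in unitCell (n + 1), E.indicator (fun x => w (x d)) x =
      ∫ t in (0 : ℝ)..1, w t * sl d E t := by
  have hc : Continuous fun x : Ev (n + 1) => w (x d) := hw.comp (by fun_prop)
  have hi : IntegrableOn (E.indicator fun x => w (x d)) (unitCell (n + 1)) :=
    Integrable.indicator (integrable_cell hc) hE
  rw [cell_fubini d hi]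
  refine intervalIntegral.integral_congr fun t _ => ?_
  have h1 : ∀ y : Ev n, E.indicator (fun x => w (x d)) (ins d t y) =
      (slice d E t).indicator (fun _ => w t) y := by
    intro y
    by_cases h : ins d t y ∈ E
    · rw [indicator_of_mem h, indicator_of_mem (show y ∈ slice d E t from h), ins_same]
    · rw [indicator_of_notMem h, indicator_of_notMem (show y ∉ slice d E t from h)]
  simp_rw [h1]
  rw [integral_indicator (slice_measurable hE t), Measure.restrict_restrict (slice_measurable hE t)]
  rw [setIntegral_const, smul_eq_mul, mul_comm]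
  rfl

theorem wt_integral {n : ℕ} {E : Set (Ev (n + 1))} (hE : MeasurableSet E) (c : Fin (n + 1) → ℝ) :
    ∫ x in unitCell (n + 1), E.indicator (wt c) x =
      ∑ d, ∫ t in (0 : ℝ)..1, dZ (t - c d) ^ 2 * sl d E t := by
  have hcd : ∀ d, Continuous fun t : ℝ => dZ (t - c d) ^ 2 := fun d =>
    (dZ_continuous.comp (by fun_prop)).pow 2
  have h1 : ∀ x, E.indicator (wt c) x =
      ∑ d, E.indicator (fun x : Ev (n + 1) => dZ (x d - c d) ^ 2) x := by
    intro x
    by_cases h : x ∈ E
    · rw [indicator_of_mem h]
      unfold wt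
      refine Finset.sum_congr rfl fun d _ => ?_
      rw [indicator_of_mem h]
    · rw [indicator_of_notMem h]
      rw [Finset.sum_eq_zero]
      intro d _
      rw [indicator_of_notMem h]
  simp_rw [h1]
  rw [integral_finsetSum]
  · refine Finset.sum_congr rfl fun d _ => ?_
    exact marg hE d (hcd d)
  · intro d _
    have hc : Continuous fun x : Ev (n + 1) => dZ (x d - c d) ^ 2 :=
      (hcd d).comp (by fun_prop : Continuous fun x : Ev (n + 1) => x d)
    exact Integrable.indicator (integrable_cell hc) hE

/-- **Bathtub.**  A set with the marginals of a periodic ball is the ball. -/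
theorem bathtub {n : ℕ} {E : Set (Ev (n + 1))} (hE : MeasurableSet E) (hp : IsLatticePeriodic E)
    (c : Fin (n + 1) → ℝ) (q : ℝ) (h : ∀ d, ∀ᵐ t, sl d E t = sl d (pball c q) t) :
    volume (symmDiff E (pball c q)) = 0 := by
  set B := pball c q with hB
  have hBm : MeasurableSet B := pball_measurable c q
  have hBp : IsLatticePeriodic B := pball_periodic c q
  have hcell : ∀ᵐ x ∂(volume.restrict (unitCell (n + 1))), (x ∈ E ↔ x ∈ B) := by
    have e1 : ∫ x in unitCell (n + 1), E.indicator (wt c) x =
        ∫ x in unitCell (n + 1), B.indicator (wt c) x := by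
      rw [wt_integral hE, wt_integral hBm]
      refine Finset.sum_congr rfl fun d _ => ?_
      refine intervalIntegral.integral_congr_ae ?_
      filter_upwards [h d] with t ht _
      rw [ht]
    have e2 : ∫ x in unitCell (n + 1), E.indicator (fun _ => q) x =
        ∫ x in unitCell (n + 1), B.indicator (fun _ => q) x := by
      have k1 := marg hE (0 : Fin (n + 1)) (w := fun _ => q) continuous_const
      have k2 := marg hBm (0 : Fin (n + 1)) (w := fun _ => q) continuous_const
      rw [k1, k2]
      refine intervalIntegral.integral_congr_ae ?_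
      filter_upwards [h 0] with t ht _
      rw [ht]
    have iw : IntegrableOn (wt c) (unitCell (n + 1)) := integrable_cell (wt_continuous c)
    have iq : IntegrableOn (fun _ : Ev (n + 1) => q) (unitCell (n + 1)) :=
      integrable_cell continuous_const
    have i1 : IntegrableOn (E.indicator (wt c)) (unitCell (n + 1)) := iw.indicator hE
    have i2 : IntegrableOn (B.indicator (wt c)) (unitCell (n + 1)) := iw.indicator hBm
    have i3 : IntegrableOn (E.indicator fun _ => q) (unitCell (n + 1)) := iq.indicator hE
    have i4 : IntegrableOn (B.indicator fun _ => q) (unitCell (n + 1)) := iq.indicator hBm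
    set D : Ev (n + 1) → ℝ := fun x => (E.indicator (wt c) x - B.indicator (wt c) x) -
      (E.indicator (fun _ => q) x - B.indicator (fun _ => q) x) with hD
    have iD : IntegrableOn D (unitCell (n + 1)) := (i1.sub i2).sub (i3.sub i4)
    have e3 : ∫ x in unitCell (n + 1), D x = 0 := by
      rw [hD]
      have j1 : Integrable (fun x => E.indicator (wt c) x - B.indicator (wt c) x)
          (volume.restrict (unitCell (n + 1))) := i1.sub i2
      have j2 : Integrable (fun x => E.indicator (fun _ => q) x - B.indicator (fun _ => q) x)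
          (volume.restrict (unitCell (n + 1))) := i3.sub i4
      rw [integral_sub j1 j2, integral_sub i1 i2, integral_sub i3 i4, e1, e2]
      ring
    have hD0 : ∀ x, 0 ≤ D x := by
      intro x
      rw [hD]
      by_cases hx : x ∈ E
      · by_cases hy : x ∈ B
        · simp only [indicator_of_mem hx, indicator_of_mem hy]
          linarith
        · have hy' : ¬ wt c x < q := hy
          simp only [indicator_of_mem hx, indicator_of_notMem hy]
          linarith
      · by_cases hy : x ∈ B
        · have hy' : wt c x < q := hy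
          simp only [indicator_of_notMem hx, indicator_of_mem hy]
          linarith
        · simp only [indicator_of_notMem hx, indicator_of_notMem hy]
          linarith
    have h0 := (integral_eq_zero_iff_of_nonneg_ae (Eventually.of_forall hD0) iD).1 e3
    have hne : ∀ᵐ x : Ev (n + 1), x ∉ {x : Ev (n + 1) | wt c x = q} :=
      (measure_eq_zero_iff_ae_notMem).1 (wt_level_null n c q)
    filter_upwards [h0, ae_restrict_of_ae hne] with x hx hx2
    have hx3 : wt c x ≠ q := hx2
    have hx4 : D x = 0 := hx
    rw [hD] at hx4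
    by_cases hx : x ∈ E
    · by_cases hy : x ∈ B
      · exact ⟨fun _ => hy, fun _ => hx⟩
      · simp only [indicator_of_mem hx, indicator_of_notMem hy] at hx4
        exact absurd (by linarith) hx3
    · by_cases hy : x ∈ B
      · simp only [indicator_of_notMem hx, indicator_of_mem hy] at hx4
        exact absurd (by linarith) hx3
      · exact ⟨fun h => absurd h hx, fun h => absurd h hy⟩
  have hall : ∀ᵐ x : Ev (n + 1), (x ∈ E ↔ x ∈ B) :=
    ae_of_cell (fun v hv x => by rw [hp v hv x, hBp v hv x]) hcell
  rw [measure_symmDiff_eq_zero_iff]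
  filter_upwards [hall] with x hx
  exact propext hx

end Crest.Agent.R214
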