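import Crest.Agent.R214.SD2
import Crest.Agent.R214.Box

/-! ROW 214: two-dimensional isoperimetric inequality, abstract form (helper10). -/

set_option autoImplicit false
open MeasureTheory Set Filter Topology intervalIntegral

namespace Crest.Agent.R214

/-- the profile `I₁`: `1` on `(0,1)`, `0` at `0` and `1` -/
noncomputable def I1 (s : ℝ) : ℝ := if 0 < s ∧ s < 1 then 1 else 0

/-- the profile `I₂` (half perimeter), see `Box.lean` -/
lemma I2_eq (s : ℝ) :
    I2 s = min (min (Real.sqrt (Real.pi * s)) 1) (Real.sqrt (Real.pi * (1 - s))) := by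
  have hm : Monotone Real.sqrt := fun x y h => Real.sqrt_le_sqrt h
  unfold I2 w2
  rw [hm.map_min, hm.map_min, Real.sqrt_one, min_assoc]

lemma I1_meas : Measurable I1 :=
  Measurable.ite ((measurableSet_Ioi (a := (0:ℝ))).inter (measurableSet_Iio (a := (1:ℝ))))
    measurable_const measurable_const

lemma I1_nonneg (s : ℝ) : 0 ≤ I1 s := by unfold I1; split_ifs <;> norm_num

/-- `∫_0^L sqrt(1-(s/L)^2) = π L / 4` -/
lemma integral_circle {L : ℝ} (hL : 0 < L) :
    ∫ s in (0:ℝ)..L, Real.sqrt (1 - (s / L) ^ 2) = Real.pi * L / 4 := by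
  have h1 : ∫ s in (0:ℝ)..L, Real.sqrt (1 - (s / L) ^ 2) =
      L * ∫ x in (0:ℝ)..1, Real.sqrt (1 - x ^ 2) := by
    have := intervalIntegral.integral_comp_div (a := 0) (b := L) (fun x => Real.sqrt (1 - x ^ 2)) hL.ne'
    rw [this, zero_div, div_self hL.ne', smul_eq_mul]
  have hc : Continuous fun x : ℝ => Real.sqrt (1 - x ^ 2) := by fun_prop
  have h2 : ∫ x in (-1:ℝ)..0, Real.sqrt (1 - x ^ 2) = ∫ x in (0:ℝ)..1, Real.sqrt (1 - x ^ 2) := by
    have := intervalIntegral.integral_comp_neg (a := 0) (b := 1) (fun x => Real.sqrt (1 - x ^ 2))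
    simp only [neg_sq, neg_zero] at this
    exact this.symm
  have h3 : (∫ x in (-1:ℝ)..0, Real.sqrt (1 - x ^ 2)) + ∫ x in (0:ℝ)..1, Real.sqrt (1 - x ^ 2) =
      Real.pi / 2 := by
    rw [intervalIntegral.integral_add_adjacent_intervals (hc.intervalIntegrable _ _)
      (hc.intervalIntegrable _ _)]
    exact integral_sqrt_one_sub_sq
  rw [h1]
  have : ∫ x in (0:ℝ)..1, Real.sqrt (1 - x ^ 2) = Real.pi / 4 := by linarith
  rw [this]; ring

/-- AM-GM step -/
lemma amgm_disc {v L p : ℝ} (hL : 0 < L) (hv : 0 ≤ v) (hp : v / L + Real.pi * L / 4 ≤ p) :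
    Real.sqrt (Real.pi * v) ≤ p := by
  have hpos : 0 < v / L + Real.pi * L / 4 := by positivity
  refine le_trans ?_ hp
  apply Real.sqrt_le_iff.2
  refine ⟨hpos.le, ?_⟩
  have h1 : (v / L) * (Real.pi * L / 4) * 4 = Real.pi * v := by field_simp
  nlinarith [sq_nonneg (v / L - Real.pi * L / 4)]

section

variable {P : ℝ} {l : ℝ → ℝ}

lemma SD.int_a_nonneg {a J : ℝ → ℝ} (S : SD P a J) : 0 ≤ ∫ x in (0:ℝ)..1, a x :=
  intervalIntegral.integral_nonneg zero_le_one fun x _ => (S.a01 x).1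

/-- case `0 < l < 1` a.e. -/
lemma SD.iso_strip (S : SD P l (fun x => I1 (l x))) (h : ∀ᵐ x : ℝ, 0 < l x ∧ l x < 1) :
    1 ≤ P / 2 := by
  have := (S.lm (fun _ => 1) (fun _ => 0) continuous_const continuous_const (fun _ => zero_le_one)
    (fun _ => le_rfl) (fun _ => by norm_num) (a1 := 1) (a2 := 0) (fun δ hδ => ?_)
    (fun δ hδ => ?_)).2
  · simp only [one_mul, intervalIntegral.integral_zero, add_zero] at this
    have e : ∫ x in (0:ℝ)..1, I1 (l x) = 1 := by
      rw [intervalIntegral.integral_congr_ae (g := fun _ => (1:ℝ)) (h.mono fun x hx _ => by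
        unfold I1; rw [if_pos hx])]
      simp
    linarith
  · have : {x | l x < 1 + δ} = univ := by
      ext x; simp only [mem_univ, iff_true]; show l x < 1 + δ; linarith [(S.a01 x).2]
    rw [this]; simp
  · have : {x | 0 - δ < l x} = univ := by
      ext x; simp only [mem_univ, iff_true]; show 0 - δ < l x; linarith [(S.a01 x).1]
    rw [this]; simp

/-- both `{l = 0}` and `{l = 1}` have positive measure -/
lemma SD.iso_both {a J : ℝ → ℝ} (S : SD P a J) (h0 : 0 < volume ({x | a x = 0} ∩ Ico 0 1))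
    (h1 : 0 < volume ({x | a x = 1} ∩ Ico 0 1)) : 1 ≤ P / 2 := by
  have := (S.lm (fun _ => 0) (fun _ => 1) continuous_const continuous_const (fun _ => le_rfl)
    (fun _ => zero_le_one) (fun _ => by norm_num) (a1 := 0) (a2 := 1) (fun δ hδ => ?_)
    (fun δ hδ => ?_)).2
  · simpa using this
  · refine lt_of_lt_of_le h0 (measure_mono (inter_subset_inter_left _ fun x (hx : a x = 0) => ?_))
    show a x < 0 + δ
    rw [hx]; linarith
  · refine lt_of_lt_of_le h1 (measure_mono (inter_subset_inter_left _ fun x (hx : a x = 1) => ?_))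
    show 1 - δ < a x
    rw [hx]; linarith

/-- `{l = 1}` null, `{l = 0}` positive: disc bound; more precisely the one-parameter bound
with `L = ess sup l` -/
lemma SD.iso_disc_aux (S : SD P l (fun x => I1 (l x))) (h0 : 0 < volume ({x | l x = 0} ∩ Ico 0 1))
    (h1 : ∀ᵐ x : ℝ, l x < 1) {L : ℝ} (hL : 0 < L) (hae : ∀ᵐ x : ℝ, l x ≤ L)
    (hsup : ∀ δ > 0, 0 < volume ({x | L - δ < l x} ∩ Ico 0 1)) :
    (∫ x in (0:ℝ)..1, l x) / L + Real.pi * L / 4 ≤ P / 2 := by
  have hcc : Continuous fun s : ℝ => s / L := continuous_id.div_const L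
  have hhc : Continuous fun s : ℝ => Real.sqrt (1 - (s / L) ^ 2) := by fun_prop
  have := S.lm_affine (a1 := 0) (a2 := L) hL.le
    (by filter_upwards [hae] with x hx; exact ⟨(S.a01 x).1, hx⟩)
    (fun δ hδ => lt_of_lt_of_le h0 (measure_mono (inter_subset_inter_left _
      fun x (hx : l x = 0) => by show l x < 0 + δ; rw [hx]; linarith))) hsup
    (fun s => s / L) (fun s => Real.sqrt (1 - (s / L) ^ 2)) hcc.continuousOn hhc.continuousOn
    (fun s hs => div_nonneg hs.1 hL.le) (fun s _ => Real.sqrt_nonneg _)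
    (fun s hs => by
      have h2 : (s / L) ^ 2 ≤ 1 := by
        have : s / L ≤ 1 := (div_le_one hL).2 hs.2
        have h3 : 0 ≤ s / L := div_nonneg hs.1 hL.le
        nlinarith
      rw [Real.sq_sqrt (by linarith)]; linarith) 0 (1 / L) (by
      filter_upwards [h1] with x hx
      rw [zero_add, one_div, inv_mul_eq_div]
      rcases eq_or_lt_of_le (S.a01 x).1 with hz | hz
      · rw [← hz]; simp
      · have : I1 (l x) = 1 := by unfold I1; rw [if_pos ⟨hz, hx⟩]
        rw [this, mul_one])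
  rw [integral_circle hL] at this
  have e : 0 + 1 / L * (∫ x in (0:ℝ)..1, l x) = (∫ x in (0:ℝ)..1, l x) / L := by ring
  linarith

/-- disc bound -/
lemma SD.iso_disc (S : SD P l (fun x => I1 (l x))) (h0 : 0 < volume ({x | l x = 0} ∩ Ico 0 1))
    (h1 : ∀ᵐ x : ℝ, l x < 1) : Real.sqrt (Real.pi * ∫ x in (0:ℝ)..1, l x) ≤ P / 2 := by
  obtain ⟨a1, L, k1, k2, k3, k4, k5, k6⟩ := S.exists_range
  rcases eq_or_lt_of_le (k1.trans k2) with hz | hpos
  · -- l = 0 a.e.
    have e : ∫ x in (0:ℝ)..1, l x = 0 := by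
      rw [intervalIntegral.integral_congr_ae (g := fun _ => (0:ℝ)) (k4.mono fun x hx _ => by
        have := (S.a01 x).1
        have := hx.2
        linarith)]
      simp
    rw [e, mul_zero, Real.sqrt_zero]
    obtain ⟨an, Tn, Q⟩ := S.seq
    have := Q.bound 0
    have h2 : 0 ≤ ∫ x in (0:ℝ)..1, Real.sqrt ((Tn 0 x) ^ 2 + (deriv (an 0) x) ^ 2) :=
      intervalIntegral.integral_nonneg zero_le_one fun x _ => Real.sqrt_nonneg _
    linarith
  · exact amgm_disc hpos S.int_a_nonneg
      (S.iso_disc_aux h0 h1 hpos (k4.mono fun x hx => hx.2) k6)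

/-- complement of the datum with `I1` -/
lemma SD.compl_I1 (S : SD P l (fun x => I1 (l x))) :
    SD P (fun x => 1 - l x) (fun x => I1 (1 - l x)) := by
  have e : (fun x => I1 (1 - l x)) = fun x => I1 (l x) := by
    funext x
    unfold I1
    by_cases h : 0 < l x ∧ l x < 1
    · rw [if_pos h, if_pos ⟨by linarith [h.2], by linarith [h.1]⟩]
    · rw [if_neg h, if_neg]
      intro h'
      exact h ⟨by linarith [h'.2], by linarith [h'.1]⟩
  rw [e]
  exact S.compl

lemma SD.intervalIntegrable_a {a J : ℝ → ℝ} (S : SD P a J) (u v : ℝ) :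
    IntervalIntegrable a volume u v := by
  rw [intervalIntegrable_iff]
  refine Integrable.mono' (g := fun _ => (1:ℝ)) ?_ S.meas_a.aestronglyMeasurable ?_
  · exact intervalIntegrable_iff.1 intervalIntegrable_const
  · refine Eventually.of_forall fun x => ?_
    rw [Real.norm_eq_abs, abs_of_nonneg (S.a01 x).1]
    exact (S.a01 x).2

lemma SD.int_compl {a J : ℝ → ℝ} (S : SD P a J) :
    ∫ x in (0:ℝ)..1, (1 - a x) = 1 - ∫ x in (0:ℝ)..1, a x := by
  rw [intervalIntegral.integral_sub intervalIntegrable_const (S.intervalIntegrable_a 0 1)]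
  simp

/-- zero measure on the cell gives a.e. -/
lemma ae_of_cell_null (p : ℝ → Prop) (hp : ∀ x, p (x + 1) ↔ p x)
    (h0 : volume ({x | ¬ p x} ∩ Ico 0 1) = 0) : ∀ᵐ x : ℝ, p x := by
  have hpz : ∀ (k : ℤ) x, p (x + k) ↔ p x := by
    intro k
    induction k using Int.induction_on with
    | zero => intro x; simp
    | succ n ih => intro x; push_cast; rw [← add_assoc, hp]; exact ih x
    | pred n ih =>
      intro x
      rw [← hp]
      push_cast
      have : x + (-(n:ℝ) - 1) + 1 = x + (-(n:ℝ)) := by ring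
      rw [this]
      simpa using ih x
  rw [ae_iff]
  have hcov : {x | ¬ p x} ⊆ ⋃ k : ℤ, (fun x => x + (k : ℝ)) ⁻¹' ({x | ¬ p x} ∩ Ico 0 1) := by
    intro x hx
    refine mem_iUnion.2 ⟨-⌊x⌋, ?_⟩
    refine ⟨?_, ?_⟩
    · show ¬ p _
      rw [hpz]; exact hx
    · have h1 := Int.floor_le x
      have h2 := Int.lt_floor_add_one x
      constructor
      · push_cast; linarith
      · push_cast; linarith
  refine measure_mono_null hcov (measure_iUnion_null fun k => ?_)
  rw [measure_preimage_add_right]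
  exact h0

/-- the five cases -/
lemma SD.cases2 (S : SD P l (fun x => I1 (l x))) :
    (1 ≤ P / 2 ∧ ((∀ᵐ x : ℝ, 0 < l x ∧ l x < 1) ∨
        (0 < volume ({x | l x = 0} ∩ Ico 0 1) ∧ 0 < volume ({x | l x = 1} ∩ Ico 0 1)))) ∨
      (0 < volume ({x | l x = 0} ∩ Ico 0 1) ∧ (∀ᵐ x : ℝ, l x < 1) ∧
        Real.sqrt (Real.pi * ∫ x in (0:ℝ)..1, l x) ≤ P / 2) ∨
      ((∀ᵐ x : ℝ, 0 < l x) ∧ 0 < volume ({x | l x = 1} ∩ Ico 0 1) ∧
        Real.sqrt (Real.pi * (1 - ∫ x in (0:ℝ)..1, l x)) ≤ P / 2) := by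
  rcases eq_or_ne (volume ({x | l x = 0} ∩ Ico 0 1)) 0 with h0 | h0
  · have h0' : ∀ᵐ x : ℝ, 0 < l x := by
      have := ae_of_cell_null (fun x => l x ≠ 0) (fun x => by rw [S.per_a x]) (by
        simpa only [ne_eq, not_not] using h0)
      filter_upwards [this] with x hx
      exact lt_of_le_of_ne (S.a01 x).1 (Ne.symm hx)
    rcases eq_or_ne (volume ({x | l x = 1} ∩ Ico 0 1)) 0 with h1 | h1
    · have h1' : ∀ᵐ x : ℝ, l x < 1 := by
        have := ae_of_cell_null (fun x => l x ≠ 1) (fun x => by rw [S.per_a x]) (by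
          simpa only [ne_eq, not_not] using h1)
        filter_upwards [this] with x hx
        exact lt_of_le_of_ne (S.a01 x).2 hx
      have h01 := h0'.and h1'
      exact Or.inl ⟨S.iso_strip h01, Or.inl h01⟩
    · refine Or.inr (Or.inr ⟨h0', pos_iff_ne_zero.2 h1, ?_⟩)
      have := S.compl_I1.iso_disc (by
        have e : {x | 1 - l x = 0} = {x | l x = 1} := by
          ext x
          show 1 - l x = 0 ↔ l x = 1
          constructor <;> intro h <;> linarith
        rw [e]; exact pos_iff_ne_zero.2 h1) (by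
          filter_upwards [h0'] with x hx; linarith)
      rwa [S.int_compl] at this
  · rcases eq_or_ne (volume ({x | l x = 1} ∩ Ico 0 1)) 0 with h1 | h1
    · have h1' : ∀ᵐ x : ℝ, l x < 1 := by
        have := ae_of_cell_null (fun x => l x ≠ 1) (fun x => by rw [S.per_a x]) (by
          simpa only [ne_eq, not_not] using h1)
        filter_upwards [this] with x hx
        exact lt_of_le_of_ne (S.a01 x).2 hx
      exact Or.inr (Or.inl ⟨pos_iff_ne_zero.2 h0, h1', S.iso_disc (pos_iff_ne_zero.2 h0) h1'⟩)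
    · exact Or.inl ⟨S.iso_both (pos_iff_ne_zero.2 h0) (pos_iff_ne_zero.2 h1),
        Or.inr ⟨pos_iff_ne_zero.2 h0, pos_iff_ne_zero.2 h1⟩⟩

/-- two-dimensional isoperimetric inequality (abstract form) -/
theorem SD.iso2 (S : SD P l (fun x => I1 (l x))) : I2 (∫ x in (0:ℝ)..1, l x) ≤ P / 2 := by
  rw [I2_eq]
  rcases S.cases2 with ⟨h, -⟩ | ⟨-, -, h⟩ | ⟨-, -, h⟩
  · exact ((min_le_left _ _).trans (min_le_right _ _)).trans h
  · exact ((min_le_left _ _).trans (min_le_left _ _)).trans h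
  · exact (min_le_right _ _).trans h

end

end Crest.Agent.R214
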