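import Crest.Agent.R214.Defs

/-!
# Row 214: the energy `∫ ‖gr u‖` of a periodic function and the perimeter
-/

set_option autoImplicit false

open MeasureTheory Crest.GeometryTopology.PeriodicPerimeter Filter
open scoped ENNReal Topology

namespace Crest.Agent.R214

variable {n : ℕ} {u : Ev n → ℝ}

theorem gr_continuous (hu : ContDiff ℝ 1 u) : Continuous (gr u) := by
  have hc : Continuous fun x => fderiv ℝ u x := hu.continuous_fderiv one_ne_zero
  unfold gr
  refine (PiLp.continuous_toLp 2 _).comp (continuous_pi fun i => ?_)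
  exact hc.clm_apply continuous_const

theorem gr_isPer (hp : IsPer u) : IsPer (gr u) := by
  intro v hv x
  have h1 : fderiv ℝ u (x + v) = fderiv ℝ u x := by
    have h2 : (fun y => u (y + v)) = u := funext fun y => hp v hv y
    rw [← fderiv_comp_add_right, h2]
  unfold gr
  rw [h1]

theorem gr_contDiff (hu : ContDiff ℝ 2 u) : ContDiff ℝ 1 (gr u) := by
  have hc : ContDiff ℝ 1 fun x => fderiv ℝ u x := hu.fderiv_right (by norm_num)
  rw [contDiff_euclidean]
  intro i
  exact hc.clm_apply contDiff_const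

theorem sum_eq_inner (a b : Ev n) : ∑ i, a i * b i = inner ℝ a b := by
  rw [PiLp.inner_apply]
  refine Finset.sum_congr rfl fun i _ => ?_
  simp [mul_comm]

theorem divergence_smul (hu : ContDiff ℝ 1 u) {X : Ev n → Ev n} (hX : ContDiff ℝ 1 X) (x : Ev n) :
    divergence (fun x => u x • X x) x = u x * divergence X x + ∑ i, gr u x i * X x i := by
  unfold divergence
  rw [Finset.mul_sum, ← Finset.sum_add_distrib]
  refine Finset.sum_congr rfl fun i _ => ?_
  rw [fderiv_fun_smul (hu.differentiable one_ne_zero x) (hX.differentiable one_ne_zero x)]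
  simp [gr]

/-- integration by parts on the cell -/
theorem ibp (hu : ContDiff ℝ 1 u) (hp : IsPer u) {X : Ev n → Ev n} (hX : ContDiff ℝ 1 X)
    (hXp : IsPer X) :
    ∫ x in unitCell n, u x * divergence X x = - ∫ x in unitCell n, ∑ i, gr u x i * X x i := by
  have h1 : ∫ x in unitCell n, divergence (fun x => u x • X x) x = 0 := by
    apply cell_integral_divergence (hu.smul hX)
    intro v hv x
    show u (x + v) • X (x + v) = u x • X x
    rw [hp v hv x, hXp v hv x]
  have hg : Continuous (gr u) := gr_continuous hu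
  have hXc : Continuous X := hX.continuous
  have huc : Continuous u := hu.continuous
  have hd : Continuous (divergence X) := continuous_divergence hX
  have h2 : ∫ x in unitCell n, divergence (fun x => u x • X x) x =
      (∫ x in unitCell n, u x * divergence X x) + ∫ x in unitCell n, ∑ i, gr u x i * X x i := by
    rw [← integral_add]
    · refine integral_congr_ae (Eventually.of_forall fun x => ?_)
      exact divergence_smul hu hX x
    · exact integrable_cell (huc.mul hd)
    · apply integrable_cell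
      refine continuous_finsetSum _ fun i _ => ?_
      fun_prop
  rw [h2] at h1
  linarith

theorem test_le_energy (hu : ContDiff ℝ 1 u) (hp : IsPer u) {X : Ev n → Ev n}
    (hX : IsAdmissibleField X) :
    ∫ x in unitCell n, u x * divergence X x ≤ ∫ x in unitCell n, ‖gr u x‖ := by
  have hg : Continuous (gr u) := gr_continuous hu
  have hXc : Continuous X := hX.1.continuous
  rw [ibp hu hp hX.1 hX.2.1, ← integral_neg]
  apply integral_mono
  · apply integrable_cell
    refine Continuous.neg (continuous_finsetSum _ fun i _ => ?_)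
    fun_prop
  · exact integrable_cell hg.norm
  · intro x
    show -∑ i, gr u x i * X x i ≤ ‖gr u x‖
    rw [sum_eq_inner]
    have h1 : |inner ℝ (gr u x) (X x)| ≤ ‖gr u x‖ * ‖X x‖ := abs_real_inner_le_norm _ _
    have h2 : ‖gr u x‖ * ‖X x‖ ≤ ‖gr u x‖ * 1 :=
      mul_le_mul_of_nonneg_left (hX.2.2 x) (norm_nonneg _)
    have h3 := neg_abs_le (inner ℝ (gr u x) (X x))
    linarith

theorem aux_sqrt {g δ : ℝ} (hg : 0 ≤ g) (hδ : 0 < δ) :
    g - δ ≤ (√(g ^ 2 + δ ^ 2))⁻¹ * g ^ 2 := by
  have hs : 0 < √(g ^ 2 + δ ^ 2) := Real.sqrt_pos.2 (by positivity)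
  have hs2 : √(g ^ 2 + δ ^ 2) ≤ g + δ := by
    rw [Real.sqrt_le_left (by linarith)]
    nlinarith [mul_nonneg hg hδ.le]
  rw [inv_mul_eq_div, le_div_iff₀ hs]
  rcases le_or_gt g δ with h | h
  · have : (g - δ) * √(g ^ 2 + δ ^ 2) ≤ 0 := mul_nonpos_of_nonpos_of_nonneg (by linarith) hs.le
    nlinarith [sq_nonneg g]
  · have : (g - δ) * √(g ^ 2 + δ ^ 2) ≤ (g - δ) * (g + δ) :=
      mul_le_mul_of_nonneg_left hs2 (by linarith)
    nlinarith [sq_nonneg δ]

theorem admissible_normalized (hu : ContDiff ℝ 2 u) (hp : IsPer u) {δ : ℝ} (hδ : 0 < δ) :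
    IsAdmissibleField fun x => -((√(‖gr u x‖ ^ 2 + δ ^ 2))⁻¹ • gr u x) := by
  have hpos : ∀ x, 0 < ‖gr u x‖ ^ 2 + δ ^ 2 := fun x => by positivity
  have hs : ∀ x, 0 < √(‖gr u x‖ ^ 2 + δ ^ 2) := fun x => Real.sqrt_pos.2 (hpos x)
  have hg : ContDiff ℝ 1 (gr u) := gr_contDiff hu
  refine ⟨?_, ?_, ?_⟩
  · have h1 : ContDiff ℝ 1 fun x => ‖gr u x‖ ^ 2 + δ ^ 2 := (hg.norm_sq ℝ).add contDiff_const
    have h2 : ContDiff ℝ 1 fun x => √(‖gr u x‖ ^ 2 + δ ^ 2) := h1.sqrt fun x => (hpos x).ne'
    have h3 : ContDiff ℝ 1 fun x => (√(‖gr u x‖ ^ 2 + δ ^ 2))⁻¹ := h2.inv fun x => (hs x).ne'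
    exact (h3.smul hg).neg
  · intro v hv x
    show -((√(‖gr u (x + v)‖ ^ 2 + δ ^ 2))⁻¹ • gr u (x + v)) =
      -((√(‖gr u x‖ ^ 2 + δ ^ 2))⁻¹ • gr u x)
    rw [gr_isPer hp v hv x]
  · intro x
    rw [norm_neg, norm_smul, norm_inv, Real.norm_of_nonneg (hs x).le, inv_mul_eq_div,
      div_le_one (hs x)]
    apply Real.le_sqrt_of_sq_le
    have := sq_nonneg δ
    linarith

theorem energy_of_test (hu : ContDiff ℝ 2 u) (hp : IsPer u) {P : ℝ}
    (h : ∀ X, IsAdmissibleField X → ∫ x in unitCell n, u x * divergence X x ≤ P) :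
    ∫ x in unitCell n, ‖gr u x‖ ≤ P := by
  have hu1 : ContDiff ℝ 1 u := hu.of_le (by norm_num)
  have hg : Continuous (gr u) := gr_continuous hu1
  set V : ℝ := (volume.restrict (unitCell n)).real (Set.univ : Set (Ev n)) with hV
  have hV0 : 0 ≤ V := measureReal_nonneg
  apply le_of_forall_pos_le_add
  intro ε hε
  set δ : ℝ := ε / (V + 1) with hδd
  have hδ : 0 < δ := by positivity
  have hX := admissible_normalized hu hp hδ
  have h1 := h _ hX
  rw [ibp hu1 hp hX.1 hX.2.1, ← integral_neg] at h1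
  have h2 : ∫ x in unitCell n, (‖gr u x‖ - δ) ≤ P := by
    refine le_trans ?_ h1
    apply integral_mono
    · exact integrable_cell (hg.norm.sub continuous_const)
    · apply integrable_cell
      have hXc := hX.1.continuous
      refine Continuous.neg (continuous_finsetSum _ fun i _ => ?_)
      have h3 : Continuous fun x => gr u x i := by fun_prop
      have h4 : Continuous fun x => (-((√(‖gr u x‖ ^ 2 + δ ^ 2))⁻¹ • gr u x)) i :=
        (EuclideanSpace.proj i : Ev n →L[ℝ] ℝ).continuous.comp hXc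
      exact h3.mul h4
    · intro x
      show ‖gr u x‖ - δ ≤ -∑ i, gr u x i * (-((√(‖gr u x‖ ^ 2 + δ ^ 2))⁻¹ • gr u x)) i
      rw [sum_eq_inner, inner_neg_right, neg_neg, real_inner_smul_right,
        real_inner_self_eq_norm_sq]
      exact aux_sqrt (norm_nonneg _) hδ
  rw [integral_sub (integrable_cell hg.norm) (integrable_const δ), integral_const] at h2
  have h3 : V * δ ≤ ε := by
    rw [hδd, mul_div_assoc', div_le_iff₀ (by positivity)]
    nlinarith
  rw [← hV, smul_eq_mul] at h2
  linarith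

theorem perim_lsc {E : Set (Ev n)} (hE : MeasurableSet E) {v : ℕ → Ev n → ℝ}
    (hv : ∀ k, ContDiff ℝ 1 (v k)) (hp : ∀ k, IsPer (v k)) (hb : ∀ k x, |v k x| ≤ 1)
    (hc : ∀ᵐ x, Tendsto (fun k => v k x) atTop (𝓝 (E.indicator (fun _ => (1 : ℝ)) x)))
    {s : ℝ} (hs : ENNReal.ofReal s < periodicPerimeter E) :
    ∀ᶠ k in atTop, s < ∫ x in unitCell n, ‖gr (v k) x‖ := by
  unfold periodicPerimeter at hs
  obtain ⟨⟨φ, hφ⟩, h1⟩ := lt_iSup_iff.1 hs
  have h2 : s < ∫ x in E ∩ unitCell n, divergence φ x := by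
    by_contra h
    exact absurd (ENNReal.ofReal_le_ofReal (not_lt.1 h)) (not_le.2 h1)
  have hd : Continuous (divergence φ) := continuous_divergence hφ.1
  have h3 : Tendsto (fun k => ∫ x in unitCell n, v k x * divergence φ x) atTop
      (𝓝 (∫ x in unitCell n, E.indicator (fun _ => (1 : ℝ)) x * divergence φ x)) := by
    apply tendsto_integral_of_dominated_convergence (fun x => |divergence φ x|)
    · intro k
      have := (hv k).continuous
      exact (this.mul hd).aestronglyMeasurable
    · exact integrable_cell hd.abs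
    · intro k
      refine Eventually.of_forall fun x => ?_
      rw [Real.norm_eq_abs, abs_mul]
      exact mul_le_of_le_one_left (abs_nonneg _) (hb k x)
    · filter_upwards [ae_restrict_of_ae hc] with x hx
      exact hx.mul_const _
  have h4 : ∫ x in unitCell n, E.indicator (fun _ => (1 : ℝ)) x * divergence φ x =
      ∫ x in E ∩ unitCell n, divergence φ x := by
    rw [Set.inter_comm, ← setIntegral_indicator hE]
    refine integral_congr_ae (Eventually.of_forall fun x => ?_)
    by_cases hx : x ∈ E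
    · simp [hx]
    · simp [hx]
  rw [h4] at h3
  filter_upwards [h3.eventually_const_lt h2] with k hk
  exact hk.trans_le (test_le_energy (hv k) (hp k) hφ)

end Crest.Agent.R214
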