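import Crest.Agent.R214.Defs

/-!
# Row 214: mollification
-/

set_option autoImplicit false

open MeasureTheory Crest.GeometryTopology.PeriodicPerimeter Filter
open scoped ENNReal Topology

namespace Crest.Agent.R214

/-- an admissible field gives at most the perimeter -/
theorem le_perim {n : ℕ} {E : Set (Ev n)} (hP : periodicPerimeter E ≠ ∞) {X : Ev n → Ev n}
    (hX : IsAdmissibleField X) :
    ∫ x in E ∩ unitCell n, divergence X x ≤ (periodicPerimeter E).toReal := by
  rw [← ENNReal.ofReal_le_iff_le_toReal hP]
  exact le_iSup (fun φ : {φ : Ev n → Ev n // IsAdmissibleField φ} =>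
      ENNReal.ofReal (∫ x in E ∩ unitCell n, divergence φ.1 x)) ⟨X, hX⟩

/-- translate of an admissible field -/
theorem admissible_translate {n : ℕ} {X : Ev n → Ev n} (hX : IsAdmissibleField X) (t : Ev n) :
    IsAdmissibleField fun x => X (x + t) :=
  ⟨hX.1.comp (contDiff_id.add contDiff_const), fun v hv x => by
      show X (x + v + t) = X (x + t)
      rw [add_right_comm, hX.2.1 v hv], fun x => hX.2.2 _⟩

theorem divergence_translate {n : ℕ} (X : Ev n → Ev n) (t x : Ev n) :
    divergence (fun x => X (x + t)) x = divergence X (x + t) := by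
  unfold divergence
  rw [fderiv_comp_add_right]

theorem divergence_isPer {n : ℕ} {X : Ev n → Ev n} (hX : IsPer X) : IsPer (divergence X) := by
  intro v hv x
  rw [← divergence_translate]
  have h6 : (fun y => X (y + v)) = X := funext fun y => hX v hv y
  rw [h6]

/-- indicator function of `E` -/
noncomputable def oneE {n : ℕ} (E : Set (Ev n)) : Ev n → ℝ := E.indicator fun _ => (1 : ℝ)

theorem oneE_nonneg {n : ℕ} (E : Set (Ev n)) (x : Ev n) : 0 ≤ oneE E x :=
  Set.indicator_nonneg (fun _ _ => zero_le_one) x

theorem oneE_le_one {n : ℕ} (E : Set (Ev n)) (x : Ev n) : oneE E x ≤ 1 :=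
  Set.indicator_le_self' (fun _ _ => zero_le_one) x

theorem oneE_measurable {n : ℕ} {E : Set (Ev n)} (hE : MeasurableSet E) : Measurable (oneE E) :=
  measurable_const.indicator hE

theorem oneE_isPer {n : ℕ} {E : Set (Ev n)} (hE : IsLatticePeriodic E) : IsPer (oneE E) := by
  intro v hv x
  by_cases hx : x ∈ E
  · rw [oneE, Set.indicator_of_mem hx, Set.indicator_of_mem ((hE v hv x).2 hx)]
  · rw [oneE, Set.indicator_of_notMem hx, Set.indicator_of_notMem fun h => hx ((hE v hv x).1 h)]

/-- the test inequality for the average of translates -/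
theorem avg_test {n : ℕ} {E : Set (Ev n)} (hE : MeasurableSet E) (hper : IsLatticePeriodic E)
    (hP : periodicPerimeter E ≠ ∞) {ρ : Ev n → ℝ} (hρ : Integrable ρ) (h0 : ∀ t, 0 ≤ ρ t)
    (h1 : ∫ t, ρ t = 1) {X : Ev n → Ev n} (hX : IsAdmissibleField X) :
    ∫ x in unitCell n, (∫ t, ρ t * oneE E (x - t)) * divergence X x ≤
      (periodicPerimeter E).toReal := by
  have hdc := continuous_divergence hX.1
  have hdi := integrable_cell hdc
  have hint : Integrable (Function.uncurry fun (x t : Ev n) =>
      ρ t * oneE E (x - t) * divergence X x)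
      (((volume : Measure (Ev n)).restrict (unitCell n)).prod volume) := by
    have hm : Integrable (fun p : Ev n × Ev n => divergence X p.1 * ρ p.2)
        (((volume : Measure (Ev n)).restrict (unitCell n)).prod volume) := hdi.mul_prod hρ
    have h2 : (Function.uncurry fun (x t : Ev n) => ρ t * oneE E (x - t) * divergence X x) =
        fun p : Ev n × Ev n => oneE E (p.1 - p.2) * (divergence X p.1 * ρ p.2) := by
      funext p
      simp only [Function.uncurry]
      ring
    rw [h2]
    refine hm.bdd_mul (c := 1) ?_ ?_
    · exact ((oneE_measurable hE).comp (measurable_fst.sub measurable_snd)).aestronglyMeasurable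
    · refine Eventually.of_forall fun p => ?_
      rw [Real.norm_of_nonneg (oneE_nonneg _ _)]
      exact oneE_le_one _ _
  have e1 : ∫ x in unitCell n, (∫ t, ρ t * oneE E (x - t)) * divergence X x =
      ∫ t, ∫ x in unitCell n, ρ t * oneE E (x - t) * divergence X x := by
    rw [← integral_integral_swap hint]
    refine integral_congr_ae (Eventually.of_forall fun x => ?_)
    exact (integral_mul_const _ _).symm
  rw [e1]
  have key : ∀ t, ∫ x in unitCell n, ρ t * oneE E (x - t) * divergence X x ≤
      ρ t * (periodicPerimeter E).toReal := by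
    intro t
    have e2 : ∀ x, ρ t * oneE E (x - t) * divergence X x =
        ρ t * (oneE E (x - t) * divergence X x) := fun x => by ring
    simp_rw [e2]
    rw [integral_const_mul]
    refine mul_le_mul_of_nonneg_left ?_ (h0 t)
    have hperF : IsPer fun x => oneE E (x - t) * divergence X x := by
      intro v hv x
      show oneE E (x + v - t) * divergence X (x + v) = oneE E (x - t) * divergence X x
      have h3 : x + v - t = x - t + v := by abel
      rw [h3, oneE_isPer hper v hv, divergence_isPer hX.2.1 v hv]
    have e3 := cell_integral_add hperF t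
    rw [← e3]
    have e5 : ∀ x, divergence (fun x => X (x + t)) x = divergence X (x + t) := fun x =>
      divergence_translate X t x
    have e4 : ∀ x, oneE E (x + t - t) * divergence X (x + t) =
        E.indicator (fun x => divergence (fun x => X (x + t)) x) x := by
      intro x
      rw [add_sub_cancel_right, ← e5]
      by_cases hx : x ∈ E
      · rw [oneE, Set.indicator_of_mem hx, Set.indicator_of_mem hx, one_mul]
      · rw [oneE, Set.indicator_of_notMem hx, Set.indicator_of_notMem hx, zero_mul]
    simp_rw [e4]
    rw [setIntegral_indicator hE, Set.inter_comm]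
    exact le_perim hP (admissible_translate hX t)
  calc ∫ t, ∫ x in unitCell n, ρ t * oneE E (x - t) * divergence X x
      ≤ ∫ t, ρ t * (periodicPerimeter E).toReal :=
        integral_mono hint.integral_prod_right (hρ.mul_const _) key
    _ = (periodicPerimeter E).toReal := by rw [integral_mul_const, h1, one_mul]

/-- a sequence of bumps shrinking to `0` -/
noncomputable def bump (n k : ℕ) : ContDiffBump (0 : Ev n) where
  rIn := ((k : ℝ) + 1)⁻¹ / 2
  rOut := ((k : ℝ) + 1)⁻¹
  rIn_pos := by positivity
  rIn_lt_rOut := half_lt_self (by positivity)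

/-- the mollified indicator -/
noncomputable def mol {n : ℕ} (E : Set (Ev n)) (k : ℕ) (x : Ev n) : ℝ :=
  ∫ t, (bump n k).normed volume t * oneE E (x - t)

theorem mol_eq {n : ℕ} (E : Set (Ev n)) (k : ℕ) : mol E k =
    convolution ((bump n k).normed volume) (oneE E) (ContinuousLinearMap.lsmul ℝ ℝ) volume := rfl

theorem locInt_oneE {n : ℕ} {E : Set (Ev n)} (hE : MeasurableSet E) :
    LocallyIntegrable (oneE E) volume := by
  have h : LocallyIntegrable (fun _ : Ev n => (1 : ℝ)) volume := locallyIntegrable_const 1
  exact h.indicator hE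

theorem mol_smooth {n : ℕ} {E : Set (Ev n)} (hE : MeasurableSet E) (k : ℕ) (m : ℕ∞) :
    ContDiff ℝ m (mol E k) := by
  rw [mol_eq]
  exact (bump n k).hasCompactSupport_normed.contDiff_convolution_left _
    (bump n k).contDiff_normed (locInt_oneE hE)

theorem mol_isPer {n : ℕ} {E : Set (Ev n)} (hE : IsLatticePeriodic E) (k : ℕ) :
    IsPer (mol E k) := by
  intro v hv x
  unfold mol
  refine integral_congr_ae (Eventually.of_forall fun t => ?_)
  show _ * oneE E (x + v - t) = _ * oneE E (x - t)
  have h3 : x + v - t = x - t + v := by abel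
  rw [h3, oneE_isPer hE v hv]

theorem mol_nonneg {n : ℕ} (E : Set (Ev n)) (k : ℕ) (x : Ev n) : 0 ≤ mol E k x :=
  integral_nonneg fun t => mul_nonneg ((bump n k).nonneg_normed t) (oneE_nonneg _ _)

theorem mol_le_one {n : ℕ} {E : Set (Ev n)} (hE : MeasurableSet E) (k : ℕ) (x : Ev n) :
    mol E k x ≤ 1 := by
  have h1 : ∫ t, (bump n k).normed (volume : Measure (Ev n)) t = 1 := (bump n k).integral_normed
  rw [← h1]
  have hi : Integrable ((bump n k).normed (volume : Measure (Ev n))) :=
    (bump n k).integrable_normed
  refine integral_mono ?_ hi fun t => ?_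
  · have := hi.bdd_mul (c := 1) (f := fun t => oneE E (x - t))
      ((oneE_measurable hE).comp (measurable_const_sub x)).aestronglyMeasurable
      (Eventually.of_forall fun p => by
        rw [Real.norm_of_nonneg (oneE_nonneg _ _)]
        exact oneE_le_one _ _)
    refine this.congr (Eventually.of_forall fun t => ?_)
    exact mul_comm _ _
  · show _ * _ ≤ _
    exact mul_le_of_le_one_right ((bump n k).nonneg_normed t) (oneE_le_one _ _)

theorem mol_conv {n : ℕ} {E : Set (Ev n)} (hE : MeasurableSet E) :
    ∀ᵐ x : Ev n, Tendsto (fun k => mol E k x) atTop (𝓝 (E.indicator (fun _ => (1 : ℝ)) x)) := by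
  have h := ContDiffBump.ae_convolution_tendsto_right_of_locallyIntegrable
    (μ := (volume : Measure (Ev n))) (φ := fun k : ℕ => bump n k) (l := atTop) (K := 2)
    (g := oneE E) ?_ ?_ (locInt_oneE hE)
  · exact h
  · exact tendsto_inv_atTop_zero.comp
      (tendsto_atTop_add_const_right _ _ tendsto_natCast_atTop_atTop)
  · refine Eventually.of_forall fun k => ?_
    show ((k : ℝ) + 1)⁻¹ ≤ 2 * (((k : ℝ) + 1)⁻¹ / 2)
    linarith

end Crest.Agent.R214
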