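import Mathlib

/-! ROW 214 (S0332/S0333): abstract one-dimensional part ("slice datum").  helper10.

`SD P a J` : `P` bounds the perimeter, `a` is the area function of the slices, `2 J` a lower bound
for the perimeter of the slices. -/

set_option autoImplicit false
open MeasureTheory Set Filter Topology intervalIntegral

namespace Crest.Agent.R214

/-- approximating sequences for a slice datum -/
structure SQ (P : ℝ) (a J : ℝ → ℝ) (an Tn : ℕ → ℝ → ℝ) : Prop where
  c1 : ∀ n, ContDiff ℝ 1 (an n)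
  per : ∀ n, Function.Periodic (an n) 1
  a01 : ∀ n x, 0 ≤ an n x ∧ an n x ≤ 1
  contT : ∀ n, Continuous (Tn n)
  perT : ∀ n, Function.Periodic (Tn n) 1
  T0 : ∀ n x, 0 ≤ Tn n x
  bound : ∀ n, ∫ x in (0:ℝ)..1, Real.sqrt ((Tn n x) ^ 2 + (deriv (an n) x) ^ 2) ≤ P
  conv : ∀ᵐ x : ℝ, Tendsto (fun n => an n x) atTop (𝓝 (a x))
  lower : ∀ᵐ x : ℝ, ∀ s, s < 2 * J x → ∀ᶠ n in atTop, s < Tn n x

/-- slice datum -/
structure SD (P : ℝ) (a J : ℝ → ℝ) : Prop where
  per_a : Function.Periodic a 1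
  per_J : Function.Periodic J 1
  meas_a : Measurable a
  meas_J : Measurable J
  a01 : ∀ x, 0 ≤ a x ∧ a x ≤ 1
  J0 : ∀ x, 0 ≤ J x
  seq : ∃ an Tn : ℕ → ℝ → ℝ, SQ P a J an Tn

/-- the lower bound of the slice perimeters may be decreased -/
lemma SD.mono {P : ℝ} {a J J' : ℝ → ℝ} (S : SD P a J) (hp : Function.Periodic J' 1)
    (hm : Measurable J') (h0 : ∀ x, 0 ≤ J' x) (hle : ∀ᵐ x : ℝ, J' x ≤ J x) : SD P a J' := by
  obtain ⟨an, Tn, Q⟩ := S.seq
  refine ⟨S.per_a, hp, S.meas_a, hm, S.a01, h0, an, Tn, ⟨Q.c1, Q.per, Q.a01, Q.contT, Q.perT, Q.T0,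
    Q.bound, Q.conv, ?_⟩⟩
  filter_upwards [Q.lower, hle] with x hx hle s hs
  exact hx s (by linarith)

lemma sqrt_ge_pair {c h T d : ℝ} (hch : c ^ 2 + h ^ 2 ≤ 1) :
    c * T + h * |d| ≤ Real.sqrt (T ^ 2 + d ^ 2) := by
  apply Real.le_sqrt_of_sq_le
  have h1 : |d| ^ 2 = d ^ 2 := sq_abs d
  nlinarith [sq_nonneg (c * |d| - h * T), sq_nonneg T, sq_nonneg |d|,
    mul_nonneg (sub_nonneg.2 hch) (add_nonneg (sq_nonneg T) (sq_nonneg |d|))]

section key

variable {P : ℝ} {a J : ℝ → ℝ} {an Tn : ℕ → ℝ → ℝ}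

lemma SQ.cont_deriv (Q : SQ P a J an Tn) (n : ℕ) : Continuous (deriv (an n)) :=
  (Q.c1 n).continuous_deriv le_rfl

lemma SQ.cont (Q : SQ P a J an Tn) (n : ℕ) : Continuous (an n) := (Q.c1 n).continuous

lemma SQ.per_deriv (Q : SQ P a J an Tn) (n : ℕ) : Function.Periodic (deriv (an n)) 1 := by
  intro x
  have h : (fun y => an n (y + 1)) = an n := by funext y; exact Q.per n y
  calc deriv (an n) (x + 1) = deriv (fun y => an n (y + 1)) x := (deriv_comp_add_const (an n) 1 x).symm
    _ = deriv (an n) x := by rw [h]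

/-- `F_n(u, v)` -/
noncomputable def Fn (an Tn : ℕ → ℝ → ℝ) (n : ℕ) (u v : ℝ) : ℝ :=
  ∫ x in u..v, Real.sqrt ((Tn n x) ^ 2 + (deriv (an n) x) ^ 2)

lemma SQ.cont_F (Q : SQ P a J an Tn) (n : ℕ) :
    Continuous fun x => Real.sqrt ((Tn n x) ^ 2 + (deriv (an n) x) ^ 2) :=
  Real.continuous_sqrt.comp (((Q.contT n).pow 2).add ((Q.cont_deriv n).pow 2))

lemma SQ.Fn_add (Q : SQ P a J an Tn) (n : ℕ) (u v w : ℝ) :
    Fn an Tn n u v + Fn an Tn n v w = Fn an Tn n u w :=
  integral_add_adjacent_intervals ((Q.cont_F n).intervalIntegrable _ _)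
    ((Q.cont_F n).intervalIntegrable _ _)

lemma SQ.Fn_per (Q : SQ P a J an Tn) (n : ℕ) (u : ℝ) : Fn an Tn n u (u + 1) ≤ P := by
  have hp : Function.Periodic (fun x => Real.sqrt ((Tn n x) ^ 2 + (deriv (an n) x) ^ 2)) 1 := by
    intro x
    simp only [Q.perT n x, Q.per_deriv n x]
  have := hp.intervalIntegral_add_eq u 0
  unfold Fn
  rw [this, zero_add]
  exact Q.bound n

/-- variation of `H ∘ a_n` with `H' = h` -/
lemma SQ.var (Q : SQ P a J an Tn) (n : ℕ) (h : ℝ → ℝ) (hh : Continuous h)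
    (h0 : ∀ s ∈ Icc (0:ℝ) 1, 0 ≤ h s) {u v : ℝ} (huv : u ≤ v) :
    |∫ s in (an n u)..(an n v), h s| ≤ ∫ x in u..v, h (an n x) * |deriv (an n) x| := by
  have h1 : ∫ x in u..v, (h ∘ an n) x * deriv (an n) x = ∫ s in (an n u)..(an n v), h s := by
    refine integral_comp_mul_deriv (fun x _ => ?_) (Q.cont_deriv n).continuousOn hh
    exact ((Q.c1 n).differentiable (by norm_num) x).hasDerivAt
  rw [← h1]
  refine (abs_integral_le_integral_abs huv).trans (le_of_eq ?_)
  refine integral_congr fun x _ => ?_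
  simp only [Function.comp]
  rw [abs_mul, abs_of_nonneg (h0 _ (Q.a01 n x))]

/-- key inequality on an arc -/
lemma SQ.key (Q : SQ P a J an Tn) (n : ℕ) (c h : ℝ → ℝ) (hc : Continuous c) (hh : Continuous h)
    (h0 : ∀ s ∈ Icc (0:ℝ) 1, 0 ≤ h s)
    (hch : ∀ s ∈ Icc (0:ℝ) 1, c s ^ 2 + h s ^ 2 ≤ 1) {u v : ℝ} (huv : u ≤ v) :
    (∫ x in u..v, c (an n x) * Tn n x) + |∫ s in (an n u)..(an n v), h s| ≤ Fn an Tn n u v := by
  have h1 := Q.var n h hh h0 huv
  have i1 : IntervalIntegrable (fun x => c (an n x) * Tn n x) volume u v :=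
    ((hc.comp (Q.cont n)).mul (Q.contT n)).intervalIntegrable _ _
  have i2 : IntervalIntegrable (fun x => h (an n x) * |deriv (an n) x|) volume u v :=
    ((hh.comp (Q.cont n)).mul (Q.cont_deriv n).abs).intervalIntegrable _ _
  calc (∫ x in u..v, c (an n x) * Tn n x) + |∫ s in (an n u)..(an n v), h s|
      ≤ (∫ x in u..v, c (an n x) * Tn n x) + ∫ x in u..v, h (an n x) * |deriv (an n) x| := by
        linarith
    _ = ∫ x in u..v, (c (an n x) * Tn n x + h (an n x) * |deriv (an n) x|) :=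
        (integral_add i1 i2).symm
    _ ≤ Fn an Tn n u v := by
        refine integral_mono_on huv (i1.add i2) ((Q.cont_F n).intervalIntegrable _ _) fun x _ => ?_
        exact sqrt_ge_pair (hch _ (Q.a01 n x))

/-- Fatou step: weights `w_n → w` -/
lemma SQ.fatou (Q : SQ P a J an Tn) (hJm : Measurable J) (hJ0 : ∀ x, 0 ≤ J x)
    (w : ℕ → ℝ → ℝ) (wl : ℝ → ℝ) (hw : ∀ n, Measurable (w n)) (hwl : Measurable wl)
    (hw0 : ∀ n x, 0 ≤ w n x) (hw1 : ∀ n x, w n x ≤ 1)
    (hconv : ∀ᵐ x : ℝ, Tendsto (fun n => w n x) atTop (𝓝 (wl x)))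
    (b : ℕ → ℝ) (bl : ℝ) (hb : Tendsto b atTop (𝓝 bl)) {u v : ℝ} (huv : u ≤ v)
    (hle : ∀ᶠ n in atTop, ∫ x in u..v, w n x * Tn n x ≤ b n) :
    IntervalIntegrable (fun x => wl x * J x) volume u v ∧
      2 * ∫ x in u..v, wl x * J x ≤ bl := by
  have hwl0 : ∀ᵐ x : ℝ, 0 ≤ wl x := by
    filter_upwards [hconv] with x hx
    exact ge_of_tendsto' hx fun n => hw0 n x
  -- pointwise
  have hpt : ∀ᵐ x : ℝ, ENNReal.ofReal (2 * (wl x * J x)) ≤
      liminf (fun n => ENNReal.ofReal (w n x * Tn n x)) atTop := by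
    filter_upwards [hconv, Q.lower, hwl0] with x h1 h2 h3
    rcases eq_or_lt_of_le (hJ0 x) with hz | hpos
    · rw [← hz]; simp
    refine le_of_forall_lt fun t ht => ?_
    -- choose s < 2 J x, r < w x with t < r * s
    rcases eq_or_lt_of_le h3 with hz3 | hpos3
    · rw [← hz3] at ht; simp at ht
    have htop : t ≠ ⊤ := ne_top_of_lt ht
    have ht' : t.toReal < 2 * (wl x * J x) := by
      rw [← ENNReal.ofReal_toReal htop] at ht
      exact (ENNReal.ofReal_lt_ofReal_iff (by positivity)).1 ht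
    -- the product is continuous
    obtain ⟨s, hs1, hs2, hs3⟩ : ∃ s, 0 < s ∧ s < 2 * J x ∧ t.toReal < wl x * s := by
      have : t.toReal / wl x < 2 * J x := by
        rw [div_lt_iff₀ hpos3]; nlinarith
      obtain ⟨s, hs, hs'⟩ := exists_between (max_lt this (by positivity : (0:ℝ) < 2 * J x))
      refine ⟨s, lt_of_le_of_lt (le_max_right _ _) hs, hs', ?_⟩
      have := lt_of_le_of_lt (le_max_left _ _) hs
      rw [div_lt_iff₀ hpos3] at this
      linarith [mul_comm s (wl x)]
    obtain ⟨r, hr1, hr2⟩ : ∃ r, t.toReal < r * s ∧ r < wl x := by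
      have : t.toReal / s < wl x := by rw [div_lt_iff₀ hs1]; exact hs3
      obtain ⟨r, hr, hr'⟩ := exists_between this
      refine ⟨r, ?_, hr'⟩
      rwa [div_lt_iff₀ hs1] at hr
    have e1 : ∀ᶠ n in atTop, r < w n x := h1.eventually (lt_mem_nhds hr2)
    have e2 := h2 s hs2
    have hfin : ENNReal.ofReal (r * s) ≤ liminf (fun n => ENNReal.ofReal (w n x * Tn n x)) atTop := by
      refine le_liminf_of_le (by isBoundedDefault) ?_
      filter_upwards [e1, e2] with n hn1 hn2
      refine ENNReal.ofReal_le_ofReal ?_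
      have hr0 : 0 ≤ r := by
        have : 0 ≤ t.toReal := ENNReal.toReal_nonneg
        by_contra hcon
        push Not at hcon
        nlinarith
      exact mul_le_mul hn1.le hn2.le hs1.le (hr0.trans hn1.le)
    refine lt_of_lt_of_le ?_ hfin
    rw [← ENNReal.ofReal_toReal htop]
    exact (ENNReal.ofReal_lt_ofReal_iff (lt_of_le_of_lt ENNReal.toReal_nonneg hr1)).2 hr1
  have hm : ∀ n, Measurable fun x => ENNReal.ofReal (w n x * Tn n x) := fun n =>
    ((hw n).mul (Q.contT n).measurable).ennreal_ofReal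
  have hF : ∫⁻ x in Ioc u v, ENNReal.ofReal (2 * (wl x * J x)) ≤ ENNReal.ofReal bl := by
    calc ∫⁻ x in Ioc u v, ENNReal.ofReal (2 * (wl x * J x))
        ≤ ∫⁻ x in Ioc u v, liminf (fun n => ENNReal.ofReal (w n x * Tn n x)) atTop :=
          lintegral_mono_ae (ae_restrict_of_ae hpt)
      _ ≤ liminf (fun n => ∫⁻ x in Ioc u v, ENNReal.ofReal (w n x * Tn n x)) atTop :=
          lintegral_liminf_le hm
      _ ≤ liminf (fun n => ENNReal.ofReal (b n)) atTop := by
          refine liminf_le_liminf ?_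
          filter_upwards [hle] with n hn
          rw [← ofReal_integral_eq_lintegral_ofReal]
          · refine ENNReal.ofReal_le_ofReal ?_
            rwa [intervalIntegral.integral_of_le huv] at hn
          · have hc : IntegrableOn (Tn n) (Ioc u v) :=
              ((Q.contT n).intervalIntegrable u v).1
            refine Integrable.mono' hc ((hw n).mul (Q.contT n).measurable).aestronglyMeasurable ?_
            refine Eventually.of_forall fun x => ?_
            rw [Real.norm_eq_abs, abs_of_nonneg (mul_nonneg (hw0 n x) (Q.T0 n x))]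
            have := mul_le_mul_of_nonneg_right (hw1 n x) (Q.T0 n x)
            linarith
          · exact Eventually.of_forall fun x => mul_nonneg (hw0 n x) (Q.T0 n x)
      _ = ENNReal.ofReal bl := ((ENNReal.continuous_ofReal.tendsto bl).comp hb).liminf_eq
  have hmeas : Measurable fun x => 2 * (wl x * J x) := (hwl.mul hJm).const_mul 2
  have hnn : ∀ᵐ x ∂(volume.restrict (Ioc u v)), 0 ≤ 2 * (wl x * J x) := by
    refine ae_restrict_of_ae ?_
    filter_upwards [hwl0] with x hx
    have := hJ0 x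
    positivity
  have hint : Integrable (fun x => 2 * (wl x * J x)) (volume.restrict (Ioc u v)) := by
    refine ⟨hmeas.aestronglyMeasurable, ?_⟩
    rw [hasFiniteIntegral_iff_ofReal hnn]
    exact lt_of_le_of_lt hF ENNReal.ofReal_lt_top
  have hbl : 0 ≤ bl := by
    refine ge_of_tendsto hb ?_
    filter_upwards [hle] with n hn
    refine le_trans ?_ hn
    exact intervalIntegral.integral_nonneg huv fun x _ => mul_nonneg (hw0 n x) (Q.T0 n x)
  constructor
  · rw [intervalIntegrable_iff_integrableOn_Ioc_of_le huv]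
    have := hint.const_mul (1 / 2)
    refine this.congr (Eventually.of_forall fun x => ?_)
    ring
  · have h2 : ∫ x in Ioc u v, 2 * (wl x * J x) ≤ bl := by
      rw [integral_eq_lintegral_of_nonneg_ae hnn hmeas.aestronglyMeasurable]
      exact ENNReal.toReal_le_of_le_ofReal hbl hF
    rw [intervalIntegral.integral_of_le huv, ← MeasureTheory.integral_const_mul]
    exact h2

/-- line method, base form: two points of convergence -/
lemma SQ.lm0 (Q : SQ P a J an Tn) (S : SD P a J) (c h : ℝ → ℝ) (hc : Continuous c)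
    (hh : Continuous h) (c0 : ∀ s, 0 ≤ c s) (h0 : ∀ s, 0 ≤ h s)
    (hch : ∀ s, c s ^ 2 + h s ^ 2 ≤ 1) {u v : ℝ} (huv : u ≤ v) (hvu : v ≤ u + 1)
    (hu : Tendsto (fun n => an n u) atTop (𝓝 (a u)))
    (hv : Tendsto (fun n => an n v) atTop (𝓝 (a v))) :
    IntervalIntegrable (fun x => c (a x) * J x) volume u (u + 1) ∧
      (∫ x in u..(u + 1), c (a x) * J x) + |∫ s in (a u)..(a v), h s| ≤ P / 2 := by
  have c1 : ∀ s, c s ≤ 1 := fun s => by nlinarith [hch s, sq_nonneg (h s), c0 s]
  have hHc : Continuous fun p : ℝ × ℝ => ∫ s in p.1..p.2, h s := by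
    have e : (fun p : ℝ × ℝ => ∫ s in p.1..p.2, h s) =
        fun p : ℝ × ℝ => (∫ s in (0:ℝ)..p.2, h s) - ∫ s in (0:ℝ)..p.1, h s := by
      funext p
      rw [intervalIntegral.integral_interval_sub_left (hh.intervalIntegrable _ _)
        (hh.intervalIntegrable _ _)]
    rw [e]
    have hp : Continuous fun y => ∫ s in (0:ℝ)..y, h s :=
      intervalIntegral.continuous_primitive (fun _ _ => hh.intervalIntegrable _ _) 0
    exact (hp.comp continuous_snd).sub (hp.comp continuous_fst)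
  have ht1 : Tendsto (fun n => |∫ s in (an n u)..(an n v), h s|) atTop
      (𝓝 |∫ s in (a u)..(a v), h s|) :=
    (hHc.abs.tendsto (a u, a v)).comp (hu.prodMk_nhds hv)
  have hb : Tendsto (fun n => P - 2 * |∫ s in (an n u)..(an n v), h s|) atTop
      (𝓝 (P - 2 * |∫ s in (a u)..(a v), h s|)) := tendsto_const_nhds.sub (ht1.const_mul 2)
  have hle : ∀ n, ∫ x in u..(u + 1), c (an n x) * Tn n x ≤
      P - 2 * |∫ s in (an n u)..(an n v), h s| := by
    intro n
    have k1 := Q.key n c h hc hh (fun s _ => h0 s) (fun s _ => hch s) huv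
    have k2 := Q.key n c h hc hh (fun s _ => h0 s) (fun s _ => hch s) hvu
    rw [Q.per n u] at k2
    have i1 : ∀ x y, IntervalIntegrable (fun x => c (an n x) * Tn n x) volume x y := fun x y =>
      ((hc.comp (Q.cont n)).mul (Q.contT n)).intervalIntegrable _ _
    have e1 : (∫ x in u..v, c (an n x) * Tn n x) + ∫ x in v..(u + 1), c (an n x) * Tn n x =
        ∫ x in u..(u + 1), c (an n x) * Tn n x := integral_add_adjacent_intervals (i1 _ _) (i1 _ _)
    have e2 := Q.Fn_add n u v (u + 1)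
    have e3 := Q.Fn_per n u
    have e4 : |∫ s in (an n v)..(an n u), h s| = |∫ s in (an n u)..(an n v), h s| := by
      rw [intervalIntegral.integral_symm, abs_neg]
    linarith
  obtain ⟨f1, f2⟩ := Q.fatou S.meas_J S.J0 (fun n x => c (an n x)) (fun x => c (a x))
    (fun n => (hc.comp (Q.cont n)).measurable) (hc.measurable.comp S.meas_a)
    (fun n x => c0 _) (fun n x => c1 _)
    (by filter_upwards [Q.conv] with x hx; exact (hc.tendsto _).comp hx)
    _ _ hb (by linarith : u ≤ u + 1) (Eventually.of_forall hle)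
  exact ⟨f1, by linarith⟩

end key

/-- a full-measure set meets every set of positive measure in an interval -/
lemma exists_of_ae_pos {p q : ℝ → Prop} (hp : ∀ᵐ x : ℝ, p x) {s : Set ℝ}
    (hq : 0 < volume ({x | q x} ∩ s)) : ∃ x ∈ s, p x ∧ q x := by
  by_contra hcon
  push Not at hcon
  have : {x | q x} ∩ s ⊆ {x | ¬ p x} := by
    intro x hx hpx
    exact hcon x hx.2 hpx hx.1
  have h0 : volume ({x | q x} ∩ s) = 0 := measure_mono_null this hp
  exact hq.ne' h0

/-- LINE METHOD, general form.  `a1`, `a2` are (any bounds for) the essential range of `a`. -/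
theorem SD.lm {P : ℝ} {a J : ℝ → ℝ} (S : SD P a J) (c h : ℝ → ℝ) (hc : Continuous c)
    (hh : Continuous h) (c0 : ∀ s, 0 ≤ c s) (h0 : ∀ s, 0 ≤ h s)
    (hch : ∀ s, c s ^ 2 + h s ^ 2 ≤ 1) {a1 a2 : ℝ}
    (ha1 : ∀ δ > 0, 0 < volume ({x | a x < a1 + δ} ∩ Ico 0 1))
    (ha2 : ∀ δ > 0, 0 < volume ({x | a2 - δ < a x} ∩ Ico 0 1)) :
    IntervalIntegrable (fun x => c (a x) * J x) volume 0 1 ∧
      (∫ x in (0:ℝ)..1, c (a x) * J x) + ∫ s in a1..a2, h s ≤ P / 2 := by
  obtain ⟨an, Tn, Q⟩ := S.seq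
  have hper : Function.Periodic (fun x => c (a x) * J x) 1 := by
    intro x; simp only [S.per_a x, S.per_J x]
  have hI : ∀ u, (∫ x in u..(u + 1), c (a x) * J x) = ∫ x in (0:ℝ)..1, c (a x) * J x := by
    intro u
    have := hper.intervalIntegral_add_eq u 0
    rwa [zero_add] at this
  -- a convergence point
  have h01 : (0 : ℝ) < 1 := one_pos
  have hint : IntervalIntegrable (fun x => c (a x) * J x) volume 0 1 := by
    obtain ⟨u, hu, hu1, -⟩ := exists_of_ae_pos (p := fun x => Tendsto (fun n => an n x) atTop (𝓝 (a x)))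
      (q := fun _ => True) Q.conv (s := Ico 0 1) (by simp)
    have := (Q.lm0 S c h hc hh c0 h0 hch le_rfl (by linarith) hu1 hu1).1
    exact hper.intervalIntegrable (t := u) one_ne_zero this 0 1
  refine ⟨hint, ?_⟩
  -- main estimate for every δ
  have hHc : Continuous fun p : ℝ × ℝ => ∫ s in p.1..p.2, h s := by
    have e : (fun p : ℝ × ℝ => ∫ s in p.1..p.2, h s) =
        fun p : ℝ × ℝ => (∫ s in (0:ℝ)..p.2, h s) - ∫ s in (0:ℝ)..p.1, h s := by
      funext p
      rw [intervalIntegral.integral_interval_sub_left (hh.intervalIntegrable _ _)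
        (hh.intervalIntegrable _ _)]
    rw [e]
    have hp : Continuous fun y => ∫ s in (0:ℝ)..y, h s :=
      intervalIntegral.continuous_primitive (fun _ _ => hh.intervalIntegrable _ _) 0
    exact (hp.comp continuous_snd).sub (hp.comp continuous_fst)
  have hmain : ∀ δ > 0, (∫ x in (0:ℝ)..1, c (a x) * J x) + ∫ s in (a1 + δ)..(a2 - δ), h s ≤ P / 2 := by
    intro δ hδ
    obtain ⟨u, hu, hu1, hu2⟩ := exists_of_ae_pos Q.conv (ha1 δ hδ)
    obtain ⟨v, hv, hv1, hv2⟩ := exists_of_ae_pos Q.conv (ha2 δ hδ)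
    -- order the two points
    have hkey : (∫ x in (0:ℝ)..1, c (a x) * J x) + |∫ s in (a u)..(a v), h s| ≤ P / 2 := by
      rcases le_total u v with huv | hvu
      · have := (Q.lm0 S c h hc hh c0 h0 hch huv (by linarith [hv.2, hu.1]) hu1 hv1).2
        rwa [hI u] at this
      · have := (Q.lm0 S c h hc hh c0 h0 hch hvu (by linarith [hu.2, hv.1]) hv1 hu1).2
        rw [hI v] at this
        have e : |∫ s in (a u)..(a v), h s| = |∫ s in (a v)..(a u), h s| := by
          rw [intervalIntegral.integral_symm, abs_neg]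
        rw [e]
        exact this
    have hmono : ∫ s in (a1 + δ)..(a2 - δ), h s ≤ |∫ s in (a u)..(a v), h s| := by
      rcases le_total (a1 + δ) (a2 - δ) with hle | hle
      · have i : ∀ x y, IntervalIntegrable h volume x y := fun x y => hh.intervalIntegrable _ _
        have e : ∫ s in (a u)..(a v), h s = (∫ s in (a u)..(a1 + δ), h s) +
            (∫ s in (a1 + δ)..(a2 - δ), h s) + ∫ s in (a2 - δ)..(a v), h s := by
          rw [integral_add_adjacent_intervals (i _ _) (i _ _),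
            integral_add_adjacent_intervals (i _ _) (i _ _)]
        have p1 : 0 ≤ ∫ s in (a u)..(a1 + δ), h s :=
          intervalIntegral.integral_nonneg (le_of_lt hu2) fun s _ => h0 s
        have p2 : 0 ≤ ∫ s in (a2 - δ)..(a v), h s :=
          intervalIntegral.integral_nonneg (le_of_lt hv2) fun s _ => h0 s
        have := le_abs_self (∫ s in (a u)..(a v), h s)
        linarith
      · have : ∫ s in (a1 + δ)..(a2 - δ), h s ≤ 0 := by
          rw [intervalIntegral.integral_symm]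
          have : 0 ≤ ∫ s in (a2 - δ)..(a1 + δ), h s :=
            intervalIntegral.integral_nonneg hle (fun s _ => h0 s)
          linarith
        exact this.trans (abs_nonneg _)
    linarith
  have ht : Tendsto (fun δ : ℝ => (∫ x in (0:ℝ)..1, c (a x) * J x) +
      ∫ s in (a1 + δ)..(a2 - δ), h s) (𝓝[>] 0)
      (𝓝 ((∫ x in (0:ℝ)..1, c (a x) * J x) + ∫ s in a1..a2, h s)) := by
    have : Continuous fun δ : ℝ => (∫ x in (0:ℝ)..1, c (a x) * J x) +
        ∫ s in (a1 + δ)..(a2 - δ), h s :=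
      continuous_const.add (hHc.comp ((continuous_const.add continuous_id).prodMk
        (continuous_const.sub continuous_id)))
    have h2 := this.tendsto 0
    simp only [add_zero, sub_zero] at h2
    exact h2.mono_left nhdsWithin_le_nhds
  exact le_of_tendsto ht (eventually_nhdsWithin_of_forall fun δ hδ => hmain δ hδ)

end Crest.Agent.R214
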