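import Crest.Agent.R214.Fub
import Crest.Agent.R214.En

/-!
# Row 214: regularity of slice integrals
-/

set_option autoImplicit false

open MeasureTheory Crest.GeometryTopology.PeriodicPerimeter Filter
open scoped ENNReal Topology

namespace Crest.Agent.R214

theorem ins_eq {n : ℕ} (d : Fin (n + 1)) (t : ℝ) (y : Ev n) :
    ins d t y = t • EuclideanSpace.single d 1 + ins d 0 y := by
  ext i
  rcases Fin.eq_self_or_eq_succAbove d i with rfl | ⟨j, rfl⟩
  · rw [ins_same, PiLp.add_apply, PiLp.smul_apply, ins_same]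
    simp
  · rw [ins_succAbove, PiLp.add_apply, PiLp.smul_apply, ins_succAbove]
    simp

/-- the linear part of `ins` -/
noncomputable def insL {n : ℕ} (d : Fin (n + 1)) : Ev n →L[ℝ] Ev (n + 1) :=
  LinearMap.toContinuousLinearMap
    { toFun := ins d 0
      map_add' := fun x y => by
        ext i
        rcases Fin.eq_self_or_eq_succAbove d i with rfl | ⟨j, rfl⟩
        · show ins i 0 (x + y) i = ins i 0 x i + ins i 0 y i
          rw [ins_same, ins_same, ins_same, add_zero]
        · show ins d 0 (x + y) (d.succAbove j) = ins d 0 x (d.succAbove j) + ins d 0 y (d.succAbove j)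
          rw [ins_succAbove, ins_succAbove, ins_succAbove]
          rfl
      map_smul' := fun a x => by
        ext i
        rcases Fin.eq_self_or_eq_succAbove d i with rfl | ⟨j, rfl⟩
        · show ins i 0 (a • x) i = a • (ins i 0 x i)
          rw [ins_same, ins_same, smul_zero]
        · show ins d 0 (a • x) (d.succAbove j) = a • (ins d 0 x (d.succAbove j))
          rw [ins_succAbove, ins_succAbove]
          rfl }

theorem insL_apply {n : ℕ} (d : Fin (n + 1)) (y : Ev n) : insL d y = ins d 0 y := rfl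

theorem insL_single {n : ℕ} (d : Fin (n + 1)) (i : Fin n) :
    insL d (EuclideanSpace.single i 1) = EuclideanSpace.single (d.succAbove i) 1 := by
  rw [insL_apply]
  ext j
  rcases Fin.eq_self_or_eq_succAbove d j with rfl | ⟨j, rfl⟩
  · rw [ins_same]
    simp [(Fin.succAbove_ne j i).symm]
  · rw [ins_succAbove]
    simp

theorem ins_eq_add {n : ℕ} (d : Fin (n + 1)) (t : ℝ) (y : Ev n) :
    ins d t y = t • EuclideanSpace.single d 1 + insL d y := ins_eq d t y

theorem continuous_ins {n : ℕ} (d : Fin (n + 1)) :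
    Continuous fun p : ℝ × Ev n => ins d p.1 p.2 := by
  have h : (fun p : ℝ × Ev n => ins d p.1 p.2) =
      fun p : ℝ × Ev n => p.1 • (EuclideanSpace.single d 1 : Ev (n + 1)) + insL d p.2 :=
    funext fun p => ins_eq_add d p.1 p.2
  rw [h]
  have := (insL d).continuous
  fun_prop

theorem contDiff_slice {n : ℕ} (d : Fin (n + 1)) {u : Ev (n + 1) → ℝ} {m : WithTop ℕ∞}
    (hu : ContDiff ℝ m u) (t : ℝ) : ContDiff ℝ m (fun z => u (ins d t z)) := by
  have h : (fun z => u (ins d t z)) = fun z => u (t • EuclideanSpace.single d 1 + insL d z) :=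
    funext fun z => by rw [ins_eq_add]
  rw [h]
  exact hu.comp (contDiff_const.add (insL d).contDiff)

theorem isPer_slice {n : ℕ} (d : Fin (n + 1)) {u : Ev (n + 1) → ℝ} (hp : IsPer u) (t : ℝ) :
    IsPer (fun z => u (ins d t z)) := by
  intro v hv x
  have h1 : ins d t (x + v) = ins d t x + insL d v := by
    rw [ins_eq_add, ins_eq_add, map_add]
    abel
  have h2 : HasIntegerCoords (insL d v) := by
    intro i
    rw [insL_apply]
    rcases Fin.eq_self_or_eq_succAbove d i with rfl | ⟨j, rfl⟩
    · exact ⟨0, by rw [ins_same]; simp⟩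
    · rw [ins_succAbove]
      exact hv j
  show u (ins d t (x + v)) = u (ins d t x)
  rw [h1, hp _ h2]

theorem gr_ins {n : ℕ} (d : Fin (n + 1)) {u : Ev (n + 1) → ℝ} (hu : Differentiable ℝ u)
    (t : ℝ) (y : Ev n) (i : Fin n) :
    gr (fun z => u (ins d t z)) y i = gr u (ins d t y) (d.succAbove i) := by
  have h : (fun z => u (ins d t z)) = fun z => u (t • EuclideanSpace.single d 1 + insL d z) :=
    funext fun z => by rw [ins_eq_add]
  show fderiv ℝ (fun z => u (ins d t z)) y (EuclideanSpace.single i 1) =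
    fderiv ℝ u (ins d t y) (EuclideanSpace.single (d.succAbove i) 1)
  have h1 : HasFDerivAt (fun z : Ev n => t • (EuclideanSpace.single d 1 : Ev (n + 1)) + insL d z)
      (insL d) y := (insL d).hasFDerivAt.const_add _
  have h2 := (hu (t • EuclideanSpace.single d 1 + insL d y)).hasFDerivAt.comp y h1
  have h3 : HasFDerivAt (fun z => u (ins d t z))
      ((fderiv ℝ u (t • EuclideanSpace.single d 1 + insL d y)).comp (insL d)) y := by
    rw [h]
    exact h2
  rw [h3.fderiv, ContinuousLinearMap.comp_apply, insL_single, ← ins_eq_add]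

theorem am_per {n : ℕ} (d : Fin (n + 1)) {u : Ev (n + 1) → ℝ} (hp : IsPer u) :
    Function.Periodic (am d u) 1 := by
  intro t
  have hv : HasIntegerCoords (EuclideanSpace.single d 1 : Ev (n + 1)) := by
    intro i
    by_cases h : i = d
    · subst h
      exact ⟨1, by simp⟩
    · exact ⟨0, by simp [h]⟩
  refine integral_congr_ae (Eventually.of_forall fun y => ?_)
  show u (ins d (t + 1) y) = u (ins d t y)
  have h1 : ins d (t + 1) y = ins d t y + EuclideanSpace.single d 1 := by
    rw [ins_eq_add, ins_eq_add, add_smul, one_smul]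
    abel
  rw [h1, hp _ hv]

/-- slice integrals of continuous functions are continuous -/
theorem continuous_am {n : ℕ} (d : Fin (n + 1)) {f : Ev (n + 1) → ℝ} (hc : Continuous f) :
    Continuous (am d f) := by
  obtain ⟨R, hR0, hR⟩ := exists_cell_bound n
  refine continuous_iff_continuousAt.2 fun t0 => ?_
  obtain ⟨M, hM⟩ := ((isCompact_Icc (a := t0 - 1) (b := t0 + 1)).prod
    (isCompact_closedBall (0 : Ev n) R)).exists_bound_of_continuousOn
    (f := fun p : ℝ × Ev n => f (ins d p.1 p.2))
    (hc.comp (continuous_ins d)).continuousOn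
  refine continuousAt_of_dominated (bound := fun _ => M) ?_ ?_ (integrable_const _) ?_
  · refine Eventually.of_forall fun t => ?_
    exact (hc.comp ((continuous_ins d).comp (continuous_const.prodMk
      continuous_id))).aestronglyMeasurable
  · have h1 : ∀ᶠ t in 𝓝 t0, t ∈ Set.Icc (t0 - 1) (t0 + 1) :=
      Icc_mem_nhds (by linarith) (by linarith)
    filter_upwards [h1] with t ht
    filter_upwards [ae_restrict_mem (measurableSet_cell n)] with y hy
    exact hM (t, y) ⟨ht, hR hy⟩
  · refine Eventually.of_forall fun y => ?_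
    exact (hc.comp ((continuous_ins d).comp (continuous_id.prodMk
      continuous_const))).continuousAt

theorem continuous_grd {n : ℕ} {u : Ev n → ℝ} (hu : ContDiff ℝ 1 u) (i : Fin n) :
    Continuous fun x => gr u x i :=
  (EuclideanSpace.proj i : Ev n →L[ℝ] ℝ).continuous.comp (gr_continuous hu)

theorem deriv_am {n : ℕ} (d : Fin (n + 1)) {u : Ev (n + 1) → ℝ} (hu : ContDiff ℝ 1 u) (t : ℝ) :
    HasDerivAt (am d u) (∫ y in unitCell n, gr u (ins d t y) d) t := by
  obtain ⟨R, hR0, hR⟩ := exists_cell_bound n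
  have hgc := continuous_grd hu d
  obtain ⟨M, hM⟩ := ((isCompact_Icc (a := t - 1) (b := t + 1)).prod
    (isCompact_closedBall (0 : Ev n) R)).exists_bound_of_continuousOn
    (f := fun p : ℝ × Ev n => gr u (ins d p.1 p.2) d)
    (hgc.comp (continuous_ins d)).continuousOn
  have hcr : ∀ s : ℝ, Continuous fun y : Ev n => ins d s y := fun s =>
    (continuous_ins d).comp (continuous_const.prodMk continuous_id)
  refine (hasDerivAt_integral_of_dominated_loc_of_deriv_le (s := Set.Icc (t - 1) (t + 1))
    (bound := fun _ => M) (F := fun s y => u (ins d s y)) (F' := fun s y => gr u (ins d s y) d)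
    (Icc_mem_nhds (by linarith) (by linarith)) ?_ ?_ ?_ ?_ (integrable_const _) ?_).2
  · exact Eventually.of_forall fun s => (hu.continuous.comp (hcr s)).aestronglyMeasurable
  · exact integrable_cell (hu.continuous.comp (hcr t))
  · exact (hgc.comp (hcr t)).aestronglyMeasurable
  · filter_upwards [ae_restrict_mem (measurableSet_cell n)] with y hy s hs
    exact hM (s, y) ⟨hs, hR hy⟩
  · refine Eventually.of_forall fun y s _ => ?_
    have h : (fun s => u (ins d s y)) = fun s => u (s • EuclideanSpace.single d 1 + insL d y) :=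
      funext fun z => by rw [ins_eq_add]
    have h1 : HasDerivAt (fun s : ℝ => s • (EuclideanSpace.single d 1 : Ev (n + 1)) + insL d y)
        (EuclideanSpace.single d 1) s := by
      have := ((hasDerivAt_id s).smul_const (EuclideanSpace.single d 1 : Ev (n + 1))).add_const
        (insL d y)
      simpa using this
    have h2 := (hu.differentiable one_ne_zero
      (s • EuclideanSpace.single d 1 + insL d y)).hasFDerivAt.comp_hasDerivAt s h1
    rw [← ins_eq_add] at h2
    show HasDerivAt (fun s => u (ins d s y)) _ s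
    rw [h]
    exact h2

theorem am_contDiff {n : ℕ} (d : Fin (n + 1)) {u : Ev (n + 1) → ℝ} (hu : ContDiff ℝ 1 u) :
    ContDiff ℝ 1 (am d u) := by
  rw [contDiff_one_iff_deriv]
  refine ⟨fun t => (deriv_am d hu t).differentiableAt, ?_⟩
  have h : deriv (am d u) = am d fun x => gr u x d := funext fun t => (deriv_am d hu t).deriv
  rw [h]
  exact continuous_am d (continuous_grd hu d)

theorem norm_gr_ins_sq {n : ℕ} (d : Fin (n + 1)) {u : Ev (n + 1) → ℝ} (hu : Differentiable ℝ u)
    (t : ℝ) (y : Ev n) :
    ‖gr u (ins d t y)‖ ^ 2 = ‖gr (fun z => u (ins d t z)) y‖ ^ 2 + (gr u (ins d t y) d) ^ 2 := by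
  rw [EuclideanSpace.real_norm_sq_eq, EuclideanSpace.real_norm_sq_eq,
    Fin.sum_univ_succAbove _ d, add_comm]
  congr 1
  exact Finset.sum_congr rfl fun i _ => by rw [gr_ins d hu]

theorem Tm_eq {n : ℕ} (d : Fin (n + 1)) {u : Ev (n + 1) → ℝ} (hu : ContDiff ℝ 1 u) :
    Tm d u = am d fun x => √(‖gr u x‖ ^ 2 - (gr u x d) ^ 2) := by
  funext t
  refine integral_congr_ae (Eventually.of_forall fun y => ?_)
  show _ = √(‖gr u (ins d t y)‖ ^ 2 - (gr u (ins d t y) d) ^ 2)
  rw [norm_gr_ins_sq d (hu.differentiable one_ne_zero), add_sub_cancel_right,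
    Real.sqrt_sq (norm_nonneg _)]

theorem Tm_continuous {n : ℕ} (d : Fin (n + 1)) {u : Ev (n + 1) → ℝ} (hu : ContDiff ℝ 1 u) :
    Continuous (Tm d u) := by
  rw [Tm_eq d hu]
  apply continuous_am
  exact Real.continuous_sqrt.comp (((gr_continuous hu).norm.pow 2).sub
    ((continuous_grd hu d).pow 2))

theorem Tm_nonneg {n : ℕ} (d : Fin (n + 1)) (u : Ev (n + 1) → ℝ) (t : ℝ) : 0 ≤ Tm d u t :=
  integral_nonneg fun _ => norm_nonneg _

theorem Tm_per {n : ℕ} (d : Fin (n + 1)) {u : Ev (n + 1) → ℝ} (hp : IsPer u) :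
    Function.Periodic (Tm d u) 1 := by
  intro t
  unfold Tm
  have hv : HasIntegerCoords (EuclideanSpace.single d 1 : Ev (n + 1)) := by
    intro i
    by_cases h : i = d
    · subst h
      exact ⟨1, by simp⟩
    · exact ⟨0, by simp [h]⟩
  have h : (fun z => u (ins d (t + 1) z)) = fun z : Ev n => u (ins d t z) := by
    funext y
    have h1 : ins d (t + 1) y = ins d t y + EuclideanSpace.single d 1 := by
      rw [ins_eq_add, ins_eq_add, add_smul, one_smul]
      abel
    rw [h1, hp _ hv]
  rw [h]

theorem le_of_sq_le_sq_aux {a b : ℝ} (h : a ^ 2 ≤ b ^ 2) (hb : 0 ≤ b) : a ≤ b :=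
  abs_le_of_sq_le_sq' h hb |>.2

theorem sqrt_slice_le {n : ℕ} (d : Fin (n + 1)) {u : Ev (n + 1) → ℝ} (hu : ContDiff ℝ 1 u)
    (t : ℝ) : Real.sqrt ((Tm d u t) ^ 2 + (deriv (am d u) t) ^ 2) ≤
      ∫ y in unitCell n, ‖gr u (ins d t y)‖ := by
  have hcr : Continuous fun y : Ev n => ins d t y :=
    (continuous_ins d).comp (continuous_const.prodMk continuous_id)
  have hdf := hu.differentiable one_ne_zero
  set g : Ev n → ℝ := fun y => ‖gr (fun z => u (ins d t z)) y‖ with hg
  set w : Ev n → ℝ := fun y => gr u (ins d t y) d with hw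
  have hgc : Continuous g := (gr_continuous (contDiff_slice d hu t)).norm
  have hwc : Continuous w := (continuous_grd hu d).comp hcr
  have hgi := integrable_cell hgc
  have hwi := integrable_cell hwc
  rw [(deriv_am d hu t).deriv]
  show Real.sqrt ((∫ y in unitCell n, g y) ^ 2 + (∫ y in unitCell n, w y) ^ 2) ≤ _
  set A := ∫ y in unitCell n, g y
  set B := ∫ y in unitCell n, w y
  set S := Real.sqrt (A ^ 2 + B ^ 2) with hS
  rcases eq_or_lt_of_le (Real.sqrt_nonneg (A ^ 2 + B ^ 2)) with h0 | hpos
  · rw [← hS] at h0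
    rw [← h0]
    exact integral_nonneg fun _ => norm_nonneg _
  · rw [← hS] at hpos
    have hS2 : S ^ 2 = A ^ 2 + B ^ 2 := Real.sq_sqrt (by positivity)
    have h1 : S = ∫ y in unitCell n, (A / S * g y + B / S * w y) := by
      rw [integral_add (hgi.const_mul _) (hwi.const_mul _), integral_const_mul,
        integral_const_mul]
      show S = A / S * A + B / S * B
      field_simp
      linarith
    calc S = ∫ y in unitCell n, (A / S * g y + B / S * w y) := h1
      _ ≤ ∫ y in unitCell n, ‖gr u (ins d t y)‖ := by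
        refine integral_mono ((hgi.const_mul _).add (hwi.const_mul _))
          (integrable_cell ((gr_continuous hu).norm.comp hcr)) fun y => ?_
        show A / S * g y + B / S * w y ≤ ‖gr u (ins d t y)‖
        have h2 : ‖gr u (ins d t y)‖ ^ 2 = g y ^ 2 + w y ^ 2 := norm_gr_ins_sq d hdf t y
        refine le_of_sq_le_sq_aux ?_ (norm_nonneg _)
        rw [h2]
        have h3 : (A / S) ^ 2 + (B / S) ^ 2 = 1 := by
          rw [div_pow, div_pow, ← add_div, ← hS2]
          exact div_self (by positivity)
        nlinarith [sq_nonneg (A / S * w y - B / S * g y)]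

end Crest.Agent.R214
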