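import Crest.Agent.R214.Fub
import Crest.Agent.R214.Slr
import Crest.Agent.R214.En
import Crest.Agent.R214.Mol
import Crest.Agent.R214.SD

/-!
# Row 214: slice data of a set of finite perimeter
-/

set_option autoImplicit false

open MeasureTheory Crest.GeometryTopology.PeriodicPerimeter Filter
open scoped ENNReal Topology

namespace Crest.Agent.R214

/-- **mollification** -/
theorem moll_mol {n : ℕ} {E : Set (Ev n)} (hE : MeasurableSet E) (hper : IsLatticePeriodic E) :
    Moll E (mol E) where
  smooth := mol_smooth hE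
  per := mol_isPer hper
  nonneg := mol_nonneg E
  le_one := mol_le_one hE
  energy hP k := by
    have h2 : ContDiff ℝ 2 (mol E k) := mol_smooth hE k 2
    refine energy_of_test h2 (mol_isPer hper k) fun X hX => ?_
    exact avg_test hE hper hP (bump n k).integrable_normed
      (bump n k).nonneg_normed (bump n k).integral_normed hX
  conv := mol_conv hE

theorem exists_moll {n : ℕ} {E : Set (Ev n)} (hE : MeasurableSet E)
    (hper : IsLatticePeriodic E) : ∃ u, Moll E u := ⟨_, moll_mol hE hper⟩

theorem Moll.c1 {n : ℕ} {E : Set (Ev n)} {u : ℕ → Ev n → ℝ} (h : Moll E u) (k : ℕ) :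
    ContDiff ℝ 1 (u k) := h.smooth k 1

theorem Moll.c2 {n : ℕ} {E : Set (Ev n)} {u : ℕ → Ev n → ℝ} (h : Moll E u) (k : ℕ) :
    ContDiff ℝ 2 (u k) := h.smooth k 2

/-- slices of the mollification converge on almost every slice -/
theorem Moll.slice_conv {n : ℕ} {E : Set (Ev (n + 1))} {u : ℕ → Ev (n + 1) → ℝ} (h : Moll E u)
    (d : Fin (n + 1)) : ∀ᵐ t : ℝ, ∀ᵐ y : Ev n, Tendsto (fun k => u k (ins d t y)) atTop
      (𝓝 ((slice d E t).indicator (fun _ => (1 : ℝ)) y)) :=
  ae_ins d h.conv

theorem am_nonneg {n : ℕ} (d : Fin (n + 1)) {u : Ev (n + 1) → ℝ} (h0 : ∀ x, 0 ≤ u x) (t : ℝ) :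
    0 ≤ am d u t := integral_nonneg fun _ => h0 _

theorem am_le_one {n : ℕ} (d : Fin (n + 1)) {u : Ev (n + 1) → ℝ} (h1 : ∀ x, u x ≤ 1)
    (h0 : ∀ x, 0 ≤ u x) (t : ℝ) : am d u t ≤ 1 := by
  have h : ∫ _y in unitCell n, (1 : ℝ) = 1 := by
    rw [setIntegral_const, measureReal_def, cell_volume]
    simp
  rw [← h]
  exact integral_mono_of_nonneg (Eventually.of_forall fun _ => h0 _) (integrable_const _)
    (Eventually.of_forall fun _ => h1 _)

/-- slicing inequality -/
theorem slice_ineq {n : ℕ} (d : Fin (n + 1)) {u : Ev (n + 1) → ℝ} (hu : ContDiff ℝ 1 u) :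
    ∫ t in (0:ℝ)..1, Real.sqrt ((Tm d u t) ^ 2 + (deriv (am d u) t) ^ 2) ≤
      ∫ x in unitCell (n + 1), ‖gr u x‖ := by
  have hc : Continuous fun x => ‖gr u x‖ := (gr_continuous hu).norm
  rw [cell_fubini d (integrable_cell hc)]
  have hcd : Continuous (deriv (am d u)) := (am_contDiff d hu).continuous_deriv le_rfl
  refine intervalIntegral.integral_mono_on zero_le_one ?_ ?_ fun t _ => sqrt_slice_le d hu t
  · exact (Real.continuous_sqrt.comp (((Tm_continuous d hu).pow 2).add
      (hcd.pow 2))).intervalIntegrable _ _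
  · apply Continuous.intervalIntegrable
    obtain ⟨R, hR0, hR⟩ := exists_cell_bound n
    refine continuous_iff_continuousAt.2 fun t0 => ?_
    obtain ⟨M, hM⟩ := ((isCompact_Icc (a := t0 - 1) (b := t0 + 1)).prod
      (isCompact_closedBall (0 : Ev n) R)).exists_bound_of_continuousOn
      (f := fun p : ℝ × Ev n => ‖gr u (ins d p.1 p.2)‖)
      (hc.comp (continuous_ins d)).continuousOn
    refine continuousAt_of_dominated (bound := fun _ => M) ?_ ?_ (integrable_const _) ?_
    · refine Eventually.of_forall fun t => ?_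
      exact (hc.comp ((continuous_ins d).comp (continuous_const.prodMk
        continuous_id))).aestronglyMeasurable
    · have h1 : ∀ᶠ t in 𝓝 t0, t ∈ Set.Icc (t0 - 1) (t0 + 1) :=
        Icc_mem_nhds (by linarith) (by linarith)
      filter_upwards [h1] with t ht
      filter_upwards [ae_restrict_mem (measurableSet_cell n)] with y hy
      exact hM (t, y) ⟨ht, hR hy⟩
    · refine Eventually.of_forall fun y => ?_
      exact (hc.comp ((continuous_ins d).comp (continuous_id.prodMk
        continuous_const))).continuousAt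

/-- convergence of the slice integrals -/
theorem Moll.am_conv {n : ℕ} {E : Set (Ev (n + 1))} (hE : MeasurableSet E)
    {u : ℕ → Ev (n + 1) → ℝ} (h : Moll E u) (d : Fin (n + 1)) :
    ∀ᵐ t : ℝ, Tendsto (fun k => am d (u k) t) atTop (𝓝 (sl d E t)) := by
  filter_upwards [h.slice_conv d] with t ht
  have hm : MeasurableSet (slice d E t) := slice_measurable hE t
  have e : sl d E t = ∫ y in unitCell n, (slice d E t).indicator (fun _ => (1 : ℝ)) y := by
    rw [setIntegral_indicator hm, setIntegral_const, smul_eq_mul, mul_one, Set.inter_comm]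
    rfl
  rw [e]
  refine tendsto_integral_of_dominated_convergence (fun _ => 1) (fun k => ?_)
    (integrable_const _) (fun k => Eventually.of_forall fun y => ?_) (ae_restrict_of_ae ht)
  · exact ((h.c1 k).continuous.comp ((continuous_ins d).comp (continuous_const.prodMk
      continuous_id))).aestronglyMeasurable
  · rw [Real.norm_of_nonneg (h.nonneg k _)]
    exact h.le_one k _

/-- the slice total variations are asymptotically at least the slice perimeters -/
theorem Moll.Tm_lower {n : ℕ} {E : Set (Ev (n + 1))} (hE : MeasurableSet E)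
    {u : ℕ → Ev (n + 1) → ℝ} (h : Moll E u) (d : Fin (n + 1)) :
    ∀ᵐ t : ℝ, ∀ s, ENNReal.ofReal s < periodicPerimeter (slice d E t) →
      ∀ᶠ k in atTop, s < Tm d (u k) t := by
  filter_upwards [h.slice_conv d] with t ht s hs
  refine perim_lsc (slice_measurable hE t) (v := fun k y => u k (ins d t y))
    (fun k => contDiff_slice d (h.c1 k) t) (fun k => isPer_slice d (h.per k) t) (fun k x => ?_)
    ht hs
  rw [abs_of_nonneg (h.nonneg k _)]
  exact h.le_one k _

/-- **slice datum of a set of finite perimeter** -/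
theorem sq_of_perim {n : ℕ} {E : Set (Ev (n + 1))} (hE : MeasurableSet E)
    (hP : periodicPerimeter E ≠ ∞) {u : ℕ → Ev (n + 1) → ℝ} (h : Moll E u) (d : Fin (n + 1))
    {J : ℝ → ℝ} (_hJ0 : ∀ t, 0 ≤ J t)
    (hJ : ∀ᵐ t : ℝ, ENNReal.ofReal (2 * J t) ≤ periodicPerimeter (slice d E t)) :
    SQ (periodicPerimeter E).toReal (sl d E) J (fun k => am d (u k)) (fun k => Tm d (u k)) where
  c1 k := am_contDiff d (h.c1 k)
  per k := am_per d (h.per k)
  a01 k t := ⟨am_nonneg d (h.nonneg k) t, am_le_one d (h.le_one k) (h.nonneg k) t⟩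
  contT k := Tm_continuous d (h.c1 k)
  perT k := Tm_per d (h.per k)
  T0 k t := Tm_nonneg d (u k) t
  bound k := (slice_ineq d (h.c1 k)).trans (h.energy hP k)
  conv := h.am_conv hE d
  lower := by
    filter_upwards [h.Tm_lower hE d, hJ] with t h1 h2 s hs
    rcases lt_or_ge s 0 with hs0 | hs0
    · exact Eventually.of_forall fun k => hs0.trans_le (Tm_nonneg d (u k) t)
    · exact h1 s (((ENNReal.ofReal_lt_ofReal_iff (hs0.trans_lt hs)).2 hs).trans_le h2)

/-- **slice datum of a set of finite perimeter** -/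
theorem sd_of_perim {n : ℕ} {E : Set (Ev (n + 1))} (hE : MeasurableSet E)
    (hper : IsLatticePeriodic E) (hP : periodicPerimeter E ≠ ∞) (d : Fin (n + 1))
    {J : ℝ → ℝ} (hJm : Measurable J) (hJp : Function.Periodic J 1) (hJ0 : ∀ t, 0 ≤ J t)
    (hJ : ∀ᵐ t : ℝ, ENNReal.ofReal (2 * J t) ≤ periodicPerimeter (slice d E t)) :
    SD (periodicPerimeter E).toReal (sl d E) J where
  per_a := sl_per hper
  per_J := hJp
  meas_a := sl_measurable hE
  meas_J := hJm
  a01 t := ⟨sl_nonneg t, sl_le_one hE t⟩
  J0 := hJ0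
  seq := ⟨_, _, sq_of_perim hE hP (moll_mol hE hper) d hJ0 hJ⟩

end Crest.Agent.R214
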