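import Crest.Agent.R214.Fub
import Crest.Agent.R214.Sdt
import Crest.Agent.R214.Iso2D

/-! ROW 214: the isoperimetric inequalities on `T¹` and `T²` and the slice data of sets in
`T²`, `T³` (helper10). -/

set_option autoImplicit false
open MeasureTheory Set Filter Topology Crest.GeometryTopology.PeriodicPerimeter
open scoped ENNReal

namespace Crest.Agent.R214

lemma vol_le_one {n : ℕ} (E : Set (Ev n)) : periodicVolume E ≤ 1 := by
  unfold periodicVolume
  have h : volume (E ∩ unitCell n) ≤ 1 := (measure_mono inter_subset_right).trans (cell_volume n).le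
  have := ENNReal.toReal_mono ENNReal.one_ne_top h
  simpa using this

lemma vol_nonneg' {n : ℕ} (E : Set (Ev n)) : 0 ≤ periodicVolume E := ENNReal.toReal_nonneg

/-- slices of a set in `T¹` are empty or full -/
lemma sl_zero_one (E : Set (Ev 1)) (t : ℝ) : sl 0 E t = 0 ∨ sl 0 E t = 1 := by
  unfold sl periodicVolume
  rcases (slice 0 E t).eq_empty_or_nonempty with h | ⟨y, hy⟩
  · left; rw [h]; simp
  · right
    have : slice 0 E t = univ := by
      ext z
      simp only [mem_univ, iff_true]
      have : z = y := by ext i; exact i.elim0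
      rw [this]; exact hy
    rw [this, univ_inter, cell_volume]; simp

/-- isoperimetric inequality on `T¹` -/
theorem perim1_ge {E : Set (Ev 1)} (hE : MeasurableSet E) (hper : IsLatticePeriodic E) :
    ENNReal.ofReal (2 * I1 (periodicVolume E)) ≤ periodicPerimeter E := by
  by_cases hP : periodicPerimeter E = ∞
  · rw [hP]; exact le_top
  by_cases hv : 0 < periodicVolume E ∧ periodicVolume E < 1
  · have S := sd_of_perim hE hper hP 0 (J := fun _ => 0) measurable_const (fun _ => rfl)
      (fun _ => le_rfl) (Eventually.of_forall fun t => by simp)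
    have hI : ∫ t in (0:ℝ)..1, sl 0 E t = periodicVolume E := integral_sl (d := 0) hE
    have k1 : 0 < volume ({x | sl 0 E x = 0} ∩ Ico 0 1) := by
      by_contra hcon
      have h0 : volume ({x | sl 0 E x = 0} ∩ Ico 0 1) = 0 := by simpa using hcon
      have := ae_of_cell_null (fun x => sl 0 E x ≠ 0) (fun x => by rw [S.per_a x]) (by
        simpa only [ne_eq, not_not] using h0)
      have h1 : ∀ᵐ x : ℝ, sl 0 E x = 1 := by
        filter_upwards [this] with x hx
        exact (sl_zero_one E x).resolve_left hx
      rw [intervalIntegral.integral_congr_ae (g := fun _ => (1:ℝ)) (h1.mono fun x hx _ => hx)] at hI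
      simp at hI
      linarith [hv.2]
    have k2 : 0 < volume ({x | sl 0 E x = 1} ∩ Ico 0 1) := by
      by_contra hcon
      have h0 : volume ({x | sl 0 E x = 1} ∩ Ico 0 1) = 0 := by simpa using hcon
      have := ae_of_cell_null (fun x => sl 0 E x ≠ 1) (fun x => by rw [S.per_a x]) (by
        simpa only [ne_eq, not_not] using h0)
      have h1 : ∀ᵐ x : ℝ, sl 0 E x = 0 := by
        filter_upwards [this] with x hx
        exact (sl_zero_one E x).resolve_right hx
      rw [intervalIntegral.integral_congr_ae (g := fun _ => (0:ℝ)) (h1.mono fun x hx _ => hx)] at hI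
      simp at hI
      linarith [hv.1]
    have h1 := S.iso_both k1 k2
    have e : I1 (periodicVolume E) = 1 := by unfold I1; rw [if_pos hv]
    rw [e]
    exact ENNReal.ofReal_le_of_le_toReal (by linarith)
  · have e : I1 (periodicVolume E) = 0 := by unfold I1; rw [if_neg hv]
    rw [e]; simp

/-- slice datum of a set in `T²` -/
theorem sd2 {K : Set (Ev 2)} (hK : MeasurableSet K) (hper : IsLatticePeriodic K)
    (hP : periodicPerimeter K ≠ ∞) (d : Fin 2) :
    SD (periodicPerimeter K).toReal (sl d K) (fun t => I1 (sl d K t)) :=
  sd_of_perim hK hper hP d (I1_meas.comp (sl_measurable (d := d) hK))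
    (fun t => by simp only [sl_per (d := d) hper t]) (fun _ => I1_nonneg _)
    (Eventually.of_forall fun t => perim1_ge (slice_measurable (d := d) hK t) (slice_periodic (d := d) hper t))

/-- isoperimetric inequality on `T²` -/
theorem iso2_torus {K : Set (Ev 2)} (hK : MeasurableSet K) (hper : IsLatticePeriodic K) :
    ENNReal.ofReal (2 * I2 (periodicVolume K)) ≤ periodicPerimeter K := by
  by_cases hP : periodicPerimeter K = ∞
  · rw [hP]; exact le_top
  have := (sd2 hK hper hP 0).iso2
  rw [integral_sl (d := 0) hK] at this
  exact ENNReal.ofReal_le_of_le_toReal (by linarith)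

lemma I2_cont' : Continuous I2 := by unfold I2 w2; fun_prop

lemma I2_nonneg' {s : ℝ} : 0 ≤ I2 s := Real.sqrt_nonneg _

/-- slice datum of a set in `T³` -/
theorem sd3 {E : Set (Ev 3)} (hE : MeasurableSet E) (hper : IsLatticePeriodic E)
    (hP : periodicPerimeter E ≠ ∞) (d : Fin 3) :
    SD (periodicPerimeter E).toReal (sl d E) (fun t => I2 (sl d E t)) :=
  sd_of_perim hE hper hP d (I2_cont'.measurable.comp (sl_measurable (d := d) hE))
    (fun t => by simp only [sl_per (d := d) hper t]) (fun _ => I2_nonneg')
    (Eventually.of_forall fun t => iso2_torus (slice_measurable (d := d) hE t) (slice_periodic (d := d) hper t))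

end Crest.Agent.R214
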