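import Crest.Agent.R214.Sdt

/-!
# Row 214: truncation of a set along an arc of slices
-/

set_option autoImplicit false

open MeasureTheory Crest.GeometryTopology.PeriodicPerimeter Filter
open scoped ENNReal Topology

namespace Crest.Agent.R214

/-- the arc `(y1, y2)` modulo `1` -/
def arcSet (y1 y2 : ℝ) : Set ℝ := {t | ∃ m : ℤ, y1 < t + m ∧ t + m < y2}

/-- `E` minus the slices over the arc `(y1, y2)` modulo `1` -/
def cutArc {n : ℕ} (d : Fin (n + 1)) (y1 y2 : ℝ) (E : Set (Ev (n + 1))) : Set (Ev (n + 1)) :=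
  {x | x ∈ E ∧ x d ∉ arcSet y1 y2}

theorem arcSet_add_int (y1 y2 t : ℝ) (k : ℤ) : t + k ∈ arcSet y1 y2 ↔ t ∈ arcSet y1 y2 := by
  constructor
  · rintro ⟨m, h1, h2⟩
    refine ⟨k + m, ?_, ?_⟩ <;> push_cast <;> linarith
  · rintro ⟨m, h1, h2⟩
    refine ⟨m - k, ?_, ?_⟩ <;> push_cast <;> linarith

theorem arcSet_measurable (y1 y2 : ℝ) : MeasurableSet (arcSet y1 y2) := by
  have h : arcSet y1 y2 = ⋃ m : ℤ, (fun t : ℝ => t + m) ⁻¹' Set.Ioo y1 y2 := by
    ext t
    simp only [arcSet, Set.mem_ofPred_eq, Set.mem_iUnion, Set.mem_preimage, Set.mem_Ioo]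
  rw [h]
  refine MeasurableSet.iUnion fun m => ?_
  exact (measurable_id.add_const _) measurableSet_Ioo

theorem cutArc_measurable {n : ℕ} (d : Fin (n + 1)) (y1 y2 : ℝ) {E : Set (Ev (n + 1))}
    (hE : MeasurableSet E) : MeasurableSet (cutArc d y1 y2 E) := by
  have h2 : Measurable fun x : Ev (n + 1) => x d := by fun_prop
  exact hE.inter (h2 (arcSet_measurable y1 y2).compl)

theorem cutArc_periodic {n : ℕ} (d : Fin (n + 1)) (y1 y2 : ℝ) {E : Set (Ev (n + 1))}
    (hE : IsLatticePeriodic E) : IsLatticePeriodic (cutArc d y1 y2 E) := by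
  intro v hv x
  obtain ⟨k, hk⟩ := hv d
  have h1 : (x + v) d = x d + k := by rw [← hk]; rfl
  show (x + v ∈ E ∧ (x + v) d ∉ arcSet y1 y2) ↔ (x ∈ E ∧ x d ∉ arcSet y1 y2)
  rw [h1, arcSet_add_int, hE v hv]

theorem cutArc_subset {n : ℕ} (d : Fin (n + 1)) (y1 y2 : ℝ) (E : Set (Ev (n + 1))) :
    cutArc d y1 y2 E ⊆ E := fun _ h => h.1

theorem slice_cutArc_mem {n : ℕ} (d : Fin (n + 1)) {y1 y2 t : ℝ} (E : Set (Ev (n + 1)))
    (ht : t ∈ arcSet y1 y2) : slice d (cutArc d y1 y2 E) t = ∅ := by
  ext y
  simp only [slice, cutArc, Set.mem_ofPred_eq, Set.mem_empty_iff_false, iff_false, ins_same]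
  exact fun h => h.2 ht

theorem slice_cutArc_notMem {n : ℕ} (d : Fin (n + 1)) {y1 y2 t : ℝ} (E : Set (Ev (n + 1)))
    (ht : t ∉ arcSet y1 y2) : slice d (cutArc d y1 y2 E) t = slice d E t := by
  ext y
  simp only [slice, cutArc, Set.mem_ofPred_eq, ins_same]
  exact ⟨fun h => h.1, fun h => ⟨h, ht⟩⟩

theorem sl_cutArc_mem {n : ℕ} (d : Fin (n + 1)) {y1 y2 t : ℝ} (E : Set (Ev (n + 1)))
    (ht : t ∈ arcSet y1 y2) : sl d (cutArc d y1 y2 E) t = 0 := by
  rw [sl, slice_cutArc_mem d E ht]
  simp [periodicVolume]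

theorem sl_cutArc_notMem {n : ℕ} (d : Fin (n + 1)) {y1 y2 t : ℝ} (E : Set (Ev (n + 1)))
    (ht : t ∉ arcSet y1 y2) : sl d (cutArc d y1 y2 E) t = sl d E t := by
  rw [sl, slice_cutArc_notMem d E ht, sl]

theorem periodicVolume_mono {n : ℕ} {A B : Set (Ev n)} (h : A ⊆ B) :
    periodicVolume A ≤ periodicVolume B := by
  unfold periodicVolume
  refine ENNReal.toReal_mono ?_ (measure_mono (Set.inter_subset_inter_left _ h))
  exact ((measure_mono Set.inter_subset_right).trans_lt (cell_finite n)).ne

theorem sl_mono {n : ℕ} (e : Fin (n + 1)) {A B : Set (Ev (n + 1))} (h : A ⊆ B) (t : ℝ) :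
    sl e A t ≤ sl e B t := periodicVolume_mono fun _ hy => h hy

/-- arc membership inside one period -/
theorem mem_arcSet_iff {y1 y2 t : ℝ} (h21 : y2 < y1 + 1) (h1 : y1 ≤ t) (h2 : t < y1 + 1) :
    t ∈ arcSet y1 y2 ↔ y1 < t ∧ t < y2 := by
  constructor
  · rintro ⟨m, h3, h4⟩
    have hm : m = 0 := by
      have h5 : (m : ℝ) < 1 := by linarith
      have h6 : (-1 : ℝ) < m := by linarith
      have h7 : m < 1 := by exact_mod_cast h5
      have h8 : -1 < m := by exact_mod_cast h6
      omega
    rw [hm, Int.cast_zero, add_zero] at h3 h4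
    exact ⟨h3, h4⟩
  · rintro ⟨h3, h4⟩
    exact ⟨0, by simpa using h3, by simpa using h4⟩

/-- integral over a period of a function cut off on the arc -/
theorem integral_arc_compl {D : ℝ → ℝ} (hD : Function.Periodic D 1)
    (hi : ∀ a b, IntervalIntegrable D volume a b) {y1 y2 : ℝ} (h12 : y1 < y2)
    (h21 : y2 < y1 + 1) :
    ∫ t in (0:ℝ)..1, (arcSet y1 y2)ᶜ.indicator D t = ∫ t in y2..(y1 + 1), D t := by
  have hper : Function.Periodic ((arcSet y1 y2)ᶜ.indicator D) 1 := by
    intro t
    have h := arcSet_add_int y1 y2 t 1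
    rw [Int.cast_one] at h
    by_cases ht : t ∈ arcSet y1 y2
    · have h3 : t ∉ (arcSet y1 y2)ᶜ := fun hc => hc ht
      have h4 : t + 1 ∉ (arcSet y1 y2)ᶜ := fun hc => hc (h.2 ht)
      rw [Set.indicator_of_notMem h3, Set.indicator_of_notMem h4]
    · rw [Set.indicator_of_mem (show t ∈ (arcSet y1 y2)ᶜ from ht),
        Set.indicator_of_mem (show t + 1 ∈ (arcSet y1 y2)ᶜ from fun hc => ht (h.1 hc)), hD]
  have e1 := hper.intervalIntegral_add_eq 0 y1
  rw [zero_add] at e1
  have hi2 : ∀ a b, IntervalIntegrable ((arcSet y1 y2)ᶜ.indicator D) volume a b := by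
    intro a b
    have h1 := hi a b
    rw [intervalIntegrable_iff] at h1 ⊢
    exact h1.indicator (arcSet_measurable y1 y2).compl
  rw [e1, ← intervalIntegral.integral_add_adjacent_intervals (hi2 y1 y2) (hi2 y2 (y1 + 1))]
  have e2 : ∫ t in y1..y2, (arcSet y1 y2)ᶜ.indicator D t = 0 := by
    rw [intervalIntegral.integral_of_le h12.le, integral_Ioc_eq_integral_Ioo]
    rw [setIntegral_congr_fun (g := fun _ => (0 : ℝ)) measurableSet_Ioo fun t ht => ?_]
    · simp
    · have h3 : t ∉ (arcSet y1 y2)ᶜ := fun hc => hc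
        ((mem_arcSet_iff h21 ht.1.le (ht.2.trans h21)).2 ⟨ht.1, ht.2⟩)
      exact Set.indicator_of_notMem h3 _
  have e3 : ∫ t in y2..(y1 + 1), (arcSet y1 y2)ᶜ.indicator D t = ∫ t in y2..(y1 + 1), D t := by
    rw [intervalIntegral.integral_of_le h21.le, intervalIntegral.integral_of_le h21.le,
      integral_Ioc_eq_integral_Ioo, integral_Ioc_eq_integral_Ioo]
    refine setIntegral_congr_fun measurableSet_Ioo fun t ht => ?_
    have h3 : t ∈ (arcSet y1 y2)ᶜ := fun hc =>
      absurd ((mem_arcSet_iff h21 (h12.le.trans ht.1.le) ht.2).1 hc).2 (not_lt.2 ht.1.le)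
    exact Set.indicator_of_mem h3 _
  rw [e2, e3, zero_add]

/-- the slice integral of a divergence is the derivative of the flux -/
theorem hasDerivAt_flux {n : ℕ} (d : Fin (n + 1)) {Y : Ev (n + 1) → Ev (n + 1)}
    (hY : ContDiff ℝ 1 Y) (hp : IsPer Y) (t : ℝ) :
    HasDerivAt (am d fun x => Y x d) (∫ y in unitCell n, divergence Y (ins d t y)) t := by
  have hc : ∀ i, ContDiff ℝ 1 fun x => Y x i := fun i =>
    (EuclideanSpace.proj i : Ev (n + 1) →L[ℝ] ℝ).contDiff.comp hY
  have hd : Differentiable ℝ Y := hY.differentiable one_ne_zero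
  have hg : ∀ i x, gr (fun x => Y x i) x i = fderiv ℝ Y x (EuclideanSpace.single i 1) i :=
    fun i x => fderiv_coord (hd x) i _
  have hci : ∀ i, Continuous fun y : Ev n => gr (fun x => Y x i) (ins d t y) i := fun i =>
    (EuclideanSpace.proj i : Ev (n + 1) →L[ℝ] ℝ).continuous.comp ((gr_continuous (hc i)).comp
      ((continuous_ins d).comp (continuous_const.prodMk continuous_id)))
  have e : ∫ y in unitCell n, divergence Y (ins d t y) =
      ∫ y in unitCell n, gr (fun x => Y x d) (ins d t y) d := by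
    have e1 : ∀ y : Ev n, divergence Y (ins d t y) = gr (fun x => Y x d) (ins d t y) d +
        ∑ i : Fin n, gr (fun z => Y (ins d t z) (d.succAbove i)) y i := by
      intro y
      unfold divergence
      rw [Fin.sum_univ_succAbove _ d, hg]
      congr 1
      refine Finset.sum_congr rfl fun i _ => ?_
      rw [← hg, gr_ins d ((hc (d.succAbove i)).differentiable one_ne_zero) t y i]
    simp_rw [e1]
    have hci' : ∀ i : Fin n, Continuous fun y : Ev n =>
        gr (fun z => Y (ins d t z) (d.succAbove i)) y i := fun i =>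
      (EuclideanSpace.proj i : Ev n →L[ℝ] ℝ).continuous.comp
        (gr_continuous (contDiff_slice d (hc (d.succAbove i)) t))
    rw [integral_add (integrable_cell (hci d)) (integrable_cell
      (continuous_finsetSum _ fun i _ => hci' i)), integral_finsetSum _
      (fun i _ => integrable_cell (hci' i))]
    have e2 : ∀ i : Fin n, ∫ y in unitCell n,
        gr (fun z => Y (ins d t z) (d.succAbove i)) y i = 0 := fun i =>
      cell_integral_fderiv (contDiff_slice d (hc (d.succAbove i)) t)
        (isPer_slice d (u := fun x => Y x (d.succAbove i)) (fun v hv x => by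
          show Y (x + v) _ = Y x _
          rw [hp v hv]) t) _
    simp [e2]
  rw [e]
  exact deriv_am d (hc d) t

/-- continuous periodic functions are bounded -/
theorem exists_bound_isPer {n : ℕ} {f : Ev n → ℝ} (hf : Continuous f) (hp : IsPer f) :
    ∃ C : ℝ, ∀ x, |f x| ≤ C := by
  obtain ⟨R, hR0, hR⟩ := exists_cell_bound n
  obtain ⟨M, hM⟩ := (isCompact_closedBall (0 : Ev n) R).exists_bound_of_continuousOn
    hf.continuousOn
  refine ⟨M, fun x => ?_⟩
  have hv : HasIntegerCoords (WithLp.toLp 2 fun i => (-(⌊x i⌋ : ℝ)) : Ev n) :=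
    fun i => ⟨-⌊x i⌋, by simp⟩
  rw [← hp _ hv x, ← Real.norm_eq_abs]
  apply hM
  apply hR
  intro i
  have h1 : (x + (WithLp.toLp 2 fun i => (-(⌊x i⌋ : ℝ)) : Ev n)) i = x i + -(⌊x i⌋ : ℝ) := rfl
  rw [h1]
  constructor
  · linarith [Int.floor_le (x i)]
  · linarith [Int.lt_floor_add_one (x i)]

theorem continuous_ins_right {n : ℕ} (d : Fin (n + 1)) (t : ℝ) :
    Continuous fun y : Ev n => ins d t y :=
  (continuous_ins d).comp (continuous_const.prodMk continuous_id)

/-- product rule -/
theorem divergence_smul' {n : ℕ} {u : Ev n → ℝ} {X : Ev n → Ev n} {x : Ev n}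
    (hu : DifferentiableAt ℝ u x) (hX : DifferentiableAt ℝ X x) :
    divergence (fun x => u x • X x) x = u x * divergence X x + ∑ i, gr u x i * X x i := by
  unfold divergence
  rw [Finset.mul_sum, ← Finset.sum_add_distrib]
  refine Finset.sum_congr rfl fun i _ => ?_
  rw [fderiv_fun_smul hu hX]
  rfl

theorem abs_sum_gr_le {n : ℕ} {X : Ev n → Ev n} (hX : ∀ x, ‖X x‖ ≤ 1) (g x : Ev n) :
    |∑ i, g i * X x i| ≤ ‖g‖ := by
  have h1 : ∑ i, g i * X x i = inner ℝ (X x) g := by
    rw [PiLp.inner_apply]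
    rfl
  rw [h1]
  refine (abs_real_inner_le_norm _ _).trans ?_
  exact mul_le_of_le_one_left (norm_nonneg _) (hX x)

theorem abs_coord_le {n : ℕ} (x : Ev n) (i : Fin n) : |x i| ≤ ‖x‖ := by
  rw [← Real.norm_eq_abs]
  exact PiLp.norm_apply_le x i

theorem Tm_le {n : ℕ} (d : Fin (n + 1)) {u : Ev (n + 1) → ℝ} (hu : ContDiff ℝ 1 u) (t : ℝ) :
    Tm d u t ≤ am d (fun x => ‖gr u x‖) t := by
  refine le_trans ?_ (sqrt_slice_le d hu t)
  apply Real.le_sqrt_of_sq_le
  nlinarith [sq_nonneg (deriv (am d u) t)]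

/-- **truncation**: for every admissible field -/
theorem trunc_field {n : ℕ} {E : Set (Ev (n + 1))} (hE : MeasurableSet E)
    (hper : IsLatticePeriodic E) (hP : periodicPerimeter E ≠ ∞) {u : ℕ → Ev (n + 1) → ℝ}
    (hM : Moll E u) (d : Fin (n + 1)) {J : ℝ → ℝ} (hJm : Measurable J) (hJ0 : ∀ t, 0 ≤ J t)
    (hJ : ∀ᵐ t : ℝ, ENNReal.ofReal (2 * J t) ≤ periodicPerimeter (slice d E t)) {y1 y2 : ℝ}
    (h12 : y1 < y2) (h21 : y2 < y1 + 1)
    (c1 : Tendsto (fun k => am d (u k) y1) atTop (𝓝 (sl d E y1)))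
    (c2 : Tendsto (fun k => am d (u k) y2) atTop (𝓝 (sl d E y2)))
    {X : Ev (n + 1) → Ev (n + 1)} (hX : IsAdmissibleField X) :
    IntervalIntegrable J volume y1 y2 ∧
      ∫ x in cutArc d y1 y2 E ∩ unitCell (n + 1), divergence X x ≤
        (periodicPerimeter E).toReal - 2 * (∫ t in y1..y2, J t) + sl d E y1 + sl d E y2 := by
  have hdc := continuous_divergence hX.1
  have hdp : IsPer (divergence X) := divergence_isPer hX.2.1
  obtain ⟨C, hC⟩ := exists_bound_isPer hdc hdp
  have hC0 : 0 ≤ C := (abs_nonneg _).trans (hC 0)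
  set P := (periodicPerimeter E).toReal with hPdef
  -- the slice fluxes
  set D : ℕ → ℝ → ℝ := fun k => am d fun x => u k x * divergence X x with hD
  set Di : ℝ → ℝ := am d fun x => oneE E x * divergence X x with hDi
  have hFc : ∀ k, Continuous fun x => u k x * divergence X x := fun k =>
    (hM.c1 k).continuous.mul hdc
  have hDc : ∀ k, Continuous (D k) := fun k => continuous_am d (hFc k)
  have hDip : Function.Periodic Di 1 := am_per d fun v hv x => by
    show oneE E (x + v) * divergence X (x + v) = oneE E x * divergence X x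
    rw [oneE_isPer hper v hv, hdp v hv]
  have hDconv : ∀ᵐ t : ℝ, Tendsto (fun k => D k t) atTop (𝓝 (Di t)) := by
    filter_upwards [hM.slice_conv d] with t ht
    refine tendsto_integral_of_dominated_convergence (fun _ => C) (fun k => ?_)
      (integrable_const _) (fun k => Eventually.of_forall fun y => ?_) (ae_restrict_of_ae ?_)
    · exact ((hFc k).comp (continuous_ins_right d t)).aestronglyMeasurable
    · rw [Real.norm_eq_abs, abs_mul, abs_of_nonneg (hM.nonneg k _)]
      exact (mul_le_of_le_one_left (abs_nonneg _) (hM.le_one k _)).trans (hC _)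
    · filter_upwards [ht] with y hy
      exact hy.mul_const _
  have hcell1 : ∫ _y in unitCell n, C = C := by
    rw [setIntegral_const, measureReal_def, cell_volume]
    simp
  have hDb : ∀ k t, ‖D k t‖ ≤ C := by
    intro k t
    refine (norm_integral_le_of_norm_le (g := fun _ => C) (integrable_const _)
      (Eventually.of_forall fun y => ?_)).trans_eq hcell1
    rw [Real.norm_eq_abs, abs_mul, abs_of_nonneg (hM.nonneg k _)]
    exact (mul_le_of_le_one_left (abs_nonneg _) (hM.le_one k _)).trans (hC _)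
  have hDib : ∀ t, ‖Di t‖ ≤ C := by
    intro t
    refine (norm_integral_le_of_norm_le (g := fun _ => C) (integrable_const _)
      (Eventually.of_forall fun y => ?_)).trans_eq hcell1
    rw [Real.norm_eq_abs, abs_mul, abs_of_nonneg (oneE_nonneg _ _)]
    exact (mul_le_of_le_one_left (abs_nonneg _) (oneE_le_one _ _)).trans (hC _)
  have hDim : AEStronglyMeasurable Di volume :=
    aestronglyMeasurable_of_tendsto_ae atTop (fun k => (hDc k).aestronglyMeasurable) hDconv
  have hDii : ∀ a b, IntervalIntegrable Di volume a b := by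
    intro a b
    rw [intervalIntegrable_iff]
    exact Measure.integrableOn_of_bounded (M := C) (by simp) hDim
      (Eventually.of_forall fun t => hDib t)
  -- (a) the flux of the truncated set
  have ea : ∫ x in cutArc d y1 y2 E ∩ unitCell (n + 1), divergence X x =
      ∫ t in y2..(y1 + 1), Di t := by
    rw [← integral_arc_compl hDip hDii h12 h21]
    have hm := cutArc_measurable d y1 y2 hE
    rw [Set.inter_comm, ← setIntegral_indicator hm,
      cell_fubini d ((integrable_cell hdc).indicator hm)]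
    refine intervalIntegral.integral_congr fun t _ => ?_
    by_cases ht : t ∈ arcSet y1 y2
    · have h3 : t ∉ (arcSet y1 y2)ᶜ := fun hc => hc ht
      rw [Set.indicator_of_notMem h3]
      have h4 : ∀ y : Ev n, (cutArc d y1 y2 E).indicator (divergence X) (ins d t y) = 0 := by
        intro y
        refine Set.indicator_of_notMem (fun hc => hc.2 ?_) _
        rw [ins_same]
        exact ht
      simp [h4]
    · have h3 : t ∈ (arcSet y1 y2)ᶜ := ht
      rw [Set.indicator_of_mem h3]
      refine integral_congr_ae (Eventually.of_forall fun y => ?_)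
      show (cutArc d y1 y2 E).indicator (divergence X) (ins d t y) =
        oneE E (ins d t y) * divergence X (ins d t y)
      by_cases hy : ins d t y ∈ E
      · have h5 : ins d t y ∈ cutArc d y1 y2 E := ⟨hy, by rw [ins_same]; exact ht⟩
        rw [Set.indicator_of_mem h5, oneE, Set.indicator_of_mem hy, one_mul]
      · have h5 : ins d t y ∉ cutArc d y1 y2 E := fun hc => hy hc.1
        rw [Set.indicator_of_notMem h5, oneE, Set.indicator_of_notMem hy, zero_mul]
  -- (c) convergence of the fluxes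
  have hlim : Tendsto (fun k => ∫ t in y2..(y1 + 1), D k t) atTop
      (𝓝 (∫ t in y2..(y1 + 1), Di t)) := by
    refine intervalIntegral.tendsto_integral_filter_of_dominated_convergence (fun _ => C)
      (Eventually.of_forall fun k => (hDc k).aestronglyMeasurable)
      (Eventually.of_forall fun k => Eventually.of_forall fun t _ => hDb k t)
      intervalIntegrable_const ?_
    filter_upwards [hDconv] with t ht _
    exact ht
  -- (d) the smooth estimate
  have hk : ∀ k, ∫ t in y1..y2, (1 : ℝ) * Tm d (u k) t ≤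
      am d (u k) y1 + am d (u k) y2 + P - ∫ t in y2..(y1 + 1), D k t := by
    intro k
    set G : ℝ → ℝ := am d fun x => ‖gr (u k) x‖ with hG
    have hgc : Continuous fun x => ‖gr (u k) x‖ := (gr_continuous (hM.c1 k)).norm
    have hGc : Continuous G := continuous_am d hgc
    have hGp : Function.Periodic G 1 := am_per d fun v hv x => by
      show ‖gr (u k) (x + v)‖ = ‖gr (u k) x‖
      rw [gr_isPer (hM.per k) v hv]
    set Y : Ev (n + 1) → Ev (n + 1) := fun x => u k x • X x with hY
    have hYc : ContDiff ℝ 1 Y := (hM.c1 k).smul hX.1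
    have hYp : IsPer Y := fun v hv x => by
      show u k (x + v) • X (x + v) = u k x • X x
      rw [hM.per k v hv, hX.2.1 v hv]
    have hB := hasDerivAt_flux d hYc hYp
    have hYd := continuous_divergence hYc
    have hBc : Continuous fun t => ∫ y in unitCell n, divergence Y (ins d t y) :=
      continuous_am d hYd
    have hBi : ∫ t in y2..(y1 + 1), ∫ y in unitCell n, divergence Y (ins d t y) =
        am d (fun x => Y x d) (y1 + 1) - am d (fun x => Y x d) y2 :=
      intervalIntegral.integral_eq_sub_of_hasDerivAt (fun t _ => hB t)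
        (hBc.intervalIntegrable _ _)
    have hYdp : IsPer fun x => Y x d := fun v hv x => by
      show Y (x + v) d = Y x d
      rw [hYp v hv]
    rw [am_per d hYdp y1] at hBi
    have hBb : ∀ t, |am d (fun x => Y x d) t| ≤ am d (u k) t := by
      intro t
      refine (abs_integral_le_integral_abs).trans ?_
      refine integral_mono (integrable_cell ?_) (integrable_cell ?_) fun y => ?_
      · have : Continuous fun x => Y x d :=
          (EuclideanSpace.proj d : Ev (n + 1) →L[ℝ] ℝ).continuous.comp hYc.continuous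
        exact (this.comp (continuous_ins_right d t)).abs
      · exact (hM.c1 k).continuous.comp (continuous_ins_right d t)
      · show |u k (ins d t y) * X (ins d t y) d| ≤ u k (ins d t y)
        rw [abs_mul, abs_of_nonneg (hM.nonneg k _)]
        exact mul_le_of_le_one_right (hM.nonneg k _) ((abs_coord_le _ _).trans (hX.2.2 _))
    have hDle : ∀ t, D k t ≤ (∫ y in unitCell n, divergence Y (ins d t y)) + G t := by
      intro t
      have i1 : IntegrableOn (fun y => divergence Y (ins d t y)) (unitCell n) :=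
        integrable_cell (hYd.comp (continuous_ins_right d t))
      have i2 : IntegrableOn (fun y => ‖gr (u k) (ins d t y)‖) (unitCell n) :=
        integrable_cell (hgc.comp (continuous_ins_right d t))
      have e : G t = ∫ y in unitCell n, ‖gr (u k) (ins d t y)‖ := rfl
      rw [e, ← integral_add i1 i2]
      refine integral_mono (integrable_cell ((hFc k).comp (continuous_ins_right d t)))
        (i1.add i2) fun y => ?_
      show u k (ins d t y) * divergence X (ins d t y) ≤
        divergence Y (ins d t y) + ‖gr (u k) (ins d t y)‖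
      rw [divergence_smul' ((hM.c1 k).differentiable one_ne_zero _)
        (hX.1.differentiable one_ne_zero _)]
      have := abs_sum_gr_le hX.2.2 (gr (u k) (ins d t y)) (ins d t y)
      linarith [(abs_le.1 this).1]
    have s1 : ∫ t in y2..(y1 + 1), D k t ≤
        (∫ t in y2..(y1 + 1), ∫ y in unitCell n, divergence Y (ins d t y)) +
          ∫ t in y2..(y1 + 1), G t := by
      rw [← intervalIntegral.integral_add (hBc.intervalIntegrable _ _)
        (hGc.intervalIntegrable _ _)]
      exact intervalIntegral.integral_mono_on h21.le ((hDc k).intervalIntegrable _ _)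
        ((hBc.add hGc).intervalIntegrable _ _) fun t _ => hDle t
    have s2 : (∫ t in y1..y2, G t) + ∫ t in y2..(y1 + 1), G t ≤ P := by
      rw [intervalIntegral.integral_add_adjacent_intervals (hGc.intervalIntegrable _ _)
        (hGc.intervalIntegrable _ _)]
      have e1 := hGp.intervalIntegral_add_eq y1 0
      rw [e1, zero_add]
      have e2 := cell_fubini d (integrable_cell hgc)
      have e3 := hM.energy hP k
      rw [e2] at e3
      exact e3
    have s3 : ∫ t in y1..y2, (1 : ℝ) * Tm d (u k) t ≤ ∫ t in y1..y2, G t := by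
      refine intervalIntegral.integral_mono_on h12.le
        ((continuous_const.mul (Tm_continuous d (hM.c1 k))).intervalIntegrable _ _)
        (hGc.intervalIntegrable _ _) fun t _ => ?_
      rw [one_mul]
      exact Tm_le d (hM.c1 k) t
    have b1 := (abs_le.1 (hBb y1)).2
    have b2 := (abs_le.1 (hBb y2)).1
    rw [hBi] at s1
    linarith
  -- (f) conclusion
  have Q := sq_of_perim hE hP hM d hJ0 hJ
  have hb : Tendsto (fun k => am d (u k) y1 + am d (u k) y2 + P - ∫ t in y2..(y1 + 1), D k t)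
      atTop (𝓝 (sl d E y1 + sl d E y2 + P - ∫ t in y2..(y1 + 1), Di t)) :=
    ((c1.add c2).add_const P).sub hlim
  obtain ⟨f1, f2⟩ := Q.fatou hJm hJ0 (fun _ _ => 1) (fun _ => 1) (fun _ => measurable_const)
    measurable_const (fun _ _ => zero_le_one) (fun _ _ => le_rfl)
    (Eventually.of_forall fun _ => tendsto_const_nhds) _ _ hb h12.le (Eventually.of_forall hk)
  simp only [one_mul] at f1 f2
  refine ⟨f1, ?_⟩
  rw [ea]
  linarith

/-- **truncation** -/
theorem trunc {n : ℕ} {E : Set (Ev (n + 1))} (hE : MeasurableSet E)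
    (hper : IsLatticePeriodic E) (hP : periodicPerimeter E ≠ ∞) {u : ℕ → Ev (n + 1) → ℝ}
    (hM : Moll E u) (d : Fin (n + 1)) {J : ℝ → ℝ} (hJm : Measurable J) (hJ0 : ∀ t, 0 ≤ J t)
    (hJ : ∀ᵐ t : ℝ, ENNReal.ofReal (2 * J t) ≤ periodicPerimeter (slice d E t)) {y1 y2 : ℝ}
    (h12 : y1 < y2) (h21 : y2 < y1 + 1)
    (c1 : Tendsto (fun k => am d (u k) y1) atTop (𝓝 (sl d E y1)))
    (c2 : Tendsto (fun k => am d (u k) y2) atTop (𝓝 (sl d E y2))) :
    periodicPerimeter (cutArc d y1 y2 E) ≤ ENNReal.ofReal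
      ((periodicPerimeter E).toReal - 2 * (∫ t in y1..y2, J t) + sl d E y1 + sl d E y2) := by
  have h : periodicPerimeter (cutArc d y1 y2 E) =
      ⨆ φ : {φ : Ev (n + 1) → Ev (n + 1) // IsAdmissibleField φ},
        ENNReal.ofReal (∫ x in cutArc d y1 y2 E ∩ unitCell (n + 1), divergence φ.1 x) := rfl
  rw [h]
  exact iSup_le fun φ => ENNReal.ofReal_le_ofReal
    (trunc_field hE hper hP hM d hJm hJ0 hJ h12 h21 c1 c2 φ.2).2

/-- **truncation**, with a set of full measure of admissible cuts -/
theorem exists_trunc {n : ℕ} {E : Set (Ev (n + 1))} (hE : MeasurableSet E)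
    (hper : IsLatticePeriodic E) (hP : periodicPerimeter E ≠ ∞) (d : Fin (n + 1)) :
    ∃ G : Set ℝ, (∀ᵐ t : ℝ, t ∈ G) ∧ ∀ J : ℝ → ℝ, Measurable J → (∀ t, 0 ≤ J t) →
      (∀ᵐ t : ℝ, ENNReal.ofReal (2 * J t) ≤ periodicPerimeter (slice d E t)) →
      ∀ y1 ∈ G, ∀ y2 ∈ G, y1 < y2 → y2 < y1 + 1 →
        IntervalIntegrable J volume y1 y2 ∧
        periodicPerimeter (cutArc d y1 y2 E) ≤ ENNReal.ofReal
          ((periodicPerimeter E).toReal - 2 * (∫ t in y1..y2, J t) + sl d E y1 + sl d E y2) := by
  have hM := moll_mol hE hper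
  refine ⟨{t | Tendsto (fun k => am d (mol E k) t) atTop (𝓝 (sl d E t))}, hM.am_conv hE d,
    fun J hJm hJ0 hJ y1 h1 y2 h2 h12 h21 => ⟨?_, trunc hE hper hP hM d hJm hJ0 hJ h12 h21 h1 h2⟩⟩
  refine (trunc_field hE hper hP hM d hJm hJ0 hJ h12 h21 h1 h2 (X := fun _ => 0) ?_).1
  exact ⟨contDiff_const, fun _ _ _ => rfl, fun _ => by simp⟩

end Crest.Agent.R214
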