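import Crest.Agent.R214.T3

/-!
# Row 214: the scalar part of the truncation step
-/

set_option autoImplicit false

open MeasureTheory Set Filter Topology

namespace Crest.Agent.R214

theorem mm_sphere_lip {v v' : ℝ} (h9 : 9 / 100 ≤ v') (hv : v' ≤ v) :
    (36 * Real.pi) ^ ((1 : ℝ) / 3) * v ^ ((2 : ℝ) / 3) ≤
      (36 * Real.pi) ^ ((1 : ℝ) / 3) * v' ^ ((2 : ℝ) / 3) + 2 * (18 / 5 * (v - v')) := by
  have hv'0 : 0 < v' := by linarith
  have hv0 : 0 < v := by linarith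
  have hpi := Real.pi_lt_d4
  have hpi0 := Real.pi_pos
  set K : ℝ := (36 * Real.pi) ^ ((1 : ℝ) / 3) with hK
  have hK0 : 0 ≤ K := by positivity
  have hK3 : K ^ 3 = 36 * Real.pi := by
    rw [hK, ← Real.rpow_natCast, ← Real.rpow_mul (by positivity)]
    norm_num
  have hKle : K ≤ 4.8362 := by
    by_contra h
    push Not at h
    have : (4.8362 : ℝ) ^ 3 < K ^ 3 := by gcongr
    rw [hK3] at this
    norm_num at this hpi
    linarith
  set x : ℝ := v ^ ((1 : ℝ) / 3) with hx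
  set y : ℝ := v' ^ ((1 : ℝ) / 3) with hy
  have hx0 : 0 < x := by positivity
  have hy0 : 0 < y := by positivity
  have hxy : y ≤ x := Real.rpow_le_rpow hv'0.le hv (by norm_num)
  have ex : v ^ ((2 : ℝ) / 3) = x ^ 2 := by
    rw [hx, ← Real.rpow_natCast, ← Real.rpow_mul hv0.le]
    norm_num
  have ey : v' ^ ((2 : ℝ) / 3) = y ^ 2 := by
    rw [hy, ← Real.rpow_natCast, ← Real.rpow_mul hv'0.le]
    norm_num
  have ex3 : v = x ^ 3 := by
    rw [hx, ← Real.rpow_natCast, ← Real.rpow_mul hv0.le]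
    norm_num
  have ey3 : v' = y ^ 3 := by
    rw [hy, ← Real.rpow_natCast, ← Real.rpow_mul hv'0.le]
    norm_num
  have hyge : 0.448 ≤ y := by
    by_contra h
    push Not at h
    have : y ^ 3 < (0.448 : ℝ) ^ 3 := by gcongr
    rw [← ey3] at this
    norm_num at this
    linarith
  rw [ex, ey, ex3, ey3]
  -- `K (x² - y²) ≤ K (2 / (3 y)) (x³ - y³)`
  have h1 : (x ^ 2 - y ^ 2) * (3 * y) ≤ 2 * (x ^ 3 - y ^ 3) := by
    nlinarith [mul_nonneg (sub_nonneg.2 hxy) (mul_nonneg (sub_nonneg.2 hxy)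
      (by positivity : (0:ℝ) ≤ 2 * x + y))]
  have h2 : 0 ≤ x ^ 2 - y ^ 2 := by nlinarith
  have h3 : K * (x ^ 2 - y ^ 2) * (3 * 0.448) ≤ K * (x ^ 2 - y ^ 2) * (3 * y) := by
    have : 0 ≤ K * (x ^ 2 - y ^ 2) := by positivity
    gcongr
  have h4 : K * ((x ^ 2 - y ^ 2) * (3 * y)) ≤ K * (2 * (x ^ 3 - y ^ 3)) := by gcongr
  have h5 : 0 ≤ x ^ 3 - y ^ 3 := by nlinarith [mul_nonneg h2 hy0.le]
  have h6 : K * (2 * (x ^ 3 - y ^ 3)) ≤ 4.8362 * (2 * (x ^ 3 - y ^ 3)) := by gcongr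
  norm_num at h3 h6
  nlinarith

/-- Lipschitz bound of the isoperimetric profile for volumes `≥ 9/100` -/
theorem mm_lip {v v' : ℝ} (h9 : 9 / 100 ≤ v') (hv : v' ≤ v) :
    mm v ≤ mm v' + 18 / 5 * (v - v') := by
  have h1 := mm_sphere_lip h9 hv
  have hv'0 : 0 < v' := by linarith
  have hpi := Real.pi_lt_d4
  have hpi0 := Real.pi_pos
  have h2 : 2 * √(Real.pi * v) ≤ 2 * √(Real.pi * v') + 2 * (18 / 5 * (v - v')) := by
    have hs : 1 / 2 ≤ √(Real.pi * v') := by
      apply Real.le_sqrt_of_sq_le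
      nlinarith [Real.pi_gt_three]
    have hs2 : √(Real.pi * v') ≤ √(Real.pi * v) := Real.sqrt_le_sqrt (by gcongr)
    have e1 : √(Real.pi * v) ^ 2 = Real.pi * v := Real.sq_sqrt (by nlinarith)
    have e2 : √(Real.pi * v') ^ 2 = Real.pi * v' := Real.sq_sqrt (by positivity)
    have e3 : (√(Real.pi * v) - √(Real.pi * v')) * 1 ≤
        (√(Real.pi * v) - √(Real.pi * v')) * (√(Real.pi * v) + √(Real.pi * v')) := by
      refine mul_le_mul_of_nonneg_left ?_ (by linarith)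
      linarith
    have e4 : (√(Real.pi * v) - √(Real.pi * v')) * (√(Real.pi * v) + √(Real.pi * v')) =
        Real.pi * (v - v') := by
      have : (√(Real.pi * v) - √(Real.pi * v')) * (√(Real.pi * v) + √(Real.pi * v')) =
        √(Real.pi * v) ^ 2 - √(Real.pi * v') ^ 2 := by ring
      rw [this, e1, e2]; ring
    nlinarith
  have h3 : 0 ≤ 2 * (18 / 5 * (v - v')) := by linarith
  unfold mm
  have key : min (min ((36 * Real.pi) ^ ((1 : ℝ) / 3) * v ^ ((2 : ℝ) / 3)) (2 * √(Real.pi * v))) 2 ≤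
      min (min ((36 * Real.pi) ^ ((1 : ℝ) / 3) * v' ^ ((2 : ℝ) / 3)) (2 * √(Real.pi * v'))) 2 +
        2 * (18 / 5 * (v - v')) := by
    rw [← min_add_add_right, ← min_add_add_right]
    refine le_min (le_min ?_ ?_) ?_
    · exact ((min_le_left _ _).trans (min_le_left _ _)).trans h1
    · exact ((min_le_left _ _).trans (min_le_right _ _)).trans h2
    · exact (min_le_right _ _).trans (by linarith)
  linarith

theorem I2_eq_sqrt_small {x : ℝ} (h0 : 0 ≤ x) (h1 : x ≤ 3 / 100) : I2 x = √(Real.pi * x) := by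
  unfold I2 w2
  have hpi := Real.pi_gt_three
  have hpi' := Real.pi_lt_d2
  rw [min_eq_left]
  refine le_min ?_ ?_
  · nlinarith
  · nlinarith

/-- SCALAR TRUNCATION: if `a ≤ 3/100` on the arc and the arc is truncatable, then the truncated set
has a smaller deficit -/
theorem trunc_psi {P V : ℝ} {a : ℝ → ℝ} (hm : Measurable a) (h01 : ∀ x, 0 ≤ a x ∧ a x ≤ 1)
    {y1 y2 : ℝ} (h12 : y1 ≤ y2) (hle : ∀ᵐ x : ℝ, x ∈ Ioo y1 y2 → a x ≤ 3 / 100)
    (hV' : 9 / 100 ≤ V - ∫ x in y1..y2, a x)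
    (hc : a y1 + a y2 ≤ 129 / 100 * ∫ x in y1..y2, √(Real.pi * a x)) :
    (P - 2 * (∫ x in y1..y2, I2 (a x)) + a y1 + a y2) / 2 - mm (V - ∫ x in y1..y2, a x) +
      3 / 1000 * (∫ x in y1..y2, √(Real.pi * a x)) ≤ P / 2 - mm V := by
  have hpi := Real.pi_gt_d4
  have hpi' := Real.pi_lt_d4
  have hpi0 := Real.pi_pos
  set w : ℝ → ℝ := fun x => √(Real.pi * a x) with hw
  have hwm : Measurable w := (measurable_const.mul hm).sqrt
  have hw0 : ∀ x, 0 ≤ w x := fun x => Real.sqrt_nonneg _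
  have hwi : IntervalIntegrable w volume y1 y2 := by
    refine (intervalIntegrable_const (c := √Real.pi)).mono_fun hwm.aestronglyMeasurable ?_
    refine Eventually.of_forall fun t => ?_
    show ‖w t‖ ≤ ‖√Real.pi‖
    rw [Real.norm_of_nonneg (Real.sqrt_nonneg _), Real.norm_of_nonneg (Real.sqrt_nonneg _)]
    apply Real.sqrt_le_sqrt
    have := (h01 t).2
    nlinarith
  have hai : IntervalIntegrable a volume y1 y2 := by
    refine (intervalIntegrable_const (c := (1 : ℝ))).mono_fun hm.aestronglyMeasurable ?_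
    refine Eventually.of_forall fun t => ?_
    show ‖a t‖ ≤ ‖(1 : ℝ)‖
    rw [Real.norm_of_nonneg (h01 t).1, Real.norm_of_nonneg zero_le_one]
    exact (h01 t).2
  have hne : ∀ᵐ t : ℝ, t ≠ y2 := by rw [ae_iff]; simp
  have e1 : ∫ x in y1..y2, I2 (a x) = ∫ x in y1..y2, w x := by
    refine intervalIntegral.integral_congr_ae ?_
    filter_upwards [hle, hne] with x hx hx2 hxi
    rw [uIoc_of_le h12] at hxi
    exact I2_eq_sqrt_small (h01 x).1 (hx ⟨hxi.1, lt_of_le_of_ne hxi.2 hx2⟩)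
  have e2 : ∫ x in y1..y2, a x ≤ 0.09773 * ∫ x in y1..y2, w x := by
    rw [← intervalIntegral.integral_const_mul]
    refine intervalIntegral.integral_mono_ae_restrict h12 hai (hwi.const_mul _) ?_
    rw [Filter.EventuallyLE, ae_restrict_iff' measurableSet_Icc]
    have hne' : ∀ᵐ t : ℝ, t ≠ y1 := by rw [ae_iff]; simp
    filter_upwards [hle, hne, hne'] with x hx hx2 hx1 hxi
    have h3 := hx ⟨lt_of_le_of_ne hxi.1 (Ne.symm hx1), lt_of_le_of_ne hxi.2 hx2⟩
    have h4 := (h01 x).1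
    show a x ≤ 0.09773 * √(Real.pi * a x)
    have h5 : a x / 0.09773 ≤ √(Real.pi * a x) := by
      apply Real.le_sqrt_of_sq_le
      rw [div_pow, div_le_iff₀ (by norm_num)]
      norm_num
      nlinarith
    rw [div_le_iff₀ (by norm_num)] at h5
    linarith
  have e3 : 0 ≤ ∫ x in y1..y2, a x := intervalIntegral.integral_nonneg h12 fun x _ => (h01 x).1
  have e4 : 0 ≤ ∫ x in y1..y2, w x := intervalIntegral.integral_nonneg h12 fun x _ => hw0 x
  have e5 := mm_lip hV' (by linarith : V - ∫ x in y1..y2, a x ≤ V)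
  rw [e1]
  have hc' : a y1 + a y2 ≤ 129 / 100 * ∫ x in y1..y2, w x := hc
  have e6 : mm V ≤ mm (V - ∫ x in y1..y2, a x) + 18 / 5 * (0.09773 * ∫ x in y1..y2, w x) := by
    linarith
  norm_num at e6
  linarith

end Crest.Agent.R214
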