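import Crest.Agent.R214.NonTrunc
import Crest.Agent.R214.Trunc1
import Crest.Agent.R214.Trunc
import Crest.Agent.R214.M5
import Crest.Agent.R214.Bath

/-!
# Row 214, step (5): a monotone set with `0 < a1 ≤ 1/250` in some direction is good or truncatable
-/

set_option autoImplicit false

open MeasureTheory Set Filter Topology Crest.GeometryTopology.PeriodicPerimeter
open scoped ENNReal

namespace Crest.Agent.R214

namespace S5

theorem dZ_half_sub {x : ℝ} (h0 : 0 ≤ x) (h1 : x ≤ 1 / 2) : dZ (1 / 2 - x) = 1 / 2 - x := by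
  rw [dZ_eq_abs (by rw [abs_of_nonneg (by linarith)]; linarith), abs_of_nonneg (by linarith)]

theorem dZ_neg (x : ℝ) : dZ (-x) = dZ x := by
  refine le_antisymm ?_ ?_
  · have := dZ_le (-x) (-round x)
    refine this.trans (le_of_eq ?_)
    push_cast
    rw [show -x - -(round x : ℝ) = -(x - round x) by ring, abs_neg]
    rfl
  · have := dZ_le x (-round (-x))
    refine this.trans (le_of_eq ?_)
    push_cast
    rw [show x - -(round (-x) : ℝ) = -(-x - round (-x)) by ring, abs_neg]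
    rfl

theorem dZ_one_sub (x : ℝ) : dZ (1 - x) = dZ x := by
  have h := dZ_per (-x)
  rw [dZ_neg] at h
  rw [← h]
  congr 1
  ring

theorem dZ_half_add {x : ℝ} (h0 : 0 ≤ x) (h1 : x ≤ 1 / 2) : dZ (1 / 2 + x) = 1 / 2 - x := by
  rw [← dZ_one_sub, show 1 - (1 / 2 + x) = 1 / 2 - x by ring, dZ_half_sub h0 h1]

/-- the centred arc is a superlevel set of `dZ` -/
theorem mem_arcSet_iff_dZ {t0 t : ℝ} (h0 : 0 ≤ t0) (h1 : t0 < 1 / 2) :
    t ∈ arcSet t0 (1 - t0) ↔ t0 < dZ t := by
  constructor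
  · rintro ⟨m, h2, h3⟩
    have e : dZ t = dZ (t + m) := (dZ_add_int t m).symm
    rw [e]
    set s := t + m with hs
    rcases le_total s (1 / 2) with h | h
    · rw [dZ_eq_abs (by rw [abs_of_nonneg (by linarith)]; exact h), abs_of_nonneg (by linarith)]
      exact h2
    · rw [← dZ_one_sub, dZ_eq_abs (by rw [abs_of_nonneg (by linarith)]; linarith),
        abs_of_nonneg (by linarith)]
      linarith
  · intro h
    refine ⟨-⌊t⌋, ?_, ?_⟩
    · have := dZ_le t ⌊t⌋
      rw [abs_of_nonneg (by linarith [Int.floor_le t])] at this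
      push_cast
      linarith
    · have := dZ_le t (⌊t⌋ + 1)
      push_cast at this
      rw [abs_of_nonpos (by linarith [Int.lt_floor_add_one t])] at this
      push_cast
      linarith

end S5

open NT S5 in
/-- a non-truncatable monotone direction is good -/
theorem SD.t3_mono {P V A a1 : ℝ} {a J : ℝ → ℝ} (S : SD P a J) (hJ : ∀ᵐ x : ℝ, I2 (a x) ≤ J x)
    (hA0 : 0.318 ≤ A) (hA1 : A ≤ 1) (haA : ∀ᵐ x : ℝ, a x ≤ A)
    (ha1 : ∀ δ > 0, 0 < volume ({x | a x < a1 + δ} ∩ Ico 0 1))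
    (ha2 : ∀ δ > 0, 0 < volume ({x | A - δ < a x} ∩ Ico 0 1)) (h1 : a1 ≤ 1 / 250)
    (hV : ∫ x in (0 : ℝ)..1, a x = V) (hV1 : V ≤ 1 / 2)
    (hpos : ∀ᵐ x : ℝ, 0 < a x) (hmono : ∀ s t, dZ s ≤ dZ t → a t ≤ a s)
    (G : Set ℝ) (hG : ∀ᵐ x : ℝ, x ∈ G)
    (hNT : ∀ t ∈ G, 0 < t → t < 1 / 2 → (∀ s, t < dZ s → a s ≤ 3 / 100) →
      129 / 100 * ∫ x in t..(1 / 2), √(Real.pi * a x) ≤ a t) :
    mm V < P / 2 := by
  refine S.t3 hJ hA0 hA1 haA ha1 ha2 h1 hV hV1 fun s s0 s1 => ?_
  have hm : Measurable a := S.meas_a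
  set f : ℝ → ℝ := fun x => a (1 / 2 - x) with hf
  have hql : Measure.QuasiMeasurePreserving (fun x : ℝ => 1 / 2 - x) volume volume :=
    (Measure.measurePreserving_sub_left volume (1 / 2)).quasiMeasurePreserving
  set K : Set ℝ := {x | x ∈ Icc 0 (1 / 2 : ℝ) ∧ f x ≤ 3 / 100} with hK
  have hKa : BddAbove K := ⟨1 / 2, fun x hx => hx.1.2⟩
  have hh := half (f := f) (L := sSup K) (R := 1 / 2) (s := s)
    (hm.comp (measurable_const.sub measurable_id)) (fun x => S.a01 _) (hql.ae hpos) (by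
      filter_upwards [hql.ae hG] with x hx hxi
      have hKne : K.Nonempty := by
        by_contra hemp
        rw [not_nonempty_iff_eq_empty] at hemp
        rw [hemp, Real.sSup_empty] at hxi
        exact absurd hxi.1 (not_lt.2 hxi.2.le)
      obtain ⟨x', hx'K, hx'⟩ := exists_lt_of_lt_csSup hKne hxi.2
      have hx'2 : x' ≤ 1 / 2 := hx'K.1.2
      have := hNT _ hx (by linarith) (by linarith [hxi.1]) (fun t ht => by
        refine (hmono (1 / 2 - x') t ?_).trans hx'K.2
        rw [dZ_half_sub hx'K.1.1 hx'2]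
        linarith)
      have e : ∫ t in (0 : ℝ)..x, √(Real.pi * f t) =
          ∫ t in (1 / 2 - x)..(1 / 2), √(Real.pi * a t) := by
        have := intervalIntegral.integral_comp_sub_left (a := 0) (b := x)
          (fun t => √(Real.pi * a t)) (1 / 2)
        rw [sub_zero] at this
        exact this
      rw [e]
      exact this) (by
      refine Eventually.of_forall fun x hxi => ?_
      by_contra h
      push Not at h
      have h0 : 0 ≤ sSup K := Real.sSup_nonneg fun y hy => hy.1.1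
      have : x ∈ K := ⟨⟨h0.trans hxi.1.le, hxi.2.le⟩, h.trans (by linarith)⟩
      exact absurd (le_csSup hKa this) (not_le.mpr hxi.1))
  -- the two halves
  set T : Set ℝ := {x | a x ≤ s} with hT
  have hTm : MeasurableSet T := measurableSet_le hm measurable_const
  have hleft : volume (T ∩ Ioo 0 (1 / 2)) ≤ ENNReal.ofReal (tau s) := by
    have e : {x | f x ≤ s} ∩ Ioo 0 (1 / 2) = (fun x => 1 / 2 - x) ⁻¹' (T ∩ Ioo 0 (1 / 2)) := by
      ext x
      simp only [mem_inter_iff, mem_ofPred_eq, mem_Ioo, mem_preimage, hT, hf]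
      constructor
      · rintro ⟨h1, h2, h3⟩; exact ⟨h1, by linarith, by linarith⟩
      · rintro ⟨h1, h2, h3⟩; exact ⟨h1, by linarith, by linarith⟩
    rw [e, (Measure.measurePreserving_sub_left volume (1 / 2 : ℝ)).measure_preimage
      ((hTm.inter measurableSet_Ioo).nullMeasurableSet)] at hh
    exact hh
  have hright : volume (T ∩ Ioo (1 / 2) 1) ≤ ENNReal.ofReal (tau s) := by
    have e : (fun x => 1 - x) ⁻¹' (T ∩ Ioo 0 (1 / 2)) = T ∩ Ioo (1 / 2 : ℝ) 1 := by
      have hs : ∀ x, a (1 - x) = a x := fun x =>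
        le_antisymm (hmono _ _ (dZ_one_sub x).symm.le) (hmono _ _ (dZ_one_sub x).le)
      ext x
      simp only [mem_inter_iff, mem_ofPred_eq, mem_Ioo, mem_preimage, hT, hs]
      constructor
      · rintro ⟨h1, h2, h3⟩; exact ⟨h1, by linarith, by linarith⟩
      · rintro ⟨h1, h2, h3⟩; exact ⟨h1, by linarith, by linarith⟩
    rw [← e, (Measure.measurePreserving_sub_left volume (1 : ℝ)).measure_preimage
      ((hTm.inter measurableSet_Ioo).nullMeasurableSet)]
    exact hleft
  have hcov : T ∩ Ico 0 1 ⊆ (T ∩ Ioo 0 (1 / 2)) ∪ (T ∩ Ioo (1 / 2) 1) ∪ {0, 1 / 2} := by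
    rintro x ⟨h1, h2, h3⟩
    rcases eq_or_lt_of_le h2 with h4 | h4
    · right; left; exact h4.symm
    · rcases lt_trichotomy x (1 / 2) with h5 | h5 | h5
      · left; left; exact ⟨h1, h4, h5⟩
      · right; right; exact h5
      · left; right; exact ⟨h1, h5, h3⟩
  calc volume (T ∩ Ico 0 1) ≤ volume ((T ∩ Ioo 0 (1 / 2)) ∪ (T ∩ Ioo (1 / 2) 1) ∪ {0, 1 / 2}) :=
        measure_mono hcov
    _ ≤ volume ((T ∩ Ioo 0 (1 / 2)) ∪ (T ∩ Ioo (1 / 2) 1)) + volume ({0, 1 / 2} : Set ℝ) :=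
        measure_union_le _ _
    _ ≤ (volume (T ∩ Ioo 0 (1 / 2)) + volume (T ∩ Ioo (1 / 2) 1)) + 0 := by
        rw [(Set.toFinite ({0, 1 / 2} : Set ℝ)).measure_zero]
        gcongr
        exact measure_union_le _ _
    _ ≤ ENNReal.ofReal (tau s) + ENNReal.ofReal (tau s) := by
        rw [add_zero]
        gcongr
    _ = ENNReal.ofReal (7 / 4 * √s) := by
        rw [← ENNReal.ofReal_add (tau_nonneg s) (tau_nonneg s)]
        congr 1
        unfold tau
        ring

/-- slices of a monotone set -/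
theorem sl_anti_of_mono {n : ℕ} {F : Set (Ev (n + 1))}
    (hM : ∀ x y : Ev (n + 1), (∀ i, dZ (x i) ≤ dZ (y i)) → y ∈ F → x ∈ F) (d : Fin (n + 1))
    (s t : ℝ) (h : dZ s ≤ dZ t) : sl d F t ≤ sl d F s := by
  refine periodicVolume_mono fun y hy => ?_
  refine hM _ _ (fun i => ?_) hy
  rcases Fin.eq_self_or_eq_succAbove d i with hi | ⟨j, hi⟩
  · rw [hi, ins_same, ins_same]; exact h
  · rw [hi, ins_succAbove, ins_succAbove]

/-- a centred truncation keeps monotonicity -/
theorem cutArc_mono {n : ℕ} {F : Set (Ev (n + 1))}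
    (hM : ∀ x y : Ev (n + 1), (∀ i, dZ (x i) ≤ dZ (y i)) → y ∈ F → x ∈ F) (d : Fin (n + 1))
    {t0 : ℝ} (h0 : 0 ≤ t0) (h1 : t0 < 1 / 2) :
    ∀ x y : Ev (n + 1), (∀ i, dZ (x i) ≤ dZ (y i)) → y ∈ cutArc d t0 (1 - t0) F →
      x ∈ cutArc d t0 (1 - t0) F := by
  rintro x y h ⟨hy1, hy2⟩
  refine ⟨hM x y h hy1, ?_⟩
  rw [S5.mem_arcSet_iff_dZ h0 h1] at hy2 ⊢
  exact fun hc => hy2 (hc.trans_le (h d))

/-- volume of the truncated set -/
theorem vol_cutArc {F : Set (Ev 3)} (hF : MeasurableSet F) (hper : IsLatticePeriodic F)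
    (d : Fin 3) {y1 y2 : ℝ} (h12 : y1 < y2) (h21 : y2 < y1 + 1) :
    periodicVolume (cutArc d y1 y2 F) = periodicVolume F - ∫ t in y1..y2, sl d F t := by
  have hm := sl_measurable (d := d) hF
  have hii : ∀ a b, IntervalIntegrable (sl d F) volume a b := by
    intro a b
    refine (intervalIntegrable_const (c := (1 : ℝ))).mono_fun hm.aestronglyMeasurable ?_
    refine Eventually.of_forall fun t => ?_
    show ‖sl d F t‖ ≤ ‖(1 : ℝ)‖
    have h0 : 0 ≤ sl d F t := vol_nonneg' _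
    rw [Real.norm_of_nonneg h0, Real.norm_of_nonneg zero_le_one]
    exact vol_le_one _
  have hp : Function.Periodic (sl d F) 1 := fun t => sl_per (d := d) hper t
  have e1 := integral_sl (d := d) (cutArc_measurable d y1 y2 hF)
  have e2 := integral_sl (d := d) hF
  have e3 : ∫ t in (0 : ℝ)..1, sl d (cutArc d y1 y2 F) t =
      ∫ t in (0 : ℝ)..1, (arcSet y1 y2)ᶜ.indicator (sl d F) t := by
    refine intervalIntegral.integral_congr fun t _ => ?_
    by_cases ht : t ∈ arcSet y1 y2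
    · show sl d (cutArc d y1 y2 F) t = _
      have h3 : t ∉ (arcSet y1 y2)ᶜ := fun hc => hc ht
      rw [sl_cutArc_mem d F ht, indicator_of_notMem h3]
    · show sl d (cutArc d y1 y2 F) t = _
      rw [sl_cutArc_notMem d F ht, indicator_of_mem (show t ∈ (arcSet y1 y2)ᶜ from ht)]
  rw [← e1, e3, integral_arc_compl hp hii h12 h21, ← e2]
  have e4 := intervalIntegral.integral_add_adjacent_intervals (hii y1 y2) (hii y2 (y1 + 1))
  have e5 := hp.intervalIntegral_add_eq 0 y1
  rw [zero_add] at e5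
  linarith

open S5 in
/-- **Step (5)**: a monotone set with `P/2 ≤ mm V` and a direction with `a1 ≤ 1/250`, `a2 ≥ 0.318`,
`sl > 0` a.e. can be truncated (centred arc) with a strict decrease of the deficit -/
theorem step5 {F : Set (Ev 3)} (hF : MeasurableSet F) (hper : IsLatticePeriodic F)
    (hP : periodicPerimeter F ≠ ∞)
    (hM : ∀ x y : Ev 3, (∀ i, dZ (x i) ≤ dZ (y i)) → y ∈ F → x ∈ F) (d : Fin 3) {A a1 : ℝ}
    (hA0 : 0.318 ≤ A) (hA1 : A ≤ 1) (haA : ∀ᵐ t : ℝ, sl d F t ≤ A)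
    (ha1 : ∀ δ > 0, 0 < volume ({t | sl d F t < a1 + δ} ∩ Ico 0 1))
    (ha2 : ∀ δ > 0, 0 < volume ({t | A - δ < sl d F t} ∩ Ico 0 1)) (h1 : a1 ≤ 1 / 250)
    (hV0 : 12 / 100 ≤ periodicVolume F) (hV1 : periodicVolume F ≤ 1 / 2)
    (hpos : ∀ᵐ t : ℝ, 0 < sl d F t)
    (hle : (periodicPerimeter F).toReal / 2 ≤ mm (periodicVolume F)) :
    ∃ t0 : ℝ, 0 < t0 ∧ t0 < 1 / 2 ∧
      MeasurableSet (cutArc d t0 (1 - t0) F) ∧ IsLatticePeriodic (cutArc d t0 (1 - t0) F) ∧
      (∀ x y : Ev 3, (∀ i, dZ (x i) ≤ dZ (y i)) → y ∈ cutArc d t0 (1 - t0) F →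
        x ∈ cutArc d t0 (1 - t0) F) ∧
      periodicPerimeter (cutArc d t0 (1 - t0) F) ≠ ∞ ∧
      (∀ t, t0 < dZ t → sl d (cutArc d t0 (1 - t0) F) t = 0) ∧
      9 / 100 ≤ periodicVolume (cutArc d t0 (1 - t0) F) ∧
      periodicVolume (cutArc d t0 (1 - t0) F) ≤ periodicVolume F ∧
      (periodicPerimeter (cutArc d t0 (1 - t0) F)).toReal / 2 -
          mm (periodicVolume (cutArc d t0 (1 - t0) F)) <
        (periodicPerimeter F).toReal / 2 - mm (periodicVolume F) := by
  have S := sd3 hF hper hP d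
  have hmono := sl_anti_of_mono hM d
  obtain ⟨G0, hG0, htr⟩ := exists_trunc hF hper hP d
  set V := periodicVolume F with hV
  set P := (periodicPerimeter F).toReal with hPd
  set a : ℝ → ℝ := sl d F with ha
  have hm : Measurable a := S.meas_a
  have hIV : ∫ x in (0 : ℝ)..1, a x = V := integral_sl (d := d) hF
  have hql : Measure.QuasiMeasurePreserving (fun x : ℝ => 1 - x) volume volume :=
    (Measure.measurePreserving_sub_left volume (1 : ℝ)).quasiMeasurePreserving
  set G : Set ℝ := {t | t ∈ G0 ∧ 1 - t ∈ G0} with hG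
  have hGae : ∀ᵐ t : ℝ, t ∈ G := by
    filter_upwards [hG0, hql.ae hG0] with t h1 h2
    exact ⟨h1, h2⟩
  -- a truncatable arc
  obtain ⟨t0, ht0G, ht0, ht1, hsm, hcut⟩ : ∃ t0 ∈ G, 0 < t0 ∧ t0 < 1 / 2 ∧
      (∀ s, t0 < dZ s → a s ≤ 3 / 100) ∧
      a t0 < 129 / 100 * ∫ x in t0..(1 / 2), √(Real.pi * a x) := by
    by_contra hcon
    push Not at hcon
    have := S.t3_mono (Eventually.of_forall fun _ => le_rfl) hA0 hA1 haA ha1 ha2 h1 hIV hV1 hpos
      hmono G hGae hcon
    linarith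
  have h12 : t0 < 1 - t0 := by linarith
  have h21 : 1 - t0 < t0 + 1 := by linarith
  -- symmetric
  have hsym : ∀ x, a (1 - x) = a x := fun x =>
    le_antisymm (hmono _ _ (dZ_one_sub x).symm.le) (hmono _ _ (dZ_one_sub x).le)
  have hmI : Measurable fun t => I2 (a t) := I2_cont'.measurable.comp hm
  obtain ⟨hJi, hPle⟩ := htr (fun t => I2 (a t)) hmI (fun _ => I2_nonneg')
    (Eventually.of_forall fun t => iso2_torus (slice_measurable (d := d) hF t)
      (slice_periodic (d := d) hper t)) t0 ht0G.1 (1 - t0) ht0G.2 h12 h21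
  have hvol := vol_cutArc hF hper d h12 h21
  -- the integral of the root
  set w : ℝ → ℝ := fun x => √(Real.pi * a x) with hw
  have hwm : Measurable w := (measurable_const.mul hm).sqrt
  have hwi : ∀ x y, IntervalIntegrable w volume x y := by
    intro x y
    refine (intervalIntegrable_const (c := √Real.pi)).mono_fun hwm.aestronglyMeasurable ?_
    refine Eventually.of_forall fun t => ?_
    show ‖w t‖ ≤ ‖√Real.pi‖
    rw [Real.norm_of_nonneg (Real.sqrt_nonneg _), Real.norm_of_nonneg (Real.sqrt_nonneg _)]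
    apply Real.sqrt_le_sqrt
    have := (S.a01 t).2
    nlinarith [Real.pi_pos]
  have hwsym : ∫ x in (1 / 2 : ℝ)..(1 - t0), w x = ∫ x in t0..(1 / 2), w x := by
    have e1 := intervalIntegral.integral_comp_sub_left (a := t0) (b := 1 / 2) w 1
    have e2 : (fun x => w (1 - x)) = w := by
      funext x
      show √(Real.pi * a (1 - x)) = √(Real.pi * a x)
      rw [hsym]
    rw [e2] at e1
    rw [e1]
    congr 1
    norm_num
  have hwtot : ∫ x in t0..(1 - t0), w x = 2 * ∫ x in t0..(1 / 2), w x := by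
    rw [← intervalIntegral.integral_add_adjacent_intervals (hwi t0 (1 / 2)) (hwi (1 / 2) (1 - t0)),
      hwsym]
    ring
  have hwpos : 0 < ∫ x in t0..(1 - t0), w x := by
    refine (intervalIntegral.integral_pos_iff_support_of_nonneg_ae
      (Eventually.of_forall fun t => Real.sqrt_nonneg _) (hwi _ _)).2 ⟨h12, ?_⟩
    have hsup : ∀ᵐ t : ℝ, t ∈ Function.support w := by
      filter_upwards [hpos] with t ht
      exact (Real.sqrt_pos.mpr (mul_pos Real.pi_pos ht)).ne'
    have : volume (Function.support w ∩ Ioc t0 (1 - t0)) = volume (Ioc t0 (1 - t0)) := by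
      refine measure_congr ?_
      have h1 : (Function.support w : Set ℝ) =ᵐ[volume] (univ : Set ℝ) :=
        eventuallyEq_univ.2 hsup
      have := h1.inter (ae_eq_refl (Ioc t0 (1 - t0)))
      rwa [univ_inter] at this
    rw [this]
    simpa using h12
  have haI : ∫ t in t0..(1 - t0), a t ≤ 3 / 100 := by
    have hai : IntervalIntegrable a volume t0 (1 - t0) := by
      refine (intervalIntegrable_const (c := (1 : ℝ))).mono_fun hm.aestronglyMeasurable ?_
      refine Eventually.of_forall fun t => ?_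
      show ‖a t‖ ≤ ‖(1 : ℝ)‖
      rw [Real.norm_of_nonneg (S.a01 t).1, Real.norm_of_nonneg zero_le_one]
      exact (S.a01 t).2
    have h2 : ∫ t in t0..(1 - t0), a t ≤ ∫ t in t0..(1 - t0), (3 / 100 : ℝ) := by
      refine intervalIntegral.integral_mono_on_of_le_Ioo h12.le hai (by simp) fun t ht => ?_
      refine hsm t ?_
      rw [← mem_arcSet_iff_dZ ht0.le ht1]
      exact ⟨0, by simpa using ht.1, by simpa using ht.2⟩
    rw [intervalIntegral.integral_const, smul_eq_mul] at h2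
    nlinarith
  have haI0 : 0 ≤ ∫ t in t0..(1 - t0), a t :=
    intervalIntegral.integral_nonneg h12.le fun t _ => (S.a01 t).1
  have hpsi := trunc_psi (P := P) (V := V) hm (fun x => S.a01 x) h12.le (by
      refine Eventually.of_forall fun t ht => hsm t ?_
      rw [← mem_arcSet_iff_dZ ht0.le ht1]
      exact ⟨0, by simpa using ht.1, by simpa using ht.2⟩) (by linarith) (by
      show a t0 + a (1 - t0) ≤ 129 / 100 * ∫ x in t0..(1 - t0), w x
      rw [hsym, hwtot]
      have : a t0 < 129 / 100 * ∫ x in t0..(1 / 2), w x := hcut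
      linarith)
  -- the perimeter of the truncated set
  have hR0 : 0 ≤ P - 2 * (∫ t in t0..(1 - t0), I2 (a t)) + a t0 + a (1 - t0) := by
    obtain ⟨i1, i2⟩ := S.lm (fun _ => 1) (fun _ => 0) continuous_const continuous_const
      (fun _ => zero_le_one) (fun _ => le_rfl) (fun _ => by norm_num) ha1 ha2
    simp only [one_mul, intervalIntegral.integral_zero, add_zero] at i1 i2
    have h3 : ∫ t in t0..(1 - t0), I2 (a t) ≤ ∫ t in (0 : ℝ)..1, I2 (a t) :=
      intervalIntegral.integral_mono_interval ht0.le h12.le (by linarith)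
        (Eventually.of_forall fun t => I2_nonneg') i1
    have h4 := (S.a01 t0).1
    have h5 := (S.a01 (1 - t0)).1
    have h6 : ∫ t in (0 : ℝ)..1, I2 (a t) ≤ P / 2 := i2
    linarith
  have hP' : (periodicPerimeter (cutArc d t0 (1 - t0) F)).toReal ≤
      P - 2 * (∫ t in t0..(1 - t0), I2 (a t)) + a t0 + a (1 - t0) :=
    ENNReal.toReal_le_of_le_ofReal hR0 hPle
  refine ⟨t0, ht0, ht1, cutArc_measurable d _ _ hF, cutArc_periodic d _ _ hper,
    cutArc_mono hM d ht0.le ht1, ne_top_of_le_ne_top ENNReal.ofReal_ne_top hPle,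
    fun t ht => sl_cutArc_mem d F ((mem_arcSet_iff_dZ ht0.le ht1).2 ht), ?_, ?_, ?_⟩
  · rw [hvol]
    show 9 / 100 ≤ V - ∫ t in t0..(1 - t0), a t
    linarith
  · rw [hvol]
    show V - ∫ t in t0..(1 - t0), a t ≤ V
    linarith
  · rw [hvol]
    show _ / 2 - mm (V - ∫ t in t0..(1 - t0), a t) < P / 2 - mm V
    have : 0 < 3 / 1000 * ∫ x in t0..(1 - t0), w x := by positivity
    have h7 : (P - 2 * (∫ x in t0..(1 - t0), I2 (a x)) + a t0 + a (1 - t0)) / 2 -
        mm (V - ∫ x in t0..(1 - t0), a x) + 3 / 1000 * (∫ x in t0..(1 - t0), w x) ≤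
        P / 2 - mm V := hpsi
    linarith

end Crest.Agent.R214
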