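import Crest.Agent.R214.Iface
import Crest.Agent.R214.Line
import Crest.Agent.R214.Planar
import Crest.Agent.R214.BoxN1
import Crest.Agent.R214.BoxN2
import Crest.Agent.R214.N4
import Crest.Agent.R214.Step5
import Crest.Agent.R214.PlanarEq

/-!
# Row 214: lemmas for the case analysis (helper1); the case analysis itself is helper12's
`MonoCase.lean`
-/

set_option autoImplicit false

open MeasureTheory Crest.GeometryTopology.PeriodicPerimeter Filter Set
open scoped ENNReal Topology

namespace Crest.Agent.R214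

theorem rng_exists {F : Set (Ev 3)} (hF : MeasurableSet F) (hper : IsLatticePeriodic F)
    (hP : periodicPerimeter F ≠ ∞) (d : Fin 3) : ∃ a1 a2 : ℝ, Rng (sl d F) a1 a2 := by
  obtain ⟨a1, a2, h0, h12, h1, hae, hi, hs⟩ := (sd3 hF hper hP d).exists_range
  exact ⟨a1, a2, h0, h12, h1, hae, hi, hs⟩

theorem Rng.mean {F : Set (Ev 3)} (hF : MeasurableSet F) {d : Fin 3} {a1 a2 : ℝ}
    (R : Rng (sl d F) a1 a2) : a1 ≤ periodicVolume F ∧ periodicVolume F ≤ a2 := by
  have hI : ∫ t in (0 : ℝ)..1, sl d F t = periodicVolume F := integral_sl (d := d) hF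
  have hm := sl_measurable (d := d) hF
  have ia : IntervalIntegrable (sl d F) volume 0 1 := by
    rw [intervalIntegrable_iff_integrableOn_Ioc_of_le zero_le_one]
    refine Integrable.mono' (g := fun _ => (1 : ℝ)) (by simp) hm.aestronglyMeasurable ?_
    refine Eventually.of_forall fun x => ?_
    rw [Real.norm_eq_abs, abs_of_nonneg (sl_nonneg _)]
    exact sl_le_one hF _
  constructor
  · have := intervalIntegral.integral_mono_ae zero_le_one
      (intervalIntegrable_const (c := a1)) ia (R.ae.mono fun x hx => hx.1)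
    rw [hI] at this
    simpa using this
  · have := intervalIntegral.integral_mono_ae zero_le_one ia
      (intervalIntegrable_const (c := a2)) (R.ae.mono fun x hx => hx.2)
    rw [hI] at this
    simpa using this

/-- if `a1 = V` or `a2 = V` then the section function is constant -/
theorem Rng.const {F : Set (Ev 3)} {d : Fin 3} {v : ℝ}
    (R : Rng (sl d F) v v) : ∀ᵐ t : ℝ, sl d F t = v :=
  R.ae.mono fun _ hx => le_antisymm hx.2 hx.1

theorem Rng.line {F : Set (Ev 3)} (hF : MeasurableSet F) (hper : IsLatticePeriodic F)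
    (hP : periodicPerimeter F ≠ ∞) {d : Fin 3} {a1 a2 s0 sg : ℝ} (R : Rng (sl d F) a1 a2)
    (hg : ∀ x ∈ Icc a1 a2, s0 + sg * x ≤ I2 x) :
    s0 + sg * periodicVolume F + ∫ x in a1..a2, hL s0 sg x ≤
      (periodicPerimeter F).toReal / 2 := by
  have := (sd3 hF hper hP d).line (Eventually.of_forall fun _ => le_rfl) R.h0 R.h12 R.h1 R.ae
    R.inf R.sup hg
  rwa [integral_sl (d := d) hF] at this

theorem Rng.good {F : Set (Ev 3)} (hF : MeasurableSet F) (hper : IsLatticePeriodic F)
    (hP : periodicPerimeter F ≠ ∞) {d : Fin 3} {a1 a2 : ℝ} (R : Rng (sl d F) a1 a2)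
    (h : Good (periodicVolume F) a1 a2) :
    mm (periodicVolume F) < (periodicPerimeter F).toReal / 2 := by
  obtain ⟨s0, sg, h1, h2⟩ := h
  exact h2.trans_le (R.line hF hper hP h1)


/-- a direction with `a2 ≤ 1/π` -/
theorem capped {F : Set (Ev 3)} (hF : MeasurableSet F) (hper : IsLatticePeriodic F)
    (hP : periodicPerimeter F ≠ ∞) (hV : 0 < periodicVolume F) {d : Fin 3} {a1 a2 : ℝ}
    (R : Rng (sl d F) a1 a2) (h : a2 ≤ 1 / Real.pi) :
    mm (periodicVolume F) ≤ (periodicPerimeter F).toReal / 2 ∧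
      ((periodicPerimeter F).toReal / 2 ≤ mm (periodicVolume F) → 12 / 100 ≤ periodicVolume F →
        15 / 100 ≤ periodicVolume F → ∀ᵐ t : ℝ, sl d F t = periodicVolume F) := by
  obtain ⟨m1, m2⟩ := R.mean hF
  obtain ⟨s0, sg, h1, h2, h3⟩ := planar_capped R.h0 m1 m2 hV h
  have hl := R.line hF hper hP h1
  refine ⟨h2.trans hl, fun he _ hV' => ?_⟩
  rcases h3 (le_antisymm h2 (hl.trans he)) with ⟨e1, e2⟩ | ⟨e1, e2⟩
  · subst e1
    rw [e2] at R
    exact R.const
  · exfalso
    have hpi := Real.pi_gt_three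
    have hpi' := Real.pi_gt_d2
    have hp0 := Real.pi_pos
    set q := √(a2 / Real.pi) with hq
    have hq0 : 0 ≤ q := Real.sqrt_nonneg _
    have hq2 : q ≤ 1 / Real.pi := by
      rw [hq, show (1 : ℝ) / Real.pi = √((1 / Real.pi) ^ 2) from
        (Real.sqrt_sq (by positivity)).symm]
      apply Real.sqrt_le_sqrt
      rw [div_le_iff₀ hp0]
      calc a2 ≤ 1 / Real.pi := h
        _ = (1 / Real.pi) ^ 2 * Real.pi := by field_simp
    have hq3 : q ^ 3 ≤ (1 / Real.pi) ^ 3 := pow_le_pow_left₀ hq0 hq2 3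
    have h5 : 4 * Real.pi / 3 * q ^ 3 ≤ 4 * Real.pi / 3 * (1 / Real.pi) ^ 3 :=
      mul_le_mul_of_nonneg_left hq3 (by positivity)
    have h6 : 4 * Real.pi / 3 * (1 / Real.pi) ^ 3 = 4 / (3 * Real.pi ^ 2) := by field_simp
    have h7 : 4 / (3 * Real.pi ^ 2) < 15 / 100 := by
      rw [div_lt_iff₀ (by positivity)]
      nlinarith
    linarith

/-- a direction with `a1 ≥ 1/250`, `V ≤ .26`, `a2 > 1/π` is good -/
theorem good_small {V a1 a2 : ℝ} (hV : 12 / 100 ≤ V) (hV' : V ≤ 26 / 100) (h1 : 1 / 250 ≤ a1)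
    (h1V : a1 ≤ V) (h2V : V ≤ a2) (h2 : 1 / Real.pi ≤ a2) (h2' : a2 ≤ 1) : Good V a1 a2 := by
  rcases le_total V (1 / 8) with h | h
  · exact N2f (by linarith) h (by linarith) h1V h2V h2 h2'
  · exact N2a h hV' (by linarith) h1V h2V h2 h2'

/-- zero contact in some direction: lower bound -/
theorem zero_lb (HZ : ZeroContact) {F : Set (Ev 3)} (hF : MeasurableSet F) (hM : Mono F)
    (hP : periodicPerimeter F ≠ ∞) (hV0 : 0 < periodicVolume F)
    (hV1 : periodicVolume F ≤ 36 / 100) {d : Fin 3} {b0 : ℝ} (R : Rng (sl d F) 0 b0) :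
    mm (periodicVolume F) ≤ (periodicPerimeter F).toReal / 2 := by
  obtain ⟨m1, m2⟩ := R.mean hF
  rcases le_or_gt b0 (1 / Real.pi) with h | h
  · exact (capped hF hM.periodic hP hV0 R h).1
  rcases le_or_gt (periodicVolume F) (12 / 100) with h' | h'
  · exact (R.good hF hM.periodic hP (N1 h' le_rfl m1 m2 h.le R.h1)).le
  · exact (HZ F hF hM hP h'.le hV1 d b0 R h).1

/-- the truncated set of `step5` has zero contact -/
theorem rng_zero {F : Set (Ev 3)} (hF : MeasurableSet F) (hper : IsLatticePeriodic F)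
    (hP : periodicPerimeter F ≠ ∞) {d : Fin 3} {t0 : ℝ} (k1 : 0 < t0) (k2 : t0 < 1 / 2)
    (k7 : ∀ t, t0 < dZ t → sl d F t = 0) : ∃ b0 : ℝ, Rng (sl d F) 0 b0 := by
  obtain ⟨c1, c2, R'⟩ := rng_exists hF hper hP d
  have hc1 : c1 = 0 := by
    by_contra hne
    have hc : 0 < c1 := lt_of_le_of_ne R'.h0 (Ne.symm hne)
    have h3 : volume (Ioo t0 (1 - t0)) = 0 := by
      refine measure_mono_null (fun t ht => ?_) (ae_iff.1 R'.ae)
      intro h4
      have h5 : t0 < dZ t := by
        rcases le_total t (1 / 2) with h6 | h6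
        · rw [dZ_eq_abs (by rw [abs_of_nonneg (by linarith [ht.1])]; exact h6),
            abs_of_nonneg (by linarith [ht.1])]
          exact ht.1
        · have e : dZ t = dZ (t - 1) := by
            have := dZ_per (t - 1)
            rw [sub_add_cancel] at this
            exact this
          rw [e, dZ_eq_abs (by rw [abs_of_nonpos (by linarith [ht.2])]; linarith),
            abs_of_nonpos (by linarith [ht.2])]
          linarith [ht.2]
      have := k7 t h5
      rw [this] at h4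
      linarith [h4.1]
    rw [Real.volume_Ioo] at h3
    have := ENNReal.ofReal_eq_zero.1 h3
    linarith
  rw [hc1] at R'
  exact ⟨c2, R'⟩

/-- directions with `a2 > 1/π`, `.12 ≤ V ≤ .36`, `0 < a1 < 1/250` are strictly good -/
theorem thin_pos (HZ : ZeroContact) {F : Set (Ev 3)} (hF : MeasurableSet F) (hM : Mono F)
    (hP : periodicPerimeter F ≠ ∞) (hV0 : 12 / 100 ≤ periodicVolume F)
    (hV1 : periodicVolume F ≤ 36 / 100) {d : Fin 3} {a1 a2 : ℝ} (R : Rng (sl d F) a1 a2)
    (h2 : 1 / Real.pi < a2) (h1 : a1 ≤ 1 / 250) (hpos : ∀ᵐ t : ℝ, 0 < sl d F t) :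
    mm (periodicVolume F) < (periodicPerimeter F).toReal / 2 := by
  have hpi := Real.pi_lt_d4
  have hp0 := Real.pi_pos
  by_contra hcon
  push Not at hcon
  have hA0 : 0.318 ≤ a2 := by
    have : (0.318 : ℝ) ≤ 1 / Real.pi := by
      rw [le_div_iff₀ hp0]; norm_num; linarith
    linarith
  obtain ⟨t0, k1, k2, k3, k4, k5, k6, k7, k8, k9, k10⟩ := step5 hF hM.periodic hP hM d hA0 R.h1
    (R.ae.mono fun _ hx => hx.2) R.inf R.sup h1 hV0 (by linarith) hpos hcon
  obtain ⟨b0, R'⟩ := rng_zero k3 k4 k6 k1 k2 k7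
  have := zero_lb HZ k3 k5 k6 (by linarith) (by linarith) R'
  linarith

end Crest.Agent.R214
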