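import Crest.Agent.R214.N5main
import Crest.Agent.R214.Line

/-!
# Row 214, N5 at the level of slice data
-/

set_option autoImplicit false

open MeasureTheory Set Filter Topology

namespace Crest.Agent.R214

namespace N5

open Line

theorem J4_nn (x : ℝ) : 0 ≤ J4 x := Real.sqrt_nonneg _

theorem J4_continuous : Continuous J4 := by unfold J4 w4; fun_prop

theorem I2_le_J4 (x : ℝ) : I2 x ≤ J4 x := by
  unfold I2 J4 w2 w4
  apply Real.sqrt_le_sqrt
  refine (min_le_right _ _).trans (le_min ((min_le_left _ _).trans one_le_two) (min_le_right _ _))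

theorem J4_pos {y : ℝ} (h1 : y < 1) : 0 < J4 y := by
  unfold J4 w4
  exact Real.sqrt_pos.2 (lt_min two_pos (mul_pos Real.pi_pos (by linarith)))

theorem J4_one : J4 1 = 0 := by
  unfold J4 w4
  rw [Real.sqrt_eq_zero']
  exact (min_le_right _ _).trans (by simp)

/-- the first half of the horizontal weight -/
noncomputable def c4 (e1 lam a : ℝ) : ℝ := max (e1 + lam * a) 0 / J4 a

theorem c4_nonneg (e1 lam a : ℝ) : 0 ≤ c4 e1 lam a := div_nonneg (le_max_right _ _) (J4_nn _)

theorem c4_le_one {e1 lam a : ℝ} (h : e1 + lam * a ≤ J4 a) : c4 e1 lam a ≤ 1 :=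
  div_le_one_of_le₀ (max_le h (J4_nn _)) (J4_nn _)

theorem c4_le_cL {e1 lam y : ℝ} (h0 : 0 < y) (h1 : y < 1) : c4 e1 lam y ≤ cL e1 lam y := by
  unfold c4 cL
  exact div_le_div_of_nonneg_left (le_max_right _ _) (I2_pos' h0 h1) (I2_le_J4 y)

theorem c4_continuousOn {e1 lam a1 a2 : ℝ} (h1 : a2 ≤ 1)
    (hg : ∀ a ∈ Icc a1 a2, e1 + lam * a ≤ J4 a) : ContinuousOn (c4 e1 lam) (Icc a1 a2) := by
  intro y hy
  have hy1 : y ≤ 1 := hy.2.trans h1
  rcases hy1.eq_or_lt with h3 | h3
  · subst h3
    have hs : e1 + lam ≤ 0 := by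
      have := hg 1 hy
      rw [J4_one] at this
      linarith
    have e0 : c4 e1 lam 1 = 0 := by unfold c4; rw [J4_one, div_zero]
    show Tendsto (c4 e1 lam) (𝓝[Icc a1 a2] 1) (𝓝 (c4 e1 lam 1))
    rw [e0]
    have ht : Tendsto (fun y : ℝ => |lam| * √(2 * (1 - y))) (𝓝[Icc a1 a2] 1) (𝓝 0) := by
      have hc : Continuous fun y : ℝ => |lam| * √(2 * (1 - y)) := by fun_prop
      have := hc.tendsto 1
      simp only [sub_self, mul_zero, Real.sqrt_zero] at this
      exact this.mono_left nhdsWithin_le_nhds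
    refine squeeze_zero' (Eventually.of_forall fun y => c4_nonneg _ _ _) ?_ ht
    have h4 : ∀ᶠ y in 𝓝[Icc a1 a2] (1 : ℝ), 1 / 2 < y :=
      nhdsWithin_le_nhds (Ioi_mem_nhds (by norm_num))
    filter_upwards [h4, self_mem_nhdsWithin] with z hz hz2
    rcases (hz2.2.trans h1).eq_or_lt with h5 | h5
    · rw [h5, e0]; positivity
    · exact (c4_le_cL (by linarith) h5).trans (cL_le_right hs hz.le h5.le)
  · refine ContinuousAt.continuousWithinAt ?_
    unfold c4
    refine ContinuousAt.div ?_ J4_continuous.continuousAt (J4_pos h3).ne'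
    fun_prop

theorem c5_eq (e1 e2 lam a : ℝ) : c5 e1 e2 lam a = max (c4 e1 lam a) (cL e2 lam a) := rfl

end N5

open N5 Line

/-- **N5** for slice data: `J ≥ min √2 √(π(1-a))` on a set of times of measure `≥ a1` -/
theorem SD.n5 {P V a1 a2 : ℝ} {a J : ℝ → ℝ} (S : SD P a J)
    (hJ : ∀ᵐ x : ℝ, I2 (a x) ≤ J x) {D : Set ℝ} (hD : MeasurableSet D)
    (hDv : a1 ≤ (volume (D ∩ Ioc 0 1)).toReal) (hJD : ∀ᵐ x : ℝ, x ∈ D → J4 (a x) ≤ J x)
    (h4 : 4 / 100 ≤ a1) (hpi : 1 / Real.pi ≤ a2) (h1 : a2 ≤ 1)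
    (hae : ∀ᵐ x : ℝ, a1 ≤ a x ∧ a x ≤ a2)
    (ha1 : ∀ δ > 0, 0 < volume ({x | a x < a1 + δ} ∩ Ico 0 1))
    (ha2 : ∀ δ > 0, 0 < volume ({x | a2 - δ < a x} ∩ Ico 0 1))
    (hV : ∫ x in (0:ℝ)..1, a x = V) (hV1 : 26 / 100 ≤ V) (hV2 : V ≤ 366 / 1000) :
    mm V < P / 2 := by
  have ia : IntervalIntegrable a volume 0 1 := by
    rw [intervalIntegrable_iff_integrableOn_Ioc_of_le zero_le_one]
    refine Integrable.mono' (g := fun _ => (1:ℝ)) (by simp) S.meas_a.aestronglyMeasurable ?_
    refine Eventually.of_forall fun x => ?_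
    rw [Real.norm_eq_abs, abs_of_nonneg (S.a01 x).1]
    exact (S.a01 x).2
  have h1V : a1 ≤ V := by
    have := intervalIntegral.integral_mono_ae zero_le_one (intervalIntegrable_const (c := a1)) ia
      (hae.mono fun x hx => hx.1)
    simpa [hV] using this
  have h2V : V ≤ a2 := by
    have := intervalIntegral.integral_mono_ae zero_le_one ia (intervalIntegrable_const (c := a2))
      (hae.mono fun x hx => hx.2)
    simpa [hV] using this
  have h12 : a1 ≤ a2 := h1V.trans h2V
  obtain ⟨e1, e2, lam, hg2, hg1, hval⟩ := good5 hV1 hV2 h4 h1V h2V hpi h1 hDv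
  have hcont : ContinuousOn (c5 e1 e2 lam) (Icc a1 a2) := by
    have k1 := c4_continuousOn h1 hg1
    have k2 := cL_continuousOn (by linarith : 0 ≤ a1) h1 hg2
    exact ContinuousOn.sup k1 k2
  have hle1 : ∀ x ∈ Icc a1 a2, c5 e1 e2 lam x ≤ 1 := fun x hx => by
    rw [c5_eq]
    exact max_le (c4_le_one (hg1 x hx)) (cL_le_one (hg2 x hx))
  obtain ⟨f1, f2⟩ := S.lm_on h12 hae ha1 ha2 (c5 e1 e2 lam) (h5 e1 e2 lam) hcont (by
      show ContinuousOn (fun x => √(1 - c5 e1 e2 lam x ^ 2)) (Icc a1 a2)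
      exact (continuousOn_const.sub (hcont.pow 2)).sqrt)
    (fun x _ => c5_nonneg _ _ _ _) (fun x _ => h5_nonneg _ _ _ _) (fun x hx => by
      have e : h5 e1 e2 lam x = √(1 - c5 e1 e2 lam x ^ 2) := rfl
      rw [e, Real.sq_sqrt]
      · linarith
      · have h2 := hle1 x hx
        have h3 := c5_nonneg e1 e2 lam x
        nlinarith)
  -- the horizontal part
  have hpt : ∀ᵐ x : ℝ, (e2 + lam * a x) + D.indicator (fun _ => e1 - e2) x ≤
      c5 e1 e2 lam (a x) * J x := by
    filter_upwards [hae, hJ, hJD] with x hx hJx hJDx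
    have hcn := c5_nonneg e1 e2 lam (a x)
    by_cases hxD : x ∈ D
    · rw [indicator_of_mem hxD]
      have h2 : e1 + lam * a x ≤ c4 e1 lam (a x) * J4 (a x) := by
        rcases (J4_nn (a x)).eq_or_lt with h3 | h3
        · have := hg1 _ hx
          rw [← h3] at this ⊢
          rw [mul_zero]
          exact this
        · unfold c4
          rw [div_mul_cancel₀ _ h3.ne']
          exact le_max_left _ _
      have h3 : c4 e1 lam (a x) * J4 (a x) ≤ c5 e1 e2 lam (a x) * J x :=
        mul_le_mul (le_max_left _ _) (hJDx hxD) (J4_nn _) hcn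
      linarith
    · rw [indicator_of_notMem hxD, add_zero]
      have h2 : e2 + lam * a x ≤ cL e2 lam (a x) * I2 (a x) := by
        rcases (I2_nn (a x)).eq_or_lt with h3 | h3
        · have := hg2 _ hx
          rw [← h3] at this ⊢
          rw [mul_zero]
          exact this
        · unfold cL
          rw [div_mul_cancel₀ _ h3.ne']
          exact le_max_left _ _
      exact h2.trans (mul_le_mul (le_max_right _ _) hJx (I2_nn _) hcn)
  have iind : IntervalIntegrable (D.indicator (fun _ => e1 - e2)) volume 0 1 := by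
    rw [intervalIntegrable_iff_integrableOn_Ioc_of_le zero_le_one]
    exact (integrable_const _).indicator hD
  have iaff : IntervalIntegrable (fun x => e2 + lam * a x) volume 0 1 :=
    intervalIntegrable_const.add (ia.const_mul lam)
  have h5' := intervalIntegral.integral_mono_ae zero_le_one (iaff.add iind) f1 hpt
  have e3 : ∫ x in (0:ℝ)..1, ((e2 + lam * a x) + D.indicator (fun _ => e1 - e2) x) =
      e2 + lam * V + (volume (D ∩ Ioc 0 1)).toReal * (e1 - e2) := by
    rw [intervalIntegral.integral_add iaff iind,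
      intervalIntegral.integral_add intervalIntegrable_const (ia.const_mul lam),
      intervalIntegral.integral_const, intervalIntegral.integral_const_mul, hV]
    congr 1
    · simp
    · rw [intervalIntegral.integral_of_le zero_le_one, integral_indicator hD,
        setIntegral_const, Measure.real, Measure.restrict_apply hD, smul_eq_mul]
  have e4 : (∫ x in (0:ℝ)..1, ((fun x => e2 + lam * a x) + D.indicator (fun _ => e1 - e2)) x) =
      ∫ x in (0:ℝ)..1, ((e2 + lam * a x) + D.indicator (fun _ => e1 - e2) x) := rfl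
  set c0 := (volume (D ∩ Ioc 0 1)).toReal
  have h6 : e2 + lam * V + c0 * (e1 - e2) ≤
      ∫ x in (0:ℝ)..1, c5 e1 e2 lam (a x) * J x := by
    rw [← e3]
    exact h5'
  have h7 : lam * V + c0 * e1 + (1 - c0) * e2 = e2 + lam * V + c0 * (e1 - e2) := by ring
  linarith

end Crest.Agent.R214
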