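import Crest.Agent.R214.Iface
import Crest.Agent.R214.N5sd
import Crest.Agent.R214.BoxN2
import Crest.Agent.R214.Final

/-!
# Row 214: all three directions of type II (`AllBig`)
-/

set_option autoImplicit false

open MeasureTheory Crest.GeometryTopology.PeriodicPerimeter Filter Set
open scoped ENNReal Topology

namespace Crest.Agent.R214

namespace AB

theorem dZ_add_int (t : ℝ) (m : ℤ) : dZ (t + m) = dZ t := by
  unfold dZ
  rw [round_add_intCast]
  push_cast
  congr 1
  ring

theorem dZ_measurable : Measurable dZ := by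
  unfold dZ
  have h1 : Measurable fun t : ℝ => ((round t : ℤ) : ℝ) := by
    have h2 : (fun t : ℝ => ((round t : ℤ) : ℝ)) = fun t => ((⌊t + 1 / 2⌋ : ℤ) : ℝ) := by
      funext t
      rw [round_eq]
    rw [h2]
    exact (measurable_from_top (f := fun n : ℤ => (n : ℝ))).comp
      (Int.measurable_floor.comp (measurable_id.add_const _))
  exact (measurable_id.sub h1).norm

theorem dZ_vol_le {δ : ℝ} (h : 0 ≤ δ) :
    (volume ({τ : ℝ | dZ τ < δ} ∩ Ioc 0 1)).toReal ≤ 2 * δ := by
  have h1 : {τ : ℝ | dZ τ < δ} ∩ Ioc 0 1 ⊆ Ioo 0 δ ∪ Ioc (1 - δ) 1 := by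
    rintro τ ⟨h2, h3, h4⟩
    have h2' : dZ τ < δ := h2
    rcases le_total τ (1 / 2) with h5 | h5
    · left
      rw [dZ_eq_abs (by rw [abs_of_pos h3]; exact h5), abs_of_pos h3] at h2'
      exact ⟨h3, h2'⟩
    · right
      have h6 : dZ τ = dZ (τ - 1) := by
        have := dZ_add_int (τ - 1) 1
        push_cast at this
        rw [← this]
        congr 1
        ring
      rw [h6, dZ_eq_abs (by rw [abs_of_nonpos (by linarith)]; linarith),
        abs_of_nonpos (by linarith)] at h2'
      exact ⟨by linarith, h4⟩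
  have h7 : volume ({τ : ℝ | dZ τ < δ} ∩ Ioc 0 1) ≤ ENNReal.ofReal (2 * δ) := by
    refine (measure_mono h1).trans ((measure_union_le _ _).trans ?_)
    rw [Real.volume_Ioo, Real.volume_Ioc, ← ENNReal.ofReal_add (by linarith) (by linarith)]
    apply le_of_eq
    congr 1
    ring
  exact ENNReal.toReal_le_of_le_ofReal (by linarith) h7

theorem dZ_vol_ge {c : ℝ} (h0 : 0 ≤ c) (h1 : c ≤ 1) :
    c ≤ (volume ({τ : ℝ | 2 * dZ τ < c} ∩ Ioc 0 1)).toReal := by
  have h2 : Ioo 0 (c / 2) ∪ Ioo (1 - c / 2) 1 ⊆ {τ : ℝ | 2 * dZ τ < c} ∩ Ioc 0 1 := by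
    rintro τ (⟨h3, h4⟩ | ⟨h3, h4⟩)
    · refine ⟨?_, h3, by linarith⟩
      show 2 * dZ τ < c
      have := dZ_le τ 0
      push_cast at this
      rw [sub_zero, abs_of_pos h3] at this
      linarith
    · refine ⟨?_, by linarith, h4.le⟩
      show 2 * dZ τ < c
      have := dZ_le τ 1
      push_cast at this
      rw [abs_of_neg (by linarith)] at this
      linarith
  have hd : Disjoint (Ioo 0 (c / 2)) (Ioo (1 - c / 2) 1) := by
    rw [Set.disjoint_left]
    rintro τ ⟨_, h4⟩ ⟨h5, _⟩
    linarith
  have h3 : ENNReal.ofReal c ≤ volume ({τ : ℝ | 2 * dZ τ < c} ∩ Ioc 0 1) := by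
    refine le_trans ?_ (measure_mono h2)
    rw [measure_union hd measurableSet_Ioo, Real.volume_Ioo, Real.volume_Ioo,
      ← ENNReal.ofReal_add (by linarith) (by linarith)]
    apply le_of_eq
    congr 1
    ring
  have h4 := ENNReal.toReal_mono
    ((measure_mono inter_subset_right).trans_lt (by simp)).ne h3
  rwa [ENNReal.toReal_ofReal h0] at h4

theorem ins_swap {z e : Fin 3} {d' z' : Fin 2} (h1 : z.succAbove d' = e) (h2 : e.succAbove z' = z)
    (t s : ℝ) (w : Ev 1) : ins e s (ins z' t w) = ins z t (ins d' s w) := by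
  ext j
  rcases Fin.eq_self_or_eq_succAbove e j with h | ⟨k, h⟩
  · rw [h, ins_same, ← h1, ins_succAbove, ins_same]
  · rw [h, ins_succAbove]
    rcases Fin.eq_self_or_eq_succAbove z' k with h3 | ⟨l, h3⟩
    · rw [h3, ins_same, h2, ins_same]
    · rw [h3, ins_succAbove]
      have h4 : e.succAbove (z'.succAbove l) ≠ z := by
        rw [← h2]
        intro h5
        exact Fin.succAbove_ne z' l (Fin.succAbove_right_injective h5)
      obtain ⟨k', h5⟩ := Fin.exists_succAbove_eq h4
      rw [← h5, ins_succAbove]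
      have h6 : k' ≠ d' := by
        rintro rfl
        rw [h1] at h5
        exact Fin.succAbove_ne e (z'.succAbove l) h5.symm
      obtain ⟨l', h7⟩ := Fin.exists_succAbove_eq h6
      rw [← h7, ins_succAbove, Subsingleton.elim l l']

theorem ins_dZ_le {z : Fin 3} {t t' : ℝ} (h : dZ t' ≤ dZ t) (y : Ev 2) (i : Fin 3) :
    dZ (ins z t' y i) ≤ dZ (ins z t y i) := by
  rcases Fin.eq_self_or_eq_succAbove z i with h3 | ⟨l, h3⟩
  · rw [h3, ins_same, ins_same]; exact h
  · rw [h3, ins_succAbove, ins_succAbove]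

/-- the rows near the centre are not empty -/
theorem row_pos {F : Set (Ev 3)} (hF : MeasurableSet F) (hM : Mono F) {z e : Fin 3} {d' : Fin 2}
    (h1 : z.succAbove d' = e) {t a : ℝ} (ht : 2 * dZ t < a) (ha : ∀ᵐ s : ℝ, a ≤ sl e F s) :
    ∀ᵐ s : ℝ, 0 < sl d' (slice z F t) s := by
  have hze : z ≠ e := by rw [← h1]; exact (Fin.succAbove_ne z d').symm
  obtain ⟨z', h2⟩ := Fin.exists_succAbove_eq hze
  filter_upwards [ha] with s hs
  by_contra hcon
  have h3 : sl d' (slice z F t) s = 0 := le_antisymm (not_lt.1 hcon) (sl_nonneg _)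
  have hm : MeasurableSet (slice e F s) := slice_measurable hF s
  have hI : ∫ τ in (0:ℝ)..1, sl z' (slice e F s) τ = sl e F s := integral_sl (d := z') hm
  have key : ∀ τ, sl z' (slice e F s) τ ≤ {τ : ℝ | dZ τ < dZ t}.indicator (fun _ => (1 : ℝ)) τ := by
    intro τ
    by_cases hτ : dZ τ < dZ t
    · rw [indicator_of_mem (show τ ∈ {τ : ℝ | dZ τ < dZ t} from hτ)]
      exact sl_le_one hm τ
    · rw [indicator_of_notMem (show τ ∉ {τ : ℝ | dZ τ < dZ t} from hτ), ← h3]
      unfold sl
      refine ENNReal.toReal_mono ((measure_mono inter_subset_right).trans_lt (cell_finite _)).ne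
        (measure_mono (inter_subset_inter_left _ ?_))
      intro w hw
      have hw1 : ins e s (ins z' τ w) ∈ F := hw
      show ins z t (ins d' s w) ∈ F
      rw [ins_swap h1 h2] at hw1
      exact hM _ _ (fun i => ins_dZ_le (not_lt.1 hτ) _ i) hw1
  have hmS : MeasurableSet {τ : ℝ | dZ τ < dZ t} :=
    measurableSet_lt dZ_measurable measurable_const
  have i1 : IntervalIntegrable (sl z' (slice e F s)) volume 0 1 := by
    rw [intervalIntegrable_iff_integrableOn_Ioc_of_le zero_le_one]
    refine Integrable.mono' (g := fun _ => (1:ℝ)) (by simp)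
      (sl_measurable (d := z') hm).aestronglyMeasurable ?_
    refine Eventually.of_forall fun x => ?_
    rw [Real.norm_eq_abs, abs_of_nonneg (sl_nonneg _)]
    exact sl_le_one hm x
  have i2 : IntervalIntegrable ({τ : ℝ | dZ τ < dZ t}.indicator (fun _ => (1 : ℝ))) volume 0 1 := by
    rw [intervalIntegrable_iff_integrableOn_Ioc_of_le zero_le_one]
    exact (integrable_const _).indicator hmS
  have h4 := intervalIntegral.integral_mono zero_le_one i1 i2 key
  rw [hI, intervalIntegral.integral_of_le zero_le_one, integral_indicator hmS,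
    setIntegral_const, Measure.real, Measure.restrict_apply hmS, smul_eq_mul, mul_one] at h4
  have h5 := dZ_vol_le (dZ_nonneg t)
  linarith

end AB

open N5 AB

theorem all_big : AllBig := by
  intro F hF hM hP hV1 hV2 a1 a2 R h1 h2
  have hper := hM.periodic
  obtain ⟨z, hz⟩ := Finite.exists_min a1
  obtain ⟨m1, m2⟩ := (R z).mean hF
  rcases le_or_gt (a1 z) (4 / 100) with h3 | h3
  · refine (R z).good hF hper hP ?_
    have k1 : (4 : ℝ) / 1000 ≤ a1 z := by have := h1 z; linarith
    rcases le_total (periodicVolume F) (28 / 100) with c1 | c1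
    · exact N2b1 hV1 c1 k1 (by linarith) m2 (h2 z).le (R z).h1
    rcases le_total (periodicVolume F) (30 / 100) with c2 | c2
    · exact N2b2 c1 c2 k1 (by linarith) m2 (h2 z).le (R z).h1
    rcases le_total (periodicVolume F) (33 / 100) with c3 | c3
    · exact N2b3 c2 c3 k1 (by linarith) m2 (h2 z).le (R z).h1
    · exact N2b4 c3 (by linarith) k1 (by linarith) m2 (h2 z).le (R z).h1
  · set D : Set ℝ := {t | 2 * dZ t < a1 z} with hD
    have hDm : MeasurableSet D :=
      measurableSet_lt (dZ_measurable.const_mul 2) measurable_const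
    classical
    set J : ℝ → ℝ := fun t => D.piecewise (fun t => J4 (sl z F t)) (fun t => I2 (sl z F t)) t
      with hJ
    have hsm := sl_measurable (d := z) hF
    have hJm : Measurable J :=
      Measurable.piecewise hDm (J4_continuous.measurable.comp hsm) (I2_cont'.measurable.comp hsm)
    have hDp : ∀ t, t + 1 ∈ D ↔ t ∈ D := by
      intro t
      have := dZ_add_int t 1
      push_cast at this
      show 2 * dZ (t + 1) < a1 z ↔ 2 * dZ t < a1 z
      rw [this]
    have hJp : Function.Periodic J 1 := by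
      intro t
      simp only [hJ, Set.piecewise, hDp, sl_per (d := z) hper t]
    have hJ0 : ∀ t, 0 ≤ J t := by
      intro t
      simp only [hJ, Set.piecewise]
      split_ifs
      · exact J4_nn _
      · exact I2_nonneg'
    have S := sd_of_perim hF hper hP z hJm hJp hJ0 (Eventually.of_forall fun t => by
      simp only [hJ, Set.piecewise]
      split_ifs with ht
      · have h4 := wrap2 (slice_measurable (d := z) hF t) (slice_periodic (d := z) hper t)
          (fun d' => row_pos hF hM rfl (a := a1 (z.succAbove d')) (lt_of_lt_of_le ht (hz _))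
            ((R (z.succAbove d')).ae.mono fun x hx => hx.1))
        rw [J4_eq]
        exact h4
      · exact iso2_torus (slice_measurable (d := z) hF t) (slice_periodic (d := z) hper t))
    have hI : ∫ t in (0 : ℝ)..1, sl z F t = periodicVolume F := integral_sl (d := z) hF
    refine S.n5 (D := D) (Eventually.of_forall fun t => ?_) hDm
      (dZ_vol_ge (R z).h0 ((R z).h12.trans (R z).h1)) (Eventually.of_forall fun t ht => ?_)
      h3.le (h2 z).le (R z).h1 (R z).ae (R z).inf (R z).sup hI hV1 (by linarith)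
    · simp only [hJ, Set.piecewise]
      split_ifs
      · exact I2_le_J4 _
      · exact le_rfl
    · simp only [hJ, Set.piecewise, if_pos ht]
      exact le_rfl

end Crest.Agent.R214
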