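import Crest.Agent.R214.Iso2D

/-! ROW 214: a 0/1 valued slice function with perimeter `≤ 2` is an arc (helper10). -/

set_option autoImplicit false
open MeasureTheory Set Filter Topology intervalIntegral

namespace Crest.Agent.R214

lemma SQ.var_le {P : ℝ} {a J : ℝ → ℝ} {an Tn : ℕ → ℝ → ℝ} (Q : SQ P a J an Tn) (n : ℕ) {u v : ℝ}
    (huv : u ≤ v) : |an n v - an n u| ≤ Fn an Tn n u v := by
  have := Q.key n (fun _ => 0) (fun _ => 1) continuous_const continuous_const
    (fun _ _ => zero_le_one) (fun _ _ => by norm_num) huv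
  simpa using this

/-- four alternating points cost `4` -/
lemma SQ.no_alt {P : ℝ} {a J : ℝ → ℝ} {an Tn : ℕ → ℝ → ℝ} (Q : SQ P a J an Tn) (hP : P < 4)
    {q x y z : ℝ} (h1 : q ≤ x) (h2 : x ≤ y) (h3 : y ≤ z) (h4 : z ≤ q + 1)
    (cq : Tendsto (fun n => an n q) atTop (𝓝 0)) (cx : Tendsto (fun n => an n x) atTop (𝓝 1))
    (cy : Tendsto (fun n => an n y) atTop (𝓝 0)) (cz : Tendsto (fun n => an n z) atTop (𝓝 1)) :
    False := by
  have hall : ∀ n, |an n x - an n q| + |an n y - an n x| + |an n z - an n y| + |an n q - an n z| ≤ P := by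
    intro n
    have k1 := Q.var_le n h1
    have k2 := Q.var_le n h2
    have k3 := Q.var_le n h3
    have k4 := Q.var_le n h4
    rw [Q.per n q] at k4
    have e1 := Q.Fn_add n q x y
    have e2 := Q.Fn_add n q y z
    have e3 := Q.Fn_add n q z (q + 1)
    have e4 := Q.Fn_per n q
    linarith
  have hl : Tendsto (fun n => |an n x - an n q| + |an n y - an n x| + |an n z - an n y| +
      |an n q - an n z|) atTop (𝓝 (|1 - 0| + |0 - 1| + |1 - 0| + |0 - 1|)) :=
    (((cx.sub cq).abs.add (cy.sub cx).abs).add (cz.sub cy).abs).add (cq.sub cz).abs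
  have := le_of_tendsto' hl hall
  norm_num at this
  linarith

/-- arcs -/
theorem SD.arc {P : ℝ} {m J : ℝ → ℝ} (S : SD P m J) (hP : P < 4)
    (h01 : ∀ᵐ x : ℝ, m x = 0 ∨ m x = 1) (hv0 : 0 < ∫ x in (0:ℝ)..1, m x)
    (hv1 : ∫ x in (0:ℝ)..1, m x < 1) :
    ∃ t : ℝ, ∀ᵐ y : ℝ, (m y = 1 ↔ ∃ z : ℤ, (z : ℝ) + t ≤ y ∧ y < z + t + ∫ x in (0:ℝ)..1, m x) := by
  obtain ⟨an, Tn, Q⟩ := S.seq
  set v := ∫ x in (0:ℝ)..1, m x with hvdef
  have hI : ∀ u, (∫ x in u..(u + 1), m x) = v := by
    intro u
    have := S.per_a.intervalIntegral_add_eq u 0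
    rwa [zero_add] at this
  have hG := Q.conv.and h01
  -- a zero point
  obtain ⟨q, hq, hq0⟩ : ∃ q, (Tendsto (fun n => an n q) atTop (𝓝 (m q)) ∧ (m q = 0 ∨ m q = 1)) ∧
      m q = 0 := by
    by_contra hcon
    push Not at hcon
    have h1 : ∀ᵐ x : ℝ, m x = 1 := by
      filter_upwards [hG] with x hx
      exact hx.2.resolve_left (hcon x hx)
    have : v = 1 := by
      rw [hvdef, intervalIntegral.integral_congr_ae (g := fun _ => (1:ℝ)) (h1.mono fun x hx _ => hx)]
      simp
    linarith
  set G : Set ℝ := {x | Tendsto (fun n => an n x) atTop (𝓝 (m x)) ∧ (m x = 0 ∨ m x = 1)} with hGdef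
  set B : Set ℝ := {x | x ∈ G ∧ q < x ∧ x < q + 1 ∧ m x = 1} with hB
  have hcq : Tendsto (fun n => an n q) atTop (𝓝 0) := by rw [← hq0]; exact hq.1
  have hconv : ∀ x ∈ B, ∀ z ∈ B, ∀ y ∈ G, x < y → y < z → m y = 1 := by
    intro x hx z hz y hy hxy hyz
    rcases hy.2 with h | h
    · exfalso
      refine Q.no_alt hP (le_of_lt hx.2.1) hxy.le hyz.le (le_of_lt hz.2.2.1) hcq ?_ ?_ ?_
      · rw [← hx.2.2.2]; exact hx.1.1
      · rw [← h]; exact hy.1
      · rw [← hz.2.2.2]; exact hz.1.1
    · exact h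
  have hBne : B.Nonempty := by
    by_contra hcon
    rw [not_nonempty_iff_eq_empty] at hcon
    have : ∫ x in q..(q + 1), m x = 0 := by
      rw [intervalIntegral.integral_of_le (by linarith), integral_Ioc_eq_integral_Ioo]
      rw [setIntegral_congr_ae (g := fun _ => (0:ℝ)) measurableSet_Ioo (by
        filter_upwards [hG] with x hx hxI
        rcases hx.2 with h | h
        · exact h
        · exfalso
          have : x ∈ B := ⟨hx, hxI.1, hxI.2, h⟩
          rw [hcon] at this; exact this)]
      simp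
    rw [hI q] at this
    linarith
  have hBb : BddBelow B := ⟨q, fun x hx => hx.2.1.le⟩
  have hBa : BddAbove B := ⟨q + 1, fun x hx => hx.2.2.1.le⟩
  set α := sInf B with hα
  set β := sSup B with hβ
  have hqα : q ≤ α := le_csInf hBne fun x hx => hx.2.1.le
  have hβq : β ≤ q + 1 := csSup_le hBne fun x hx => hx.2.2.1.le
  have hαβ : α ≤ β := by
    obtain ⟨x, hx⟩ := hBne
    exact (csInf_le hBb hx).trans (le_csSup hBa hx)
  -- description on (q, q+1)
  have hdesc : ∀ x ∈ G, q < x → x < q + 1 → x ≠ α → x ≠ β → (m x = 1 ↔ α ≤ x ∧ x < β) := by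
    intro x hx hx1 hx2 hxα hxβ
    constructor
    · intro h
      have hxB : x ∈ B := ⟨hx, hx1, hx2, h⟩
      exact ⟨csInf_le hBb hxB, lt_of_le_of_ne (le_csSup hBa hxB) hxβ⟩
    · rintro ⟨h1, h2⟩
      have h1' : α < x := lt_of_le_of_ne h1 (Ne.symm hxα)
      obtain ⟨y, hy, hy'⟩ := exists_lt_of_csInf_lt hBne h1'
      obtain ⟨z, hz, hz'⟩ := exists_lt_of_lt_csSup hBne h2
      exact hconv y hy z hz x hx hy' hz'
  -- length
  have hlen : v = β - α := by
    rw [← hI q, intervalIntegral.integral_of_le (by linarith), integral_Ioc_eq_integral_Ioo]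
    have h1 : ∫ x in Ioo q (q + 1), m x = ∫ x in Ioo q (q + 1), (Ioo α β).indicator (fun _ => (1:ℝ)) x := by
      refine setIntegral_congr_ae measurableSet_Ioo ?_
      have hne : ∀ᵐ x : ℝ, x ≠ α ∧ x ≠ β := by
        have ha : ∀ᵐ x : ℝ, x ≠ α := by
          rw [ae_iff]; simp
        have hb : ∀ᵐ x : ℝ, x ≠ β := by
          rw [ae_iff]; simp
        exact ha.and hb
      filter_upwards [hG, hne] with x hx hxn hxI
      have hd := hdesc x hx hxI.1 hxI.2 hxn.1 hxn.2
      by_cases hc : x ∈ Ioo α β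
      · rw [indicator_of_mem hc]
        exact hd.2 ⟨hc.1.le, hc.2⟩
      · rw [indicator_of_notMem hc]
        rcases hx.2 with h | h
        · exact h
        · exfalso
          have := hd.1 h
          exact hc ⟨lt_of_le_of_ne this.1 (Ne.symm hxn.1), this.2⟩
    rw [h1, setIntegral_indicator measurableSet_Ioo]
    have h2 : Ioo q (q + 1) ∩ Ioo α β = Ioo α β := by
      refine inter_eq_right.2 fun x hx => ⟨lt_of_le_of_lt hqα hx.1, lt_of_lt_of_le hx.2 hβq⟩
    rw [h2]
    simp [hαβ]
  refine ⟨α, ?_⟩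
  -- periodic extension
  refine ae_of_cell_null (fun y => (m y = 1 ↔ ∃ z : ℤ, (z : ℝ) + α ≤ y ∧ y < z + α + v)) ?_ ?_
  · intro x
    rw [S.per_a x]
    have : (∃ z : ℤ, (z : ℝ) + α ≤ x + 1 ∧ x + 1 < z + α + v) ↔
        ∃ z : ℤ, (z : ℝ) + α ≤ x ∧ x < z + α + v := by
      constructor
      · rintro ⟨z, h1, h2⟩
        exact ⟨z - 1, by push_cast; linarith, by push_cast; linarith⟩
      · rintro ⟨z, h1, h2⟩
        exact ⟨z + 1, by push_cast; linarith, by push_cast; linarith⟩
    rw [this]
  · -- a.e. on the cell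
    have hkey : ∀ᵐ y : ℝ, (m y = 1 ↔ ∃ z : ℤ, (z : ℝ) + α ≤ y ∧ y < z + α + v) := by
      -- translate to (q, q+1)
      have hbad : ∀ᵐ y : ℝ, ∀ k : ℤ, (y + k ∈ G) ∧ y + k ≠ α ∧ y + k ≠ β ∧ y + k ≠ q := by
        rw [ae_all_iff]
        intro k
        have t1 : ∀ᵐ y : ℝ, y + k ∈ G := by
          have := (measurePreserving_add_right volume (k : ℝ)).quasiMeasurePreserving.ae hG
          exact this
        have t2 : ∀ c : ℝ, ∀ᵐ y : ℝ, y + k ≠ c := by
          intro c
          rw [ae_iff]
          have : {y : ℝ | ¬ (y + k ≠ c)} = {c - k} := by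
            ext y
            simp only [ne_eq, not_not, mem_singleton_iff]
            show y + k = c ↔ y = c - k
            constructor <;> intro h <;> linarith
          rw [this]; simp
        filter_upwards [t1, t2 α, t2 β, t2 q] with y h1 h2 h3 h4
        exact ⟨h1, h2, h3, h4⟩
      filter_upwards [hbad] with y hy
      -- choose k with y + k in (q, q+1)
      set k : ℤ := -⌊y - q⌋ with hk
      have hf1 := Int.floor_le (y - q)
      have hf2 := Int.lt_floor_add_one (y - q)
      have hyk := hy k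
      have hx1 : q < y + k := by
        have : q ≤ y + k := by rw [hk]; push_cast; linarith
        exact lt_of_le_of_ne this (Ne.symm hyk.2.2.2)
      have hx2 : y + k < q + 1 := by rw [hk]; push_cast; linarith
      have hper : m (y + k) = m y := by
        have := S.per_a.int_mul k y
        simpa using this
      have hd := hdesc (y + k) hyk.1 hx1 hx2 hyk.2.1 hyk.2.2.1
      rw [hper] at hd
      rw [hd]
      constructor
      · rintro ⟨h1, h2⟩
        exact ⟨-k, by push_cast; linarith, by push_cast; rw [hlen]; linarith⟩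
      · rintro ⟨z, h1, h2⟩
        rw [hlen] at h2
        -- z = -k
        have hz : z = -k := by
          have h3 : (z : ℝ) + k < 1 := by
            have : (z:ℝ) + α ≤ y := h1
            have : (z:ℝ) + k + α < q + 1 := by linarith
            linarith
          have h4 : -1 < (z : ℝ) + k := by
            have : y < z + β := by linarith
            have : q < z + k + β := by linarith
            linarith
          have h5 : z + k < 1 := by exact_mod_cast h3
          have h6 : -1 < z + k := by exact_mod_cast h4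
          omega
        rw [hz] at h1 h2
        push_cast at h1 h2
        exact ⟨by linarith, by linarith⟩
    have h0 := ae_iff.1 hkey
    exact measure_mono_null inter_subset_left h0

end Crest.Agent.R214
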