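import Crest.Agent.R214.Rig2

/-!
# Row 214, M7: a periodic indicator function of variation `≤ 2` is the indicator of an arc
-/

set_option autoImplicit false

open MeasureTheory Filter Set
open scoped Topology

namespace Crest.Agent.R214

/-- arc `[α, α + V)` modulo `1` -/
def ArcS (α V : ℝ) : Set ℝ := {t | ∃ m : ℤ, α + m ≤ t ∧ t < α + m + V}

theorem ArcS_add_one (α V t : ℝ) : t + 1 ∈ ArcS α V ↔ t ∈ ArcS α V := by
  constructor
  · rintro ⟨m, h1, h2⟩
    exact ⟨m - 1, by push_cast; linarith, by push_cast; linarith⟩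
  · rintro ⟨m, h1, h2⟩
    exact ⟨m + 1, by push_cast; linarith, by push_cast; linarith⟩

theorem ae_of_periodic_shift {p : ℝ → Prop} (hp : ∀ t, p (t + 1) ↔ p t) (t0 : ℝ)
    (h : ∀ᵐ t : ℝ, t ∈ Ioo t0 (t0 + 1) → p t) : ∀ᵐ t, p t := by
  have hmp : MeasurePreserving (fun t : ℝ => t + t0) volume volume :=
    measurePreserving_add_right volume _
  have h1 : ∀ᵐ t : ℝ, t + t0 ∈ Ioo t0 (t0 + 1) → p (t + t0) := hmp.quasiMeasurePreserving.ae h
  have hne : ∀ᵐ t : ℝ, t ≠ 1 := by rw [ae_iff]; simp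
  have h2 : ∀ᵐ t ∂(volume.restrict (Ioc (0 : ℝ) 1)), p (t + t0) := by
    rw [ae_restrict_iff' measurableSet_Ioc]
    filter_upwards [h1, hne] with t h3 h4 h5
    refine h3 ⟨by linarith [h5.1], ?_⟩
    have : t < 1 := lt_of_le_of_ne h5.2 h4
    linarith
  have h3 : ∀ᵐ t : ℝ, p (t + t0) := ae_of_periodic' (p := fun t => p (t + t0)) (fun t => by
    have : t + 1 + t0 = (t + t0) + 1 := by ring
    simp only [this, hp]) h2
  have hmp2 : MeasurePreserving (fun t : ℝ => t + -t0) volume volume :=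
    measurePreserving_add_right volume _
  have h4 : ∀ᵐ t : ℝ, p (t + -t0 + t0) := hmp2.quasiMeasurePreserving.ae h3
  filter_upwards [h4] with t ht
  simpa using ht

theorem abs_sub_le_var {f : ℝ → ℝ} (hf : ContDiff ℝ 1 f) {x y : ℝ} (h : x ≤ y) :
    |f y - f x| ≤ ∫ t in x..y, |deriv f t| := by
  have hd : ∀ t ∈ uIcc x y, HasDerivAt f (deriv f t) t := fun t _ =>
    (hf.differentiable one_ne_zero t).hasDerivAt
  rw [← intervalIntegral.integral_eq_sub_of_hasDerivAt hd
    ((hf.continuous_deriv le_rfl).intervalIntegrable _ _)]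
  exact intervalIntegral.abs_integral_le_integral_abs h

theorem arc_lemma {f : ℕ → ℝ → ℝ} {a : ℝ → ℝ} (hf : ∀ k, ContDiff ℝ 1 (f k))
    (hfp : ∀ k, Function.Periodic (f k) 1) (hap : Function.Periodic a 1)
    (hconv : ∀ᵐ t, Tendsto (fun k => f k t) atTop (𝓝 (a t)))
    (h01 : ∀ᵐ t, a t = 0 ∨ a t = 1)
    (hvar : ∀ k, ∫ t in (0 : ℝ)..1, |deriv (f k) t| ≤ 2) {V : ℝ}
    (hV : ∫ t in (0 : ℝ)..1, a t = V) (h0 : 0 < V) (h1 : V < 1) :
    ∃ α : ℝ, ∀ᵐ t, a t = (ArcS α V).indicator (fun _ => (1 : ℝ)) t := by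
  classical
  set G : Set ℝ := {t | Tendsto (fun k => f k t) atTop (𝓝 (a t)) ∧ (a t = 0 ∨ a t = 1)} with hG
  have hGae : ∀ᵐ t, t ∈ G := by
    filter_upwards [hconv, h01] with t ht1 ht2
    exact ⟨ht1, ht2⟩
  have hGp : ∀ t, t ∈ G → t + 1 ∈ G := by
    rintro t ⟨ht1, ht2⟩
    refine ⟨?_, by rw [hap t]; exact ht2⟩
    rw [hap t]
    simpa only [hfp _ t] using ht1
  -- integral over any period
  have hVs : ∀ t0 : ℝ, ∫ t in t0..(t0 + 1), a t = V := by
    intro t0
    rw [hap.intervalIntegral_add_eq t0 0, zero_add, hV]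
  -- a point with `a = 0`
  obtain ⟨t0, ht0, ha0⟩ : ∃ t0 ∈ G, a t0 = 0 := by
    by_contra hcon
    push Not at hcon
    have h2 : ∀ᵐ t, a t = 1 := by
      filter_upwards [hGae] with t ht
      exact ht.2.resolve_left (hcon t ht)
    have h3 : ∫ t in (0 : ℝ)..1, a t = ∫ t in (0 : ℝ)..1, (1 : ℝ) := by
      refine intervalIntegral.integral_congr_ae ?_
      filter_upwards [h2] with t ht _
      exact ht
    rw [hV] at h3
    simp at h3
    linarith
  -- no alternation
  have hvar' : ∀ k, ∫ t in t0..(t0 + 1), |deriv (f k) t| ≤ 2 := by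
    intro k
    have hp : Function.Periodic (fun t => |deriv (f k) t|) 1 := by
      intro t
      have h2 : deriv (f k) (t + 1) = deriv (f k) t := by
        have h3 : (fun y => f k (y + 1)) = f k := by funext y; exact hfp k y
        calc deriv (f k) (t + 1) = deriv (fun y => f k (y + 1)) t :=
              (deriv_comp_add_const (f k) 1 t).symm
          _ = deriv (f k) t := by rw [h3]
      simp only [h2]
    rw [hp.intervalIntegral_add_eq t0 0, zero_add]
    exact hvar k
  have hno : ∀ t1 ∈ G, ∀ t2 ∈ G, ∀ t3 ∈ G, t0 < t1 → t1 < t2 → t2 < t3 → t3 < t0 + 1 →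
      a t1 = 1 → a t3 = 1 → a t2 = 1 := by
    intro t1 g1 t2 g2 t3 g3 l1 l2 l3 l4 b1 b3
    refine g2.2.resolve_left fun b2 => ?_
    have hle : ∀ k, |f k t1 - f k t0| + |f k t2 - f k t1| + |f k t3 - f k t2| +
        |f k (t0 + 1) - f k t3| ≤ 2 := by
      intro k
      have hc : Continuous fun t => |deriv (f k) t| := ((hf k).continuous_deriv le_rfl).abs
      have e1 := abs_sub_le_var (hf k) l1.le
      have e2 := abs_sub_le_var (hf k) l2.le
      have e3 := abs_sub_le_var (hf k) l3.le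
      have e4 := abs_sub_le_var (hf k) l4.le
      have hi : ∀ x y : ℝ, IntervalIntegrable (fun t => |deriv (f k) t|) volume x y := fun x y =>
        hc.intervalIntegrable _ _
      have s1 := intervalIntegral.integral_add_adjacent_intervals (hi t0 t1) (hi t1 t2)
      have s2 := intervalIntegral.integral_add_adjacent_intervals (hi t0 t2) (hi t2 t3)
      have s3 := intervalIntegral.integral_add_adjacent_intervals (hi t0 t3) (hi t3 (t0 + 1))
      linarith [hvar' k]
    have hlim := (((g1.1.sub ht0.1).abs.add (g2.1.sub g1.1).abs).add (g3.1.sub g2.1).abs).add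
      ((hGp t0 ht0).1.sub g3.1).abs
    have h2 := le_of_tendsto' hlim hle
    rw [hap t0, ha0, b1, b2, b3] at h2
    norm_num at h2
  -- the arc
  set U : Set ℝ := {t | t ∈ G ∧ t ∈ Ioo t0 (t0 + 1) ∧ a t = 1} with hU
  have hUne : U.Nonempty := by
    by_contra hcon
    rw [not_nonempty_iff_eq_empty] at hcon
    have h3 : ∫ t in t0..(t0 + 1), a t = ∫ t in t0..(t0 + 1), (0 : ℝ) := by
      refine intervalIntegral.integral_congr_ae ?_
      have hne : ∀ᵐ t : ℝ, t ≠ t0 + 1 := by rw [ae_iff]; simp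
      filter_upwards [hGae, hne] with t ht ht2 ht3
      rw [uIoc_of_le (by linarith)] at ht3
      refine ht.2.resolve_right fun h4 => ?_
      have : t ∈ U := ⟨ht, ⟨ht3.1, lt_of_le_of_ne ht3.2 ht2⟩, h4⟩
      rw [hcon] at this
      exact this
    rw [hVs] at h3
    simp at h3
    linarith
  have hUb : BddBelow U := ⟨t0, fun t ht => ht.2.1.1.le⟩
  have hUa : BddAbove U := ⟨t0 + 1, fun t ht => ht.2.1.2.le⟩
  set α := sInf U with hα
  set β := sSup U with hβ
  have hα0 : t0 ≤ α := le_csInf hUne fun t ht => ht.2.1.1.le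
  have hβ1 : β ≤ t0 + 1 := csSup_le hUne fun t ht => ht.2.1.2.le
  have hαβ : α ≤ β := by
    obtain ⟨t, ht⟩ := hUne
    exact (csInf_le hUb ht).trans (le_csSup hUa ht)
  have hind : ∀ᵐ t : ℝ, t ∈ Ioo t0 (t0 + 1) → a t = (Ico α β).indicator (fun _ => (1 : ℝ)) t := by
    have hne1 : ∀ᵐ t : ℝ, t ≠ α := by rw [ae_iff]; simp
    have hne2 : ∀ᵐ t : ℝ, t ≠ β := by rw [ae_iff]; simp
    filter_upwards [hGae, hne1, hne2] with t ht n1 n2 ht2
    by_cases hin : t ∈ Ico α β
    · rw [indicator_of_mem hin]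
      have l1 : α < t := lt_of_le_of_ne hin.1 (Ne.symm n1)
      obtain ⟨t1, hu1, hlt1⟩ := exists_lt_of_csInf_lt hUne l1
      obtain ⟨t3, hu3, hlt3⟩ := exists_lt_of_lt_csSup hUne hin.2
      exact hno t1 hu1.1 t ht t3 hu3.1 hu1.2.1.1 hlt1 hlt3 hu3.2.1.2 hu1.2.2 hu3.2.2
    · rw [indicator_of_notMem hin]
      refine ht.2.resolve_right fun h4 => ?_
      have hu : t ∈ U := ⟨ht, ht2, h4⟩
      exact hin ⟨csInf_le hUb hu, lt_of_le_of_ne (le_csSup hUa hu) n2⟩
  have hlen : β - α = V := by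
    rw [← hVs t0]
    have h3 : ∫ t in t0..(t0 + 1), a t =
        ∫ t in t0..(t0 + 1), (Ico α β).indicator (fun _ => (1 : ℝ)) t := by
      refine intervalIntegral.integral_congr_ae ?_
      have hne : ∀ᵐ t : ℝ, t ≠ t0 + 1 := by rw [ae_iff]; simp
      filter_upwards [hind, hne] with t ht ht2 ht3
      rw [uIoc_of_le (by linarith)] at ht3
      exact ht ⟨ht3.1, lt_of_le_of_ne ht3.2 ht2⟩
    rw [h3, intervalIntegral.integral_of_le (by linarith), integral_indicator measurableSet_Ico,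
      Measure.restrict_restrict measurableSet_Ico, setIntegral_const, smul_eq_mul, mul_one]
    have h4 : (Ico α β ∩ Ioc t0 (t0 + 1) : Set ℝ) =ᵐ[volume] Ico α β := by
      have hne : ∀ᵐ t : ℝ, t ≠ t0 := by rw [ae_iff]; simp
      filter_upwards [hne] with t ht
      refine propext ⟨fun h => h.1, fun h => ⟨h, ?_, ?_⟩⟩
      · exact lt_of_le_of_ne (hα0.trans h.1) (Ne.symm ht)
      · exact (h.2.le.trans hβ1)
    rw [Measure.real, measure_congr h4, Real.volume_Ico, ENNReal.toReal_ofReal (by linarith)]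
  refine ⟨α, ?_⟩
  refine ae_of_periodic_shift (p := fun t => a t = (ArcS α V).indicator (fun _ => (1 : ℝ)) t)
    (fun t => ?_) t0 ?_
  · have h2 : (ArcS α V).indicator (fun _ => (1 : ℝ)) (t + 1) =
        (ArcS α V).indicator (fun _ => (1 : ℝ)) t := by
      unfold indicator
      simp only [ArcS_add_one]
    simp only [hap t, h2]
  · filter_upwards [hind] with t ht ht2
    rw [ht ht2]
    have h2 : t ∈ Ico α β ↔ t ∈ ArcS α V := by
      constructor
      · intro h3
        exact ⟨0, by push_cast; linarith [h3.1], by push_cast; linarith [h3.2]⟩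
      · rintro ⟨m, h3, h4⟩
        have hm : m = 0 := by
          have h5 : (-1 : ℝ) < m := by linarith [ht2.1, hlen]
          have h6 : (m : ℝ) < 1 := by linarith [ht2.2]
          have h7 : -1 < m := by exact_mod_cast h5
          have h8 : m < 1 := by exact_mod_cast h6
          omega
        rw [hm] at h3 h4
        push_cast at h3 h4
        exact ⟨by linarith, by linarith⟩
    unfold indicator
    simp only [h2]

end Crest.Agent.R214
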