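import Crest.Agent.R214.Slab
import Crest.Agent.R214.Sdt

/-!
# Row 214, M7: cylinders and tubes
-/

set_option autoImplicit false

open MeasureTheory Filter Set Crest.GeometryTopology.PeriodicPerimeter
open scoped Topology ENNReal

namespace Crest.Agent.R214

theorem rem_measurable {n : ℕ} (d : Fin (n + 1)) : Measurable (rem d : Ev (n + 1) → Ev n) := by
  have h : (rem d : Ev (n + 1) → Ev n) =
      (WithLp.toLp 2 : (Fin n → ℝ) → Ev n) ∘ fun x : Ev (n + 1) => fun j => x (d.succAbove j) := rfl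
  rw [h]
  refine (PiLp.continuous_toLp 2 _).measurable.comp (measurable_pi_lambda _ fun j => ?_)
  fun_prop

/-- the slices of a cylinder -/
theorem slices_of_cyl {n : ℕ} {E : Set (Ev (n + 1))} {K : Set (Ev n)} {d : Fin (n + 1)}
    (h : volume (symmDiff E {x | rem d x ∈ K}) = 0) :
    ∀ᵐ t : ℝ, volume (symmDiff (slice d E t) K) = 0 := by
  rw [measure_symmDiff_eq_zero_iff] at h
  have h1 : ∀ᵐ x : Ev (n + 1), (x ∈ E ↔ rem d x ∈ K) := by
    filter_upwards [h] with x hx
    exact iff_of_eq hx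
  filter_upwards [ae_ins d h1] with t ht
  rw [measure_symmDiff_eq_zero_iff]
  filter_upwards [ht] with y hy
  rw [rem_ins] at hy
  exact propext hy

/-- cylinders over almost equal sets -/
theorem cyl_congr {n : ℕ} {K K' : Set (Ev n)} (hK : MeasurableSet K) (hK' : MeasurableSet K')
    (d : Fin (n + 1)) (h : volume (symmDiff K K') = 0) :
    volume (symmDiff {x : Ev (n + 1) | rem d x ∈ K} {x | rem d x ∈ K'}) = 0 := by
  rw [measure_symmDiff_eq_zero_iff] at h
  have h1 : ∀ᵐ y : Ev n, (y ∈ K ↔ y ∈ K') := by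
    filter_upwards [h] with x hx
    exact iff_of_eq hx
  have hall : ∀ᵐ x : Ev (n + 1), (rem d x ∈ K ↔ rem d x ∈ K') := by
    refine ae_of_ins d (MeasurableSet.iff (rem_measurable d hK) (rem_measurable d hK')) ?_
    refine Eventually.of_forall fun t => ?_
    filter_upwards [h1] with y hy
    rw [rem_ins]
    exact hy
  rw [measure_symmDiff_eq_zero_iff]
  filter_upwards [hall] with x hx
  exact propext hx

/-- transitivity of almost equality -/
theorem symmDiff_null_trans {n : ℕ} {A B C : Set (Ev n)} (h1 : volume (symmDiff A B) = 0)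
    (h2 : volume (symmDiff B C) = 0) : volume (symmDiff A C) = 0 := by
  rw [measure_symmDiff_eq_zero_iff] at *
  exact h1.trans h2

/-- the perimeter of the base of a cylinder -/
theorem perim_cyl {n : ℕ} {E : Set (Ev (n + 1))} (hE : MeasurableSet E)
    (hp : IsLatticePeriodic E) {K : Set (Ev n)} {d : Fin (n + 1)}
    (h : volume (symmDiff E {x | rem d x ∈ K}) = 0) :
    periodicPerimeter K ≤ periodicPerimeter E := by
  by_cases hfin : periodicPerimeter E = ∞
  · rw [hfin]; exact le_top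
  obtain ⟨u, M⟩ := exists_moll hE hp
  have hsl := slices_of_cyl h
  have hlow := M.Tm_lower hE d
  by_contra hcon
  push Not at hcon
  obtain ⟨s, hs1, hs2⟩ : ∃ s : ℝ, (periodicPerimeter E).toReal < s ∧
      ENNReal.ofReal s ≤ periodicPerimeter K := by
    obtain ⟨q, hq1, hq2⟩ := ENNReal.lt_iff_exists_nnreal_btwn.1 hcon
    refine ⟨q, ?_, ?_⟩
    · apply ENNReal.toReal_lt_of_lt_ofReal
      rw [ENNReal.ofReal_coe_nnreal]
      exact hq1
    · rw [ENNReal.ofReal_coe_nnreal]
      exact hq2.le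
  have hspos : 0 < s := lt_of_le_of_lt ENNReal.toReal_nonneg hs1
  have hu : ∀ k, ContDiff ℝ 1 (u k) := fun k => M.smooth k 1
  have h1 := Tm_liminf (d := d) hu (P := s) (by
    filter_upwards [hlow, hsl] with t ht1 ht2 s' hs'
    apply ht1
    rw [(perim_congr_null ht2).1]
    exact ((ENNReal.ofReal_lt_ofReal_iff hspos).2 hs').trans_le hs2)
    ((s - (periodicPerimeter E).toReal) / 2) (by linarith)
  obtain ⟨k, hk⟩ := h1.exists
  have h2 := energy_pair (hu k) d
  have h3 := M.energy hfin k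
  have hA0 : 0 ≤ ∫ t in (0 : ℝ)..1, Tm d (u k) t :=
    intervalIntegral.integral_nonneg zero_le_one fun t _ => Tm_nonneg d _ t
  have hT0 : 0 ≤ ∫ x in unitCell (n + 1), ‖gr (u k) x‖ := integral_nonneg fun x => norm_nonneg _
  have h4 : (∫ t in (0 : ℝ)..1, Tm d (u k) t) ≤ ∫ x in unitCell (n + 1), ‖gr (u k) x‖ := by
    apply le_of_sq_le_sq_aux _ hT0
    have := sq_nonneg (∫ x in unitCell (n + 1), |gr (u k) x d|)
    linarith
  linarith

/-- volume of the base -/
theorem volume_cyl {n : ℕ} {E : Set (Ev (n + 1))} (hE : MeasurableSet E)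
    {K : Set (Ev n)} {d : Fin (n + 1)}
    (h : volume (symmDiff E {x | rem d x ∈ K}) = 0) : periodicVolume K = periodicVolume E := by
  rw [← integral_sl (d := d) hE]
  have h1 : ∫ t in (0 : ℝ)..1, sl d E t = ∫ _ in (0 : ℝ)..1, periodicVolume K := by
    refine intervalIntegral.integral_congr_ae ?_
    filter_upwards [slices_of_cyl h] with t ht _
    exact (perim_congr_null ht).2
  rw [h1]
  simp

theorem periodicTube_eq {r : ℝ} (hr : 0 ≤ r) :
    periodicTube r = {x | dZ (x 0) ^ 2 + dZ (x 1) ^ 2 < r ^ 2} := by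
  have _ := hr
  ext x
  constructor
  · rintro ⟨a, b, h⟩
    show dZ (x 0) ^ 2 + dZ (x 1) ^ 2 < r ^ 2
    refine lt_of_le_of_lt (add_le_add ?_ ?_) h
    · rw [← sq_abs (x 0 - a)]
      exact pow_le_pow_left₀ (dZ_nonneg _) (dZ_le _ _) 2
    · rw [← sq_abs (x 1 - b)]
      exact pow_le_pow_left₀ (dZ_nonneg _) (dZ_le _ _) 2
  · intro h
    refine ⟨round (x 0), round (x 1), ?_⟩
    have h' : dZ (x 0) ^ 2 + dZ (x 1) ^ 2 < r ^ 2 := h
    unfold dZ at h'
    rw [sq_abs, sq_abs] at h'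
    exact h'

theorem exists_perm3 : ∀ d : Fin 3, ∃ σ : Equiv.Perm (Fin 3),
    σ (d.succAbove 0) = 0 ∧ σ (d.succAbove 1) = 1 := by decide

/-- tube conclusion -/
theorem congruent_tube {E : Set (Ev 3)} {K : Set (Ev 2)} (hK : MeasurableSet K) {d : Fin 3}
    {c : Fin 2 → ℝ} {r : ℝ} (hr : 0 ≤ r)
    (h : volume (symmDiff E {x | rem d x ∈ K}) = 0)
    (h2 : volume (symmDiff K (pball c (r ^ 2))) = 0) : CongruentModNull E (periodicTube r) := by
  obtain ⟨σ, h0, h1⟩ := exists_perm3 d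
  have hE := symmDiff_null_trans h (cyl_congr hK (pball_measurable c _) d h2)
  set cc : Ev 3 := ins d 0 (WithLp.toLp 2 c) with hcc
  refine ⟨fun x => WithLp.toLp 2 fun i => 1 * x (σ i) + cc i,
    ⟨σ, fun _ => 1, cc, fun _ => Or.inl rfl, fun x i => rfl⟩, ?_⟩
  have himg : (fun x : Ev 3 => (WithLp.toLp 2 fun i => 1 * x (σ i) + cc i : Ev 3)) ''
      periodicTube r = {x | rem d x ∈ pball c (r ^ 2)} := by
    have hsum : ∀ x : Ev 3, rem d x ∈ pball c (r ^ 2) ↔
        dZ (x (d.succAbove 0) - c 0) ^ 2 + dZ (x (d.succAbove 1) - c 1) ^ 2 < r ^ 2 := by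
      intro x
      show ∑ i, dZ ((rem d x) i - c i) ^ 2 < r ^ 2 ↔ _
      rw [Fin.sum_univ_two]
      rfl
    have hc0 : cc (d.succAbove 0) = c 0 := by rw [hcc, ins_succAbove]
    have hc1 : cc (d.succAbove 1) = c 1 := by rw [hcc, ins_succAbove]
    rw [periodicTube_eq hr]
    ext x
    constructor
    · rintro ⟨y, hy, rfl⟩
      have hy' : dZ (y 0) ^ 2 + dZ (y 1) ^ 2 < r ^ 2 := hy
      refine (hsum _).2 ?_
      show dZ (1 * y (σ (d.succAbove 0)) + cc (d.succAbove 0) - c 0) ^ 2 +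
        dZ (1 * y (σ (d.succAbove 1)) + cc (d.succAbove 1) - c 1) ^ 2 < r ^ 2
      rw [h0, h1, hc0, hc1, one_mul, one_mul, add_sub_cancel_right, add_sub_cancel_right]
      exact hy'
    · intro hx
      have hx := (hsum x).1 hx
      refine ⟨WithLp.toLp 2 fun i => x (σ.symm i) - cc (σ.symm i), ?_, ?_⟩
      · show dZ (x (σ.symm 0) - cc (σ.symm 0)) ^ 2 + dZ (x (σ.symm 1) - cc (σ.symm 1)) ^ 2 < r ^ 2
        rw [← h0, ← h1, Equiv.symm_apply_apply, Equiv.symm_apply_apply, hc0, hc1]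
        exact hx
      · ext i
        show 1 * (x (σ.symm (σ i)) - cc (σ.symm (σ i))) + cc i = x i
        rw [Equiv.symm_apply_apply]
        ring
  rw [himg]
  exact hE

end Crest.Agent.R214
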