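import Crest.Agent.R214.StE2
import Crest.Agent.R214.Tube

/-!
# Row 214, M7: going back from the Steiner symmetral to the set
-/

set_option autoImplicit false

open MeasureTheory Filter Set Crest.GeometryTopology.PeriodicPerimeter
open scoped Topology ENNReal

namespace Crest.Agent.R214

variable {n : ℕ}

theorem exists_ae_Ioo {p : ℝ → Prop} (h : ∀ᵐ t, p t) {a b : ℝ} (hab : a < b) :
    ∃ t ∈ Ioo a b, p t := by
  by_contra hcon
  push Not at hcon
  have h1 : volume (Ioo a b) = 0 := measure_mono_null (fun t ht => hcon t ht) (ae_iff.1 h)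
  rw [Real.volume_Ioo] at h1
  simp at h1
  linarith

/-- fibre length -/
noncomputable def fl (d : Fin (n + 1)) (E : Set (Ev (n + 1))) (y : Ev n) : ℝ :=
  (volume.restrict (Ioc (0 : ℝ) 1) {t | ins d t y ∈ E}).toReal

theorem fl_measurable (d : Fin (n + 1)) {E : Set (Ev (n + 1))} (hE : MeasurableSet E) :
    Measurable (fl d E) := by
  have h2 : MeasurableSet {p : Ev n × ℝ | ins d p.2 p.1 ∈ E} :=
    ((ins_measurable d).comp measurable_swap) hE
  have h1 : Measurable fun y : Ev n => (volume.restrict (Ioc (0 : ℝ) 1)) {t | ins d t y ∈ E} :=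
    measurable_measure_prodMk_left h2
  exact h1.ennreal_toReal

theorem fl_nonneg (d : Fin (n + 1)) (E : Set (Ev (n + 1))) (y : Ev n) : 0 ≤ fl d E y :=
  ENNReal.toReal_nonneg

theorem fl_mass_le (d : Fin (n + 1)) (E : Set (Ev (n + 1))) (y : Ev n) :
    volume.restrict (Ioc (0 : ℝ) 1) {t | ins d t y ∈ E} ≤ 1 := by
  refine (measure_mono (subset_univ _)).trans ?_
  simp

theorem fl_le_one (d : Fin (n + 1)) (E : Set (Ev (n + 1))) (y : Ev n) : fl d E y ≤ 1 := by
  unfold fl
  rw [← ENNReal.toReal_one]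
  exact ENNReal.toReal_mono ENNReal.one_ne_top (fl_mass_le d E y)

theorem fl_per (d : Fin (n + 1)) {E : Set (Ev (n + 1))} (hp : IsLatticePeriodic E) :
    IsPer (fl d E) := by
  intro v hv y
  unfold fl
  have h1 : {t : ℝ | ins d t (y + v) ∈ E} = {t | ins d t y ∈ E} := by
    ext t
    show ins d t (y + v) ∈ E ↔ ins d t y ∈ E
    rw [ins_add_int, hp _ (ins_zero_int d hv)]
  rw [h1]

theorem fib_per' (d : Fin (n + 1)) {E : Set (Ev (n + 1))} (hp : IsLatticePeriodic E) (y : Ev n)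
    (t : ℝ) : ins d (t + 1) y ∈ E ↔ ins d t y ∈ E := by
  rw [ins_add_left, hp _ (ins_one_int d)]

theorem fib_meas (d : Fin (n + 1)) {E : Set (Ev (n + 1))} (hE : MeasurableSet E) (y : Ev n) :
    MeasurableSet {t : ℝ | ins d t y ∈ E} :=
  ((ins_measurable d).comp (measurable_id.prodMk measurable_const)) hE

/-- empty fibres -/
theorem fib_null (d : Fin (n + 1)) {E : Set (Ev (n + 1))} (hE : MeasurableSet E)
    (hp : IsLatticePeriodic E) {y : Ev n} (h : fl d E y = 0) : ∀ᵐ t : ℝ, ins d t y ∉ E := by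
  refine ae_of_periodic' (p := fun t => ins d t y ∉ E) (fun t => not_congr (fib_per' d hp y t)) ?_
  have _ := hE
  have h1 : volume.restrict (Ioc (0 : ℝ) 1) {t | ins d t y ∈ E} = 0 := by
    rcases (ENNReal.toReal_eq_zero_iff _).1 h with h2 | h2
    · exact h2
    · exact absurd ((fl_mass_le d E y).trans_lt ENNReal.one_lt_top) (not_lt.2 h2.ge)
  exact measure_eq_zero_iff_ae_notMem.1 h1

/-- full fibres -/
theorem fib_full (d : Fin (n + 1)) {E : Set (Ev (n + 1))} (hE : MeasurableSet E)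
    (hp : IsLatticePeriodic E) {y : Ev n} (h : fl d E y = 1) : ∀ᵐ t : ℝ, ins d t y ∈ E := by
  refine ae_of_periodic' (p := fun t => ins d t y ∈ E) (fib_per' d hp y) ?_
  have h1 : volume.restrict (Ioc (0 : ℝ) 1) {t | ins d t y ∈ E} = 1 := by
    have h2 : fl d E y = (1 : ℝ≥0∞).toReal := by rw [h]; simp
    exact (ENNReal.toReal_eq_toReal_iff' ((fl_mass_le d E y).trans_lt ENNReal.one_lt_top).ne
      ENNReal.one_ne_top).1 h2
  rw [ae_iff]
  have h3 : {t : ℝ | ¬ ins d t y ∈ E} = {t | ins d t y ∈ E}ᶜ := rfl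
  rw [h3, measure_compl (fib_meas d hE y) (by rw [h1]; exact ENNReal.one_ne_top), h1]
  simp

/-- distribution function -/
noncomputable def gd (lam : Ev n → ℝ) (s : ℝ) : ℝ := periodicVolume {y : Ev n | s < lam y}

theorem cell_ne_top (A : Set (Ev n)) : volume (A ∩ unitCell n) ≠ ∞ :=
  ((measure_mono inter_subset_right).trans_lt (cell_finite n)).ne

theorem gd_anti (lam : Ev n → ℝ) : Antitone (gd lam) := by
  intro s s' h
  refine ENNReal.toReal_mono (cell_ne_top _) (measure_mono (inter_subset_inter_left _ ?_))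
  intro y hy
  exact lt_of_le_of_lt h hy

theorem sl_Sg (d : Fin (n + 1)) (lam : Ev n → ℝ) (t : ℝ) :
    sl d (StE.Sg d lam) t = gd lam (2 * dZ t) := by
  unfold sl gd
  congr 1
  ext y
  show ins d t y ∈ StE.Sg d lam ↔ 2 * dZ t < lam y
  unfold StE.Sg
  rw [Set.mem_ofPred_eq, StE.rem_ins, ins_same]
  constructor
  · rintro ⟨m, hm⟩
    have := dZ_le t m
    linarith
  · intro h
    exact ⟨round t, h⟩

theorem two_dZ {t : ℝ} (h0 : 0 ≤ t) (h1 : t ≤ 1 / 2) : 2 * dZ t = 2 * t := by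
  rw [dZ_eq_abs (by rw [abs_of_nonneg h0]; exact h1), abs_of_nonneg h0]

/-- constant profile of the symmetral -/
theorem gd_const {lam : Ev n → ℝ} {V : ℝ} (h : ∀ᵐ t : ℝ, gd lam (2 * dZ t) = V) {s : ℝ}
    (h0 : 0 < s) (h1 : s < 1) : gd lam s = V := by
  obtain ⟨t1, ht1, e1⟩ := exists_ae_Ioo h (show (0 : ℝ) < s / 2 by linarith)
  obtain ⟨t2, ht2, e2⟩ := exists_ae_Ioo h (show s / 2 < 1 / 2 by linarith)
  rw [two_dZ ht1.1.le (by linarith [ht1.2])] at e1
  rw [two_dZ (by linarith [ht2.1]) ht2.2.le] at e2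
  have a1 := gd_anti lam (show 2 * t1 ≤ s by linarith [ht1.2])
  have a2 := gd_anti lam (show s ≤ 2 * t2 by linarith [ht2.1])
  linarith

/-- the symmetral is a cylinder: fibres are empty or full -/
theorem lam_zero_one {lam : Ev n → ℝ} (hm : Measurable lam) (hper : IsPer lam)
    (h01 : ∀ y, 0 ≤ lam y ∧ lam y ≤ 1) {V : ℝ} (h : ∀ᵐ t : ℝ, gd lam (2 * dZ t) = V) :
    ∀ᵐ y : Ev n, lam y = 0 ∨ lam y = 1 := by
  refine ae_of_cell (fun v hv y => by rw [hper v hv y]) ?_
  rw [ae_restrict_iff' (measurableSet_cell n), ae_iff]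
  have hcov : {y : Ev n | ¬ (y ∈ unitCell n → lam y = 0 ∨ lam y = 1)} ⊆
      ⋃ k : ℕ, ({y | 1 / ((k : ℝ) + 3) < lam y} ∩ unitCell n) \
        ({y | 1 - 1 / ((k : ℝ) + 3) < lam y} ∩ unitCell n) := by
    intro y hy
    have hy' : y ∈ unitCell n ∧ ¬ (lam y = 0 ∨ lam y = 1) := by
      have h2 : ¬ (y ∈ unitCell n → lam y = 0 ∨ lam y = 1) := hy
      exact Classical.not_imp.1 h2
    obtain ⟨hc, h2⟩ := hy'
    push Not at h2
    have hl0 : 0 < lam y := lt_of_le_of_ne (h01 y).1 (Ne.symm h2.1)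
    have hl1 : lam y < 1 := lt_of_le_of_ne (h01 y).2 h2.2
    obtain ⟨k, hk⟩ := exists_nat_one_div_lt (lt_min hl0 (sub_pos.2 hl1))
    have hk3 : 1 / ((k : ℝ) + 3) < min (lam y) (1 - lam y) := by
      refine lt_of_le_of_lt ?_ hk
      apply one_div_le_one_div_of_le (by positivity)
      linarith
    rw [mem_iUnion]
    refine ⟨k, ⟨(hk3.trans_le (min_le_left _ _)), hc⟩, fun h3 => ?_⟩
    have h4 : 1 - 1 / ((k : ℝ) + 3) < lam y := h3.1
    have h5 := hk3.trans_le (min_le_right _ _)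
    linarith
  refine measure_mono_null hcov (measure_iUnion_null fun k => ?_)
  have hk0 : 0 < 1 / ((k : ℝ) + 3) := by positivity
  have hk1 : 1 / ((k : ℝ) + 3) ≤ 1 / 3 := by
    apply one_div_le_one_div_of_le (by norm_num)
    have : (0 : ℝ) ≤ k := Nat.cast_nonneg k
    linarith
  have e1 := gd_const h hk0 (by linarith)
  have e2 := gd_const h (show 0 < 1 - 1 / ((k : ℝ) + 3) by linarith) (by linarith)
  have hsub : ({y | 1 - 1 / ((k : ℝ) + 3) < lam y} ∩ unitCell n : Set (Ev n)) ⊆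
      {y | 1 / ((k : ℝ) + 3) < lam y} ∩ unitCell n := by
    intro y hy
    refine ⟨?_, hy.2⟩
    have h3 : 1 - 1 / ((k : ℝ) + 3) < lam y := hy.1
    show 1 / ((k : ℝ) + 3) < lam y
    linarith
  have hms : MeasurableSet ({y | 1 - 1 / ((k : ℝ) + 3) < lam y} ∩ unitCell n : Set (Ev n)) :=
    (measurableSet_lt measurable_const hm).inter (measurableSet_cell n)
  rw [measure_sdiff hsub hms.nullMeasurableSet (cell_ne_top _)]
  have e3 : volume ({y | 1 / ((k : ℝ) + 3) < lam y} ∩ unitCell n : Set (Ev n)) =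
      volume ({y | 1 - 1 / ((k : ℝ) + 3) < lam y} ∩ unitCell n : Set (Ev n)) := by
    rw [← ENNReal.toReal_eq_toReal_iff' (cell_ne_top _) (cell_ne_top _)]
    exact e1.trans e2.symm
  rw [e3, tsub_self]

/-- from fibres to slices -/
theorem slices_of_fibres (d : Fin (n + 1)) {E : Set (Ev (n + 1))} (hE : MeasurableSet E)
    {K : Set (Ev n)} (hK : MeasurableSet K)
    (h : ∀ᵐ y : Ev n, ∀ᵐ t : ℝ, (ins d t y ∈ E ↔ y ∈ K)) :
    ∀ᵐ t : ℝ, ∀ᵐ y : Ev n, (ins d t y ∈ E ↔ y ∈ K) := by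
  have hm : MeasurableSet {p : Ev n × ℝ | (ins d p.2 p.1 ∈ E ↔ p.1 ∈ K)} :=
    MeasurableSet.iff (((ins_measurable d).comp measurable_swap) hE) (measurable_fst hK)
  exact (Measure.ae_ae_comm hm).1 h

/-- **(B1)** -/
theorem back_const (d : Fin (n + 1)) {E : Set (Ev (n + 1))} (hE : MeasurableSet E)
    (hp : IsLatticePeriodic E) {V : ℝ} (h : ∀ᵐ t : ℝ, sl d (StE.Sg d (fl d E)) t = V) :
    ∀ᵐ t : ℝ, sl d E t = V := by
  simp_rw [sl_Sg] at h
  have h1 := lam_zero_one (fl_measurable d hE) (fl_per d hp)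
    (fun y => ⟨fl_nonneg d E y, fl_le_one d E y⟩) h
  have hK : MeasurableSet {y : Ev n | 1 / 2 < fl d E y} :=
    measurableSet_lt measurable_const (fl_measurable d hE)
  have h2 := slices_of_fibres d hE hK (by
    filter_upwards [h1] with y hy
    rcases hy with hy | hy
    · filter_upwards [fib_null d hE hp hy] with t ht
      refine ⟨fun h3 => absurd h3 ht, fun h3 => ?_⟩
      have h4 : 1 / 2 < fl d E y := h3
      rw [hy] at h4
      norm_num at h4
    · filter_upwards [fib_full d hE hp hy] with t ht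
      refine ⟨fun _ => ?_, fun _ => ht⟩
      show 1 / 2 < fl d E y
      rw [hy]
      norm_num)
  filter_upwards [h2] with t ht
  have h3 : periodicVolume (slice d E t) = gd (fl d E) (1 / 2) := by
    unfold gd periodicVolume
    congr 1
    apply measure_congr
    filter_upwards [ht] with y hy
    exact propext (and_congr_left fun _ => hy)
  show periodicVolume (slice d E t) = V
  rw [h3]
  exact gd_const h (by norm_num) (by norm_num)

/-- **(B2)** -/
theorem back_le (d : Fin (n + 1)) {E : Set (Ev (n + 1))} (hE : MeasurableSet E)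
    (hp : IsLatticePeriodic E) {A : ℝ} (h : ∀ᵐ t : ℝ, sl d (StE.Sg d (fl d E)) t ≤ A) :
    ∀ᵐ t : ℝ, sl d E t ≤ A := by
  simp_rw [sl_Sg] at h
  have hm := fl_measurable d hE
  -- `gd 0 ≤ A`
  have h1 : ∀ s > 0, gd (fl d E) s ≤ A := by
    intro s hs
    obtain ⟨t1, ht1, e1⟩ := exists_ae_Ioo h (show (0 : ℝ) < min (s / 2) (1 / 2) from
      lt_min (by linarith) (by norm_num))
    rw [two_dZ ht1.1.le (ht1.2.le.trans (min_le_right _ _))] at e1
    have := ht1.2.trans_le (min_le_left _ _)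
    exact (gd_anti _ (show 2 * t1 ≤ s by linarith)).trans e1
  have h0 : gd (fl d E) 0 ≤ A := by
    have hmono : Monotone fun k : ℕ => ({y : Ev n | 1 / ((k : ℝ) + 1) < fl d E y} ∩ unitCell n) := by
      intro k l hkl
      refine inter_subset_inter_left _ fun y hy => ?_
      have hkl' : (k : ℝ) ≤ l := by exact_mod_cast hkl
      have hk0 : (0 : ℝ) ≤ k := Nat.cast_nonneg k
      have hy' : 1 / ((k : ℝ) + 1) < fl d E y := hy
      have h5 : 1 / ((l : ℝ) + 1) ≤ 1 / ((k : ℝ) + 1) :=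
        one_div_le_one_div_of_le (by linarith) (by linarith)
      exact lt_of_le_of_lt h5 hy'
    have hun : (⋃ k : ℕ, ({y : Ev n | 1 / ((k : ℝ) + 1) < fl d E y} ∩ unitCell n)) =
        {y | 0 < fl d E y} ∩ unitCell n := by
      ext y
      rw [mem_iUnion]
      constructor
      · rintro ⟨k, hk, hc⟩
        have hk' : 1 / ((k : ℝ) + 1) < fl d E y := hk
        have hk0 : (0 : ℝ) < 1 / ((k : ℝ) + 1) := by positivity
        exact ⟨hk0.trans hk', hc⟩
      · rintro ⟨hy, hc⟩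
        have hy' : 0 < fl d E y := hy
        obtain ⟨k, hk⟩ := exists_nat_one_div_lt hy'
        exact ⟨k, hk, hc⟩
    have ht := tendsto_measure_iUnion_atTop (μ := (volume : Measure (Ev n))) hmono
    rw [hun] at ht
    have ht2 := (ENNReal.tendsto_toReal (cell_ne_top _)).comp ht
    exact le_of_tendsto' ht2 fun k => h1 _ (by positivity)
  have hK : MeasurableSet {y : Ev n | 0 < fl d E y} := measurableSet_lt measurable_const hm
  have hm2 : MeasurableSet {p : Ev n × ℝ | (ins d p.2 p.1 ∈ E → 0 < fl d E p.1)} := by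
    have a1 : MeasurableSet {p : Ev n × ℝ | ins d p.2 p.1 ∈ E} :=
      ((ins_measurable d).comp measurable_swap) hE
    have a2 : MeasurableSet {p : Ev n × ℝ | 0 < fl d E p.1} := measurable_fst hK
    exact a1.imp a2
  have h2 : ∀ᵐ t : ℝ, ∀ᵐ y : Ev n, (ins d t y ∈ E → 0 < fl d E y) := by
    refine (Measure.ae_ae_comm hm2).1 (Eventually.of_forall fun y => ?_)
    rcases eq_or_lt_of_le (fl_nonneg d E y) with hy | hy
    · filter_upwards [fib_null d hE hp hy.symm] with t ht h3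
      exact absurd h3 ht
    · exact Eventually.of_forall fun t _ => hy
  filter_upwards [h2] with t ht
  refine le_trans ?_ h0
  refine ENNReal.toReal_mono (cell_ne_top _) (measure_mono_ae ?_)
  filter_upwards [ht] with y hy h3
  exact ⟨hy h3.1, h3.2⟩

/-- **(B3)**: slabs have constant profile in the other directions -/
theorem slab_other {E : Set (Ev (n + 1))} (hE : MeasurableSet E) {d e : Fin (n + 1)} (hed : e ≠ d)
    {α V : ℝ} (h : volume (symmDiff E {x | x d ∈ ArcS α V}) = 0) :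
    ∀ᵐ t : ℝ, sl e E t = periodicVolume E := by
  obtain ⟨j, hj⟩ : ∃ j, e.succAbove j = d := Fin.exists_succAbove_eq hed.symm
  have h1 : volume (symmDiff E {x | rem e x ∈ {y : Ev n | y j ∈ ArcS α V}}) = 0 := by
    have h2 : {x : Ev (n + 1) | rem e x ∈ {y : Ev n | y j ∈ ArcS α V}} = {x | x d ∈ ArcS α V} := by
      ext x
      show x (e.succAbove j) ∈ ArcS α V ↔ x d ∈ ArcS α V
      rw [hj]
    rw [h2]
    exact h
  filter_upwards [slices_of_cyl h1] with t ht
  rw [← volume_cyl hE h1]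
  exact (perim_congr_null ht).2

end Crest.Agent.R214
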