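import Crest.Agent.R214.Prof2
import Crest.Agent.R214.SD

/-!
# Row 214, M7: rigidity of the profile in the equality case (ball / disc)
-/

set_option autoImplicit false

open MeasureTheory Filter Set
open scoped Topology

namespace Crest.Agent.R214

/-- distance to the integers -/
noncomputable def dZ (t : ℝ) : ℝ := |t - round t|

theorem dZ_nonneg (t : ℝ) : 0 ≤ dZ t := abs_nonneg _

theorem dZ_le (t : ℝ) (m : ℤ) : dZ t ≤ |t - m| := round_le t m

theorem dZ_le_half (t : ℝ) : dZ t ≤ 1 / 2 := abs_sub_round t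

theorem dZ_lip (x y : ℝ) : dZ x ≤ dZ y + |x - y| := by
  have h := dZ_le x (round y)
  have h2 : |x - round y| ≤ |x - y| + |y - round y| := by
    have := abs_add_le (x - y) (y - round y)
    simpa using this
  unfold dZ at *
  linarith

theorem dZ_continuous : Continuous dZ := by
  refine continuous_iff_continuousAt.2 fun x => ?_
  rw [Metric.continuousAt_iff]
  intro ε hε
  refine ⟨ε, hε, fun {y} hy => ?_⟩
  rw [Real.dist_eq] at hy ⊢
  rw [abs_lt]
  have h1 := dZ_lip x y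
  have h2 := dZ_lip y x
  rw [abs_sub_comm] at h1
  constructor <;> linarith

theorem dZ_per : Function.Periodic dZ 1 := by
  intro t
  unfold dZ
  have h : round (t + 1) = round t + 1 := by
    exact_mod_cast round_add_one t
  rw [h]
  push_cast
  congr 1
  ring

theorem dZ_eq_abs {t : ℝ} (h : |t| ≤ 1 / 2) : dZ t = |t| := by
  apply le_antisymm
  · simpa using dZ_le t 0
  · unfold dZ
    by_cases h0 : round t = 0
    · rw [h0]; simp
    · have h1 : (1 : ℝ) ≤ |(round t : ℝ)| := by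
        have := Int.one_le_abs h0
        exact_mod_cast this
      have h2 := abs_sub_abs_le_abs_sub (round t : ℝ) t
      rw [abs_sub_comm] at h2
      linarith

theorem le_dZ {u x : ℝ} (h1 : u ≤ |x|) (h2 : u ≤ 1 - |x|) : u ≤ dZ x := by
  unfold dZ
  by_cases h0 : round x = 0
  · rw [h0]; simpa using h1
  · have h3 : (1 : ℝ) ≤ |(round x : ℝ)| := by
      have := Int.one_le_abs h0
      exact_mod_cast this
    have h4 := abs_sub_abs_le_abs_sub (round x : ℝ) x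
    rw [abs_sub_comm] at h4
    linarith

/-- circle lemma -/
theorem circle_lemma {S : ℝ → ℝ} {G : Set ℝ} (hG : G ⊆ Icc 0 1)
    (hLip : ∀ z₁ ∈ G, ∀ z₂ ∈ G, z₁ ≤ z₂ → |S z₂ - S z₁| ≤ z₂ - z₁ ∧
      |S z₂ - S z₁| ≤ 1 - (z₂ - z₁))
    (hinf : ∀ η > 0, ∃ z ∈ G, S z < η) :
    ∃ t0 : ℝ, ∀ z ∈ G, S z ≤ dZ (z - t0) := by
  have hL : ∀ z₁ ∈ G, ∀ z₂ ∈ G, |S z₂ - S z₁| ≤ dZ (z₂ - z₁) := by
    intro z₁ h₁ z₂ h₂
    rcases le_total z₁ z₂ with h | h
    · have := hLip z₁ h₁ z₂ h₂ h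
      have h3 : |z₂ - z₁| = z₂ - z₁ := abs_of_nonneg (by linarith)
      exact le_dZ (by rw [h3]; exact this.1) (by rw [h3]; exact this.2)
    · have := hLip z₂ h₂ z₁ h₁ h
      rw [abs_sub_comm] at this
      have h3 : |z₂ - z₁| = z₁ - z₂ := by rw [abs_sub_comm]; exact abs_of_nonneg (by linarith)
      exact le_dZ (by rw [h3]; exact this.1) (by rw [h3]; exact this.2)
  choose z hzG hzS using fun n : ℕ => hinf (1 / ((n : ℝ) + 1)) (by positivity)
  obtain ⟨t0, -, φ, hφ, hlim⟩ := isCompact_Icc.tendsto_subseq fun n => hG (hzG n)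
  refine ⟨t0, fun x hx => ?_⟩
  have h1 : ∀ n, S x ≤ 1 / (((φ n : ℕ) : ℝ) + 1) + (dZ (x - t0) + |z (φ n) - t0|) := by
    intro n
    have h2 := hL (z (φ n)) (hzG _) x hx
    have h3 := le_abs_self (S x - S (z (φ n)))
    have h4 := dZ_lip (x - z (φ n)) (x - t0)
    have h5 : |x - z (φ n) - (x - t0)| = |z (φ n) - t0| := by
      rw [abs_sub_comm (z (φ n))]
      congr 1
      ring
    rw [h5] at h4
    have h6 := hzS (φ n)
    linarith
  have h2 : Tendsto (fun n => 1 / (((φ n : ℕ) : ℝ) + 1) + (dZ (x - t0) + |z (φ n) - t0|)) atTop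
      (𝓝 (0 + (dZ (x - t0) + |t0 - t0|))) := by
    refine Tendsto.add ?_ (tendsto_const_nhds.add ?_)
    · exact tendsto_one_div_add_atTop_nhds_zero_nat.comp hφ.tendsto_atTop
    · exact (hlim.sub_const t0).abs
  have h3 := ge_of_tendsto' h2 h1
  simpa using h3

/-- limits of primitives -/
theorem prim_lim {A : ℝ} {s w0 : ℝ → ℝ} (w : ℕ → ℝ → ℝ) (hwc : ∀ n, Continuous (w n))
    (hs : ContinuousOn s (Icc 0 A)) (hd : ∀ α ∈ Ioo 0 A, HasDerivAt s (-w0 α) α)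
    (h0 : ∀ α ∈ Ioo 0 A, 0 ≤ w0 α)
    (hw : ∀ n, ∀ α ∈ Ioo 0 A, 0 ≤ w n α ∧ w n α ≤ w0 α)
    (hl : ∀ α ∈ Ioo 0 A, Tendsto (fun n => w n α) atTop (𝓝 (w0 α))) {α : ℝ}
    (hα : α ∈ Icc 0 A) :
    Tendsto (fun n => prim (w n) α) atTop (𝓝 (s 0 - s α)) := by
  have hsub : Ioo 0 α ⊆ Ioo 0 A := Ioo_subset_Ioo le_rfl hα.2
  have hsub2 : Icc 0 α ⊆ Icc 0 A := Icc_subset_Icc le_rfl hα.2
  have hg : ∀ x ∈ Ioo 0 α, HasDerivAt (fun x => -s x) (w0 x) x := fun x hx => by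
    have := (hd x (hsub hx)).neg
    rw [neg_neg] at this
    exact this
  have hgc : ContinuousOn (fun x => -s x) (Icc 0 α) := (hs.mono hsub2).neg
  have hint : IntegrableOn w0 (Ioc 0 α) :=
    intervalIntegral.integrableOn_deriv_of_nonneg hgc hg fun x hx => h0 x (hsub hx)
  have hii : IntervalIntegrable w0 volume 0 α := (intervalIntegrable_iff_integrableOn_Ioc_of_le hα.1).2 hint
  have hval : ∫ x in (0 : ℝ)..α, w0 x = s 0 - s α := by
    rw [intervalIntegral.integral_eq_sub_of_hasDerivAt_of_le hα.1 hgc hg hii]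
    ring
  rw [← hval]
  unfold prim
  have hne : ∀ᵐ x : ℝ, x ≠ α := by
    rw [ae_iff]
    simp
  refine intervalIntegral.tendsto_integral_filter_of_dominated_convergence w0 ?_ ?_ hii ?_
  · exact Eventually.of_forall fun n => (hwc n).aestronglyMeasurable
  · refine Eventually.of_forall fun n => ?_
    filter_upwards [hne] with x hx hx2
    rw [uIoc_of_le hα.1] at hx2
    have hx3 : x ∈ Ioo 0 A := hsub ⟨hx2.1, lt_of_le_of_ne hx2.2 hx⟩
    rw [Real.norm_of_nonneg (hw n x hx3).1]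
    exact (hw n x hx3).2
  · filter_upwards [hne] with x hx hx2
    rw [uIoc_of_le hα.1] at hx2
    exact hl x (hsub ⟨hx2.1, lt_of_le_of_ne hx2.2 hx⟩)

section
variable {A P : ℝ} {a : ℝ → ℝ} {ak pk : ℕ → ℝ → ℝ} {J : ℝ → ℝ}

/-- Lipschitz property of the height function -/
theorem rig_lip (D : ProfData A P a ak pk J) {c h s : ℝ → ℝ} {v : ℕ → ℝ → ℝ}
    (hc : Continuous c) (hh : Continuous h) (hv : ∀ n, Continuous (v n))
    (hc0 : ∀ α, 0 ≤ c α) (hh0 : ∀ α, 0 ≤ h α) (hv0 : ∀ n α, 0 ≤ v n α)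
    (hch : ∀ α ∈ Icc (0 : ℝ) 1, c α ^ 2 + h α ^ 2 = 1)
    (hJ : ∀ t, 0 ≤ J t)
    (hF : IntegrableOn (fun t => c (a t) * J t) (Ioc 0 1))
    (heq : P ≤ (∫ t in Ioc (0 : ℝ) 1, c (a t) * J t) + 2 * (prim h A - prim h 0))
    (hκ : ∀ n, ∀ᵐ t ∂(volume.restrict (Ioc (0 : ℝ) 1)),
      h (a t) * v n (a t) * (c (a t) * J t) ≤ 1)
    (hΦ : ∀ α ∈ Icc 0 A, Tendsto (fun n => prim (fun β => c β ^ 2 * v n β) α) atTop
      (𝓝 (s 0 - s α)))
    {z₁ z₂ : ℝ} (h0 : 0 ≤ z₁) (h12 : z₁ ≤ z₂) (h1 : z₂ ≤ 1)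
    (hl1 : Tendsto (fun k => ak k z₁) atTop (𝓝 (a z₁))) (ha1 : a z₁ ≤ A)
    (hl2 : Tendsto (fun k => ak k z₂) atTop (𝓝 (a z₂))) (ha2 : a z₂ ≤ A) :
    |s (a z₂) - s (a z₁)| ≤ z₂ - z₁ ∧ |s (a z₂) - s (a z₁)| ≤ 1 - (z₂ - z₁) := by
  have hbd : ∀ n, ∀ S : Set ℝ, S ⊆ Ioc 0 1 → volume S ≠ ⊤ →
      ∫ t in S, h (a t) * v n (a t) * (c (a t) * J t) ≤ (volume S).toReal := by
    intro n S hS hSf
    have : ∫ t in S, h (a t) * v n (a t) * (c (a t) * J t) ≤ ∫ t in S, (1 : ℝ) := by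
      refine integral_mono_of_nonneg (Eventually.of_forall fun t => ?_) ?_ ?_
      · exact mul_nonneg (mul_nonneg (hh0 _) (hv0 _ _)) (mul_nonneg (hc0 _) (hJ t))
      · exact integrableOn_const hSf
      · exact ae_mono (Measure.restrict_mono hS le_rfl) (hκ n)
    refine this.trans ?_
    simp [Measure.real]
  have key := fun n => prof_arcs D hc hh (hv n) hc0 hh0 (hv0 n) hch hJ hF heq h0 h12 h1 hl1 hl2
  have hlim := ((hΦ (a z₂) ⟨(D.rng z₂).1, ha2⟩).sub (hΦ (a z₁) ⟨(D.rng z₁).1, ha1⟩)).abs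
  have he : |(s 0 - s (a z₂)) - (s 0 - s (a z₁))| = |s (a z₂) - s (a z₁)| := by
    rw [abs_sub_comm (s (a z₂))]
    congr 1
    ring
  rw [he] at hlim
  constructor
  · refine le_of_tendsto' hlim fun n => (key n).1.trans ?_
    refine (hbd n _ (Ioc_subset_Ioc h0 h1) (by simp)).trans (le_of_eq ?_)
    rw [Real.volume_Ioc, ENNReal.toReal_ofReal (by linarith)]
  · refine le_of_tendsto' hlim fun n => (key n).2.trans ?_
    refine (hbd n _ (union_subset (Ioc_subset_Ioc le_rfl (h12.trans h1))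
      (Ioc_subset_Ioc (h0.trans h12) le_rfl)) ?_).trans (le_of_eq ?_)
    · exact ne_of_lt ((measure_union_le _ _).trans_lt (by simp))
    · rw [measure_union _ measurableSet_Ioc, Real.volume_Ioc, Real.volume_Ioc,
        ENNReal.toReal_add (by simp) (by simp), ENNReal.toReal_ofReal (by linarith),
        ENNReal.toReal_ofReal (by linarith)]
      · ring
      · rw [Set.disjoint_left]
        intro t ht ht'
        exact absurd ht.2 (not_le.2 (h12.trans_lt ht'.1))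

end

/-- from a slice datum to `ProfData` -/
theorem SQ.profData {P A : ℝ} {a J : ℝ → ℝ} {an Tn : ℕ → ℝ → ℝ} (Q : SQ P a J an Tn)
    (hm : Measurable a) (h01 : ∀ x, 0 ≤ a x ∧ a x ≤ 1)
    (hsup : ∀ η > 0, volume ({t | A - η < a t} ∩ Ioc 0 1) ≠ 0)
    (hinf : ∀ η > 0, volume ({t | a t < η} ∩ Ioc 0 1) ≠ 0) :
    ProfData A P a an Tn (fun t => 2 * J t) := by
  have hex : ∀ {p : ℝ → Prop}, volume ({t | p t} ∩ Ioc 0 1) ≠ 0 →
      ∃ t ∈ Ioc (0 : ℝ) 1, Tendsto (fun k => an k t) atTop (𝓝 (a t)) ∧ p t := by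
    intro p hp
    by_contra hcon
    push Not at hcon
    apply hp
    refine measure_mono_null (t := {t | ¬ Tendsto (fun k => an k t) atTop (𝓝 (a t))}) ?_
      (ae_iff.1 Q.conv)
    rintro t ⟨h1, h2⟩ h3
    exact hcon t h2 h3 h1
  exact
    { meas := hm
      rng := h01
      cd := Q.c1
      per := fun k => by
        have := Q.per k 0
        rw [zero_add] at this
        exact this.symm
      krng := Q.a01
      pint := fun k => (Q.contT k).integrableOn_Ioc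
      pnn := Q.T0
      lim := ae_restrict_of_ae Q.conv
      liminf := by
        refine ae_restrict_of_ae ?_
        filter_upwards [Q.lower] with t ht δ hδ
        filter_upwards [ht (2 * J t - δ) (by linarith)] with k hk
        exact hk.le
      perim := fun k => by
        rw [← intervalIntegral.integral_of_le zero_le_one]
        exact Q.bound k
      sup := fun η hη => hex (hsup η hη)
      inf := fun η hη => hex (hinf η hη) }

/-- **Rigidity, abstract form.**  The height function is at most the distance to a point -/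
theorem rig_height {P A : ℝ} {a J : ℝ → ℝ} (S : SD P a J) {c h s : ℝ → ℝ} {v : ℕ → ℝ → ℝ}
    (hle : ∀ᵐ t, a t ≤ A)
    (hsup : ∀ η > 0, volume ({t | A - η < a t} ∩ Ioc 0 1) ≠ 0)
    (hinf : ∀ η > 0, volume ({t | a t < η} ∩ Ioc 0 1) ≠ 0)
    (hc : Continuous c) (hh : Continuous h) (hv : ∀ n, Continuous (v n))
    (hc0 : ∀ α, 0 ≤ c α) (hh0 : ∀ α, 0 ≤ h α) (hv0 : ∀ n α, 0 ≤ v n α)
    (hch : ∀ α ∈ Icc (0 : ℝ) 1, c α ^ 2 + h α ^ 2 = 1)
    (hF : IntegrableOn (fun t => c (a t) * (2 * J t)) (Ioc 0 1))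
    (heq : P ≤ (∫ t in Ioc (0 : ℝ) 1, c (a t) * (2 * J t)) + 2 * (prim h A - prim h 0))
    (hκ : ∀ n, ∀ᵐ t ∂(volume.restrict (Ioc (0 : ℝ) 1)),
      h (a t) * v n (a t) * (c (a t) * (2 * J t)) ≤ 1)
    (hΦ : ∀ α ∈ Icc 0 A, Tendsto (fun n => prim (fun β => c β ^ 2 * v n β) α) atTop
      (𝓝 (s 0 - s α)))
    (hs : ContinuousOn s (Icc 0 A)) (hsA : s A = 0) (hA : 0 ≤ A) :
    ∃ t0 : ℝ, ∀ᵐ t ∂(volume.restrict (Ioc (0 : ℝ) 1)), s (a t) ≤ dZ (t - t0) := by
  obtain ⟨an, Tn, Q⟩ := S.seq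
  have D := Q.profData S.meas_a S.a01 hsup hinf
  have hJ : ∀ t, 0 ≤ 2 * J t := fun t => by linarith [S.J0 t]
  set G : Set ℝ := {t | t ∈ Icc (0 : ℝ) 1 ∧ Tendsto (fun k => an k t) atTop (𝓝 (a t)) ∧ a t ≤ A}
    with hG
  have hcirc : ∃ t0 : ℝ, ∀ z ∈ G, s (a z) ≤ dZ (z - t0) := by
    refine circle_lemma (S := fun z => s (a z)) (fun t ht => ht.1) ?_ ?_
    · intro z₁ h₁ z₂ h₂ h12
      exact rig_lip D hc hh hv hc0 hh0 hv0 hch hJ hF heq hκ hΦ h₁.1.1 h12 h₂.1.2 h₁.2.1 h₁.2.2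
        h₂.2.1 h₂.2.2
    · intro η hη
      -- continuity of `s` at `A`
      have h1 := hs A ⟨hA, le_rfl⟩
      rw [ContinuousWithinAt, hsA] at h1
      have h2 := (tendsto_order.1 h1).2 η hη
      rw [eventually_nhdsWithin_iff] at h2
      obtain ⟨d, hd, hb⟩ := Metric.eventually_nhds_iff.1 h2
      have h3 : volume ({t | A - d < a t ∧ a t ≤ A} ∩ Ioc 0 1) ≠ 0 := by
        intro h4
        apply hsup d hd
        refine measure_mono_null (t := ({t | A - d < a t ∧ a t ≤ A} ∩ Ioc 0 1) ∪ {t | ¬ a t ≤ A})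
          ?_ (measure_union_null h4 (ae_iff.1 hle))
        rintro t ⟨h5, h6⟩
        by_cases h7 : a t ≤ A
        · exact Or.inl ⟨⟨h5, h7⟩, h6⟩
        · exact Or.inr h7
      have h5 : ∃ t ∈ Ioc (0 : ℝ) 1, Tendsto (fun k => an k t) atTop (𝓝 (a t)) ∧
          (A - d < a t ∧ a t ≤ A) := by
        by_contra hcon
        push Not at hcon
        apply h3
        refine measure_mono_null (t := {t | ¬ Tendsto (fun k => an k t) atTop (𝓝 (a t))}) ?_
          (ae_iff.1 Q.conv)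
        rintro t ⟨h6, h7⟩ h8
        exact absurd h6.2 (not_le.2 (hcon t h7 h8 h6.1))
      obtain ⟨t, ht1, ht2, ht3, ht4⟩ := h5
      refine ⟨t, ⟨⟨ht1.1.le, ht1.2⟩, ht2, ht4⟩, ?_⟩
      refine hb ?_ ⟨(S.a01 t).1, ht4⟩
      rw [Real.dist_eq, abs_lt]
      constructor <;> linarith
  obtain ⟨t0, ht0⟩ := hcirc
  refine ⟨t0, ?_⟩
  rw [ae_restrict_iff' measurableSet_Ioc]
  filter_upwards [Q.conv, hle] with t h1 h2 h3
  exact ht0 t ⟨⟨h3.1.le, h3.2⟩, h1, h2⟩

end Crest.Agent.R214
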