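import Crest.Agent.R214.StE4
import Crest.Agent.R214.Sdt
import Crest.Agent.R214.Rig

/-!
# Row 214, Steiner symmetrisation, part 5: volume, slices, monotonicity (helper39)
-/

set_option autoImplicit false

open MeasureTheory Crest.GeometryTopology.PeriodicPerimeter Filter Set
open scoped ENNReal Topology

namespace Crest.Agent.R214.StE

variable {n : ℕ} {d : Fin (n + 1)} {E : Set (Ev (n + 1))}

theorem mem_Sg {lam : Ev n → ℝ} {x : Ev (n + 1)} :
    x ∈ Sg d lam ↔ 2 * dZ (x d) < lam (rem d x) := by
  constructor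
  · rintro ⟨m, hm⟩
    have := dZ_le (x d) m
    linarith
  · intro h
    exact ⟨round (x d), h⟩

theorem mem_St {x : Ev (n + 1)} : x ∈ St d E ↔ 2 * dZ (x d) < fl d E (rem d x) := mem_Sg

theorem slice_St (t : ℝ) : slice d (St d E) t = {y | 2 * dZ t < fl d E y} := by
  ext y
  show ins d t y ∈ St d E ↔ 2 * dZ t < fl d E y
  rw [mem_St, ins_same, rem_ins]

theorem fl_St (hE : MeasurableSet E) (hper : IsLatticePeriodic E) : fl d (St d E) = fl d E := by
  funext q
  have h1 := fib_shift (d := d) (ind_isPer (St_periodic (d := d) hper)) q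
  have h2 := fiber_Sg (d := d) (fl_mem (d := d) hE) (fun _ => (1:ℝ)) q
  have h3 : fl d (St d E) q = ∫ t in (0:ℝ)..1, (St d E).indicator (fun _ => (1 : ℝ)) (ins d t q) :=
    rfl
  rw [h3, h1]
  unfold St at *
  rw [h2]
  simp

theorem vol_eq {m : ℕ} {F : Set (Ev m)} (hF : MeasurableSet F) :
    periodicVolume F = ∫ x in unitCell m, F.indicator (fun _ => (1 : ℝ)) x := by
  rw [integral_indicator hF, Measure.restrict_restrict hF]
  simp [periodicVolume, Measure.real]

theorem vol_eq_fl (hE : MeasurableSet E) :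
    periodicVolume E = ∫ q in unitCell n, fl d E q := by
  rw [vol_eq hE, cell_fubini' d ((integrable_const (1 : ℝ)).indicator hE)]
  rfl

/-- Steiner symmetrisation preserves the volume -/
theorem St_volume (hE : MeasurableSet E) (hper : IsLatticePeriodic E) :
    periodicVolume (St d E) = periodicVolume E := by
  rw [vol_eq_fl (d := d) hE, vol_eq_fl (d := d) (St_measurable hE), fl_St hE hper]

/-- **Steiner symmetrisation decreases the perimeter** -/
theorem St_perim (hE : MeasurableSet E) (hper : IsLatticePeriodic E) :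
    periodicPerimeter (St d E) ≤ periodicPerimeter E := by
  by_cases hP : periodicPerimeter E = ∞
  · rw [hP]; exact le_top
  · refine iSup_le fun φ => ?_
    exact ENNReal.ofReal_le_of_le_toReal (St_perim_aux hE hper hP (moll_mol hE hper) φ.2)

/-- slices in the other directions keep their volume -/
theorem rem_ins_ins {m : ℕ} {d e : Fin (m + 2)} {d' : Fin (m + 1)} (hd : e.succAbove d' = d)
    (t s : ℝ) (z : Ev m) :
    ins e t (ins d' s z) = ins d s (rem d (ins e t (ins d' 0 z))) := by
  ext j
  rcases Fin.eq_self_or_eq_succAbove d j with h | ⟨i, h⟩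
  · rw [h, ins_same, ← hd, ins_succAbove, ins_same]
  · rw [h, ins_succAbove, rem_apply, ← h]
    rcases Fin.eq_self_or_eq_succAbove e j with h2 | ⟨k, h2⟩
    · rw [h2, ins_same, ins_same]
    · rw [h2, ins_succAbove, ins_succAbove]
      rcases Fin.eq_self_or_eq_succAbove d' k with h3 | ⟨l, h3⟩
      · exfalso
        rw [h3, hd] at h2
        rw [h] at h2
        exact Fin.succAbove_ne d i h2
      · rw [h3, ins_succAbove, ins_succAbove]

theorem sl_eq_fl {m : ℕ} {d e : Fin (m + 2)} {E : Set (Ev (m + 2))} {d' : Fin (m + 1)}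
    (hd : e.succAbove d' = d) (hE : MeasurableSet E) (t : ℝ) :
    sl e E t = ∫ z in unitCell m, fl d E (rem d (ins e t (ins d' 0 z))) := by
  have hm : MeasurableSet (slice e E t) := slice_measurable hE t
  unfold sl
  rw [vol_eq hm, cell_fubini' d' ((integrable_const (1 : ℝ)).indicator hm)]
  refine integral_congr_ae (Eventually.of_forall fun z => ?_)
  simp only [fl]
  refine intervalIntegral.integral_congr fun s _ => ?_
  show (slice e E t).indicator (fun _ => (1 : ℝ)) (ins d' s z) =
    E.indicator (fun _ => (1 : ℝ)) (ins d s (rem d (ins e t (ins d' 0 z))))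
  rw [← rem_ins_ins hd]
  by_cases h : ins e t (ins d' s z) ∈ E
  · rw [indicator_of_mem h, indicator_of_mem (show ins d' s z ∈ slice e E t from h)]
  · rw [indicator_of_notMem h, indicator_of_notMem (show ins d' s z ∉ slice e E t from h)]

/-- slices in the other directions keep their volume -/
theorem sl_St_ne {m : ℕ} {d e : Fin (m + 2)} {E : Set (Ev (m + 2))} (hde : e ≠ d)
    (hE : MeasurableSet E) (hper : IsLatticePeriodic E) (t : ℝ) :
    sl e (St d E) t = sl e E t := by
  obtain ⟨d', hd'⟩ := Fin.exists_succAbove_eq hde.symm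
  rw [sl_eq_fl hd' hE, sl_eq_fl hd' (St_measurable hE), fl_St hE hper]

/-- monotone in the direction `d` -/
def Md {m : ℕ} (d : Fin m) (F : Set (Ev m)) : Prop :=
  ∀ x y : Ev m, (∀ i, i ≠ d → x i = y i) → dZ (x d) ≤ dZ (y d) → y ∈ F → x ∈ F

theorem rem_congr {x y : Ev (n + 1)} (h : ∀ i, i ≠ d → x i = y i) : rem d x = rem d y := by
  ext i
  exact h _ (Fin.succAbove_ne d i)

theorem Md_St : Md d (St d E) := by
  intro x y h1 h2 hy
  rw [mem_St] at hy ⊢
  rw [rem_congr h1]
  linarith

theorem Md_St_ne {e : Fin (n + 1)} (hde : d ≠ e) (hE : MeasurableSet E) (h : Md d E) :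
    Md d (St e E) := by
  intro x y h1 h2 hy
  rw [mem_St] at hy ⊢
  rw [h1 e hde.symm]
  refine hy.trans_le ?_
  rw [fl_eq hE, fl_eq hE]
  refine measureReal_mono ?_ ((measure_mono inter_subset_right).trans_lt (by simp)).ne
  rintro t ⟨ht1, ht2⟩
  refine ⟨?_, ht2⟩
  have ht3 : ins e t (rem e y) ∈ E := ht1
  show ins e t (rem e x) ∈ E
  refine h _ _ (fun i hi => ?_) ?_ ht3
  · rcases Fin.eq_self_or_eq_succAbove e i with h3 | ⟨k, h3⟩
    · rw [h3, ins_same, ins_same]
    · rw [h3, ins_succAbove, ins_succAbove, rem_apply, rem_apply, ← h3]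
      exact h1 i hi
  · obtain ⟨d', hd'⟩ := Fin.exists_succAbove_eq hde
    rw [← hd', ins_succAbove, ins_succAbove, rem_apply, rem_apply, hd']
    exact h2

/-- monotone in all directions -/
theorem mono_of_Md {m : ℕ} {F : Set (Ev m)} (h : ∀ d, Md d F) (x y : Ev m)
    (hxy : ∀ i, dZ (x i) ≤ dZ (y i)) (hy : y ∈ F) : x ∈ F := by
  classical
  have key : ∀ s : Finset (Fin m), (WithLp.toLp 2 fun i => if i ∈ s then x i else y i : Ev m) ∈ F := by
    intro s
    induction s using Finset.induction_on with
    | empty => simpa using hy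
    | insert a s ha ih =>
      refine h a _ _ (fun i hi => ?_) ?_ ih
      · simp [hi]
      · simp [ha, hxy a]
  have := key Finset.univ
  simpa using this

/-- the fully symmetrised set -/
theorem exists_mono (E : Set (Ev 3)) (hE : MeasurableSet E) (hper : IsLatticePeriodic E) :
    ∃ F : Set (Ev 3), MeasurableSet F ∧ IsLatticePeriodic F ∧
      periodicVolume F = periodicVolume E ∧ periodicPerimeter F ≤ periodicPerimeter E ∧
      (∀ x y : Ev 3, (∀ i, dZ (x i) ≤ dZ (y i)) → y ∈ F → x ∈ F) ∧
      F = St 0 (St 1 (St 2 E)) := by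
  have m2 : MeasurableSet (St 2 E) := St_measurable hE
  have p2 : IsLatticePeriodic (St 2 E) := St_periodic hper
  have m1 : MeasurableSet (St 1 (St 2 E)) := St_measurable m2
  have p1 : IsLatticePeriodic (St 1 (St 2 E)) := St_periodic p2
  refine ⟨St 0 (St 1 (St 2 E)), St_measurable m1, St_periodic p1, ?_, ?_, ?_, rfl⟩
  · rw [St_volume m1 p1, St_volume m2 p2, St_volume hE hper]
  · exact (St_perim m1 p1).trans ((St_perim m2 p2).trans (St_perim hE hper))
  · refine mono_of_Md fun d => ?_
    fin_cases d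
    · exact Md_St
    · exact Md_St_ne (by decide) m1 Md_St
    · exact Md_St_ne (by decide) m1 (Md_St_ne (by decide) m2 Md_St)

end Crest.Agent.R214.StE
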