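import Crest.Agent.R214.PlanarEq
import Crest.Agent.R214.Back
import Crest.Agent.R214.StE5

/-! Row 214 (helper12): S0332 and S0333 from the theorem on monotone sets `MonoThm`. -/

set_option autoImplicit false

open MeasureTheory Filter Set Crest.GeometryTopology.PeriodicPerimeter
open scoped Topology ENNReal

namespace Crest.Agent.R214

open Model (Ival Ival_nonneg LowerBound EqualityCases)

/-- box-monotone sets -/
def MonoSet {n : ℕ} (F : Set (Ev n)) : Prop := ∀ x y : Ev n, (∀ i, dZ (x i) ≤ dZ (y i)) → y ∈ F → x ∈ F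

/-- the theorem on monotone sets -/
def MonoThm : Prop := ∀ F : Set (Ev 3), MeasurableSet F → IsLatticePeriodic F → MonoSet F →
  0 < periodicVolume F → periodicVolume F ≤ 1 / 2 →
  ENNReal.ofReal (Ival (periodicVolume F)) ≤ periodicPerimeter F ∧
    (periodicPerimeter F = ENNReal.ofReal (Ival (periodicVolume F)) →
      (∃ d, ∀ᵐ t : ℝ, sl d F t = periodicVolume F) ∨ (∀ d, ∀ᵐ t : ℝ, sl d F t ≤ 1 / Real.pi) ∨
        ∀ d, 0 < volume ({t | sl d F t = 0} ∩ Ico 0 1))

/-- going back from a monotone rearrangement with zero contact in all directions -/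
def ZeroBack : Prop := ∀ E : Set (Ev 3), MeasurableSet E → IsLatticePeriodic E →
  0 < periodicVolume E → periodicVolume E ≤ 1 / 2 →
  periodicPerimeter E = ENNReal.ofReal (Ival (periodicVolume E)) →
  (∀ d, 0 < volume ({t | sl d (StE.St 0 (StE.St 1 (StE.St 2 E))) t = 0} ∩ Ico 0 1)) →
  IsStandardRegion (periodicVolume E) E

theorem St_eq {n : ℕ} {d : Fin (n + 1)} {E : Set (Ev (n + 1))} (hE : MeasurableSet E) :
    StE.St d E = StE.Sg d (fl d E) := by
  have h : StE.fl d E = fl d E := by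
    funext q
    rw [StE.fl_eq hE]
    unfold fl
    rw [Measure.restrict_apply (StE.measurable_fib hE q)]
    rfl
  unfold StE.St
  rw [h]

/-- going back through one symmetrisation -/
theorem back1 {E : Set (Ev 3)} (hE : MeasurableSet E)
    (hp : IsLatticePeriodic E) (d e : Fin 3) {V : ℝ} (h : ∀ᵐ t : ℝ, sl e (StE.St d E) t = V) :
    ∀ᵐ t : ℝ, sl e E t = V := by
  by_cases hed : e = d
  · subst hed
    rw [St_eq hE] at h
    exact back_const e hE hp h
  · filter_upwards [h] with t ht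
    rw [← StE.sl_St_ne hed hE hp t]
    exact ht

theorem back2 {E : Set (Ev 3)} (hE : MeasurableSet E)
    (hp : IsLatticePeriodic E) (d e : Fin 3) {A : ℝ} (h : ∀ᵐ t : ℝ, sl e (StE.St d E) t ≤ A) :
    ∀ᵐ t : ℝ, sl e E t ≤ A := by
  by_cases hed : e = d
  · subst hed
    rw [St_eq hE] at h
    exact back_le e hE hp h
  · filter_upwards [h] with t ht
    rw [← StE.sl_St_ne hed hE hp t]
    exact ht

/-- the monotone rearrangement of a set -/
theorem asm_exists_mono {E : Set (Ev 3)} (hE : MeasurableSet E)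
    (hp : IsLatticePeriodic E) : ∃ F : Set (Ev 3), MeasurableSet F ∧ IsLatticePeriodic F ∧
      MonoSet F ∧ periodicVolume F = periodicVolume E ∧ periodicPerimeter F ≤ periodicPerimeter E ∧
      (∀ e V, (∀ᵐ t : ℝ, sl e F t = V) → ∀ᵐ t : ℝ, sl e E t = V) ∧
      (∀ e A, (∀ᵐ t : ℝ, sl e F t ≤ A) → ∀ᵐ t : ℝ, sl e E t ≤ A) ∧
      F = StE.St 0 (StE.St 1 (StE.St 2 E)) := by
  have m2 : MeasurableSet (StE.St 2 E) := StE.St_measurable hE
  have p2 : IsLatticePeriodic (StE.St 2 E) := StE.St_periodic hp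
  have m1 : MeasurableSet (StE.St 1 (StE.St 2 E)) := StE.St_measurable m2
  have p1 : IsLatticePeriodic (StE.St 1 (StE.St 2 E)) := StE.St_periodic p2
  obtain ⟨F, g1, g2, g3, g4, g5, g6⟩ := StE.exists_mono E hE hp
  refine ⟨F, g1, g2, g5, g3, g4, ?_, ?_, g6⟩
  · intro e V h
    rw [g6] at h
    exact back1 hE hp 2 e (back1 m2 p2 1 e (back1 m1 p1 0 e h))
  · intro e A h
    rw [g6] at h
    exact back2 hE hp 2 e (back2 m2 p2 1 e (back2 m1 p1 0 e h))

theorem lowerBound_of_monoThm (HM : MonoThm) : LowerBound := by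
  intro E hE hp h0 h1
  obtain ⟨F, f1, f2, f3, f4, f5, -, -, -⟩ := asm_exists_mono hE hp
  have := (HM F f1 f2 f3 (by rw [f4]; exact h0) (by rw [f4]; exact h1)).1
  rw [f4] at this
  exact this.trans f5

theorem equalityCases_of_monoThm (HM : MonoThm) (HZ : ZeroBack) : EqualityCases := by
  intro E hE hp h0 h1 hP
  obtain ⟨F, f1, f2, f3, f4, f5, f6, f7, f8⟩ := asm_exists_mono hE hp
  obtain ⟨g1, g2⟩ := HM F f1 f2 f3 (by rw [f4]; exact h0) (by rw [f4]; exact h1)
  have hPF : periodicPerimeter F = ENNReal.ofReal (Ival (periodicVolume F)) := by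
    refine le_antisymm ?_ g1
    rw [f4, ← hP]
    exact f5
  rcases g2 hPF with ⟨d, hd⟩ | hd | hd
  · refine eq_e1 iso2Thm class2Thm hE hp h0 h1 hP d ?_
    have := f6 d _ hd
    rwa [f4] at this
  · exact planar_eq hE hp h0 h1 hP fun d => f7 d _ (hd d)
  · rw [f8] at hd
    exact HZ E hE hp h0 h1 hP hd

end Crest.Agent.R214
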