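import Crest.Agent.R214.Model

/-! Row 214: S0332 and S0333 from the lower bound / the equality cases at volumes `≤ 1/2`. -/

set_option autoImplicit false

open MeasureTheory Metric Filter Crest.GeometryTopology.PeriodicPerimeter
open scoped Topology ENNReal

noncomputable section

namespace Crest.Agent.R214.Model

/-- the lower bound, stated for volumes `≤ 1/2` -/
def LowerBound : Prop :=
  ∀ E : Set (EuclideanSpace ℝ (Fin 3)), MeasurableSet E → IsLatticePeriodic E →
    0 < periodicVolume E → periodicVolume E ≤ 1 / 2 →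
    ENNReal.ofReal (Ival (periodicVolume E)) ≤ periodicPerimeter E

/-- the equality cases, stated for volumes `≤ 1/2` -/
def EqualityCases : Prop :=
  ∀ E : Set (EuclideanSpace ℝ (Fin 3)), MeasurableSet E → IsLatticePeriodic E →
    0 < periodicVolume E → periodicVolume E ≤ 1 / 2 →
    periodicPerimeter E = ENNReal.ofReal (Ival (periodicVolume E)) →
    IsStandardRegion (periodicVolume E) E

theorem lower_all (H : LowerBound) {V : ℝ} (hV : 0 < V) (hV' : V < 1)
    (E : Set (EuclideanSpace ℝ (Fin 3))) (hE : MeasurableSet E) (hp : IsLatticePeriodic E)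
    (hv : periodicVolume E = V) :
    ENNReal.ofReal (Ival (min V (1 - V))) ≤ periodicPerimeter E := by
  rcases le_total V (1 / 2) with h | h
  · rw [min_eq_left (by linarith)]
    have := H E hE hp (by rw [hv]; exact hV) (by rw [hv]; exact h)
    rwa [hv] at this
  · rw [min_eq_right (by linarith), ← perim_compl hE]
    have h1 : periodicVolume Eᶜ = 1 - V := by rw [volume_compl hE, hv]
    have := H Eᶜ hE.compl (periodic_compl hp) (by rw [h1]; linarith) (by rw [h1]; linarith)
    rwa [h1] at this

theorem S0332_of (H : LowerBound) (V : ℝ) (hV : 0 < V) (hV' : V < 1) :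
    (∀ E : Set (EuclideanSpace ℝ (Fin 3)), MeasurableSet E → IsLatticePeriodic E →
        periodicVolume E = V →
        ENNReal.ofReal (min (min ((36 * Real.pi) ^ ((1 : ℝ) / 3) * (min V (1 - V)) ^ ((2 : ℝ) / 3))
          (2 * Real.sqrt (Real.pi * min V (1 - V)))) 2) ≤ periodicPerimeter E) ∧
      ∃ E : Set (EuclideanSpace ℝ (Fin 3)), MeasurableSet E ∧ IsLatticePeriodic E ∧
        periodicVolume E = V ∧
        periodicPerimeter E = ENNReal.ofReal (min (min ((36 * Real.pi) ^ ((1 : ℝ) / 3) * (min V (1 - V)) ^ ((2 : ℝ) / 3))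
          (2 * Real.sqrt (Real.pi * min V (1 - V)))) 2) := by
  refine ⟨fun E h1 h2 h3 => lower_all H hV hV' E h1 h2 h3, ?_⟩
  obtain ⟨E, h1, h2, h3, h4⟩ := exists_model hV hV'
  exact ⟨E, h1, h2, h3, le_antisymm h4 (lower_all H hV hV' E h1 h2 h3)⟩

theorem S0333_of (H : LowerBound) (H' : EqualityCases)
    (V : ℝ) (hV : 0 < V) (hV' : V < 1) (E : Set (EuclideanSpace ℝ (Fin 3)))
    (hE : MeasurableSet E) (hper : IsLatticePeriodic E) (hvol : periodicVolume E = V) :
    periodicPerimeter E = ENNReal.ofReal (min (min ((36 * Real.pi) ^ ((1 : ℝ) / 3) * (min V (1 - V)) ^ ((2 : ℝ) / 3))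
          (2 * Real.sqrt (Real.pi * min V (1 - V)))) 2) ↔
      ((V ≤ 1 / 2 ∧ IsStandardRegion V E) ∨ (1 / 2 < V ∧ IsStandardRegion (1 - V) Eᶜ)) := by
  constructor
  · intro h
    rcases le_or_gt V (1 / 2) with h1 | h1
    · left
      refine ⟨h1, ?_⟩
      rw [min_eq_left (a := V) (b := 1 - V) (by linarith)] at h
      have := H' E hE hper (by rw [hvol]; exact hV) (by rw [hvol]; exact h1)
        (by rw [hvol]; exact h)
      rwa [hvol] at this
    · right
      refine ⟨h1, ?_⟩
      rw [min_eq_right (a := V) (b := 1 - V) (by linarith), ← perim_compl hE] at h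
      have h2 : periodicVolume Eᶜ = 1 - V := by rw [volume_compl hE, hvol]
      have := H' Eᶜ hE.compl (periodic_compl hper) (by rw [h2]; linarith) (by rw [h2]; linarith)
        (by rw [h2]; exact h)
      rwa [h2] at this
  · intro h
    exact le_antisymm (if_perim hV hV' hE h) (lower_all H hV hV' E hE hper hvol)

end Crest.Agent.R214.Model
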