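import Crest.Agent.R214.M5

/-! ROW 214: two-dimensional facts (2b) planar sets, (2c) sets wrapping in both directions
(helper10). -/

set_option autoImplicit false
open MeasureTheory Set Filter Topology Crest.GeometryTopology.PeriodicPerimeter
open scoped ENNReal

namespace Crest.Agent.R214

/-- if a positive measure of the `e`-slices is empty then a.e. `d`-slice is not full -/
theorem sl_lt_one_of_null {K : Set (Ev 2)} (hK : MeasurableSet K) (hper : IsLatticePeriodic K)
    {d e : Fin 2} (hde : d ≠ e) (h0 : 0 < volume ({t | sl e K t = 0} ∩ Ico 0 1)) :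
    ∀ᵐ t : ℝ, sl d K t < 1 := by
  by_contra hcon
  set W : Set ℝ := {t | sl d K t = 1} with hW
  have hWm : MeasurableSet W := (sl_measurable (d := d) hK) (measurableSet_singleton 1)
  have hWpos : 0 < volume (W ∩ Ico 0 1) := by
    by_contra hc
    have h1 : volume (W ∩ Ico 0 1) = 0 := by simpa using hc
    refine hcon ?_
    have := ae_of_cell_null (fun x => sl d K x ≠ 1) (fun x => by rw [sl_per (d := d) hper x]) (by
      simpa only [ne_eq, not_not] using h1)
    filter_upwards [this] with x hx
    exact lt_of_le_of_ne (sl_le_one (d := d) hK x) hx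
  -- the union of the full slices
  set M0 : Set (Ev 2) := {x | x d ∈ W} with hM0
  have hcd : Measurable fun x : Ev 2 => x d := by fun_prop
  have hM0m : MeasurableSet M0 := hcd hWm
  have hWp : ∀ (k : ℤ) (t : ℝ), t + k ∈ W ↔ t ∈ W := by
    intro k t
    show sl d K (t + k) = 1 ↔ sl d K t = 1
    have := (sl_per (d := d) hper).int_mul k t
    rw [mul_one] at this
    rw [this]
  have hM0p : IsLatticePeriodic M0 := by
    intro v hv x
    obtain ⟨k, hk⟩ := hv d
    show (x + v) d ∈ W ↔ x d ∈ W
    have : (x + v) d = x d + k := by rw [PiLp.add_apply, hk]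
    rw [this]; exact hWp k _
  -- volume of M0
  have hv1 : ∫ t in (0:ℝ)..1, sl d M0 t = periodicVolume M0 := integral_sl (d := d) hM0m
  have hv2 : ∫ t in (0:ℝ)..1, sl e M0 t = periodicVolume M0 := integral_sl (d := e) hM0m
  have hs1 : ∀ t, sl d M0 t = W.indicator (fun _ => (1:ℝ)) t := by
    intro t
    by_cases ht : t ∈ W
    · rw [indicator_of_mem ht]
      have : slice d M0 t = univ := by
        ext y; simp only [mem_univ, iff_true]
        show (ins d t y) d ∈ W
        rw [ins_same]; exact ht
      unfold sl periodicVolume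
      rw [this, univ_inter, cell_volume]; simp
    · rw [indicator_of_notMem ht]
      have : slice d M0 t = ∅ := by
        ext y; simp only [mem_empty_iff_false, iff_false]
        show ¬ (ins d t y) d ∈ W
        rw [ins_same]; exact ht
      unfold sl periodicVolume
      rw [this]; simp
  have hs2 : ∀ t t', sl e M0 t = sl e M0 t' := by
    intro t t'
    have : slice e M0 t = slice e M0 t' := by
      ext y
      show (ins e t y) d ∈ W ↔ (ins e t' y) d ∈ W
      obtain ⟨i, hi⟩ := Fin.exists_succAbove_eq hde
      rw [← hi, ins_succAbove, ins_succAbove]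
    unfold sl; rw [this]
  have hw : sl e M0 0 = periodicVolume M0 := by
    rw [← hv2, intervalIntegral.integral_congr (g := fun _ => sl e M0 0) fun t _ => hs2 t 0]
    simp
  have hpos : 0 < periodicVolume M0 := by
    rw [← hv1, intervalIntegral.integral_congr fun t _ => hs1 t,
      intervalIntegral.integral_of_le zero_le_one, integral_Ioc_eq_integral_Ioo,
      ← integral_Ico_eq_integral_Ioo, setIntegral_indicator hWm]
    simp only [integral_const, smul_eq_mul, mul_one]
    rw [inter_comm] at hWpos
    rw [measureReal_restrict_apply_univ]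
    exact ENNReal.toReal_pos hWpos.ne' (ne_top_of_le_ne_top (by simp)
      (measure_mono inter_subset_left : volume (Ico (0:ℝ) 1 ∩ W) ≤ volume (Ico (0:ℝ) 1)))
  -- M1 = M0 \ K is null
  set M1 : Set (Ev 2) := M0 \ K with hM1
  have hM1m : MeasurableSet M1 := hM0m.diff hK
  have hs3 : ∀ t, sl d M1 t = 0 := by
    intro t
    by_cases ht : t ∈ W
    · have h1 : sl d K t = 1 := ht
      unfold sl periodicVolume at h1 ⊢
      have hKs : MeasurableSet (slice d K t) := slice_measurable (d := d) hK t
      have h2 : volume (slice d K t ∩ unitCell 1) = 1 := by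
        have := (ENNReal.toReal_eq_one_iff _).1 h1
        exact this
      have h3 : slice d M1 t ∩ unitCell 1 ⊆ unitCell 1 \ (slice d K t ∩ unitCell 1) := by
        rintro y ⟨hy, hy'⟩
        refine ⟨hy', fun h => ?_⟩
        exact hy.2 h.1
      have h4 : volume (unitCell 1 \ (slice d K t ∩ unitCell 1)) = 0 := by
        rw [measure_sdiff inter_subset_right (hKs.inter (measurableSet_cell 1)).nullMeasurableSet
          (by rw [h2]; simp), h2, cell_volume]
        simp
      rw [measure_mono_null h3 h4]; simp
    · have : slice d M1 t = ∅ := by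
        ext y; simp only [mem_empty_iff_false, iff_false]
        intro h
        have h5 : (ins d t y) d ∈ W := h.1
        rw [ins_same] at h5; exact ht h5
      unfold sl periodicVolume
      rw [this]; simp
  have hM1v : periodicVolume M1 = 0 := by
    rw [← integral_sl (d := d) hM1m, intervalIntegral.integral_congr (g := fun _ => (0:ℝ)) fun t _ => hs3 t]
    simp
  have hs4 : ∀ᵐ t : ℝ, sl e M1 t = 0 := by
    have hM1p : IsLatticePeriodic M1 := by
      intro v hv x
      show (x + v ∈ M0 ∧ ¬ x + v ∈ K) ↔ (x ∈ M0 ∧ ¬ x ∈ K)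
      rw [hM0p v hv x, hper v hv x]
    have h1 : ∫ t in (0:ℝ)..1, sl e M1 t = 0 := by rw [integral_sl (d := e) hM1m, hM1v]
    refine ae_of_cell_null (fun t => sl e M1 t = 0) (fun t => by rw [sl_per (d := e) hM1p t]) ?_
    rw [intervalIntegral.integral_of_le zero_le_one, integral_Ioc_eq_integral_Ioo,
      ← integral_Ico_eq_integral_Ioo] at h1
    have hi : IntegrableOn (sl e M1) (Ico 0 1) := by
      refine Measure.integrableOn_of_bounded (M := 1) (by simp)
        (sl_measurable (d := e) hM1m).aestronglyMeasurable ?_
      refine Eventually.of_forall fun t => ?_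
      rw [Real.norm_eq_abs, abs_of_nonneg (sl_nonneg (E := M1) (d := e) t)]
      exact sl_le_one (d := e) hM1m t
    have h2 := (setIntegral_eq_zero_iff_of_nonneg_ae
      (Eventually.of_forall fun t => sl_nonneg (E := M1) (d := e) t) hi).1 h1
    have h3 := (ae_restrict_iff' (measurableSet_Ico (a := (0:ℝ)) (b := 1))).1 h2
    rw [ae_iff] at h3
    refine measure_mono_null ?_ h3
    rintro t ⟨ht, ht'⟩ h
    exact ht (h ht')
  -- conclusion
  have hfin : ∀ᵐ t : ℝ, sl e K t ≠ 0 := by
    filter_upwards [hs4] with t ht h
    have h1 : slice e M0 t ⊆ slice e M1 t ∪ slice e K t := by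
      intro y hy
      by_cases hk : ins e t y ∈ K
      · right; exact hk
      · left; exact ⟨hy, hk⟩
    have h2 : volume (slice e M0 t ∩ unitCell 1) ≤
        volume (slice e M1 t ∩ unitCell 1) + volume (slice e K t ∩ unitCell 1) := by
      refine (measure_mono (inter_subset_inter_left _ h1)).trans ?_
      rw [union_inter_distrib_right]
      exact measure_union_le _ _
    have hf : ∀ S : Set (Ev 1), volume (S ∩ unitCell 1) ≠ ∞ := fun S =>
      ne_top_of_le_ne_top ENNReal.one_ne_top
        ((measure_mono inter_subset_right).trans (cell_volume 1).le)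
    have h3 : sl e M0 t ≤ sl e M1 t + sl e K t := by
      unfold sl periodicVolume
      rw [← ENNReal.toReal_add (hf _) (hf _)]
      exact ENNReal.toReal_mono (ENNReal.add_ne_top.2 ⟨hf _, hf _⟩) h2
    rw [ht, h, add_zero, hs2 t 0, hw] at h3
    linarith
  have h5 : volume ({t | sl e K t = 0} ∩ Ico 0 1) = 0 := by
    refine measure_mono_null inter_subset_left ?_
    have := ae_iff.1 hfin
    simpa only [ne_eq, not_not] using this
  exact h0.ne' h5

/-- (2b) planar sets -/
theorem planar2 {K : Set (Ev 2)} (hK : MeasurableSet K) (hper : IsLatticePeriodic K)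
    (h0 : 0 < volume ({t | sl 0 K t = 0} ∩ Ico 0 1))
    (h1 : 0 < volume ({t | sl 1 K t = 0} ∩ Ico 0 1)) :
    ENNReal.ofReal (2 * Real.sqrt (Real.pi * periodicVolume K)) ≤ periodicPerimeter K := by
  by_cases hP : periodicPerimeter K = ∞
  · rw [hP]; exact le_top
  have := (sd2 hK hper hP 0).iso_disc h0 (sl_lt_one_of_null hK hper (by decide) h1)
  rw [integral_sl (d := 0) hK] at this
  exact ENNReal.ofReal_le_of_le_toReal (by linarith)

end Crest.Agent.R214
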