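import Crest.Agent.R214.PlanarEq
import Crest.Agent.R214.Back
import Crest.Agent.R214.StE5
import Crest.Agent.R214.M5b

/-!
# Row 214, S0333: going back from the monotone symmetral by zero contact
-/

set_option autoImplicit false

open MeasureTheory Filter Set Crest.GeometryTopology.PeriodicPerimeter
open scoped Topology ENNReal

namespace Crest.Agent.R214

open Model (Ival Ival_nonneg)

/-- horizontal weight of the planar line method -/
noncomputable def cPb (s0 sg a : ℝ) : ℝ := max (s0 + sg * a) 0 / √(Real.pi * a)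

theorem hP_cPb (s0 sg a : ℝ) : hP s0 sg a = √(1 - cPb s0 sg a ^ 2) := rfl

theorem cPb_nonneg (s0 sg a : ℝ) : 0 ≤ cPb s0 sg a :=
  div_nonneg (le_max_right _ _) (Real.sqrt_nonneg _)

theorem cPb_le_one {s0 sg a : ℝ} (h : s0 + sg * a ≤ √(Real.pi * a)) : cPb s0 sg a ≤ 1 :=
  div_le_one_of_le₀ (max_le h (Real.sqrt_nonneg _)) (Real.sqrt_nonneg _)

theorem cPb_continuousOn {s0 sg a1 a2 : ℝ} (h0 : 0 ≤ a1) (hs0 : 0 ≤ s0) (hsg : 0 < sg)
    (hg : ∀ a ∈ Icc a1 a2, s0 + sg * a ≤ √(Real.pi * a)) :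
    ContinuousOn (cPb s0 sg) (Icc a1 a2) := by
  have hpi := Real.pi_pos
  rcases h0.eq_or_lt with h1 | h1
  · subst h1
    rcases lt_or_ge a2 0 with h2 | h2
    · rw [Icc_eq_empty (not_le.2 h2)]
      exact continuousOn_empty _
    have hs : s0 = 0 := by
      have := hg 0 ⟨le_rfl, h2⟩
      rw [mul_zero, mul_zero, Real.sqrt_zero] at this
      linarith
    have h3 : Continuous fun a : ℝ => sg / √Real.pi * √a := by fun_prop
    refine h3.continuousOn.congr fun a ha => ?_
    unfold cPb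
    rw [hs, zero_add, max_eq_left (mul_nonneg hsg.le ha.1), Real.sqrt_mul hpi.le]
    rcases ha.1.eq_or_lt with h4 | h4
    · rw [← h4]; simp
    · have h5 : √a ≠ 0 := (Real.sqrt_pos.2 h4).ne'
      have h6 : √Real.pi ≠ 0 := (Real.sqrt_pos.2 hpi).ne'
      have h7 : a = √a * √a := (Real.mul_self_sqrt ha.1).symm
      show sg * a / (√Real.pi * √a) = sg / √Real.pi * √a
      rw [div_mul_eq_mul_div, div_eq_div_iff (mul_ne_zero h6 h5) h6]
      nth_rewrite 1 [h7]
      ring
  · intro y hy
    have hy0 : 0 < y := h1.trans_le hy.1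
    refine ContinuousAt.continuousWithinAt ?_
    unfold cPb
    refine ContinuousAt.div (by fun_prop) (by fun_prop) (Real.sqrt_pos.2 (by positivity)).ne'

/-- **LINE METHOD**, planar version -/
theorem SD.lineP {P a1 a2 s0 sg : ℝ} {a J : ℝ → ℝ} (S : SD P a J)
    (hJ : ∀ᵐ x : ℝ, √(Real.pi * a x) ≤ J x) (h0 : 0 ≤ a1) (h12 : a1 ≤ a2)
    (hae : ∀ᵐ x : ℝ, a1 ≤ a x ∧ a x ≤ a2)
    (ha1 : ∀ δ > 0, 0 < volume ({x | a x < a1 + δ} ∩ Ico 0 1))
    (ha2 : ∀ δ > 0, 0 < volume ({x | a2 - δ < a x} ∩ Ico 0 1)) (hs0 : 0 ≤ s0) (hsg : 0 < sg)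
    (hg : ∀ x ∈ Icc a1 a2, s0 + sg * x ≤ √(Real.pi * x)) :
    s0 + sg * (∫ x in (0:ℝ)..1, a x) + ∫ x in a1..a2, hP s0 sg x ≤ P / 2 := by
  have hc := cPb_continuousOn h0 hs0 hsg hg
  refine S.lm_affine h12 hae ha1 ha2 (cPb s0 sg) (hP s0 sg) hc ?_ (fun x _ => cPb_nonneg _ _ _)
    (fun x _ => hP_nonneg _ _ _) (fun x hx => ?_) s0 sg ?_
  · show ContinuousOn (fun x => √(1 - cPb s0 sg x ^ 2)) (Icc a1 a2)
    exact (continuousOn_const.sub (hc.pow 2)).sqrt
  · rw [hP_cPb, Real.sq_sqrt]
    · linarith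
    · have h2 := cPb_le_one (hg x hx)
      have h3 := cPb_nonneg s0 sg x
      nlinarith
  · filter_upwards [hae, hJ] with x hx hJx
    have h2 : s0 + sg * a x ≤ cPb s0 sg (a x) * √(Real.pi * a x) := by
      rcases (Real.sqrt_nonneg (Real.pi * a x)).eq_or_lt with h3 | h3
      · have := hg _ hx
        rw [← h3] at this ⊢
        rw [mul_zero]
        exact this
      · unfold cPb
        rw [div_mul_cancel₀ _ h3.ne']
        exact le_max_left _ _
    exact h2.trans (mul_le_mul_of_nonneg_left hJx (cPb_nonneg _ _ _))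

/-- a direction with planar slices, equality case -/
theorem planar_dir_eqP {E : Set (Ev 3)} (hE : MeasurableSet E)
    (hp : IsLatticePeriodic E) (h0 : 0 < periodicVolume E)
    (hP : periodicPerimeter E = ENNReal.ofReal (Ival (periodicVolume E))) (d : Fin 3)
    (hpl : ∀ᵐ t : ℝ, ENNReal.ofReal (2 * √(Real.pi * sl d E t)) ≤
      periodicPerimeter (slice d E t)) :
    (∀ᵐ t : ℝ, sl d E t = periodicVolume E) ∨
      ∃ r : ℝ, 0 < r ∧ periodicVolume E = 4 * Real.pi * r ^ 3 / 3 ∧
        Ival (periodicVolume E) = 4 * Real.pi * r ^ 2 ∧ BallDir E d r := by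
  have hpi := Real.pi_pos
  set V := periodicVolume E with hVdef
  have hfin : periodicPerimeter E ≠ ∞ := by rw [hP]; exact ENNReal.ofReal_ne_top
  have hPr : (periodicPerimeter E).toReal = Ival V := by
    rw [hP, ENNReal.toReal_ofReal (Ival_nonneg h0.le)]
  have hm : Measurable fun t => √(Real.pi * sl d E t) :=
    Real.continuous_sqrt.measurable.comp ((sl_measurable hE).const_mul _)
  have S : SD (periodicPerimeter E).toReal (sl d E) (fun t => √(Real.pi * sl d E t)) :=
    sd_of_perim hE hp hfin d hm (fun t => by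
      show √(Real.pi * sl d E (t + 1)) = √(Real.pi * sl d E t)
      rw [sl_per hp t]) (fun t => Real.sqrt_nonneg _) hpl
  have hint : ∫ x in (0:ℝ)..1, sl d E x = V := integral_sl hE
  obtain ⟨a1, a2, k1, k2, k3, k4, k5, k6⟩ := S.exists_range
  have hV1 : a1 ≤ V := by
    have h1 : ∫ x in (0:ℝ)..1, (a1 : ℝ) ≤ ∫ x in (0:ℝ)..1, sl d E x :=
      intervalIntegral.integral_mono_ae zero_le_one intervalIntegrable_const
        (S.intervalIntegrable_a 0 1) (k4.mono fun x hx => hx.1)
    rw [hint] at h1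
    simpa using h1
  have hV2 : V ≤ a2 := by
    have h1 : ∫ x in (0:ℝ)..1, sl d E x ≤ ∫ x in (0:ℝ)..1, (a2 : ℝ) :=
      intervalIntegral.integral_mono_ae zero_le_one (S.intervalIntegrable_a 0 1)
        intervalIntegrable_const (k4.mono fun x hx => hx.2)
    rw [hint] at h1
    simpa using h1
  obtain ⟨s0, sg, c01, c02, c1, c2, c3⟩ := planar_dir k1 hV1 hV2 h0
  have hL1 := S.lineP (Eventually.of_forall fun x => le_rfl) k1 k2 k4 k5 k6 c01 c02 c1
  rw [hint, hPr, ← mm_eq_Ival] at hL1
  rcases c3 (le_antisymm c2 hL1) with ⟨e1, e2⟩ | ⟨e1, e2⟩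
  · left
    filter_upwards [k4] with t ht
    have h1 := ht.1
    have h2 := ht.2
    rw [e1] at h1
    rw [e2] at h2
    exact le_antisymm h2 h1
  · right
    have ha20 : 0 < a2 := h0.trans_le hV2
    obtain ⟨r, hr, e3⟩ : ∃ r : ℝ, 0 < r ∧ √(a2 / Real.pi) = r :=
      ⟨_, Real.sqrt_pos.2 (by positivity), rfl⟩
    have e4 : a2 = Real.pi * r ^ 2 := by
      rw [← e3, Real.sq_sqrt (by positivity)]; field_simp
    have e5 : V = 4 * Real.pi * r ^ 3 / 3 := by rw [e2, e3]; ring
    have hVr : (36 * Real.pi) ^ ((1 : ℝ) / 3) * V ^ ((2 : ℝ) / 3) = 4 * Real.pi * r ^ 2 := by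
      have h1 : 36 * Real.pi * V ^ 2 = (4 * Real.pi * r ^ 2) ^ 3 := by
        rw [e5]; ring
      have h2 : V ^ ((2 : ℝ) / 3) = (V ^ 2) ^ ((1 : ℝ) / 3) := by
        rw [← Real.rpow_natCast, ← Real.rpow_mul h0.le]
        norm_num
      rw [h2, ← Real.mul_rpow (by positivity) (by positivity), h1, ← Real.rpow_natCast,
        ← Real.rpow_mul (by positivity)]
      norm_num
    have hI1 : Ival V ≤ 4 * Real.pi * r ^ 2 := by
      rw [← hVr]
      exact (min_le_left _ _).trans (min_le_left _ _)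
    have hI2 : 4 * Real.pi * r ^ 2 ≤ Ival V := by
      have hA : (0:ℝ) < a2 := ha20
      have h5 : ∀ δ > 0, 0 < volume ({x | sl d E x < 0 + δ} ∩ Ico 0 1) := by
        rw [e1] at k5; exact k5
      have key := S.lm_affine (a1 := 0) (a2 := a2) hA.le
        (by filter_upwards [k4] with x hx; exact ⟨(S.a01 x).1, hx.2⟩) h5 k6 (cB a2) (hB a2)
        (cB_cont a2).continuousOn (hB_cont a2).continuousOn
        (fun s _ => Real.sqrt_nonneg _) (fun s _ => Real.sqrt_nonneg _)
        (fun s _ => (ch_ball hA s).le) 0 (1 / r) (by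
          filter_upwards [k4] with x hx
          have hx0 := (S.a01 x).1
          rw [cB_eq hA ⟨hx0, hx.2⟩, zero_add, ← Real.sqrt_mul (by positivity)]
          have e6 : sl d E x / a2 * (Real.pi * sl d E x) = (1 / r * sl d E x) ^ 2 := by
            rw [e4]; field_simp
          rw [e6, Real.sqrt_sq (by positivity)])
      have e7 : ∫ s in (0:ℝ)..a2, hB a2 s = 2 * a2 / 3 := by
        have := prim_hB hA
        unfold prim at this
        rw [intervalIntegral.integral_same, sub_zero] at this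
        exact this
      rw [hint, e7, hPr, e4, e5] at key
      have e8 : 0 + 1 / r * (4 * Real.pi * r ^ 3 / 3) + 2 * (Real.pi * r ^ 2) / 3 =
          2 * Real.pi * r ^ 2 := by field_simp; ring
      rw [e8, ← e5] at key
      linarith
    refine ⟨r, hr, e5, le_antisymm hI1 hI2, ?_, ?_, ?_, hpl⟩
    · filter_upwards [k4] with t ht
      rw [← e4]; exact ht.2
    · intro η hη
      rw [← e4]
      exact Ico_Ioc (k6 η hη)
    · intro η hη
      refine Ico_Ioc (p := fun t => sl d E t < η) ?_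
      have := k5 η hη
      rwa [e1, zero_add] at this

/-- zero contact -/
def Zero (d : Fin 3) (E : Set (Ev 3)) : Prop := 0 < volume ({t | sl d E t = 0} ∩ Ico 0 1)

/-- zero contact in the two other directions makes the slices planar -/
theorem planar_slices {G : Set (Ev 3)} (hG : MeasurableSet G) (hp : IsLatticePeriodic G)
    (d : Fin 3) (hz : ∀ e, e ≠ d → Zero e G) :
    ∀ᵐ t : ℝ, ENNReal.ofReal (2 * √(Real.pi * sl d G t)) ≤ periodicPerimeter (slice d G t) := by
  -- a.e. slice has empty lines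
  have key : ∀ j : Fin 2, ∀ᵐ t : ℝ, 0 < volume ({s | sl j (slice d G t) s = 0} ∩ Ico 0 1) := by
    intro j
    set e := d.succAbove j with he
    have hzj : Zero e G := hz e (Fin.succAbove_ne d j)
    set Z : Set ℝ := {s | sl e G s = 0} with hZ
    have hZm : MeasurableSet Z := (sl_measurable hG) (measurableSet_singleton 0)
    have hNm : MeasurableSet {x : Ev 3 | x ∈ G ∧ x e ∈ Z} :=
      hG.inter ((by fun_prop : Measurable fun x : Ev 3 => x e) hZm)
    have hN : ∀ᵐ x : Ev 3, ¬ (x ∈ G ∧ x e ∈ Z) := by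
      refine ae_of_ins e (p := fun x : Ev 3 => ¬ (x ∈ G ∧ x e ∈ Z)) hNm.compl ?_
      refine Eventually.of_forall fun s => ?_
      by_cases hs : s ∈ Z
      · have h1 : volume (slice e G s ∩ unitCell 2) = 0 := by
          have h2 : periodicVolume (slice e G s) = 0 := hs
          rcases (ENNReal.toReal_eq_zero_iff _).1 h2 with h3 | h3
          · exact h3
          · exact absurd h3 (cell_ne_top _)
        have h2 : volume (slice e G s) = 0 := null_of_cell (slice_periodic hp s) h1
        filter_upwards [measure_eq_zero_iff_ae_notMem.1 h2] with y hy h3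
        exact hy h3.1
      · refine Eventually.of_forall fun y h3 => hs ?_
        have h4 := h3.2
        rw [ins_same] at h4
        exact h4
    filter_upwards [ae_ins d hN] with t ht
    have h1 : ∀ᵐ y : Ev 2, ¬ (y ∈ slice d G t ∧ y j ∈ Z) := by
      filter_upwards [ht] with y hy h3
      apply hy
      refine ⟨h3.1, ?_⟩
      rw [he, ins_succAbove]
      exact h3.2
    have h2 : ∀ᵐ s : ℝ, s ∈ Z → sl j (slice d G t) s = 0 := by
      filter_upwards [ae_ins j h1] with s hs hsZ
      refine sl_of_null ?_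
      filter_upwards [hs] with w hw h3
      refine hw ⟨h3, ?_⟩
      rw [ins_same]
      exact hsZ
    refine lt_of_lt_of_le hzj (measure_mono_ae ?_)
    filter_upwards [h2] with s hs h3
    exact ⟨hs h3.1, h3.2⟩
  filter_upwards [key 0, key 1] with t h0 h1
  exact planar2 (slice_measurable hG t) (slice_periodic hp t) h0 h1

/-- a ball profile has zero contact -/
theorem zero_of_profile {E : Set (Ev 3)} {d : Fin 3} {r t0 : ℝ} (hr : 0 ≤ r) (hr2 : r < 1 / 2)
    (h : ∀ᵐ t, sl d E t = Real.pi * max (r ^ 2 - dZ (t - t0) ^ 2) 0) : Zero d E := by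
  have hU : IsOpen {t : ℝ | r < dZ (t - t0)} :=
    isOpen_lt continuous_const (dZ_continuous.comp (by fun_prop))
  set t1 := Int.fract (t0 + 1 / 2) with ht1
  have h1 : dZ (t1 - t0) = 1 / 2 := by
    have e1 : t1 - t0 = 1 / 2 + ((-⌊t0 + 1 / 2⌋ : ℤ) : ℝ) := by
      rw [ht1, Int.fract]; push_cast; ring
    rw [e1, dZ_add_int, dZ_eq_abs (by rw [abs_of_pos (by norm_num)]), abs_of_pos (by norm_num)]
  have hmem : t1 ∈ {t : ℝ | r < dZ (t - t0)} := by
    show r < dZ (t1 - t0)
    rw [h1]; exact hr2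
  obtain ⟨ε, hε, hb⟩ := Metric.isOpen_iff.1 hU t1 hmem
  have hlt : t1 < min (t1 + ε) 1 := lt_min (by linarith) (Int.fract_lt_one _)
  have hsub : Ioo t1 (min (t1 + ε) 1) ⊆ {t : ℝ | r < dZ (t - t0)} ∩ Ico 0 1 := by
    intro t ht
    refine ⟨hb ?_, ?_, ht.2.trans_le (min_le_right _ _)⟩
    · rw [Metric.mem_ball, Real.dist_eq, abs_lt]
      have := ht.2.trans_le (min_le_left _ _)
      exact ⟨by linarith [ht.1], by linarith⟩
    · exact (Int.fract_nonneg _).trans ht.1.le
  unfold Zero
  refine lt_of_lt_of_le (show 0 < volume (Ioo t1 (min (t1 + ε) 1)) by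
    rw [Real.volume_Ioo]; exact ENNReal.ofReal_pos.2 (by linarith)) ?_
  refine measure_mono_ae ?_
  filter_upwards [h] with t ht h3
  have h4 := hsub h3
  refine ⟨?_, h4.2⟩
  show sl d E t = 0
  have h5 : r < dZ (t - t0) := h4.1
  rw [ht, max_eq_right (by nlinarith), mul_zero]

/-- the step: zero contact in two directions, equality, gives the third profile -/
theorem zero_step {G : Set (Ev 3)} (hG : MeasurableSet G) (hp : IsLatticePeriodic G)
    (h0 : 0 < periodicVolume G)
    (hP : periodicPerimeter G = ENNReal.ofReal (Ival (periodicVolume G))) (d : Fin 3)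
    (hz : ∀ e, e ≠ d → Zero e G) :
    (∀ᵐ t : ℝ, sl d G t = periodicVolume G) ∨
      ∃ r t0 : ℝ, 0 < r ∧ r ≤ 1 / 3 ∧ periodicVolume G = 4 * Real.pi * r ^ 3 / 3 ∧
        ∀ᵐ t : ℝ, sl d G t = Real.pi * max (r ^ 2 - dZ (t - t0) ^ 2) 0 := by
  have hpi := Real.pi_pos
  rcases planar_dir_eqP hG hp h0 hP d (planar_slices hG hp d hz) with h | ⟨r, hr, hV, hI, hB⟩
  · exact Or.inl h
  · right
    have hfin : periodicPerimeter G ≠ ∞ := by rw [hP]; exact ENNReal.ofReal_ne_top
    have hI0 := Ival_nonneg h0.le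
    have hPr : (periodicPerimeter G).toReal ≤ 4 * Real.pi * r ^ 2 := by
      rw [hP, ENNReal.toReal_ofReal hI0, hI]
    have hr3 : r ≤ 1 / 3 := by
      have h1 : Ival (periodicVolume G) ≤ 2 * Real.sqrt (Real.pi * periodicVolume G) :=
        (min_le_left _ _).trans (min_le_right _ _)
      rw [hI, hV] at h1
      have h2 : 2 * Real.pi * r ^ 2 ≤ Real.sqrt (Real.pi * (4 * Real.pi * r ^ 3 / 3)) := by
        linarith
      have h3 := pow_le_pow_left₀ (by positivity) h2 2
      rw [Real.sq_sqrt (by positivity)] at h3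
      have h4 : 0 < Real.pi ^ 2 * r ^ 3 := by positivity
      have h5 : 4 * r * (Real.pi ^ 2 * r ^ 3) ≤ 4 / 3 * (Real.pi ^ 2 * r ^ 3) := by nlinarith
      have h6 := le_of_mul_le_mul_right h5 h4
      linarith
    obtain ⟨t0, ht0⟩ := ball_profile hG hp hr (by linarith) hfin hPr hV hB
    exact ⟨r, t0, hr, hr3, hV, ht0⟩

theorem radius_unique {r r' : ℝ} (hr : 0 < r) (hr' : 0 < r')
    (h : 4 * Real.pi * r ^ 3 / 3 = 4 * Real.pi * r' ^ 3 / 3) : r = r' := by
  have hpi := Real.pi_pos
  have h1 : r ^ 3 = r' ^ 3 := by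
    have : 4 * Real.pi * r ^ 3 = 4 * Real.pi * r' ^ 3 := by linarith
    exact mul_left_cancel₀ (by positivity) this
  exact (pow_left_inj₀ hr.le hr'.le (by norm_num)).1 h1

/-- **going back by zero contact** -/
theorem back_zero (H : Model.LowerBound) {E : Set (Ev 3)} (hE : MeasurableSet E)
    (hp : IsLatticePeriodic E) (h0 : 0 < periodicVolume E) (h1 : periodicVolume E ≤ 1 / 2)
    (hP : periodicPerimeter E = ENNReal.ofReal (Ival (periodicVolume E)))
    (hz1 : Zero 1 (StE.St 0 (StE.St 1 (StE.St 2 E))))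
    (hz2 : Zero 2 (StE.St 0 (StE.St 1 (StE.St 2 E)))) :
    IsStandardRegion (periodicVolume E) E := by
  have hpi := Real.pi_pos
  -- the two intermediate sets
  set E1 := StE.St 2 E with hE1
  set E2 := StE.St 1 E1 with hE2
  have m1 : MeasurableSet E1 := StE.St_measurable hE
  have p1 : IsLatticePeriodic E1 := StE.St_periodic hp
  have m2 : MeasurableSet E2 := StE.St_measurable m1
  have p2 : IsLatticePeriodic E2 := StE.St_periodic p1
  have v1 : periodicVolume E1 = periodicVolume E := StE.St_volume hE hp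
  have v2 : periodicVolume E2 = periodicVolume E := (StE.St_volume m1 p1).trans v1
  have q1 : periodicPerimeter E1 ≤ periodicPerimeter E := StE.St_perim hE hp
  have q2 : periodicPerimeter E2 ≤ periodicPerimeter E1 := StE.St_perim m1 p1
  have l1 := H E1 m1 p1 (by rw [v1]; exact h0) (by rw [v1]; exact h1)
  have l2 := H E2 m2 p2 (by rw [v2]; exact h0) (by rw [v2]; exact h1)
  have P1 : periodicPerimeter E1 = ENNReal.ofReal (Ival (periodicVolume E1)) :=
    le_antisymm (by rw [v1, ← hP]; exact q1) l1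
  have P2 : periodicPerimeter E2 = ENNReal.ofReal (Ival (periodicVolume E2)) :=
    le_antisymm (by rw [v2, ← hP]; exact q2.trans q1) l2
  -- zero contact of `E2` in the directions 1, 2
  have z21 : Zero 1 E2 := by
    have h : ∀ t, sl 1 (StE.St 0 E2) t = sl 1 E2 t := fun t =>
      StE.sl_St_ne (d := 0) (e := 1) (by decide) m2 p2 t
    unfold Zero at hz1 ⊢
    simpa only [h] using hz1
  have z22 : Zero 2 E2 := by
    have h : ∀ t, sl 2 (StE.St 0 E2) t = sl 2 E2 t := fun t =>
      StE.sl_St_ne (d := 0) (e := 2) (by decide) m2 p2 t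
    unfold Zero at hz2 ⊢
    simpa only [h] using hz2
  have s20 : ∀ t, sl 0 E2 t = sl 0 E1 t := fun t =>
    StE.sl_St_ne (d := 1) (e := 0) (by decide) m1 p1 t
  have s22 : ∀ t, sl 2 E2 t = sl 2 E1 t := fun t =>
    StE.sl_St_ne (d := 1) (e := 2) (by decide) m1 p1 t
  have s10 : ∀ t, sl 0 E1 t = sl 0 E t := fun t =>
    StE.sl_St_ne (d := 2) (e := 0) (by decide) hE hp t
  have s11 : ∀ t, sl 1 E1 t = sl 1 E t := fun t =>
    StE.sl_St_ne (d := 2) (e := 1) (by decide) hE hp t
  -- direction 0 for `E2`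
  rcases zero_step m2 p2 (by rw [v2]; exact h0) P2 0 (by
    intro e he
    fin_cases e
    · exact absurd rfl he
    · exact z21
    · exact z22) with hc | ⟨r, t0, hr, hr3, hV, hprof0⟩
  · refine eq_e1 iso2Thm class2Thm hE hp h0 h1 hP 0 ?_
    filter_upwards [hc] with t ht
    rw [← s10, ← s20, ht, v2]
  rw [v2] at hV
  have z20 : Zero 0 E2 := zero_of_profile hr.le (by linarith) hprof0
  have z10 : Zero 0 E1 := by
    unfold Zero at z20 ⊢
    simpa only [s20] using z20
  have z12 : Zero 2 E1 := by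
    unfold Zero at z22 ⊢
    simpa only [s22] using z22
  have prof0 : ∀ᵐ t : ℝ, sl 0 E t = Real.pi * max (r ^ 2 - dZ (t - t0) ^ 2) 0 := by
    filter_upwards [hprof0] with t ht
    rw [← s10, ← s20]
    exact ht
  -- direction 1 for `E1`
  rcases zero_step m1 p1 (by rw [v1]; exact h0) P1 1 (by
    intro e he
    fin_cases e
    · exact z10
    · exact absurd rfl he
    · exact z12) with hc | ⟨r', t0', hr', hr3', hV', hprof1⟩
  · refine eq_e1 iso2Thm class2Thm hE hp h0 h1 hP 1 ?_
    filter_upwards [hc] with t ht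
    rw [← s11, ht, v1]
  rw [v1] at hV'
  have prof1 : ∀ᵐ t : ℝ, sl 1 E t = Real.pi * max (r' ^ 2 - dZ (t - t0') ^ 2) 0 := by
    filter_upwards [hprof1] with t ht
    rw [← s11]
    exact ht
  have z00 : Zero 0 E := zero_of_profile hr.le (by linarith) prof0
  have z01 : Zero 1 E := zero_of_profile hr'.le (by linarith) prof1
  -- direction 2 for `E`
  rcases zero_step hE hp h0 hP 2 (by
    intro e he
    fin_cases e
    · exact z00
    · exact z01
    · exact absurd rfl he) with hc | ⟨r'', t0'', hr'', hr3'', hV'', prof2⟩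
  · exact eq_e1 iso2Thm class2Thm hE hp h0 h1 hP 2 hc
  -- all three profiles
  have e1 : r' = r := radius_unique hr' hr (by rw [← hV', ← hV])
  have e2 : r'' = r := radius_unique hr'' hr (by rw [← hV'', ← hV])
  subst e1
  subst e2
  left
  constructor
  · rw [hV]
    have h7 : r'' ^ 3 ≤ (1 / 3) ^ 3 := pow_le_pow_left₀ hr.le hr3 3
    nlinarith
  · rw [hV, radius_of_volume hr.le]
    refine congruent_ball hE hp ![t0, t0', t0''] hr (by linarith) ?_
    intro d
    fin_cases d
    · exact prof0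
    · exact prof1
    · exact prof2

end Crest.Agent.R214
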