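import Crest.Agent.R214.Bath

/-!
# Row 214, M7: discs and balls from their marginals
-/

set_option autoImplicit false

open MeasureTheory Filter Set Crest.GeometryTopology.PeriodicPerimeter
open scoped Topology ENNReal

namespace Crest.Agent.R214

theorem vol_pball0 (c : Fin 0 → ℝ) (q : ℝ) :
    periodicVolume (pball c q : Set (Ev 0)) = if 0 < q then 1 else 0 := by
  unfold periodicVolume
  split_ifs with h
  · have h1 : pball c q ∩ unitCell 0 = (unitCell 0 : Set (Ev 0)) := by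
      apply inter_eq_right.2
      intro x _
      show ∑ i, dZ (x i - c i) ^ 2 < q
      simpa using h
    rw [h1, cell_volume]
    simp
  · have h1 : (pball c q : Set (Ev 0)) ∩ unitCell 0 = ∅ := by
      ext x
      simp only [mem_inter_iff, mem_empty_iff_false, iff_false, not_and]
      intro hx
      have hx' : ∑ i, dZ (x i - c i) ^ 2 < q := hx
      simp at hx'
      exact absurd hx' h
    rw [h1]
    simp

theorem vol_pball1 (c : Fin 1 → ℝ) {q : ℝ} (hq : q ≤ 1 / 4) :
    periodicVolume (pball c q : Set (Ev 1)) = 2 * Real.sqrt q := by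
  rw [← integral_sl (d := (0 : Fin 1)) (pball_measurable c q)]
  have h1 : ∀ t, sl (0 : Fin 1) (pball c q) t =
      (fun x => if 0 < q - x ^ 2 then (1 : ℝ) else 0) (dZ (t - c 0)) := by
    intro t
    unfold sl
    rw [slice_pball, vol_pball0]
  simp_rw [h1]
  rw [integral_dZ (f := fun x => if 0 < q - x ^ 2 then (1 : ℝ) else 0)]
  have hs0 := Real.sqrt_nonneg q
  have hs : Real.sqrt q ≤ 1 / 2 := by
    rw [Real.sqrt_le_left (by norm_num)]
    linarith
  have h2 : ∀ t : ℝ, (fun x => if 0 < q - x ^ 2 then (1 : ℝ) else 0) |t| =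
      (Ioo (-Real.sqrt q) (Real.sqrt q)).indicator (fun _ => (1 : ℝ)) t := by
    intro t
    simp only [indicator]
    have h3 : 0 < q - |t| ^ 2 ↔ t ∈ Ioo (-Real.sqrt q) (Real.sqrt q) := by
      rw [mem_Ioo, ← abs_lt, sq_abs]
      constructor
      · intro h
        exact Real.lt_sqrt_of_sq_lt (by rw [sq_abs]; linarith)
      · intro h
        have hq0 : 0 < q := by
          by_contra hcon
          rw [Real.sqrt_eq_zero_of_nonpos (not_lt.1 hcon)] at h
          exact absurd h (not_lt.2 (abs_nonneg t))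
        have h4 : t ^ 2 < q := by
          rw [← sq_abs, ← Real.sq_sqrt hq0.le]
          exact pow_lt_pow_left₀ h (abs_nonneg t) two_ne_zero
        linarith
    simp only [h3]
  rw [intervalIntegral.integral_congr (fun t _ => h2 t)]
  rw [intervalIntegral.integral_of_le (by norm_num), integral_indicator measurableSet_Ioo,
    Measure.restrict_restrict measurableSet_Ioo]
  have h3 : Ioo (-Real.sqrt q) (Real.sqrt q) ∩ Ioc (-(1 / 2) : ℝ) (1 / 2) =
      Ioo (-Real.sqrt q) (Real.sqrt q) := by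
    apply inter_eq_left.2
    intro x hx
    exact ⟨by linarith [hx.1], by linarith [hx.2]⟩
  rw [h3, setIntegral_const, smul_eq_mul, mul_one, Measure.real, Real.volume_Ioo,
    ENNReal.toReal_ofReal (by linarith)]
  ring

theorem sl_pball2 (c : Fin 2 → ℝ) {q : ℝ} (hq : q ≤ 1 / 4) (d : Fin 2) (t : ℝ) :
    sl d (pball c q) t = 2 * Real.sqrt (q - dZ (t - c d) ^ 2) := by
  unfold sl
  rw [slice_pball, vol_pball1]
  have := sq_nonneg (dZ (t - c d))
  linarith

theorem vol_pball2 (c : Fin 2 → ℝ) {q : ℝ} (hq : q ≤ 1 / 4) :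
    periodicVolume (pball c q : Set (Ev 2)) = Real.pi * max q 0 := by
  rw [← integral_sl (d := (0 : Fin 2)) (pball_measurable c q)]
  simp_rw [sl_pball2 c hq]
  rcases le_or_gt q 0 with h | h
  · rw [max_eq_right h, mul_zero]
    have h1 : ∀ t : ℝ, 2 * Real.sqrt (q - dZ (t - c 0) ^ 2) = 0 := by
      intro t
      rw [Real.sqrt_eq_zero_of_nonpos, mul_zero]
      have := sq_nonneg (dZ (t - c 0))
      linarith
    simp_rw [h1]
    simp
  · have h1 : Real.sqrt q ^ 2 = q := Real.sq_sqrt h.le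
    have h2 : Real.sqrt q ≤ 1 / 2 := by
      rw [Real.sqrt_le_left (by norm_num)]
      linarith
    have h3 := integral_disc (Real.sqrt_pos.2 h) h2 (c 0)
    rw [h1] at h3
    rw [h3, max_eq_left h.le]

theorem sl_pball3 (c : Fin 3 → ℝ) {q : ℝ} (hq : q ≤ 1 / 4) (d : Fin 3) (t : ℝ) :
    sl d (pball c q) t = Real.pi * max (q - dZ (t - c d) ^ 2) 0 := by
  unfold sl
  rw [slice_pball, vol_pball2]
  have := sq_nonneg (dZ (t - c d))
  linarith

theorem vol_pball3 (c : Fin 3 → ℝ) {r : ℝ} (hr : 0 ≤ r) (hr2 : r ≤ 1 / 2) :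
    periodicVolume (pball c (r ^ 2) : Set (Ev 3)) = 4 * Real.pi * r ^ 3 / 3 := by
  rw [← integral_sl (d := (0 : Fin 3)) (pball_measurable c _)]
  simp_rw [sl_pball3 c (show r ^ 2 ≤ 1 / 4 by nlinarith)]
  exact integral_ball hr hr2 (c 0)

/-- a planar set with the marginals of a disc is a disc -/
theorem disc_of_marginals {E : Set (Ev 2)} (hE : MeasurableSet E) (hp : IsLatticePeriodic E)
    (c : Fin 2 → ℝ) {r : ℝ} (hr : 0 ≤ r) (hr2 : r ≤ 1 / 2)
    (h : ∀ d, ∀ᵐ t, sl d E t = 2 * Real.sqrt (r ^ 2 - dZ (t - c d) ^ 2)) :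
    volume (symmDiff E (pball c (r ^ 2))) = 0 := by
  refine bathtub hE hp c _ fun d => ?_
  filter_upwards [h d] with t ht
  rw [ht, sl_pball2 c (by nlinarith)]

/-- a set with the marginals of a ball is a ball -/
theorem ball_of_marginals {E : Set (Ev 3)} (hE : MeasurableSet E) (hp : IsLatticePeriodic E)
    (c : Fin 3 → ℝ) {r : ℝ} (hr : 0 ≤ r) (hr2 : r ≤ 1 / 2)
    (h : ∀ d, ∀ᵐ t, sl d E t = Real.pi * max (r ^ 2 - dZ (t - c d) ^ 2) 0) :
    volume (symmDiff E (pball c (r ^ 2))) = 0 := by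
  refine bathtub hE hp c _ fun d => ?_
  filter_upwards [h d] with t ht
  rw [ht, sl_pball3 c (by nlinarith)]

/-- the periodic ball of the Prelude -/
theorem periodicBall_eq {r : ℝ} (hr : 0 < r) : periodicBall r = pball (fun _ : Fin 3 => 0) (r ^ 2) := by
  ext x
  constructor
  · rintro ⟨v, hv, hd⟩
    show ∑ i, dZ (x i - 0) ^ 2 < r ^ 2
    rw [EuclideanSpace.dist_eq, Real.sqrt_lt' hr] at hd
    refine lt_of_le_of_lt (Finset.sum_le_sum fun i _ => ?_) hd
    obtain ⟨m, hm⟩ := hv i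
    rw [sub_zero, hm, Real.dist_eq]
    exact pow_le_pow_left₀ (dZ_nonneg _) (dZ_le _ _) 2
  · intro hx
    have hx' : ∑ i, dZ (x i - 0) ^ 2 < r ^ 2 := hx
    refine ⟨WithLp.toLp 2 fun i => (round (x i) : ℝ), fun i => ⟨round (x i), rfl⟩, ?_⟩
    rw [EuclideanSpace.dist_eq, Real.sqrt_lt' hr]
    refine lt_of_le_of_lt (le_of_eq (Finset.sum_congr rfl fun i _ => ?_)) hx'
    rw [sub_zero, Real.dist_eq]
    rfl

/-- translated balls -/
theorem image_pball {n : ℕ} (c : Fin n → ℝ) (q : ℝ) :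
    (fun x : Ev n => x + WithLp.toLp 2 c) '' (pball (fun _ => 0) q) = pball c q := by
  ext x
  constructor
  · rintro ⟨y, hy, rfl⟩
    show ∑ i, dZ ((y + WithLp.toLp 2 c) i - c i) ^ 2 < q
    have hy' : ∑ i, dZ (y i - 0) ^ 2 < q := hy
    refine lt_of_le_of_lt (le_of_eq (Finset.sum_congr rfl fun i _ => ?_)) hy'
    rw [PiLp.add_apply, sub_zero]
    simp
  · intro hx
    have hx' : ∑ i, dZ (x i - c i) ^ 2 < q := hx
    refine ⟨x - WithLp.toLp 2 c, ?_, by simp⟩
    show ∑ i, dZ ((x - WithLp.toLp 2 c) i - 0) ^ 2 < q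
    refine lt_of_le_of_lt (le_of_eq (Finset.sum_congr rfl fun i _ => ?_)) hx'
    rw [PiLp.sub_apply, sub_zero]

/-- ball conclusion -/
theorem congruent_ball {E : Set (Ev 3)} (hE : MeasurableSet E) (hp : IsLatticePeriodic E)
    (c : Fin 3 → ℝ) {r : ℝ} (hr : 0 < r) (hr2 : r ≤ 1 / 2)
    (h : ∀ d, ∀ᵐ t, sl d E t = Real.pi * max (r ^ 2 - dZ (t - c d) ^ 2) 0) :
    CongruentModNull E (periodicBall r) := by
  refine ⟨fun x => x + WithLp.toLp 2 c, isCubic_add _, ?_⟩
  rw [periodicBall_eq hr, image_pball]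
  exact ball_of_marginals hE hp c hr.le hr2 h

end Crest.Agent.R214
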