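import Crest.Agent.R214.Iso2D

/-! ROW 214: neck bound in dimension two (helper10; paper proof by helper48/helper16).
`x`-dependent field `h(x) = s (1 - 2 (x - x0))` on `(x0, x0+1)`. -/

set_option autoImplicit false
open MeasureTheory Set Filter Topology intervalIntegral

namespace Crest.Agent.R214

/-- `Φ(s) = ∫_0^1 sqrt(1 - s² m²) dm` -/
noncomputable def PhiN (s : ℝ) : ℝ := ∫ m in (0:ℝ)..1, Real.sqrt (1 - (s * m) ^ 2)

lemma int_PhiN (s x0 : ℝ) :
    ∫ x in x0..(x0 + 1), Real.sqrt (1 - (s * (1 - 2 * (x - x0))) ^ 2) = PhiN s := by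
  have hc : Continuous fun u : ℝ => Real.sqrt (1 - (s * u) ^ 2) := by fun_prop
  have h1 : ∫ x in x0..(x0 + 1), Real.sqrt (1 - (s * (1 - 2 * (x - x0))) ^ 2) =
      (-2 : ℝ)⁻¹ • ∫ u in (-2 * x0 + (1 + 2 * x0))..(-2 * (x0 + 1) + (1 + 2 * x0)),
        Real.sqrt (1 - (s * u) ^ 2) := by
    rw [← intervalIntegral.integral_comp_mul_add (fun u : ℝ => Real.sqrt (1 - (s * u) ^ 2))
      (by norm_num : (-2 : ℝ) ≠ 0)]
    refine integral_congr fun x _ => ?_
    show Real.sqrt (1 - (s * (1 - 2 * (x - x0))) ^ 2) =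
      Real.sqrt (1 - (s * (-2 * x + (1 + 2 * x0))) ^ 2)
    congr 2
    ring
  have e1 : -2 * x0 + (1 + 2 * x0) = 1 := by ring
  have e2 : -2 * (x0 + 1) + (1 + 2 * x0) = -1 := by ring
  rw [h1, e1, e2, intervalIntegral.integral_symm]
  have h2 : ∫ u in (-1:ℝ)..0, Real.sqrt (1 - (s * u) ^ 2) =
      ∫ u in (0:ℝ)..1, Real.sqrt (1 - (s * u) ^ 2) := by
    have := intervalIntegral.integral_comp_neg (a := 0) (b := 1)
      (fun u => Real.sqrt (1 - (s * u) ^ 2))
    simp only [mul_neg, neg_sq, neg_zero] at this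
    exact this.symm
  have h3 : (∫ u in (-1:ℝ)..0, Real.sqrt (1 - (s * u) ^ 2)) +
      ∫ u in (0:ℝ)..1, Real.sqrt (1 - (s * u) ^ 2) =
      ∫ u in (-1:ℝ)..1, Real.sqrt (1 - (s * u) ^ 2) :=
    integral_add_adjacent_intervals (hc.intervalIntegrable _ _) (hc.intervalIntegrable _ _)
  rw [← h3, h2, smul_eq_mul]
  unfold PhiN
  ring

section key

variable {P : ℝ} {a J : ℝ → ℝ} {an Tn : ℕ → ℝ → ℝ}

/-- the field `h(x) = s (1 - 2 (x - x0))` at a convergence point `x0` -/
lemma SQ.xfield (Q : SQ P a J an Tn) (S : SD P a J) {s : ℝ} (hs0 : 0 ≤ s) (hs1 : s ≤ 1) {x0 : ℝ}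
    (hx0 : Tendsto (fun n => an n x0) atTop (𝓝 (a x0))) :
    IntervalIntegrable (fun x => Real.sqrt (1 - (s * (1 - 2 * (x - x0))) ^ 2) * J x) volume
        x0 (x0 + 1) ∧
      (∫ x in x0..(x0 + 1), Real.sqrt (1 - (s * (1 - 2 * (x - x0))) ^ 2) * J x) +
        s * ((∫ x in (0:ℝ)..1, a x) - a x0) ≤ P / 2 := by
  set c : ℝ → ℝ := fun x => Real.sqrt (1 - (s * (1 - 2 * (x - x0))) ^ 2) with hc
  set h : ℝ → ℝ := fun x => s * (1 - 2 * (x - x0)) with hh
  have hcc : Continuous c := by fun_prop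
  have hhc : Continuous h := by fun_prop
  have hle1 : x0 ≤ x0 + 1 := by linarith
  have hh1 : ∀ x ∈ Icc x0 (x0 + 1), h x ^ 2 ≤ 1 := by
    intro x hx
    have h1 : -1 ≤ 1 - 2 * (x - x0) := by linarith [hx.2]
    have h2 : 1 - 2 * (x - x0) ≤ 1 := by linarith [hx.1]
    have h3 : (1 - 2 * (x - x0)) ^ 2 ≤ 1 := by nlinarith
    have h4 : s ^ 2 ≤ 1 := by nlinarith
    show (s * (1 - 2 * (x - x0))) ^ 2 ≤ 1
    rw [mul_pow]
    nlinarith [sq_nonneg s, sq_nonneg (1 - 2 * (x - x0))]
  have hch : ∀ x ∈ Icc x0 (x0 + 1), c x ^ 2 + h x ^ 2 ≤ 1 := by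
    intro x hx
    show Real.sqrt (1 - h x ^ 2) ^ 2 + h x ^ 2 ≤ 1
    rw [Real.sq_sqrt (by linarith [hh1 x hx])]
    linarith
  have hIper : ∀ n, ∫ x in x0..(x0 + 1), an n x = ∫ x in (0:ℝ)..1, an n x := by
    intro n
    have := (Q.per n).intervalIntegral_add_eq x0 0
    rwa [zero_add] at this
  -- the inequality for every n
  have key : ∀ n, ∫ x in x0..(x0 + 1), c x * Tn n x ≤
      P - 2 * (s * ((∫ x in (0:ℝ)..1, an n x) - an n x0)) := by
    intro n
    have i1 : IntervalIntegrable (fun x => c x * Tn n x) volume x0 (x0 + 1) :=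
      (hcc.mul (Q.contT n)).intervalIntegrable _ _
    have i2 : IntervalIntegrable (fun x => h x * deriv (an n) x) volume x0 (x0 + 1) :=
      (hhc.mul (Q.cont_deriv n)).intervalIntegrable _ _
    have hip : ∫ x in x0..(x0 + 1), h x * deriv (an n) x =
        2 * (s * ((∫ x in (0:ℝ)..1, an n x) - an n x0)) := by
      have hd : ∀ x, HasDerivAt h (-2 * s) x := by
        intro x
        have h1 : HasDerivAt (fun x : ℝ => x - x0) 1 x := (hasDerivAt_id x).sub_const x0
        exact (((h1.const_mul 2).const_sub 1).const_mul s).congr_deriv (by ring)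
      have := intervalIntegral.integral_mul_deriv_eq_deriv_mul (a := x0) (b := x0 + 1)
        (u := h) (v := an n) (u' := fun _ => -2 * s) (v' := deriv (an n))
        (fun x _ => hd x) (fun x _ => ((Q.c1 n).differentiable (by norm_num) x).hasDerivAt)
        (by exact (continuous_const.intervalIntegrable _ _))
        ((Q.cont_deriv n).intervalIntegrable _ _)
      rw [this, intervalIntegral.integral_const_mul, hIper n, Q.per n x0]
      have e1 : h (x0 + 1) = -s := by simp only [hh]; ring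
      have e2 : h x0 = s := by simp only [hh]; ring
      rw [e1, e2]
      ring
    have hF := Q.Fn_per n x0
    have hsum : (∫ x in x0..(x0 + 1), c x * Tn n x) + ∫ x in x0..(x0 + 1), h x * deriv (an n) x ≤
        Fn an Tn n x0 (x0 + 1) := by
      rw [← integral_add i1 i2]
      refine integral_mono_on hle1 (i1.add i2) ((Q.cont_F n).intervalIntegrable _ _) fun x hx => ?_
      have h1 : c x ^ 2 + |h x| ^ 2 ≤ 1 := by rw [sq_abs]; exact hch x hx
      have h2 := sqrt_ge_pair (T := Tn n x) (d := deriv (an n) x) h1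
      have h3 : h x * deriv (an n) x ≤ |h x| * |deriv (an n) x| := by
        rw [← abs_mul]; exact le_abs_self _
      linarith
    rw [hip] at hsum
    linarith
  -- convergence of the integrals
  have hconv : Tendsto (fun n => ∫ x in (0:ℝ)..1, an n x) atTop (𝓝 (∫ x in (0:ℝ)..1, a x)) := by
    refine intervalIntegral.tendsto_integral_filter_of_dominated_convergence (fun _ => (1:ℝ))
      (Eventually.of_forall fun n => (Q.cont n).aestronglyMeasurable)
      (Eventually.of_forall fun n => Eventually.of_forall fun x _ => ?_)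
      intervalIntegrable_const ?_
    · rw [Real.norm_eq_abs, abs_of_nonneg (Q.a01 n x).1]
      exact (Q.a01 n x).2
    · filter_upwards [Q.conv] with x hx _
      exact hx
  have hb : Tendsto (fun n => P - 2 * (s * ((∫ x in (0:ℝ)..1, an n x) - an n x0))) atTop
      (𝓝 (P - 2 * (s * ((∫ x in (0:ℝ)..1, a x) - a x0)))) :=
    tendsto_const_nhds.sub (((hconv.sub hx0).const_mul s).const_mul 2)
  have c1 : ∀ x, c x ≤ 1 := fun x => by
    show Real.sqrt (1 - h x ^ 2) ≤ 1
    exact Real.sqrt_le_iff.2 ⟨zero_le_one, by nlinarith [sq_nonneg (h x)]⟩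
  obtain ⟨f1, f2⟩ := Q.fatou S.meas_J S.J0 (fun _ x => c x) c
    (fun n => hcc.measurable) hcc.measurable (fun n x => Real.sqrt_nonneg _) (fun n x => c1 _)
    (Eventually.of_forall fun x => tendsto_const_nhds) _ _ hb hle1 (Eventually.of_forall key)
  exact ⟨f1, by linarith⟩

end key

section neck

variable {P : ℝ} {l : ℝ → ℝ}

/-- measure of the full fibres -/
noncomputable def fullM (l : ℝ → ℝ) : ℝ := ∫ x in (0:ℝ)..1, if l x = 1 then (1:ℝ) else 0

lemma fullM_eq {l : ℝ → ℝ} (hl : Measurable l) :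
    fullM l = (volume ({x | l x = 1} ∩ Ico 0 1)).toReal := by
  unfold fullM
  have hm : MeasurableSet {x | l x = 1} := hl (measurableSet_singleton 1)
  rw [intervalIntegral.integral_of_le zero_le_one, ← integral_Ico_eq_integral_Ioc]
  have : (fun x => if l x = 1 then (1:ℝ) else 0) = ({x | l x = 1}).indicator fun _ => (1:ℝ) := by
    funext x
    by_cases h : l x = 1
    · rw [if_pos h, indicator_of_mem (show x ∈ {x | l x = 1} from h)]
    · rw [if_neg h, indicator_of_notMem (show x ∉ {x | l x = 1} from h)]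
  rw [this, integral_indicator_const _ hm, smul_eq_mul, mul_one, Measure.real,
    Measure.restrict_apply hm]

lemma full_meas {l : ℝ → ℝ} (hl : Measurable l) : Measurable fun x => if l x = 1 then (1:ℝ) else 0 :=
  Measurable.ite (hl (measurableSet_singleton 1)) measurable_const measurable_const

lemma full_int {l : ℝ → ℝ} (hl : Measurable l) (u v : ℝ) :
    IntervalIntegrable (fun x => if l x = 1 then (1:ℝ) else 0) volume u v := by
  rw [intervalIntegrable_iff]
  refine Integrable.mono' (g := fun _ => (1:ℝ)) ?_ (full_meas hl).aestronglyMeasurable ?_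
  · exact intervalIntegrable_iff.1 intervalIntegrable_const
  · refine Eventually.of_forall fun x => ?_
    split_ifs <;> simp

lemma fullM_nonneg (l : ℝ → ℝ) : 0 ≤ fullM l :=
  intervalIntegral.integral_nonneg zero_le_one fun x _ => by split_ifs <;> norm_num

/-- empty fibres exist: planar bound up to the measure of the full fibres -/
lemma SD.neck_zero (S : SD P l (fun x => I1 (l x)))
    (h0 : 0 < volume ({x | l x = 0} ∩ Ico 0 1)) :
    Real.sqrt (Real.pi * ∫ x in (0:ℝ)..1, l x) - fullM l ≤ P / 2 := by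
  rcases eq_or_ne (volume ({x | l x = 1} ∩ Ico 0 1)) 0 with h1 | h1
  · have h1' : ∀ᵐ x : ℝ, l x < 1 := by
      have := ae_of_cell_null (fun x => l x ≠ 1) (fun x => by rw [S.per_a x]) (by
        simpa only [ne_eq, not_not] using h1)
      filter_upwards [this] with x hx
      exact lt_of_le_of_ne (S.a01 x).2 hx
    have := S.iso_disc h0 h1'
    have := fullM_nonneg l
    linarith
  · have hcc : Continuous fun s : ℝ => s := continuous_id
    have hhc : Continuous fun s : ℝ => Real.sqrt (1 - (s / 1) ^ 2) := by fun_prop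
    have key := (S.lm_on (a1 := 0) (a2 := 1) zero_le_one
      (Eventually.of_forall fun x => S.a01 x)
      (fun δ hδ => lt_of_lt_of_le h0 (measure_mono (inter_subset_inter_left _
        fun x (hx : l x = 0) => by show l x < 0 + δ; rw [hx]; linarith)))
      (fun δ hδ => lt_of_lt_of_le (pos_iff_ne_zero.2 h1) (measure_mono (inter_subset_inter_left _
        fun x (hx : l x = 1) => by show 1 - δ < l x; rw [hx]; linarith)))
      (fun s => s) (fun s => Real.sqrt (1 - (s / 1) ^ 2)) hcc.continuousOn hhc.continuousOn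
      (fun s hs => hs.1) (fun s _ => Real.sqrt_nonneg _)
      (fun s hs => by
        have h2 : (s / 1) ^ 2 ≤ 1 := by rw [div_one]; nlinarith [hs.1, hs.2]
        rw [Real.sq_sqrt (by linarith)]; rw [div_one]; linarith)).2
    rw [integral_circle one_pos] at key
    have e1 : ∫ x in (0:ℝ)..1, l x * I1 (l x) = (∫ x in (0:ℝ)..1, l x) - fullM l := by
      unfold fullM
      rw [← intervalIntegral.integral_sub (S.intervalIntegrable_a 0 1) (full_int S.meas_a 0 1)]
      refine integral_congr fun x _ => ?_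
      show l x * I1 (l x) = l x - if l x = 1 then (1:ℝ) else 0
      unfold I1
      by_cases h2 : l x = 1
      · rw [if_pos h2, if_neg (by rw [h2]; simp), h2]; norm_num
      · rw [if_neg h2]
        rcases eq_or_lt_of_le (S.a01 x).1 with hz | hz
        · rw [← hz]; simp
        · rw [if_pos ⟨hz, lt_of_le_of_ne (S.a01 x).2 h2⟩]; ring
    rw [e1] at key
    have := amgm_disc (v := ∫ x in (0:ℝ)..1, l x) (L := 1)
      (p := (∫ x in (0:ℝ)..1, l x) / 1 + Real.pi * 1 / 4) one_pos S.int_a_nonneg le_rfl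
    linarith

/-- no empty fibres: neck bound -/
lemma SD.neck_pos (S : SD P l (fun x => I1 (l x))) (h0 : ∀ᵐ x : ℝ, 0 < l x) {n0 : ℝ}
    (hn : ∀ δ > 0, 0 < volume ({x | l x < n0 + δ} ∩ Ico 0 1)) {s : ℝ} (hs0 : 0 ≤ s) (hs1 : s ≤ 1) :
    s * ((∫ x in (0:ℝ)..1, l x) - n0) + PhiN s - fullM l ≤ P / 2 := by
  obtain ⟨an, Tn, Q⟩ := S.seq
  refine le_of_forall_pos_le_add fun δ hδ => ?_
  obtain ⟨x0, hx, hx1, hx2⟩ := exists_of_ae_pos Q.conv (hn δ hδ)
  have hx2' : l x0 < n0 + δ := hx2
  obtain ⟨f1, f2⟩ := Q.xfield S hs0 hs1 hx1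
  have hfull : ∫ x in x0..(x0 + 1), (if l x = 1 then (1:ℝ) else 0) = fullM l := by
    have hp : Function.Periodic (fun x => if l x = 1 then (1:ℝ) else 0) 1 := by
      intro x; simp only [S.per_a x]
    have := hp.intervalIntegral_add_eq x0 0
    rw [zero_add] at this
    exact this
  have hcc : Continuous fun x : ℝ => Real.sqrt (1 - (s * (1 - 2 * (x - x0))) ^ 2) := by fun_prop
  have hlow : PhiN s - fullM l ≤
      ∫ x in x0..(x0 + 1), Real.sqrt (1 - (s * (1 - 2 * (x - x0))) ^ 2) * I1 (l x) := by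
    rw [← int_PhiN s x0, ← hfull, ← intervalIntegral.integral_sub (hcc.intervalIntegrable _ _)
      (full_int S.meas_a _ _)]
    refine intervalIntegral.integral_mono_ae (by linarith)
      ((hcc.intervalIntegrable _ _).sub (full_int S.meas_a _ _)) f1 ?_
    filter_upwards [h0] with x hx
    have hr : Real.sqrt (1 - (s * (1 - 2 * (x - x0))) ^ 2) ≤ 1 :=
      Real.sqrt_le_iff.2 ⟨zero_le_one, by nlinarith [sq_nonneg (s * (1 - 2 * (x - x0)))]⟩
    have hr0 := Real.sqrt_nonneg (1 - (s * (1 - 2 * (x - x0))) ^ 2)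
    unfold I1
    by_cases h2 : l x = 1
    · rw [if_pos h2, if_neg (by rw [h2]; simp)]
      linarith
    · rw [if_neg h2, if_pos ⟨hx, lt_of_le_of_ne (S.a01 x).2 h2⟩]
      linarith
  have : s * (n0 + δ - l x0) ≥ 0 := mul_nonneg hs0 (by linarith)
  nlinarith

/-- NECK BOUND, abstract form -/
theorem SD.neck (S : SD P l (fun x => I1 (l x))) {n0 : ℝ}
    (hn : ∀ δ > 0, 0 < volume ({x | l x < n0 + δ} ∩ Ico 0 1)) :
    Real.sqrt (Real.pi * ∫ x in (0:ℝ)..1, l x) - fullM l ≤ P / 2 ∨
      ∀ s : ℝ, 0 ≤ s → s ≤ 1 →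
        s * ((∫ x in (0:ℝ)..1, l x) - n0) + PhiN s - fullM l ≤ P / 2 := by
  rcases eq_or_ne (volume ({x | l x = 0} ∩ Ico 0 1)) 0 with h0 | h0
  · have h0' : ∀ᵐ x : ℝ, 0 < l x := by
      have := ae_of_cell_null (fun x => l x ≠ 0) (fun x => by rw [S.per_a x]) (by
        simpa only [ne_eq, not_not] using h0)
      filter_upwards [this] with x hx
      exact lt_of_le_of_ne (S.a01 x).1 (Ne.symm hx)
    exact Or.inr fun s hs0 hs1 => S.neck_pos h0' hn hs0 hs1
  · exact Or.inl (S.neck_zero (pos_iff_ne_zero.2 h0))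

end neck

end Crest.Agent.R214
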