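import Crest.Agent.R214.M5e
import Crest.Agent.R214.Bath2
import Crest.Agent.R214.Neck

/-! ROW 214: final two-dimensional statements (helper10). -/

set_option autoImplicit false
open MeasureTheory Set Filter Topology Crest.GeometryTopology.PeriodicPerimeter
open scoped ENNReal

namespace Crest.Agent.R214

/-- the `SQ` datum of a planar set, for any mollification -/
theorem sq2 {K : Set (Ev 2)} (hK : MeasurableSet K) (hper : IsLatticePeriodic K)
    {u : ℕ → Ev 2 → ℝ} (M : Moll K u) (hP : periodicPerimeter K ≠ ∞) (d : Fin 2) :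
    SQ (periodicPerimeter K).toReal (sl d K)
      (fun t => I1 (sl d K t)) (fun k => am d (u k)) (fun k => Tm d (u k)) :=
  sq_of_perim hK hP M d (fun _ => I1_nonneg _) (Eventually.of_forall fun t =>
    perim1_ge (slice_measurable (d := d) hK t) (slice_periodic (d := d) hper t))

/-- (2c): sets which wrap in both directions -/
theorem wrap2 {K : Set (Ev 2)} (hK : MeasurableSet K) (hper : IsLatticePeriodic K)
    (h : ∀ d : Fin 2, ∀ᵐ t : ℝ, 0 < sl d K t) :
    ENNReal.ofReal (2 * min (Real.sqrt 2) (Real.sqrt (Real.pi * (1 - periodicVolume K)))) ≤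
      periodicPerimeter K :=
  wrap2_aux hK hper (moll_mol hK hper)
    (fun hP d => sq2 hK hper (moll_mol hK hper) hP d) h

/-- complement: if full lines exist in both directions, `P/2 ≥ √(π(1-|K|))` -/
theorem full2 {K : Set (Ev 2)} (hK : MeasurableSet K) (hper : IsLatticePeriodic K)
    (h0 : 0 < volume ({t | sl 0 K t = 1} ∩ Ico 0 1))
    (h1 : 0 < volume ({t | sl 1 K t = 1} ∩ Ico 0 1)) :
    ENNReal.ofReal (2 * Real.sqrt (Real.pi * (1 - periodicVolume K))) ≤ periodicPerimeter K := by
  by_cases hP : periodicPerimeter K = ∞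
  · rw [hP]; exact le_top
  have hpos : ∀ᵐ t : ℝ, 0 < sl 0 K t := by
    have hc : ∀ (d : Fin 2) (t : ℝ), sl d Kᶜ t = 1 - sl d K t := by
      intro d t
      unfold sl periodicVolume
      have h3 : slice d Kᶜ t ∩ unitCell 1 = unitCell 1 \ (slice d K t ∩ unitCell 1) := by
        ext y
        simp only [mem_inter_iff, Set.mem_sdiff, not_and]
        constructor
        · rintro ⟨a, b⟩
          exact ⟨b, fun c => absurd c a⟩
        · rintro ⟨a, b⟩
          exact ⟨fun c => b c a, a⟩
      have hf : volume (slice d K t ∩ unitCell 1) ≠ ∞ := ne_top_of_le_ne_top ENNReal.one_ne_top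
        ((measure_mono inter_subset_right).trans (cell_volume 1).le)
      rw [h3, measure_sdiff inter_subset_right
        ((slice_measurable hK t).inter (measurableSet_cell 1)).nullMeasurableSet hf, cell_volume,
        ENNReal.toReal_sub_of_le ((measure_mono inter_subset_right).trans (cell_volume 1).le)
          ENNReal.one_ne_top]
      simp
    have h4 : 0 < volume ({t | sl 1 Kᶜ t = 0} ∩ Ico 0 1) := by
      have e : {t | sl 1 Kᶜ t = 0} = {t | sl 1 K t = 1} := by
        ext t
        show sl 1 Kᶜ t = 0 ↔ sl 1 K t = 1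
        rw [hc 1 t]
        constructor <;> intro h <;> linarith
      rw [e]; exact h1
    have := sl_lt_one_of_null hK.compl (periodic_compl' hper) (d := 0) (e := 1) (by decide) h4
    filter_upwards [this] with t ht
    rw [hc 0 t] at ht
    linarith
  have := (sd2 hK hper hP 0).compl_I1.iso_disc (by
    have e : {x | 1 - sl 0 K x = 0} = {x | sl 0 K x = 1} := by
      ext x
      show 1 - sl 0 K x = 0 ↔ sl 0 K x = 1
      constructor <;> intro h <;> linarith
    rw [e]; exact h0) (by filter_upwards [hpos] with x hx; linarith)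
  rw [(sd2 hK hper hP 0).int_compl, integral_sl (d := 0) hK] at this
  exact ENNReal.ofReal_le_of_le_toReal (by linarith)

/-- CLASSIFICATION of the planar isoperimetric sets of volume `≤ 1/2` -/
theorem classify2 {K : Set (Ev 2)} (hK : MeasurableSet K) (hper : IsLatticePeriodic K)
    (hv : 0 < periodicVolume K) (hv2 : periodicVolume K ≤ 1 / 2)
    (hP : periodicPerimeter K ≤ ENNReal.ofReal (2 * I2 (periodicVolume K))) :
    (periodicVolume K ≤ 1 / Real.pi ∧ ∃ c : Fin 2 → ℝ,
        volume (symmDiff K (pball c (periodicVolume K / Real.pi))) = 0) ∨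
      (1 / Real.pi ≤ periodicVolume K ∧ ∃ (d : Fin 2) (t : ℝ), ∀ᵐ x : Ev 2,
        (x ∈ K ↔ ∃ z : ℤ, (z : ℝ) + t ≤ x d ∧ x d < z + t + periodicVolume K)) := by
  have M := moll_mol hK hper
  rcases classify2_aux hK hper M (fun hP d => sq2 hK hper M hP d) hv hv2 hP with
    ⟨h1, c, hc⟩ | h
  · left
    refine ⟨h1, c, ?_⟩
    have hpi := Real.pi_pos
    have hr2 : Real.sqrt (periodicVolume K / Real.pi) ^ 2 = periodicVolume K / Real.pi :=
      Real.sq_sqrt (by positivity)
    have hrh : Real.sqrt (periodicVolume K / Real.pi) ≤ 1 / 2 := by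
      rw [Real.sqrt_le_left (by norm_num), div_le_iff₀ hpi]
      have : 1 / Real.pi ≤ 1 / 3 := one_div_le_one_div_of_le (by norm_num) Real.pi_gt_three.le
      nlinarith [Real.pi_gt_three]
    have := disc_of_marginals hK hper c (Real.sqrt_nonneg _) hrh hc
    rwa [hr2] at this
  · exact Or.inr h

/-- NECK BOUND for planar sets -/
theorem neck2 {K : Set (Ev 2)} (hK : MeasurableSet K) (hper : IsLatticePeriodic K) (d : Fin 2)
    {n0 : ℝ} (hn : ∀ δ > 0, 0 < volume ({x | sl d K x < n0 + δ} ∩ Ico 0 1)) :
    ENNReal.ofReal (2 * (Real.sqrt (Real.pi * periodicVolume K) - fullM (sl d K))) ≤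
        periodicPerimeter K ∨
      ∀ s : ℝ, 0 ≤ s → s ≤ 1 →
        ENNReal.ofReal (2 * (s * (periodicVolume K - n0) + PhiN s - fullM (sl d K))) ≤
          periodicPerimeter K := by
  by_cases hP : periodicPerimeter K = ∞
  · left; rw [hP]; exact le_top
  rcases (sd2 hK hper hP d).neck hn with h | h
  · left
    rw [integral_sl (d := d) hK] at h
    exact ENNReal.ofReal_le_of_le_toReal (by linarith)
  · right
    intro s hs0 hs1
    have := h s hs0 hs1
    rw [integral_sl (d := d) hK] at this
    exact ENNReal.ofReal_le_of_le_toReal (by linarith)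

end Crest.Agent.R214
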