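import Crest.Agent.R214.ModelT

/-! Row 214, M8: the isoperimetric value is attained by the models (upper bounds). -/

set_option autoImplicit false

open MeasureTheory Metric Filter Crest.GeometryTopology.PeriodicPerimeter
open scoped Topology ENNReal

noncomputable section

namespace Crest.Agent.R214.Model

/-- the isoperimetric value at `v ≤ 1/2` -/
def Ival (v : ℝ) : ℝ :=
  min (min ((36 * Real.pi) ^ ((1 : ℝ) / 3) * v ^ ((2 : ℝ) / 3)) (2 * Real.sqrt (Real.pi * v))) 2

lemma ballVal_pow6 {v : ℝ} (hv : 0 < v) :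
    ((36 * Real.pi) ^ ((1 : ℝ) / 3) * v ^ ((2 : ℝ) / 3)) ^ 6 = (36 * Real.pi) ^ 2 * v ^ 4 := by
  have hpi := Real.pi_pos
  rw [mul_pow, ← Real.rpow_natCast, ← Real.rpow_mul (by positivity), ← Real.rpow_natCast,
    ← Real.rpow_mul hv.le]
  norm_num

lemma tubeVal_pow6 {v : ℝ} (hv : 0 < v) :
    (2 * Real.sqrt (Real.pi * v)) ^ 6 = 64 * Real.pi ^ 3 * v ^ 3 := by
  have hpi := Real.pi_pos
  have h : Real.sqrt (Real.pi * v) ^ 2 = Real.pi * v := Real.sq_sqrt (by positivity)
  calc (2 * Real.sqrt (Real.pi * v)) ^ 6 = 64 * (Real.sqrt (Real.pi * v) ^ 2) ^ 3 := by ring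
    _ = _ := by rw [h]; ring

lemma ball_le_tube {v : ℝ} (hv : 0 < v) (h : v ≤ 4 * Real.pi / 81) :
    (36 * Real.pi) ^ ((1 : ℝ) / 3) * v ^ ((2 : ℝ) / 3) ≤ 2 * Real.sqrt (Real.pi * v) := by
  have hpi := Real.pi_pos
  apply le_of_pow_le_pow_left₀ (n := 6) (by norm_num) (by positivity)
  rw [ballVal_pow6 hv, tubeVal_pow6 hv]
  have h1 : 0 < Real.pi ^ 2 * v ^ 3 := by positivity
  have h2 : 1296 * v ≤ 64 * Real.pi := by linarith
  nlinarith [mul_le_mul_of_nonneg_left h2 h1.le]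

lemma tube_le_ball {v : ℝ} (hv : 0 < v) (h : 4 * Real.pi / 81 ≤ v) :
    2 * Real.sqrt (Real.pi * v) ≤ (36 * Real.pi) ^ ((1 : ℝ) / 3) * v ^ ((2 : ℝ) / 3) := by
  have hpi := Real.pi_pos
  apply le_of_pow_le_pow_left₀ (n := 6) (by norm_num) (by positivity)
  rw [ballVal_pow6 hv, tubeVal_pow6 hv]
  have h1 : 0 < Real.pi ^ 2 * v ^ 3 := by positivity
  have h2 : 64 * Real.pi ≤ 1296 * v := by linarith
  nlinarith [mul_le_mul_of_nonneg_left h2 h1.le]

lemma tube_le_two {v : ℝ} (h : v ≤ 1 / Real.pi) : 2 * Real.sqrt (Real.pi * v) ≤ 2 := by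
  have hpi := Real.pi_pos
  have h1 : Real.sqrt (Real.pi * v) ≤ 1 := by
    rw [Real.sqrt_le_one]
    calc Real.pi * v ≤ Real.pi * (1 / Real.pi) := by gcongr
      _ = 1 := by field_simp
  linarith

lemma two_le_tube {v : ℝ} (h : 1 / Real.pi ≤ v) : 2 ≤ 2 * Real.sqrt (Real.pi * v) := by
  have hpi := Real.pi_pos
  have h1 : 1 ≤ Real.sqrt (Real.pi * v) := by
    rw [Real.one_le_sqrt]
    calc (1 : ℝ) = Real.pi * (1 / Real.pi) := by field_simp
      _ ≤ Real.pi * v := by gcongr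
  linarith

lemma range_le : 4 * Real.pi / 81 ≤ 1 / Real.pi := by
  have h1 := Real.pi_pos
  have h2 := Real.pi_lt_four
  rw [div_le_div_iff₀ (by norm_num) h1]
  nlinarith

lemma Ival_ball {v : ℝ} (hv : 0 < v) (h : v ≤ 4 * Real.pi / 81) :
    Ival v = (36 * Real.pi) ^ ((1 : ℝ) / 3) * v ^ ((2 : ℝ) / 3) := by
  have h1 := ball_le_tube hv h
  have h2 := tube_le_two (h.trans range_le)
  rw [Ival, min_eq_left h1, min_eq_left (h1.trans h2)]

lemma Ival_tube {v : ℝ} (h : 4 * Real.pi / 81 ≤ v) (h' : v ≤ 1 / Real.pi) :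
    Ival v = 2 * Real.sqrt (Real.pi * v) := by
  have hv : 0 < v := lt_of_lt_of_le (by have := Real.pi_pos; positivity) h
  rw [Ival, min_eq_right (tube_le_ball hv h), min_eq_left (tube_le_two h')]

lemma Ival_slab {v : ℝ} (h : 1 / Real.pi ≤ v) : Ival v = 2 := by
  have hv : 0 < v := lt_of_lt_of_le (by have := Real.pi_pos; positivity) h
  rw [Ival, min_eq_right (tube_le_ball hv (range_le.trans h)), min_eq_right (two_le_tube h)]

lemma Ival_nonneg {v : ℝ} (hv : 0 ≤ v) : 0 ≤ Ival v := by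
  have hpi := Real.pi_pos
  unfold Ival
  refine le_min (le_min (by positivity) (by positivity)) (by norm_num)

/-- ball model -/
theorem ballM {W : ℝ} (hW : 0 < W) (h : W ≤ 4 * Real.pi / 81) :
    MeasurableSet (periodicBall ((3 * W / (4 * Real.pi)) ^ ((1 : ℝ) / 3))) ∧
      IsLatticePeriodic (periodicBall ((3 * W / (4 * Real.pi)) ^ ((1 : ℝ) / 3))) ∧
      periodicVolume (periodicBall ((3 * W / (4 * Real.pi)) ^ ((1 : ℝ) / 3))) = W ∧
      periodicPerimeter (periodicBall ((3 * W / (4 * Real.pi)) ^ ((1 : ℝ) / 3))) ≤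
        ENNReal.ofReal (Ival W) := by
  have hpi := Real.pi_pos
  set r := (3 * W / (4 * Real.pi)) ^ ((1 : ℝ) / 3) with hr
  have h0 : 0 < 3 * W / (4 * Real.pi) := by positivity
  have hr0 : 0 < r := Real.rpow_pos_of_pos h0 _
  have hr3 : r ^ 3 = 3 * W / (4 * Real.pi) := by
    rw [hr, ← Real.rpow_natCast, ← Real.rpow_mul h0.le]
    norm_num
  have hr2 : r < 1 / 2 := by
    apply lt_of_pow_lt_pow_left₀ 3 (by norm_num)
    rw [hr3, div_lt_iff₀ (by positivity)]
    nlinarith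
  obtain ⟨f1, f2, f3, f4⟩ := ball_facts hr0 hr2
  refine ⟨f1, f2, ?_, ?_⟩
  · rw [f3, hr3]
    field_simp
  · refine f4.trans (ENNReal.ofReal_le_ofReal (le_of_eq ?_))
    rw [Ival_ball hW h]
    apply (pow_left_inj₀ (by positivity) (by positivity) (n := 6) (by norm_num)).1
    rw [ballVal_pow6 hW]
    have : (4 * Real.pi * r ^ 2) ^ 6 = (4 * Real.pi) ^ 6 * (r ^ 3) ^ 4 := by ring
    rw [this, hr3]
    field_simp
    ring

/-- tube model -/
theorem tubeM {W : ℝ} (h : 4 * Real.pi / 81 ≤ W) (h' : W ≤ 1 / Real.pi) :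
    MeasurableSet (periodicTube (Real.sqrt (W / Real.pi))) ∧
      IsLatticePeriodic (periodicTube (Real.sqrt (W / Real.pi))) ∧
      periodicVolume (periodicTube (Real.sqrt (W / Real.pi))) = W ∧
      periodicPerimeter (periodicTube (Real.sqrt (W / Real.pi))) ≤ ENNReal.ofReal (Ival W) := by
  have hpi := Real.pi_pos
  have hpi3 := Real.pi_gt_three
  have hW : 0 < W := lt_of_lt_of_le (by positivity) h
  have h0 : 0 < W / Real.pi := by positivity
  have hr0 : 0 < Real.sqrt (W / Real.pi) := Real.sqrt_pos.2 h0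
  have hrsq : Real.sqrt (W / Real.pi) ^ 2 = W / Real.pi := Real.sq_sqrt h0.le
  have hr2 : Real.sqrt (W / Real.pi) < 1 / 2 := by
    apply lt_of_pow_lt_pow_left₀ 2 (by norm_num)
    rw [hrsq, div_lt_iff₀ hpi]
    have h1 : (1 : ℝ) / Real.pi < 1 / 3 := by
      apply one_div_lt_one_div_of_lt <;> linarith
    nlinarith
  obtain ⟨f1, f2, f3, f4⟩ := tube_facts hr0 hr2
  refine ⟨f1, f2, ?_, ?_⟩
  · rw [f3, hrsq]
    field_simp
  · refine f4.trans (ENNReal.ofReal_le_ofReal (le_of_eq ?_))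
    rw [Ival_tube h h']
    have h1 : Real.sqrt (Real.pi * W) = Real.pi * Real.sqrt (W / Real.pi) := by
      rw [show Real.pi * W = Real.pi ^ 2 * (W / Real.pi) by field_simp,
        Real.sqrt_mul (by positivity), Real.sqrt_sq hpi.le]
    rw [h1]
    ring

/-- slab model -/
theorem slabM {W : ℝ} (h : 1 / Real.pi ≤ W) (h' : W ≤ 1) :
    MeasurableSet (periodicSlab W) ∧ IsLatticePeriodic (periodicSlab W) ∧
      periodicVolume (periodicSlab W) = W ∧
      periodicPerimeter (periodicSlab W) ≤ ENNReal.ofReal (Ival W) := by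
  have hpi := Real.pi_pos
  have hW : 0 < W := lt_of_lt_of_le (by positivity) h
  obtain ⟨f1, f2, f3, f4⟩ := slab_facts hW h'
  exact ⟨f1, f2, f3, by rw [Ival_slab h]; exact f4⟩

/-- some model at volume `v` -/
theorem exists_model_half {v : ℝ} (hv : 0 < v) (hv' : v ≤ 1) :
    ∃ E : Set (EuclideanSpace ℝ (Fin 3)), MeasurableSet E ∧ IsLatticePeriodic E ∧
      periodicVolume E = v ∧ periodicPerimeter E ≤ ENNReal.ofReal (Ival v) := by
  rcases le_total v (4 * Real.pi / 81) with h | h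
  · exact ⟨_, ballM hv h⟩
  · rcases le_total v (1 / Real.pi) with h' | h'
    · exact ⟨_, tubeM h h'⟩
    · exact ⟨_, slabM h' hv'⟩

lemma periodic_compl {n : ℕ} {E : Set (Ev n)} (h : IsLatticePeriodic E) :
    IsLatticePeriodic Eᶜ := by
  intro v hv x
  rw [Set.mem_compl_iff, Set.mem_compl_iff, h v hv x]

lemma cell_volume (n : ℕ) : (volume (unitCell n)).toReal = 1 := by
  have h1 : unitCell n = {x : Ev n | ∀ i, 0 ≤ x i ∧ x i < (fun _ => (1 : ℝ)) i} := rfl
  rw [h1, box_volume (fun _ => (1 : ℝ)) (fun _ => zero_le_one)]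
  simp

lemma volume_compl {n : ℕ} {E : Set (Ev n)} (hE : MeasurableSet E) :
    periodicVolume Eᶜ = 1 - periodicVolume E := by
  unfold periodicVolume
  have h1 : volume (E ∩ unitCell n) + volume (Eᶜ ∩ unitCell n) = volume (unitCell n) := by
    have := measure_inter_add_sdiff (μ := volume) (unitCell n) hE
    rw [Set.inter_comm E, Set.inter_comm Eᶜ, ← Set.sdiff_eq]
    exact this
  have h2 : volume (E ∩ unitCell n) ≠ ⊤ :=
    ((measure_mono Set.inter_subset_right).trans_lt (cell_finite n)).ne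
  have h3 : volume (Eᶜ ∩ unitCell n) ≠ ⊤ :=
    ((measure_mono Set.inter_subset_right).trans_lt (cell_finite n)).ne
  have h4 := congrArg ENNReal.toReal h1
  rw [ENNReal.toReal_add h2 h3, cell_volume] at h4
  linarith

/-- existence of a model for every volume -/
theorem exists_model {V : ℝ} (hV : 0 < V) (hV' : V < 1) :
    ∃ E : Set (EuclideanSpace ℝ (Fin 3)), MeasurableSet E ∧ IsLatticePeriodic E ∧
      periodicVolume E = V ∧ periodicPerimeter E ≤ ENNReal.ofReal (Ival (min V (1 - V))) := by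
  rcases le_total V (1 - V) with h | h
  · rw [min_eq_left h]
    exact exists_model_half hV hV'.le
  · rw [min_eq_right h]
    obtain ⟨E, h1, h2, h3, h4⟩ := exists_model_half (v := 1 - V) (by linarith) (by linarith)
    refine ⟨Eᶜ, h1.compl, periodic_compl h2, ?_, ?_⟩
    · rw [volume_compl h1, h3]
      ring
    · rw [perim_compl h1]
      exact h4

/-- perimeter upper bound for standard regions -/
theorem standard_perim {W : ℝ} (hW : 0 < W) (hW' : W ≤ 1 / 2) {F : Set (EuclideanSpace ℝ (Fin 3))}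
    (hF : IsStandardRegion W F) : periodicPerimeter F ≤ ENNReal.ofReal (Ival W) := by
  rcases hF with ⟨h, hc⟩ | ⟨h, h', hc⟩ | ⟨h, hc⟩
  · obtain ⟨m1, m2, m3, m4⟩ := ballM hW h
    rw [(perim_congruent m1 m2 hc).1]
    exact m4
  · obtain ⟨m1, m2, m3, m4⟩ := tubeM h h'
    rw [(perim_congruent m1 m2 hc).1]
    exact m4
  · obtain ⟨m1, m2, m3, m4⟩ := slabM h (by linarith)
    rw [(perim_congruent m1 m2 hc).1]
    exact m4

/-- perimeter upper bound for the 'if' direction of S0333 -/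
theorem if_perim {V : ℝ} (hV : 0 < V) (hV' : V < 1) {E : Set (EuclideanSpace ℝ (Fin 3))}
    (hE : MeasurableSet E)
    (h : (V ≤ 1 / 2 ∧ IsStandardRegion V E) ∨ (1 / 2 < V ∧ IsStandardRegion (1 - V) Eᶜ)) :
    periodicPerimeter E ≤ ENNReal.ofReal (Ival (min V (1 - V))) := by
  rcases h with ⟨h1, h2⟩ | ⟨h1, h2⟩
  · rw [min_eq_left (by linarith)]
    exact standard_perim hV h1 h2
  · rw [min_eq_right (by linarith), ← perim_compl hE]
    exact standard_perim (by linarith) (by linarith) h2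

end Crest.Agent.R214.Model
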