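import Crest.Agent.R214.MonoDef
import Crest.Agent.R214.M5f
import Crest.Agent.R214.Trunc
import Crest.Agent.R214.Box
import Crest.Agent.R214.Model

/-!
# Row 214: INTERFACES of the missing theorems (helper1).  Each `def ... : Prop` is the exact
statement to be proved by its owner in the named file, as `theorem foo : FooStatement`.
`Final.lean` proves S0332 / S0333 from them.
-/

set_option autoImplicit false

open MeasureTheory Crest.GeometryTopology.PeriodicPerimeter Filter Set
open scoped ENNReal Topology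

namespace Crest.Agent.R214

/-- owner helper39, file `StF.lean`: `theorem exists_mono : ExistsMono` -/
def ExistsMono : Prop := ∀ E : Set (Ev 3), MeasurableSet E → IsLatticePeriodic E →
  periodicPerimeter E ≠ ∞ →
  ∃ F : Set (Ev 3), MeasurableSet F ∧ Mono F ∧ periodicVolume F = periodicVolume E ∧
    periodicPerimeter F ≤ periodicPerimeter E ∧
    (∀ (d : Fin 3) (m : ℝ), (∀ᵐ t : ℝ, m ≤ sl d F t) → ∀ᵐ t : ℝ, m ≤ sl d E t) ∧
    (∀ (d : Fin 3) (M : ℝ), (∀ᵐ t : ℝ, sl d F t ≤ M) → ∀ᵐ t : ℝ, sl d E t ≤ M)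

/-- owners helper33 + helper16 (certificates helper48), file `ZeroContact.lean`:
`theorem zero_contact : ZeroContact`.  Equality is analysed only for `V > 4π/81` (for
`V ≤ 4π/81` the ball is an equality case with `b0 = π r² > 1/π` possible). -/
def ZeroContact : Prop := ∀ F : Set (Ev 3), MeasurableSet F → Mono F → periodicPerimeter F ≠ ∞ →
  12 / 100 ≤ periodicVolume F → periodicVolume F ≤ 36 / 100 →
  ∀ (d : Fin 3) (b0 : ℝ), Rng (sl d F) 0 b0 → 1 / Real.pi < b0 →
    mm (periodicVolume F) ≤ (periodicPerimeter F).toReal / 2 ∧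
      (4 * Real.pi / 81 < periodicVolume F →
        (periodicPerimeter F).toReal / 2 ≤ mm (periodicVolume F) →
          ∃ e : Fin 3, ∀ᵐ t : ℝ, sl e F t = periodicVolume F)

/-- owner helper20, file `AllBig.lean`: `theorem all_big : AllBig` -/
def AllBig : Prop := ∀ F : Set (Ev 3), MeasurableSet F → Mono F → periodicPerimeter F ≠ ∞ →
  26 / 100 ≤ periodicVolume F → periodicVolume F ≤ 36 / 100 →
  ∀ a1 a2 : Fin 3 → ℝ, (∀ d, Rng (sl d F) (a1 d) (a2 d)) → (∀ d, 1 / 250 ≤ a1 d) →
    (∀ d, 1 / Real.pi < a2 d) → mm (periodicVolume F) < (periodicPerimeter F).toReal / 2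

/-- owner helper57, file `CutGain.lean`: `theorem cut_gain : CutGain`
(from `SD.nontrunc`, `exists_trunc`, `sd3`, `trunc_psi`) -/
def CutGain : Prop := ∀ F : Set (Ev 3), MeasurableSet F → IsLatticePeriodic F →
  periodicPerimeter F ≠ ∞ → 12 / 100 ≤ periodicVolume F → periodicVolume F ≤ 1 / 2 →
  ∀ (d : Fin 3) (a1 a2 : ℝ), Rng (sl d F) a1 a2 → 0 < a1 → a1 < 1 / 250 → 1 / Real.pi < a2 →
    mm (periodicVolume F) < (periodicPerimeter F).toReal / 2 ∨
    ∃ y1 y2 : ℝ, y1 < y2 ∧ y2 < y1 + 1 ∧ periodicPerimeter (cutArc d y1 y2 F) ≠ ∞ ∧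
      9 / 100 ≤ periodicVolume (cutArc d y1 y2 F) ∧
      periodicVolume (cutArc d y1 y2 F) ≤ periodicVolume F ∧
      (periodicPerimeter (cutArc d y1 y2 F)).toReal / 2 - mm (periodicVolume (cutArc d y1 y2 F)) <
        (periodicPerimeter F).toReal / 2 - mm (periodicVolume F)

/-- owner helper62, file `Eq.lean`: `theorem eq_const : EqConst` -/
def EqConst : Prop := ∀ E : Set (Ev 3), MeasurableSet E → IsLatticePeriodic E →
  0 < periodicVolume E → periodicVolume E ≤ 1 / 2 →
  periodicPerimeter E ≤ ENNReal.ofReal (2 * mm (periodicVolume E)) →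
  (∃ e : Fin 3, ∀ᵐ t : ℝ, sl e E t = periodicVolume E) →
  IsStandardRegion (periodicVolume E) E

/-- owner helper62, file `Eq.lean`: `theorem eq_ball : EqBall` -/
def EqBall : Prop := ∀ (E : Set (Ev 3)) (r : ℝ), MeasurableSet E → IsLatticePeriodic E →
  0 < r → Real.pi * r ^ 2 ≤ 1 / Real.pi → periodicVolume E = 4 * Real.pi / 3 * r ^ 3 →
  periodicPerimeter E ≤ ENNReal.ofReal (4 * Real.pi * r ^ 2) →
  (∀ d : Fin 3, Rng (sl d E) 0 (Real.pi * r ^ 2)) → periodicVolume E ≤ 1 / 2 →
  periodicPerimeter E ≤ ENNReal.ofReal (2 * mm (periodicVolume E)) →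
  IsStandardRegion (periodicVolume E) E

/-- owner helper62, file `Eq.lean`: `theorem slab_const : SlabConst` (from `slab_of_var`) -/
def SlabConst : Prop := ∀ (E : Set (Ev 3)) (d : Fin 3), MeasurableSet E → IsLatticePeriodic E →
  periodicPerimeter E ≠ ∞ → (periodicPerimeter E).toReal ≤ 2 → Rng (sl d E) 0 1 →
  0 < periodicVolume E → periodicVolume E < 1 →
  ∃ e : Fin 3, ∀ᵐ t : ℝ, sl e E t = periodicVolume E

end Crest.Agent.R214
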