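import Crest.Agent.R214.Back2
import Crest.Agent.R214.Asm
import Crest.Agent.R214.Iface

/-!
# Row 214: deliverables of helper62 for Final.lean / Asm.lean
-/

set_option autoImplicit false

open MeasureTheory Filter Set Crest.GeometryTopology.PeriodicPerimeter
open scoped Topology ENNReal

namespace Crest.Agent.R214

open Model (Ival Ival_nonneg LowerBound EqualityCases)

theorem zeroBack_of (HM : MonoThm) : ZeroBack := by
  intro E hE hp h0 h1 hP hz
  exact back_zero (lowerBound_of_monoThm HM) hE hp h0 h1 hP (hz 1) (hz 2)

/-- S0333's core from the theorem on monotone sets alone -/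
theorem equalityCases_of_mono (HM : MonoThm) : EqualityCases :=
  equalityCases_of_monoThm HM (zeroBack_of HM)

theorem slab_const : SlabConst := by
  intro E d hE hp hfin hP hR h0 h1
  obtain ⟨u, M⟩ := exists_moll hE hp
  obtain ⟨α, hα⟩ := slab_of_var hE hp M d hfin hP (M.am_conv hE d)
    (fun η hη => Ico_Ioc (hR.sup η hη)) (fun η hη => by
      refine Ico_Ioc (p := fun t => sl d E t < η) ?_
      have := hR.inf η hη
      rwa [zero_add] at this) h0 h1
  obtain ⟨e, he⟩ : ∃ e : Fin 3, e ≠ d := exists_ne d
  exact ⟨e, slab_other hE he hα⟩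

/-- an upper bound of the perimeter by the profile is an equality, given the lower bound -/
theorem perim_eq_of_le (H : LowerBound) {E : Set (Ev 3)} (hE : MeasurableSet E)
    (hp : IsLatticePeriodic E) (h0 : 0 < periodicVolume E) (h1 : periodicVolume E ≤ 1 / 2)
    (hP : periodicPerimeter E ≤ ENNReal.ofReal (2 * mm (periodicVolume E))) :
    periodicPerimeter E = ENNReal.ofReal (Ival (periodicVolume E)) := by
  refine le_antisymm ?_ (H E hE hp h0 h1)
  have : 2 * mm (periodicVolume E) = Ival (periodicVolume E) := by
    rw [mm_eq_Ival]; ring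
  rwa [this] at hP

end Crest.Agent.R214
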