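import Crest.Agent.R214.Box

/-!
# Row 214, N5: certificates for the case of three type II directions (two lines)
-/

set_option autoImplicit false

open MeasureTheory Set

namespace Crest.Agent.R214

namespace N5

/-- square of the profile of the wrapping slices -/
noncomputable def w4 (a : ℝ) : ℝ := min 2 (Real.pi * (1 - a))

/-- half perimeter of the slices which meet every line: `min √2 √(π(1-a))` -/
noncomputable def J4 (a : ℝ) : ℝ := √(w4 a)

theorem J4_eq (a : ℝ) : J4 a = min (√2) (√(Real.pi * (1 - a))) := by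
  unfold J4 w4
  rcases le_total 2 (Real.pi * (1 - a)) with h | h
  · rw [min_eq_left h, min_eq_left (Real.sqrt_le_sqrt h)]
  · rw [min_eq_right h, min_eq_right (Real.sqrt_le_sqrt h)]

/-- the common horizontal weight -/
noncomputable def c5 (e1 e2 lam a : ℝ) : ℝ :=
  max (max (e1 + lam * a) 0 / J4 a) (max (e2 + lam * a) 0 / I2 a)

/-- the vertical weight -/
noncomputable def h5 (e1 e2 lam a : ℝ) : ℝ := √(1 - c5 e1 e2 lam a ^ 2)

/-- the line method with two lines gives a strict inequality -/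
def Good5 (V c0 a1 a2 : ℝ) : Prop :=
  ∃ e1 e2 lam : ℝ, (∀ a ∈ Icc a1 a2, e2 + lam * a ≤ I2 a) ∧
    (∀ a ∈ Icc a1 a2, e1 + lam * a ≤ J4 a) ∧
    mm V < lam * V + c0 * e1 + (1 - c0) * e2 + ∫ a in a1..a2, h5 e1 e2 lam a

theorem c5_nonneg (e1 e2 lam a : ℝ) : 0 ≤ c5 e1 e2 lam a :=
  le_max_of_le_left (div_nonneg (le_max_right _ _) (Real.sqrt_nonneg _))

theorem h5_nonneg (e1 e2 lam a : ℝ) : 0 ≤ h5 e1 e2 lam a := Real.sqrt_nonneg _

theorem h5_le_one (e1 e2 lam a : ℝ) : h5 e1 e2 lam a ≤ 1 := by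
  unfold h5
  apply Real.sqrt_le_one.2
  nlinarith [sq_nonneg (c5 e1 e2 lam a)]

theorem h5_measurable (e1 e2 lam : ℝ) : Measurable (h5 e1 e2 lam) := by
  unfold h5 c5 I2 J4 w4
  have := w2_measurable
  fun_prop

theorem h5_intervalIntegrable (e1 e2 lam x y : ℝ) :
    IntervalIntegrable (h5 e1 e2 lam) volume x y := by
  rw [intervalIntegrable_iff]
  apply Measure.integrableOn_of_bounded (M := 1)
  · simp
  · exact (h5_measurable e1 e2 lam).aestronglyMeasurable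
  · filter_upwards with a
    rw [Real.norm_of_nonneg (h5_nonneg _ _ _ _)]
    exact h5_le_one _ _ _ _

theorem w4_concave {x y t : ℝ} (ht : 0 ≤ t) (ht1 : t ≤ 1) :
    (1 - t) * w4 x + t * w4 y ≤ w4 ((1 - t) * x + t * y) := by
  unfold w4
  have h1 : 0 ≤ 1 - t := by linarith
  refine le_min ?_ ?_
  · have a1 := min_le_left 2 (Real.pi * (1 - x))
    have a2 := min_le_left 2 (Real.pi * (1 - y))
    nlinarith [mul_le_mul_of_nonneg_left a1 h1, mul_le_mul_of_nonneg_left a2 ht]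
  · have a1 := min_le_right 2 (Real.pi * (1 - x))
    have a2 := min_le_right 2 (Real.pi * (1 - y))
    nlinarith [mul_le_mul_of_nonneg_left a1 h1, mul_le_mul_of_nonneg_left a2 ht]

/-- pointwise certificate for the second profile -/
def OK4 (s0 sg x q : ℝ) : Prop :=
  0 ≤ q ∧ q ≤ 1 ∧ 0 ≤ w4 x ∧ (max (s0 + sg * x) 0) ^ 2 ≤ (1 - q ^ 2) * w4 x

theorem OK4.le_J4 {s0 sg x q : ℝ} (h : OK4 s0 sg x q) : s0 + sg * x ≤ J4 x := by
  obtain ⟨h0, h1, h2, h3⟩ := h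
  have h4 : max (s0 + sg * x) 0 ≤ J4 x := by
    apply Real.le_sqrt_of_sq_le
    nlinarith [mul_nonneg (sq_nonneg q) h2]
  exact (le_max_left _ _).trans h4

theorem OK4.interp {s0 sg x y q r t : ℝ} (hx : OK4 s0 sg x q) (hy : OK4 s0 sg y r)
    (ht : 0 ≤ t) (ht1 : t ≤ 1) :
    OK4 s0 sg ((1 - t) * x + t * y) ((1 - t) * q + t * r) := by
  obtain ⟨h0, h1, h2, h3⟩ := hx
  obtain ⟨k0, k1, k2, k3⟩ := hy
  have h6 : 0 ≤ 1 - t := by linarith
  have hw := w4_concave (x := x) (y := y) ht ht1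
  have hw0 : 0 ≤ (1 - t) * w4 x + t * w4 y := by positivity
  refine ⟨by positivity, by nlinarith, hw0.trans hw, ?_⟩
  have e1 : 0 ≤ 1 - q ^ 2 := by nlinarith
  have e2 : 0 ≤ 1 - r ^ 2 := by nlinarith
  have h7 := cs_aux e1 e2 h2 k2 ht ht1 h3 k3
  have h8 : max (s0 + sg * ((1 - t) * x + t * y)) 0 ≤
      (1 - t) * max (s0 + sg * x) 0 + t * max (s0 + sg * y) 0 := by
    apply max_le
    · have a1 := le_max_left (s0 + sg * x) 0
      have a2 := le_max_left (s0 + sg * y) 0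
      nlinarith [mul_le_mul_of_nonneg_left a1 h6, mul_le_mul_of_nonneg_left a2 ht]
    · have a1 := le_max_right (s0 + sg * x) 0
      have a2 := le_max_right (s0 + sg * y) 0
      positivity
  have h9 : (max (s0 + sg * ((1 - t) * x + t * y)) 0) ^ 2 ≤
      ((1 - t) * max (s0 + sg * x) 0 + t * max (s0 + sg * y) 0) ^ 2 :=
    pow_le_pow_left₀ (le_max_right _ _) h8 2
  have h10 : (1 - t) * (1 - q ^ 2) + t * (1 - r ^ 2) ≤ 1 - ((1 - t) * q + t * r) ^ 2 := by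
    nlinarith [mul_nonneg (mul_nonneg h6 ht) (sq_nonneg (q - r))]
  have h11 : 0 ≤ (1 - t) * (1 - q ^ 2) + t * (1 - r ^ 2) := by positivity
  calc _ ≤ _ := h9
    _ ≤ _ := h7
    _ ≤ (1 - ((1 - t) * q + t * r) ^ 2) * ((1 - t) * w4 x + t * w4 y) :=
        mul_le_mul_of_nonneg_right h10 hw0
    _ ≤ _ := mul_le_mul_of_nonneg_left hw (h11.trans h10)

theorem OK4.mid {s0 sg x y a : ℝ} (hx : OK4 s0 sg x 0) (hy : OK4 s0 sg y 0) (h1 : x ≤ a)
    (h2 : a ≤ y) : s0 + sg * a ≤ J4 a := by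
  rcases (h1.trans h2).eq_or_lt with h | h
  · have : a = x := by linarith
    rw [this]; exact hx.le_J4
  · have hd : 0 < y - x := by linarith
    have ht : 0 ≤ (a - x) / (y - x) := div_nonneg (by linarith) hd.le
    have ht1 : (a - x) / (y - x) ≤ 1 := by rw [div_le_one hd]; linarith
    have h3 := (hx.interp hy ht ht1).le_J4
    have e : (1 - (a - x) / (y - x)) * x + (a - x) / (y - x) * y = a := by
      field_simp; ring
    rw [e] at h3
    exact h3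

theorem sq_div_le {G w q J : ℝ} (hw : 0 ≤ w) (hJ : J = √w) (h : G ^ 2 ≤ (1 - q ^ 2) * w)
    (hq : 0 ≤ 1 - q ^ 2) : (G / J) ^ 2 ≤ 1 - q ^ 2 := by
  rw [div_pow, hJ, Real.sq_sqrt hw]
  rcases hw.eq_or_lt with h4 | h4
  · rw [← h4]; simp only [div_zero]; exact hq
  · rw [div_le_iff₀ h4]; exact h

theorem h5_ge {e1 e2 lam x q : ℝ} (h : OK4 e1 lam x q) (k : OK e2 lam x q) :
    q ≤ h5 e1 e2 lam x := by
  obtain ⟨h0, h1, h2, h3⟩ := h
  obtain ⟨-, -, k2, k3⟩ := k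
  have hq : 0 ≤ 1 - q ^ 2 := by nlinarith
  unfold h5
  apply Real.le_sqrt_of_sq_le
  have a1 := sq_div_le h2 (rfl : J4 x = √(w4 x)) h3 hq
  have a2 := sq_div_le k2 (rfl : I2 x = √(w2 x)) k3 hq
  have : c5 e1 e2 lam x ^ 2 ≤ 1 - q ^ 2 := by
    unfold c5
    rcases le_total (max (e1 + lam * x) 0 / J4 x) (max (e2 + lam * x) 0 / I2 x) with h | h
    · rw [max_eq_right h]; exact a2
    · rw [max_eq_left h]; exact a1
  linarith

theorem trap5_le {e1 e2 lam x y q r : ℝ} (hx4 : OK4 e1 lam x q) (hy4 : OK4 e1 lam y r)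
    (hx : OK e2 lam x q) (hy : OK e2 lam y r) (hxy : x ≤ y) :
    (y - x) * (q + r) / 2 ≤ ∫ a in x..y, h5 e1 e2 lam a := by
  rcases hxy.eq_or_lt with h | h
  · subst h; simp
  · have hd : 0 < y - x := by linarith
    have h1 : ∫ a in x..y, (q + (r - q) / (y - x) * (a - x)) = (y - x) * (q + r) / 2 := by
      rw [intervalIntegral.integral_add (by simp) (by
        apply Continuous.intervalIntegrable; fun_prop)]
      rw [intervalIntegral.integral_const_mul]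
      rw [intervalIntegral.integral_sub (by simp) (by simp)]
      simp only [intervalIntegral.integral_const, integral_id, smul_eq_mul]
      field_simp
      ring
    rw [← h1]
    apply intervalIntegral.integral_mono_on hxy
    · apply Continuous.intervalIntegrable; fun_prop
    · exact h5_intervalIntegrable _ _ _ _ _
    · intro a ha
      have ht : 0 ≤ (a - x) / (y - x) := div_nonneg (by linarith [ha.1]) hd.le
      have ht1 : (a - x) / (y - x) ≤ 1 := by rw [div_le_one hd]; linarith [ha.2]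
      have h3 := h5_ge (hx4.interp hy4 ht ht1) (hx.interp hy ht ht1)
      have e : (1 - (a - x) / (y - x)) * x + (a - x) / (y - x) * y = a := by
        field_simp; ring
      rw [e] at h3
      refine le_trans (le_of_eq ?_) h3
      field_simp
      ring

/-! ### integer certificates -/

/-- `10¹⁰ w4` from below -/
def W4I (X : ℤ) : ℤ := min 20000000000 (3141592 * (10000 - X))

/-- integer version of `OK4` -/
def ok4I (S T X Q : ℤ) : Bool :=
  decide (0 ≤ Q) && (decide (Q ≤ 10000) && (decide (0 ≤ X) && (decide (X ≤ 10000) &&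
    (decide (S * 10000 + T * X ≤ 0) ||
      decide ((S * 10000 + T * X) ^ 2 * 100 ≤ (100000000 - Q ^ 2) * W4I X)))))

theorem W4I_le {X : ℤ} (h1 : X ≤ 10000) :
    (W4I X : ℝ) / 10 ^ 10 ≤ w4 ((X : ℝ) / 10 ^ 4) := by
  have h1' : (X : ℝ) ≤ 10000 := by exact_mod_cast h1
  have hpi := Real.pi_gt_d6
  unfold W4I w4
  push_cast
  refine le_min ?_ ?_
  · have := min_le_left 20000000000 (3141592 * (10000 - (X : ℝ)))
    rw [div_le_iff₀ (by positivity)]
    nlinarith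
  · have := min_le_right 20000000000 (3141592 * (10000 - (X : ℝ)))
    rw [div_le_iff₀ (by positivity)]
    nlinarith

theorem ok4I_sound {S T X Q : ℤ} (h : ok4I S T X Q = true) :
    OK4 ((S : ℝ) / 10 ^ 4) ((T : ℝ) / 10 ^ 4) ((X : ℝ) / 10 ^ 4) ((Q : ℝ) / 10 ^ 4) := by
  simp only [ok4I, Bool.and_eq_true, Bool.or_eq_true, decide_eq_true_eq] at h
  obtain ⟨hQ0, hQ1, hX0, hX1, h⟩ := h
  have hQ0' : (0 : ℝ) ≤ Q := by exact_mod_cast hQ0
  have hQ1' : (Q : ℝ) ≤ 10000 := by exact_mod_cast hQ1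
  have hX0' : (0 : ℝ) ≤ X := by exact_mod_cast hX0
  have hX1' : (X : ℝ) ≤ 10000 := by exact_mod_cast hX1
  have hpi := Real.pi_gt_d6
  have hw : 0 ≤ w4 ((X : ℝ) / 10 ^ 4) := by
    unfold w4
    refine le_min zero_le_two (mul_nonneg Real.pi_pos.le ?_)
    rw [sub_nonneg, div_le_one (by positivity)]
    norm_num
    exact hX1'
  refine ⟨by positivity, by rw [div_le_one (by positivity)]; norm_num; exact hQ1', hw, ?_⟩
  have hq : (0 : ℝ) ≤ 1 - ((Q : ℝ) / 10 ^ 4) ^ 2 := by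
    have : ((Q : ℝ) / 10 ^ 4) ≤ 1 := by rw [div_le_one (by positivity)]; norm_num; exact hQ1'
    have h' : 0 ≤ ((Q : ℝ) / 10 ^ 4) := by positivity
    nlinarith
  rcases h with h | h
  · have h' : (S : ℝ) * 10000 + T * X ≤ 0 := by exact_mod_cast h
    have : max ((S : ℝ) / 10 ^ 4 + T / 10 ^ 4 * (X / 10 ^ 4)) 0 = 0 := by
      apply max_eq_right
      have e : (S : ℝ) / 10 ^ 4 + T / 10 ^ 4 * (X / 10 ^ 4) = (S * 10000 + T * X) / 10 ^ 8 := by
        ring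
      rw [e]
      exact div_nonpos_of_nonpos_of_nonneg h' (by positivity)
    rw [this]
    have := mul_nonneg hq hw
    simpa using this
  · have h' : ((S : ℝ) * 10000 + T * X) ^ 2 * 100 ≤ (100000000 - Q ^ 2) * W4I X := by
      exact_mod_cast h
    have h3 : (max ((S : ℝ) / 10 ^ 4 + T / 10 ^ 4 * (X / 10 ^ 4)) 0) ^ 2 ≤
        ((S : ℝ) / 10 ^ 4 + T / 10 ^ 4 * (X / 10 ^ 4)) ^ 2 := by
      rcases le_total ((S : ℝ) / 10 ^ 4 + T / 10 ^ 4 * (X / 10 ^ 4)) 0 with h4 | h4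
      · rw [max_eq_right h4]; nlinarith [sq_nonneg ((S : ℝ) / 10 ^ 4 + T / 10 ^ 4 * (X / 10 ^ 4))]
      · rw [max_eq_left h4]
    refine h3.trans ?_
    have e : (S : ℝ) / 10 ^ 4 + T / 10 ^ 4 * (X / 10 ^ 4) = (S * 10000 + T * X) / 10 ^ 8 := by
      ring
    rw [e]
    have h5 := W4I_le hX1
    have h6 := mul_le_mul_of_nonneg_left h5 hq
    refine le_trans ?_ h6
    have e2 : (1 - ((Q : ℝ) / 10 ^ 4) ^ 2) * ((W4I X : ℝ) / 10 ^ 10) =
        ((100000000 - Q ^ 2) * W4I X) / 10 ^ 18 := by ring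
    rw [e2, div_pow, div_le_div_iff₀ (by positivity) (by positivity)]
    nlinarith

/-- check of the nodes `(X, Q)` -/
def chk5N (S1 S2 T : ℤ) : List (ℤ × ℤ) → Bool
  | [] => true
  | [(x, q)] => ok4I S1 T x q && okI S2 T x q
  | (x, q) :: (y, r) :: l => ok4I S1 T x q && (okI S2 T x q && (decide (x ≤ y) &&
      chk5N S1 S2 T ((y, r) :: l)))

theorem chk5N_head {S1 S2 T x q : ℤ} {l : List (ℤ × ℤ)} (h : chk5N S1 S2 T ((x, q) :: l) = true) :
    ok4I S1 T x q = true ∧ okI S2 T x q = true := by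
  cases l with
  | nil => simpa [chk5N] using h
  | cons p l =>
    obtain ⟨y, r⟩ := p
    simp only [chk5N, Bool.and_eq_true] at h
    exact ⟨h.1, h.2.1⟩

theorem trap5_sound {S1 S2 T : ℤ} : ∀ (l : List (ℤ × ℤ)) (x q : ℤ),
    chk5N S1 S2 T ((x, q) :: l) = true →
    (x ≤ (lastX x l)) ∧
    (trap ((x, q) :: l) : ℝ) / (2 * 10 ^ 8) ≤
      ∫ a in ((x : ℝ) / 10 ^ 4)..(((lastX x l) : ℝ) / 10 ^ 4),
        h5 ((S1 : ℝ) / 10 ^ 4) ((S2 : ℝ) / 10 ^ 4) ((T : ℝ) / 10 ^ 4) a := by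
  intro l
  induction l with
  | nil => intro x q h; simp [trap, lastX]
  | cons p l ih =>
    obtain ⟨y, r⟩ := p
    intro x q h
    simp only [chk5N, Bool.and_eq_true, decide_eq_true_eq] at h
    obtain ⟨h1, h1', h2, h3⟩ := h
    obtain ⟨i1, i2⟩ := ih y r h3
    obtain ⟨hy, hy'⟩ := chk5N_head h3
    have e : lastX x ((y, r) :: l) = lastX y l := rfl
    rw [e]
    refine ⟨h2.trans i1, ?_⟩
    rw [← intervalIntegral.integral_add_adjacent_intervals
      (h5_intervalIntegrable _ _ _ ((x : ℝ) / 10 ^ 4) ((y : ℝ) / 10 ^ 4))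
      (h5_intervalIntegrable _ _ _ _ _)]
    have h4 : (x : ℝ) / 10 ^ 4 ≤ (y : ℝ) / 10 ^ 4 := by
      have : (x : ℝ) ≤ y := by exact_mod_cast h2
      gcongr
    have h5 := trap5_le (ok4I_sound h1) (ok4I_sound hy) (okI_sound h1') (okI_sound hy') h4
    refine le_trans (le_of_eq ?_) (add_le_add h5 i2)
    simp only [trap]
    push_cast
    ring

/-- leaf data -/
structure Lf5 where
  S1 : ℤ
  S2 : ℤ
  T : ℤ
  nd : List (ℤ × ℤ)
  l1 : ℚ
  p1 : ℚ
  l2 : ℚ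
  p2 : ℚ

/-- the value check at the volume `v`, with `c0 ≥ c` -/
def Lf5.val (L : Lf5) (c v : ℤ) : Bool :=
  decide ((L.l1 * L.p1 + L.l2 * L.p2 - L.T / 10 ^ 4) * (v / 10 ^ 4) + cst L.l1 L.p1 L.l2 L.p2 <
    c / 10 ^ 4 * (L.S1 / 10 ^ 4) + (1 - c / 10 ^ 4) * (L.S2 / 10 ^ 4) +
      (trap L.nd : ℚ) / (2 * 10 ^ 8))

/-- check of a leaf -/
def Lf5.chk (L : Lf5) (R : Rc) : Bool :=
  okI L.S2 L.T R.al 0 && (okI L.S2 L.T R.hi 0 && (ok4I L.S1 L.T R.al 0 && (ok4I L.S1 L.T R.hi 0 &&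
    (decide (L.S2 ≤ L.S1) && (chk5N L.S1 L.S2 L.T L.nd && (endsIn R.al' R.lo L.nd &&
    (okS L.l1 L.p1 L.l2 L.p2 && (decide (0 ≤ R.vl) && (L.val R.al R.vl && L.val R.al R.vh)))))))))

theorem Lf5.sound {L : Lf5} {R : Rc} (h : L.chk R = true) {V c0 a1 a2 : ℝ} (hm : R.mem V a1 a2)
    (h1 : a1 ≤ V) (h2 : V ≤ a2) (hc : a1 ≤ c0) : Good5 V c0 a1 a2 := by
  simp only [Lf5.chk, Bool.and_eq_true, decide_eq_true_eq] at h
  obtain ⟨c1, c2, d1, d2, d3, c3, c4, c5', c6, c7, c8⟩ := h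
  have k1 := okI_sound c1
  have k2 := okI_sound c2
  have k3 := ok4I_sound d1
  have k4 := ok4I_sound d2
  simp only [Int.cast_zero, zero_div] at k1 k2 k3 k4
  obtain ⟨m1, m2, m3, m4, m5, m6⟩ := hm
  refine ⟨(L.S1 : ℝ) / 10 ^ 4, (L.S2 : ℝ) / 10 ^ 4, (L.T : ℝ) / 10 ^ 4,
    fun a ha => k1.mid k2 (m1.trans ha.1) (ha.2.trans m4),
    fun a ha => k3.mid k4 (m1.trans ha.1) (ha.2.trans m4), ?_⟩
  have hint : (trap L.nd : ℝ) / (2 * 10 ^ 8) ≤
      ∫ a in a1..a2, h5 ((L.S1 : ℝ) / 10 ^ 4) ((L.S2 : ℝ) / 10 ^ 4) ((L.T : ℝ) / 10 ^ 4) a := by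
    cases hnd : L.nd with
    | nil =>
      simp only [trap, Int.cast_zero, zero_div]
      exact intervalIntegral.integral_nonneg (h1.trans h2) fun a _ => h5_nonneg _ _ _ _
    | cons p l =>
      obtain ⟨x, q⟩ := p
      rw [hnd] at c3 c4
      obtain ⟨t1, t2⟩ := trap5_sound l x q c3
      simp only [endsIn, Bool.and_eq_true, decide_eq_true_eq] at c4
      obtain ⟨e1, e2⟩ := c4
      have e1' : (R.al' : ℝ) / 10 ^ 4 ≤ (x : ℝ) / 10 ^ 4 := by
        have : (R.al' : ℝ) ≤ x := by exact_mod_cast e1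
        gcongr
      have e2' : ((lastX x l : ℤ) : ℝ) / 10 ^ 4 ≤ (R.lo : ℝ) / 10 ^ 4 := by
        have : ((lastX x l : ℤ) : ℝ) ≤ R.lo := by exact_mod_cast e2
        gcongr
      refine t2.trans ?_
      apply intervalIntegral.integral_mono_interval (m2.trans e1') ?_ (e2'.trans m3)
      · filter_upwards with a using h5_nonneg _ _ _ _
      · exact h5_intervalIntegrable _ _ _ _ _
      · have : (x : ℝ) ≤ ((lastX x l : ℤ) : ℝ) := by exact_mod_cast t1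
        gcongr
  have hV0 : 0 ≤ V := by
    refine le_trans ?_ m5
    have : (0 : ℝ) ≤ R.vl := by exact_mod_cast c6
    positivity
  have hs := okS_sound c5' hV0
  simp only [Lf5.val, decide_eq_true_eq] at c7 c8
  set H := (trap L.nd : ℝ) / (2 * 10 ^ 8) with hH
  set B : ℝ := (R.al : ℝ) / 10 ^ 4 * ((L.S1 : ℝ) / 10 ^ 4) +
    (1 - (R.al : ℝ) / 10 ^ 4) * ((L.S2 : ℝ) / 10 ^ 4) with hB
  have c7' : ((L.l1 * L.p1 + L.l2 * L.p2 : ℚ) - (L.T : ℝ) / 10 ^ 4) * ((R.vl : ℝ) / 10 ^ 4) +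
      (cst L.l1 L.p1 L.l2 L.p2 : ℚ) < B + H := by
    have := (Rat.cast_lt (K := ℝ)).2 c7
    rw [hB, hH]
    push_cast at this ⊢
    exact this
  have c8' : ((L.l1 * L.p1 + L.l2 * L.p2 : ℚ) - (L.T : ℝ) / 10 ^ 4) * ((R.vh : ℝ) / 10 ^ 4) +
      (cst L.l1 L.p1 L.l2 L.p2 : ℚ) < B + H := by
    have := (Rat.cast_lt (K := ℝ)).2 c8
    rw [hB, hH]
    push_cast at this ⊢
    exact this
  have d3' : (L.S2 : ℝ) / 10 ^ 4 ≤ (L.S1 : ℝ) / 10 ^ 4 := by
    have : (L.S2 : ℝ) ≤ L.S1 := by exact_mod_cast d3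
    gcongr
  have hBc : B ≤ c0 * ((L.S1 : ℝ) / 10 ^ 4) + (1 - c0) * ((L.S2 : ℝ) / 10 ^ 4) := by
    rw [hB]
    have h9 : (R.al : ℝ) / 10 ^ 4 ≤ c0 := m1.trans hc
    nlinarith [mul_nonneg (sub_nonneg.2 h9) (sub_nonneg.2 d3')]
  set D : ℝ := ((L.l1 * L.p1 + L.l2 * L.p2 : ℚ) : ℝ) - (L.T : ℝ) / 10 ^ 4 with hD
  have h3 : D * V + (cst L.l1 L.p1 L.l2 L.p2 : ℚ) < B + H := by
    rcases le_total 0 D with hd | hd
    · have := mul_le_mul_of_nonneg_left m6 hd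
      linarith
    · have := mul_le_mul_of_nonpos_left m5 hd
      linarith
  have h4 : ((L.l1 * L.p1 + L.l2 * L.p2 : ℚ) : ℝ) * V = D * V + (L.T : ℝ) / 10 ^ 4 * V := by
    rw [hD]; ring
  linarith

/-- decision tree -/
inductive Tr5
  | leaf (L : Lf5)
  | emp
  | sa (x : ℤ) (l r : Tr5)
  | sb (x : ℤ) (l r : Tr5)
  | sv (x : ℤ) (l r : Tr5)

/-- check of a tree -/
def Tr5.chk : Tr5 → Rc → Bool
  | .leaf L, R => L.chk R
  | .emp, R => decide (R.vh < R.al) || decide (R.hi < R.vl)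
  | .sa x l r, R => l.chk { R with al' := x } && r.chk { R with al := x }
  | .sb x l r, R => l.chk { R with hi := x } && r.chk { R with lo := x }
  | .sv x l r, R => l.chk { R with vh := x } && r.chk { R with vl := x }

theorem Tr5.sound : ∀ (t : Tr5) (R : Rc), t.chk R = true → ∀ {V c0 a1 a2 : ℝ}, R.mem V a1 a2 →
    a1 ≤ V → V ≤ a2 → a1 ≤ c0 → Good5 V c0 a1 a2 := by
  intro t
  induction t with
  | leaf L => intro R h V c0 a1 a2 hm h1 h2 hc; exact L.sound h hm h1 h2 hc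
  | emp =>
    intro R h V c0 a1 a2 hm h1 h2 hc
    exfalso
    obtain ⟨m1, m2, m3, m4, m5, m6⟩ := hm
    simp only [Tr5.chk, Bool.or_eq_true, decide_eq_true_eq] at h
    rcases h with h | h
    · have h' : (R.vh : ℝ) < R.al := by exact_mod_cast h
      have : (R.vh : ℝ) / 10 ^ 4 < (R.al : ℝ) / 10 ^ 4 := by gcongr
      linarith
    · have h' : (R.hi : ℝ) < R.vl := by exact_mod_cast h
      have : (R.hi : ℝ) / 10 ^ 4 < (R.vl : ℝ) / 10 ^ 4 := by gcongr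
      linarith
  | sa x l r ihl ihr =>
    intro R h V c0 a1 a2 hm h1 h2 hc
    obtain ⟨m1, m2, m3, m4, m5, m6⟩ := hm
    simp only [Tr5.chk, Bool.and_eq_true] at h
    rcases le_total a1 ((x : ℝ) / 10 ^ 4) with hx | hx
    · exact ihl _ h.1 ⟨m1, hx, m3, m4, m5, m6⟩ h1 h2 hc
    · exact ihr _ h.2 ⟨hx, m2, m3, m4, m5, m6⟩ h1 h2 hc
  | sb x l r ihl ihr =>
    intro R h V c0 a1 a2 hm h1 h2 hc
    obtain ⟨m1, m2, m3, m4, m5, m6⟩ := hm
    simp only [Tr5.chk, Bool.and_eq_true] at h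
    rcases le_total a2 ((x : ℝ) / 10 ^ 4) with hx | hx
    · exact ihl _ h.1 ⟨m1, m2, m3, hx, m5, m6⟩ h1 h2 hc
    · exact ihr _ h.2 ⟨m1, m2, hx, m4, m5, m6⟩ h1 h2 hc
  | sv x l r ihl ihr =>
    intro R h V c0 a1 a2 hm h1 h2 hc
    obtain ⟨m1, m2, m3, m4, m5, m6⟩ := hm
    simp only [Tr5.chk, Bool.and_eq_true] at h
    rcases le_total V ((x : ℝ) / 10 ^ 4) with hx | hx
    · exact ihl _ h.1 ⟨m1, m2, m3, m4, m5, hx⟩ h1 h2 hc
    · exact ihr _ h.2 ⟨m1, m2, m3, m4, hx, m6⟩ h1 h2 hc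

/-- compact notation for leaves: `S1, S2, T, nodes, 10*l1, 1000*p1, 10*l2, 1000*p2` -/
def prs5 : List ℤ → List (ℤ × ℤ)
  | x :: q :: l => (x, q) :: prs5 l
  | _ => []

/-- compact notation for leaves -/
def lf5 (S1 S2 T : ℤ) (l : List ℤ) (l1 p1 l2 p2 : ℤ) : Tr5 :=
  .leaf ⟨S1, S2, T, prs5 l, (l1 : ℚ) / 10, (p1 : ℚ) / 1000, (l2 : ℚ) / 10, (p2 : ℚ) / 1000⟩

end N5

end Crest.Agent.R214
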