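import Crest.Agent.R214.Box

/-! Row 214, region N2: compact notation for leaves (helper76). -/

set_option autoImplicit false

namespace Crest.Agent.R214

/-- pair up a flat list of nodes -/
def prs : List ℤ → List (ℤ × ℤ)
  | x :: q :: l => (x, q) :: prs l
  | _ => []

/-- leaf: `S, T, nodes, 10*l1, 1000*p1, 10*l2, 1000*p2` -/
def lf (S T : ℤ) (l : List ℤ) (l1 p1 l2 p2 : ℤ) : Tr :=
  .leaf ⟨S, T, prs l, (l1 : ℚ) / 10, (p1 : ℚ) / 1000, (l2 : ℚ) / 10, (p2 : ℚ) / 1000⟩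

end Crest.Agent.R214
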