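import Crest.Agent.R214.BoxN2
import Crest.Agent.R214.BoxN2sA
import Crest.Agent.R214.BoxN2sB
import Crest.Agent.R214.BoxN2sC
import Crest.Agent.R214.BoxN2sD
import Crest.Agent.R214.BoxN2sE
import Crest.Agent.R214.BoxN2sF

/-! Row 214, region N2, fine steps (helper76): outside of type II every direction is good. -/

set_option autoImplicit false

namespace Crest.Agent.R214

/-- lower end of the type II range of `a1` -/
noncomputable def c0 (V : ℝ) : ℝ :=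
  if V ≤ 2675 / 10000 then 1350 / 10000 else
  if V ≤ 2700 / 10000 then 1240 / 10000 else
  if V ≤ 2750 / 10000 then 1040 / 10000 else
  if V ≤ 2800 / 10000 then 930 / 10000 else
  if V ≤ 2850 / 10000 then 830 / 10000 else
  if V ≤ 2900 / 10000 then 750 / 10000 else
  if V ≤ 2950 / 10000 then 690 / 10000 else
  if V ≤ 3000 / 10000 then 620 / 10000 else
  if V ≤ 3050 / 10000 then 570 / 10000 else
  if V ≤ 3100 / 10000 then 520 / 10000 else
  if V ≤ 3150 / 10000 then 470 / 10000 else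
  if V ≤ 3183 / 10000 then 450 / 10000 else
  if V ≤ 3200 / 10000 then 450 / 10000 else
  if V ≤ 3250 / 10000 then 510 / 10000 else
  if V ≤ 3300 / 10000 then 700 / 10000 else
  if V ≤ 3350 / 10000 then 880 / 10000 else
  if V ≤ 3400 / 10000 then 1060 / 10000 else
  if V ≤ 3450 / 10000 then 1250 / 10000 else
  if V ≤ 3500 / 10000 then 1450 / 10000 else
  if V ≤ 3550 / 10000 then 1680 / 10000 else
  if V ≤ 3580 / 10000 then 1960 / 10000 else
  2000 / 10000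

/-- `V ∈ [.26,.266]`: all `a1 ≥ .004` -/
theorem N2g {V a1 a2 : ℝ} (hV : 26 / 100 ≤ V) (hV' : V ≤ 266 / 1000) (h1 : 4 / 1000 ≤ a1)
    (h1V : a1 ≤ V) (h2V : V ≤ a2) (h2 : 1 / Real.pi ≤ a2) (h2' : a2 ≤ 1) : Good V a1 a2 := by
  refine Tr.sound trN2s00 _ trN2s00_chk ⟨?_, ?_, lo_of_pi h2, ?_, ?_, ?_⟩ h1V h2V
  all_goals (push_cast; linarith)

/-- `V ∈ [.266,.36]`: `.004 ≤ a1 ≤ c0 V` -/
theorem N2s {V a1 a2 : ℝ} (hV : 266 / 1000 ≤ V) (hV' : V ≤ 36 / 100) (h1 : 4 / 1000 ≤ a1)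
    (h1V : a1 ≤ c0 V) (h2V : V ≤ a2) (h2 : 1 / Real.pi ≤ a2) (h2' : a2 ≤ 1) :
    Good V a1 a2 := by
  unfold c0 at h1V
  by_cases k1 : V ≤ 2675 / 10000
  · rw [if_pos k1] at h1V
    refine Tr.sound trN2s01 _ trN2s01_chk ⟨?_, ?_, lo_of_pi h2, ?_, ?_, ?_⟩ (by linarith) h2V
    all_goals (push_cast; linarith)
  rw [if_neg k1] at h1V
  have hV : (2675 : ℝ) / 10000 ≤ V := (lt_of_not_ge k1).le
  by_cases k2 : V ≤ 2700 / 10000
  · rw [if_pos k2] at h1V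
    refine Tr.sound trN2s02 _ trN2s02_chk ⟨?_, ?_, lo_of_pi h2, ?_, ?_, ?_⟩ (by linarith) h2V
    all_goals (push_cast; linarith)
  rw [if_neg k2] at h1V
  have hV : (2700 : ℝ) / 10000 ≤ V := (lt_of_not_ge k2).le
  by_cases k3 : V ≤ 2750 / 10000
  · rw [if_pos k3] at h1V
    refine Tr.sound trN2s03 _ trN2s03_chk ⟨?_, ?_, lo_of_pi h2, ?_, ?_, ?_⟩ (by linarith) h2V
    all_goals (push_cast; linarith)
  rw [if_neg k3] at h1V
  have hV : (2750 : ℝ) / 10000 ≤ V := (lt_of_not_ge k3).le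
  by_cases k4 : V ≤ 2800 / 10000
  · rw [if_pos k4] at h1V
    refine Tr.sound trN2s04 _ trN2s04_chk ⟨?_, ?_, lo_of_pi h2, ?_, ?_, ?_⟩ (by linarith) h2V
    all_goals (push_cast; linarith)
  rw [if_neg k4] at h1V
  have hV : (2800 : ℝ) / 10000 ≤ V := (lt_of_not_ge k4).le
  by_cases k5 : V ≤ 2850 / 10000
  · rw [if_pos k5] at h1V
    refine Tr.sound trN2s05 _ trN2s05_chk ⟨?_, ?_, lo_of_pi h2, ?_, ?_, ?_⟩ (by linarith) h2V
    all_goals (push_cast; linarith)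
  rw [if_neg k5] at h1V
  have hV : (2850 : ℝ) / 10000 ≤ V := (lt_of_not_ge k5).le
  by_cases k6 : V ≤ 2900 / 10000
  · rw [if_pos k6] at h1V
    refine Tr.sound trN2s06 _ trN2s06_chk ⟨?_, ?_, lo_of_pi h2, ?_, ?_, ?_⟩ (by linarith) h2V
    all_goals (push_cast; linarith)
  rw [if_neg k6] at h1V
  have hV : (2900 : ℝ) / 10000 ≤ V := (lt_of_not_ge k6).le
  by_cases k7 : V ≤ 2950 / 10000
  · rw [if_pos k7] at h1V
    refine Tr.sound trN2s07 _ trN2s07_chk ⟨?_, ?_, lo_of_pi h2, ?_, ?_, ?_⟩ (by linarith) h2V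
    all_goals (push_cast; linarith)
  rw [if_neg k7] at h1V
  have hV : (2950 : ℝ) / 10000 ≤ V := (lt_of_not_ge k7).le
  by_cases k8 : V ≤ 3000 / 10000
  · rw [if_pos k8] at h1V
    refine Tr.sound trN2s08 _ trN2s08_chk ⟨?_, ?_, lo_of_pi h2, ?_, ?_, ?_⟩ (by linarith) h2V
    all_goals (push_cast; linarith)
  rw [if_neg k8] at h1V
  have hV : (3000 : ℝ) / 10000 ≤ V := (lt_of_not_ge k8).le
  by_cases k9 : V ≤ 3050 / 10000
  · rw [if_pos k9] at h1V
    refine Tr.sound trN2s09 _ trN2s09_chk ⟨?_, ?_, lo_of_pi h2, ?_, ?_, ?_⟩ (by linarith) h2V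
    all_goals (push_cast; linarith)
  rw [if_neg k9] at h1V
  have hV : (3050 : ℝ) / 10000 ≤ V := (lt_of_not_ge k9).le
  by_cases k10 : V ≤ 3100 / 10000
  · rw [if_pos k10] at h1V
    refine Tr.sound trN2s10 _ trN2s10_chk ⟨?_, ?_, lo_of_pi h2, ?_, ?_, ?_⟩ (by linarith) h2V
    all_goals (push_cast; linarith)
  rw [if_neg k10] at h1V
  have hV : (3100 : ℝ) / 10000 ≤ V := (lt_of_not_ge k10).le
  by_cases k11 : V ≤ 3150 / 10000
  · rw [if_pos k11] at h1V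
    refine Tr.sound trN2s11 _ trN2s11_chk ⟨?_, ?_, lo_of_pi h2, ?_, ?_, ?_⟩ (by linarith) h2V
    all_goals (push_cast; linarith)
  rw [if_neg k11] at h1V
  have hV : (3150 : ℝ) / 10000 ≤ V := (lt_of_not_ge k11).le
  by_cases k12 : V ≤ 3183 / 10000
  · rw [if_pos k12] at h1V
    refine Tr.sound trN2s12 _ trN2s12_chk ⟨?_, ?_, lo_of_pi h2, ?_, ?_, ?_⟩ (by linarith) h2V
    all_goals (push_cast; linarith)
  rw [if_neg k12] at h1V
  have hV : (3183 : ℝ) / 10000 ≤ V := (lt_of_not_ge k12).le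
  by_cases k13 : V ≤ 3200 / 10000
  · rw [if_pos k13] at h1V
    refine Tr.sound trN2s13 _ trN2s13_chk ⟨?_, ?_, lo_of_pi h2, ?_, ?_, ?_⟩ (by linarith) h2V
    all_goals (push_cast; linarith)
  rw [if_neg k13] at h1V
  have hV : (3200 : ℝ) / 10000 ≤ V := (lt_of_not_ge k13).le
  by_cases k14 : V ≤ 3250 / 10000
  · rw [if_pos k14] at h1V
    refine Tr.sound trN2s14 _ trN2s14_chk ⟨?_, ?_, lo_of_pi h2, ?_, ?_, ?_⟩ (by linarith) h2V
    all_goals (push_cast; linarith)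
  rw [if_neg k14] at h1V
  have hV : (3250 : ℝ) / 10000 ≤ V := (lt_of_not_ge k14).le
  by_cases k15 : V ≤ 3300 / 10000
  · rw [if_pos k15] at h1V
    refine Tr.sound trN2s15 _ trN2s15_chk ⟨?_, ?_, lo_of_pi h2, ?_, ?_, ?_⟩ (by linarith) h2V
    all_goals (push_cast; linarith)
  rw [if_neg k15] at h1V
  have hV : (3300 : ℝ) / 10000 ≤ V := (lt_of_not_ge k15).le
  by_cases k16 : V ≤ 3350 / 10000
  · rw [if_pos k16] at h1V
    refine Tr.sound trN2s16 _ trN2s16_chk ⟨?_, ?_, lo_of_pi h2, ?_, ?_, ?_⟩ (by linarith) h2V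
    all_goals (push_cast; linarith)
  rw [if_neg k16] at h1V
  have hV : (3350 : ℝ) / 10000 ≤ V := (lt_of_not_ge k16).le
  by_cases k17 : V ≤ 3400 / 10000
  · rw [if_pos k17] at h1V
    refine Tr.sound trN2s17 _ trN2s17_chk ⟨?_, ?_, lo_of_pi h2, ?_, ?_, ?_⟩ (by linarith) h2V
    all_goals (push_cast; linarith)
  rw [if_neg k17] at h1V
  have hV : (3400 : ℝ) / 10000 ≤ V := (lt_of_not_ge k17).le
  by_cases k18 : V ≤ 3450 / 10000
  · rw [if_pos k18] at h1V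
    refine Tr.sound trN2s18 _ trN2s18_chk ⟨?_, ?_, lo_of_pi h2, ?_, ?_, ?_⟩ (by linarith) h2V
    all_goals (push_cast; linarith)
  rw [if_neg k18] at h1V
  have hV : (3450 : ℝ) / 10000 ≤ V := (lt_of_not_ge k18).le
  by_cases k19 : V ≤ 3500 / 10000
  · rw [if_pos k19] at h1V
    refine Tr.sound trN2s19 _ trN2s19_chk ⟨?_, ?_, lo_of_pi h2, ?_, ?_, ?_⟩ (by linarith) h2V
    all_goals (push_cast; linarith)
  rw [if_neg k19] at h1V
  have hV : (3500 : ℝ) / 10000 ≤ V := (lt_of_not_ge k19).le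
  by_cases k20 : V ≤ 3550 / 10000
  · rw [if_pos k20] at h1V
    refine Tr.sound trN2s20 _ trN2s20_chk ⟨?_, ?_, lo_of_pi h2, ?_, ?_, ?_⟩ (by linarith) h2V
    all_goals (push_cast; linarith)
  rw [if_neg k20] at h1V
  have hV : (3550 : ℝ) / 10000 ≤ V := (lt_of_not_ge k20).le
  by_cases k21 : V ≤ 3580 / 10000
  · rw [if_pos k21] at h1V
    refine Tr.sound trN2s21 _ trN2s21_chk ⟨?_, ?_, lo_of_pi h2, ?_, ?_, ?_⟩ (by linarith) h2V
    all_goals (push_cast; linarith)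
  rw [if_neg k21] at h1V
  have hV : (3580 : ℝ) / 10000 ≤ V := (lt_of_not_ge k21).le
  refine Tr.sound trN2s22 _ trN2s22_chk ⟨?_, ?_, lo_of_pi h2, ?_, ?_, ?_⟩ (by linarith) h2V
  all_goals (push_cast; linarith)

end Crest.Agent.R214
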