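import Crest.Agent.R214.Iface
import Crest.Agent.R214.Step5

/-!
# Row 214: `CutGain`: a direction with `0 < a1 < 1/250`, `a2 > 1/π` is good, or an arc can be cut
out with a strict decrease of the deficit
-/

set_option autoImplicit false

open MeasureTheory Crest.GeometryTopology.PeriodicPerimeter Filter Set
open scoped ENNReal Topology

namespace Crest.Agent.R214

theorem cut_gain : CutGain := by
  intro F hF hper hP hV0 hV1 d a1 a2 R h0 h1 h2
  by_cases hle : mm (periodicVolume F) < (periodicPerimeter F).toReal / 2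
  · exact Or.inl hle
  right
  have S := sd3 hF hper hP d
  obtain ⟨G, hG, htr⟩ := exists_trunc hF hper hP d
  set V := periodicVolume F with hV
  set P := (periodicPerimeter F).toReal with hPd
  set a : ℝ → ℝ := sl d F with ha
  have hm : Measurable a := S.meas_a
  have hIV : ∫ x in (0 : ℝ)..1, a x = V := integral_sl (d := d) hF
  have hpi : 0.318 ≤ 1 / Real.pi := by
    rw [le_div_iff₀ Real.pi_pos]
    have := Real.pi_lt_d4
    norm_num at this ⊢
    linarith
  have hpos : ∀ᵐ x : ℝ, 0 < a x := by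
    filter_upwards [R.ae] with x hx
    linarith [hx.1]
  -- a truncatable arc
  obtain ⟨y1, g1, y2, g2, h12, h21, hsm, hcut⟩ : ∃ y1 ∈ G, ∃ y2 ∈ G, y1 < y2 ∧ y2 < y1 + 1 ∧
      (∀ᵐ x : ℝ, x ∈ Ioo y1 y2 → a x ≤ 3 / 100) ∧
      a y1 + a y2 ≤ 129 / 100 * ∫ x in y1..y2, √(Real.pi * a x) := by
    by_contra hcon
    push Not at hcon
    have := S.nontrunc (Eventually.of_forall fun _ => le_rfl) (hpi.trans h2.le) R.h1
      (R.ae.mono fun x hx => hx.2) R.inf R.sup h1.le hIV hV1 hpos G hG
      (fun y1 g1 y2 g2 h12 h21 hsm => hcon y1 g1 y2 g2 h12 h21 hsm)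
    exact hle this
  have hmI : Measurable fun t => I2 (a t) := I2_cont'.measurable.comp hm
  obtain ⟨hJi, hPle⟩ := htr (fun t => I2 (a t)) hmI (fun _ => I2_nonneg')
    (Eventually.of_forall fun t => iso2_torus (slice_measurable (d := d) hF t)
      (slice_periodic (d := d) hper t)) y1 g1 y2 g2 h12 h21
  have hvol := vol_cutArc hF hper d h12 h21
  set w : ℝ → ℝ := fun x => √(Real.pi * a x) with hw
  have hwm : Measurable w := (measurable_const.mul hm).sqrt
  have hwi : IntervalIntegrable w volume y1 y2 := by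
    refine (intervalIntegrable_const (c := √Real.pi)).mono_fun hwm.aestronglyMeasurable ?_
    refine Eventually.of_forall fun t => ?_
    show ‖w t‖ ≤ ‖√Real.pi‖
    rw [Real.norm_of_nonneg (Real.sqrt_nonneg _), Real.norm_of_nonneg (Real.sqrt_nonneg _)]
    apply Real.sqrt_le_sqrt
    have := (S.a01 t).2
    nlinarith [Real.pi_pos]
  have hwpos : 0 < ∫ x in y1..y2, w x := by
    refine (intervalIntegral.integral_pos_iff_support_of_nonneg_ae
      (Eventually.of_forall fun t => Real.sqrt_nonneg _) hwi).2 ⟨h12, ?_⟩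
    have hsup : ∀ᵐ t : ℝ, t ∈ Function.support w := by
      filter_upwards [hpos] with t ht
      exact (Real.sqrt_pos.mpr (mul_pos Real.pi_pos ht)).ne'
    have : volume (Function.support w ∩ Ioc y1 y2) = volume (Ioc y1 y2) := by
      refine measure_congr ?_
      have h1 : (Function.support w : Set ℝ) =ᵐ[volume] (univ : Set ℝ) :=
        eventuallyEq_univ.2 hsup
      have := h1.inter (ae_eq_refl (Ioc y1 y2))
      rwa [univ_inter] at this
    rw [this]
    simpa using h12
  have hai : IntervalIntegrable a volume y1 y2 := by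
    refine (intervalIntegrable_const (c := (1 : ℝ))).mono_fun hm.aestronglyMeasurable ?_
    refine Eventually.of_forall fun t => ?_
    show ‖a t‖ ≤ ‖(1 : ℝ)‖
    rw [Real.norm_of_nonneg (S.a01 t).1, Real.norm_of_nonneg zero_le_one]
    exact (S.a01 t).2
  have haI : ∫ t in y1..y2, a t ≤ 3 / 100 := by
    have hne : ∀ᵐ t : ℝ, t ≠ y2 := by rw [ae_iff]; simp
    have hne' : ∀ᵐ t : ℝ, t ≠ y1 := by rw [ae_iff]; simp
    have h2 : ∫ t in y1..y2, a t ≤ ∫ t in y1..y2, (3 / 100 : ℝ) := by
      refine intervalIntegral.integral_mono_ae_restrict h12.le hai (by simp) ?_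
      rw [Filter.EventuallyLE, ae_restrict_iff' measurableSet_Icc]
      filter_upwards [hsm, hne, hne'] with x hx hx2 hx1 hxi
      exact hx ⟨lt_of_le_of_ne hxi.1 (Ne.symm hx1), lt_of_le_of_ne hxi.2 hx2⟩
    rw [intervalIntegral.integral_const, smul_eq_mul] at h2
    nlinarith
  have haI0 : 0 ≤ ∫ t in y1..y2, a t :=
    intervalIntegral.integral_nonneg h12.le fun t _ => (S.a01 t).1
  have hpsi := trunc_psi (P := P) (V := V) hm (fun x => S.a01 x) h12.le hsm (by linarith) hcut
  -- the perimeter of the truncated set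
  have hR0 : 0 ≤ P - 2 * (∫ t in y1..y2, I2 (a t)) + a y1 + a y2 := by
    obtain ⟨i1, i2⟩ := S.lm (fun _ => 1) (fun _ => 0) continuous_const continuous_const
      (fun _ => zero_le_one) (fun _ => le_rfl) (fun _ => by norm_num) R.inf R.sup
    simp only [one_mul, intervalIntegral.integral_zero, add_zero] at i1 i2
    have hper' : Function.Periodic (fun t => I2 (a t)) 1 := fun t => by
      show I2 (a (t + 1)) = I2 (a t)
      rw [S.per_a t]
    have e1 := hper'.intervalIntegral_add_eq 0 y1
    rw [zero_add] at e1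
    have i3 : IntervalIntegrable (fun t => I2 (a t)) volume y1 (y1 + 1) :=
      hper'.intervalIntegrable (t := 0) one_ne_zero (by rw [zero_add]; exact i1) _ _
    have h3 : ∫ t in y1..y2, I2 (a t) ≤ ∫ t in y1..(y1 + 1), I2 (a t) :=
      intervalIntegral.integral_mono_interval le_rfl h12.le h21.le
        (Eventually.of_forall fun t => I2_nonneg') i3
    have h4 := (S.a01 y1).1
    have h5 := (S.a01 y2).1
    have h6 : ∫ t in (0 : ℝ)..1, I2 (a t) ≤ P / 2 := i2
    linarith
  have hP' : (periodicPerimeter (cutArc d y1 y2 F)).toReal ≤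
      P - 2 * (∫ t in y1..y2, I2 (a t)) + a y1 + a y2 :=
    ENNReal.toReal_le_of_le_ofReal hR0 hPle
  refine ⟨y1, y2, h12, h21, ne_top_of_le_ne_top ENNReal.ofReal_ne_top hPle, ?_, ?_, ?_⟩
  · rw [hvol]
    show 9 / 100 ≤ V - ∫ t in y1..y2, a t
    linarith
  · rw [hvol]
    show V - ∫ t in y1..y2, a t ≤ V
    linarith
  · rw [hvol]
    show _ / 2 - mm (V - ∫ t in y1..y2, a t) < P / 2 - mm V
    have : 0 < 3 / 1000 * ∫ x in y1..y2, w x := by positivity
    have h7 : (P - 2 * (∫ x in y1..y2, I2 (a x)) + a y1 + a y2) / 2 -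
        mm (V - ∫ x in y1..y2, a x) + 3 / 1000 * (∫ x in y1..y2, w x) ≤
        P / 2 - mm V := hpsi
    linarith

end Crest.Agent.R214
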