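import Crest.Agent.R214.Iso2

/-!
# Row 214: basic definitions for the slicing machinery (helper91)

* `gr u x : Ev n` : the gradient of `u : Ev n → ℝ`
* `ins d t y : Ev (n+1)` : insert the coordinate `t` at place `d`
* `slice d E t : Set (Ev n)`, `sl d E t = periodicVolume (slice d E t)`
* `Moll E u` : `u k` smooth periodic `[0,1]`-valued approximation of `1_E` with `∫ ‖gr (u k)‖ ≤ P(E)`
* `am d u t`, `Tm d u t` : slice integral of `u`, slice total variation of `u`
-/

set_option autoImplicit false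

open MeasureTheory Crest.GeometryTopology.PeriodicPerimeter Filter
open scoped ENNReal Topology

namespace Crest.Agent.R214

/-- the gradient of `u` at `x` -/
noncomputable def gr {n : ℕ} (u : Ev n → ℝ) (x : Ev n) : Ev n :=
  WithLp.toLp 2 fun i => fderiv ℝ u x (EuclideanSpace.single i 1)

/-- insert `t` at place `d` -/
noncomputable def ins {n : ℕ} (d : Fin (n + 1)) (t : ℝ) (y : Ev n) : Ev (n + 1) :=
  WithLp.toLp 2 (d.insertNth (α := fun _ => ℝ) t fun i => y i)

theorem ins_same {n : ℕ} (d : Fin (n + 1)) (t : ℝ) (y : Ev n) : ins d t y d = t := by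
  simp [ins]

theorem ins_succAbove {n : ℕ} (d : Fin (n + 1)) (t : ℝ) (y : Ev n) (i : Fin n) :
    ins d t y (d.succAbove i) = y i := by
  simp [ins]

/-- the slice of `E` at `x_d = t` -/
def slice {n : ℕ} (d : Fin (n + 1)) (E : Set (Ev (n + 1))) (t : ℝ) : Set (Ev n) :=
  {y | ins d t y ∈ E}

/-- the volume of the slice -/
noncomputable def sl {n : ℕ} (d : Fin (n + 1)) (E : Set (Ev (n + 1))) (t : ℝ) : ℝ :=
  periodicVolume (slice d E t)

/-- smooth approximation of `1_E` which does not increase the perimeter -/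
structure Moll {n : ℕ} (E : Set (Ev n)) (u : ℕ → Ev n → ℝ) : Prop where
  smooth : ∀ k (m : ℕ∞), ContDiff ℝ m (u k)
  per : ∀ k, IsPer (u k)
  nonneg : ∀ k x, 0 ≤ u k x
  le_one : ∀ k x, u k x ≤ 1
  energy : periodicPerimeter E ≠ ∞ → ∀ k,
    ∫ x in unitCell n, ‖gr (u k) x‖ ≤ (periodicPerimeter E).toReal
  conv : ∀ᵐ x : Ev n, Tendsto (fun k => u k x) atTop (𝓝 (E.indicator (fun _ => (1 : ℝ)) x))

/-- slice integral -/
noncomputable def am {n : ℕ} (d : Fin (n + 1)) (u : Ev (n + 1) → ℝ) (t : ℝ) : ℝ :=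
  ∫ y in unitCell n, u (ins d t y)

/-- slice total variation -/
noncomputable def Tm {n : ℕ} (d : Fin (n + 1)) (u : Ev (n + 1) → ℝ) (t : ℝ) : ℝ :=
  ∫ y in unitCell n, ‖gr (fun z => u (ins d t z)) y‖

end Crest.Agent.R214
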