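import Crest.Agent.R214.Tube
import Crest.Agent.R214.Box
import Crest.Agent.R214.Assemble

/-!
# Row 214, M7: the three equality cases
-/

set_option autoImplicit false

open MeasureTheory Filter Set Crest.GeometryTopology.PeriodicPerimeter
open scoped Topology ENNReal

namespace Crest.Agent.R214

open Model (Ival Ival_ball Ival_tube Ival_slab Ival_nonneg ballVal_pow6 tubeVal_pow6)

/-- the two-dimensional isoperimetric inequality -/
def Iso2Thm : Prop := ∀ K : Set (Ev 2), MeasurableSet K → IsLatticePeriodic K →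
  ENNReal.ofReal (2 * I2 (periodicVolume K)) ≤ periodicPerimeter K

/-- its equality cases -/
def Class2Thm : Prop := ∀ K : Set (Ev 2), MeasurableSet K → IsLatticePeriodic K →
  0 < periodicVolume K → periodicVolume K ≤ 1 / 2 →
  periodicPerimeter K ≤ ENNReal.ofReal (2 * I2 (periodicVolume K)) →
  (periodicVolume K ≤ 1 / Real.pi ∧
      ∃ c : Fin 2 → ℝ, volume (symmDiff K (pball c (periodicVolume K / Real.pi))) = 0) ∨
    (1 / Real.pi ≤ periodicVolume K ∧
      ∃ (j : Fin 2) (α : ℝ), volume (symmDiff K {y | y j ∈ ArcS α (periodicVolume K)}) = 0)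

theorem I2_half {v : ℝ} (h0 : 0 ≤ v) (h : v ≤ 1 / 2) : I2 v = min (Real.sqrt (Real.pi * v)) 1 := by
  have hpi := Real.pi_gt_three
  have hm : Monotone Real.sqrt := fun x y h => Real.sqrt_le_sqrt h
  unfold I2 w2
  have h1 : min 1 (Real.pi * (1 - v)) = 1 := min_eq_left (by nlinarith)
  rw [h1, hm.map_min, Real.sqrt_one]

theorem Ival_le_I2 {v : ℝ} (h0 : 0 ≤ v) (h : v ≤ 1 / 2) : Ival v ≤ 2 * I2 v := by
  rw [I2_half h0 h, mul_min_of_nonneg _ _ (by norm_num : (0 : ℝ) ≤ 2), mul_one]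
  unfold Ival
  exact min_le_min (min_le_right _ _) le_rfl

theorem I2_pos {v : ℝ} (h0 : 0 < v) (h : v ≤ 1 / 2) : 0 < I2 v := by
  rw [I2_half h0.le h]
  have := Real.pi_pos
  exact lt_min (Real.sqrt_pos.2 (by positivity)) one_pos

theorem ball_lt_tube {v : ℝ} (hv : 0 < v) (h : v < 4 * Real.pi / 81) :
    (36 * Real.pi) ^ ((1 : ℝ) / 3) * v ^ ((2 : ℝ) / 3) < 2 * Real.sqrt (Real.pi * v) := by
  have hpi := Real.pi_pos
  apply lt_of_pow_lt_pow_left₀ 6 (by positivity)
  rw [ballVal_pow6 hv, tubeVal_pow6 hv]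
  have h1 : 0 < Real.pi ^ 2 * v ^ 3 := by positivity
  have h2 : 1296 * v < 64 * Real.pi := by linarith
  nlinarith [mul_lt_mul_of_pos_left h2 h1]

/-- if `2 √(π v) ≤ Ival v` then `4π/81 ≤ v` -/
theorem range_of_tube {v : ℝ} (hv : 0 < v) (h : 2 * Real.sqrt (Real.pi * v) ≤ Ival v) :
    4 * Real.pi / 81 ≤ v := by
  by_contra hcon
  push Not at hcon
  have h1 := ball_lt_tube hv hcon
  have h2 : Ival v ≤ (36 * Real.pi) ^ ((1 : ℝ) / 3) * v ^ ((2 : ℝ) / 3) :=
    (min_le_left _ _).trans (min_le_left _ _)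
  linarith

/-- if `2 ≤ Ival v` then `1/π ≤ v` -/
theorem range_of_slab {v : ℝ} (hv : 0 ≤ v) (h : 2 ≤ Ival v) : 1 / Real.pi ≤ v := by
  have hpi := Real.pi_pos
  have h2 : Ival v ≤ 2 * Real.sqrt (Real.pi * v) := (min_le_left _ _).trans (min_le_right _ _)
  have h3 : 1 ≤ Real.sqrt (Real.pi * v) := by linarith
  have h4 : 1 ≤ Real.pi * v := by
    by_contra hcon
    push Not at hcon
    have := Real.sqrt_lt_sqrt (by positivity) hcon
    rw [Real.sqrt_one] at this
    linarith
  rw [div_le_iff₀ hpi]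
  linarith

/-- **(e1)**: constant profile -/
theorem eq_e1 (H2 : Iso2Thm) (H2' : Class2Thm) {E : Set (Ev 3)} (hE : MeasurableSet E)
    (hp : IsLatticePeriodic E) (h0 : 0 < periodicVolume E) (h1 : periodicVolume E ≤ 1 / 2)
    (hP : periodicPerimeter E = ENNReal.ofReal (Ival (periodicVolume E))) (d : Fin 3)
    (ha : ∀ᵐ t : ℝ, sl d E t = periodicVolume E) : IsStandardRegion (periodicVolume E) E := by
  have hpi := Real.pi_pos
  set V := periodicVolume E with hV
  have hfin : periodicPerimeter E ≠ ∞ := by rw [hP]; exact ENNReal.ofReal_ne_top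
  have hI := Ival_le_I2 h0.le h1
  have hI0 := Ival_nonneg h0.le
  have hIpos := I2_pos h0 h1
  have hPr : (periodicPerimeter E).toReal ≤ 2 * I2 V := by
    rw [hP, ENNReal.toReal_ofReal hI0]
    exact hI
  obtain ⟨u, M⟩ := exists_moll hE hp
  have hinv := inv_of_slices hE hp M d hfin hPr (by
    filter_upwards [M.Tm_lower hE d, ha] with t h2 h3 s hs
    apply h2
    have h4 := H2 (slice d E t) (slice_measurable hE t) (slice_periodic hp t)
    have h5 : periodicVolume (slice d E t) = V := h3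
    rw [h5] at h4
    exact ((ENNReal.ofReal_lt_ofReal_iff (by positivity)).2 hs).trans_le h4)
  obtain ⟨t, ht⟩ := (cyl_of_inv hE d hinv).exists
  set K := slice d E t with hK
  have hKm : MeasurableSet K := slice_measurable hE t
  have hKp : IsLatticePeriodic K := slice_periodic hp t
  have hKV : periodicVolume K = V := volume_cyl hE ht
  have hKP : periodicPerimeter K ≤ periodicPerimeter E := perim_cyl hE hp ht
  have h2 := H2' K hKm hKp (by rw [hKV]; exact h0) (by rw [hKV]; exact h1) (by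
    rw [hKV]
    refine hKP.trans ?_
    rw [hP]
    exact ENNReal.ofReal_le_ofReal hI)
  have h3 := H2 K hKm hKp
  rw [hKV] at h2 h3
  have h4 : 2 * I2 V ≤ Ival V := by
    have := h3.trans hKP
    rw [hP] at this
    exact (ENNReal.ofReal_le_ofReal_iff hI0).1 this
  rcases h2 with ⟨h5, c, h6⟩ | ⟨h5, j, α, h6⟩
  · right; left
    have h7 : 2 * Real.sqrt (Real.pi * V) ≤ Ival V := by
      refine le_trans ?_ h4
      rw [I2_half h0.le h1, min_eq_left]
      rw [Real.sqrt_le_one]
      calc Real.pi * V ≤ Real.pi * (1 / Real.pi) := by gcongr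
        _ = 1 := by field_simp
    refine ⟨range_of_tube h0 h7, h5, ?_⟩
    refine congruent_tube hKm (Real.sqrt_nonneg _) ht (c := c) ?_
    rw [Real.sq_sqrt (by positivity)]
    exact h6
  · right; right
    refine ⟨h5, ?_⟩
    have hm : MeasurableSet {y : Ev 2 | y j ∈ ArcS α V} := by
      have : ArcS α V = ⋃ m : ℤ, Ico (α + m) (α + m + V) := by
        ext t
        simp [ArcS]
      have h8 : MeasurableSet (ArcS α V) := by
        rw [this]
        exact MeasurableSet.iUnion fun m => measurableSet_Ico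
      exact (by fun_prop : Measurable fun y : Ev 2 => y j) h8
    have h7 := symmDiff_null_trans ht (cyl_congr hKm hm d h6)
    exact congruent_slab (d := d.succAbove j) (α := α) h7

/-- the oscillation bounds the perimeter from below -/
theorem two_le_perim {n : ℕ} {E : Set (Ev (n + 1))} (hE : MeasurableSet E)
    (hp : IsLatticePeriodic E) (d : Fin (n + 1)) (hfin : periodicPerimeter E ≠ ∞)
    (hsup : ∀ η > 0, volume ({t | 1 - η < sl d E t} ∩ Ioc 0 1) ≠ 0)
    (hinf : ∀ η > 0, volume ({t | sl d E t < η} ∩ Ioc 0 1) ≠ 0) :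
    2 ≤ (periodicPerimeter E).toReal := by
  obtain ⟨u, M⟩ := exists_moll hE hp
  have hu : ∀ k, ContDiff ℝ 1 (u k) := fun k => M.smooth k 1
  have hconv := M.am_conv hE d
  have hex : ∀ {p : ℝ → Prop}, volume ({t | p t} ∩ Ioc 0 1) ≠ 0 →
      ∃ t ∈ Ioc (0 : ℝ) 1, Tendsto (fun k => am d (u k) t) atTop (𝓝 (sl d E t)) ∧ p t := by
    intro p hp
    by_contra hcon
    push Not at hcon
    apply hp
    refine measure_mono_null (t := {t | ¬ Tendsto (fun k => am d (u k) t) atTop (𝓝 (sl d E t))}) ?_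
      (ae_iff.1 hconv)
    rintro t ⟨h1, h2⟩ h3
    exact hcon t h2 h3 h1
  apply le_of_forall_pos_le_add
  intro ε hε
  obtain ⟨t1, ht1, hl1, ha1⟩ := hex (hsup (ε / 4) (by positivity))
  obtain ⟨t2, ht2, hl2, ha2⟩ := hex (hinf (ε / 4) (by positivity))
  obtain ⟨k, hk1, hk2⟩ := (((tendsto_order.1 hl1).1 _ ha1).and
    ((tendsto_order.1 hl2).2 _ ha2)).exists
  have h3 := twice_osc (w := fun _ => 1) (f := am d (u k)) continuous_const
    (fun _ => zero_le_one) (am_contDiff d (hu k)) (by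
      have := am_per d (M.per k) 0
      rw [zero_add] at this
      exact this.symm) ht2 ht1
  have hprim : ∀ α : ℝ, prim (fun _ => (1 : ℝ)) α = α := by
    intro α
    unfold prim
    simp
  rw [hprim, hprim] at h3
  have h4 := var_le (hu k) (M.per k) d
  have h5 : ∫ x in unitCell (n + 1), |gr (u k) x d| ≤ ∫ x in unitCell (n + 1), ‖gr (u k) x‖ := by
    have hg := gr_continuous (hu k)
    refine integral_mono (integrable_cell (by fun_prop)) (integrable_cell hg.norm) fun x => ?_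
    rw [← Real.norm_eq_abs]
    exact PiLp.norm_apply_le (gr (u k) x) d
  have h6 := M.energy hfin k
  rw [intervalIntegral.integral_of_le zero_le_one] at h4
  simp only [one_mul] at h3
  linarith

/-- **(e3)**: empty and full slices -/
theorem eq_e3 {E : Set (Ev 3)} (hE : MeasurableSet E)
    (hp : IsLatticePeriodic E) (h0 : 0 < periodicVolume E) (h1 : periodicVolume E ≤ 1 / 2)
    (hP : periodicPerimeter E = ENNReal.ofReal (Ival (periodicVolume E))) (d : Fin 3)
    (hsup : ∀ η > 0, volume ({t | 1 - η < sl d E t} ∩ Ioc 0 1) ≠ 0)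
    (hinf : ∀ η > 0, volume ({t | sl d E t < η} ∩ Ioc 0 1) ≠ 0) :
    IsStandardRegion (periodicVolume E) E := by
  have hfin : periodicPerimeter E ≠ ∞ := by rw [hP]; exact ENNReal.ofReal_ne_top
  have hI0 := Ival_nonneg h0.le
  have hPr : (periodicPerimeter E).toReal = Ival (periodicVolume E) := by
    rw [hP, ENNReal.toReal_ofReal hI0]
  obtain ⟨u, M⟩ := exists_moll hE hp
  obtain ⟨α, hα⟩ := slab_of_var hE hp M d hfin (by rw [hPr]; exact min_le_right _ _)
    (M.am_conv hE d) hsup hinf h0 (by linarith)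
  have h2 := two_le_perim hE hp d hfin hsup hinf
  rw [hPr] at h2
  exact Or.inr (Or.inr ⟨range_of_slab h0.le h2, congruent_slab hα⟩)

/-- a direction with ball data -/
def BallDir (E : Set (Ev 3)) (d : Fin 3) (r : ℝ) : Prop :=
  (∀ᵐ t : ℝ, sl d E t ≤ Real.pi * r ^ 2) ∧
  (∀ η > 0, volume ({t | Real.pi * r ^ 2 - η < sl d E t} ∩ Ioc 0 1) ≠ 0) ∧
  (∀ η > 0, volume ({t | sl d E t < η} ∩ Ioc 0 1) ≠ 0) ∧
  ∀ᵐ t : ℝ, ENNReal.ofReal (2 * Real.sqrt (Real.pi * sl d E t)) ≤ periodicPerimeter (slice d E t)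

theorem ball_profile {E : Set (Ev 3)} (hE : MeasurableSet E) (hp : IsLatticePeriodic E)
    {d : Fin 3} {r : ℝ} (hr : 0 < r) (hr2 : r ≤ 1 / 2) (hfin : periodicPerimeter E ≠ ∞)
    (hP : (periodicPerimeter E).toReal ≤ 4 * Real.pi * r ^ 2)
    (hV : periodicVolume E = 4 * Real.pi * r ^ 3 / 3) (h : BallDir E d r) :
    ∃ t0 : ℝ, ∀ᵐ t, sl d E t = Real.pi * max (r ^ 2 - dZ (t - t0) ^ 2) 0 := by
  obtain ⟨h1, h2, h3, h4⟩ := h
  have hm : Measurable fun t => Real.sqrt (Real.pi * sl d E t) :=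
    Real.continuous_sqrt.measurable.comp ((sl_measurable hE).const_mul _)
  have S : SD (periodicPerimeter E).toReal (sl d E) (fun t => Real.sqrt (Real.pi * sl d E t)) :=
    sd_of_perim hE hp hfin d hm (fun t => by
      show Real.sqrt (Real.pi * sl d E (t + 1)) = Real.sqrt (Real.pi * sl d E t)
      rw [sl_per hp t]) (fun t => Real.sqrt_nonneg _) h4
  exact rig_ball S hr hr2 h1 h2 h3 (Eventually.of_forall fun t => le_rfl) hP (by
    rw [integral_sl hE, hV])

theorem radius_of_volume {r : ℝ} (hr : 0 ≤ r) :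
    (3 * (4 * Real.pi * r ^ 3 / 3) / (4 * Real.pi)) ^ ((1 : ℝ) / 3) = r := by
  have hpi := Real.pi_pos
  have h1 : 3 * (4 * Real.pi * r ^ 3 / 3) / (4 * Real.pi) = r ^ (3 : ℕ) := by field_simp
  rw [h1, ← Real.rpow_natCast, ← Real.rpow_mul hr]
  norm_num

/-- **(e2)**: ball data in all directions -/
theorem eq_e2 {E : Set (Ev 3)} (hE : MeasurableSet E) (hp : IsLatticePeriodic E)
    {r : ℝ} (hr : 0 < r)
    (hV : periodicVolume E = 4 * Real.pi * r ^ 3 / 3)
    (hP : periodicPerimeter E = ENNReal.ofReal (Ival (periodicVolume E)))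
    (hI : Ival (periodicVolume E) = 4 * Real.pi * r ^ 2)
    (h : ∀ d, BallDir E d r) : IsStandardRegion (periodicVolume E) E := by
  have hpi := Real.pi_pos
  have hfin : periodicPerimeter E ≠ ∞ := by rw [hP]; exact ENNReal.ofReal_ne_top
  have hV0 : 0 < periodicVolume E := by rw [hV]; positivity
  have hI0 := Ival_nonneg hV0.le
  have hPr : (periodicPerimeter E).toReal ≤ 4 * Real.pi * r ^ 2 := by
    rw [hP, ENNReal.toReal_ofReal hI0, hI]
  -- `r ≤ 1/3`
  have hr3 : r ≤ 1 / 3 := by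
    have h1 : Ival (periodicVolume E) ≤ 2 * Real.sqrt (Real.pi * periodicVolume E) :=
      (min_le_left _ _).trans (min_le_right _ _)
    rw [hI, hV] at h1
    have h2 : 2 * Real.pi * r ^ 2 ≤ Real.sqrt (Real.pi * (4 * Real.pi * r ^ 3 / 3)) := by linarith
    have h3 := pow_le_pow_left₀ (by positivity) h2 2
    rw [Real.sq_sqrt (by positivity)] at h3
    have h4 : 0 < Real.pi ^ 2 * r ^ 3 := by positivity
    have h5 : 4 * r * (Real.pi ^ 2 * r ^ 3) ≤ 4 / 3 * (Real.pi ^ 2 * r ^ 3) := by nlinarith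
    have h6 := le_of_mul_le_mul_right h5 h4
    linarith
  choose t0 ht0 using fun d => ball_profile hE hp hr (by linarith) hfin hPr hV (h d)
  left
  constructor
  · rw [hV]
    have h7 : r ^ 3 ≤ (1 / 3) ^ 3 := pow_le_pow_left₀ hr.le hr3 3
    nlinarith
  · rw [hV, radius_of_volume hr.le]
    exact congruent_ball hE hp t0 hr (by linarith) ht0

end Crest.Agent.R214
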