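import Crest.Agent.R214.Back3
import Crest.Agent.R214.BoxN1
import Crest.Agent.R214.N4
import Crest.Agent.R214.Step5

/-! Row 214 (helper12): the case analysis for monotone sets: `MonoThm` from `ZeroContact'`
and `AllBig`. -/

set_option autoImplicit false

open MeasureTheory Filter Set Crest.GeometryTopology.PeriodicPerimeter
open scoped Topology ENNReal

namespace Crest.Agent.R214

open Model (Ival Ival_nonneg)

/-- the zero contact theorem (`Iface.lean`) -/
abbrev ZeroContact' : Prop := ZeroContact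

section

variable {F : Set (Ev 3)}

theorem exists_rng (hF : MeasurableSet F) (hper : IsLatticePeriodic F)
    (hP : periodicPerimeter F ≠ ∞) (d : Fin 3) : ∃ a1 a2 : ℝ, Rng (sl d F) a1 a2 := by
  obtain ⟨a1, a2, k1, k2, k3, k4, k5, k6⟩ := (sd3 hF hper hP d).exists_range
  exact ⟨a1, a2, k1, k2, k3, k4, k5, k6⟩

theorem rng_mem (hF : MeasurableSet F) (hper : IsLatticePeriodic F)
    (hP : periodicPerimeter F ≠ ∞) {d : Fin 3} {a1 a2 : ℝ} (R : Rng (sl d F) a1 a2) :
    a1 ≤ periodicVolume F ∧ periodicVolume F ≤ a2 := by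
  have S := sd3 hF hper hP d
  have hint : ∫ x in (0:ℝ)..1, sl d F x = periodicVolume F := integral_sl hF
  constructor
  · have h1 : ∫ x in (0:ℝ)..1, (a1 : ℝ) ≤ ∫ x in (0:ℝ)..1, sl d F x :=
      intervalIntegral.integral_mono_ae zero_le_one intervalIntegrable_const
        (S.intervalIntegrable_a 0 1) (R.ae.mono fun x hx => hx.1)
    rw [hint] at h1
    simpa using h1
  · have h1 : ∫ x in (0:ℝ)..1, sl d F x ≤ ∫ x in (0:ℝ)..1, (a2 : ℝ) :=
      intervalIntegral.integral_mono_ae zero_le_one (S.intervalIntegrable_a 0 1)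
        intervalIntegrable_const (R.ae.mono fun x hx => hx.2)
    rw [hint] at h1
    simpa using h1

theorem rng_line (hF : MeasurableSet F) (hper : IsLatticePeriodic F)
    (hP : periodicPerimeter F ≠ ∞) {d : Fin 3} {a1 a2 : ℝ} (R : Rng (sl d F) a1 a2) {s0 sg : ℝ}
    (hg : ∀ a ∈ Icc a1 a2, s0 + sg * a ≤ I2 a) :
    s0 + sg * periodicVolume F + ∫ a in a1..a2, hL s0 sg a ≤ (periodicPerimeter F).toReal / 2 := by
  have h := (sd3 hF hper hP d).line (Eventually.of_forall fun x => le_rfl) R.h0 R.h12 R.h1 R.ae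
    R.inf R.sup hg
  rw [integral_sl hF] at h
  exact h

theorem rng_good (hF : MeasurableSet F) (hper : IsLatticePeriodic F)
    (hP : periodicPerimeter F ≠ ∞) {d : Fin 3} {a1 a2 : ℝ} (R : Rng (sl d F) a1 a2)
    (hG : Good (periodicVolume F) a1 a2) :
    mm (periodicVolume F) < (periodicPerimeter F).toReal / 2 := by
  obtain ⟨s0, sg, h1, h2⟩ := hG
  exact h2.trans_le (rng_line hF hper hP R h1)

theorem rng_capped (hF : MeasurableSet F) (hper : IsLatticePeriodic F)
    (hP : periodicPerimeter F ≠ ∞) (hV : 0 < periodicVolume F)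
    {d : Fin 3} {a1 a2 : ℝ} (R : Rng (sl d F) a1 a2) (h : a2 ≤ 1 / Real.pi) :
    mm (periodicVolume F) ≤ (periodicPerimeter F).toReal / 2 := by
  obtain ⟨h1, h2⟩ := rng_mem hF hper hP R
  obtain ⟨s0, sg, c1, c2, -⟩ := planar_capped R.h0 h1 h2 hV h
  exact c2.trans (rng_line hF hper hP R c1)

/-- `V ≤ .12` -/
theorem small_le (hF : MeasurableSet F) (hper : IsLatticePeriodic F)
    (hP : periodicPerimeter F ≠ ∞) (hV : 0 < periodicVolume F) (hV1 : periodicVolume F ≤ 12 / 100)
    {d : Fin 3} {a1 a2 : ℝ} (R : Rng (sl d F) a1 a2) :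
    mm (periodicVolume F) ≤ (periodicPerimeter F).toReal / 2 ∧
      (1 / Real.pi < a2 → mm (periodicVolume F) < (periodicPerimeter F).toReal / 2) := by
  obtain ⟨h1, h2⟩ := rng_mem hF hper hP R
  have key : 1 / Real.pi ≤ a2 → mm (periodicVolume F) < (periodicPerimeter F).toReal / 2 :=
    fun h => rng_good hF hper hP R (N1 hV1 R.h0 h1 h2 h R.h1)
  refine ⟨?_, fun h => key h.le⟩
  rcases le_total a2 (1 / Real.pi) with h | h
  · exact rng_capped hF hper hP hV R h
  · exact (key h).le

theorem pi_inv_bounds : 0.318 ≤ 1 / Real.pi := by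
  have := Real.pi_lt_d4
  rw [le_div_iff₀ Real.pi_pos]
  nlinarith

/-- a set with zero contact satisfies the lower bound -/
theorem zero_le' (hZ : ZeroContact') (hF : MeasurableSet F) (hM : Mono F)
    (hP : periodicPerimeter F ≠ ∞) (hV : 0 < periodicVolume F)
    (hV1 : periodicVolume F ≤ 36 / 100) {d : Fin 3} {b0 : ℝ} (R : Rng (sl d F) 0 b0) :
    mm (periodicVolume F) ≤ (periodicPerimeter F).toReal / 2 := by
  rcases le_total (periodicVolume F) (12 / 100) with h | h
  · exact (small_le hF hM.periodic hP hV h R).1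
  rcases le_or_gt b0 (1 / Real.pi) with h2 | h2
  · exact rng_capped hF hM.periodic hP hV R h2
  · exact (hZ F hF hM hP h hV1 d b0 R h2).1

/-- a direction with `a1 < 1/250`, `a2 > 1/π` and positive slices: strict -/
theorem cut_strict (hZ : ZeroContact') (hF : MeasurableSet F) (hM : Mono F)
    (hP : periodicPerimeter F ≠ ∞) (hV0 : 12 / 100 ≤ periodicVolume F)
    (hV1 : periodicVolume F ≤ 36 / 100) {d : Fin 3} {a1 a2 : ℝ} (R : Rng (sl d F) a1 a2)
    (h1 : a1 ≤ 1 / 250) (h2 : 1 / Real.pi < a2) (hpos : ∀ᵐ t : ℝ, 0 < sl d F t) :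
    mm (periodicVolume F) < (periodicPerimeter F).toReal / 2 := by
  by_contra hcon
  push Not at hcon
  obtain ⟨t0, c1, c2, c3, c4, c5, c6, c7, c8, c9, c10⟩ := step5 hF hM.periodic hP hM d
    (pi_inv_bounds.trans h2.le) R.h1 (R.ae.mono fun t ht => ht.2) R.inf R.sup h1 hV0 (by linarith)
    hpos hcon
  obtain ⟨b1, b0, R'⟩ := exists_rng c3 c4 c6 d
  have hb1 : b1 = 0 := by
    have h3 : ¬ 0 < b1 := by
      intro hb
      have h4 : volume ({t | t0 < dZ t} ∩ Ioo (0:ℝ) 1) = 0 := by
        have h5 : {t : ℝ | t0 < dZ t} ∩ Ioo (0:ℝ) 1 ⊆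
            {t | ¬ (b1 ≤ sl d (cutArc d t0 (1 - t0) F) t ∧ sl d (cutArc d t0 (1 - t0) F) t ≤ b0)} := by
          rintro t ⟨ht, -⟩ ⟨h6, -⟩
          rw [c7 t ht] at h6
          linarith
        exact measure_mono_null h5 (ae_iff.1 R'.ae)
      have h6 : Ioo t0 (1 - t0) ⊆ {t : ℝ | t0 < dZ t} ∩ Ioo (0:ℝ) 1 := by
        intro t ht
        refine ⟨(S5.mem_arcSet_iff_dZ c1.le c2).1 ⟨0, by simpa using ht.1, by simpa using ht.2⟩,
          by linarith [ht.1], by linarith [ht.2]⟩
      have h7 := measure_mono_null h6 h4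
      rw [Real.volume_Ioo, ENNReal.ofReal_eq_zero] at h7
      linarith
    exact le_antisymm (not_lt.1 h3) R'.h0
  rw [hb1] at R'
  have := zero_le' hZ c3 c5 c6 (by linarith) (c9.trans hV1) R'
  linarith

/-- middle volumes: the lower bound and the strict cases -/
theorem mid_cases (hZ : ZeroContact') (hA : AllBig) (hF : MeasurableSet F) (hM : Mono F)
    (hP : periodicPerimeter F ≠ ∞) (hV0 : 12 / 100 ≤ periodicVolume F)
    (hV1 : periodicVolume F ≤ 36 / 100) {a1 a2 : Fin 3 → ℝ}
    (R : ∀ d, Rng (sl d F) (a1 d) (a2 d)) :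
    mm (periodicVolume F) < (periodicPerimeter F).toReal / 2 ∨ (∃ d, a2 d ≤ 1 / Real.pi) ∨
      ∃ d, a1 d = 0 ∧ 1 / Real.pi < a2 d := by
  by_cases h1 : ∃ d, a2 d ≤ 1 / Real.pi
  · exact Or.inr (Or.inl h1)
  by_cases h2 : ∃ d, a1 d = 0
  · obtain ⟨d, hd⟩ := h2
    exact Or.inr (Or.inr ⟨d, hd, not_le.1 fun h => h1 ⟨d, h⟩⟩)
  left
  have k1 : ∀ d, 1 / Real.pi < a2 d := fun d => not_le.1 fun h => h1 ⟨d, h⟩
  have k2 : ∀ d, 0 < a1 d := fun d => lt_of_le_of_ne (R d).h0 fun h => h2 ⟨d, h.symm⟩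
  by_cases h3 : ∃ d, a1 d ≤ 1 / 250
  · obtain ⟨d, hd⟩ := h3
    exact cut_strict hZ hF hM hP hV0 hV1 (R d) hd (k1 d)
      ((R d).ae.mono fun t ht => (k2 d).trans_le ht.1)
  have k3 : ∀ d, 1 / 250 ≤ a1 d := fun d => (not_le.1 fun h => h3 ⟨d, h⟩).le
  rcases le_total (periodicVolume F) (26 / 100) with h4 | h4
  · obtain ⟨m1, m2⟩ := rng_mem hF hM.periodic hP (R 0)
    refine rng_good hF hM.periodic hP (R 0) ?_
    have k4 : (4:ℝ) / 1000 ≤ a1 0 := by have := k3 0; linarith
    rcases le_total (periodicVolume F) (1 / 8) with h5 | h5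
    · exact N2f (by linarith) h5 k4 m1 m2 (k1 0).le (R 0).h1
    · exact N2a h5 h4 k4 m1 m2 (k1 0).le (R 0).h1
  · exact hA F hF hM hP h4 hV1 a1 a2 R k3 k1

theorem mid_le (hZ : ZeroContact') (hA : AllBig) (hF : MeasurableSet F) (hM : Mono F)
    (hP : periodicPerimeter F ≠ ∞) (hV0 : 12 / 100 ≤ periodicVolume F)
    (hV1 : periodicVolume F ≤ 36 / 100) :
    mm (periodicVolume F) ≤ (periodicPerimeter F).toReal / 2 := by
  choose a1 a2 R using fun d => exists_rng hF hM.periodic hP d
  rcases mid_cases hZ hA hF hM hP hV0 hV1 R with h | ⟨d, hd⟩ | ⟨d, hd, hd2⟩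
  · exact h.le
  · exact rng_capped hF hM.periodic hP (by linarith) (R d) hd
  · have R' := R d
    rw [hd] at R'
    exact (hZ F hF hM hP hV0 hV1 d _ R' hd2).1

theorem mid_eq (hZ : ZeroContact') (hA : AllBig) (hF : MeasurableSet F) (hM : Mono F)
    (hP : periodicPerimeter F = ENNReal.ofReal (Ival (periodicVolume F)))
    (hV0 : 12 / 100 ≤ periodicVolume F) (hV1 : periodicVolume F ≤ 36 / 100) :
    (∃ d, ∀ᵐ t : ℝ, sl d F t = periodicVolume F) ∨
        ∀ d, 0 < volume ({t | sl d F t = 0} ∩ Ico 0 1) := by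
  have hper := hM.periodic
  have hpi := Real.pi_pos
  have hV : 0 < periodicVolume F := by linarith
  have hfin : periodicPerimeter F ≠ ∞ := by rw [hP]; exact ENNReal.ofReal_ne_top
  have hle : (periodicPerimeter F).toReal / 2 ≤ mm (periodicVolume F) := by
    rw [hP, ENNReal.toReal_ofReal (Ival_nonneg hV.le), mm_eq_Ival]
  choose a1 a2 R using fun d => exists_rng hF hper hfin d
  -- the ball relation
  have ball : ∀ d, a2 d ≤ 1 / Real.pi → (∀ᵐ t : ℝ, sl d F t = periodicVolume F) ∨
      (periodicVolume F ≤ 4 * Real.pi / 81 ∧ 0 < volume ({t | sl d F t = 0} ∩ Ico 0 1)) := by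
    intro d hd
    rcases planar_dir_eq hF hper hV hP d ((R d).ae.mono fun t ht => ht.2.trans hd) with
      h | ⟨r, hr, e1, e2, hB⟩
    · exact Or.inl h
    · right
      have h1 : Ival (periodicVolume F) ≤ 2 * Real.sqrt (Real.pi * periodicVolume F) :=
        (min_le_left _ _).trans (min_le_right _ _)
      have hr3 : r ≤ 1 / 3 := by
        rw [e2, e1] at h1
        have h2 : 2 * Real.pi * r ^ 2 ≤ Real.sqrt (Real.pi * (4 * Real.pi * r ^ 3 / 3)) := by
          linarith
        have h3 := pow_le_pow_left₀ (by positivity) h2 2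
        rw [Real.sq_sqrt (by positivity)] at h3
        have h4 : 0 < Real.pi ^ 2 * r ^ 3 := by positivity
        have h5 : 4 * r * (Real.pi ^ 2 * r ^ 3) ≤ 4 / 3 * (Real.pi ^ 2 * r ^ 3) := by nlinarith
        have h6 := le_of_mul_le_mul_right h5 h4
        linarith
      refine ⟨?_, ?_⟩
      · rw [e1]
        have h7 : r ^ 3 ≤ (1 / 3) ^ 3 := pow_le_pow_left₀ hr.le hr3 3
        nlinarith
      · obtain ⟨t0, ht0⟩ := ball_profile hF hper hr (by linarith) hfin
          (by rw [hP, ENNReal.toReal_ofReal (Ival_nonneg hV.le), e2]) e1 hB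
        exact zero_of_profile hr.le (by linarith) ht0
  by_cases hc : ∃ d, ∀ᵐ t : ℝ, sl d F t = periodicVolume F
  · exact Or.inl hc
  have hc' : ∀ d, ¬ ∀ᵐ t : ℝ, sl d F t = periodicVolume F := not_exists.1 hc
  rcases le_or_gt (periodicVolume F) (4 * Real.pi / 81) with h81 | h81
  · -- small volumes
    right
    intro d
    rcases le_or_gt (a2 d) (1 / Real.pi) with h | h
    · rcases ball d h with h' | h'
      · exact absurd h' (hc' d)
      · exact h'.2
    · by_contra hcon
      have h0 : volume ({t | sl d F t = 0} ∩ Ico 0 1) = 0 := by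
        by_contra h2
        exact hcon (pos_iff_ne_zero.2 h2)
      have hpos : ∀ᵐ t : ℝ, 0 < sl d F t := by
        have h3 : ∀ᵐ t : ℝ, sl d F t ≠ 0 := ae_of_cell_null (fun t => sl d F t ≠ 0)
          (fun t => by rw [sl_per hper t]) (by simpa only [ne_eq, not_not] using h0)
        filter_upwards [h3] with t ht
        exact lt_of_le_of_ne (sl_nonneg t) (Ne.symm ht)
      have hstrict : mm (periodicVolume F) < (periodicPerimeter F).toReal / 2 := by
        rcases le_total (a1 d) (1 / 250) with h4 | h4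
        · exact cut_strict hZ hF hM hfin hV0 hV1 (R d) h4 h hpos
        · obtain ⟨m1, m2⟩ := rng_mem hF hper hfin (R d)
          refine rng_good hF hper hfin (R d) ?_
          have k4 : (4:ℝ) / 1000 ≤ a1 d := by linarith
          have hpi2 := Real.pi_lt_d2
          rcases le_total (periodicVolume F) (1 / 8) with h5 | h5
          · exact N2f (by linarith) h5 k4 m1 m2 h.le (R d).h1
          · exact N2a h5 (by linarith) k4 m1 m2 h.le (R d).h1
      linarith
  · exfalso
    rcases mid_cases hZ hA hF hM hfin hV0 hV1 R with h | ⟨d, hd⟩ | ⟨d, hd, hd2⟩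
    · linarith
    · rcases ball d hd with h' | h'
      · exact hc' d h'
      · linarith [h'.1]
    · have R' := R d
      rw [hd] at R'
      exact hc ((hZ F hF hM hfin hV0 hV1 d _ R' hd2).2 h81 hle)

/-- large volumes -/
theorem large_eq (hF : MeasurableSet F) (hper : IsLatticePeriodic F)
    (hP : periodicPerimeter F ≠ ∞) (hV0 : 36 / 100 ≤ periodicVolume F)
    (hV1 : periodicVolume F ≤ 1 / 2) :
    mm (periodicVolume F) ≤ (periodicPerimeter F).toReal / 2 ∧
      ((periodicPerimeter F).toReal / 2 ≤ mm (periodicVolume F) →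
        ∃ d, ∀ᵐ t : ℝ, sl d F t = periodicVolume F) := by
  obtain ⟨a1, a2, R⟩ := exists_rng hF hper hP 0
  obtain ⟨m1, m2⟩ := rng_mem hF hper hP R
  refine ⟨?_, fun hle => ?_⟩
  · obtain ⟨s0, sg, c1, c2⟩ := N4_le (by linarith) hV1 R.h0 m1 m2 R.h1
    exact c2.trans (rng_line hF hper hP R c1)
  · rcases R.h12.eq_or_lt with h | h
    · refine ⟨0, ?_⟩
      filter_upwards [R.ae] with t ht
      linarith [ht.1, ht.2]
    by_cases h01 : a1 = 0 ∧ a2 = 1
    · rw [h01.1, h01.2] at R
      exact slab_const F 0 hF hper hP (by linarith [mm_le_one (periodicVolume F)]) R (by linarith)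
        (by linarith)
    · have := rng_good hF hper hP R (N4 (by linarith) hV1 R.h0 m1 m2 R.h1 h h01)
      linarith

end

/-- **the theorem on monotone sets** -/
theorem monoThm (hZ : ZeroContact') (hA : AllBig) : MonoThm := by
  intro F hF hper hM0 hV0 hV1
  have hM : Mono F := hM0
  have hI0 := Ival_nonneg hV0.le
  -- reduction of the lower bound to the real form
  have lower : (periodicPerimeter F ≠ ∞ →
      mm (periodicVolume F) ≤ (periodicPerimeter F).toReal / 2) →
      ENNReal.ofReal (Ival (periodicVolume F)) ≤ periodicPerimeter F := by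
    intro h
    by_cases hP : periodicPerimeter F = ∞
    · rw [hP]; exact le_top
    · have := h hP
      rw [mm_eq_Ival] at this
      exact ENNReal.ofReal_le_of_le_toReal (by linarith)
  have heq : periodicPerimeter F = ENNReal.ofReal (Ival (periodicVolume F)) →
      periodicPerimeter F ≠ ∞ ∧ (periodicPerimeter F).toReal / 2 ≤ mm (periodicVolume F) := by
    intro h
    refine ⟨by rw [h]; exact ENNReal.ofReal_ne_top, ?_⟩
    rw [h, ENNReal.toReal_ofReal hI0, mm_eq_Ival]
  rcases le_total (periodicVolume F) (12 / 100) with h12 | h12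
  · refine ⟨lower fun hP => ?_, fun h => ?_⟩
    · obtain ⟨a1, a2, R⟩ := exists_rng hF hper hP 0
      exact (small_le hF hper hP hV0 h12 R).1
    · obtain ⟨hP, hle⟩ := heq h
      refine Or.inr (Or.inl fun d => ?_)
      obtain ⟨a1, a2, R⟩ := exists_rng hF hper hP d
      have h2 : a2 ≤ 1 / Real.pi := by
        by_contra hcon
        have := (small_le hF hper hP hV0 h12 R).2 (not_le.1 hcon)
        linarith
      exact R.ae.mono fun t ht => ht.2.trans h2
  rcases le_total (periodicVolume F) (36 / 100) with h36 | h36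
  · refine ⟨lower fun hP => mid_le hZ hA hF hM hP h12 h36, fun h => ?_⟩
    rcases mid_eq hZ hA hF hM h h12 h36 with h' | h'
    · exact Or.inl h'
    · exact Or.inr (Or.inr h')
  · refine ⟨lower fun hP => (large_eq hF hper hP h36 hV1).1, fun h => ?_⟩
    obtain ⟨hP, hle⟩ := heq h
    exact Or.inl ((large_eq hF hper hP h36 hV1).2 hle)

end Crest.Agent.R214
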