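import Crest.Agent.R214.Neck

/-! ROW 214: certified lower bounds of `PhiN s`, `s` rational (helper10). -/

set_option autoImplicit false
open MeasureTheory Set Filter Topology intervalIntegral

namespace Crest.Agent.R214

lemma phi_chord {s x y q r t : ℝ} (hq : 0 ≤ q) (hr : 0 ≤ r) (h1 : q ^ 2 + (s * x) ^ 2 ≤ 1)
    (h2 : r ^ 2 + (s * y) ^ 2 ≤ 1) (ht0 : 0 ≤ t) (ht1 : t ≤ 1) :
    (1 - t) * q + t * r ≤ Real.sqrt (1 - (s * ((1 - t) * x + t * y)) ^ 2) := by
  apply Real.le_sqrt_of_sq_le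
  have h3 : q * r + (s * x) * (s * y) ≤ 1 := by
    nlinarith [sq_nonneg (q - r), sq_nonneg (s * x - s * y)]
  have ht : 0 ≤ t * (1 - t) := mul_nonneg ht0 (by linarith)
  have e1 := mul_le_mul_of_nonneg_left h1 (sq_nonneg (1 - t))
  have e2 := mul_le_mul_of_nonneg_left h2 (sq_nonneg t)
  have e3 := mul_le_mul_of_nonneg_left h3 (by linarith : 0 ≤ 2 * (t * (1 - t)))
  nlinarith

lemma phi_trap {s x y q r : ℝ} (hxy : x ≤ y) (hq : 0 ≤ q) (hr : 0 ≤ r)
    (h1 : q ^ 2 + (s * x) ^ 2 ≤ 1) (h2 : r ^ 2 + (s * y) ^ 2 ≤ 1) :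
    (y - x) * (q + r) / 2 ≤ ∫ m in x..y, Real.sqrt (1 - (s * m) ^ 2) := by
  rcases eq_or_lt_of_le hxy with he | hlt
  · rw [he]; simp
  have hd : 0 < y - x := by linarith
  have hc : Continuous fun m : ℝ => Real.sqrt (1 - (s * m) ^ 2) := by fun_prop
  have hl : Continuous fun m : ℝ => q + (r - q) / (y - x) * (m - x) := by fun_prop
  have hint : ∫ m in x..y, (q + (r - q) / (y - x) * (m - x)) = (y - x) * (q + r) / 2 := by
    have e1 : ∫ m in x..y, (q + (r - q) / (y - x) * (m - x)) =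
        (∫ m in x..y, q) + ∫ m in x..y, (r - q) / (y - x) * (m - x) :=
      intervalIntegral.integral_add intervalIntegrable_const
        ((by fun_prop : Continuous fun m : ℝ => (r - q) / (y - x) * (m - x)).intervalIntegrable _ _)
    have e2 : ∫ m in x..y, (m - x) = (y - x) ^ 2 / 2 := by
      have := intervalIntegral.integral_comp_sub_right (a := x) (b := y) (fun m : ℝ => m) x
      rw [this, integral_id]
      ring
    rw [e1, intervalIntegral.integral_const, intervalIntegral.integral_const_mul, e2, smul_eq_mul]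
    field_simp
    ring
  rw [← hint]
  refine integral_mono_on hxy (hl.intervalIntegrable _ _) (hc.intervalIntegrable _ _) fun m hm => ?_
  have ht0 : 0 ≤ (m - x) / (y - x) := div_nonneg (by linarith [hm.1]) hd.le
  have ht1 : (m - x) / (y - x) ≤ 1 := (div_le_one hd).2 (by linarith [hm.2])
  have key := phi_chord hq hr h1 h2 ht0 ht1
  have e1 : (1 - (m - x) / (y - x)) * x + (m - x) / (y - x) * y = m := by field_simp; ring
  have e2 : (1 - (m - x) / (y - x)) * q + (m - x) / (y - x) * r =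
      q + (r - q) / (y - x) * (m - x) := by field_simp; ring
  rw [e1, e2] at key
  exact key

/-- checker for the nodes `i/n`: `Q_i² ≤ D² (1 - (p i / (r n))²)` -/
def phiOK (p r n D : ℕ) : ℕ → List ℕ → Bool
  | i, [] => i == n + 1
  | i, Q :: l => (Q ^ 2 * (r * n) ^ 2 + D ^ 2 * (p * i) ^ 2 ≤ D ^ 2 * (r * n) ^ 2) &&
      phiOK p r n D (i + 1) l

/-- trapezoid sum -/
def phiSum : List ℕ → ℕ
  | [] => 0
  | [_] => 0
  | Q :: Q' :: l => Q + Q' + phiSum (Q' :: l)

lemma phiOK_head {p r n D i Q : ℕ} {l : List ℕ} (hr : 0 < r) (hn : 0 < n) (hD : 0 < D)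
    (h : phiOK p r n D i (Q :: l) = true) :
    ((Q : ℝ) / D) ^ 2 + ((p : ℝ) / r * ((i : ℝ) / n)) ^ 2 ≤ 1 ∧ phiOK p r n D (i + 1) l = true := by
  unfold phiOK at h
  rw [Bool.and_eq_true, decide_eq_true_eq] at h
  refine ⟨?_, h.2⟩
  have h1 : ((Q : ℝ) ^ 2 * ((r : ℝ) * n) ^ 2 + (D : ℝ) ^ 2 * ((p : ℝ) * i) ^ 2) ≤
      (D : ℝ) ^ 2 * ((r : ℝ) * n) ^ 2 := by exact_mod_cast h.1
  have hr' : (0 : ℝ) < r := by exact_mod_cast hr
  have hn' : (0 : ℝ) < n := by exact_mod_cast hn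
  have hD' : (0 : ℝ) < D := by exact_mod_cast hD
  have e : ((Q : ℝ) / D) ^ 2 + ((p : ℝ) / r * ((i : ℝ) / n)) ^ 2 =
      ((Q : ℝ) ^ 2 * ((r : ℝ) * n) ^ 2 + (D : ℝ) ^ 2 * ((p : ℝ) * i) ^ 2) /
        ((D : ℝ) ^ 2 * ((r : ℝ) * n) ^ 2) := by field_simp
  rw [e]
  exact (div_le_one (by positivity)).2 h1

lemma phi_sound_aux {p r n D : ℕ} (hr : 0 < r) (hn : 0 < n) (hD : 0 < D) :
    ∀ (l : List ℕ) (i Q : ℕ), phiOK p r n D i (Q :: l) = true →
      (phiSum (Q :: l) : ℝ) / (2 * n * D) ≤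
        ∫ m in ((i : ℝ) / n)..1, Real.sqrt (1 - ((p : ℝ) / r * m) ^ 2) := by
  have hc : Continuous fun m : ℝ => Real.sqrt (1 - ((p : ℝ) / r * m) ^ 2) := by fun_prop
  have hn' : (0 : ℝ) < n := by exact_mod_cast hn
  have hD' : (0 : ℝ) < D := by exact_mod_cast hD
  intro l
  induction l with
  | nil =>
    intro i Q h
    obtain ⟨-, h2⟩ := phiOK_head hr hn hD h
    unfold phiOK at h2
    have h3 : i = n := by
      have := beq_iff_eq.1 h2
      omega
    rw [h3, div_self hn'.ne']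
    simp [phiSum]
  | cons Q' l ih =>
    intro i Q h
    obtain ⟨h1, h2⟩ := phiOK_head hr hn hD h
    obtain ⟨h3, -⟩ := phiOK_head hr hn hD h2
    have h4 := ih (i + 1) Q' h2
    have h5 := phi_trap (s := (p : ℝ) / r) (x := (i : ℝ) / n) (y := ((i + 1 : ℕ) : ℝ) / n)
      (q := (Q : ℝ) / D) (r := (Q' : ℝ) / D) (by
        apply div_le_div_of_nonneg_right _ hn'.le
        push_cast; linarith) (by positivity) (by positivity) h1 h3
    have h6 : (∫ m in ((i : ℝ) / n)..(((i + 1 : ℕ) : ℝ) / n),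
        Real.sqrt (1 - ((p : ℝ) / r * m) ^ 2)) +
        ∫ m in (((i + 1 : ℕ) : ℝ) / n)..1, Real.sqrt (1 - ((p : ℝ) / r * m) ^ 2) =
        ∫ m in ((i : ℝ) / n)..1, Real.sqrt (1 - ((p : ℝ) / r * m) ^ 2) :=
      integral_add_adjacent_intervals (hc.intervalIntegrable _ _) (hc.intervalIntegrable _ _)
    rw [← h6]
    have e : (phiSum (Q :: Q' :: l) : ℝ) / (2 * n * D) =
        (((i + 1 : ℕ) : ℝ) / n - (i : ℝ) / n) * ((Q : ℝ) / D + (Q' : ℝ) / D) / 2 +
          (phiSum (Q' :: l) : ℝ) / (2 * n * D) := by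
      have : phiSum (Q :: Q' :: l) = Q + Q' + phiSum (Q' :: l) := rfl
      rw [this]
      push_cast
      field_simp
      ring
    rw [e]
    linarith

/-- certified lower bound of `PhiN (p / r)` -/
theorem PhiN_ge {p r n D : ℕ} (l : List ℕ) (hr : 0 < r) (hn : 0 < n) (hD : 0 < D)
    (h : phiOK p r n D 0 l = true) :
    (phiSum l : ℝ) / (2 * n * D) ≤ PhiN ((p : ℝ) / r) := by
  cases l with
  | nil =>
    exfalso
    unfold phiOK at h
    have := beq_iff_eq.1 h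
    omega
  | cons Q l =>
    have := phi_sound_aux hr hn hD l 0 Q h
    simpa [PhiN] using this

end Crest.Agent.R214
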