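import Crest.Agent.R214.NeckAlt
import Crest.Agent.R214.PhiLow
import Crest.Agent.R214.Planar

/-! ROW 214: the planar line method, and directions with neck `≤ 1/10` and `a2 ≤ 2/5`
(statement by helper48; proof by helper10). -/

set_option autoImplicit false
open MeasureTheory Set Filter Topology intervalIntegral

namespace Crest.Agent.R214

/-- the weight of the planar line -/
noncomputable def cPy (s0 sg a : ℝ) : ℝ := max (s0 + sg * a) 0 / Real.sqrt (Real.pi * a)

lemma cPy_nonneg (s0 sg a : ℝ) : 0 ≤ cPy s0 sg a :=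
  div_nonneg (le_max_right _ _) (Real.sqrt_nonneg _)

lemma cPy_continuousOn {s0 sg a1 a2 : ℝ} (hs0 : 0 ≤ s0) (hsg : 0 ≤ sg) (h0 : 0 ≤ a1)
    (h12 : a1 ≤ a2) (hg : ∀ a ∈ Icc a1 a2, s0 + sg * a ≤ Real.sqrt (Real.pi * a)) :
    ContinuousOn (cPy s0 sg) (Icc a1 a2) := by
  have hpi := Real.pi_pos
  rcases eq_or_lt_of_le h0 with hz | hpos
  · have hs : s0 = 0 := by
      have := hg a1 ⟨le_rfl, h12⟩
      rw [← hz] at this
      simp only [mul_zero, add_zero, Real.sqrt_zero] at this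
      exact le_antisymm this hs0
    have hc : Continuous fun a : ℝ => sg / Real.sqrt Real.pi * Real.sqrt a := by fun_prop
    refine hc.continuousOn.congr fun a ha => ?_
    have ha0 : 0 ≤ a := by rw [hz]; exact ha.1
    show cPy s0 sg a = sg / Real.sqrt Real.pi * Real.sqrt a
    unfold cPy
    rw [hs, zero_add, max_eq_left (mul_nonneg hsg ha0), Real.sqrt_mul hpi.le]
    rcases eq_or_lt_of_le ha0 with h | h
    · rw [← h]; simp
    · have h1 : 0 < Real.sqrt a := Real.sqrt_pos.2 h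
      have h2 : 0 < Real.sqrt Real.pi := Real.sqrt_pos.2 hpi
      have h3 : Real.sqrt a * Real.sqrt a = a := Real.mul_self_sqrt ha0
      rw [div_mul_eq_mul_div, div_eq_div_iff (by positivity) h2.ne']
      calc sg * a * Real.sqrt Real.pi = sg * (Real.sqrt a * Real.sqrt a) * Real.sqrt Real.pi := by
            rw [h3]
        _ = _ := by ring
  · unfold cPy
    refine ContinuousOn.div (by fun_prop) (by fun_prop) fun a ha => ?_
    exact (Real.sqrt_pos.2 (mul_pos hpi (hpos.trans_le ha.1))).ne'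

/-- PLANAR LINE METHOD -/
theorem SD.line_planar {P a1 a2 s0 sg : ℝ} {a J : ℝ → ℝ} (S : SD P a J)
    (hJ : ∀ᵐ x : ℝ, Real.sqrt (Real.pi * a x) ≤ J x) (hs0 : 0 ≤ s0) (hsg : 0 ≤ sg)
    (h0 : 0 ≤ a1) (h12 : a1 ≤ a2)
    (hae : ∀ᵐ x : ℝ, a1 ≤ a x ∧ a x ≤ a2)
    (ha1 : ∀ δ > 0, 0 < volume ({x | a x < a1 + δ} ∩ Ico 0 1))
    (ha2 : ∀ δ > 0, 0 < volume ({x | a2 - δ < a x} ∩ Ico 0 1))
    (hg : ∀ x ∈ Icc a1 a2, s0 + sg * x ≤ Real.sqrt (Real.pi * x)) :
    s0 + sg * (∫ x in (0:ℝ)..1, a x) + ∫ x in a1..a2, hP s0 sg x ≤ P / 2 := by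
  have hc := cPy_continuousOn hs0 hsg h0 h12 hg
  have hc1 : ∀ x ∈ Icc a1 a2, cPy s0 sg x ≤ 1 := fun x hx => by
    unfold cPy
    exact div_le_one_of_le₀ (max_le (hg x hx) (Real.sqrt_nonneg _)) (Real.sqrt_nonneg _)
  refine S.lm_affine h12 hae ha1 ha2 (cPy s0 sg) (hP s0 sg) hc ?_ (fun x _ => cPy_nonneg _ _ _)
    (fun x _ => hP_nonneg _ _ _) (fun x hx => ?_) s0 sg ?_
  · show ContinuousOn (fun x => Real.sqrt (1 - cPy s0 sg x ^ 2)) (Icc a1 a2)
    exact (continuousOn_const.sub (hc.pow 2)).sqrt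
  · have h2 := hc1 x hx
    have h3 := cPy_nonneg s0 sg x
    show cPy s0 sg x ^ 2 + Real.sqrt (1 - cPy s0 sg x ^ 2) ^ 2 ≤ 1
    rw [Real.sq_sqrt (by nlinarith)]
    linarith
  · filter_upwards [hJ, hae] with x hx hx2
    have hx0 : 0 ≤ a x := h0.trans hx2.1
    have h1 : cPy s0 sg (a x) * Real.sqrt (Real.pi * a x) ≤ cPy s0 sg (a x) * J x :=
      mul_le_mul_of_nonneg_left hx (cPy_nonneg _ _ _)
    refine le_trans ?_ h1
    have h2 := hg (a x) hx2
    unfold cPy
    rcases eq_or_lt_of_le (Real.sqrt_nonneg (Real.pi * a x)) with h | h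
    · rw [← h] at h2 ⊢
      simpa using h2
    · rw [div_mul_cancel₀ _ h.ne']
      exact le_max_left _ _

/-- planar directions: the bound and its equality cases -/
theorem SD.planar_bound {P V a1 a2 : ℝ} {a J : ℝ → ℝ} (S : SD P a J)
    (hJ : ∀ᵐ x : ℝ, Real.sqrt (Real.pi * a x) ≤ J x) (hI : ∫ x in (0:ℝ)..1, a x = V)
    (hV : 0 < V) (h0 : 0 ≤ a1) (hae : ∀ᵐ x : ℝ, a1 ≤ a x ∧ a x ≤ a2)
    (ha1 : ∀ δ > 0, 0 < volume ({x | a x < a1 + δ} ∩ Ico 0 1))
    (ha2 : ∀ δ > 0, 0 < volume ({x | a2 - δ < a x} ∩ Ico 0 1)) :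
    mm V ≤ P / 2 ∧ (mm V = P / 2 →
      (a1 = V ∧ a2 = V) ∨ (a1 = 0 ∧ V = 4 * Real.pi / 3 * Real.sqrt (a2 / Real.pi) ^ 3)) := by
  have i1 : a1 ≤ V := by
    have : ∫ x in (0:ℝ)..1, a1 ≤ ∫ x in (0:ℝ)..1, a x :=
      intervalIntegral.integral_mono_ae zero_le_one intervalIntegrable_const
        (S.intervalIntegrable_a 0 1) (hae.mono fun x hx => hx.1)
    rw [hI] at this
    simpa using this
  have i2 : V ≤ a2 := by
    have : ∫ x in (0:ℝ)..1, a x ≤ ∫ x in (0:ℝ)..1, a2 :=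
      intervalIntegral.integral_mono_ae zero_le_one (S.intervalIntegrable_a 0 1)
        intervalIntegrable_const (hae.mono fun x hx => hx.2)
    rw [hI] at this
    simpa using this
  obtain ⟨s0, sg, k1, k2, k3, k4, k5⟩ := planar_dir h0 i1 i2 hV
  have key := S.line_planar hJ k1 k2.le h0 (i1.trans i2) hae ha1 ha2 k3
  rw [hI] at key
  refine ⟨k4.trans key, fun h => k5 (le_antisymm k4 ?_)⟩
  rw [h]; exact key

lemma PhiN_34 : (896075 : ℝ) / 1000000 ≤ PhiN (3 / 4) := by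
  have h := PhiN_ge (p := 3) (r := 4) (n := 64) (D := 1000000)
    [1000000, 999931, 999725, 999381, 998900, 998281, 997525, 996629, 995595, 994422,
      993109, 991656, 990062, 988327, 986449, 984429, 982264, 979955, 977499, 974897,
      972146, 969246, 966194, 962991, 959634, 956122, 952452, 948623, 944634, 940481,
      936164, 931679, 927024, 922197, 917195, 912015, 906654, 901108, 895375, 889450,
      883330, 877011, 870489, 863758, 856814, 849652, 842265, 834649, 826797, 818701,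
      810356, 801752, 792882, 783736, 774305, 764577, 754543, 744189, 733501, 722466,
      711066, 699284, 687100, 674492, 661437] (by norm_num) (by norm_num) (by norm_num) (by decide +kernel)
  have h2 : phiSum [1000000, 999931, 999725, 999381, 998900, 998281, 997525, 996629, 995595, 994422,
      993109, 991656, 990062, 988327, 986449, 984429, 982264, 979955, 977499, 974897,
      972146, 969246, 966194, 962991, 959634, 956122, 952452, 948623, 944634, 940481,
      936164, 931679, 927024, 922197, 917195, 912015, 906654, 901108, 895375, 889450,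
      883330, 877011, 870489, 863758, 856814, 849652, 842265, 834649, 826797, 818701,
      810356, 801752, 792882, 783736, 774305, 764577, 754543, 744189, 733501, 722466,
      711066, 699284, 687100, 674492, 661437] = 114697707 := by
    decide +kernel
  rw [h2] at h
  norm_num at h
  linarith

/-- for `a ≤ 2/5` the Dido bound with neck `1/10` is above the planar bound -/
lemma neckAlt_planar {a J : ℝ} (h0 : 0 ≤ a) (h1 : a ≤ 2 / 5) (h : NeckAlt (1 / 10) a J) :
    Real.sqrt (Real.pi * a) ≤ J := by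
  rcases h with h | h
  · exact h
  · refine le_trans ?_ (h (3 / 4) (by norm_num) (by norm_num))
    refine le_trans ?_ (add_le_add le_rfl PhiN_34)
    rw [Real.sqrt_le_iff]
    constructor
    · linarith
    · have := Real.pi_lt_d6
      have h3 : Real.pi * a ≤ 3.141593 * a := mul_le_mul_of_nonneg_right this.le h0
      nlinarith [sq_nonneg (a - 2 / 5)]

/-- directions with neck `≤ 1/10` and `a2 ≤ 2/5` -/
theorem SD.yPlanar {P V a1 a2 : ℝ} {a J : ℝ → ℝ} (S : SD P a J)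
    (hI : ∫ x in (0:ℝ)..1, a x = V) (hV : 0 < V) (h0 : 0 ≤ a1)
    (hae : ∀ᵐ x : ℝ, a1 ≤ a x ∧ a x ≤ a2)
    (ha1 : ∀ δ > 0, 0 < volume ({x | a x < a1 + δ} ∩ Ico 0 1))
    (ha2 : ∀ δ > 0, 0 < volume ({x | a2 - δ < a x} ∩ Ico 0 1))
    (hJ : ∀ᵐ x : ℝ, NeckAlt (1 / 10) (a x) (J x)) (h25 : a2 ≤ 2 / 5) :
    mm V ≤ P / 2 ∧ (mm V = P / 2 →
      (a1 = V ∧ a2 = V) ∨ (a1 = 0 ∧ V = 4 * Real.pi / 3 * Real.sqrt (a2 / Real.pi) ^ 3)) := by
  refine S.planar_bound ?_ hI hV h0 hae ha1 ha2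
  filter_upwards [hJ, hae] with x hx hx2
  exact neckAlt_planar (h0.trans hx2.1) (hx2.2.trans h25) hx

end Crest.Agent.R214
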