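import Crest.Agent.R214.SD2
import Crest.Agent.R214.YTree
import Crest.Agent.R214.YPlanar

/-! Row 214 (helper57; statement by helper48): the `(y)`-branch, `a2 ≥ 2/5`. -/

set_option autoImplicit false

open MeasureTheory Set Filter Topology

namespace Crest.Agent.R214

namespace BY

/-- the horizontal weight -/
noncomputable def cL (s0 sg a : ℝ) : ℝ := max (s0 + sg * a) 0 / I2 a

theorem hL_eq (s0 sg a : ℝ) : hL s0 sg a = √(1 - cL s0 sg a ^ 2) := rfl

theorem I2_nn (x : ℝ) : 0 ≤ I2 x := Real.sqrt_nonneg _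

theorem I2_continuous : Continuous I2 := by unfold I2 w2; fun_prop

theorem I2_ge {y : ℝ} (h0 : 0 ≤ y) : √y ≤ I2 y := by
  unfold I2 w2
  have hpi := Real.pi_gt_three
  refine Real.sqrt_le_sqrt (le_min ?_ ?_)
  · nlinarith
  · linarith

theorem I2_pos' {y : ℝ} (h0 : 0 < y) : 0 < I2 y :=
  lt_of_lt_of_le (Real.sqrt_pos.2 h0) (I2_ge h0.le)

theorem I2_zero : I2 0 = 0 := by
  unfold I2 w2
  rw [Real.sqrt_eq_zero']
  exact (min_le_left _ _).trans (by simp)

theorem cL_nonneg (s0 sg a : ℝ) : 0 ≤ cL s0 sg a := div_nonneg (le_max_right _ _) (I2_nn _)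

theorem cL_le_one {s0 sg a : ℝ} (h : s0 + sg * a ≤ I2 a) : cL s0 sg a ≤ 1 :=
  div_le_one_of_le₀ (max_le h (I2_nn _)) (I2_nn _)

/-- near `0` -/
theorem cL_le_left {s0 sg y : ℝ} (h : s0 ≤ 0) (h0 : 0 ≤ y) : cL s0 sg y ≤ |sg| * √y := by
  rcases h0.eq_or_lt with h2 | h2
  · rw [← h2]
    unfold cL
    rw [I2_zero, div_zero]
    positivity
  unfold cL
  have hI : 0 < I2 y := I2_pos' h2
  rw [div_le_iff₀ hI]
  have h4 : √y ≤ I2 y := I2_ge h0
  have h5 : √y * √y = y := Real.mul_self_sqrt h0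
  have h6 : |sg| * y ≤ |sg| * √y * I2 y := by
    have h7 : |sg| * √y * √y ≤ |sg| * √y * I2 y :=
      mul_le_mul_of_nonneg_left h4 (by positivity)
    rw [mul_assoc, h5] at h7
    exact h7
  refine (max_le ?_ (by positivity)).trans h6
  have := le_abs_self sg
  nlinarith

theorem cL_continuousOn {s0 sg a1 a2 : ℝ} (h0 : 0 ≤ a1)
    (hg : ∀ a ∈ Icc a1 a2, s0 + sg * a ≤ I2 a) : ContinuousOn (cL s0 sg) (Icc a1 a2) := by
  intro y hy
  have hy0 : 0 ≤ y := h0.trans hy.1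
  rcases hy0.eq_or_lt with h2 | h2
  · subst h2
    have hs : s0 ≤ 0 := by
      have := hg 0 hy
      rw [I2_zero] at this
      linarith
    have e0 : cL s0 sg 0 = 0 := by unfold cL; rw [I2_zero, div_zero]
    show Tendsto (cL s0 sg) (𝓝[Icc a1 a2] 0) (𝓝 (cL s0 sg 0))
    rw [e0]
    have ht : Tendsto (fun y : ℝ => |sg| * √y) (𝓝[Icc a1 a2] 0) (𝓝 0) := by
      have hc : Continuous fun y : ℝ => |sg| * √y := by fun_prop
      have := hc.tendsto 0
      simp only [mul_zero, Real.sqrt_zero] at this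
      exact this.mono_left nhdsWithin_le_nhds
    refine squeeze_zero' (Eventually.of_forall fun y => cL_nonneg _ _ _) ?_ ht
    filter_upwards [self_mem_nhdsWithin] with z hz2
    exact cL_le_left hs (h0.trans hz2.1)
  · refine ContinuousAt.continuousWithinAt ?_
    unfold cL
    refine ContinuousAt.div ?_ I2_continuous.continuousAt (I2_pos' h2).ne'
    fun_prop

end BY

open BY in
/-- line method with an affine line under `BY.I2` -/
theorem SD.lineY {P a1 a2 s0 sg : ℝ} {a J : ℝ → ℝ} (S : SD P a J)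
    (hJ : ∀ᵐ x : ℝ, BY.I2 (a x) ≤ J x) (h0 : 0 ≤ a1) (h12 : a1 ≤ a2)
    (hae : ∀ᵐ x : ℝ, a1 ≤ a x ∧ a x ≤ a2)
    (ha1 : ∀ δ > 0, 0 < volume ({x | a x < a1 + δ} ∩ Ico 0 1))
    (ha2 : ∀ δ > 0, 0 < volume ({x | a2 - δ < a x} ∩ Ico 0 1))
    (hg : ∀ x ∈ Icc a1 a2, s0 + sg * x ≤ BY.I2 x) :
    s0 + sg * (∫ x in (0:ℝ)..1, a x) + ∫ x in a1..a2, BY.hL s0 sg x ≤ P / 2 := by
  have hc := BY.cL_continuousOn h0 hg
  refine S.lm_affine h12 hae ha1 ha2 (BY.cL s0 sg) (BY.hL s0 sg) hc ?_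
    (fun x _ => BY.cL_nonneg _ _ _) (fun x _ => BY.hL_nonneg _ _ _) (fun x hx => ?_) s0 sg ?_
  · show ContinuousOn (fun x => √(1 - BY.cL s0 sg x ^ 2)) (Icc a1 a2)
    exact (continuousOn_const.sub (hc.pow 2)).sqrt
  · rw [BY.hL_eq, Real.sq_sqrt]
    · linarith
    · have h2 := BY.cL_le_one (hg x hx)
      have h3 := BY.cL_nonneg s0 sg x
      nlinarith
  · filter_upwards [hae, hJ] with x hx hJx
    have h2 : s0 + sg * a x ≤ BY.cL s0 sg (a x) * BY.I2 (a x) := by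
      rcases (BY.I2_nn (a x)).eq_or_lt with h3 | h3
      · have := hg _ hx
        rw [← h3] at this ⊢
        rw [mul_zero]
        exact this
      · unfold BY.cL
        rw [div_mul_cancel₀ _ h3.ne']
        exact le_max_left _ _
    exact h2.trans (mul_le_mul_of_nonneg_left hJx (BY.cL_nonneg _ _ _))

lemma neckAlt_BY {a J : ℝ} (h0 : 0 ≤ a) (h : NeckAlt (1 / 10) a J) : BY.I2 a ≤ J := by
  rcases h with h | h
  · refine le_trans ?_ h
    unfold BY.I2 BY.w2
    exact Real.sqrt_le_sqrt (min_le_left _ _)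
  · refine le_trans ?_ (h (3 / 4) (by norm_num) (by norm_num))
    refine le_trans ?_ (add_le_add le_rfl PhiN_34)
    unfold BY.I2 BY.w2
    rw [Real.sqrt_le_iff]
    constructor
    · linarith
    · refine (min_le_right _ _).trans ?_
      nlinarith [sq_nonneg (3 / 4 * (a - 1 / 10) + 896075 / 1000000 - 6 / 5)]

/-- **the `(y)`-branch, `a2 ≥ 2/5`** -/
theorem SD.yCase {P V a1 a2 : ℝ} {a J : ℝ → ℝ} (S : SD P a J)
    (hI : ∫ x in (0:ℝ)..1, a x = V) (hV0 : 3 / 25 ≤ V) (hV1 : V ≤ 9 / 25) (h0 : 0 ≤ a1)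
    (hae : ∀ᵐ x : ℝ, a1 ≤ a x ∧ a x ≤ a2)
    (ha1 : ∀ δ > 0, 0 < volume ({x | a x < a1 + δ} ∩ Ico 0 1))
    (ha2 : ∀ δ > 0, 0 < volume ({x | a2 - δ < a x} ∩ Ico 0 1))
    (hJ : ∀ᵐ x : ℝ, NeckAlt (1 / 10) (a x) (J x)) (h25 : 2 / 5 ≤ a2) :
    mm V < P / 2 := by
  have h21 : a2 ≤ 1 := by
    refine le_of_forall_pos_lt_add fun δ hδ => ?_
    by_contra hcon
    push Not at hcon
    have h := ha2 δ hδ
    have he : {x | a2 - δ < a x} ∩ Ico 0 1 = ∅ := by
      ext x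
      simp only [mem_inter_iff, mem_ofPred_eq, mem_empty_iff_false, iff_false, not_and]
      intro hx
      have := (S.a01 x).2
      linarith
    rw [he] at h
    simp at h
  have i1 : a1 ≤ V := by
    have : ∫ x in (0:ℝ)..1, a1 ≤ ∫ x in (0:ℝ)..1, a x := by
      refine intervalIntegral.integral_mono_ae zero_le_one intervalIntegrable_const ?_
        (hae.mono fun x hx => hx.1)
      refine (intervalIntegrable_const (c := (1 : ℝ))).mono_fun
        S.meas_a.aestronglyMeasurable ?_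
      refine Eventually.of_forall fun t => ?_
      show ‖a t‖ ≤ ‖(1 : ℝ)‖
      rw [Real.norm_of_nonneg (S.a01 t).1, Real.norm_of_nonneg zero_le_one]
      exact (S.a01 t).2
    rw [hI] at this
    simpa using this
  obtain ⟨s0, sg, hg, hval⟩ := BY.y_good hV0 hV1 h0 i1 h25 h21
  have h := S.lineY (s0 := s0) (sg := sg) (by
    filter_upwards [hJ] with x hx
    exact neckAlt_BY (S.a01 x).1 hx) h0 (by linarith) hae ha1 ha2 hg
  rw [hI] at h
  linarith

end Crest.Agent.R214
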