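import Crest.Agent.R214.Rig
import Crest.Agent.R214.Defs

/-!
# Row 214: box-monotone sets, essential range (definitions shared by Final, helper1)
-/

set_option autoImplicit false

open MeasureTheory Crest.GeometryTopology.PeriodicPerimeter Filter Set
open scoped ENNReal Topology

namespace Crest.Agent.R214

/-- box-monotone set: the indicator is a non-increasing function of the distances of the
coordinates to `ℤ` (pointwise) -/
def Mono {n : ℕ} (F : Set (Ev n)) : Prop :=
  ∀ x y : Ev n, (∀ i, dZ (x i) ≤ dZ (y i)) → y ∈ F → x ∈ F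

/-- `[a1, a2]` is the essential range hull of the 1-periodic function `a` -/
structure Rng (a : ℝ → ℝ) (a1 a2 : ℝ) : Prop where
  h0 : 0 ≤ a1
  h12 : a1 ≤ a2
  h1 : a2 ≤ 1
  ae : ∀ᵐ x : ℝ, a1 ≤ a x ∧ a x ≤ a2
  inf : ∀ δ > 0, 0 < volume ({x | a x < a1 + δ} ∩ Ico 0 1)
  sup : ∀ δ > 0, 0 < volume ({x | a2 - δ < a x} ∩ Ico 0 1)

/-- the conclusion of every case: the lower bound, and in the case of equality a constant
section function -/
def Ok (F : Set (Ev 3)) (m : ℝ) : Prop :=
  m ≤ (periodicPerimeter F).toReal / 2 ∧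
    ((periodicPerimeter F).toReal / 2 ≤ m → ∃ e : Fin 3, ∀ᵐ t : ℝ, sl e F t = periodicVolume F)

theorem Mono.periodic {n : ℕ} {F : Set (Ev n)} (h : Mono F) : IsLatticePeriodic F := by
  have key : ∀ (t : ℝ) (m : ℤ), dZ (t + m) = dZ t := by
    intro t m
    unfold dZ
    rw [round_add_intCast]
    push_cast
    congr 1
    ring
  intro v hv x
  have e : ∀ i, dZ ((x + v) i) = dZ (x i) := by
    intro i
    obtain ⟨m, hm⟩ := hv i
    rw [PiLp.add_apply, hm, key]
  exact ⟨fun hx => h _ _ (fun i => (e i).ge) hx, fun hx => h _ _ (fun i => (e i).le) hx⟩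

end Crest.Agent.R214
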