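import Crest.Agent.R214.Full

/-! ROW 214: the alternatives `NeckAlt`, `WrapAlt` (statement by helper48) for planar sets
(helper10). -/

set_option autoImplicit false
open MeasureTheory Set Filter Topology Crest.GeometryTopology.PeriodicPerimeter
open scoped ENNReal

namespace Crest.Agent.R214

/-- neck alternative: planar bound, or Dido bound with neck `n` -/
def NeckAlt (n a J : ℝ) : Prop :=
  Real.sqrt (Real.pi * a) ≤ J ∨ ∀ s : ℝ, 0 ≤ s → s ≤ 1 → s * (a - n) + PhiN s ≤ J

/-- hole of width at most `e` -/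
def WrapAlt (e a J : ℝ) : Prop :=
  ∃ L : ℝ, 0 < L ∧ L ≤ e ∧ (1 - a) / L + Real.pi * L / 4 ≤ J

lemma NeckAlt.mono_left {n n' a J : ℝ} (h : NeckAlt n a J) (hn : n ≤ n') : NeckAlt n' a J := by
  rcases h with h | h
  · exact Or.inl h
  · refine Or.inr fun s h0 h1 => le_trans ?_ (h s h0 h1)
    have : s * (a - n') ≤ s * (a - n) := mul_le_mul_of_nonneg_left (by linarith) h0
    linarith

lemma NeckAlt.mono {n a J J' : ℝ} (h : NeckAlt n a J) (hJ : J ≤ J') : NeckAlt n a J' := by
  rcases h with h | h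
  · exact Or.inl (h.trans hJ)
  · exact Or.inr fun s h0 h1 => (h s h0 h1).trans hJ

lemma WrapAlt.mono_left {e e' a J : ℝ} (h : WrapAlt e a J) (he : e ≤ e') : WrapAlt e' a J := by
  obtain ⟨L, h1, h2, h3⟩ := h
  exact ⟨L, h1, h2.trans he, h3⟩

lemma WrapAlt.mono {e a J J' : ℝ} (h : WrapAlt e a J) (hJ : J ≤ J') : WrapAlt e a J' := by
  obtain ⟨L, h1, h2, h3⟩ := h
  exact ⟨L, h1, h2, h3.trans hJ⟩

/-- planar sets without full lines in direction `d`, essential infimum of `sl d K` at most `n0` -/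
theorem neckAlt2 {K : Set (Ev 2)} (hK : MeasurableSet K) (hper : IsLatticePeriodic K)
    (hP : periodicPerimeter K ≠ ∞) (d : Fin 2) {n0 : ℝ}
    (hn : ∀ δ > 0, 0 < volume ({x | sl d K x < n0 + δ} ∩ Ico 0 1))
    (hf : fullM (sl d K) = 0) :
    NeckAlt n0 (periodicVolume K) ((periodicPerimeter K).toReal / 2) := by
  rcases (sd2 hK hper hP d).neck hn with h | h
  · left
    rw [integral_sl (d := d) hK, hf] at h
    linarith
  · right
    intro s hs0 hs1
    have := h s hs0 hs1
    rw [integral_sl (d := d) hK, hf] at this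
    linarith

/-- planar sets with full lines in both directions -/
theorem wrapAlt2 {K : Set (Ev 2)} (hK : MeasurableSet K) (hper : IsLatticePeriodic K)
    (hP : periodicPerimeter K ≠ ∞) {d e : Fin 2} (hde : d ≠ e) {f : ℝ}
    (h0 : 0 < fullM (sl d K)) (h1 : 0 < fullM (sl e K)) (hf : f ≤ fullM (sl e K))
    (hv : periodicVolume K < 1) :
    WrapAlt (1 - f) (periodicVolume K) ((periodicPerimeter K).toReal / 2) := by
  obtain ⟨L, -, hL1, hHL, hL⟩ := full_width hK hper hP hde h0 h1
  exact ⟨L, by linarith, by linarith, hL⟩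

lemma fullM_eq_zero_iff {l : ℝ → ℝ} (hl : Measurable l) (hp : Function.Periodic l 1) :
    fullM l = 0 ↔ ∀ᵐ x : ℝ, l x ≠ 1 := by
  rw [fullM_eq hl, ENNReal.toReal_eq_zero_iff]
  have hfin : volume ({x | l x = 1} ∩ Ico 0 1) ≠ ∞ :=
    ne_top_of_le_ne_top (by simp : volume (Ico (0:ℝ) 1) ≠ ∞) (measure_mono inter_subset_right)
  constructor
  · rintro (h | h)
    · exact ae_of_cell_null (fun x => l x ≠ 1) (fun x => by rw [hp x]) (by
        simpa only [ne_eq, not_not] using h)
    · exact absurd h hfin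
  · intro h
    left
    refine measure_mono_null inter_subset_left ?_
    have := ae_iff.1 h
    simpa only [ne_eq, not_not] using this

end Crest.Agent.R214
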