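import Crest.Agent.R214.Full
import Crest.Agent.R214.Rig
import Crest.Agent.R214.Bath

/-! ROW 214: zero contact, part a (helper16): facts about sets which are monotone in all `|x_i|`.
Monotone: `hM : ∀ x y, (∀ i, dZ (x i) ≤ dZ (y i)) → y ∈ F → x ∈ F`. -/

set_option autoImplicit false
open MeasureTheory Set Filter Topology Crest.GeometryTopology.PeriodicPerimeter
open scoped ENNReal

namespace Crest.Agent.R214

/-- slices of a monotone set are monotone -/
theorem zc_slice_mono {n : ℕ} {F : Set (Ev (n + 1))}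
    (hM : ∀ x y : Ev (n + 1), (∀ i, dZ (x i) ≤ dZ (y i)) → y ∈ F → x ∈ F) (d : Fin (n + 1)) (t : ℝ) :
    ∀ x y : Ev n, (∀ i, dZ (x i) ≤ dZ (y i)) → y ∈ slice d F t → x ∈ slice d F t := by
  intro x y h hy
  refine hM (ins d t x) (ins d t y) (fun i => ?_) hy
  refine Fin.succAboveCases d ?_ (fun j => ?_) i
  · rw [ins_same, ins_same]
  · rw [ins_succAbove, ins_succAbove]; exact h j

/-- slices of a monotone set are nested -/
theorem zc_slice_anti {n : ℕ} {F : Set (Ev (n + 1))}
    (hM : ∀ x y : Ev (n + 1), (∀ i, dZ (x i) ≤ dZ (y i)) → y ∈ F → x ∈ F) (d : Fin (n + 1)) {t t' : ℝ}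
    (h : dZ t ≤ dZ t') : slice d F t' ⊆ slice d F t := by
  intro y hy
  refine hM (ins d t y) (ins d t' y) (fun i => ?_) hy
  refine Fin.succAboveCases d ?_ (fun j => ?_) i
  · rw [ins_same, ins_same]; exact h
  · rw [ins_succAbove, ins_succAbove]

theorem zc_vol_mono {n : ℕ} {A B : Set (Ev n)} (h : A ⊆ B) : periodicVolume A ≤ periodicVolume B := by
  unfold periodicVolume
  refine ENNReal.toReal_mono (ne_top_of_le_ne_top ENNReal.one_ne_top
    ((measure_mono inter_subset_right).trans (cell_volume n).le)) ?_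
  exact measure_mono (inter_subset_inter_left _ h)

theorem zc_sl_mono {n : ℕ} {A B : Set (Ev (n + 1))} (h : A ⊆ B) (e : Fin (n + 1)) (t : ℝ) :
    sl e A t ≤ sl e B t := zc_vol_mono fun _ hy => h hy

/-- slice areas are antitone in `dZ` -/
theorem zc_sl_anti {n : ℕ} {F : Set (Ev (n + 1))}
    (hM : ∀ x y : Ev (n + 1), (∀ i, dZ (x i) ≤ dZ (y i)) → y ∈ F → x ∈ F) (d : Fin (n + 1)) {t t' : ℝ}
    (h : dZ t ≤ dZ t') : sl d F t' ≤ sl d F t := zc_vol_mono (zc_slice_anti hM d h)

/-- measure of full lines is monotone in the set -/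
theorem zc_fullM_mono {A B : Set (Ev 2)} (hA : MeasurableSet A) (hB : MeasurableSet B) (h : A ⊆ B)
    (e : Fin 2) : fullM (sl e A) ≤ fullM (sl e B) := by
  unfold fullM
  refine intervalIntegral.integral_mono_on zero_le_one
    (full_int (sl_measurable (d := e) hA) 0 1) (full_int (sl_measurable (d := e) hB) 0 1) fun x _ => ?_
  by_cases h1 : sl e A x = 1
  · have h2 : sl e B x = 1 := le_antisymm (sl_le_one hB x) (by rw [← h1]; exact zc_sl_mono h e x)
    rw [if_pos h1, if_pos h2]
  · rw [if_neg h1]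
    split_ifs <;> norm_num

theorem zc_fullM_le_one {l : ℝ → ℝ} (hl : Measurable l) : fullM l ≤ 1 := by
  unfold fullM
  have : ∫ x in (0:ℝ)..1, (if l x = 1 then (1:ℝ) else 0) ≤ ∫ x in (0:ℝ)..1, (1:ℝ) := by
    refine intervalIntegral.integral_mono_on zero_le_one (full_int hl 0 1)
      intervalIntegrable_const fun x _ => ?_
    split_ifs <;> norm_num
  simpa using this

/-- volume in `Ev 1` of a set given by its coordinate -/
theorem zc_ev1_vol {Y : Set ℝ} (hY : MeasurableSet Y) :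
    periodicVolume {y : Ev 1 | y 0 ∈ Y} = (volume (Y ∩ Ico 0 1)).toReal := by
  have hc0 : Measurable fun x : Ev 1 => x 0 := by fun_prop
  have hZ : MeasurableSet {y : Ev 1 | y 0 ∈ Y} := hc0 hY
  rw [← integral_sl (d := 0) hZ]
  have h1 : ∀ t : ℝ, sl 0 {y : Ev 1 | y 0 ∈ Y} t = Y.indicator (fun _ => (1:ℝ)) t := by
    intro t
    by_cases ht : t ∈ Y
    · have : slice 0 {y : Ev 1 | y 0 ∈ Y} t = univ := by
        ext y
        simp only [mem_univ, iff_true]
        show ins 0 t y 0 ∈ Y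
        rw [ins_same]; exact ht
      unfold sl periodicVolume
      rw [this, univ_inter, cell_volume, indicator_of_mem ht]; simp
    · have : slice 0 {y : Ev 1 | y 0 ∈ Y} t = ∅ := by
        ext y
        simp only [mem_empty_iff_false, iff_false]
        intro hy
        have h1 : ins 0 t y 0 ∈ Y := hy
        rw [ins_same] at h1
        exact ht h1
      unfold sl periodicVolume
      rw [this, indicator_of_notMem ht]; simp
  simp_rw [h1]
  rw [intervalIntegral.integral_of_le zero_le_one, ← integral_Ico_eq_integral_Ioc,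
    integral_indicator_const _ hY, smul_eq_mul, mul_one, Measure.real,
    Measure.restrict_apply hY]

/-- the arc `{dZ ≤ c}` has measure at least `2 c` -/
theorem zc_arc_vol {c : ℝ} (hc : 0 ≤ c) (hc2 : c ≤ 1 / 2) :
    2 * c ≤ (volume ({s : ℝ | dZ s ≤ c} ∩ Ico 0 1)).toReal := by
  have hfin : volume ({s : ℝ | dZ s ≤ c} ∩ Ico 0 1) ≠ ∞ :=
    ne_top_of_le_ne_top (by simp) (measure_mono inter_subset_right : _ ≤ volume (Ico (0:ℝ) 1))
  have hsub : Ico (0:ℝ) c ∪ Ico (1 - c) 1 ⊆ {s : ℝ | dZ s ≤ c} ∩ Ico 0 1 := by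
    rintro s (hs | hs)
    · refine ⟨?_, hs.1, by linarith [hs.2]⟩
      have := dZ_le s 0
      simp only [Int.cast_zero, sub_zero] at this
      rw [abs_of_nonneg hs.1] at this
      exact this.trans hs.2.le
    · refine ⟨?_, by linarith [hs.1], hs.2⟩
      have := dZ_le s 1
      simp only [Int.cast_one] at this
      rw [abs_of_neg (by linarith [hs.2])] at this
      exact this.trans (by linarith [hs.1])
  have hdis : Disjoint (Ico (0:ℝ) c) (Ico (1 - c) 1) := by
    rw [Set.disjoint_left]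
    intro x hx hx'
    linarith [hx.2, hx'.1]
  have h1 : volume (Ico (0:ℝ) c ∪ Ico (1 - c) 1) = ENNReal.ofReal (2 * c) := by
    rw [measure_union hdis measurableSet_Ico, Real.volume_Ico, Real.volume_Ico,
      ← ENNReal.ofReal_add (by linarith) (by linarith)]
    congr 1; ring
  have h2 := ENNReal.toReal_mono hfin (measure_mono hsub)
  rw [h1, ENNReal.toReal_ofReal (by linarith)] at h2
  exact h2

/-- in a monotone planar set, a line through a point `(x0, s)` has length `≥ 2 |x0|` -/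
theorem zc_line {K : Set (Ev 2)}
    (hM : ∀ x y : Ev 2, (∀ i, dZ (x i) ≤ dZ (y i)) → y ∈ K → x ∈ K) {d e : Fin 2} (hde : d ≠ e)
    {x0 : ℝ} {y : Ev 1} (hy : y ∈ slice d K x0) : 2 * dZ x0 ≤ sl e K (y 0) := by
  have hde' : e = d.succAbove 0 := by
    fin_cases d <;> fin_cases e <;> first | rfl | exact absurd rfl hde
  have hed' : d = e.succAbove 0 := by
    fin_cases d <;> fin_cases e <;> first | rfl | exact absurd rfl hde
  have hsub : {w : Ev 1 | w 0 ∈ {s : ℝ | dZ s ≤ dZ x0}} ⊆ slice e K (y 0) := by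
    intro w hw
    have hw' : dZ (w 0) ≤ dZ x0 := hw
    refine hM (ins e (y 0) w) (ins d x0 y) (fun i => ?_) hy
    refine Fin.succAboveCases e ?_ (fun j => ?_) i
    · rw [ins_same]
      have : ins d x0 y e = y 0 := by
        conv_lhs => rw [hde']
        rw [ins_succAbove]
      rw [this]
    · rw [ins_succAbove]
      have hj : j = 0 := Subsingleton.elim _ _
      rw [hj, ← hed', ins_same]
      exact hw'
  have h1 := zc_vol_mono hsub
  have hm : MeasurableSet {s : ℝ | dZ s ≤ dZ x0} :=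
    measurableSet_le dZ_continuous.measurable measurable_const
  rw [zc_ev1_vol hm] at h1
  exact (zc_arc_vol (dZ_nonneg _) (dZ_le_half _)).trans h1

/-- neck of a monotone planar set -/
theorem zc_neck {K : Set (Ev 2)} (hK : MeasurableSet K) (hper : IsLatticePeriodic K)
    (hM : ∀ x y : Ev 2, (∀ i, dZ (x i) ≤ dZ (y i)) → y ∈ K → x ∈ K) {d e : Fin 2} (hde : d ≠ e)
    {n0 : ℝ} (hn0 : fullM (sl e K) ≤ n0) :
    ∀ δ > 0, 0 < volume ({x | sl d K x < n0 + δ} ∩ Ico 0 1) := by
  intro δ hδ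
  by_contra hcon
  have h0 : volume ({x | sl d K x < n0 + δ} ∩ Ico 0 1) = 0 := by
    rcases eq_or_ne (volume ({x | sl d K x < n0 + δ} ∩ Ico 0 1)) 0 with h | h
    · exact h
    · exact absurd (pos_iff_ne_zero.2 h) hcon
  have hae : ∀ᵐ x : ℝ, n0 + δ ≤ sl d K x := by
    refine ae_of_cell_null (fun x => n0 + δ ≤ sl d K x) (fun x => by rw [sl_per hper x]) ?_
    simpa only [not_le] using h0
  have hme : Measurable (sl e K) := sl_measurable (d := e) hK
  have hY : ∀ r : ℝ, MeasurableSet {s : ℝ | r ≤ sl e K s} := fun r =>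
    measurableSet_le measurable_const hme
  -- every `r < 1`
  have key : ∀ r : ℝ, r < 1 → n0 + δ ≤ (volume ({s : ℝ | r ≤ sl e K s} ∩ Ico 0 1)).toReal := by
    intro r hr
    obtain ⟨x0, hx0, hx1, -⟩ := exists_of_ae_pos (q := fun _ => True) hae
      (s := Ioo (max (r / 2) 0) (1 / 2)) (by
        simp only [Set.ofPred_true, univ_inter, Real.volume_Ioo, ENNReal.ofReal_pos]
        have : max (r / 2) 0 < 1 / 2 := max_lt (by linarith) (by norm_num)
        linarith)
    have hx0' : r ≤ 2 * dZ x0 := by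
      have h1 := hx0.1
      have h2 : 0 < x0 := (le_max_right _ _).trans_lt h1
      have h3 : dZ x0 = x0 := by
        rw [dZ_eq_abs (by rw [abs_of_pos h2]; exact hx0.2.le), abs_of_pos h2]
      rw [h3]
      linarith [(le_max_left (r / 2) 0).trans_lt h1]
    have hsub : slice d K x0 ⊆ {y : Ev 1 | y 0 ∈ {s : ℝ | r ≤ sl e K s}} := fun y hy =>
      hx0'.trans (zc_line hM hde hy)
    have h1 := zc_vol_mono hsub
    rw [zc_ev1_vol (hY r)] at h1
    exact hx1.trans h1
  -- the limit
  have hfm := fullM_eq hme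
  have hlim : Tendsto (fun n : ℕ => volume ({s : ℝ | 1 - 1 / ((n:ℝ) + 1) ≤ sl e K s} ∩ Ico 0 1)) atTop
      (𝓝 (volume (⋂ n : ℕ, ({s : ℝ | 1 - 1 / ((n:ℝ) + 1) ≤ sl e K s} ∩ Ico 0 1)))) := by
    refine tendsto_measure_iInter_atTop (fun n => ((hY _).inter measurableSet_Ico).nullMeasurableSet)
      ?_ ⟨0, ne_top_of_le_ne_top (by simp) (measure_mono inter_subset_right : _ ≤ volume (Ico (0:ℝ) 1))⟩
    intro m n hmn s hs
    have hs1 : 1 - 1 / ((n:ℝ) + 1) ≤ sl e K s := hs.1
    have : 1 / ((n:ℝ) + 1) ≤ 1 / ((m:ℝ) + 1) := by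
      apply one_div_le_one_div_of_le (by positivity)
      have : (m:ℝ) ≤ n := by exact_mod_cast hmn
      linarith
    have h2 : 1 - 1 / ((m:ℝ) + 1) ≤ sl e K s := by linarith
    exact ⟨h2, hs.2⟩
  have hset : (⋂ n : ℕ, ({s : ℝ | 1 - 1 / ((n:ℝ) + 1) ≤ sl e K s} ∩ Ico 0 1)) =
      {s : ℝ | sl e K s = 1} ∩ Ico 0 1 := by
    ext s
    simp only [mem_iInter, mem_inter_iff, Set.mem_ofPred_eq]
    constructor
    · intro h
      refine ⟨le_antisymm (sl_le_one hK s) ?_, (h 0).2⟩
      refine le_of_forall_pos_le_add fun ε hε => ?_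
      obtain ⟨n, hn⟩ := exists_nat_one_div_lt hε
      have := (h n).1
      linarith
    · rintro ⟨h1, h2⟩ n
      refine ⟨?_, h2⟩
      rw [h1]
      have : 0 ≤ 1 / ((n:ℝ) + 1) := by positivity
      linarith
  rw [hset] at hlim
  have hfin : volume ({s : ℝ | sl e K s = 1} ∩ Ico 0 1) ≠ ∞ :=
    ne_top_of_le_ne_top (by simp) (measure_mono inter_subset_right : _ ≤ volume (Ico (0:ℝ) 1))
  have hlim2 := (ENNReal.tendsto_toReal hfin).comp hlim
  have h3 : n0 + δ ≤ (volume ({s : ℝ | sl e K s = 1} ∩ Ico 0 1)).toReal := by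
    refine ge_of_tendsto' hlim2 fun n => key _ ?_
    have : 0 < 1 / ((n:ℝ) + 1) := by positivity
    linarith
  rw [← hfm] at h3
  linarith

end Crest.Agent.R214
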