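import Crest.Agent.R214.PhiZero
import Crest.Agent.R214.ZCa
import Crest.Agent.R214.NeckAlt
import Crest.Agent.R214.MonoDef

/-! ROW 214: zero contact, the `(z)` branch (helper16): slices with full lines in both directions
for `t ∈ zU`, and one fixed family of full lines missing for `t ∉ zU`. -/

set_option autoImplicit false
open MeasureTheory Set Filter Topology Crest.GeometryTopology.PeriodicPerimeter
open scoped ENNReal

namespace Crest.Agent.R214

/-! ### the Dido function -/

/-- Dido function `D(x) = sup_{0≤s≤1} (s x + Φ(s))` -/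
noncomputable def DN (x : ℝ) : ℝ := sSup ((fun s => s * x + PhiN s) '' Icc (0:ℝ) 1)

lemma PhiN_le_one (s : ℝ) : PhiN s ≤ 1 := by
  unfold PhiN
  have hc : Continuous fun m : ℝ => Real.sqrt (1 - (s * m) ^ 2) := by fun_prop
  have : ∫ m in (0:ℝ)..1, Real.sqrt (1 - (s * m) ^ 2) ≤ ∫ _ in (0:ℝ)..1, (1:ℝ) := by
    refine intervalIntegral.integral_mono_on zero_le_one (hc.intervalIntegrable _ _)
      intervalIntegrable_const fun m _ => ?_
    exact Real.sqrt_le_iff.2 ⟨zero_le_one, by nlinarith [sq_nonneg (s * m)]⟩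
  simpa using this

lemma DN_bdd (x : ℝ) : BddAbove ((fun s => s * x + PhiN s) '' Icc (0:ℝ) 1) := by
  refine ⟨|x| + 1, ?_⟩
  rintro _ ⟨s, hs, rfl⟩
  have h1 : s * x ≤ |x| := by
    calc s * x ≤ |s * x| := le_abs_self _
      _ = s * |x| := by rw [abs_mul, abs_of_nonneg hs.1]
      _ ≤ 1 * |x| := mul_le_mul_of_nonneg_right hs.2 (abs_nonneg x)
      _ = |x| := one_mul _
  have := PhiN_le_one s
  show s * x + PhiN s ≤ |x| + 1
  linarith

lemma le_DN {x s : ℝ} (h0 : 0 ≤ s) (h1 : s ≤ 1) : s * x + PhiN s ≤ DN x :=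
  le_csSup (DN_bdd x) ⟨s, ⟨h0, h1⟩, rfl⟩

lemma DN_le {x J : ℝ} (h : ∀ s : ℝ, 0 ≤ s → s ≤ 1 → s * x + PhiN s ≤ J) : DN x ≤ J := by
  refine csSup_le ⟨_, ⟨0, ⟨le_rfl, zero_le_one⟩, rfl⟩⟩ ?_
  rintro _ ⟨s, hs, rfl⟩
  exact h s hs.1 hs.2

lemma one_le_DN (x : ℝ) : 1 ≤ DN x := by
  have := le_DN (x := x) (s := 0) le_rfl zero_le_one
  rw [PhiN_zero] at this
  linarith

lemma DN_mono : Monotone DN := fun x y hxy => DN_le fun s h0 h1 => by
  have := le_DN (x := y) h0 h1
  have : s * x ≤ s * y := mul_le_mul_of_nonneg_left hxy h0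
  linarith

/-! ### the function `QN` -/

lemma QN_meas (e : ℝ) : Measurable fun H => QN H e := by
  unfold QN
  exact Measurable.ite (measurableSet_le measurable_const (measurable_const.mul measurable_id))
    (by fun_prop) (by fun_prop)

lemma QN_nonneg {H e : ℝ} (hH : 0 ≤ H) (he : 0 ≤ e) : 0 ≤ QN H e := by
  unfold QN
  have := Real.pi_pos
  split_ifs
  · positivity
  · exact Real.sqrt_nonneg _

/-- `QN` is attained -/
lemma wrapAlt_QN {a e : ℝ} (ha : a < 1) (he : 1 - a ≤ e) :
    WrapAlt e a (QN (1 - a) e) := by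
  have hpi := Real.pi_pos
  have hH : 0 < 1 - a := by linarith
  unfold QN
  split_ifs with h
  · exact ⟨e, by linarith, le_rfl, le_rfl⟩
  · push Not at h
    have hs := Real.sq_sqrt (by positivity : 0 ≤ (1 - a) / Real.pi)
    have hs0 : 0 < Real.sqrt ((1 - a) / Real.pi) := Real.sqrt_pos.2 (by positivity)
    refine ⟨2 * Real.sqrt ((1 - a) / Real.pi), by positivity, ?_, ?_⟩
    · have h2 : (2 * Real.sqrt ((1 - a) / Real.pi)) ^ 2 ≤ e ^ 2 := by
        rw [mul_pow, hs]
        have : 2 ^ 2 * ((1 - a) / Real.pi) = 4 * (1 - a) / Real.pi := by ring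
        rw [this, div_le_iff₀ hpi]
        linarith
      exact le_of_sq_le_sq_aux h2 (by linarith)
    · set q := Real.sqrt ((1 - a) / Real.pi) with hq
      have h3 : 1 - a = Real.pi * q ^ 2 := by rw [hs]; field_simp
      have h4 : Real.sqrt (Real.pi * (1 - a)) = Real.pi * q := by
        rw [h3, show Real.pi * (Real.pi * q ^ 2) = (Real.pi * q) ^ 2 by ring,
          Real.sqrt_sq (by positivity)]
      rw [h4, h3]
      apply le_of_eq
      field_simp
      ring

/-! ### the set `zU` -/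

/-- levels whose slice has full lines in both directions -/
def zU (d : Fin 3) (F : Set (Ev 3)) : Set ℝ :=
  {t | 0 < fullM (sl 0 (slice d F t)) ∧ 0 < fullM (sl 1 (slice d F t))}

/-- full-line measures of the slices are antitone in `dZ` -/
theorem zc_full_anti {F : Set (Ev 3)} (hF : MeasurableSet F) (hM : Mono F) (d : Fin 3) (e : Fin 2)
    {t t' : ℝ} (h : dZ t ≤ dZ t') :
    fullM (sl e (slice d F t')) ≤ fullM (sl e (slice d F t)) :=
  zc_fullM_mono (slice_measurable hF t') (slice_measurable hF t) (zc_slice_anti hM d h) e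

theorem zU_down {F : Set (Ev 3)} (hF : MeasurableSet F) (hM : Mono F) {d : Fin 3} {t t' : ℝ}
    (h : dZ t ≤ dZ t') (ht' : t' ∈ zU d F) : t ∈ zU d F :=
  ⟨ht'.1.trans_le (zc_full_anti hF hM d 0 h), ht'.2.trans_le (zc_full_anti hF hM d 1 h)⟩

/-- sets which are down-closed in `dZ` are measurable -/
theorem zc_down_meas {U : Set ℝ} (h : ∀ t t' : ℝ, dZ t ≤ dZ t' → t' ∈ U → t ∈ U) :
    MeasurableSet U := by
  have e : U = dZ ⁻¹' {r : ℝ | ∃ t' ∈ U, r ≤ dZ t'} := by
    ext t
    constructor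
    · intro ht
      exact ⟨t, ht, le_rfl⟩
    · rintro ⟨t', ht', hle⟩
      exact h t t' hle ht'
  rw [e]
  refine dZ_continuous.measurable (Set.OrdConnected.measurableSet ?_)
  refine IsLowerSet.ordConnected ?_
  rintro a b hab ⟨t', ht', hle⟩
  exact ⟨t', ht', hab.trans hle⟩

/-- a down-closed set containing `t1` has measure at least `2 dZ t1` -/
theorem zc_down_vol {U : Set ℝ} (h : ∀ t t' : ℝ, dZ t ≤ dZ t' → t' ∈ U → t ∈ U) {t1 : ℝ}
    (h1 : t1 ∈ U) : 2 * dZ t1 ≤ (volume (U ∩ Ico 0 1)).toReal := by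
  refine (zc_arc_vol (dZ_nonneg _) (dZ_le_half t1)).trans ?_
  refine ENNReal.toReal_mono (ne_top_of_le_ne_top (by simp : volume (Ico (0:ℝ) 1) ≠ ∞)
    (measure_mono inter_subset_right)) (measure_mono (inter_subset_inter_left _ fun t ht => ?_))
  exact h t t1 ht h1

/-- dichotomy: outside the common range one family is missing throughout -/
theorem zc_dich {F : Set (Ev 3)} (hF : MeasurableSet F) (hM : Mono F) (d : Fin 3) {U : Set ℝ}
    (h : ∀ t, t ∉ U → fullM (sl 0 (slice d F t)) = 0 ∨ fullM (sl 1 (slice d F t)) = 0) :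
    ∃ e e' : Fin 2, e ≠ e' ∧ ∀ t, t ∉ U → fullM (sl e (slice d F t)) = 0 := by
  by_contra hcon
  push Not at hcon
  obtain ⟨t0, ht0, h0⟩ := hcon 0 1 (by decide)
  obtain ⟨t1, ht1, h1⟩ := hcon 1 0 (by decide)
  rcases le_total (dZ t0) (dZ t1) with hle | hle
  · rcases h t0 ht0 with h2 | h2
    · exact h0 h2
    · have := zc_full_anti hF hM d 1 hle
      rw [h2] at this
      exact h1 (le_antisymm this (fullM_nonneg _))
  · rcases h t1 ht1 with h2 | h2
    · have := zc_full_anti hF hM d 0 hle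
      rw [h2] at this
      exact h0 (le_antisymm this (fullM_nonneg _))
    · exact h1 h2

/-- the lower bound for the slices outside `zU` -/
theorem zc_neck_bound {K : Set (Ev 2)} (hK : MeasurableSet K) (hM : Mono K) {e e' : Fin 2}
    (hee : e ≠ e') (hf : fullM (sl e K) = 0) {φ : ℝ} (hφ : fullM (sl e' K) ≤ φ) :
    ENNReal.ofReal (2 * min (Real.sqrt (Real.pi * periodicVolume K)) (DN (periodicVolume K - φ))) ≤
      periodicPerimeter K := by
  have hper := hM.periodic
  by_cases hP : periodicPerimeter K = ∞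
  · rw [hP]; exact le_top
  refine ENNReal.ofReal_le_of_le_toReal ?_
  have hn := zc_neck hK hper hM hee hφ
  rcases neckAlt2 hK hper hP e hn hf with h | h
  · have := min_le_left (Real.sqrt (Real.pi * periodicVolume K)) (DN (periodicVolume K - φ))
    linarith
  · have h1 := DN_le h
    have := min_le_right (Real.sqrt (Real.pi * periodicVolume K)) (DN (periodicVolume K - φ))
    linarith

/-- the lower bound for the slices in `zU` -/
theorem zc_wrap_bound {K : Set (Ev 2)} (hK : MeasurableSet K) (hM : Mono K) {e e' : Fin 2}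
    (hee : e ≠ e') (h0 : 0 < fullM (sl e K)) (h1 : 0 < fullM (sl e' K)) {φ : ℝ}
    (hφ : φ ≤ fullM (sl e' K)) :
    ENNReal.ofReal (2 * QN (1 - periodicVolume K) (1 - φ)) ≤ periodicPerimeter K := by
  have hper := hM.periodic
  by_cases hP : periodicPerimeter K = ∞
  · rw [hP]; exact le_top
  refine ENNReal.ofReal_le_of_le_toReal ?_
  obtain ⟨L, hL0, hL1, hHL, hL⟩ := full_width hK hper hP hee h0 h1
  have hH : 0 ≤ 1 - periodicVolume K := by linarith [vol_le_one K]
  have := QN_le hH hHL hL0 (by linarith : L ≤ 1 - φ)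
  linarith

/-- measure of the full lines is at most the volume -/
theorem zc_full_le_vol {K : Set (Ev 2)} (hK : MeasurableSet K) (e : Fin 2) :
    fullM (sl e K) ≤ periodicVolume K := by
  rw [← integral_sl (d := e) hK]
  unfold fullM
  refine intervalIntegral.integral_mono_on zero_le_one
    (full_int (sl_measurable (d := e) hK) 0 1) ?_ fun x _ => ?_
  · rw [intervalIntegrable_iff_integrableOn_Ioc_of_le zero_le_one]
    refine Integrable.mono' (g := fun _ => (1:ℝ)) (by simp)
      (sl_measurable (d := e) hK).aestronglyMeasurable (Eventually.of_forall fun x => ?_)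
    rw [Real.norm_eq_abs, abs_of_nonneg (sl_nonneg x)]
    exact sl_le_one hK x
  · split_ifs with h
    · exact h.ge
    · exact sl_nonneg x

/-- **data of the `(z)` branch** -/
theorem z_data {F : Set (Ev 3)} (hF : MeasurableSet F) (hM : Mono F)
    (hP : periodicPerimeter F ≠ ∞) (d : Fin 3) (hlt : ∀ᵐ t : ℝ, sl d F t < 1) {t1 : ℝ}
    (ht1 : t1 ∈ zU d F) :
    ∃ (J : ℝ → ℝ) (φ : ℝ), SD (periodicPerimeter F).toReal (sl d F) J ∧
      MeasurableSet (zU d F) ∧ 2 * dZ t1 ≤ (volume (zU d F ∩ Ico 0 1)).toReal ∧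
      0 ≤ φ ∧ φ ≤ 1 ∧
      (∀ᵐ t : ℝ, t ∈ zU d F → WrapAlt (1 - φ) (sl d F t) (J t)) ∧
      (∀ᵐ t : ℝ, t ∉ zU d F → NeckAlt φ (sl d F t) (J t)) := by
  classical
  have hper := hM.periodic
  have hdown : ∀ t t' : ℝ, dZ t ≤ dZ t' → t' ∈ zU d F → t ∈ zU d F := fun t t' h h' =>
    zU_down hF hM h h'
  have hUm : MeasurableSet (zU d F) := zc_down_meas hdown
  have hsm : ∀ t, MeasurableSet (slice d F t) := fun t => slice_measurable hF t
  have hsM : ∀ t, Mono (slice d F t) := fun t => zc_slice_mono hM d t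
  obtain ⟨e, e', hee, hnot⟩ := zc_dich hF hM d (U := zU d F) (fun t ht => by
    by_contra hcon
    push Not at hcon
    exact ht ⟨lt_of_le_of_ne (fullM_nonneg _) (Ne.symm hcon.1),
      lt_of_le_of_ne (fullM_nonneg _) (Ne.symm hcon.2)⟩)
  have hpos : ∀ (f : Fin 2) (t : ℝ), t ∈ zU d F → 0 < fullM (sl f (slice d F t)) := by
    intro f t ht
    fin_cases f
    · exact ht.1
    · exact ht.2
  set S : Set ℝ := (fun t => fullM (sl e' (slice d F t))) '' zU d F with hS
  have hSne : S.Nonempty := ⟨_, t1, ht1, rfl⟩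
  have hSbd : BddBelow S := ⟨0, by rintro _ ⟨t, -, rfl⟩; exact fullM_nonneg _⟩
  set φ : ℝ := sInf S with hφ
  have hφ0 : 0 ≤ φ := le_csInf hSne (by rintro _ ⟨t, -, rfl⟩; exact fullM_nonneg _)
  have hφle : ∀ t ∈ zU d F, φ ≤ fullM (sl e' (slice d F t)) := fun t ht =>
    csInf_le hSbd ⟨t, ht, rfl⟩
  have hφ1 : φ ≤ 1 := (hφle t1 ht1).trans (zc_fullM_le_one (sl_measurable (d := e') (hsm t1)))
  have hφge : ∀ t, t ∉ zU d F → fullM (sl e' (slice d F t)) ≤ φ := by
    intro t ht
    refine le_csInf hSne ?_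
    rintro _ ⟨t', ht', rfl⟩
    refine zc_full_anti hF hM d e' ?_
    by_contra hcon
    push Not at hcon
    exact ht (hdown t t' hcon.le ht')
  have hφa : ∀ t ∈ zU d F, φ ≤ sl d F t := fun t ht => (hφle t ht).trans (zc_full_le_vol (hsm t) e')
  set J : ℝ → ℝ := fun t => if t ∈ zU d F then QN (1 - sl d F t) (1 - φ) else
    min (Real.sqrt (Real.pi * sl d F t)) (DN (sl d F t - φ)) with hJ
  have hsl : Measurable (sl d F) := sl_measurable hF
  have hJm : Measurable J := by
    refine Measurable.ite hUm ?_ ?_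
    · exact (QN_meas (1 - φ)).comp (measurable_const.sub hsl)
    · refine Measurable.min ?_ ?_
      · exact (Real.continuous_sqrt.measurable).comp (measurable_const.mul hsl)
      · exact DN_mono.measurable.comp (hsl.sub measurable_const)
  have hUp : ∀ t, t + 1 ∈ zU d F ↔ t ∈ zU d F := fun t =>
    ⟨hdown _ _ (dZ_per t).ge, hdown _ _ (dZ_per t).le⟩
  have hJp : Function.Periodic J 1 := by
    intro t
    simp only [hJ, hUp t, sl_per (d := d) hper t]
  have hJ0 : ∀ t, 0 ≤ J t := by
    intro t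
    simp only [hJ]
    split_ifs with h
    · exact QN_nonneg (by linarith [sl_le_one (d := d) hF t]) (by linarith)
    · exact le_min (Real.sqrt_nonneg _) (zero_le_one.trans (one_le_DN _))
  have hJP : ∀ t, ENNReal.ofReal (2 * J t) ≤ periodicPerimeter (slice d F t) := by
    intro t
    simp only [hJ]
    split_ifs with h
    · exact zc_wrap_bound (hsm t) (hsM t) hee (hpos e t h) (hpos e' t h) (hφle t h)
    · exact zc_neck_bound (hsm t) (hsM t) hee (hnot t h) (hφge t h)
  refine ⟨J, φ, sd_of_perim hF hper hP d hJm hJp hJ0 (Eventually.of_forall hJP), hUm,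
    zc_down_vol hdown ht1, hφ0, hφ1, ?_, ?_⟩
  · filter_upwards [hlt] with t ht htU
    simp only [hJ, if_pos htU]
    exact wrapAlt_QN ht (by linarith [hφa t htU])
  · refine Eventually.of_forall fun t htU => ?_
    simp only [hJ, if_neg htU]
    rcases le_total (Real.sqrt (Real.pi * sl d F t)) (DN (sl d F t - φ)) with h | h
    · left
      rw [min_eq_left h]
    · right
      intro s h0 h1
      rw [min_eq_right h]
      exact le_DN h0 h1

end Crest.Agent.R214
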