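import Crest.Agent.R214.ZCy
import Crest.Agent.R214.ZCz
import Crest.Agent.R214.YCase
import Crest.Agent.R214.YPlanar
import Crest.Agent.R214.MonoCase

/-! Row 214 (helper33): the zero contact theorem from the certificate `zCase` (`ZCaseThm`, the exact
statement of helper48). -/

set_option autoImplicit false

open MeasureTheory Set Filter Topology Crest.GeometryTopology.PeriodicPerimeter
open scoped ENNReal

namespace Crest.Agent.R214

open Model (Ival Ival_nonneg)

/-- the certificate of the `(z)` branch (helper48) -/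
def ZCaseThm : Prop := ∀ (P V b0 φ : ℝ) (a J : ℝ → ℝ) (U : Set ℝ), SD P a J →
  (∫ x in (0:ℝ)..1, a x) = V → 3 / 25 ≤ V → V ≤ 9 / 25 →
  (∀ᵐ x : ℝ, 0 ≤ a x ∧ a x ≤ b0) →
  (∀ δ > 0, 0 < volume ({x | a x < δ} ∩ Ico 0 1)) →
  (∀ δ > 0, 0 < volume ({x | b0 - δ < a x} ∩ Ico 0 1)) →
  1 / Real.pi ≤ b0 → b0 < 1 → 0 ≤ φ → φ ≤ 1 → MeasurableSet U →
  ENNReal.ofReal (1 / 10) ≤ volume (U ∩ Ico 0 1) →
  (∀ᵐ x : ℝ, x ∈ U → WrapAlt (1 - φ) (a x) (J x)) →
  (∀ᵐ x : ℝ, x ∉ U → NeckAlt φ (a x) (J x)) → mm V < P / 2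

variable {F : Set (Ev 3)}

/-- the `(y)` branch: no common full lines beyond `1/20` -/
theorem y_data (hF : MeasurableSet F) (hM : Mono F) {d : Fin 3}
    (hz : ∀ δ > 0, 0 < volume ({t | sl d F t < δ} ∩ Ico 0 1))
    (hU : ∀ t ∈ zU d F, dZ t < 1 / 20) :
    ∃ (e : Fin 3), ∀ᵐ s : ℝ, periodicPerimeter (slice e F s) ≠ ∞ →
      NeckAlt (1 / 10) (sl e F s) ((periodicPerimeter (slice e F s)).toReal / 2) := by
  obtain ⟨j, j', -, hj⟩ := zc_dich hF hM d (U := {t | dZ t < 1 / 20}) (fun t ht => by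
    by_contra hcon
    push Not at hcon
    exact ht (hU t ⟨lt_of_le_of_ne (fullM_nonneg _) (Ne.symm hcon.1),
      lt_of_le_of_ne (fullM_nonneg _) (Ne.symm hcon.2)⟩))
  obtain ⟨k, hk⟩ := ZCy.swap3 d j
  have h1 := ZCy.neck_of hF hM hk (τ := 1 / 10) (by norm_num) (by norm_num) (fun t h1 h2 => by
    refine hj t (fun h3 => ?_)
    have h3' : dZ t < 1 / 20 := h3
    have h0 : 0 ≤ t := by linarith
    rw [dZ_eq_abs (by rw [abs_of_nonneg h0]; exact h2.le), abs_of_nonneg h0] at h3'
    linarith)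
  have h2 := ZCy.full_of hF hM hk hz
  refine ⟨d.succAbove j, ?_⟩
  filter_upwards [h1, h2] with s h3 h4 hP
  exact neckAlt2 (slice_measurable hF s) (slice_periodic hM.periodic s) hP k h3 h4

/-- slice datum of the `(y)` branch -/
theorem y_sd (hF : MeasurableSet F) (hM : Mono F) (hP : periodicPerimeter F ≠ ∞) {e : Fin 3}
    (h : ∀ᵐ s : ℝ, periodicPerimeter (slice e F s) ≠ ∞ →
      NeckAlt (1 / 10) (sl e F s) ((periodicPerimeter (slice e F s)).toReal / 2)) :
    ∃ J : ℝ → ℝ, SD (periodicPerimeter F).toReal (sl e F) J ∧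
      ∀ x, NeckAlt (1 / 10) (sl e F x) (J x) := by
  have hper := hM.periodic
  have hsl : Measurable (sl e F) := sl_measurable hF
  refine ⟨fun s => min (√(Real.pi * sl e F s)) (DN (sl e F s - 1 / 10)), ?_, fun x => ?_⟩
  · refine sd_of_perim hF hper hP e ?_ ?_ ?_ ?_
    · refine Measurable.min ?_ ?_
      · exact (Real.continuous_sqrt.measurable).comp (measurable_const.mul hsl)
      · exact DN_mono.measurable.comp (hsl.sub measurable_const)
    · intro t
      simp only [sl_per (d := e) hper t]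
    · intro t
      exact le_min (Real.sqrt_nonneg _) (zero_le_one.trans (one_le_DN _))
    · filter_upwards [h] with s hs
      by_cases hPs : periodicPerimeter (slice e F s) = ∞
      · rw [hPs]; exact le_top
      refine ENNReal.ofReal_le_of_le_toReal ?_
      rcases hs hPs with h1 | h1
      · have := min_le_left (√(Real.pi * sl e F s)) (DN (sl e F s - 1 / 10))
        linarith
      · have h2 := DN_le h1
        have := min_le_right (√(Real.pi * sl e F s)) (DN (sl e F s - 1 / 10))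
        linarith
  · show NeckAlt (1 / 10) (sl e F x) (min (√(Real.pi * sl e F x)) (DN (sl e F x - 1 / 10)))
    rcases le_total (√(Real.pi * sl e F x)) (DN (sl e F x - 1 / 10)) with h1 | h1
    · left
      rw [min_eq_left h1]
    · right
      intro s h0 h2
      rw [min_eq_right h1]
      exact le_DN h0 h2

/-- `Ival V = 4 π r²`, `V = 4 π r³ / 3` only for `V ≤ 4 π / 81` -/
theorem ball_small {V r : ℝ} (hr : 0 < r) (e1 : V = 4 * Real.pi * r ^ 3 / 3)
    (e2 : Ival V = 4 * Real.pi * r ^ 2) : V ≤ 4 * Real.pi / 81 := by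
  have hpi := Real.pi_pos
  have h1 : Ival V ≤ 2 * √(Real.pi * V) := (min_le_left _ _).trans (min_le_right _ _)
  have hr3 : r ≤ 1 / 3 := by
    rw [e2, e1] at h1
    have h2 : 2 * Real.pi * r ^ 2 ≤ √(Real.pi * (4 * Real.pi * r ^ 3 / 3)) := by
      linarith
    have h3 := pow_le_pow_left₀ (by positivity) h2 2
    rw [Real.sq_sqrt (by positivity)] at h3
    have h4 : 0 < Real.pi ^ 2 * r ^ 3 := by positivity
    have h5 : 4 * r * (Real.pi ^ 2 * r ^ 3) ≤ 4 / 3 * (Real.pi ^ 2 * r ^ 3) := by nlinarith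
    have h6 := le_of_mul_le_mul_right h5 h4
    linarith
  rw [e1]
  have h7 : r ^ 3 ≤ (1 / 3) ^ 3 := pow_le_pow_left₀ hr.le hr3 3
  nlinarith

/-- the `(y)` branch -/
theorem y_branch (hF : MeasurableSet F) (hM : Mono F) (hP : periodicPerimeter F ≠ ∞)
    (hV0 : 3 / 25 ≤ periodicVolume F) (hV1 : periodicVolume F ≤ 9 / 25) {d : Fin 3}
    (hz : ∀ δ > 0, 0 < volume ({t | sl d F t < δ} ∩ Ico 0 1))
    (hU : ∀ t ∈ zU d F, dZ t < 1 / 20) :
    mm (periodicVolume F) ≤ (periodicPerimeter F).toReal / 2 ∧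
      (4 * Real.pi / 81 < periodicVolume F →
        (periodicPerimeter F).toReal / 2 ≤ mm (periodicVolume F) →
        ∃ e : Fin 3, ∀ᵐ t : ℝ, sl e F t = periodicVolume F) := by
  have hV : 0 < periodicVolume F := by linarith
  obtain ⟨e, he⟩ := y_data hF hM hz hU
  obtain ⟨J, S, hJ⟩ := y_sd hF hM hP he
  obtain ⟨a1, a2, R⟩ := exists_rng hF hM.periodic hP e
  rcases le_total (2 / 5) a2 with h | h
  · have := S.yCase (integral_sl hF) hV0 hV1 R.h0 R.ae R.inf R.sup (Eventually.of_forall hJ) h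
    exact ⟨this.le, fun _ h2 => absurd this (not_lt.2 h2)⟩
  · have h1 := (S.yPlanar (integral_sl hF) hV R.h0 R.ae R.inf R.sup (Eventually.of_forall hJ) h).1
    refine ⟨h1, fun h81 h2 => ?_⟩
    have hPI : periodicPerimeter F = ENNReal.ofReal (Ival (periodicVolume F)) := by
      have h3 : (periodicPerimeter F).toReal = Ival (periodicVolume F) := by
        rw [mm_eq_Ival] at h1 h2
        linarith
      rw [← h3, ENNReal.ofReal_toReal hP]
    have hpl : ∀ᵐ t : ℝ, ENNReal.ofReal (2 * √(Real.pi * sl e F t)) ≤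
        periodicPerimeter (slice e F t) := by
      filter_upwards [he, R.ae] with t ht ht2
      by_cases hPs : periodicPerimeter (slice e F t) = ∞
      · rw [hPs]; exact le_top
      refine ENNReal.ofReal_le_of_le_toReal ?_
      have := neckAlt_planar (R.h0.trans ht2.1) (ht2.2.trans h) (ht hPs)
      linarith
    rcases planar_dir_eqP hF hM.periodic hV hPI e hpl with h3 | ⟨r, hr, e1, e2, -⟩
    · exact ⟨e, h3⟩
    · have := ball_small hr e1 e2
      linarith

/-- the case `b0 = 1` -/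
theorem slab_branch (hF : MeasurableSet F) (hM : Mono F) (hP : periodicPerimeter F ≠ ∞)
    (hV : 0 < periodicVolume F) (hV1 : periodicVolume F < 1) {d : Fin 3} (R : Rng (sl d F) 0 1) :
    mm (periodicVolume F) ≤ (periodicPerimeter F).toReal / 2 ∧
      ((periodicPerimeter F).toReal / 2 ≤ mm (periodicVolume F) →
        ∃ e : Fin 3, ∀ᵐ t : ℝ, sl e F t = periodicVolume F) := by
  have h2 := two_le_perim hF hM.periodic d hP (fun η hη => Ico_Ioc (R.sup η hη)) (fun η hη => by
    refine Ico_Ioc (p := fun t => sl d F t < η) ?_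
    have := R.inf η hη
    rwa [zero_add] at this)
  have h3 := mm_le_one (periodicVolume F)
  refine ⟨by linarith, fun h4 => ?_⟩
  exact slab_const F d hF hM.periodic hP (by linarith) R hV hV1

/-- **the zero contact theorem** from the certificate of the `(z)` branch -/
theorem zero_contact_of (H : ZCaseThm) : ZeroContact' := by
  intro F hF hM hP hV0 hV1 d b0 R hb
  rcases R.h1.eq_or_lt with h1 | h1
  · rw [h1] at R
    obtain ⟨h2, h3⟩ := slab_branch hF hM hP (by linarith) (by linarith) R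
    exact ⟨h2, fun _ => h3⟩
  have hz : ∀ δ > 0, 0 < volume ({t | sl d F t < δ} ∩ Ico 0 1) := fun δ hδ => by
    have := R.inf δ hδ
    rwa [zero_add] at this
  by_cases hU : ∀ t ∈ zU d F, dZ t < 1 / 20
  · exact y_branch hF hM hP (by linarith) (by linarith) hz hU
  · push Not at hU
    obtain ⟨t1, ht1, ht2⟩ := hU
    obtain ⟨J, φ, S, hUm, hUv, hφ0, hφ1, hw, hn⟩ := z_data hF hM hP d
      (R.ae.mono fun t ht => ht.2.trans_lt h1) ht1
    have := H _ (periodicVolume F) b0 φ _ J (zU d F) S (integral_sl hF) (by linarith)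
      (by linarith) R.ae hz R.sup hb.le h1 hφ0 hφ1 hUm
      (ENNReal.ofReal_le_of_le_toReal (by linarith)) hw hn
    exact ⟨this.le, fun _ h2 => absurd this (not_lt.2 h2)⟩

end Crest.Agent.R214
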