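import Crest.Agent.R214.ZCorner
import Crest.Agent.R214.ZCz
import Crest.Agent.R214.Line

/-! ROW 214: `ZCaseThm` when the plain line method suffices (helper16):
`Good V 0 b0` ⇒ strict inequality; in particular `b0 ≥ .999`. -/

set_option autoImplicit false
open MeasureTheory Set

namespace Crest.Agent.R214

theorem I2_le_of_wrap {e a J : ℝ} (h1 : a ≤ 1) (h : WrapAlt e a J) : I2 a ≤ J := by
  obtain ⟨L, hL0, -, hL⟩ := h
  have hH : 0 ≤ 1 - a := by linarith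
  have h2 : Real.sqrt (Real.pi * (1 - a)) ≤ J := amgm_disc hL0 hH hL
  refine le_trans ?_ h2
  unfold I2 w2
  exact Real.sqrt_le_sqrt ((min_le_right _ _).trans (min_le_right _ _))

theorem I2_le_of_neck {n a J : ℝ} (h : NeckAlt n a J) : I2 a ≤ J := by
  rcases h with h | h
  · refine le_trans ?_ h
    unfold I2 w2
    exact Real.sqrt_le_sqrt (min_le_left _ _)
  · have h2 := h 0 le_rfl zero_le_one
    rw [PhiN_zero] at h2
    have h3 : I2 a ≤ 1 := by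
      unfold I2 w2
      rw [Real.sqrt_le_one]
      exact (min_le_right _ _).trans (min_le_left _ _)
    linarith

/-- the plain line method in the `(z)` case -/
theorem zcase_of_good {P V b0 φ : ℝ} {a J : ℝ → ℝ} {U : Set ℝ} (S : SD P a J)
    (hI : ∫ x in (0:ℝ)..1, a x = V) (hae : ∀ᵐ x : ℝ, 0 ≤ a x ∧ a x ≤ b0)
    (ha1 : ∀ δ > 0, 0 < volume ({x | a x < δ} ∩ Ico 0 1))
    (ha2 : ∀ δ > 0, 0 < volume ({x | b0 - δ < a x} ∩ Ico 0 1))
    (hb0 : 0 ≤ b0) (hb1 : b0 ≤ 1)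
    (hJ1 : ∀ᵐ x : ℝ, x ∈ U → WrapAlt (1 - φ) (a x) (J x))
    (hJ2 : ∀ᵐ x : ℝ, x ∉ U → NeckAlt φ (a x) (J x)) (hG : Good V 0 b0) : mm V < P / 2 := by
  obtain ⟨s0, sg, hg, hlt⟩ := hG
  have hJ : ∀ᵐ x : ℝ, I2 (a x) ≤ J x := by
    filter_upwards [hJ1, hJ2, hae] with x h1 h2 h3
    by_cases hx : x ∈ U
    · exact I2_le_of_wrap (h3.2.trans hb1) (h1 hx)
    · exact I2_le_of_neck (h2 hx)
  have := S.line hJ le_rfl hb0 hb1 hae (fun δ hδ => by simpa only [zero_add] using ha1 δ hδ) ha2 hg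
  rw [hI] at this
  linarith

/-- `b0 ∈ [.999, 1)` -/
theorem zcase_high {P V b0 φ : ℝ} {a J : ℝ → ℝ} {U : Set ℝ} (S : SD P a J)
    (hI : ∫ x in (0:ℝ)..1, a x = V) (hV0 : 0 ≤ V) (hae : ∀ᵐ x : ℝ, 0 ≤ a x ∧ a x ≤ b0)
    (ha1 : ∀ δ > 0, 0 < volume ({x | a x < δ} ∩ Ico 0 1))
    (ha2 : ∀ δ > 0, 0 < volume ({x | b0 - δ < a x} ∩ Ico 0 1))
    (hb0 : 999 / 1000 ≤ b0) (hb1 : b0 < 1)
    (hJ1 : ∀ᵐ x : ℝ, x ∈ U → WrapAlt (1 - φ) (a x) (J x))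
    (hJ2 : ∀ᵐ x : ℝ, x ∉ U → NeckAlt φ (a x) (J x)) : mm V < P / 2 := by
  refine zcase_of_good S hI hae ha1 ha2 (by linarith) hb1.le hJ1 hJ2 ?_
  have := zc_corner (V := V) (x := 1 - b0) (by linarith) (by linarith) hV0
  rwa [sub_sub_cancel] at this

end Crest.Agent.R214
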