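import Crest.Agent.R214.ZYt
import Crest.Agent.R214.Planar

/-!
# Row 214: certificates (Z) and (Y) — from the certificates to slice data
-/

set_option autoImplicit false

open MeasureTheory Set Filter Topology

namespace Crest.Agent.R214

theorem SD.of_GoodY {P V a1 a2 : ℝ} {a J : ℝ → ℝ} (S : SD P a J) (h12 : a1 ≤ a2)
    (hae : ∀ᵐ x : ℝ, a1 ≤ a x ∧ a x ≤ a2)
    (ha1 : ∀ δ > 0, 0 < volume ({x | a x < a1 + δ} ∩ Ico 0 1))
    (ha2 : ∀ δ > 0, 0 < volume ({x | a2 - δ < a x} ∩ Ico 0 1))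
    (hV : ∫ x in (0 : ℝ)..1, a x = V)
    (hJ : ∀ᵐ x : ℝ, NeckAlt (1 / 10) (a x) (J x)) (hG : GoodY V a1 a2) : mm V < P / 2 := by
  obtain ⟨g0, g1, h, hc, hb, hg, hv⟩ := hG
  have h1 := S.lm_affine h12 hae ha1 ha2 (fun s => √(1 - h s ^ 2)) h
    (by fun_prop) hc.continuousOn (fun s _ => Real.sqrt_nonneg _) (fun s hs => (hb s hs).1)
    (fun s hs => by
      rw [Real.sq_sqrt]
      · linarith
      · have := hb s hs
        nlinarith [this.1, this.2])
    g0 g1 (by
      filter_upwards [hae, hJ] with x hx hx2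
      exact hg _ hx _ hx2)
  rw [hV] at h1
  linarith

theorem SD.of_GoodZ {P V b0 φ : ℝ} {a J : ℝ → ℝ} (S : SD P a J) (h0 : 0 ≤ b0)
    (hae : ∀ᵐ x : ℝ, a x ≤ b0)
    (ha1 : ∀ δ > 0, 0 < volume ({x | a x < δ} ∩ Ico 0 1))
    (ha2 : ∀ δ > 0, 0 < volume ({x | b0 - δ < a x} ∩ Ico 0 1))
    (hV : ∫ x in (0 : ℝ)..1, a x = V) (U : Set ℝ) (hU : MeasurableSet U)
    (hUv : ENNReal.ofReal (1 / 10) ≤ volume (U ∩ Ico 0 1))
    (hJ1 : ∀ᵐ x : ℝ, x ∈ U → WrapAlt (1 - φ) (a x) (J x))
    (hJ2 : ∀ᵐ x : ℝ, x ∉ U → NeckAlt φ (a x) (J x)) (hG : GoodZ V φ b0) : mm V < P / 2 := by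
  obtain ⟨g0, g1, h, g00, hc, hb, hg1, hg2, hv⟩ := hG
  have hae' : ∀ᵐ x : ℝ, 0 ≤ a x ∧ a x ≤ b0 := by
    filter_upwards [hae] with x hx
    exact ⟨(S.a01 x).1, hx⟩
  obtain ⟨f1, f2⟩ := S.lm_on h0 hae' (by simpa only [zero_add] using ha1) ha2
    (fun s => √(1 - h s ^ 2)) h
    (by fun_prop) hc.continuousOn (fun s _ => Real.sqrt_nonneg _) (fun s hs => (hb s hs).1)
    (fun s hs => by
      rw [Real.sq_sqrt]
      · linarith
      · have := hb s hs
        nlinarith [this.1, this.2])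
  -- the lower bound of the first integral
  set ind : ℝ → ℝ := U.indicator fun _ => g0 with hind
  have hpt : ∀ᵐ x : ℝ, ind x + g1 * a x ≤ √(1 - h (a x) ^ 2) * J x := by
    filter_upwards [hae', hJ1, hJ2] with x hx h1 h2
    by_cases hxU : x ∈ U
    · rw [hind, indicator_of_mem hxU]
      exact hg1 _ hx _ (h1 hxU)
    · rw [hind, indicator_of_notMem hxU, zero_add]
      exact hg2 _ hx _ (h2 hxU)
  have ia : IntervalIntegrable a volume 0 1 := S.intervalIntegrable_a 0 1
  have ii : IntervalIntegrable ind volume 0 1 := by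
    rw [intervalIntegrable_iff]
    refine Integrable.mono' (g := fun _ => g0) ?_
      ((measurable_const.indicator hU).aestronglyMeasurable) ?_
    · exact intervalIntegrable_iff.1 intervalIntegrable_const
    · refine Eventually.of_forall fun x => ?_
      rw [hind, Real.norm_eq_abs]
      by_cases hxU : x ∈ U
      · rw [indicator_of_mem hxU, abs_of_nonneg g00]
      · rw [indicator_of_notMem hxU, abs_zero]; exact g00
  have h1 : ∫ x in (0:ℝ)..1, (ind x + g1 * a x) ≤ ∫ x in (0:ℝ)..1, √(1 - h (a x) ^ 2) * J x :=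
    intervalIntegral.integral_mono_ae zero_le_one (ii.add (ia.const_mul g1)) f1 hpt
  rw [intervalIntegral.integral_add ii (ia.const_mul g1), intervalIntegral.integral_const_mul,
    hV] at h1
  have h2 : g0 / 10 ≤ ∫ x in (0:ℝ)..1, ind x := by
    rw [intervalIntegral.integral_of_le zero_le_one, ← integral_Ico_eq_integral_Ioc, hind,
      integral_indicator hU, integral_const, smul_eq_mul, measureReal_def,
      Measure.restrict_apply MeasurableSet.univ, univ_inter, Measure.restrict_apply hU]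
    have hfin : volume (U ∩ Ico 0 1) ≠ ⊤ :=
      ((measure_mono inter_subset_right).trans_lt (by simp)).ne
    have h3 : 1 / 10 ≤ (volume (U ∩ Ico (0:ℝ) 1)).toReal := by
      rw [← ENNReal.ofReal_le_iff_le_toReal hfin]
      exact hUv
    nlinarith
  linarith

end Crest.Agent.R214
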