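import Crest.Agent.R214.ZTreeZ
import Crest.Agent.R214.ZYsd
import Crest.Agent.R214.ZHigh
import Crest.Agent.R214.ZCc

/-! ROW 214: `ZCaseThm` (certificates by the tree `ZY.treeZ`, corner by helper16). -/

set_option autoImplicit false
open MeasureTheory Set

namespace Crest.Agent.R214

theorem SD.mean_range {P V a1 a2 : ℝ} {a J : ℝ → ℝ} (S : SD P a J)
    (hae : ∀ᵐ x : ℝ, a1 ≤ a x ∧ a x ≤ a2) (hV : ∫ x in (0 : ℝ)..1, a x = V) :
    a1 ≤ V ∧ V ≤ a2 := by
  have ia : IntervalIntegrable a volume 0 1 := S.intervalIntegrable_a 0 1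
  constructor
  · have := intervalIntegral.integral_mono_ae (μ := volume) (f := fun _ => a1) (g := a)
      zero_le_one intervalIntegrable_const ia (by filter_upwards [hae] with x hx using hx.1)
    rw [hV] at this
    simpa using this
  · have := intervalIntegral.integral_mono_ae (μ := volume) (f := a) (g := fun _ => a2)
      zero_le_one ia intervalIntegrable_const (by filter_upwards [hae] with x hx using hx.2)
    rw [hV] at this
    simpa using this

theorem zcase_final : ZCaseThm := by
  intro P V b0 φ a J U S hV hV0 hV1 hae ha1 ha2 hb hb1 hφ0 hφ1 hU hUv hJ1 hJ2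
  rcases le_total b0 (999 / 1000) with h | h
  · obtain ⟨k1, k2⟩ := S.mean_range hae hV
    exact S.of_GoodZ (k1.trans k2) (hae.mono fun x hx => hx.2) ha1 ha2 hV U hU hUv hJ1 hJ2
      (goodZ_main hV0 hV1 hφ0 hφ1 hb h k2)
  · exact zcase_high S hV (by linarith) hae ha1 ha2 h hb1 hJ1 hJ2

end Crest.Agent.R214
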