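import Crest.Agent.R214.MonoCase
import Crest.Agent.R214.ZCc
import Crest.Agent.R214.ZFinal
import Crest.Agent.R214.AllBig
import Crest.Agent.R214.Back3

/-! Row 214: end of the proof. -/

set_option autoImplicit false

namespace Crest.Agent.R214

theorem monoThm_final : MonoThm := monoThm (zero_contact_of zcase_final) all_big

theorem lowerBound_final : Model.LowerBound := lowerBound_of_monoThm monoThm_final

theorem equalityCases_final : Model.EqualityCases := equalityCases_of_mono monoThm_final

end Crest.Agent.R214
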