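import Crest.Agent.R214.Defs

/-!
# Row 214: Fubini on the unit cell, slices
-/

set_option autoImplicit false

open MeasureTheory Crest.GeometryTopology.PeriodicPerimeter Filter
open scoped ENNReal Topology

namespace Crest.Agent.R214

/-- the insertion map as a measurable equivalence -/
noncomputable def insE {n : ℕ} (d : Fin (n + 1)) : (ℝ × Ev n) ≃ᵐ Ev (n + 1) :=
  ((MeasurableEquiv.prodCongr (MeasurableEquiv.refl ℝ)
      (MeasurableEquiv.toLp 2 (Fin n → ℝ)).symm).trans
    (MeasurableEquiv.piFinSuccAbove (fun _ : Fin (n + 1) => ℝ) d).symm).trans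
    (MeasurableEquiv.toLp 2 (Fin (n + 1) → ℝ))

theorem insE_coe {n : ℕ} (d : Fin (n + 1)) :
    (insE d : ℝ × Ev n → Ev (n + 1)) = fun p => ins d p.1 p.2 := rfl

theorem ins_mp {n : ℕ} (d : Fin (n + 1)) :
    MeasurePreserving (fun p : ℝ × Ev n => ins d p.1 p.2) volume volume := by
  have h1 : MeasurePreserving (Prod.map (id : ℝ → ℝ) (WithLp.ofLp : Ev n → (Fin n → ℝ)))
      (volume.prod volume) (volume.prod volume) :=
    (MeasurePreserving.id _).prod (PiLp.volume_preserving_ofLp (Fin n))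
  have h2 := (volume_preserving_piFinSuccAbove (fun _ : Fin (n + 1) => ℝ) d).symm
  have h3 := PiLp.volume_preserving_toLp (Fin (n + 1))
  exact h3.comp (h2.comp h1)

theorem ins_emb {n : ℕ} (d : Fin (n + 1)) :
    MeasurableEmbedding (fun p : ℝ × Ev n => ins d p.1 p.2) := by
  rw [← insE_coe]
  exact (insE d).measurableEmbedding

theorem ins_measurable {n : ℕ} (d : Fin (n + 1)) :
    Measurable (fun p : ℝ × Ev n => ins d p.1 p.2) := (ins_emb d).measurable

theorem ins_measurable_right {n : ℕ} (d : Fin (n + 1)) (t : ℝ) :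
    Measurable (fun y : Ev n => ins d t y) :=
  (ins_measurable d).comp (measurable_const.prodMk measurable_id)

theorem ins_mem_cell {n : ℕ} (d : Fin (n + 1)) (t : ℝ) (y : Ev n) :
    ins d t y ∈ unitCell (n + 1) ↔ (t ∈ Set.Ico (0 : ℝ) 1 ∧ y ∈ unitCell n) := by
  constructor
  · intro h
    refine ⟨?_, fun i => ?_⟩
    · have := h d
      rw [ins_same] at this
      exact this
    · have := h (d.succAbove i)
      rw [ins_succAbove] at this
      exact this
  · rintro ⟨h1, h2⟩ j
    rcases Fin.eq_self_or_eq_succAbove d j with h | ⟨i, h⟩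
    · rw [h, ins_same]; exact h1
    · rw [h, ins_succAbove]; exact h2 i

theorem preimage_cell {n : ℕ} (d : Fin (n + 1)) :
    (fun p : ℝ × Ev n => ins d p.1 p.2) ⁻¹' unitCell (n + 1) =
      Set.Ico (0 : ℝ) 1 ×ˢ unitCell n := by
  ext ⟨t, y⟩
  simp only [Set.mem_preimage, Set.mem_prod]
  exact ins_mem_cell d t y

theorem cell_fubini {n : ℕ} (d : Fin (n + 1)) {f : Ev (n + 1) → ℝ}
    (hf : IntegrableOn f (unitCell (n + 1))) :
    ∫ x in unitCell (n + 1), f x = ∫ t in (0 : ℝ)..1, ∫ y in unitCell n, f (ins d t y) := by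
  have h1 := (ins_mp d).setIntegral_preimage_emb (ins_emb d) f (unitCell (n + 1))
  rw [preimage_cell] at h1
  rw [← h1]
  have h2 : IntegrableOn (f ∘ fun p : ℝ × Ev n => ins d p.1 p.2)
      (Set.Ico (0 : ℝ) 1 ×ˢ unitCell n) volume := by
    rw [← preimage_cell d]
    exact ((ins_mp d).integrableOn_comp_preimage (ins_emb d)).2 hf
  rw [Measure.volume_eq_prod] at h2 ⊢
  have h3 := setIntegral_prod _ h2
  simp only [Function.comp_apply] at h3
  rw [h3, intervalIntegral.integral_of_le zero_le_one,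
    integral_Ico_eq_integral_Ioo, integral_Ioc_eq_integral_Ioo]

theorem ae_ins {n : ℕ} (d : Fin (n + 1)) {p : Ev (n + 1) → Prop} (h : ∀ᵐ x, p x) :
    ∀ᵐ t : ℝ, ∀ᵐ y : Ev n, p (ins d t y) := by
  have h1 : ∀ᵐ q : ℝ × Ev n, p (ins d q.1 q.2) := (ins_mp d).quasiMeasurePreserving.ae h
  rw [Measure.volume_eq_prod] at h1
  exact Measure.ae_ae_of_ae_prod h1

theorem cell_volume (n : ℕ) : (volume : Measure (Ev n)) (unitCell n) = 1 := by
  have h3 := PiLp.volume_preserving_toLp (Fin n)
  have h4 := h3.measure_preimage (measurableSet_cell n).nullMeasurableSet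
  rw [← h4]
  have h5 : (WithLp.toLp 2 : (Fin n → ℝ) → Ev n) ⁻¹' unitCell n =
      Set.univ.pi fun _ => Set.Ico (0 : ℝ) 1 := by
    ext x
    simp [unitCell, Set.mem_pi]
  rw [h5, volume_pi_pi]
  simp

theorem slice_measurable {n : ℕ} {d : Fin (n + 1)} {E : Set (Ev (n + 1))} (hE : MeasurableSet E)
    (t : ℝ) : MeasurableSet (slice d E t) :=
  ins_measurable_right d t hE

theorem ins_add_int {n : ℕ} (d : Fin (n + 1)) (t : ℝ) (y v : Ev n) :
    ins d t (y + v) = ins d t y + ins d 0 v := by
  ext j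
  rcases Fin.eq_self_or_eq_succAbove d j with h | ⟨i, h⟩
  · rw [h, PiLp.add_apply, ins_same, ins_same, ins_same, add_zero]
  · rw [h, PiLp.add_apply, ins_succAbove, ins_succAbove, ins_succAbove, PiLp.add_apply]

theorem ins_add_left {n : ℕ} (d : Fin (n + 1)) (t s : ℝ) (y : Ev n) :
    ins d (t + s) y = ins d t y + ins d s 0 := by
  ext j
  rcases Fin.eq_self_or_eq_succAbove d j with h | ⟨i, h⟩
  · rw [h, PiLp.add_apply, ins_same, ins_same, ins_same]
  · rw [h, PiLp.add_apply, ins_succAbove, ins_succAbove, ins_succAbove, PiLp.zero_apply, add_zero]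

theorem ins_zero_int {n : ℕ} (d : Fin (n + 1)) {v : Ev n} (hv : HasIntegerCoords v) :
    HasIntegerCoords (ins d 0 v) := by
  intro j
  rcases Fin.eq_self_or_eq_succAbove d j with h | ⟨i, h⟩
  · exact ⟨0, by rw [h, ins_same]; simp⟩
  · rw [h, ins_succAbove]; exact hv i

theorem ins_one_int {n : ℕ} (d : Fin (n + 1)) :
    HasIntegerCoords (ins d 1 (0 : Ev n)) := by
  intro j
  rcases Fin.eq_self_or_eq_succAbove d j with h | ⟨i, h⟩
  · exact ⟨1, by rw [h, ins_same]; simp⟩
  · exact ⟨0, by rw [h, ins_succAbove]; simp⟩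

theorem slice_periodic {n : ℕ} {d : Fin (n + 1)} {E : Set (Ev (n + 1))} (h : IsLatticePeriodic E)
    (t : ℝ) : IsLatticePeriodic (slice d E t) := by
  intro v hv x
  show ins d t (x + v) ∈ E ↔ ins d t x ∈ E
  rw [ins_add_int]
  exact h _ (ins_zero_int d hv) _

theorem slice_add_one {n : ℕ} {d : Fin (n + 1)} {E : Set (Ev (n + 1))} (h : IsLatticePeriodic E)
    (t : ℝ) : slice d E (t + 1) = slice d E t := by
  ext y
  show ins d (t + 1) y ∈ E ↔ ins d t y ∈ E
  rw [ins_add_left]
  exact h _ (ins_one_int d) _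

theorem sl_per {n : ℕ} {d : Fin (n + 1)} {E : Set (Ev (n + 1))} (h : IsLatticePeriodic E) :
    Function.Periodic (sl d E) 1 := by
  intro t
  show periodicVolume (slice d E (t + 1)) = periodicVolume (slice d E t)
  rw [slice_add_one h]

theorem sl_nonneg {n : ℕ} {d : Fin (n + 1)} {E : Set (Ev (n + 1))} (t : ℝ) : 0 ≤ sl d E t :=
  ENNReal.toReal_nonneg

theorem sl_eq_indicator {n : ℕ} {d : Fin (n + 1)} {E : Set (Ev (n + 1))} (hE : MeasurableSet E)
    (t : ℝ) : sl d E t = ∫ y in unitCell n, E.indicator (fun _ => (1 : ℝ)) (ins d t y) := by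
  have h1 : (fun y : Ev n => E.indicator (fun _ => (1 : ℝ)) (ins d t y)) =
      (slice d E t).indicator (fun _ => (1 : ℝ)) := by
    funext y
    by_cases hy : ins d t y ∈ E
    · rw [Set.indicator_of_mem hy, Set.indicator_of_mem (show y ∈ slice d E t from hy)]
    · rw [Set.indicator_of_notMem hy, Set.indicator_of_notMem (show y ∉ slice d E t from hy)]
  rw [h1, integral_indicator (slice_measurable hE t), Measure.restrict_restrict (slice_measurable hE t)]
  simp [sl, periodicVolume, Measure.real]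

theorem sl_le_one {n : ℕ} {d : Fin (n + 1)} {E : Set (Ev (n + 1))} (hE : MeasurableSet E)
    (t : ℝ) : sl d E t ≤ 1 := by
  have _ := hE
  have h1 : (volume : Measure (Ev n)) (slice d E t ∩ unitCell n) ≤ 1 := by
    rw [← cell_volume n]
    exact measure_mono Set.inter_subset_right
  have h2 := ENNReal.toReal_mono ENNReal.one_ne_top h1
  rwa [ENNReal.toReal_one] at h2

theorem sl_measurable {n : ℕ} {d : Fin (n + 1)} {E : Set (Ev (n + 1))} (hE : MeasurableSet E) :
    Measurable (sl d E) := by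
  have h1 : Measurable fun t : ℝ => (volume.restrict (unitCell n)) (slice d E t) := by
    have h2 : MeasurableSet ((fun p : ℝ × Ev n => ins d p.1 p.2) ⁻¹' E) := ins_measurable d hE
    exact measurable_measure_prodMk_left h2
  have h3 : sl d E = fun t => ((volume.restrict (unitCell n)) (slice d E t)).toReal := by
    funext t
    rw [Measure.restrict_apply (slice_measurable hE t)]
    rfl
  rw [h3]
  exact h1.ennreal_toReal

theorem integral_sl {n : ℕ} {d : Fin (n + 1)} {E : Set (Ev (n + 1))} (hE : MeasurableSet E) :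
    ∫ t in (0 : ℝ)..1, sl d E t = periodicVolume E := by
  have h1 : IntegrableOn (E.indicator (fun _ => (1 : ℝ))) (unitCell (n + 1)) :=
    (integrable_const (1 : ℝ)).indicator hE
  have h2 := cell_fubini d h1
  simp_rw [sl_eq_indicator hE]
  rw [← h2, integral_indicator hE, Measure.restrict_restrict hE]
  simp [periodicVolume, Measure.real]

end Crest.Agent.R214
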