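import Crest.Agent.R214.M5f

/-! ROW 214: (F3) planar sets with full lines in both directions (helper10; paper proof by
helper48/helper20). -/

set_option autoImplicit false
open MeasureTheory Set Filter Topology Crest.GeometryTopology.PeriodicPerimeter
open scoped ENNReal

namespace Crest.Agent.R214

/-- a.e. line in direction `d` meets all full lines of the other direction -/
theorem fullM_le_sl {K : Set (Ev 2)} (hK : MeasurableSet K) (hper : IsLatticePeriodic K)
    {d e : Fin 2} (hde : d ≠ e) : ∀ᵐ t : ℝ, fullM (sl e K) ≤ sl d K t := by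
  set Y : Set ℝ := {y | sl e K y = 1} with hYdef
  have hY : MeasurableSet Y := sl_measurable (d := e) hK (measurableSet_singleton 1)
  have hYp : ∀ y, y + 1 ∈ Y ↔ y ∈ Y := fun y => by
    show sl e K (y + 1) = 1 ↔ sl e K y = 1
    rw [sl_per (d := e) hper y]
  have hce : Measurable fun x : Ev 2 => x e := by fun_prop
  have hB : MeasurableSet {x : Ev 2 | x e ∈ Y ∧ x ∉ K} := (hce hY).inter hK.compl
  have h0 : volume {x : Ev 2 | x e ∈ Y ∧ x ∉ K} = 0 := by
    refine ae_of_ae_ins e hB (Eventually.of_forall fun t => ?_)
    by_cases ht : t ∈ Y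
    · have hsub : slice e {x : Ev 2 | x e ∈ Y ∧ x ∉ K} t ⊆ (slice e K t)ᶜ := fun y hy => hy.2
      refine measure_mono_null hsub (null_of_cell (periodic_compl' (slice_periodic hper t)) ?_)
      have ht' : sl e K t = 1 := ht
      unfold sl periodicVolume at ht'
      have h2 : volume (slice e K t ∩ unitCell 1) = 1 := (ENNReal.toReal_eq_one_iff _).1 ht'
      have h3 : (slice e K t)ᶜ ∩ unitCell 1 = unitCell 1 \ (slice e K t ∩ unitCell 1) := by
        ext y
        simp only [mem_inter_iff, mem_compl_iff, Set.mem_sdiff, not_and]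
        tauto
      rw [h3, measure_sdiff inter_subset_right
        ((slice_measurable hK t).inter (measurableSet_cell 1)).nullMeasurableSet
        (by rw [h2]; simp), h2, cell_volume]
      simp
    · have : slice e {x : Ev 2 | x e ∈ Y ∧ x ∉ K} t = ∅ := by
        ext y
        simp only [mem_empty_iff_false, iff_false]
        intro hy
        have h1 : ins e t y e ∈ Y := hy.1
        rw [ins_same] at h1
        exact ht h1
      rw [this]; simp
  have h1 : ∀ᵐ x : Ev 2, x e ∈ Y → x ∈ K := by
    rw [ae_iff]
    refine measure_mono_null (fun x hx => ?_) h0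
    have hx' : ¬ (x e ∈ Y → x ∈ K) := hx
    push Not at hx'
    exact hx'
  -- the periodic set `{y : Ev 1 | y 0 ∈ Y}`
  set Z : Set (Ev 1) := {y | y 0 ∈ Y} with hZdef
  have hc0 : Measurable fun x : Ev 1 => x 0 := by fun_prop
  have hZ : MeasurableSet Z := hc0 hY
  have hZvol : periodicVolume Z = fullM (sl e K) := by
    rw [← integral_sl (d := 0) hZ]
    unfold fullM
    refine intervalIntegral.integral_congr fun t _ => ?_
    show sl 0 Z t = if sl e K t = 1 then (1:ℝ) else 0
    by_cases ht : t ∈ Y
    · have ht' : sl e K t = 1 := ht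
      rw [if_pos ht']
      have : slice 0 Z t = univ := by
        ext y
        simp only [mem_univ, iff_true]
        show ins 0 t y 0 ∈ Y
        rw [ins_same]; exact ht
      unfold sl periodicVolume
      rw [this, univ_inter, cell_volume]; simp
    · have ht' : ¬ sl e K t = 1 := ht
      rw [if_neg ht']
      have : slice 0 Z t = ∅ := by
        ext y
        simp only [mem_empty_iff_false, iff_false]
        intro hy
        have h1 : ins 0 t y 0 ∈ Y := hy
        rw [ins_same] at h1
        exact ht h1
      unfold sl periodicVolume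
      rw [this]; simp
  filter_upwards [ae_ins d h1] with t ht
  rw [← hZvol]
  have hsa : e = d.succAbove 0 := by
    fin_cases d <;> fin_cases e <;> first | rfl | exact absurd rfl hde
  have h2 : ∀ᵐ y : Ev 1, y ∈ Z → y ∈ slice d K t := by
    filter_upwards [ht] with y hy hyZ
    apply hy
    rw [hsa, ins_succAbove]
    exact hyZ
  unfold sl periodicVolume
  refine ENNReal.toReal_mono (ne_top_of_le_ne_top ENNReal.one_ne_top
    ((measure_mono inter_subset_right).trans (cell_volume 1).le)) ?_
  refine measure_mono_ae ?_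
  filter_upwards [h2] with y hy hyZ
  exact ⟨hy hyZ.1, hyZ.2⟩

/-- full lines in direction `d` (slicing coordinate `d`) and full lines of the other kind of
measure `f`: the complement fits in width `1 - f` -/
theorem full_width {K : Set (Ev 2)} (hK : MeasurableSet K) (hper : IsLatticePeriodic K)
    (hP : periodicPerimeter K ≠ ∞) {d e : Fin 2} (hde : d ≠ e)
    (h0 : 0 < fullM (sl d K)) (h1 : 0 < fullM (sl e K)) :
    ∃ L : ℝ, 0 ≤ L ∧ L ≤ 1 - fullM (sl e K) ∧ 1 - periodicVolume K ≤ L ∧
      (1 - periodicVolume K) / L + Real.pi * L / 4 ≤ (periodicPerimeter K).toReal / 2 := by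
  have hf := fullM_le_sl hK hper hde
  have S := (sd2 hK hper hP d).compl_I1
  have hm : Measurable (sl d K) := sl_measurable (d := d) hK
  obtain ⟨a1, L, k1, k2, k3, k4, k5, k6⟩ := S.exists_range
  have hL1 : L ≤ 1 - fullM (sl e K) := by
    by_contra hcon
    push Not at hcon
    have h2 := k6 (L - (1 - fullM (sl e K))) (by linarith)
    obtain ⟨x, -, hx1, hx2⟩ := exists_of_ae_pos hf h2
    have hx2' : L - (L - (1 - fullM (sl e K))) < 1 - sl d K x := hx2
    linarith
  have hI : ∫ x in (0:ℝ)..1, (1 - sl d K x) = 1 - periodicVolume K := by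
    rw [(sd2 hK hper hP d).int_compl, integral_sl (d := d) hK]
  have hHL : 1 - periodicVolume K ≤ L := by
    rw [← hI]
    have h5 : ∫ x in (0:ℝ)..1, (1 - sl d K x) ≤ ∫ x in (0:ℝ)..1, L := by
      refine intervalIntegral.integral_mono_ae zero_le_one (S.intervalIntegrable_a 0 1)
        intervalIntegrable_const ?_
      filter_upwards [k4] with x hx
      exact hx.2
    simpa using h5
  refine ⟨L, k1.trans k2, hL1, hHL, ?_⟩
  rcases eq_or_lt_of_le (k1.trans k2) with hz | hpos
  · rw [← hz]
    simp only [div_zero, mul_zero, zero_div, zero_add]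
    positivity
  · have := S.iso_disc_aux (L := L) ?_ ?_ hpos (k4.mono fun x hx => hx.2) k6
    · rwa [hI] at this
    · rw [fullM_eq hm] at h0
      have h3 := ENNReal.toReal_pos_iff.1 h0
      have e : {x | 1 - sl d K x = 0} = {x | sl d K x = 1} := by
        ext x
        show 1 - sl d K x = 0 ↔ sl d K x = 1
        constructor <;> intro h <;> linarith
      rw [e]; exact h3.1
    · filter_upwards [hf] with x hx
      linarith

/-- `inf_{0 < L ≤ e} (H / L + π L / 4)` -/
noncomputable def QN (H e : ℝ) : ℝ :=
  if Real.pi * e ^ 2 ≤ 4 * H then H / e + Real.pi * e / 4 else Real.sqrt (Real.pi * H)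

lemma QN_le {H e L : ℝ} (hH : 0 ≤ H) (hHL : H ≤ L) (hL0 : 0 ≤ L) (hL : L ≤ e) :
    QN H e ≤ H / L + Real.pi * L / 4 := by
  have hpi := Real.pi_pos
  rcases eq_or_lt_of_le hL0 with hz | hpos
  · -- L = 0, H = 0
    have hH0 : H = 0 := le_antisymm (by rw [← hz] at hHL; exact hHL) hH
    rw [← hz, hH0]
    unfold QN
    split_ifs with h
    · have : e = 0 := by
        by_contra hne
        have : 0 < e ^ 2 := by positivity
        nlinarith
      rw [this]
    · simp
  · unfold QN
    split_ifs with h
    · have he : 0 < e := hpos.trans_le hL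
      rw [← sub_nonneg]
      have e1 : H / L + Real.pi * L / 4 - (H / e + Real.pi * e / 4) =
          (e - L) * (4 * H - Real.pi * e * L) / (4 * L * e) := by
        field_simp; ring
      rw [e1]
      apply div_nonneg (mul_nonneg (by linarith) ?_) (by positivity)
      have : Real.pi * e * L ≤ Real.pi * e * e := by
        apply mul_le_mul_of_nonneg_left hL (by positivity)
      nlinarith
    · exact amgm_disc hpos hH le_rfl

lemma QN_antitone_right {H e e' : ℝ} (hH : 0 ≤ H) (hHe : H ≤ e) (he : e ≤ e') : QN H e' ≤ QN H e := by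
  have hpi := Real.pi_pos
  have he0 : 0 ≤ e := hH.trans hHe
  unfold QN
  split_ifs with h1 h2 h2
  · have := QN_le hH hHe he0 he
    unfold QN at this
    rwa [if_pos h1] at this
  · exfalso
    apply h2
    have : e ^ 2 ≤ e' ^ 2 := by nlinarith
    nlinarith
  · have := QN_le hH hHe he0 he
    unfold QN at this
    rwa [if_neg h1] at this
  · exact le_rfl

/-- (F3): full lines in both directions -/
theorem full2_Q {K : Set (Ev 2)} (hK : MeasurableSet K) (hper : IsLatticePeriodic K)
    {d e : Fin 2} (hde : d ≠ e) {f : ℝ} (h0 : 0 < fullM (sl d K)) (hf0 : 0 < f)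
    (hf : f ≤ fullM (sl e K)) :
    ENNReal.ofReal (2 * QN (1 - periodicVolume K) (1 - f)) ≤ periodicPerimeter K := by
  by_cases hP : periodicPerimeter K = ∞
  · rw [hP]; exact le_top
  obtain ⟨L, hL0, hL1, hHL, hL⟩ := full_width hK hper hP hde h0 (hf0.trans_le hf)
  have hH : 0 ≤ 1 - periodicVolume K := by linarith [vol_le_one K]
  have := QN_le hH hHL hL0 (hL1.trans (by linarith : 1 - fullM (sl e K) ≤ 1 - f))
  exact ENNReal.ofReal_le_of_le_toReal (by linarith)

end Crest.Agent.R214
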