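import Crest.Agent.R214.Bath
import Crest.Agent.R214.En
import Crest.Agent.R214.Slr

/-!
# Row 214, M7: invariance in a direction
-/

set_option autoImplicit false

open MeasureTheory Filter Set Crest.GeometryTopology.PeriodicPerimeter
open scoped Topology ENNReal

namespace Crest.Agent.R214

theorem per_bound {n : ℕ} {f : Ev n → ℝ} (hf : Continuous f) (hp : IsPer f) :
    ∃ C : ℝ, 0 ≤ C ∧ ∀ x, |f x| ≤ C := by
  obtain ⟨R, hR0, hR⟩ := exists_cell_bound n
  obtain ⟨C, hC⟩ := (isCompact_closedBall (0 : Ev n) R).exists_bound_of_continuousOn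
    hf.continuousOn
  have h0 : (0 : Ev n) ∈ Metric.closedBall (0 : Ev n) R := Metric.mem_closedBall_self hR0
  refine ⟨C, (norm_nonneg _).trans (hC 0 h0), fun x => ?_⟩
  let w : Ev n := WithLp.toLp 2 fun i => (-(⌊x i⌋ : ℝ))
  have hw : HasIntegerCoords w := fun i => ⟨-⌊x i⌋, by simp [w]⟩
  have hx : x + w ∈ unitCell n := by
    intro i
    have : (x + w) i = x i - ⌊x i⌋ := by
      rw [PiLp.add_apply]
      show x i + -(⌊x i⌋ : ℝ) = _
      ring
    rw [this]
    constructor
    · linarith [Int.floor_le (x i)]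
    · linarith [Int.lt_floor_add_one (x i)]
  have h1 := hC _ (hR hx)
  rw [hp w hw x, Real.norm_eq_abs] at h1
  exact h1

/-- unit vector -/
noncomputable def ee {n : ℕ} (i : Fin n) : Ev n := EuclideanSpace.single i 1

theorem gr_apply {n : ℕ} (u : Ev n → ℝ) (x : Ev n) (i : Fin n) : gr u x i = fderiv ℝ u x (ee i) := rfl

/-- translation estimate -/
theorem shift_le {n : ℕ} {u : Ev n → ℝ} (hu : ContDiff ℝ 1 u) (hp : IsPer u) (i : Fin n) {s : ℝ}
    (hs : 0 ≤ s) : ∫ x in unitCell n, |u (x + s • ee i) - u x| ≤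
      s * ∫ x in unitCell n, |gr u x i| := by
  have hd : Differentiable ℝ u := hu.differentiable one_ne_zero
  have hg : Continuous fun x => gr u x i := by
    have := gr_continuous hu
    fun_prop
  have hgp : IsPer fun x => |gr u x i| := fun v hv x => by
    simp only
    rw [gr_isPer hp v hv x]
  obtain ⟨C, hC0, hC⟩ := per_bound (f := fun x => |gr u x i|) hg.abs hgp
  have hline : Continuous fun p : Ev n × ℝ => p.1 + p.2 • ee i := by fun_prop
  have hFTC : ∀ x, u (x + s • ee i) - u x = ∫ τ in (0 : ℝ)..s, gr u (x + τ • ee i) i := by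
    intro x
    have h1 : ∀ τ : ℝ, HasDerivAt (fun τ : ℝ => u (x + τ • ee i)) (gr u (x + τ • ee i) i) τ := by
      intro τ
      have h2 : HasDerivAt (fun τ : ℝ => x + τ • ee i) (ee i) τ := by
        have := ((hasDerivAt_id τ).smul_const (ee i)).const_add x
        simpa using this
      exact (hd (x + τ • ee i)).hasFDerivAt.comp_hasDerivAt τ h2
    rw [intervalIntegral.integral_eq_sub_of_hasDerivAt (fun τ _ => h1 τ)
      ((hg.comp (by fun_prop : Continuous fun τ : ℝ => x + τ • ee i)).intervalIntegrable _ _)]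
    simp
  have hpt : ∀ x, |u (x + s • ee i) - u x| ≤ ∫ τ in Ioc (0 : ℝ) s, |gr u (x + τ • ee i) i| := by
    intro x
    rw [hFTC x, intervalIntegral.integral_of_le hs]
    exact abs_integral_le_integral_abs
  have hint : Integrable (Function.uncurry fun (x : Ev n) (τ : ℝ) => |gr u (x + τ • ee i) i|)
      ((volume.restrict (unitCell n)).prod (volume.restrict (Ioc (0 : ℝ) s))) := by
    refine Integrable.mono' (g := fun _ => C) (integrable_const C) ?_
      (Eventually.of_forall fun p => ?_)
    · exact (hg.abs.comp hline).aestronglyMeasurable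
    · rw [Real.norm_eq_abs]
      exact (abs_abs (gr u (p.1 + p.2 • ee i) i)).le.trans ((le_abs_self _).trans
        (hC (p.1 + p.2 • ee i)))
  calc ∫ x in unitCell n, |u (x + s • ee i) - u x|
      ≤ ∫ x in unitCell n, ∫ τ in Ioc (0 : ℝ) s, |gr u (x + τ • ee i) i| := by
        refine integral_mono_of_nonneg (Eventually.of_forall fun x => abs_nonneg _)
          hint.integral_prod_left (Eventually.of_forall hpt)
    _ = ∫ τ in Ioc (0 : ℝ) s, ∫ x in unitCell n, |gr u (x + τ • ee i) i| :=
        integral_integral_swap hint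
    _ = ∫ τ in Ioc (0 : ℝ) s, ∫ x in unitCell n, |gr u x i| := by
        refine integral_congr_ae (Eventually.of_forall fun τ => ?_)
        exact cell_integral_add hgp (τ • ee i)
    _ = s * ∫ x in unitCell n, |gr u x i| := by
        rw [setIntegral_const, smul_eq_mul, Measure.real, Real.volume_Ioc, sub_zero,
          ENNReal.toReal_ofReal hs]

/-- **invariance in a direction** -/
theorem inv_of_small {n : ℕ} {E : Set (Ev n)} (hp : IsLatticePeriodic E)
    (hE : MeasurableSet E)
    {u : ℕ → Ev n → ℝ} (M : Moll E u) (i : Fin n)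
    (h : ∀ ε > 0, ∃ᶠ k in atTop, ∫ x in unitCell n, |gr (u k) x i| < ε) (s : ℝ) :
    ∀ᵐ x, (x + s • ee i ∈ E ↔ x ∈ E) := by
  have key : ∀ s : ℝ, 0 ≤ s → ∀ᵐ x, (x + s • ee i ∈ E ↔ x ∈ E) := by
    intro s hs
    set f : Ev n → ℝ := E.indicator fun _ => (1 : ℝ) with hf
    have hfm : Measurable f := measurable_const.indicator hE
    have hmp : MeasurePreserving (fun x : Ev n => x + s • ee i) volume volume :=
      measurePreserving_add_right volume _
    have hconv2 : ∀ᵐ x, Tendsto (fun k => u k (x + s • ee i)) atTop (𝓝 (f (x + s • ee i))) :=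
      hmp.quasiMeasurePreserving.ae M.conv
    have hlim : Tendsto (fun k => ∫ x in unitCell n, |u k (x + s • ee i) - u k x|) atTop
        (𝓝 (∫ x in unitCell n, |f (x + s • ee i) - f x|)) := by
      apply tendsto_integral_of_dominated_convergence (fun _ => (1 : ℝ))
      · intro k
        have hc : Continuous (u k) := (M.smooth k 1).continuous
        exact ((hc.comp (by fun_prop)).sub hc).abs.aestronglyMeasurable
      · exact integrable_const 1
      · intro k
        refine Eventually.of_forall fun x => ?_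
        rw [Real.norm_eq_abs, abs_abs, abs_le]
        have h1 := M.nonneg k x
        have h2 := M.le_one k x
        have h3 := M.nonneg k (x + s • ee i)
        have h4 := M.le_one k (x + s • ee i)
        constructor <;> linarith
      · filter_upwards [ae_restrict_of_ae M.conv, ae_restrict_of_ae hconv2] with x h1 h2
        exact (h2.sub h1).abs
    have hL0 : ∫ x in unitCell n, |f (x + s • ee i) - f x| ≤ 0 := by
      apply le_of_forall_pos_le_add
      intro ε hε
      rw [zero_add]
      have h1 := h (ε / (s + 1)) (by positivity)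
      refine le_of_tendsto_of_frequently hlim (h1.mono fun k hk => ?_)
      have h2 := shift_le ((M.smooth k 1)) (M.per k) i hs
      refine h2.trans ?_
      have h3 : s * ∫ x in unitCell n, |gr (u k) x i| ≤ s * (ε / (s + 1)) := by gcongr
      refine h3.trans ?_
      rw [mul_div_assoc', div_le_iff₀ (by positivity)]
      nlinarith
    have hint : IntegrableOn (fun x => |f (x + s • ee i) - f x|) (unitCell n) := by
      refine Integrable.mono' (g := fun _ => (1 : ℝ)) (integrable_const 1) ?_
        (Eventually.of_forall fun x => ?_)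
      · exact ((hfm.comp (by fun_prop)).sub hfm).abs.aestronglyMeasurable
      · have h01 : ∀ z, 0 ≤ f z ∧ f z ≤ 1 := fun z =>
          ⟨indicator_nonneg (fun _ _ => zero_le_one) z, indicator_le_self' (fun _ _ => zero_le_one) z⟩
        rw [Real.norm_eq_abs, abs_abs, abs_le]
        constructor <;> linarith [(h01 x).1, (h01 x).2, (h01 (x + s • ee i)).1,
          (h01 (x + s • ee i)).2]
    have h0 := (integral_eq_zero_iff_of_nonneg_ae (Eventually.of_forall fun x => abs_nonneg _)
      hint).1 (le_antisymm hL0 (integral_nonneg fun x => abs_nonneg _))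
    refine ae_of_cell (fun v hv x => ?_) ?_
    · have e1 : x + v + s • ee i = (x + s • ee i) + v := by abel
      rw [e1, hp v hv, hp v hv]
    · filter_upwards [h0] with x hx
      have hx' : f (x + s • ee i) = f x := by
        have h3 : |f (x + s • ee i) - f x| = 0 := hx
        exact sub_eq_zero.1 (abs_eq_zero.1 h3)
      by_cases h1 : x ∈ E
      · refine ⟨fun _ => h1, fun _ => ?_⟩
        by_contra h2
        rw [hf, indicator_of_mem h1, indicator_of_notMem h2] at hx'
        exact zero_ne_one hx'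
      · refine ⟨fun h2 => ?_, fun h2 => absurd h2 h1⟩
        rw [hf, indicator_of_notMem h1, indicator_of_mem h2] at hx'
        exact absurd hx' one_ne_zero
  rcases le_total 0 s with hs | hs
  · exact key s hs
  · have h1 := key (-s) (by linarith)
    have hmp : MeasurePreserving (fun x : Ev n => x + s • ee i) volume volume :=
      measurePreserving_add_right volume _
    have h2 : ∀ᵐ x, (x + s • ee i + (-s) • ee i ∈ E ↔ x + s • ee i ∈ E) :=
      hmp.quasiMeasurePreserving.ae h1
    filter_upwards [h2] with x hx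
    have h3 : x + s • ee i + (-s) • ee i = x := by
      rw [neg_smul]; abel
    rw [h3] at hx
    exact hx.symm

/-- the components of `x` other than the `d`-th -/
def rem {n : ℕ} (d : Fin (n + 1)) (x : Ev (n + 1)) : Ev n := WithLp.toLp 2 fun j => x (d.succAbove j)

theorem ins_rem {n : ℕ} (d : Fin (n + 1)) (x : Ev (n + 1)) : ins d (x d) (rem d x) = x := by
  ext j
  rcases Fin.eq_self_or_eq_succAbove d j with h | ⟨i, h⟩
  · rw [h, ins_same]
  · rw [h, ins_succAbove]
    rfl

theorem rem_ins {n : ℕ} (d : Fin (n + 1)) (t : ℝ) (y : Ev n) : rem d (ins d t y) = y := by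
  ext j
  show ins d t y (d.succAbove j) = y j
  rw [ins_succAbove]

theorem add_smul_ee {n : ℕ} (d : Fin (n + 1)) (x : Ev (n + 1)) (t : ℝ) :
    x + (t - x d) • ee d = ins d t (rem d x) := by
  ext j
  rcases Fin.eq_self_or_eq_succAbove d j with h | ⟨i, h⟩
  · rw [h, ins_same, PiLp.add_apply, PiLp.smul_apply]
    simp [ee]
  · rw [h, ins_succAbove, PiLp.add_apply, PiLp.smul_apply]
    simp [ee, rem, Fin.succAbove_ne]

/-- **cylinders** -/
theorem cyl_of_inv {n : ℕ} {E : Set (Ev (n + 1))} (hE : MeasurableSet E) (d : Fin (n + 1))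
    (h : ∀ s : ℝ, ∀ᵐ x, (x + s • ee d ∈ E ↔ x ∈ E)) :
    ∀ᵐ t : ℝ, volume (symmDiff E {x | rem d x ∈ slice d E t}) = 0 := by
  have hm1 : MeasurableSet {p : ℝ × Ev (n + 1) | (p.2 + p.1 • ee d ∈ E ↔ p.2 ∈ E)} := by
    have a1 : MeasurableSet {p : ℝ × Ev (n + 1) | p.2 + p.1 • ee d ∈ E} :=
      (by fun_prop : Measurable fun p : ℝ × Ev (n + 1) => p.2 + p.1 • ee d) hE
    have a2 : MeasurableSet {p : ℝ × Ev (n + 1) | p.2 ∈ E} := measurable_snd hE
    exact a1.iff a2
  have hm2 : MeasurableSet {p : Ev (n + 1) × ℝ | (p.1 + (p.2 - p.1 d) • ee d ∈ E ↔ p.1 ∈ E)} := by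
    have a1 : MeasurableSet {p : Ev (n + 1) × ℝ | p.1 + (p.2 - p.1 d) • ee d ∈ E} :=
      (by fun_prop : Measurable fun p : Ev (n + 1) × ℝ => p.1 + (p.2 - p.1 d) • ee d) hE
    have a2 : MeasurableSet {p : Ev (n + 1) × ℝ | p.1 ∈ E} := measurable_fst hE
    exact a1.iff a2
  have h1 : ∀ᵐ s : ℝ, ∀ᵐ x : Ev (n + 1), (x + s • ee d ∈ E ↔ x ∈ E) := Eventually.of_forall h
  have h2 : ∀ᵐ x : Ev (n + 1), ∀ᵐ s : ℝ, (x + s • ee d ∈ E ↔ x ∈ E) :=
    (Measure.ae_ae_comm hm1).1 h1
  have h3 : ∀ᵐ x : Ev (n + 1), ∀ᵐ t : ℝ, (x + (t - x d) • ee d ∈ E ↔ x ∈ E) := by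
    filter_upwards [h2] with x hx
    have hmp : MeasurePreserving (fun t : ℝ => t + -(x d)) volume volume :=
      measurePreserving_add_right volume _
    exact hmp.quasiMeasurePreserving.ae hx
  have h4 : ∀ᵐ t : ℝ, ∀ᵐ x : Ev (n + 1), (x + (t - x d) • ee d ∈ E ↔ x ∈ E) :=
    (Measure.ae_ae_comm hm2).1 h3
  filter_upwards [h4] with t ht
  rw [measure_symmDiff_eq_zero_iff]
  filter_upwards [ht] with x hx
  rw [add_smul_ee] at hx
  exact propext hx.symm

end Crest.Agent.R214
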