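import Crest.Agent.R214.Inv

/-!
# Row 214, M7: equality in the slicing inequality gives invariance
-/

set_option autoImplicit false

open MeasureTheory Filter Set Crest.GeometryTopology.PeriodicPerimeter
open scoped Topology ENNReal

namespace Crest.Agent.R214

section
variable {n : ℕ} {u : Ev (n + 1) → ℝ}

/-- norm of the slice gradient as a function on the whole space -/
noncomputable def pn (d : Fin (n + 1)) (u : Ev (n + 1) → ℝ) (x : Ev (n + 1)) : ℝ :=
  Real.sqrt (‖gr u x‖ ^ 2 - gr u x d ^ 2)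

theorem sq_coord_le (x : Ev (n + 1)) (d : Fin (n + 1)) : x d ^ 2 ≤ ‖x‖ ^ 2 := by
  rw [EuclideanSpace.norm_sq_eq]
  have := Finset.single_le_sum (f := fun i => ‖x i‖ ^ 2) (fun i _ => sq_nonneg _)
    (Finset.mem_univ d)
  simpa using this

theorem pn_ins (hu : ContDiff ℝ 1 u) (d : Fin (n + 1)) (t : ℝ) (y : Ev n) :
    pn d u (ins d t y) = ‖gr (fun z => u (ins d t z)) y‖ := by
  unfold pn
  rw [norm_gr_ins_sq d (hu.differentiable one_ne_zero), add_sub_cancel_right,
    Real.sqrt_sq (norm_nonneg _)]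

theorem pn_continuous (hu : ContDiff ℝ 1 u) (d : Fin (n + 1)) : Continuous (pn d u) := by
  have := gr_continuous hu
  unfold pn
  fun_prop

theorem pn_nonneg (d : Fin (n + 1)) (x : Ev (n + 1)) : 0 ≤ pn d u x := Real.sqrt_nonneg _

theorem pn_integral (hu : ContDiff ℝ 1 u) (d : Fin (n + 1)) :
    ∫ x in unitCell (n + 1), pn d u x = ∫ t in (0 : ℝ)..1, Tm d u t := by
  rw [cell_fubini d (integrable_cell (pn_continuous hu d))]
  refine intervalIntegral.integral_congr fun t _ => ?_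
  simp_rw [pn_ins hu]
  rfl

/-- other components are bounded by `pn` -/
theorem abs_gr_le_pn (x : Ev (n + 1)) {d i : Fin (n + 1)} (h : i ≠ d) :
    |gr u x i| ≤ pn d u x := by
  unfold pn
  apply Real.abs_le_sqrt
  rw [EuclideanSpace.norm_sq_eq]
  have h1 : ∑ j ∈ ({d, i} : Finset (Fin (n + 1))), ‖gr u x j‖ ^ 2 ≤ ∑ j, ‖gr u x j‖ ^ 2 :=
    Finset.sum_le_sum_of_subset_of_nonneg (Finset.subset_univ _) fun j _ _ => sq_nonneg _
  rw [Finset.sum_pair h.symm] at h1
  simp only [Real.norm_eq_abs, sq_abs] at h1 ⊢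
  linarith

/-- the energy controls the pair (slice energy, energy in direction `d`) -/
theorem energy_pair (hu : ContDiff ℝ 1 u) (d : Fin (n + 1)) :
    (∫ t in (0 : ℝ)..1, Tm d u t) ^ 2 + (∫ x in unitCell (n + 1), |gr u x d|) ^ 2 ≤
      (∫ x in unitCell (n + 1), ‖gr u x‖) ^ 2 := by
  rw [← pn_integral hu d]
  set A : ℝ := ∫ x in unitCell (n + 1), pn d u x with hA
  set B : ℝ := ∫ x in unitCell (n + 1), |gr u x d| with hB
  set T : ℝ := ∫ x in unitCell (n + 1), ‖gr u x‖ with hT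
  have hg := gr_continuous hu
  have i1 : IntegrableOn (pn d u) (unitCell (n + 1)) := integrable_cell (pn_continuous hu d)
  have i2 : IntegrableOn (fun x => |gr u x d|) (unitCell (n + 1)) :=
    integrable_cell (by fun_prop)
  have i3 : IntegrableOn (fun x => ‖gr u x‖) (unitCell (n + 1)) := integrable_cell hg.norm
  have hA0 : 0 ≤ A := integral_nonneg fun x => pn_nonneg d x
  have hB0 : 0 ≤ B := integral_nonneg fun x => abs_nonneg _
  have hT0 : 0 ≤ T := integral_nonneg fun x => norm_nonneg _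
  have key : A * A + B * B ≤ Real.sqrt (A ^ 2 + B ^ 2) * T := by
    have h1 : ∀ x, A * pn d u x + B * |gr u x d| ≤ Real.sqrt (A ^ 2 + B ^ 2) * ‖gr u x‖ := by
      intro x
      have h2 : ‖gr u x‖ = Real.sqrt (pn d u x ^ 2 + |gr u x d| ^ 2) := by
        have h3 : 0 ≤ ‖gr u x‖ ^ 2 - gr u x d ^ 2 := by linarith [sq_coord_le (gr u x) d]
        unfold pn
        rw [Real.sq_sqrt h3, sq_abs, sub_add_cancel, Real.sqrt_sq (norm_nonneg _)]
      rw [h2, ← Real.sqrt_mul (by positivity)]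
      apply Real.le_sqrt_of_sq_le
      nlinarith [sq_nonneg (A * |gr u x d| - B * pn d u x)]
    have h2 : ∫ x in unitCell (n + 1), (A * pn d u x + B * |gr u x d|) ≤
        ∫ x in unitCell (n + 1), Real.sqrt (A ^ 2 + B ^ 2) * ‖gr u x‖ :=
      integral_mono ((i1.const_mul A).add (i2.const_mul B)) (i3.const_mul _) h1
    rw [integral_add (i1.const_mul A) (i2.const_mul B), integral_const_mul, integral_const_mul,
      integral_const_mul] at h2
    exact h2
  have hs : Real.sqrt (A ^ 2 + B ^ 2) ^ 2 = A ^ 2 + B ^ 2 := Real.sq_sqrt (by positivity)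
  have hs0 := Real.sqrt_nonneg (A ^ 2 + B ^ 2)
  set S := Real.sqrt (A ^ 2 + B ^ 2) with hS
  have h3 : S * S ≤ S * T := by
    have : S * S = A * A + B * B := by rw [← sq, hs]; ring
    rw [this]
    exact key
  rcases eq_or_lt_of_le hs0 with h4 | h4
  · rw [← hs, ← h4]
    nlinarith
  · have h5 : S ≤ T := le_of_mul_le_mul_left h3 h4
    rw [← hs]
    exact pow_le_pow_left₀ hs0 h5 2

end

/-- lower semicontinuity, integrated -/
theorem Tm_liminf {n : ℕ} {u : ℕ → Ev (n + 1) → ℝ} {d : Fin (n + 1)} (hu : ∀ k, ContDiff ℝ 1 (u k))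
    {P : ℝ} (hlow : ∀ᵐ t : ℝ, ∀ s < P, ∀ᶠ k in atTop, s < Tm d (u k) t) :
    ∀ ε > 0, ∀ᶠ k in atTop, P - ε < ∫ t in (0 : ℝ)..1, Tm d (u k) t := by
  rcases le_or_gt P 0 with hP | hP
  · intro ε hε
    refine Eventually.of_forall fun k => ?_
    have : 0 ≤ ∫ t in (0 : ℝ)..1, Tm d (u k) t :=
      intervalIntegral.integral_nonneg zero_le_one fun t _ => Tm_nonneg d _ t
    linarith
  have hlim : Tendsto (fun k => ∫ t in (0 : ℝ)..1, min (Tm d (u k) t) P) atTop
      (𝓝 (∫ _ in (0 : ℝ)..1, P)) := by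
    refine intervalIntegral.tendsto_integral_filter_of_dominated_convergence (fun _ => P) ?_ ?_
      (by simp) ?_
    · exact Eventually.of_forall fun k =>
        ((Tm_continuous d (hu k)).min continuous_const).aestronglyMeasurable
    · refine Eventually.of_forall fun k => Eventually.of_forall fun t _ => ?_
      rw [Real.norm_of_nonneg (le_min (Tm_nonneg d _ t) hP.le)]
      exact min_le_right _ _
    · filter_upwards [hlow] with t ht _
      refine tendsto_order.2 ⟨fun b hb => ?_, fun b hb => Eventually.of_forall fun k =>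
        (min_le_right _ _).trans_lt hb⟩
      filter_upwards [ht b hb] with k hk
      exact lt_min hk hb
  intro ε hε
  have h1 : ∫ _ in (0 : ℝ)..1, P = P := by simp
  rw [h1] at hlim
  filter_upwards [(tendsto_order.1 hlim).1 (P - ε) (by linarith)] with k hk
  refine hk.trans_le ?_
  refine intervalIntegral.integral_mono_on zero_le_one ?_ ?_ fun t _ => min_le_left _ _
  · exact ((Tm_continuous d (hu k)).min continuous_const).intervalIntegrable _ _
  · exact (Tm_continuous d (hu k)).intervalIntegrable _ _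

/-- **(e1)**: if almost all slices have perimeter at least `P ≥ P(E)`, then `E` is invariant. -/
theorem inv_of_slices {n : ℕ} {E : Set (Ev (n + 1))} (hE : MeasurableSet E)
    (hp : IsLatticePeriodic E) {u : ℕ → Ev (n + 1) → ℝ} (M : Moll E u) (d : Fin (n + 1)) {P : ℝ}
    (hfin : periodicPerimeter E ≠ ∞) (hPE : (periodicPerimeter E).toReal ≤ P)
    (hlow : ∀ᵐ t : ℝ, ∀ s < P, ∀ᶠ k in atTop, s < Tm d (u k) t) (s : ℝ) :
    ∀ᵐ x, (x + s • ee d ∈ E ↔ x ∈ E) := by
  refine inv_of_small hp hE M d (fun ε hε => ?_) s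
  have hu : ∀ k, ContDiff ℝ 1 (u k) := fun k => M.smooth k 1
  have hP0 : 0 ≤ P := ENNReal.toReal_nonneg.trans hPE
  -- `A_k ≥ P - η`, `A_k² + B_k² ≤ P²`
  obtain ⟨η, hη, hη2⟩ : ∃ η > 0, 2 * P * η < ε ^ 2 := by
    refine ⟨ε ^ 2 / (2 * (2 * P + 1)), by positivity, ?_⟩
    rw [mul_div_assoc', div_lt_iff₀ (by positivity)]
    nlinarith [sq_pos_of_pos hε]
  refine (Tm_liminf hu hlow η hη).frequently.mono fun k hk => ?_
  have h1 := energy_pair (hu k) d
  have h2 := M.energy hfin k
  have hA0 : 0 ≤ ∫ t in (0 : ℝ)..1, Tm d (u k) t :=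
    intervalIntegral.integral_nonneg zero_le_one fun t _ => Tm_nonneg d _ t
  have hB0 : 0 ≤ ∫ x in unitCell (n + 1), |gr (u k) x d| := integral_nonneg fun x => abs_nonneg _
  have hT0 : 0 ≤ ∫ x in unitCell (n + 1), ‖gr (u k) x‖ := integral_nonneg fun x => norm_nonneg _
  have hT : ∫ x in unitCell (n + 1), ‖gr (u k) x‖ ≤ P := h2.trans hPE
  generalize (∫ t in (0 : ℝ)..1, Tm d (u k) t) = A at *
  generalize (∫ x in unitCell (n + 1), |gr (u k) x d|) = B at *
  generalize (∫ x in unitCell (n + 1), ‖gr (u k) x‖) = T at *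
  by_contra hcon
  have h3 : ε ≤ B := not_lt.1 hcon
  have h4 : ε ^ 2 ≤ B ^ 2 := pow_le_pow_left₀ hε.le h3 2
  have h5 : T ^ 2 ≤ P ^ 2 := pow_le_pow_left₀ hT0 hT 2
  rcases le_total 0 (P - η) with h6 | h6
  · have h7 : (P - η) ^ 2 ≤ A ^ 2 := pow_le_pow_left₀ h6 hk.le 2
    nlinarith
  · nlinarith

/-- **(e3)**: if `P(E) ≤ 2` and the slices are close to empty and to full, then `E` is invariant in
all other directions. -/
theorem inv_of_osc {n : ℕ} {E : Set (Ev (n + 1))} (hE : MeasurableSet E)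
    (hp : IsLatticePeriodic E) {u : ℕ → Ev (n + 1) → ℝ} (M : Moll E u) {d i : Fin (n + 1)}
    (hdi : i ≠ d) (hfin : periodicPerimeter E ≠ ∞) (hPE : (periodicPerimeter E).toReal ≤ 2)
    {a : ℝ → ℝ} (hconv : ∀ᵐ t : ℝ, Tendsto (fun k => am d (u k) t) atTop (𝓝 (a t)))
    (hsup : ∀ η > 0, volume ({t | 1 - η < a t} ∩ Ioc 0 1) ≠ 0)
    (hinf : ∀ η > 0, volume ({t | a t < η} ∩ Ioc 0 1) ≠ 0) (s : ℝ) :
    ∀ᵐ x, (x + s • ee i ∈ E ↔ x ∈ E) := by
  refine inv_of_small hp hE M i (fun ε hε => ?_) s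
  have hu : ∀ k, ContDiff ℝ 1 (u k) := fun k => M.smooth k 1
  have hex : ∀ {p : ℝ → Prop}, volume ({t | p t} ∩ Ioc 0 1) ≠ 0 →
      ∃ t ∈ Ioc (0 : ℝ) 1, Tendsto (fun k => am d (u k) t) atTop (𝓝 (a t)) ∧ p t := by
    intro p hp
    by_contra hcon
    push Not at hcon
    apply hp
    refine measure_mono_null (t := {t | ¬ Tendsto (fun k => am d (u k) t) atTop (𝓝 (a t))}) ?_
      (ae_iff.1 hconv)
    rintro t ⟨h1, h2⟩ h3
    exact hcon t h2 h3 h1
  obtain ⟨η, hη, hη2⟩ : ∃ η > 0, 32 * η < ε ^ 2 :=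
    ⟨ε ^ 2 / 64, by positivity, by nlinarith [sq_pos_of_pos hε]⟩
  obtain ⟨t1, ht1, hl1, ha1⟩ := hex (hsup η hη)
  obtain ⟨t2, ht2, hl2, ha2⟩ := hex (hinf η hη)
  have e1 : ∀ᶠ k in atTop, 1 - η < am d (u k) t1 := (tendsto_order.1 hl1).1 _ ha1
  have e2 : ∀ᶠ k in atTop, am d (u k) t2 < η := (tendsto_order.1 hl2).2 _ ha2
  refine (e1.and e2).frequently.mono fun k hk => ?_
  have h1 := energy_pair (hu k) d
  have h2 := M.energy hfin k
  -- `B ≥ ∫ |a'| ≥ 2 (1 - 2η)`
  have hg := gr_continuous (hu k)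
  have hgd : Continuous fun x => |gr (u k) x d| := by fun_prop
  have hB : 2 * (1 - 2 * η) ≤ ∫ x in unitCell (n + 1), |gr (u k) x d| := by
    have h3 := twice_osc (w := fun _ => 1) (f := am d (u k)) continuous_const
      (fun _ => zero_le_one) (am_contDiff d (hu k)) (by
        have := am_per d (M.per k) 0
        rw [zero_add] at this
        exact this.symm) ht2 ht1
    have hprim : ∀ α : ℝ, prim (fun _ => (1 : ℝ)) α = α := by
      intro α
      unfold prim
      simp
    rw [hprim, hprim] at h3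
    have h4 : ∫ t in Ioc (0 : ℝ) 1, 1 * |deriv (am d (u k)) t| ≤
        ∫ x in unitCell (n + 1), |gr (u k) x d| := by
      rw [cell_fubini d (integrable_cell hgd), intervalIntegral.integral_of_le zero_le_one]
      have hci := continuous_ins d
      have hi2 : Integrable (Function.uncurry fun (t : ℝ) (y : Ev n) =>
          |gr (u k) (ins d t y) d|) ((volume.restrict (Ioc (0 : ℝ) 1)).prod
            (volume.restrict (unitCell n))) := by
        obtain ⟨C, hC0, hC⟩ := per_bound hgd (fun v hv x => by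
          simp only
          rw [gr_isPer (M.per k) v hv x])
        refine Integrable.mono' (g := fun _ => C) (integrable_const C)
          (hgd.comp hci).aestronglyMeasurable (Eventually.of_forall fun p => ?_)
        exact hC (ins d p.1 p.2)
      refine integral_mono_of_nonneg (Eventually.of_forall fun t => by positivity)
        hi2.integral_prod_left (Eventually.of_forall fun t => ?_)
      simp only [one_mul]
      rw [(deriv_am d (hu k) t).deriv]
      exact abs_integral_le_integral_abs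
    linarith [hk.1, hk.2]
  have hA : ∫ x in unitCell (n + 1), |gr (u k) x i| ≤ ∫ t in (0 : ℝ)..1, Tm d (u k) t := by
    rw [← pn_integral (hu k) d]
    refine integral_mono (integrable_cell (by fun_prop)) (integrable_cell (pn_continuous (hu k) d))
      fun x => ?_
    exact abs_gr_le_pn x hdi
  have hA0 : 0 ≤ ∫ x in unitCell (n + 1), |gr (u k) x i| := integral_nonneg fun x => abs_nonneg _
  have hT0 : 0 ≤ ∫ x in unitCell (n + 1), ‖gr (u k) x‖ := integral_nonneg fun x => norm_nonneg _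
  have hT : ∫ x in unitCell (n + 1), ‖gr (u k) x‖ ≤ 2 := h2.trans hPE
  have hB0 : 0 ≤ ∫ x in unitCell (n + 1), |gr (u k) x d| := integral_nonneg fun x => abs_nonneg _
  generalize (∫ t in (0 : ℝ)..1, Tm d (u k) t) = A at *
  generalize (∫ x in unitCell (n + 1), |gr (u k) x i|) = A' at *
  generalize (∫ x in unitCell (n + 1), |gr (u k) x d|) = B at *
  generalize (∫ x in unitCell (n + 1), ‖gr (u k) x‖) = T at *
  by_contra hcon
  have h3 : ε ≤ A := (not_lt.1 hcon).trans hA
  have h4 : ε ^ 2 ≤ A ^ 2 := pow_le_pow_left₀ hε.le h3 2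
  have h5 : T ^ 2 ≤ 2 ^ 2 := pow_le_pow_left₀ hT0 hT 2
  rcases le_total 0 (1 - 2 * η) with h6 | h6
  · have h7 : (2 * (1 - 2 * η)) ^ 2 ≤ B ^ 2 := pow_le_pow_left₀ (by linarith) hB 2
    nlinarith
  · nlinarith

end Crest.Agent.R214
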