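import Crest.Prelude.Def_PeriodicPerimeter

/-!
# Row 214: the lattice, the fundamental domain and invariance of the periodic perimeter
-/

set_option autoImplicit false

open MeasureTheory Crest.GeometryTopology.PeriodicPerimeter
open scoped ENNReal Topology

namespace Crest.Agent.R214

/-- Euclidean space -/
abbrev Ev (n : ℕ) := EuclideanSpace ℝ (Fin n)

/-- the lattice `ℤⁿ` -/
def Lam (n : ℕ) : AddSubgroup (Ev n) where
  carrier := {v | HasIntegerCoords v}
  zero_mem' := fun i => ⟨0, by simp⟩
  add_mem' := fun {a b} ha hb i => by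
    obtain ⟨p, hp⟩ := ha i
    obtain ⟨q, hq⟩ := hb i
    exact ⟨p + q, by simp [hp, hq]⟩
  neg_mem' := fun {a} ha i => by
    obtain ⟨p, hp⟩ := ha i
    exact ⟨-p, by simp [hp]⟩

theorem mem_Lam {n : ℕ} {v : Ev n} : v ∈ Lam n ↔ HasIntegerCoords v := Iff.rfl

instance (n : ℕ) : Countable (Lam n) := by
  let f : Lam n → (Fin n → ℤ) := fun v i => (v.2 i).choose
  have hf : Function.Injective f := by
    intro v w h
    apply Subtype.ext
    ext i
    rw [(v.2 i).choose_spec, (w.2 i).choose_spec]
    exact_mod_cast congrFun h i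
  exact hf.countable

theorem measurableSet_cell (n : ℕ) : MeasurableSet (unitCell n) := by
  have h1 : unitCell n = ⋂ i, ({x : Ev n | 0 ≤ x i} ∩ {x : Ev n | x i < 1}) := by
    ext x
    simp [unitCell]
  rw [h1]
  refine MeasurableSet.iInter fun i => ?_
  have h2 : Measurable fun x : Ev n => x i := by fun_prop
  exact (measurableSet_le measurable_const h2).inter (measurableSet_lt h2 measurable_const)

/-- the unit cell is a fundamental domain -/
theorem fd_cell (n : ℕ) : IsAddFundamentalDomain (Lam n) (unitCell n) (volume : Measure (Ev n)) :=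
  IsAddFundamentalDomain.mk' (measurableSet_cell n).nullMeasurableSet fun x => by
    refine ⟨⟨WithLp.toLp 2 fun i => (-(⌊x i⌋ : ℝ)), fun i => ⟨-⌊x i⌋, by simp⟩⟩, ?_, ?_⟩
    · intro i
      have h1 : ((⟨WithLp.toLp 2 fun i => (-(⌊x i⌋ : ℝ)), fun i => ⟨-⌊x i⌋, by simp⟩⟩ : Lam n) +ᵥ x) i =
          -(⌊x i⌋ : ℝ) + x i := rfl
      rw [h1]
      constructor
      · linarith [Int.floor_le (x i)]
      · linarith [Int.lt_floor_add_one (x i)]
    · intro w hw
      apply Subtype.ext
      ext i
      obtain ⟨k, hk⟩ := w.2 i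
      have h1 := hw i
      have h2 : (w +ᵥ x) i = (w : Ev n) i + x i := rfl
      rw [h2, hk] at h1
      have h3 : ⌊x i⌋ = -k := by
        rw [Int.floor_eq_iff]
        push_cast
        exact ⟨by linarith [h1.1], by linarith [h1.2]⟩
      rw [hk]
      show (k : ℝ) = -(⌊x i⌋ : ℝ)
      rw [h3]
      push_cast
      ring

/-- periodic function -/
def IsPer {n : ℕ} {β : Type*} (f : Ev n → β) : Prop := ∀ v, HasIntegerCoords v → ∀ x, f (x + v) = f x

/-- two fundamental domains give the same integral -/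
theorem fd_integral {n : ℕ} {s : Set (Ev n)} (hs : IsAddFundamentalDomain (Lam n) s volume)
    {f : Ev n → ℝ} (hf : IsPer f) : ∫ x in s, f x = ∫ x in unitCell n, f x := by
  refine hs.setIntegral_eq (fd_cell n) fun v x => ?_
  have h1 : (v : Lam n) +ᵥ x = x + (v : Ev n) := by
    show (v : Ev n) + x = x + (v : Ev n)
    exact add_comm _ _
  rw [h1]
  exact hf v v.2 x

/-- the linear part of a cubic isometry -/
theorem exists_lin {n : ℕ} {g : Ev n → Ev n} (hg : IsCubicIsometry g) :
    ∃ (L : Ev n ≃ₗᵢ[ℝ] Ev n) (c : Ev n), (∀ x, g x = L x + c) ∧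
      (∀ v, HasIntegerCoords v → HasIntegerCoords (L v)) ∧
      (∀ v, HasIntegerCoords v → HasIntegerCoords (L.symm v)) := by
  obtain ⟨σ, ε, c, hε, hgx⟩ := hg
  let L0 : Ev n →ₗ[ℝ] Ev n :=
    { toFun := fun x => WithLp.toLp 2 fun i => ε i * x (σ i)
      map_add' := fun x y => by
        ext i
        simp [mul_add]
      map_smul' := fun a x => by
        ext i
        simp
        ring }
  have hε2 : ∀ i, ε i ^ 2 = 1 := fun i => by rcases hε i with h | h <;> rw [h] <;> norm_num
  have hL0 : ∀ x i, L0 x i = ε i * x (σ i) := fun x i => rfl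
  have hn : ∀ x, ‖L0 x‖ = ‖x‖ := by
    intro x
    rw [EuclideanSpace.norm_eq, EuclideanSpace.norm_eq]
    congr 1
    rw [← Equiv.sum_comp σ (fun i => ‖x i‖ ^ 2)]
    refine Finset.sum_congr rfl fun i _ => ?_
    rw [hL0, norm_mul, mul_pow, Real.norm_eq_abs, sq_abs, hε2, one_mul]
  let L1 : Ev n →ₗᵢ[ℝ] Ev n := ⟨L0, hn⟩
  let L : Ev n ≃ₗᵢ[ℝ] Ev n := L1.toLinearIsometryEquiv rfl
  have hL : ∀ x i, L x i = ε i * x (σ i) := fun x i => rfl
  have hint : ∀ v, HasIntegerCoords v → HasIntegerCoords (L v) := by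
    intro v hv i
    obtain ⟨k, hk⟩ := hv (σ i)
    rcases hε i with h | h
    · exact ⟨k, by rw [hL, h, hk, one_mul]⟩
    · exact ⟨-k, by rw [hL, h, hk]; push_cast; ring⟩
  refine ⟨L, c, fun x => ?_, hint, fun v hv i => ?_⟩
  · ext i
    rw [hgx]
    rfl
  · obtain ⟨j, rfl⟩ := σ.surjective i
    obtain ⟨k, hk⟩ := hv j
    have h1 : L (L.symm v) j = v j := by rw [L.apply_symm_apply]
    rw [hL, hk] at h1
    rcases hε j with h | h
    · exact ⟨k, by rw [h, one_mul] at h1; exact h1⟩
    · exact ⟨-k, by rw [h] at h1; push_cast; linarith⟩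

/-- the inverse of a cubic isometry -/
theorem exists_inv {n : ℕ} {g : Ev n → Ev n} (hg : IsCubicIsometry g) :
    ∃ g' : Ev n → Ev n, IsCubicIsometry g' ∧ (∀ x, g' (g x) = x) ∧ ∀ x, g (g' x) = x := by
  obtain ⟨σ, ε, c, hε, hgx⟩ := hg
  have hε2 : ∀ i, ε i * ε i = 1 := fun i => by rcases hε i with h | h <;> rw [h] <;> norm_num
  refine ⟨fun y => WithLp.toLp 2 fun i => ε (σ.symm i) * (y (σ.symm i) - c (σ.symm i)),
    ⟨σ.symm, fun i => ε (σ.symm i), WithLp.toLp 2 fun i => -(ε (σ.symm i) * c (σ.symm i)),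
      fun i => hε _, fun x i => ?_⟩, fun x => ?_, fun x => ?_⟩
  · show ε (σ.symm i) * (x (σ.symm i) - c (σ.symm i)) =
      ε (σ.symm i) * x (σ.symm i) + -(ε (σ.symm i) * c (σ.symm i))
    ring
  · ext i
    show ε (σ.symm i) * (g x (σ.symm i) - c (σ.symm i)) = x i
    rw [hgx, Equiv.apply_symm_apply]
    linear_combination (x i) * hε2 (σ.symm i)
  · ext i
    rw [hgx]
    show ε i * (ε (σ.symm (σ i)) * (x (σ.symm (σ i)) - c (σ.symm (σ i)))) + c i = x i
    rw [Equiv.symm_apply_apply]
    linear_combination (x i - c i) * hε2 i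

/-- translations are cubic isometries -/
theorem isCubic_add {n : ℕ} (c : Ev n) : IsCubicIsometry fun x : Ev n => x + c :=
  ⟨Equiv.refl _, fun _ => 1, c, fun _ => Or.inl rfl, fun x i => by simp⟩

/-- the image of the cell under a cubic isometry is a fundamental domain -/
theorem fd_image {n : ℕ} {g : Ev n → Ev n} (hg : IsCubicIsometry g) :
    IsAddFundamentalDomain (Lam n) (g '' unitCell n) (volume : Measure (Ev n)) := by
  obtain ⟨L, c, hL, h1, h2⟩ := exists_lin hg
  let f : Ev n ≃ Ev n := L.toEquiv.trans (Equiv.addRight c)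
  have hf : ∀ x, f x = g x := fun x => (hL x).symm
  have hfs : f '' unitCell n = g '' unitCell n := by
    ext y
    simp [hf]
  rw [← hfs]
  have hq : Measure.QuasiMeasurePreserving f.symm (volume : Measure (Ev n)) volume := by
    have h3 : MeasurePreserving (fun x : Ev n => L.symm (x + -c)) volume volume :=
      L.symm.measurePreserving.comp (measurePreserving_add_right volume (-c))
    have h4 : (f.symm : Ev n → Ev n) = fun x : Ev n => L.symm (x + -c) := by
      funext x
      rfl
    rw [h4]
    exact h3.quasiMeasurePreserving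
  let e : Lam n ≃ Lam n :=
    { toFun := fun v => ⟨L.symm v, h2 v v.2⟩
      invFun := fun v => ⟨L v, h1 v v.2⟩
      left_inv := fun v => by
        apply Subtype.ext
        simp
      right_inv := fun v => by
        apply Subtype.ext
        simp }
  refine (fd_cell n).image_of_equiv f hq e fun v x => ?_
  show L ((L.symm v : Ev n) + x) + c = (v : Ev n) + (L x + c)
  rw [map_add, L.apply_symm_apply, add_assoc]

/-- change of variables by a cubic isometry -/
theorem cell_integral_iso {n : ℕ} {g : Ev n → Ev n} (hg : IsCubicIsometry g) {f : Ev n → ℝ}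
    (hf : IsPer f) : ∫ x in unitCell n, f (g x) = ∫ x in unitCell n, f x := by
  obtain ⟨L, c, hL, h1, h2⟩ := exists_lin hg
  have hmp : MeasurePreserving g volume volume := by
    have h3 : MeasurePreserving (fun x : Ev n => L x + c) volume volume :=
      (measurePreserving_add_right volume c).comp L.measurePreserving
    have h4 : g = fun x : Ev n => L x + c := funext hL
    rw [h4]
    exact h3
  have hemb : MeasurableEmbedding g := by
    have h3 : MeasurableEmbedding (fun x : Ev n => L x + c) :=
      (MeasurableEquiv.addRight c).measurableEmbedding.comp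
        L.toHomeomorph.toMeasurableEquiv.measurableEmbedding
    have h4 : g = fun x : Ev n => L x + c := funext hL
    rw [h4]
    exact h3
  rw [← hmp.setIntegral_image_emb hemb f (unitCell n)]
  exact fd_integral (fd_image hg) hf

/-- translation invariance -/
theorem cell_integral_add {n : ℕ} {f : Ev n → ℝ} (hf : IsPer f) (c : Ev n) :
    ∫ x in unitCell n, f (x + c) = ∫ x in unitCell n, f x :=
  cell_integral_iso (isCubic_add c) hf

end Crest.Agent.R214
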