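import Crest.Agent.R214.Iso

/-!
# Row 214: divergence theorem on the cell, complement, null sets, isometries
-/

set_option autoImplicit false

open MeasureTheory Crest.GeometryTopology.PeriodicPerimeter Filter
open scoped ENNReal Topology

namespace Crest.Agent.R214

/-- the cell is bounded -/
theorem exists_cell_bound (n : ℕ) : ∃ R : ℝ, 0 ≤ R ∧ unitCell n ⊆ Metric.closedBall (0 : Ev n) R := by
  have hK : IsCompact ((WithLp.toLp 2 : (Fin n → ℝ) → Ev n) '' Set.Icc 0 1) :=
    isCompact_Icc.image (PiLp.continuous_toLp 2 _)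
  obtain ⟨R, hR⟩ := hK.isBounded.subset_closedBall (0 : Ev n)
  refine ⟨max R 0, le_max_right _ _, fun x hx => ?_⟩
  apply Metric.closedBall_subset_closedBall (le_max_left R 0)
  apply hR
  refine ⟨fun i => x i, ⟨fun i => (hx i).1, fun i => (hx i).2.le⟩, ?_⟩
  ext i
  rfl

theorem cell_finite (n : ℕ) : (volume : Measure (Ev n)) (unitCell n) < ∞ := by
  obtain ⟨R, -, hR⟩ := exists_cell_bound n
  exact (measure_mono hR).trans_lt measure_closedBall_lt_top

instance (n : ℕ) : IsFiniteMeasure ((volume : Measure (Ev n)).restrict (unitCell n)) :=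
  ⟨by rw [Measure.restrict_apply_univ]; exact cell_finite n⟩

/-- continuous functions are integrable on the cell -/
theorem integrable_cell {n : ℕ} {β : Type*} [NormedAddCommGroup β] {f : Ev n → β}
    [SecondCountableTopologyEither (Ev n) β]
    (hf : Continuous f) : IntegrableOn f (unitCell n) := by
  obtain ⟨R, -, hR⟩ := exists_cell_bound n
  exact (hf.continuousOn.integrableOn_compact (isCompact_closedBall (0 : Ev n) R)).mono_set hR

/-- the integral of a lattice derivative of a periodic `C¹` function vanishes -/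
theorem cell_integral_fderiv {n : ℕ} {f : Ev n → ℝ} (hf : ContDiff ℝ 1 f) (hp : IsPer f)
    (w : Ev n) : ∫ x in unitCell n, fderiv ℝ f x w = 0 := by
  obtain ⟨R, hR0, hR⟩ := exists_cell_bound n
  have hc : Continuous fun x => fderiv ℝ f x := hf.continuous_fderiv one_ne_zero
  have hd : Differentiable ℝ f := hf.differentiable one_ne_zero
  obtain ⟨M, hM⟩ := (isCompact_closedBall (0 : Ev n) (R + ‖w‖)).exists_bound_of_continuousOn
    hc.continuousOn
  have hlim : Tendsto (fun k : ℕ => ∫ x in unitCell n,
      ((k : ℝ) + 1) • (f (x + ((k : ℝ) + 1)⁻¹ • w) - f x)) atTop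
      (𝓝 (∫ x in unitCell n, fderiv ℝ f x w)) := by
    apply tendsto_integral_of_dominated_convergence (fun _ => M * ‖w‖)
    · intro k
      apply Continuous.aestronglyMeasurable
      have := hf.continuous
      fun_prop
    · exact integrable_const _
    · intro k
      filter_upwards [ae_restrict_mem (measurableSet_cell n)] with x hx
      have hk : (0 : ℝ) < (k : ℝ) + 1 := by positivity
      have hx1 : x ∈ Metric.closedBall (0 : Ev n) (R + ‖w‖) := by
        have := hR hx
        rw [mem_closedBall_zero_iff] at this ⊢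
        linarith [norm_nonneg w]
      have hx2 : x + ((k : ℝ) + 1)⁻¹ • w ∈ Metric.closedBall (0 : Ev n) (R + ‖w‖) := by
        have h1 := hR hx
        rw [mem_closedBall_zero_iff] at h1 ⊢
        refine (norm_add_le _ _).trans (add_le_add h1 ?_)
        rw [norm_smul, Real.norm_of_nonneg (inv_nonneg.2 hk.le)]
        have h2 : ((k : ℝ) + 1)⁻¹ ≤ 1 := by
          apply inv_le_one_of_one_le₀
          have : (0 : ℝ) ≤ k := Nat.cast_nonneg k
          linarith
        exact mul_le_of_le_one_left (norm_nonneg w) h2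
      have h3 := (convex_closedBall (0 : Ev n) (R + ‖w‖)).norm_image_sub_le_of_norm_fderiv_le
        (f := f) (C := M) (fun y _ => hd y) (fun y hy => hM y hy) hx1 hx2
      rw [norm_smul, Real.norm_of_nonneg hk.le]
      have h4 : x + ((k : ℝ) + 1)⁻¹ • w - x = ((k : ℝ) + 1)⁻¹ • w := by abel
      rw [h4, norm_smul, Real.norm_of_nonneg (inv_nonneg.2 hk.le)] at h3
      calc ((k : ℝ) + 1) * ‖f (x + ((k : ℝ) + 1)⁻¹ • w) - f x‖
          ≤ ((k : ℝ) + 1) * (M * (((k : ℝ) + 1)⁻¹ * ‖w‖)) := by gcongr
        _ = M * ‖w‖ := by field_simp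
    · refine Eventually.of_forall fun x => ?_
      refine (hd x).hasFDerivAt.lim w (c := fun k : ℕ => (k : ℝ) + 1) ?_
      have h1 : Tendsto (fun k : ℕ => (k : ℝ) + 1) atTop atTop :=
        tendsto_atTop_add_const_right _ _ tendsto_natCast_atTop_atTop
      refine h1.congr fun k => ?_
      rw [Real.norm_of_nonneg (by positivity)]
  have hzero : ∀ k : ℕ, ∫ x in unitCell n,
      ((k : ℝ) + 1) • (f (x + ((k : ℝ) + 1)⁻¹ • w) - f x) = 0 := by
    intro k
    rw [integral_smul, integral_sub, cell_integral_add hp, sub_self, smul_zero]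
    · exact integrable_cell (by have := hf.continuous; fun_prop)
    · exact integrable_cell hf.continuous
  simp_rw [hzero] at hlim
  exact tendsto_nhds_unique hlim tendsto_const_nhds

/-- components of the derivative -/
theorem fderiv_coord {n m : ℕ} {φ : Ev n → Ev m} {x : Ev n} (h : DifferentiableAt ℝ φ x)
    (i : Fin m) (w : Ev n) : fderiv ℝ (fun x => φ x i) x w = fderiv ℝ φ x w i := by
  have h1 : HasFDerivAt (fun x => φ x i)
      ((EuclideanSpace.proj i : Ev m →L[ℝ] ℝ).comp (fderiv ℝ φ x)) x :=
    (EuclideanSpace.proj i : Ev m →L[ℝ] ℝ).hasFDerivAt.comp x h.hasFDerivAt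
  rw [h1.fderiv]
  rfl

theorem continuous_divergence {n : ℕ} {φ : Ev n → Ev n} (h : ContDiff ℝ 1 φ) :
    Continuous (divergence φ) := by
  unfold divergence
  have hc : Continuous fun x => fderiv ℝ φ x := h.continuous_fderiv one_ne_zero
  refine continuous_finsetSum _ fun i _ => ?_
  have h1 : Continuous fun x => fderiv ℝ φ x (EuclideanSpace.single i 1) := by fun_prop
  have h2 : Continuous fun y : Ev n => y i := by fun_prop
  exact h2.comp h1

/-- **divergence theorem on the torus** -/
theorem cell_integral_divergence {n : ℕ} {φ : Ev n → Ev n} (h : ContDiff ℝ 1 φ)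
    (hp : IsPer φ) : ∫ x in unitCell n, divergence φ x = 0 := by
  unfold divergence
  have hd : Differentiable ℝ φ := h.differentiable one_ne_zero
  have hc : Continuous fun x => fderiv ℝ φ x := h.continuous_fderiv one_ne_zero
  rw [integral_finsetSum]
  · apply Finset.sum_eq_zero
    intro i _
    have h1 : ∀ x, fderiv ℝ φ x (EuclideanSpace.single i 1) i =
        fderiv ℝ (fun x => φ x i) x (EuclideanSpace.single i 1) := fun x =>
      (fderiv_coord (hd x) i _).symm
    simp_rw [h1]
    apply cell_integral_fderiv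
    · exact (EuclideanSpace.proj i : Ev n →L[ℝ] ℝ).contDiff.comp h
    · intro v hv x
      show φ (x + v) i = φ x i
      rw [hp v hv x]
  · intro i _
    apply integrable_cell
    have h1 : Continuous fun x => fderiv ℝ φ x (EuclideanSpace.single i 1) := by fun_prop
    have h2 : Continuous fun y : Ev n => y i := by fun_prop
    exact h2.comp h1

theorem divergence_neg {n : ℕ} (φ : Ev n → Ev n) (x : Ev n) :
    divergence (fun x => -φ x) x = -divergence φ x := by
  unfold divergence
  rw [fderiv_fun_neg, ← Finset.sum_neg_distrib]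
  rfl

theorem IsAdmissibleField.neg' {n : ℕ} {φ : Ev n → Ev n} (h : IsAdmissibleField φ) :
    IsAdmissibleField fun x => -φ x :=
  ⟨h.1.neg, fun v hv x => by
      show -φ (x + v) = -φ x
      rw [h.2.1 v hv x], fun x => by rw [norm_neg]; exact h.2.2 x⟩

theorem compl_integral {n : ℕ} {E : Set (Ev n)} (hE : MeasurableSet E) {φ : Ev n → Ev n}
    (h : IsAdmissibleField φ) : ∫ x in Eᶜ ∩ unitCell n, divergence φ x =
      ∫ x in E ∩ unitCell n, divergence (fun x => -φ x) x := by
  have h1 := cell_integral_divergence h.1 h.2.1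
  have hint := integrable_cell (continuous_divergence h.1)
  have h2 := integral_add_compl (μ := (volume : Measure (Ev n)).restrict (unitCell n)) hE hint
  rw [Measure.restrict_restrict hE, Measure.restrict_restrict hE.compl, h1] at h2
  simp_rw [divergence_neg]
  rw [integral_neg]
  linarith

/-- perimeter of the complement -/
theorem perim_compl {n : ℕ} {E : Set (Ev n)} (hE : MeasurableSet E) :
    periodicPerimeter Eᶜ = periodicPerimeter E := by
  have key : ∀ F : Set (Ev n), MeasurableSet F → periodicPerimeter Fᶜ ≤ periodicPerimeter F := by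
    intro F hF
    unfold periodicPerimeter
    refine iSup_le fun φ => ?_
    rw [compl_integral hF φ.2]
    exact le_iSup (fun φ : {φ : Ev n → Ev n // IsAdmissibleField φ} =>
      ENNReal.ofReal (∫ x in F ∩ unitCell n, divergence φ.1 x)) ⟨_, IsAdmissibleField.neg' φ.2⟩
  apply le_antisymm (key E hE)
  have := key Eᶜ hE.compl
  rwa [compl_compl] at this

/-- null modifications -/
theorem perim_congr_null {n : ℕ} {E F : Set (Ev n)} (h : volume (symmDiff E F) = 0) :
    periodicPerimeter E = periodicPerimeter F ∧ periodicVolume E = periodicVolume F := by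
  have h1 : E =ᵐ[volume] F := measure_symmDiff_eq_zero_iff.1 h
  have h2 : (E ∩ unitCell n : Set (Ev n)) =ᵐ[volume] (F ∩ unitCell n : Set (Ev n)) :=
    h1.inter (Filter.EventuallyEq.refl _ _)
  constructor
  · unfold periodicPerimeter
    congr 1
    funext φ
    rw [setIntegral_congr_set h2]
  · unfold periodicVolume
    rw [measure_congr h2]

theorem divergence_eq_trace {n : ℕ} (φ : Ev n → Ev n) (x : Ev n) :
    divergence φ x = LinearMap.trace ℝ (Ev n) (fderiv ℝ φ x : Ev n →ₗ[ℝ] Ev n) := by
  rw [LinearMap.trace_eq_sum_inner _ (EuclideanSpace.basisFun (Fin n) ℝ)]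
  unfold divergence
  refine Finset.sum_congr rfl fun i _ => ?_
  rw [EuclideanSpace.basisFun_apply, EuclideanSpace.inner_single_left]
  simp

theorem divergence_conj {n : ℕ} {φ : Ev n → Ev n} (h : ContDiff ℝ 1 φ) (L : Ev n ≃ₗᵢ[ℝ] Ev n)
    (c x : Ev n) : divergence (fun x => L.symm (φ (L x + c))) x = divergence φ (L x + c) := by
  rw [divergence_eq_trace, divergence_eq_trace]
  have hd : DifferentiableAt ℝ φ (L x + c) := h.differentiable one_ne_zero _
  have h1 : HasFDerivAt (fun x : Ev n => L x + c) (L.toContinuousLinearEquiv : Ev n →L[ℝ] Ev n) x :=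
    L.toContinuousLinearEquiv.hasFDerivAt.add_const c
  have h2 := (L.symm.toContinuousLinearEquiv.hasFDerivAt (x := φ (L x + c))).comp x
    (hd.hasFDerivAt.comp x h1)
  have h3 : HasFDerivAt (fun x => L.symm (φ (L x + c)))
      ((L.symm.toContinuousLinearEquiv : Ev n →L[ℝ] Ev n).comp
        ((fderiv ℝ φ (L x + c)).comp (L.toContinuousLinearEquiv : Ev n →L[ℝ] Ev n))) x := h2
  rw [h3.fderiv]
  have h4 := LinearMap.trace_conj' (fderiv ℝ φ (L x + c) : Ev n →ₗ[ℝ] Ev n) L.symm.toLinearEquiv
  rw [← h4]
  congr 1

theorem IsLatticePeriodic.image' {n : ℕ} {g : Ev n → Ev n} (hg : IsCubicIsometry g)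
    {F : Set (Ev n)} (hF : IsLatticePeriodic F) : IsLatticePeriodic (g '' F) := by
  obtain ⟨L, c, hL, h1, h2⟩ := exists_lin hg
  have key : ∀ v, HasIntegerCoords v → ∀ x, x ∈ g '' F → x + v ∈ g '' F := by
    rintro v hv _ ⟨y, hy, rfl⟩
    refine ⟨y + L.symm v, (hF _ (h2 v hv) y).2 hy, ?_⟩
    rw [hL, hL, map_add, L.apply_symm_apply]
    abel
  intro v hv x
  refine ⟨fun h => ?_, key v hv x⟩
  have h3 := key (-v) ((Lam n).neg_mem hv) _ h
  rwa [add_neg_cancel_right] at h3

theorem MeasurableSet.image' {n : ℕ} {g : Ev n → Ev n} (hg : IsCubicIsometry g)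
    {F : Set (Ev n)} (hF : MeasurableSet F) : MeasurableSet (g '' F) := by
  obtain ⟨L, c, hL, h1, h2⟩ := exists_lin hg
  have hemb : MeasurableEmbedding g := by
    have h3 : MeasurableEmbedding (fun x : Ev n => L x + c) :=
      (MeasurableEquiv.addRight c).measurableEmbedding.comp
        L.toHomeomorph.toMeasurableEquiv.measurableEmbedding
    have h4 : g = fun x : Ev n => L x + c := funext hL
    rw [h4]
    exact h3
  exact hemb.measurableSet_image.2 hF

theorem mem_image_iff {n : ℕ} {g : Ev n → Ev n} (hg : IsCubicIsometry g) (F : Set (Ev n))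
    (x : Ev n) : g x ∈ g '' F ↔ x ∈ F := by
  obtain ⟨g', -, h1, h2⟩ := exists_inv hg
  constructor
  · rintro ⟨y, hy, h⟩
    have h3 : g' (g y) = g' (g x) := by rw [h]
    rw [h1, h1] at h3
    rwa [← h3]
  · exact fun h => ⟨x, h, rfl⟩

theorem perim_iso_le {n : ℕ} {g : Ev n → Ev n} (hg : IsCubicIsometry g)
    {F : Set (Ev n)} (hF : MeasurableSet F) (hper : IsLatticePeriodic F) :
    periodicPerimeter (g '' F) ≤ periodicPerimeter F := by
  obtain ⟨L, c, hL, h1, h2⟩ := exists_lin hg
  unfold periodicPerimeter
  refine iSup_le fun φ => ?_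
  have hψ : IsAdmissibleField fun x => L.symm (φ.1 (L x + c)) := by
    refine ⟨?_, fun v hv x => ?_, fun x => ?_⟩
    · exact L.symm.contDiff.comp (φ.2.1.comp (L.contDiff.add contDiff_const))
    · have h3 : L (x + v) + c = (L x + c) + L v := by
        rw [map_add]
        abel
      show L.symm (φ.1 (L (x + v) + c)) = L.symm (φ.1 (L x + c))
      rw [h3, φ.2.2.1 (L v) (h1 v hv)]
    · rw [LinearIsometryEquiv.norm_map]
      exact φ.2.2.2 _
  have hmeas := MeasurableSet.image' hg hF
  have hperg := IsLatticePeriodic.image' hg hper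
  have h3 : ∫ x in g '' F ∩ unitCell n, divergence φ.1 x =
      ∫ x in F ∩ unitCell n, divergence (fun x => L.symm (φ.1 (L x + c))) x := by
    rw [Set.inter_comm, Set.inter_comm F, ← setIntegral_indicator hmeas, ← setIntegral_indicator hF]
    have hpf : IsPer (Set.indicator (g '' F) (divergence φ.1)) := by
      intro v hv x
      have h4 : divergence φ.1 (x + v) = divergence φ.1 x := by
        unfold divergence
        have h5 : fderiv ℝ φ.1 (x + v) = fderiv ℝ φ.1 x := by
          have h6 : (fun y => φ.1 (y + v)) = φ.1 := funext fun y => φ.2.2.1 v hv y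
          rw [← fderiv_comp_add_right, h6]
        rw [h5]
      by_cases hx : x ∈ g '' F
      · rw [Set.indicator_of_mem hx, Set.indicator_of_mem ((hperg v hv x).2 hx), h4]
      · rw [Set.indicator_of_notMem hx,
          Set.indicator_of_notMem fun h => hx ((hperg v hv x).1 h)]
    rw [← cell_integral_iso hg hpf]
    refine integral_congr_ae (Eventually.of_forall fun x => ?_)
    dsimp only
    by_cases hx : x ∈ F
    · rw [Set.indicator_of_mem hx, Set.indicator_of_mem ((mem_image_iff hg F x).2 hx),
        divergence_conj φ.2.1 L c x, hL]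
    · rw [Set.indicator_of_notMem hx,
        Set.indicator_of_notMem fun h => hx ((mem_image_iff hg F x).1 h)]
  rw [h3]
  exact le_iSup (fun φ : {φ : Ev n → Ev n // IsAdmissibleField φ} =>
      ENNReal.ofReal (∫ x in F ∩ unitCell n, divergence φ.1 x)) ⟨_, hψ⟩

/-- invariance of the perimeter under cubic isometries -/
theorem perim_iso {n : ℕ} {g : Ev n → Ev n} (hg : IsCubicIsometry g)
    {F : Set (Ev n)} (hF : MeasurableSet F) (hper : IsLatticePeriodic F) :
    periodicPerimeter (g '' F) = periodicPerimeter F := by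
  apply le_antisymm (perim_iso_le hg hF hper)
  obtain ⟨g', hg', h1, h2⟩ := exists_inv hg
  have h3 := perim_iso_le hg' (MeasurableSet.image' hg hF) (IsLatticePeriodic.image' hg hper)
  have h4 : g' '' (g '' F) = F := by
    rw [Set.image_image]
    simp [h1]
  rwa [h4] at h3

/-- invariance of the volume under cubic isometries -/
theorem volume_iso {n : ℕ} {g : Ev n → Ev n} (hg : IsCubicIsometry g)
    {F : Set (Ev n)} (hF : MeasurableSet F) (hper : IsLatticePeriodic F) :
    periodicVolume (g '' F) = periodicVolume F := by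
  have hmeas := MeasurableSet.image' hg hF
  have hperg := IsLatticePeriodic.image' hg hper
  have hv : ∀ A : Set (Ev n), MeasurableSet A →
      periodicVolume A = ∫ x in unitCell n, Set.indicator A (fun _ => (1 : ℝ)) x := by
    intro A hA
    rw [setIntegral_indicator hA, setIntegral_const, smul_eq_mul, mul_one, Set.inter_comm]
    rfl
  rw [hv _ hmeas, hv _ hF]
  have hpf : IsPer (Set.indicator (g '' F) fun _ => (1 : ℝ)) := by
    intro v hv x
    by_cases hx : x ∈ g '' F
    · rw [Set.indicator_of_mem hx, Set.indicator_of_mem ((hperg v hv x).2 hx)]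
    · rw [Set.indicator_of_notMem hx, Set.indicator_of_notMem fun h => hx ((hperg v hv x).1 h)]
  rw [← cell_integral_iso hg hpf]
  refine integral_congr_ae (Eventually.of_forall fun x => ?_)
  dsimp only
  by_cases hx : x ∈ F
  · rw [Set.indicator_of_mem hx, Set.indicator_of_mem ((mem_image_iff hg F x).2 hx)]
  · rw [Set.indicator_of_notMem hx,
      Set.indicator_of_notMem fun h => hx ((mem_image_iff hg F x).1 h)]

/-- congruent sets have the same perimeter and volume -/
theorem perim_congruent {n : ℕ} {E F : Set (Ev n)} (hF : MeasurableSet F)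
    (hper : IsLatticePeriodic F) (h : CongruentModNull E F) :
    periodicPerimeter E = periodicPerimeter F ∧ periodicVolume E = periodicVolume F := by
  obtain ⟨g, hg, h1⟩ := h
  obtain ⟨h2, h3⟩ := perim_congr_null h1
  exact ⟨h2.trans (perim_iso hg hF hper), h3.trans (volume_iso hg hF hper)⟩

end Crest.Agent.R214
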