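import Crest.Agent.R214.Iso2D

/-! ROW 214: the line method with two regimes and with a jump of the weight (helper10). -/

set_option autoImplicit false
open MeasureTheory Set Filter Topology intervalIntegral

namespace Crest.Agent.R214

/-- tent function -/
noncomputable def tent (β ε s : ℝ) : ℝ := max 0 (1 - |s - β| / ε)

lemma tent_cont (β ε : ℝ) : Continuous (tent β ε) := by unfold tent; fun_prop

lemma tent_nonneg (β ε s : ℝ) : 0 ≤ tent β ε s := le_max_left _ _

lemma tent_le_one {β ε s : ℝ} (hε : 0 < ε) : tent β ε s ≤ 1 := by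
  unfold tent
  have : 0 ≤ |s - β| / ε := by positivity
  exact max_le zero_le_one (by linarith)

lemma tent_self {β ε : ℝ} : tent β ε β = 1 := by unfold tent; simp

lemma tent_out {β ε s : ℝ} (hε : 0 < ε) (h : ε ≤ |s - β|) : tent β ε s = 0 := by
  unfold tent
  have : 1 ≤ |s - β| / ε := (one_le_div hε).2 h
  exact max_eq_left (by linarith)

/-- LINE METHOD with a jump of the weight at `β` -/
theorem SD.lm_jump {P : ℝ} {a J : ℝ → ℝ} (S : SD P a J) {a1 a2 β : ℝ} (h12 : a1 ≤ a2)
    (hae : ∀ᵐ x : ℝ, a1 ≤ a x ∧ a x ≤ a2)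
    (ha1 : ∀ δ > 0, 0 < volume ({x | a x < a1 + δ} ∩ Ico 0 1))
    (ha2 : ∀ δ > 0, 0 < volume ({x | a2 - δ < a x} ∩ Ico 0 1))
    (c h : ℝ → ℝ) (hc : ContinuousOn c (Icc a1 a2 \ {β})) (hh : ContinuousOn h (Icc a1 a2 \ {β}))
    (c0 : ∀ s ∈ Icc a1 a2, 0 ≤ c s) (h0 : ∀ s ∈ Icc a1 a2, 0 ≤ h s)
    (hch : ∀ s ∈ Icc a1 a2, c s ^ 2 + h s ^ 2 ≤ 1) {g : ℝ → ℝ}
    (hgi : IntervalIntegrable g volume 0 1) (hg : ∀ᵐ x : ℝ, g x ≤ c (a x) * J x) :
    (∫ x in (0:ℝ)..1, g x) + ∫ s in a1..a2, h s ≤ P / 2 := by
  have c1 : ∀ s ∈ Icc a1 a2, c s ≤ 1 := fun s hs => by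
    nlinarith [hch s hs, sq_nonneg (h s), c0 s hs]
  have h1 : ∀ s ∈ Icc a1 a2, h s ≤ 1 := fun s hs => by
    nlinarith [hch s hs, sq_nonneg (c s), h0 s hs]
  have hhi : IntervalIntegrable h volume a1 a2 := by
    rw [intervalIntegrable_iff_integrableOn_Icc_of_le h12]
    have hm : AEStronglyMeasurable h (volume.restrict (Icc a1 a2)) := by
      have h2 := hh.aestronglyMeasurable (μ := volume)
        ((measurableSet_Icc (a := a1) (b := a2)).diff (measurableSet_singleton β))
      have e : volume.restrict (Icc a1 a2 \ {β}) = volume.restrict (Icc a1 a2) :=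
        Measure.restrict_congr_set (sdiff_null_ae_eq_self (by simp))
      rwa [e] at h2
    have hconst : Integrable (fun _ : ℝ => (1:ℝ)) (volume.restrict (Icc a1 a2)) :=
      integrableOn_const (by simp)
    refine Integrable.mono' hconst hm ?_
    filter_upwards [ae_restrict_mem measurableSet_Icc] with s hs
    rw [Real.norm_eq_abs, abs_of_nonneg (h0 s hs)]
    exact h1 s hs
  refine le_of_forall_pos_le_add fun δ hδ => ?_
  obtain ⟨ε, hε, hεδ⟩ : ∃ ε : ℝ, 0 < ε ∧ 2 * ε ≤ δ := ⟨δ / 2, by linarith, by linarith⟩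
  set ce : ℝ → ℝ := fun s => if s = β then 1 else max (c s) (tent β ε s) with hce
  set he : ℝ → ℝ := fun s => if s = β then 0 else min (h s) (Real.sqrt (1 - tent β ε s ^ 2)) with hhe
  have hT1 : ∀ s, tent β ε s ^ 2 ≤ 1 := fun s => by
    nlinarith [tent_nonneg β ε s, tent_le_one (β := β) (s := s) hε]
  have hte : Continuous fun s => Real.sqrt (1 - tent β ε s ^ 2) := by
    have := tent_cont β ε
    fun_prop
  have nh : ∀ s0 : ℝ, s0 ≠ β → {β}ᶜ ∈ 𝓝 s0 := fun s0 h => isOpen_compl_singleton.mem_nhds h
  have hcec : ContinuousOn ce (Icc a1 a2) := by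
    intro s0 hs0
    by_cases hb : s0 = β
    · have hv : ce s0 = 1 := by rw [hce]; simp [hb]
      unfold ContinuousWithinAt
      rw [hv]
      have hl : Tendsto (tent β ε) (𝓝[Icc a1 a2] s0) (𝓝 1) := by
        have := (tent_cont β ε).tendsto s0
        rw [hb, tent_self] at this
        rw [hb]
        exact this.mono_left nhdsWithin_le_nhds
      refine tendsto_of_tendsto_of_tendsto_of_le_of_le' hl tendsto_const_nhds
        (Eventually.of_forall fun s => ?_) ?_
      · show tent β ε s ≤ ce s
        rw [hce]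
        by_cases h2 : s = β
        · simp only [h2, if_true]; exact tent_le_one hε
        · simp only [h2, if_false]; exact le_max_right _ _
      · filter_upwards [self_mem_nhdsWithin] with s hs
        rw [hce]
        by_cases h2 : s = β
        · simp only [h2, if_true]; exact le_rfl
        · simp only [h2, if_false]; exact max_le (c1 s hs) (tent_le_one hε)
    · have h2 : ContinuousWithinAt (fun s => max (c s) (tent β ε s)) (Icc a1 a2 \ {β}) s0 :=
        (hc s0 ⟨hs0, hb⟩).max (tent_cont β ε).continuousWithinAt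
      have h3 : ContinuousWithinAt (fun s => max (c s) (tent β ε s)) (Icc a1 a2) s0 := by
        refine h2.mono_of_mem_nhdsWithin ?_
        rw [Set.sdiff_eq]
        exact inter_mem self_mem_nhdsWithin (nhdsWithin_le_nhds (nh s0 hb))
      refine h3.congr_of_eventuallyEq ?_ (by rw [hce]; simp only [hb, if_false])
      filter_upwards [nhdsWithin_le_nhds (nh s0 hb)] with s hs
      have h4 : s ≠ β := hs
      rw [hce]; simp only [h4, if_false]
  have hhec : ContinuousOn he (Icc a1 a2) := by
    intro s0 hs0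
    by_cases hb : s0 = β
    · have hv : he s0 = 0 := by rw [hhe]; simp [hb]
      unfold ContinuousWithinAt
      rw [hv]
      have hl : Tendsto (fun s => Real.sqrt (1 - tent β ε s ^ 2)) (𝓝[Icc a1 a2] s0) (𝓝 0) := by
        have := hte.tendsto s0
        rw [hb, tent_self] at this
        rw [hb]
        simpa using this.mono_left nhdsWithin_le_nhds
      refine tendsto_of_tendsto_of_tendsto_of_le_of_le' tendsto_const_nhds hl ?_
        (Eventually.of_forall fun s => ?_)
      · filter_upwards [self_mem_nhdsWithin] with s hs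
        rw [hhe]
        by_cases h2 : s = β
        · simp only [h2, if_true]; exact le_rfl
        · simp only [h2, if_false]; exact le_min (h0 s hs) (Real.sqrt_nonneg _)
      · show he s ≤ Real.sqrt (1 - tent β ε s ^ 2)
        rw [hhe]
        by_cases h2 : s = β
        · simp only [h2, if_true]; exact Real.sqrt_nonneg _
        · simp only [h2, if_false]; exact min_le_right _ _
    · have h2 : ContinuousWithinAt (fun s => min (h s) (Real.sqrt (1 - tent β ε s ^ 2)))
          (Icc a1 a2 \ {β}) s0 := (hh s0 ⟨hs0, hb⟩).min hte.continuousWithinAt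
      have h3 : ContinuousWithinAt (fun s => min (h s) (Real.sqrt (1 - tent β ε s ^ 2)))
          (Icc a1 a2) s0 := by
        refine h2.mono_of_mem_nhdsWithin ?_
        rw [Set.sdiff_eq]
        exact inter_mem self_mem_nhdsWithin (nhdsWithin_le_nhds (nh s0 hb))
      refine h3.congr_of_eventuallyEq ?_ (by rw [hhe]; simp only [hb, if_false])
      filter_upwards [nhdsWithin_le_nhds (nh s0 hb)] with s hs
      have h4 : s ≠ β := hs
      rw [hhe]; simp only [h4, if_false]
  have ce0 : ∀ s ∈ Icc a1 a2, 0 ≤ ce s := fun s hs => by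
    rw [hce]
    by_cases h2 : s = β
    · simp only [h2, if_true]; exact zero_le_one
    · simp only [h2, if_false]; exact (c0 s hs).trans (le_max_left _ _)
  have he0 : ∀ s ∈ Icc a1 a2, 0 ≤ he s := fun s hs => by
    rw [hhe]
    by_cases h2 : s = β
    · simp only [h2, if_true]; exact le_rfl
    · simp only [h2, if_false]; exact le_min (h0 s hs) (Real.sqrt_nonneg _)
  have hche : ∀ s ∈ Icc a1 a2, ce s ^ 2 + he s ^ 2 ≤ 1 := fun s hs => by
    by_cases h2 : s = β
    · have e1 : ce s = 1 := by rw [hce]; simp [h2]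
      have e2 : he s = 0 := by rw [hhe]; simp [h2]
      rw [e1, e2]; norm_num
    · have e1 : ce s = max (c s) (tent β ε s) := by rw [hce]; simp [h2]
      have e2 : he s = min (h s) (Real.sqrt (1 - tent β ε s ^ 2)) := by rw [hhe]; simp [h2]
      have hq := Real.sq_sqrt (show 0 ≤ 1 - tent β ε s ^ 2 by linarith [hT1 s])
      have hn := he0 s hs
      rw [e2] at hn
      rw [e1, e2]
      rcases max_cases (c s) (tent β ε s) with ⟨h3, -⟩ | ⟨h3, -⟩
      · rw [h3]
        have h4 : min (h s) (Real.sqrt (1 - tent β ε s ^ 2)) ≤ h s := min_le_left _ _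
        have := hch s hs
        nlinarith
      · rw [h3]
        have h4 : min (h s) (Real.sqrt (1 - tent β ε s ^ 2)) ≤
          Real.sqrt (1 - tent β ε s ^ 2) := min_le_right _ _
        nlinarith
  obtain ⟨f1, f2⟩ := S.lm_on h12 hae ha1 ha2 ce he hcec hhec ce0 he0 hche
  have k1 : ∫ x in (0:ℝ)..1, g x ≤ ∫ x in (0:ℝ)..1, ce (a x) * J x := by
    refine intervalIntegral.integral_mono_ae zero_le_one hgi f1 ?_
    filter_upwards [hg, hae] with x hx hx2
    refine hx.trans (mul_le_mul_of_nonneg_right ?_ (S.J0 x))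
    rw [hce]
    by_cases h2 : a x = β
    · simp only [h2, if_true]; rw [← h2]; exact c1 _ hx2
    · simp only [h2, if_false]; exact le_max_left _ _
  have k2 : ∫ s in a1..a2, h s ≤ (∫ s in a1..a2, he s) + 2 * ε := by
    have hei : IntervalIntegrable he volume a1 a2 := by
      rw [← uIcc_of_le h12] at hhec
      exact hhec.intervalIntegrable
    have hind : Integrable ((Ioo (β - ε) (β + ε)).indicator fun _ => (1:ℝ)) volume := by
      rw [integrable_indicator_iff measurableSet_Ioo]
      exact integrableOn_const (by simp)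
    have k3 : ∫ s in a1..a2, h s ≤ ∫ s in a1..a2, (he s +
        (Ioo (β - ε) (β + ε)).indicator (fun _ => (1:ℝ)) s) := by
      refine intervalIntegral.integral_mono_on h12 hhi (hei.add hind.intervalIntegrable)
        fun s hs => ?_
      have hn := he0 s hs
      by_cases h2 : s ∈ Ioo (β - ε) (β + ε)
      · rw [indicator_of_mem h2]
        linarith [h1 s hs]
      · rw [indicator_of_notMem h2, add_zero]
        have h3 : ε ≤ |s - β| := by
          by_contra hcon
          push Not at hcon
          rw [abs_lt] at hcon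
          exact h2 ⟨by linarith [hcon.1], by linarith [hcon.2]⟩
        have h4 : s ≠ β := by
          intro h5
          rw [h5, sub_self, abs_zero] at h3
          linarith
        have e2 : he s = min (h s) (Real.sqrt (1 - tent β ε s ^ 2)) := by rw [hhe]; simp [h4]
        rw [e2, tent_out hε h3]
        simp only [ne_eq, OfNat.ofNat_ne_zero, not_false_eq_true, zero_pow, sub_zero,
          Real.sqrt_one]
        exact le_min le_rfl (h1 s hs)
    rw [intervalIntegral.integral_add hei hind.intervalIntegrable] at k3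
    have k4 : ∫ s in a1..a2, (Ioo (β - ε) (β + ε)).indicator (fun _ => (1:ℝ)) s ≤ 2 * ε := by
      rw [intervalIntegral.integral_of_le h12]
      calc ∫ s in Ioc a1 a2, (Ioo (β - ε) (β + ε)).indicator (fun _ => (1:ℝ)) s
          ≤ ∫ s, (Ioo (β - ε) (β + ε)).indicator (fun _ => (1:ℝ)) s := by
            refine setIntegral_le_integral hind (Eventually.of_forall fun s => ?_)
            exact indicator_nonneg (fun _ _ => zero_le_one) s
        _ = 2 * ε := by
            rw [integral_indicator_const _ measurableSet_Ioo]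
            simp only [Measure.real, Real.volume_Ioo, smul_eq_mul, mul_one]
            rw [ENNReal.toReal_ofReal (by linarith)]
            ring
    linarith
  linarith

/-- the two-level function -/
lemma two_level_int {a : ℝ → ℝ} (hai : IntervalIntegrable a volume 0 1) {A : Set ℝ}
    (hA : MeasurableSet A) {τ : ℝ} (hτ : (volume (A ∩ Ico 0 1)).toReal = τ) (β1 β2 lam : ℝ) :
    IntervalIntegrable (fun x => β2 + lam * a x + A.indicator (fun _ => β1 - β2) x) volume 0 1 ∧
      ∫ x in (0:ℝ)..1, (β2 + lam * a x + A.indicator (fun _ => β1 - β2) x) =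
        τ * β1 + (1 - τ) * β2 + lam * ∫ x in (0:ℝ)..1, a x := by
  have hind : IntervalIntegrable (A.indicator fun _ => β1 - β2) volume 0 1 := by
    rw [intervalIntegrable_iff_integrableOn_Ioc_of_le zero_le_one]
    exact (integrableOn_const (by simp)).indicator hA
  have h1 : IntervalIntegrable (fun x => β2 + lam * a x) volume 0 1 :=
    intervalIntegrable_const.add (hai.const_mul lam)
  refine ⟨h1.add hind, ?_⟩
  rw [intervalIntegral.integral_add h1 hind,
    intervalIntegral.integral_add intervalIntegrable_const (hai.const_mul lam),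
    intervalIntegral.integral_const_mul, intervalIntegral.integral_const]
  have h2 : ∫ x in (0:ℝ)..1, A.indicator (fun _ => β1 - β2) x = τ * (β1 - β2) := by
    rw [intervalIntegral.integral_of_le zero_le_one, ← integral_Ico_eq_integral_Ioc,
      integral_indicator_const _ hA, Measure.real, Measure.restrict_apply hA, hτ, smul_eq_mul]
  rw [h2]
  simp only [sub_zero, smul_eq_mul, one_mul]
  ring

/-- LINE METHOD, two regimes: the slices in `A` (of measure `τ`) and the others.  The weight
may jump at `β`. -/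
theorem SD.lm_two {P : ℝ} {a J : ℝ → ℝ} (S : SD P a J) {a1 a2 β : ℝ} (h12 : a1 ≤ a2)
    (hae : ∀ᵐ x : ℝ, a1 ≤ a x ∧ a x ≤ a2)
    (ha1 : ∀ δ > 0, 0 < volume ({x | a x < a1 + δ} ∩ Ico 0 1))
    (ha2 : ∀ δ > 0, 0 < volume ({x | a2 - δ < a x} ∩ Ico 0 1))
    (c h : ℝ → ℝ) (hc : ContinuousOn c (Icc a1 a2 \ {β})) (hh : ContinuousOn h (Icc a1 a2 \ {β}))
    (c0 : ∀ s ∈ Icc a1 a2, 0 ≤ c s) (h0 : ∀ s ∈ Icc a1 a2, 0 ≤ h s)
    (hch : ∀ s ∈ Icc a1 a2, c s ^ 2 + h s ^ 2 ≤ 1)
    {A : Set ℝ} (hA : MeasurableSet A) {τ β1 β2 lam : ℝ}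
    (hτ : (volume (A ∩ Ico 0 1)).toReal = τ)
    (h1 : ∀ᵐ x : ℝ, x ∈ A → β1 + lam * a x ≤ c (a x) * J x)
    (h2 : ∀ᵐ x : ℝ, x ∉ A → β2 + lam * a x ≤ c (a x) * J x) :
    τ * β1 + (1 - τ) * β2 + lam * (∫ x in (0:ℝ)..1, a x) + ∫ s in a1..a2, h s ≤ P / 2 := by
  obtain ⟨k1, k2⟩ := two_level_int (S.intervalIntegrable_a 0 1) hA hτ β1 β2 lam
  rw [← k2]
  refine S.lm_jump (β := β) h12 hae ha1 ha2 c h hc hh c0 h0 hch k1 ?_
  filter_upwards [h1, h2] with x e1 e2
  by_cases hx : x ∈ A
  · rw [indicator_of_mem hx]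
    have := e1 hx
    linarith
  · rw [indicator_of_notMem hx]
    have := e2 hx
    linarith

end Crest.Agent.R214
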