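import Crest.Agent.R214.M5b
import Crest.Agent.R214.Slr
import Crest.Agent.R214.En

/-! ROW 214: (2c) sets wrapping in both directions (helper10). -/

set_option autoImplicit false
open MeasureTheory Set Filter Topology Crest.GeometryTopology.PeriodicPerimeter
open scoped ENNReal

namespace Crest.Agent.R214

lemma SQ.subseq {P : ℝ} {a J : ℝ → ℝ} {an Tn : ℕ → ℝ → ℝ} (Q : SQ P a J an Tn) {φ : ℕ → ℕ}
    (hφ : StrictMono φ) : SQ P a J (fun n => an (φ n)) (fun n => Tn (φ n)) where
  c1 n := Q.c1 _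
  per n := Q.per _
  a01 n x := Q.a01 _ x
  contT n := Q.contT _
  perT n := Q.perT _
  T0 n x := Q.T0 _ x
  bound n := Q.bound _
  conv := by
    filter_upwards [Q.conv] with x hx
    exact hx.comp hφ.tendsto_atTop
  lower := by
    filter_upwards [Q.lower] with x hx s hs
    exact hφ.tendsto_atTop.eventually (hx s hs)

/-- `liminf ∫ T_n ≥ 2 ∫ J`, in the form: no bound below `2 ∫ J` holds frequently -/
lemma SQ.int_T {P : ℝ} {a J : ℝ → ℝ} {an Tn : ℕ → ℝ → ℝ} (Q : SQ P a J an Tn)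
    (hJm : Measurable J) (hJ0 : ∀ x, 0 ≤ J x) {b : ℝ}
    (hb : ∃ᶠ n in atTop, ∫ x in (0:ℝ)..1, Tn n x ≤ b) : 2 * ∫ x in (0:ℝ)..1, J x ≤ b := by
  obtain ⟨φ, hφ, hφb⟩ := extraction_of_frequently_atTop hb
  have := ((Q.subseq hφ).fatou hJm hJ0 (fun _ _ => 1) (fun _ => 1) (fun _ => measurable_const)
    measurable_const (fun _ _ => zero_le_one) (fun _ _ => le_rfl)
    (Eventually.of_forall fun _ => tendsto_const_nhds) (fun _ => b) b tendsto_const_nhds
    zero_le_one (Eventually.of_forall fun n => by simpa using hφb n)).2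
  simpa using this

lemma norm_ev1 (v : Ev 1) : ‖v‖ = |v 0| := by
  rw [EuclideanSpace.norm_eq]
  simp [Real.sqrt_sq_eq_abs]

lemma norm_ev2_ge (v : Ev 2) {c h : ℝ} (hch : c ^ 2 + h ^ 2 ≤ 1) :
    c * |v 1| + h * |v 0| ≤ ‖v‖ := by
  rw [EuclideanSpace.norm_eq]
  apply Real.le_sqrt_of_sq_le
  simp only [Fin.sum_univ_two, Real.norm_eq_abs]
  nlinarith [sq_nonneg (c * |v 0| - h * |v 1|), mul_nonneg (sub_nonneg.2 hch)
    (add_nonneg (sq_nonneg |v 0|) (sq_nonneg |v 1|))]

lemma int_Tm_eq {u : Ev 2 → ℝ} (hu : ContDiff ℝ 2 u) (hp : IsPer u) (d : Fin 2) :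
    ∫ t in (0:ℝ)..1, Tm d u t = ∫ x in unitCell 2, |gr u x (d.succAbove 0)| := by
  have hc : Continuous fun x => |gr u x (d.succAbove 0)| := by
    have := gr_continuous (hu.of_le (by norm_num))
    have h2 : Continuous fun x => (gr u x) (d.succAbove 0) :=
      (EuclideanSpace.proj (𝕜 := ℝ) (d.succAbove (0 : Fin 1))).continuous.comp this
    exact h2.abs
  have hpp : IsPer fun x => |gr u x (d.succAbove 0)| := by
    intro v hv x
    show |gr u (x + v) (d.succAbove 0)| = |gr u x (d.succAbove 0)|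
    rw [gr_isPer hp v hv x]
  rw [cell_fubini d (integrable_cell hc)]
  refine intervalIntegral.integral_congr fun t _ => ?_
  unfold Tm
  refine integral_congr_ae (Eventually.of_forall fun y => ?_)
  show ‖gr (fun z => u (ins d t z)) y‖ = |gr u (ins d t y) (d.succAbove 0)|
  rw [norm_ev1, gr_ins d (hu.differentiable (by norm_num))]

/-- two directions at once -/
theorem two_dir {K : Set (Ev 2)} {u : ℕ → Ev 2 → ℝ} (M : Moll K u)
    (hP : periodicPerimeter K ≠ ∞) {P' : ℝ}
    (Q : ∀ d : Fin 2, SQ P' (sl d K) (fun t => I1 (sl d K t)) (fun k => am d (u k))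
      (fun k => Tm d (u k)))
    (hm : ∀ d : Fin 2, Measurable fun t => I1 (sl d K t)) {c h : ℝ} (hc0 : 0 ≤ c) (hh0 : 0 ≤ h)
    (hch : c ^ 2 + h ^ 2 ≤ 1) :
    c * (∫ t in (0:ℝ)..1, I1 (sl 0 K t)) + h * (∫ t in (0:ℝ)..1, I1 (sl 1 K t)) ≤
      (periodicPerimeter K).toReal / 2 := by
  set P := (periodicPerimeter K).toReal with hPdef
  set α := ∫ t in (0:ℝ)..1, I1 (sl 0 K t) with hα
  set β := ∫ t in (0:ℝ)..1, I1 (sl 1 K t) with hβ
  by_contra hcon
  push Not at hcon
  have hsum : ∀ k, c * (∫ t in (0:ℝ)..1, Tm 0 (u k) t) + h * ∫ t in (0:ℝ)..1, Tm 1 (u k) t ≤ P := by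
    intro k
    have hu : ContDiff ℝ 2 (u k) := M.smooth k 2
    rw [int_Tm_eq hu (M.per k) 0, int_Tm_eq hu (M.per k) 1]
    have hg : Continuous (gr (u k)) := gr_continuous (hu.of_le (by norm_num))
    have hcc : ∀ i : Fin 2, Continuous fun x => |gr (u k) x i| := fun i =>
      ((EuclideanSpace.proj (𝕜 := ℝ) i).continuous.comp hg).abs
    have e0 : ((0 : Fin 2).succAbove (0 : Fin 1)) = 1 := rfl
    have e1 : ((1 : Fin 2).succAbove (0 : Fin 1)) = 0 := rfl
    rw [e0, e1, ← integral_const_mul, ← integral_const_mul,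
      ← integral_add ((integrable_cell (hcc 1)).const_mul _) ((integrable_cell (hcc 0)).const_mul _)]
    refine le_trans ?_ (M.energy hP k)
    refine integral_mono (((integrable_cell (hcc 1)).const_mul _).add
        ((integrable_cell (hcc 0)).const_mul _)) (integrable_cell hg.norm) fun x => ?_
    exact norm_ev2_ge (gr (u k) x) hch
  -- one of the two is frequently small
  set δ := (2 * c * α + 2 * h * β - P) / 2 with hδ
  have hδ0 : 0 < δ := by rw [hδ]; linarith
  have hcase : (∃ᶠ k in atTop, c * ∫ t in (0:ℝ)..1, Tm 0 (u k) t ≤ 2 * c * α - δ) ∨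
      (∃ᶠ k in atTop, h * ∫ t in (0:ℝ)..1, Tm 1 (u k) t ≤ 2 * h * β - δ) := by
    by_contra hc
    push Not at hc
    obtain ⟨h0, h1⟩ := hc
    obtain ⟨k, hk0, hk1⟩ := (h0.and h1).exists
    have := hsum k
    linarith
  rcases hcase with hd | hd
  · have hcpos : 0 < c := by
      rcases eq_or_lt_of_le hc0 with hz | hz
      · exfalso
        obtain ⟨k, hk⟩ := hd.exists
        rw [← hz] at hk
        simp at hk
        linarith
      · exact hz
    have h6 := (Q 0).int_T (hm 0) (fun _ => I1_nonneg _) (b := (2 * c * α - δ) / c)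
      (hd.mono fun k hk => by rw [le_div_iff₀ hcpos]; linarith)
    rw [le_div_iff₀ hcpos] at h6
    linarith
  · have hhpos : 0 < h := by
      rcases eq_or_lt_of_le hh0 with hz | hz
      · exfalso
        obtain ⟨k, hk⟩ := hd.exists
        rw [← hz] at hk
        simp at hk
        linarith
      · exact hz
    have h6 := (Q 1).int_T (hm 1) (fun _ => I1_nonneg _) (b := (2 * h * β - δ) / h)
      (hd.mono fun k hk => by rw [le_div_iff₀ hhpos]; linarith)
    rw [le_div_iff₀ hhpos] at h6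
    linarith

lemma int_I1_eq_one {l : ℝ → ℝ} (h : ∀ᵐ t : ℝ, 0 < l t ∧ l t < 1) :
    ∫ t in (0:ℝ)..1, I1 (l t) = 1 := by
  rw [intervalIntegral.integral_congr_ae (g := fun _ => (1:ℝ)) (h.mono fun x hx _ => by
    unfold I1; rw [if_pos hx])]
  simp

/-- both families of slices are non-trivial: `P ≥ 2√2` -/
theorem sqrt2_le {K : Set (Ev 2)} {u : ℕ → Ev 2 → ℝ} (M : Moll K u)
    (hP : periodicPerimeter K ≠ ∞) {P' : ℝ}
    (Q : ∀ d : Fin 2, SQ P' (sl d K) (fun t => I1 (sl d K t)) (fun k => am d (u k))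
      (fun k => Tm d (u k)))
    (hm : ∀ d : Fin 2, Measurable fun t => I1 (sl d K t))
    (h : ∀ d : Fin 2, ∀ᵐ t : ℝ, 0 < sl d K t ∧ sl d K t < 1) :
    Real.sqrt 2 ≤ (periodicPerimeter K).toReal / 2 := by
  have h22 : Real.sqrt 2 * Real.sqrt 2 = 2 := Real.mul_self_sqrt (by norm_num)
  have h2p : 0 < Real.sqrt 2 := by positivity
  have := two_dir M hP Q hm (c := Real.sqrt 2 / 2) (h := Real.sqrt 2 / 2) (by positivity)
    (by positivity) (by nlinarith)
  rw [int_I1_eq_one (h 0), int_I1_eq_one (h 1)] at this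
  linarith

/-- (2c) sets which wrap in both directions -/
theorem wrap2_aux {K : Set (Ev 2)} (hK : MeasurableSet K) (hper : IsLatticePeriodic K)
    {u : ℕ → Ev 2 → ℝ} (M : Moll K u)
    (Q : periodicPerimeter K ≠ ∞ → ∀ d : Fin 2, SQ (periodicPerimeter K).toReal (sl d K)
      (fun t => I1 (sl d K t)) (fun k => am d (u k)) (fun k => Tm d (u k)))
    (h : ∀ d : Fin 2, ∀ᵐ t : ℝ, 0 < sl d K t) :
    ENNReal.ofReal (2 * min (Real.sqrt 2) (Real.sqrt (Real.pi * (1 - periodicVolume K)))) ≤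
      periodicPerimeter K := by
  by_cases hP : periodicPerimeter K = ∞
  · rw [hP]; exact le_top
  refine ENNReal.ofReal_le_of_le_toReal ?_
  have hpos : ∀ d : Fin 2, ¬ 0 < volume ({x | sl d K x = 0} ∩ Ico 0 1) := by
    intro d hc
    refine hc.ne' (measure_mono_null inter_subset_left ?_)
    have := ae_iff.1 (h d)
    refine measure_mono_null (fun x (hx : sl d K x = 0) => ?_) this
    show ¬ 0 < sl d K x
    rw [hx]; exact lt_irrefl 0
  have hd : ∀ d : Fin 2, (∀ᵐ t : ℝ, 0 < sl d K t ∧ sl d K t < 1) ∨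
      Real.sqrt (Real.pi * (1 - periodicVolume K)) ≤ (periodicPerimeter K).toReal / 2 := by
    intro d
    rcases (sd2 hK hper hP d).cases2 with ⟨-, h1 | h1⟩ | ⟨h1, -⟩ | ⟨-, -, h1⟩
    · exact Or.inl h1
    · exact absurd h1.1 (hpos d)
    · exact absurd h1 (hpos d)
    · rw [integral_sl (d := d) hK] at h1
      exact Or.inr h1
  rcases hd 0 with h0 | h0
  · rcases hd 1 with h1 | h1
    · have := sqrt2_le M hP (Q hP) (fun d => I1_meas.comp (sl_measurable (d := d) hK)) (fun d => by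
        fin_cases d
        · exact h0
        · exact h1)
      have h3 := min_le_left (Real.sqrt 2) (Real.sqrt (Real.pi * (1 - periodicVolume K)))
      linarith
    · have h3 := min_le_right (Real.sqrt 2) (Real.sqrt (Real.pi * (1 - periodicVolume K)))
      linarith
  · have h3 := min_le_right (Real.sqrt 2) (Real.sqrt (Real.pi * (1 - periodicVolume K)))
    linarith

end Crest.Agent.R214
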