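import Crest.Agent.R214.M5c
import Crest.Agent.R214.Arc
import Crest.Agent.R214.Rig3

/-! ROW 214: equality cases in dimension two (helper10). -/

set_option autoImplicit false
open MeasureTheory Set Filter Topology Crest.GeometryTopology.PeriodicPerimeter
open scoped ENNReal

namespace Crest.Agent.R214

/-- if `s A + sqrt (1 - s^2) B ≤ B` for all small `s` then `A ≤ 0` -/
lemma zero_of_family {A B : ℝ} (hB : 0 ≤ B)
    (h : ∀ s : ℝ, 0 < s → s < 1 → s * A + Real.sqrt (1 - s ^ 2) * B ≤ B) : A ≤ 0 := by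
  by_contra hcon
  push Not at hcon
  -- choose s small
  set s : ℝ := min (1 / 2) (A / (2 * (B + 1))) with hs
  have hs0 : 0 < s := by rw [hs]; positivity
  have hs1 : s < 1 := lt_of_le_of_lt (min_le_left _ _) (by norm_num)
  have hs2 : s ≤ A / (2 * (B + 1)) := min_le_right _ _
  have h1 := h s hs0 hs1
  have h2 : 1 - s ^ 2 ≤ Real.sqrt (1 - s ^ 2) := by
    apply Real.le_sqrt_of_sq_le
    have : 0 ≤ 1 - s ^ 2 := by nlinarith
    nlinarith [sq_nonneg s]
  have h3 : (1 - s ^ 2) * B ≤ Real.sqrt (1 - s ^ 2) * B := mul_le_mul_of_nonneg_right h2 hB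
  have h4 : s * A ≤ s ^ 2 * B := by nlinarith
  have h5 : A ≤ s * B := by
    have : s * A ≤ s * (s * B) := by nlinarith
    exact le_of_mul_le_mul_left this hs0
  have h6 : s * (2 * (B + 1)) ≤ A := by
    rwa [le_div_iff₀ (by positivity)] at hs2
  nlinarith

/-- `∫ I1 (l) ≤ 0` implies `l ∈ {0,1}` a.e. -/
lemma zero_one_of_int {P : ℝ} {l J : ℝ → ℝ} (S : SD P l J)
    (h : ∫ t in (0:ℝ)..1, I1 (l t) ≤ 0) : ∀ᵐ t : ℝ, l t = 0 ∨ l t = 1 := by
  have hm : Measurable fun t => I1 (l t) := I1_meas.comp S.meas_a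
  have hz : ∫ t in (0:ℝ)..1, I1 (l t) = 0 :=
    le_antisymm h (intervalIntegral.integral_nonneg zero_le_one fun t _ => I1_nonneg _)
  refine ae_of_cell_null (fun t => l t = 0 ∨ l t = 1) (fun t => by rw [S.per_a t]) ?_
  rw [intervalIntegral.integral_of_le zero_le_one, integral_Ioc_eq_integral_Ioo,
    ← integral_Ico_eq_integral_Ioo] at hz
  have hi : IntegrableOn (fun t => I1 (l t)) (Ico 0 1) := by
    refine Measure.integrableOn_of_bounded (M := 1) (by simp) hm.aestronglyMeasurable ?_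
    refine Eventually.of_forall fun t => ?_
    rw [Real.norm_eq_abs, abs_of_nonneg (I1_nonneg _)]
    unfold I1; split_ifs <;> norm_num
  have h2 := (setIntegral_eq_zero_iff_of_nonneg_ae
    (Eventually.of_forall fun t => I1_nonneg _) hi).1 hz
  have h3 := (ae_restrict_iff' (measurableSet_Ico (a := (0:ℝ)) (b := 1))).1 h2
  rw [ae_iff] at h3
  refine measure_mono_null ?_ h3
  rintro t ⟨ht, ht'⟩ h
  apply ht
  have h4 : I1 (l t) = 0 := h ht'
  unfold I1 at h4
  by_contra hc
  push Not at hc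
  rw [if_pos ⟨lt_of_le_of_ne (S.a01 t).1 (Ne.symm hc.1), lt_of_le_of_ne (S.a01 t).2 hc.2⟩] at h4
  exact one_ne_zero h4

/-- "both" case with equality: the slices are trivial -/
lemma SD.both_eq {P : ℝ} {l : ℝ → ℝ} (S : SD P l (fun x => I1 (l x)))
    (h0 : 0 < volume ({x | l x = 0} ∩ Ico 0 1)) (h1 : 0 < volume ({x | l x = 1} ∩ Ico 0 1))
    (hP : P / 2 ≤ 1) : ∀ᵐ t : ℝ, l t = 0 ∨ l t = 1 := by
  refine zero_one_of_int S (zero_of_family zero_le_one fun s hs0 hs1 => ?_)
  have hs2 : 0 ≤ 1 - s ^ 2 := by nlinarith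
  have := (S.lm (fun _ => s) (fun _ => Real.sqrt (1 - s ^ 2)) continuous_const continuous_const
    (fun _ => hs0.le) (fun _ => Real.sqrt_nonneg _) (fun _ => by rw [Real.sq_sqrt hs2]; linarith)
    (a1 := 0) (a2 := 1) (fun δ hδ => ?_) (fun δ hδ => ?_)).2
  · rw [intervalIntegral.integral_const_mul, intervalIntegral.integral_const] at this
    simp only [sub_zero, smul_eq_mul, one_mul] at this
    linarith
  · refine lt_of_lt_of_le h0 (measure_mono (inter_subset_inter_left _ fun x (hx : l x = 0) => ?_))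
    show l x < 0 + δ
    rw [hx]; linarith
  · refine lt_of_lt_of_le h1 (measure_mono (inter_subset_inter_left _ fun x (hx : l x = 1) => ?_))
    show 1 - δ < l x
    rw [hx]; linarith

/-- disc case with equality: profile of the disc -/
lemma SD.disc_eq {P : ℝ} {l : ℝ → ℝ} (S : SD P l (fun x => I1 (l x))) {r : ℝ} (hr : 0 < r)
    (hr2 : r ≤ 1 / 2) (h0 : 0 < volume ({x | l x = 0} ∩ Ico 0 1)) (h1 : ∀ᵐ x : ℝ, l x < 1)
    (hV : ∫ t in (0:ℝ)..1, l t = Real.pi * r ^ 2) (hP : P / 2 ≤ Real.pi * r) :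
    ∃ t0 : ℝ, ∀ᵐ t : ℝ, l t = 2 * Real.sqrt (r ^ 2 - dZ (t - t0) ^ 2) := by
  have hpi := Real.pi_pos
  obtain ⟨a1, L, k1, k2, k3, k4, k5, k6⟩ := S.exists_range
  have hL : 0 < L := by
    rcases eq_or_lt_of_le (k1.trans k2) with hz | hpos
    · exfalso
      have e : ∫ x in (0:ℝ)..1, l x = 0 := by
        rw [intervalIntegral.integral_congr_ae (g := fun _ => (0:ℝ)) (k4.mono fun x hx _ => by
          have := (S.a01 x).1
          have := hx.2
          linarith)]
        simp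
      rw [e] at hV
      have : 0 < Real.pi * r ^ 2 := by positivity
      linarith
    · exact hpos
  have h2 := S.iso_disc_aux h0 h1 hL (k4.mono fun x hx => hx.2) k6
  rw [hV] at h2
  have hLr : L = 2 * r := by
    have h3 : Real.pi * r ^ 2 / L + Real.pi * L / 4 ≤ Real.pi * r := h2.trans hP
    have h4 : Real.pi * r ^ 2 / L * L = Real.pi * r ^ 2 := by field_simp
    have h5 : (Real.pi * r ^ 2 / L + Real.pi * L / 4) * L ≤ Real.pi * r * L :=
      mul_le_mul_of_nonneg_right h3 hL.le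
    have h6 : Real.pi * (r - L / 2) ^ 2 ≤ 0 := by nlinarith
    have h7 : (r - L / 2) ^ 2 ≤ 0 := by
      by_contra hc
      push Not at hc
      have := mul_pos hpi hc
      linarith
    have h8 : r - L / 2 = 0 := by nlinarith [sq_nonneg (r - L / 2)]
    linarith
  have hIoc : ∀ s : Set ℝ, volume (s ∩ Ico 0 1) = volume (s ∩ Ioc 0 1) := fun s =>
    measure_congr ((ae_eq_refl s).inter (Ico_ae_eq_Ioc))
  refine rig_disc S hr hr2 ?_ ?_ ?_ ?_ ?_ hV
  · filter_upwards [k4] with x hx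
    rw [← hLr]; exact hx.2
  · intro η hη
    rw [← hLr, ← hIoc]
    exact (k6 η hη).ne'
  · intro η hη
    rw [← hIoc]
    refine (lt_of_lt_of_le h0 (measure_mono (inter_subset_inter_left _
      fun x (hx : l x = 0) => ?_))).ne'
    show l x < η
    rw [hx]; exact hη
  · filter_upwards [h1] with x hx hpos
    unfold I1
    rw [if_pos ⟨hpos, hx⟩]
  · linarith

end Crest.Agent.R214
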