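import Crest.Agent.R214.M5d

/-! ROW 214: classification of the equality cases in dimension two (helper10). -/

set_option autoImplicit false
open MeasureTheory Set Filter Topology Crest.GeometryTopology.PeriodicPerimeter
open scoped ENNReal

namespace Crest.Agent.R214

/-- a periodic set which is null in the cell is null -/
lemma null_of_cell {n : ℕ} {S : Set (Ev n)} (hper : IsLatticePeriodic S)
    (h0 : volume (S ∩ unitCell n) = 0) : volume S = 0 := by
  refine (fd_cell n).measure_zero_of_invariant S (fun g => ?_) h0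
  ext x
  rw [mem_vadd_set_iff_neg_vadd_mem]
  have h1 : (-g : Lam n) +ᵥ x = x + ((-g : Lam n) : Ev n) := by
    show ((-g : Lam n) : Ev n) + x = x + ((-g : Lam n) : Ev n)
    exact add_comm _ _
  rw [h1]
  exact hper _ (-g : Lam n).2 x

lemma periodic_compl' {n : ℕ} {S : Set (Ev n)} (h : IsLatticePeriodic S) :
    IsLatticePeriodic Sᶜ := fun v hv x => not_congr (h v hv x)

/-- converse Fubini: a measurable property which holds on a.e. slice a.e. holds a.e. -/
lemma ae_of_ae_ins {n : ℕ} (d : Fin (n + 1)) {B : Set (Ev (n + 1))} (hB : MeasurableSet B)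
    (h : ∀ᵐ t : ℝ, volume (slice d B t) = 0) : volume B = 0 := by
  have h1 := (ins_mp d).measure_preimage hB.nullMeasurableSet
  rw [← h1, Measure.volume_eq_prod, Measure.measure_prod_null ((ins_measurable d) hB)]
  filter_upwards [h] with t ht
  exact ht

/-- if a.e. slice is null or full, the set is a union of slices -/
theorem strip_of_slices {n : ℕ} {E : Set (Ev (n + 1))} (hE : MeasurableSet E)
    (hper : IsLatticePeriodic E) (d : Fin (n + 1))
    (h01 : ∀ᵐ t : ℝ, sl d E t = 0 ∨ sl d E t = 1) :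
    ∀ᵐ x : Ev (n + 1), (x ∈ E ↔ sl d E (x d) = 1) := by
  have hcd : Measurable fun x : Ev (n + 1) => x d := by fun_prop
  have hF : MeasurableSet {x : Ev (n + 1) | sl d E (x d) = 1} :=
    ((sl_measurable (d := d) hE).comp hcd) (measurableSet_singleton 1)
  have hB : MeasurableSet (symmDiff E {x : Ev (n + 1) | sl d E (x d) = 1}) :=
    hE.symmDiff hF
  have h0 : volume (symmDiff E {x : Ev (n + 1) | sl d E (x d) = 1}) = 0 := by
    refine ae_of_ae_ins d hB ?_
    filter_upwards [h01] with t ht
    rcases ht with ht | ht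
    · have hsub : slice d (symmDiff E {x : Ev (n + 1) | sl d E (x d) = 1}) t ⊆ slice d E t := by
        rintro y (⟨hy, -⟩ | ⟨hy, -⟩)
        · exact hy
        · exfalso
          have : sl d E (ins d t y d) = 1 := hy
          rw [ins_same, ht] at this
          exact zero_ne_one this
      refine measure_mono_null hsub (null_of_cell (slice_periodic hper t) ?_)
      have hf : volume (slice d E t ∩ unitCell n) ≠ ∞ := ne_top_of_le_ne_top ENNReal.one_ne_top
        ((measure_mono inter_subset_right).trans (cell_volume n).le)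
      unfold sl periodicVolume at ht
      exact ((ENNReal.toReal_eq_zero_iff _).1 ht).resolve_right hf
    · have hsub : slice d (symmDiff E {x : Ev (n + 1) | sl d E (x d) = 1}) t ⊆ (slice d E t)ᶜ := by
        rintro y (⟨-, hy⟩ | ⟨-, hy⟩)
        · exfalso
          apply hy
          show sl d E (ins d t y d) = 1
          rw [ins_same, ht]
        · exact hy
      refine measure_mono_null hsub (null_of_cell (periodic_compl' (slice_periodic hper t)) ?_)
      unfold sl periodicVolume at ht
      have h2 : volume (slice d E t ∩ unitCell n) = 1 := (ENNReal.toReal_eq_one_iff _).1 ht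
      have h3 : (slice d E t)ᶜ ∩ unitCell n = unitCell n \ (slice d E t ∩ unitCell n) := by
        ext y
        simp only [mem_inter_iff, mem_compl_iff, Set.mem_sdiff, not_and]
        tauto
      rw [h3, measure_sdiff inter_subset_right
        ((slice_measurable hE t).inter (measurableSet_cell n)).nullMeasurableSet
        (by rw [h2]; simp), h2, cell_volume]
      simp
  have h4 : ∀ᵐ x : Ev (n + 1), x ∉ symmDiff E {x : Ev (n + 1) | sl d E (x d) = 1} := by
    rw [ae_iff]; simpa using h0
  filter_upwards [h4] with x hx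
  rw [mem_symmDiff] at hx
  push Not at hx
  exact ⟨fun h => hx.1 h, fun h => by
    by_contra hc
    exact hc (hx.2 h)⟩

/-- strips from `0/1` slices -/
theorem strip_of_sd {n : ℕ} {E : Set (Ev (n + 1))} (hE : MeasurableSet E)
    (hper : IsLatticePeriodic E) (d : Fin (n + 1)) {P : ℝ} {J : ℝ → ℝ} (S : SD P (sl d E) J)
    (hP : P < 4) (h01 : ∀ᵐ t : ℝ, sl d E t = 0 ∨ sl d E t = 1)
    (hv0 : 0 < periodicVolume E) (hv1 : periodicVolume E < 1) :
    ∃ t : ℝ, ∀ᵐ x : Ev (n + 1), (x ∈ E ↔ ∃ z : ℤ, (z : ℝ) + t ≤ x d ∧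
      x d < z + t + periodicVolume E) := by
  have hI := integral_sl (d := d) hE
  obtain ⟨t, ht⟩ := S.arc hP h01 (by rw [hI]; exact hv0) (by rw [hI]; exact hv1)
  rw [hI] at ht
  refine ⟨t, ?_⟩
  have h1 := strip_of_slices hE hper d h01
  -- transfer the a.e. statement to `Ev (n+1)`
  have hq : ∀ᵐ x : Ev (n + 1), (sl d E (x d) = 1 ↔ ∃ z : ℤ, (z : ℝ) + t ≤ x d ∧
      x d < z + t + periodicVolume E) := by
    have hq0 : ∀ᵐ p : ℝ × Ev n, (sl d E p.1 = 1 ↔ ∃ z : ℤ, (z : ℝ) + t ≤ p.1 ∧
        p.1 < z + t + periodicVolume E) := by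
      rw [Measure.volume_eq_prod]
      exact Measure.quasiMeasurePreserving_fst.ae ht
    have hsymm : MeasurePreserving (insE d) volume volume := by
      have := ins_mp d
      rw [← insE_coe] at this
      exact this
    have h2 := hsymm.symm.quasiMeasurePreserving.ae hq0
    filter_upwards [h2] with x hx
    have hx2 : ((insE d).symm x).1 = x d := by
      have h3 : insE d ((insE d).symm x) = x := (insE d).apply_symm_apply x
      have h4 : ins d ((insE d).symm x).1 ((insE d).symm x).2 = x := h3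
      have h5 := congrArg (fun z : Ev (n + 1) => z d) h4
      simp only at h5
      rw [ins_same] at h5
      exact h5
    rwa [hx2] at hx
  filter_upwards [h1, hq] with x h3 h4
  rw [h3, h4]

/-- CLASSIFICATION in dimension two (profile form) -/
theorem classify2_aux {K : Set (Ev 2)} (hK : MeasurableSet K) (hper : IsLatticePeriodic K)
    {u : ℕ → Ev 2 → ℝ} (M : Moll K u)
    (Q : periodicPerimeter K ≠ ∞ → ∀ d : Fin 2, SQ (periodicPerimeter K).toReal (sl d K)
      (fun t => I1 (sl d K t)) (fun k => am d (u k)) (fun k => Tm d (u k)))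
    (hv : 0 < periodicVolume K) (hv2 : periodicVolume K ≤ 1 / 2)
    (hP : periodicPerimeter K ≤ ENNReal.ofReal (2 * I2 (periodicVolume K))) :
    (periodicVolume K ≤ 1 / Real.pi ∧ ∃ c : Fin 2 → ℝ, ∀ d : Fin 2, ∀ᵐ t : ℝ, sl d K t =
        2 * Real.sqrt ((Real.sqrt (periodicVolume K / Real.pi)) ^ 2 - dZ (t - c d) ^ 2)) ∨
      (1 / Real.pi ≤ periodicVolume K ∧ ∃ (d : Fin 2) (t : ℝ), ∀ᵐ x : Ev 2,
        (x ∈ K ↔ ∃ z : ℤ, (z : ℝ) + t ≤ x d ∧ x d < z + t + periodicVolume K)) := by
  have hpi := Real.pi_pos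
  have hpi3 := Real.pi_gt_three
  have hpi4 := Real.pi_lt_four
  set v := periodicVolume K with hvdef
  have hPt : periodicPerimeter K ≠ ∞ := ne_top_of_le_ne_top ENNReal.ofReal_ne_top hP
  set P := (periodicPerimeter K).toReal with hPdef
  have hP2 : P / 2 ≤ I2 v := by
    have := ENNReal.toReal_mono ENNReal.ofReal_ne_top hP
    rw [ENNReal.toReal_ofReal (by have := I2_nonneg' (s := v); positivity)] at this
    rw [hPdef]; linarith
  have hI2a : I2 v ≤ Real.sqrt (Real.pi * v) := by
    rw [I2_eq]; exact (min_le_left _ _).trans (min_le_left _ _)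
  have hI2b : I2 v ≤ 1 := by
    rw [I2_eq]; exact (min_le_left _ _).trans (min_le_right _ _)
  have hS : ∀ d : Fin 2, SD P (sl d K) (fun t => I1 (sl d K t)) := fun d => sd2 hK hper hPt d
  have hI : ∀ d : Fin 2, ∫ t in (0:ℝ)..1, sl d K t = v := fun d => integral_sl hK
  -- the third case never happens
  have hno : ∀ d : Fin 2, ¬ Real.sqrt (Real.pi * (1 - v)) ≤ P / 2 := by
    intro d h
    have h1 : Real.sqrt (Real.pi * (1 - v)) ≤ 1 := h.trans (hP2.trans hI2b)
    have h2 : 1 < Real.sqrt (Real.pi * (1 - v)) :=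
      (Real.lt_sqrt (by norm_num)).2 (by nlinarith)
    linarith
  -- `1 ≤ P/2` gives `v ≥ 1/π`
  have hbig : 1 ≤ P / 2 → 1 / Real.pi ≤ v := by
    intro h
    have h1 : 1 ≤ Real.sqrt (Real.pi * v) := h.trans (hP2.trans hI2a)
    have h2 : 1 ≤ Real.pi * v := by
      by_contra hc
      push Not at hc
      have : Real.sqrt (Real.pi * v) < 1 :=
        (Real.sqrt_lt' (by norm_num)).2 (by linarith)
      linarith
    rw [div_le_iff₀ hpi]; linarith
  -- a direction with 0/1 slices
  have h01case : ∀ d : Fin 2, 1 / Real.pi ≤ v → (∀ᵐ t : ℝ, sl d K t = 0 ∨ sl d K t = 1) →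
      (1 / Real.pi ≤ v ∧ ∃ (d : Fin 2) (t : ℝ), ∀ᵐ x : Ev 2,
        (x ∈ K ↔ ∃ z : ℤ, (z : ℝ) + t ≤ x d ∧ x d < z + t + v)) := by
    intro d hb h01
    obtain ⟨t, ht⟩ := strip_of_sd hK hper d (hS d) (by linarith) h01 hv (by linarith)
    exact ⟨hb, d, t, ht⟩
  -- a direction with all slices non-trivial
  have hstrip : ∀ d e : Fin 2, d ≠ e → (∀ᵐ t : ℝ, 0 < sl d K t ∧ sl d K t < 1) →
      ∀ᵐ t : ℝ, sl e K t = 0 ∨ sl e K t = 1 := by
    intro d e hde h
    have hB := int_I1_eq_one h
    refine zero_one_of_int (hS e) (zero_of_family zero_le_one fun s hs0 hs1 => ?_)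
    have hs2 : 0 ≤ 1 - s ^ 2 := by nlinarith
    have hsq : Real.sqrt (1 - s ^ 2) ^ 2 = 1 - s ^ 2 := Real.sq_sqrt hs2
    have key : s * (∫ t in (0:ℝ)..1, I1 (sl e K t)) +
        Real.sqrt (1 - s ^ 2) * (∫ t in (0:ℝ)..1, I1 (sl d K t)) ≤ P / 2 := by
      have hm : ∀ d : Fin 2, Measurable fun t => I1 (sl d K t) := fun d =>
        I1_meas.comp (sl_measurable hK)
      fin_cases d <;> fin_cases e
      · exact absurd rfl hde
      · have := two_dir M hPt (Q hPt) hm (c := Real.sqrt (1 - s ^ 2)) (h := s)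
          (Real.sqrt_nonneg _) hs0.le (by rw [hsq]; linarith)
        simp only [Fin.zero_eta, Fin.mk_one]
        linarith
      · have := two_dir M hPt (Q hPt) hm (c := s) (h := Real.sqrt (1 - s ^ 2))
          hs0.le (Real.sqrt_nonneg _) (by rw [hsq]; linarith)
        simp only [Fin.zero_eta, Fin.mk_one]
        linarith
      · exact absurd rfl hde
    rw [hB] at key
    linarith
  -- positivity for the second direction
  rcases (hS 0).cases2 with ⟨h1, h2 | h2⟩ | ⟨h0, h1, h2⟩ | ⟨-, -, h2⟩
  · exact Or.inr (h01case 1 (hbig h1) (hstrip 0 1 (by decide) h2))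
  · exact Or.inr (h01case 0 (hbig h1) ((hS 0).both_eq h2.1 h2.2 (hP2.trans hI2b)))
  · -- disc case in direction `0`
    have hlt1 := sl_lt_one_of_null hK hper (d := 1) (e := 0) (by decide) h0
    have hnull : ∀ d : Fin 2, (∀ᵐ t : ℝ, sl d K t < 1) →
        (∀ᵐ t : ℝ, sl d K t = 0 ∨ sl d K t = 1) → False := by
      intro d ha hb
      have : ∀ᵐ t : ℝ, sl d K t = 0 := by
        filter_upwards [ha, hb] with t h3 h4
        rcases h4 with h | h
        · exact h
        · linarith
      have h5 := hI d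
      rw [intervalIntegral.integral_congr_ae (g := fun _ => (0:ℝ)) (this.mono fun x hx _ => hx)] at h5
      simp at h5
      linarith
    rcases (hS 1).cases2 with ⟨k1, k2 | k2⟩ | ⟨k0, k1, k2⟩ | ⟨-, -, k2⟩
    · exact (hnull 0 h1 (hstrip 1 0 (by decide) k2)).elim
    · exact (hnull 1 hlt1 ((hS 1).both_eq k2.1 k2.2 (hP2.trans hI2b))).elim
    · left
      rw [hI 0] at h2
      have hvp : v ≤ 1 / Real.pi := by
        have h3 : Real.sqrt (Real.pi * v) ≤ 1 := h2.trans (hP2.trans hI2b)
        have h4 : Real.pi * v ≤ 1 := by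
          have := (Real.sqrt_le_left (by norm_num)).1 h3
          linarith
        rw [le_div_iff₀ hpi]; linarith
      refine ⟨hvp, ?_⟩
      set r := Real.sqrt (v / Real.pi) with hr
      have hr0 : 0 < r := Real.sqrt_pos.2 (by positivity)
      have hr2 : r ^ 2 = v / Real.pi := Real.sq_sqrt (by positivity)
      have hrv : v = Real.pi * r ^ 2 := by rw [hr2]; field_simp
      have hrh : r ≤ 1 / 2 := by
        have h5 : r ^ 2 ≤ (1 / 2) ^ 2 := by
          rw [hr2, div_le_iff₀ hpi]
          have : 1 / Real.pi ≤ 1 / 3 := one_div_le_one_div_of_le (by norm_num) hpi3.le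
          nlinarith
        exact (abs_le_of_sq_le_sq' h5 (by norm_num)).2
      have hPr : P / 2 ≤ Real.pi * r := by
        have h6 : Real.sqrt (Real.pi * v) = Real.pi * r := by
          rw [hrv, show Real.pi * (Real.pi * r ^ 2) = (Real.pi * r) ^ 2 by ring,
            Real.sqrt_sq (by positivity)]
        rw [← h6]
        exact hP2.trans hI2a
      obtain ⟨c0, hc0⟩ := (hS 0).disc_eq hr0 hrh h0 h1 (by rw [hI 0, hrv]) hPr
      obtain ⟨c1, hc1⟩ := (hS 1).disc_eq hr0 hrh k0 k1 (by rw [hI 1, hrv]) hPr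
      refine ⟨![c0, c1], fun d => ?_⟩
      fin_cases d
      · simpa using hc0
      · simpa using hc1
    · rw [hI 1] at k2
      exact (hno 1 k2).elim
  · rw [hI 0] at h2
    exact (hno 0 h2).elim

end Crest.Agent.R214
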