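import Crest.Agent.R214.M5f
import Crest.Agent.R214.Eq

/-! ROW 214: the two-dimensional theorems in the form of `Eq.lean` (helper10). -/

set_option autoImplicit false
open MeasureTheory Set Filter Topology Crest.GeometryTopology.PeriodicPerimeter
open scoped ENNReal

namespace Crest.Agent.R214

theorem iso2Thm : Iso2Thm := fun _ hK hper => iso2_torus hK hper

theorem class2Thm : Class2Thm := by
  intro K hK hper hv hv2 hP
  rcases classify2 hK hper hv hv2 hP with h | ⟨h1, d, t, h2⟩
  · exact Or.inl h
  · refine Or.inr ⟨h1, d, t, ?_⟩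
    have h3 : ∀ᵐ x : Ev 2, ¬ x ∈ symmDiff K {y | y d ∈ ArcS t (periodicVolume K)} := by
      filter_upwards [h2] with x hx
      have e : x ∈ {y : Ev 2 | y d ∈ ArcS t (periodicVolume K)} ↔ x ∈ K := by
        rw [hx]
        show (∃ m : ℤ, t + m ≤ x d ∧ x d < t + m + periodicVolume K) ↔ _
        constructor
        · rintro ⟨m, a, b⟩
          exact ⟨m, by linarith, by linarith⟩
        · rintro ⟨m, a, b⟩
          exact ⟨m, by linarith, by linarith⟩
      rw [mem_symmDiff, e]
      tauto
    rw [ae_iff] at h3
    simpa using h3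

end Crest.Agent.R214
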