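import Mathlib
import Crest.Prelude.Def_PeriodicPerimeter

/-! Row 214, M8: divergence bound on a ball: `∫_{B(0,r)} div ψ ≤ n ω_n r^{n-1}` for `|ψ| ≤ 1`. -/

set_option autoImplicit false

open MeasureTheory Metric Filter Crest.GeometryTopology.PeriodicPerimeter
open scoped Topology

noncomputable section

namespace Crest.Agent.R214.Model

variable {n : ℕ}

/-- smooth radial cutoff: 1 on the ball of radius `r`, 0 outside the ball of radius `R` -/
def cut (r R : ℝ) (x : EuclideanSpace ℝ (Fin n)) : ℝ :=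
  Real.smoothTransition ((R ^ 2 - ‖x‖ ^ 2) / (R ^ 2 - r ^ 2))

lemma cut_contDiff (r R : ℝ) : ContDiff ℝ 1 (cut (n := n) r R) := by
  unfold cut
  refine (Real.smoothTransition.contDiff (n := 1)).comp ?_
  exact (contDiff_const.sub (contDiff_norm_sq ℝ)).div_const _

lemma cut_eq_one {r R : ℝ} (hr : 0 < r) (hR : r < R) {x : EuclideanSpace ℝ (Fin n)}
    (hx : ‖x‖ ≤ r) : cut r R x = 1 := by
  have h1 : 0 < R ^ 2 - r ^ 2 := by nlinarith
  apply Real.smoothTransition.one_of_one_le
  rw [le_div_iff₀ h1]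
  nlinarith [norm_nonneg x]

lemma cut_eq_zero {r R : ℝ} (hr : 0 < r) (hR : r < R) {x : EuclideanSpace ℝ (Fin n)}
    (hx : R ≤ ‖x‖) : cut r R x = 0 := by
  have h1 : 0 < R ^ 2 - r ^ 2 := by nlinarith
  apply Real.smoothTransition.zero_of_nonpos
  apply div_nonpos_of_nonpos_of_nonneg _ h1.le
  nlinarith [norm_nonneg x]

lemma cut_nonneg (r R : ℝ) (x : EuclideanSpace ℝ (Fin n)) : 0 ≤ cut r R x :=
  Real.smoothTransition.nonneg _

lemma cut_le_one (r R : ℝ) (x : EuclideanSpace ℝ (Fin n)) : cut r R x ≤ 1 :=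
  Real.smoothTransition.le_one _

lemma cut_hasCompactSupport {r R : ℝ} (hr : 0 < r) (hR : r < R) :
    HasCompactSupport (cut (n := n) r R) := by
  apply HasCompactSupport.of_support_subset_isCompact (isCompact_closedBall (0 : EuclideanSpace ℝ (Fin n)) R)
  intro x hx
  rw [mem_closedBall_zero_iff]
  by_contra h
  exact hx (cut_eq_zero hr hR (not_le.1 h).le)

lemma deriv_st_nonneg (u : ℝ) : 0 ≤ deriv Real.smoothTransition u :=
  Real.smoothTransition.monotone.deriv_nonneg

lemma differentiable_st : Differentiable ℝ Real.smoothTransition :=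
  (Real.smoothTransition.contDiff (n := 1)).differentiable (by norm_num)

lemma fderiv_cut (r R : ℝ) (x v : EuclideanSpace ℝ (Fin n)) :
    fderiv ℝ (cut (n := n) r R) x v =
      deriv Real.smoothTransition ((R ^ 2 - ‖x‖ ^ 2) / (R ^ 2 - r ^ 2)) *
        (-(2 * inner ℝ x v) / (R ^ 2 - r ^ 2)) := by
  have h1 : HasFDerivAt (fun y : EuclideanSpace ℝ (Fin n) => (R ^ 2 - ‖y‖ ^ 2) * (R ^ 2 - r ^ 2)⁻¹)
      (((R ^ 2 - r ^ 2)⁻¹ : ℝ) • ((0 : EuclideanSpace ℝ (Fin n) →L[ℝ] ℝ) -
        (2 : ℕ) • (innerSL ℝ x))) x :=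
    ((hasFDerivAt_const (R ^ 2) x).sub ((hasStrictFDerivAt_norm_sq x).hasFDerivAt)).mul_const
      ((R ^ 2 - r ^ 2)⁻¹)
  have h3 := (differentiable_st ((R ^ 2 - ‖x‖ ^ 2) * (R ^ 2 - r ^ 2)⁻¹)).hasDerivAt.comp_hasFDerivAt
    x h1
  have h4 : (cut (n := n) r R) = Real.smoothTransition ∘
      fun y : EuclideanSpace ℝ (Fin n) => (R ^ 2 - ‖y‖ ^ 2) * (R ^ 2 - r ^ 2)⁻¹ := by
    funext y
    simp [cut, div_eq_mul_inv]
  rw [h4, h3.fderiv]
  simp [div_eq_mul_inv]
  left
  ring

/-- the radial profile of `|∇ cut|` -/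
def prof (r R y : ℝ) : ℝ :=
  deriv Real.smoothTransition ((R ^ 2 - y ^ 2) / (R ^ 2 - r ^ 2)) * (2 * y / (R ^ 2 - r ^ 2))

lemma fderiv_cut_le {r R : ℝ} (hr : 0 < r) (hR : r < R) (x v : EuclideanSpace ℝ (Fin n))
    (hv : ‖v‖ ≤ 1) : -(fderiv ℝ (cut (n := n) r R) x v) ≤ prof r R ‖x‖ := by
  have h1 : 0 < R ^ 2 - r ^ 2 := by nlinarith
  rw [fderiv_cut, prof, ← mul_neg]
  apply mul_le_mul_of_nonneg_left _ (deriv_st_nonneg _)
  rw [← neg_div, neg_neg]
  apply div_le_div_of_nonneg_right _ h1.le
  have h2 : inner ℝ x v ≤ ‖x‖ * ‖v‖ := real_inner_le_norm x v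
  nlinarith [norm_nonneg x, norm_nonneg v]

lemma deriv_st_zero {u : ℝ} (hu : u ≤ 0) : deriv Real.smoothTransition u = 0 := by
  apply IsLocalMin.deriv_eq_zero
  apply Filter.Eventually.of_forall
  intro y
  rw [Real.smoothTransition.zero_of_nonpos hu]
  exact Real.smoothTransition.nonneg y

lemma continuous_deriv_st : Continuous (deriv Real.smoothTransition) :=
  (Real.smoothTransition.contDiff (n := 1)).continuous_deriv (by norm_num)

lemma prof_continuous (r R : ℝ) : Continuous (prof r R) := by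
  unfold prof
  refine (continuous_deriv_st.comp ?_).mul ?_
  · fun_prop
  · fun_prop

lemma prof_nonneg {r R y : ℝ} (hr : 0 < r) (hR : r < R) (hy : 0 ≤ y) : 0 ≤ prof r R y := by
  have h1 : 0 < R ^ 2 - r ^ 2 := by nlinarith
  exact mul_nonneg (deriv_st_nonneg _) (by positivity)

lemma prof_hasDerivAt (r R y : ℝ) :
    HasDerivAt (fun y => -Real.smoothTransition ((R ^ 2 - y ^ 2) / (R ^ 2 - r ^ 2)))
      (prof r R y) y := by
  have h1 : HasDerivAt (fun y : ℝ => (R ^ 2 - y ^ 2) / (R ^ 2 - r ^ 2))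
      ((0 - (2 : ℕ) * y ^ (2 - 1)) / (R ^ 2 - r ^ 2)) y :=
    (((hasDerivAt_const y (R ^ 2)).sub (hasDerivAt_pow 2 y)).div_const (R ^ 2 - r ^ 2))
  have h3 := ((differentiable_st ((R ^ 2 - y ^ 2) / (R ^ 2 - r ^ 2))).hasDerivAt.comp y h1).neg
  have h4 : prof r R y = -(deriv Real.smoothTransition ((R ^ 2 - y ^ 2) / (R ^ 2 - r ^ 2)) *
      ((0 - (2 : ℕ) * y ^ (2 - 1)) / (R ^ 2 - r ^ 2))) := by
    unfold prof
    push_cast
    ring
  rw [h4]
  exact h3

lemma prof_integral {r R : ℝ} (hr : 0 < r) (hR : r < R) (k : ℕ) :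
    ∫ y in Set.Ioi (0 : ℝ), y ^ k * prof r R y ≤ R ^ k := by
  have h1 : 0 < R ^ 2 - r ^ 2 := by nlinarith
  have hR0 : 0 < R := hr.trans hR
  have e1 : ∫ y in Set.Ioi (0 : ℝ), y ^ k * prof r R y =
      ∫ y in Set.Ioc (0 : ℝ) R, y ^ k * prof r R y := by
    apply setIntegral_eq_of_subset_of_forall_sdiff_eq_zero measurableSet_Ioi
      Set.Ioc_subset_Ioi_self
    intro y hy
    have hy0 : 0 < y := hy.1
    have hyR : R < y := by
      by_contra h
      exact hy.2 ⟨hy0, not_lt.1 h⟩
    rw [prof, deriv_st_zero]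
    · ring
    · apply div_nonpos_of_nonpos_of_nonneg _ h1.le
      nlinarith
  have e2 : ∫ y in Set.Ioc (0 : ℝ) R, y ^ k * prof r R y ≤
      ∫ y in Set.Ioc (0 : ℝ) R, R ^ k * prof r R y := by
    apply setIntegral_mono_on _ _ measurableSet_Ioc
    · intro y hy
      exact mul_le_mul_of_nonneg_right (pow_le_pow_left₀ hy.1.le hy.2 k)
        (prof_nonneg hr hR hy.1.le)
    · exact (((continuous_id.pow k).mul (prof_continuous r R)).integrableOn_Icc).mono_set
        Set.Ioc_subset_Icc_self
    · exact ((continuous_const.mul (prof_continuous r R)).integrableOn_Icc).mono_set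
        Set.Ioc_subset_Icc_self
  have e3 : ∫ y in Set.Ioc (0 : ℝ) R, R ^ k * prof r R y = R ^ k := by
    rw [integral_const_mul, ← intervalIntegral.integral_of_le hR0.le,
      intervalIntegral.integral_eq_sub_of_hasDerivAt (fun y _ => prof_hasDerivAt r R y)
        ((prof_continuous r R).intervalIntegrable _ _)]
    have a1 : Real.smoothTransition ((R ^ 2 - R ^ 2) / (R ^ 2 - r ^ 2)) = 0 := by
      rw [sub_self, zero_div, Real.smoothTransition.zero]
    have a2 : Real.smoothTransition ((R ^ 2 - 0 ^ 2) / (R ^ 2 - r ^ 2)) = 1 := by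
      apply Real.smoothTransition.one_of_one_le
      rw [le_div_iff₀ h1]
      nlinarith
    rw [a1, a2]
    ring
  rw [e1]
  exact e2.trans e3.le

lemma divergence_continuous {ψ : EuclideanSpace ℝ (Fin n) → EuclideanSpace ℝ (Fin n)}
    (hψ : ContDiff ℝ 1 ψ) : Continuous (divergence ψ) := by
  unfold divergence
  have h1 : Continuous (fderiv ℝ ψ) := hψ.continuous_fderiv (by norm_num)
  refine continuous_finsetSum _ fun i _ => ?_
  have h2 : Continuous fun x => fderiv ℝ ψ x (EuclideanSpace.single i 1) :=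
    h1.clm_apply continuous_const
  exact (EuclideanSpace.proj (𝕜 := ℝ) i).continuous.comp h2

lemma fderiv_coord {ψ : EuclideanSpace ℝ (Fin n) → EuclideanSpace ℝ (Fin n)}
    (hψ : ContDiff ℝ 1 ψ) (x v : EuclideanSpace ℝ (Fin n)) (i : Fin n) :
    fderiv ℝ (fun y => ψ y i) x v = fderiv ℝ ψ x v i := by
  have h1 : HasFDerivAt ψ (fderiv ℝ ψ x) x := (hψ.differentiable (by norm_num) x).hasFDerivAt
  have h2 := ((EuclideanSpace.proj (𝕜 := ℝ) i).hasFDerivAt (x := ψ x)).comp x h1
  have h3 : (fun y => ψ y i) = (EuclideanSpace.proj (𝕜 := ℝ) i : EuclideanSpace ℝ (Fin n) →L[ℝ] ℝ) ∘ ψ := by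
    funext y; rfl
  rw [h3, h2.fderiv]
  rfl

/-- integration by parts against the cutoff -/
lemma cut_ibp (ψ : EuclideanSpace ℝ (Fin n) → EuclideanSpace ℝ (Fin n))
    (hψ : ContDiff ℝ 1 ψ) {r R : ℝ} (hr : 0 < r) (hR : r < R) :
    ∫ x, cut r R x * divergence ψ x = ∫ x, -(fderiv ℝ (cut (n := n) r R) x (ψ x)) := by
  have hc := cut_hasCompactSupport (n := n) hr hR
  have hd : ContDiff ℝ 1 (cut (n := n) r R) := cut_contDiff r R
  have hdc : Continuous (cut (n := n) r R) := hd.continuous
  have hfc : Continuous (fderiv ℝ (cut (n := n) r R)) := hd.continuous_fderiv (by norm_num)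
  have hψi : ∀ i, ContDiff ℝ 1 (fun y => ψ y i) := fun i =>
    (EuclideanSpace.proj (𝕜 := ℝ) i).contDiff.comp hψ
  have key : ∀ i : Fin n, ∫ x, cut r R x * fderiv ℝ (fun y => ψ y i) x (EuclideanSpace.single i 1) =
      -∫ x, fderiv ℝ (cut (n := n) r R) x (EuclideanSpace.single i 1) * ψ x i := by
    intro i
    apply integral_mul_fderiv_eq_neg_fderiv_mul_of_integrable
    · apply Continuous.integrable_of_hasCompactSupport
      · exact (hfc.clm_apply continuous_const).mul (hψi i).continuous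
      · exact (hc.fderiv_apply (𝕜 := ℝ) _).mul_right
    · apply Continuous.integrable_of_hasCompactSupport
      · exact hdc.mul (((hψi i).continuous_fderiv (by norm_num)).clm_apply continuous_const)
      · exact hc.mul_right
    · apply Continuous.integrable_of_hasCompactSupport
      · exact hdc.mul (hψi i).continuous
      · exact hc.mul_right
    · exact fun x _ => (hd.differentiable (by norm_num)) x
    · exact fun x _ => ((hψi i).differentiable (by norm_num)) x
  have e1 : ∀ x, cut r R x * divergence ψ x =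
      ∑ i, cut r R x * fderiv ℝ (fun y => ψ y i) x (EuclideanSpace.single i 1) := by
    intro x
    rw [divergence, Finset.mul_sum]
    refine Finset.sum_congr rfl fun i _ => ?_
    rw [fderiv_coord hψ]
  have e2 : ∀ x, -(fderiv ℝ (cut (n := n) r R) x (ψ x)) =
      ∑ i, -(fderiv ℝ (cut (n := n) r R) x (EuclideanSpace.single i 1) * ψ x i) := by
    intro x
    rw [Finset.sum_neg_distrib]
    congr 1
    have h5 : ψ x = ∑ i, ψ x i • EuclideanSpace.single i (1 : ℝ) := by
      ext j
      simp [Finset.sum_apply, Pi.single_apply]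
    conv_lhs => rw [h5]
    rw [map_sum]
    refine Finset.sum_congr rfl fun i _ => ?_
    rw [map_smul, smul_eq_mul, mul_comm]
  simp_rw [e1, e2]
  rw [integral_finsetSum, integral_finsetSum]
  · refine Finset.sum_congr rfl fun i _ => ?_
    rw [key, integral_neg]
  · intro i _
    apply Integrable.neg
    apply Continuous.integrable_of_hasCompactSupport
    · exact (hfc.clm_apply continuous_const).mul (hψi i).continuous
    · exact (hc.fderiv_apply (𝕜 := ℝ) _).mul_right
  · intro i _
    apply Continuous.integrable_of_hasCompactSupport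
    · exact hdc.mul (((hψi i).continuous_fderiv (by norm_num)).clm_apply continuous_const)
    · exact hc.mul_right

lemma cut_div_le (hn : 1 ≤ n) (ψ : EuclideanSpace ℝ (Fin n) → EuclideanSpace ℝ (Fin n))
    (hψ : ContDiff ℝ 1 ψ) (h1 : ∀ x, ‖ψ x‖ ≤ 1) {r R : ℝ} (hr : 0 < r) (hR : r < R) :
    ∫ x, cut r R x * divergence ψ x ≤
      n * volume.real (ball (0 : EuclideanSpace ℝ (Fin n)) 1) * R ^ (n - 1) := by
  have hc := cut_hasCompactSupport (n := n) hr hR
  have hd : ContDiff ℝ 1 (cut (n := n) r R) := cut_contDiff r R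
  have hfc : Continuous (fderiv ℝ (cut (n := n) r R)) := hd.continuous_fderiv (by norm_num)
  have : Nonempty (Fin n) := ⟨⟨0, hn⟩⟩
  have : Nontrivial (EuclideanSpace ℝ (Fin n)) := by
    infer_instance
  rw [cut_ibp ψ hψ hr hR]
  have h2 : ∫ x, -(fderiv ℝ (cut (n := n) r R) x (ψ x)) ≤
      ∫ x : EuclideanSpace ℝ (Fin n), prof r R ‖x‖ := by
    apply integral_mono
    · apply Integrable.neg
      apply Continuous.integrable_of_hasCompactSupport
      · exact hfc.clm_apply hψ.continuous
      · apply HasCompactSupport.of_support_subset_isCompact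
          (isCompact_closedBall (0 : EuclideanSpace ℝ (Fin n)) R)
        intro x hx
        rw [mem_closedBall_zero_iff]
        by_contra h
        apply hx
        have hRx : R < ‖x‖ := not_le.1 h
        have h1 : 0 < R ^ 2 - r ^ 2 := by nlinarith
        simp only
        rw [fderiv_cut, deriv_st_zero, zero_mul]
        apply div_nonpos_of_nonpos_of_nonneg _ h1.le
        nlinarith
    · apply Continuous.integrable_of_hasCompactSupport
      · exact (prof_continuous r R).comp continuous_norm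
      · apply HasCompactSupport.of_support_subset_isCompact
          (isCompact_closedBall (0 : EuclideanSpace ℝ (Fin n)) R)
        intro x hx
        rw [mem_closedBall_zero_iff]
        by_contra h
        apply hx
        have hRx : R < ‖x‖ := not_le.1 h
        have h1 : 0 < R ^ 2 - r ^ 2 := by nlinarith
        simp only [prof]
        rw [deriv_st_zero, zero_mul]
        apply div_nonpos_of_nonpos_of_nonneg _ h1.le
        nlinarith
    · intro x
      exact fderiv_cut_le hr hR x (ψ x) (h1 x)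
  refine h2.trans ?_
  rw [integral_fun_norm_addHaar volume (prof r R)]
  simp only [finrank_euclideanSpace, Fintype.card_fin, nsmul_eq_mul, smul_eq_mul]
  have h3 := prof_integral hr hR (n - 1)
  have h4 : (0 : ℝ) ≤ n * volume.real (ball (0 : EuclideanSpace ℝ (Fin n)) 1) := by positivity
  calc _ = n * volume.real (ball (0 : EuclideanSpace ℝ (Fin n)) 1) *
        ∫ y in Set.Ioi (0 : ℝ), y ^ (n - 1) * prof r R y := by ring
    _ ≤ _ := mul_le_mul_of_nonneg_left h3 h4

/-- the divergence bound on a ball -/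
theorem ball_div_le (hn : 1 ≤ n) (ψ : EuclideanSpace ℝ (Fin n) → EuclideanSpace ℝ (Fin n))
    (hψ : ContDiff ℝ 1 ψ) (h1 : ∀ x, ‖ψ x‖ ≤ 1) {r : ℝ} (hr : 0 < r) :
    ∫ x in ball (0 : EuclideanSpace ℝ (Fin n)) r, divergence ψ x ≤
      n * volume.real (ball (0 : EuclideanSpace ℝ (Fin n)) 1) * r ^ (n - 1) := by
  have : Nonempty (Fin n) := ⟨⟨0, hn⟩⟩
  have : Nontrivial (EuclideanSpace ℝ (Fin n)) := by
    infer_instance
  have hDc := divergence_continuous hψ
  have e0 : ∫ x in ball (0 : EuclideanSpace ℝ (Fin n)) r, divergence ψ x =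
      ∫ x in closedBall (0 : EuclideanSpace ℝ (Fin n)) r, divergence ψ x := by
    apply setIntegral_congr_set
    rw [← ball_union_sphere]
    symm
    apply union_ae_eq_left_of_ae_eq_empty
    exact ae_eq_empty.2 (Measure.addHaar_sphere_of_ne_zero _ _ hr.ne')
  rw [e0]
  set Rk : ℕ → ℝ := fun k => r + 1 / ((k : ℝ) + 1) with hRk
  have hRk1 : ∀ k, r < Rk k := fun k => by
    simp only [hRk]
    have : (0 : ℝ) < 1 / ((k : ℝ) + 1) := by positivity
    linarith
  have hRk2 : ∀ k, Rk k ≤ r + 1 := fun k => by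
    simp only [hRk]
    have : (1 : ℝ) / ((k : ℝ) + 1) ≤ 1 := by
      rw [div_le_one (by positivity)]
      have : (0 : ℝ) ≤ k := Nat.cast_nonneg k
      linarith
    linarith
  have hRk3 : Tendsto Rk atTop (𝓝 r) := by
    have := (tendsto_one_div_add_atTop_nhds_zero_nat (𝕜 := ℝ)).const_add r
    simpa [hRk] using this
  have hlim : Tendsto (fun k => ∫ x, cut r (Rk k) x * divergence ψ x) atTop
      (𝓝 (∫ x, (closedBall (0 : EuclideanSpace ℝ (Fin n)) r).indicator (divergence ψ) x)) := by
    apply tendsto_integral_of_dominated_convergence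
      (fun x => (closedBall (0 : EuclideanSpace ℝ (Fin n)) (r + 1)).indicator
        (fun x => ‖divergence ψ x‖) x)
    · intro k
      exact ((cut_contDiff r (Rk k)).continuous.mul hDc).aestronglyMeasurable
    · rw [integrable_indicator_iff measurableSet_closedBall]
      exact hDc.norm.continuousOn.integrableOn_compact (isCompact_closedBall _ _)
    · intro k
      apply Filter.Eventually.of_forall
      intro x
      by_cases hx : x ∈ closedBall (0 : EuclideanSpace ℝ (Fin n)) (r + 1)
      · rw [Set.indicator_of_mem hx, norm_mul, Real.norm_of_nonneg (cut_nonneg _ _ _)]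
        exact mul_le_of_le_one_left (norm_nonneg _) (cut_le_one _ _ _)
      · rw [Set.indicator_of_notMem hx, cut_eq_zero hr (hRk1 k), zero_mul, norm_zero]
        rw [mem_closedBall_zero_iff, not_le] at hx
        exact (hRk2 k).trans hx.le
    · apply Filter.Eventually.of_forall
      intro x
      by_cases hx : x ∈ closedBall (0 : EuclideanSpace ℝ (Fin n)) r
      · rw [Set.indicator_of_mem hx]
        have : ∀ k, cut r (Rk k) x * divergence ψ x = divergence ψ x := fun k => by
          rw [cut_eq_one hr (hRk1 k) (mem_closedBall_zero_iff.1 hx), one_mul]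
        simp_rw [this]
        exact tendsto_const_nhds
      · rw [Set.indicator_of_notMem hx]
        rw [mem_closedBall_zero_iff, not_le] at hx
        have h5 : ∀ᶠ k in atTop, Rk k < ‖x‖ := hRk3.eventually (gt_mem_nhds hx)
        apply tendsto_const_nhds.congr'
        filter_upwards [h5] with k hk
        rw [cut_eq_zero hr (hRk1 k) hk.le, zero_mul]
  rw [integral_indicator measurableSet_closedBall] at hlim
  have hlim2 : Tendsto (fun k => n * volume.real (ball (0 : EuclideanSpace ℝ (Fin n)) 1) *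
      (Rk k) ^ (n - 1)) atTop
      (𝓝 (n * volume.real (ball (0 : EuclideanSpace ℝ (Fin n)) 1) * r ^ (n - 1))) :=
    (hRk3.pow (n - 1)).const_mul _
  exact le_of_tendsto_of_tendsto' hlim hlim2 (fun k => cut_div_le hn ψ hψ h1 hr (hRk1 k))

end Crest.Agent.R214.Model
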