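import Crest.Agent.R214.Iso2
import Crest.Agent.R214.ModelB

/-! Row 214, M8: the model regions (ball, tube, slab): volumes and upper bounds for the perimeters. -/

set_option autoImplicit false

open MeasureTheory Metric Filter Crest.GeometryTopology.PeriodicPerimeter
open scoped Topology ENNReal

noncomputable section

namespace Crest.Agent.R214.Model

/-- change of fundamental cell -/
lemma shift_integral {n : ℕ} {E : Set (Ev n)} (hE : MeasurableSet E) (hper : IsLatticePeriodic E)
    {F : Ev n → ℝ} (hF : IsPer F) (c : Ev n) :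
    ∫ x in E ∩ unitCell n, F x = ∫ x in E ∩ ((fun x => x + c) '' unitCell n), F x := by
  have hf : IsPer (E.indicator F) := by
    intro v hv x
    by_cases hx : x ∈ E
    · rw [Set.indicator_of_mem ((hper v hv x).2 hx), Set.indicator_of_mem hx, hF v hv x]
    · rw [Set.indicator_of_notMem (fun h => hx ((hper v hv x).1 h)), Set.indicator_of_notMem hx]
  have h1 := fd_integral (fd_image (isCubic_add c)) hf
  have h2 : ∀ s : Set (Ev n), ∫ x in s, E.indicator F x = ∫ x in E ∩ s, F x := by
    intro s
    rw [setIntegral_indicator hE, Set.inter_comm]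
  rw [← h2, ← h2]
  exact h1.symm

lemma shift_volume {n : ℕ} {E : Set (Ev n)} (hE : MeasurableSet E) (hper : IsLatticePeriodic E)
    (c : Ev n) :
    periodicVolume E = (volume (E ∩ ((fun x => x + c) '' unitCell n))).toReal := by
  have h1 := shift_integral hE hper (F := fun _ => (1 : ℝ)) (fun v _ x => rfl) c
  simpa [periodicVolume, Measure.real] using h1

lemma perim_le {n : ℕ} {E : Set (Ev n)} {M : ℝ}
    (h : ∀ φ : Ev n → Ev n, IsAdmissibleField φ → ∫ x in E ∩ unitCell n, divergence φ x ≤ M) :
    periodicPerimeter E ≤ ENNReal.ofReal M :=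
  iSup_le fun φ => ENNReal.ofReal_le_ofReal (h φ.1 φ.2)

lemma divergence_isPer {n : ℕ} {φ : Ev n → Ev n} (h : IsAdmissibleField φ) :
    IsPer (divergence φ) := by
  intro v hv x
  unfold divergence
  have h1 : fderiv ℝ φ (x + v) = fderiv ℝ φ x := by
    have h2 : φ = fun y => φ (y + v) := by
      funext y
      exact (h.2.1 v hv y).symm
    conv_rhs => rw [h2]
    rw [fderiv_comp_add_right]
  rw [h1]

/-! ### the ball -/

lemma ball_measurable (r : ℝ) : MeasurableSet (periodicBall r) := by
  have h1 : periodicBall r = ⋃ v : Lam 3, ball (v : Ev 3) r := by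
    ext x
    simp only [periodicBall, Set.mem_ofPred_eq, Set.mem_iUnion, mem_ball]
    constructor
    · rintro ⟨v, hv, h⟩
      exact ⟨⟨v, hv⟩, h⟩
    · rintro ⟨v, h⟩
      exact ⟨v, v.2, h⟩
  rw [h1]
  exact MeasurableSet.iUnion fun v => measurableSet_ball

lemma ball_periodic (r : ℝ) : IsLatticePeriodic (periodicBall r) := by
  intro v hv x
  constructor
  · rintro ⟨w, hw, h⟩
    refine ⟨w - v, (Lam 3).sub_mem hw hv, ?_⟩
    have : dist x (w - v) = dist (x + v) w := by
      rw [dist_eq_norm, dist_eq_norm]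
      congr 1
      abel
    rw [this]
    exact h
  · rintro ⟨w, hw, h⟩
    refine ⟨w + v, (Lam 3).add_mem hw hv, ?_⟩
    rw [dist_add_right]
    exact h

/-- the shift by `-1/2` in all coordinates -/
def cB : Ev 3 := WithLp.toLp 2 fun _ => -(1 / 2 : ℝ)

lemma abs_coord_le (x : Ev 3) (i : Fin 3) : |x i| ≤ ‖x‖ := by
  have := PiLp.norm_apply_le x i
  simpa using this

lemma ball_inter {r : ℝ} (hr2 : r < 1 / 2) :
    periodicBall r ∩ ((fun x => x + cB) '' unitCell 3) = ball (0 : Ev 3) r := by
  ext x
  constructor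
  · rintro ⟨⟨v, hv, h⟩, y, hy, rfl⟩
    have hv0 : v = 0 := by
      ext i
      obtain ⟨k, hk⟩ := hv i
      have h1 := abs_coord_le (y + cB - v) i
      rw [← dist_eq_norm] at h1
      have h2 : |(y + cB - v) i| < 1 / 2 := by
        have h' : dist (y + cB) v < r := h
        linarith
      have h3 : (y + cB - v) i = y i + -(1 / 2) - k := by
        rw [← hk]
        rfl
      rw [h3, abs_lt] at h2
      obtain ⟨h4, h5⟩ := hy i
      have h6 : (-1 : ℝ) < k := by linarith
      have h7 : (k : ℝ) < 1 := by linarith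
      have h8 : -1 < k := by exact_mod_cast h6
      have h9 : k < 1 := by exact_mod_cast h7
      have h10 : k = 0 := by omega
      rw [hk, h10]
      simp
    rw [hv0] at h
    exact h
  · intro hx
    refine ⟨⟨0, (Lam 3).zero_mem, hx⟩, x - cB, ?_, by simp⟩
    intro i
    have h1 := abs_coord_le x i
    rw [mem_ball_zero_iff] at hx
    have h2 : |x i| < 1 / 2 := by linarith
    rw [abs_lt] at h2
    have h3 : (x - cB) i = x i + 1 / 2 := by
      show x i - -(1 / 2) = _
      ring
    rw [h3]
    constructor <;> linarith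

theorem ball_volume {r : ℝ} (hr0 : 0 < r) (hr2 : r < 1 / 2) :
    periodicVolume (periodicBall r) = 4 / 3 * Real.pi * r ^ 3 := by
  rw [shift_volume (ball_measurable r) (ball_periodic r) cB, ball_inter hr2,
    EuclideanSpace.volume_ball_fin_three, ENNReal.toReal_mul, ENNReal.toReal_pow,
    ENNReal.toReal_ofReal hr0.le, ENNReal.toReal_ofReal (by positivity)]
  ring

theorem ball_perim {r : ℝ} (hr : 0 < r) (hr2 : r < 1 / 2) :
    periodicPerimeter (periodicBall r) ≤ ENNReal.ofReal (4 * Real.pi * r ^ 2) := by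
  apply perim_le
  intro φ hφ
  rw [shift_integral (ball_measurable r) (ball_periodic r) (divergence_isPer hφ) cB,
    ball_inter hr2]
  have h1 := ball_div_le (n := 3) (by norm_num) φ hφ.1 hφ.2.2 hr
  refine h1.trans (le_of_eq ?_)
  rw [Measure.real, EuclideanSpace.volume_ball_fin_three, ENNReal.toReal_mul, ENNReal.toReal_pow,
    ENNReal.toReal_ofReal zero_le_one, ENNReal.toReal_ofReal (by positivity)]
  simp only [Nat.add_one_sub_one, Nat.reduceSub]
  push_cast
  ring

theorem ball_facts {r : ℝ} (hr : 0 < r) (hr2 : r < 1 / 2) :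
    MeasurableSet (periodicBall r) ∧ IsLatticePeriodic (periodicBall r) ∧
      periodicVolume (periodicBall r) = 4 / 3 * Real.pi * r ^ 3 ∧
      periodicPerimeter (periodicBall r) ≤ ENNReal.ofReal (4 * Real.pi * r ^ 2) :=
  ⟨ball_measurable r, ball_periodic r, ball_volume hr hr2, ball_perim hr hr2⟩

/-! ### translation-invariant directions -/

/-- if `E` is invariant in the direction `w`, the derivative in the direction `w` integrates to 0 -/
lemma inv_integral_fderiv {n : ℕ} {E : Set (Ev n)} (hE : MeasurableSet E)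
    (hper : IsLatticePeriodic E) {f : Ev n → ℝ} (hf : ContDiff ℝ 1 f) (hp : IsPer f) (w : Ev n)
    (hw : ∀ (t : ℝ) (x : Ev n), x + t • w ∈ E ↔ x ∈ E) :
    ∫ x in E ∩ unitCell n, fderiv ℝ f x w = 0 := by
  obtain ⟨R, hR0, hR⟩ := exists_cell_bound n
  have hc : Continuous fun x => fderiv ℝ f x := hf.continuous_fderiv one_ne_zero
  have hd : Differentiable ℝ f := hf.differentiable one_ne_zero
  obtain ⟨M, hM⟩ := (isCompact_closedBall (0 : Ev n) (R + ‖w‖)).exists_bound_of_continuousOn
    hc.continuousOn
  have hlim : Tendsto (fun k : ℕ => ∫ x in E ∩ unitCell n,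
      ((k : ℝ) + 1) • (f (x + ((k : ℝ) + 1)⁻¹ • w) - f x)) atTop
      (𝓝 (∫ x in E ∩ unitCell n, fderiv ℝ f x w)) := by
    apply tendsto_integral_of_dominated_convergence (fun _ => M * ‖w‖)
    · intro k
      apply Continuous.aestronglyMeasurable
      have := hf.continuous
      fun_prop
    · apply integrable_const_iff.2
      right
      exact ⟨by
        rw [Measure.restrict_apply_univ]
        exact (measure_mono Set.inter_subset_right).trans_lt (cell_finite n)⟩
    · intro k
      filter_upwards [ae_restrict_mem (hE.inter (measurableSet_cell n))] with x hx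
      have hk : (0 : ℝ) < (k : ℝ) + 1 := by positivity
      have hx1 : x ∈ Metric.closedBall (0 : Ev n) (R + ‖w‖) := by
        have := hR hx.2
        rw [mem_closedBall_zero_iff] at this ⊢
        linarith [norm_nonneg w]
      have hx2 : x + ((k : ℝ) + 1)⁻¹ • w ∈ Metric.closedBall (0 : Ev n) (R + ‖w‖) := by
        have h1 := hR hx.2
        rw [mem_closedBall_zero_iff] at h1 ⊢
        refine (norm_add_le _ _).trans (add_le_add h1 ?_)
        rw [norm_smul, Real.norm_of_nonneg (inv_nonneg.2 hk.le)]
        have h2 : ((k : ℝ) + 1)⁻¹ ≤ 1 := by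
          apply inv_le_one_of_one_le₀
          have : (0 : ℝ) ≤ k := Nat.cast_nonneg k
          linarith
        exact mul_le_of_le_one_left (norm_nonneg w) h2
      have h3 := (convex_closedBall (0 : Ev n) (R + ‖w‖)).norm_image_sub_le_of_norm_fderiv_le
        (f := f) (C := M) (fun y _ => hd y) (fun y hy => hM y hy) hx1 hx2
      rw [norm_smul, Real.norm_of_nonneg hk.le]
      have h4 : x + ((k : ℝ) + 1)⁻¹ • w - x = ((k : ℝ) + 1)⁻¹ • w := by abel
      rw [h4, norm_smul, Real.norm_of_nonneg (inv_nonneg.2 hk.le)] at h3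
      calc ((k : ℝ) + 1) * ‖f (x + ((k : ℝ) + 1)⁻¹ • w) - f x‖
          ≤ ((k : ℝ) + 1) * (M * (((k : ℝ) + 1)⁻¹ * ‖w‖)) := by gcongr
        _ = M * ‖w‖ := by field_simp
    · refine Eventually.of_forall fun x => ?_
      refine (hd x).hasFDerivAt.lim w (c := fun k : ℕ => (k : ℝ) + 1) ?_
      have h1 : Tendsto (fun k : ℕ => (k : ℝ) + 1) atTop atTop :=
        tendsto_atTop_add_const_right _ _ tendsto_natCast_atTop_atTop
      refine h1.congr fun k => ?_
      rw [Real.norm_of_nonneg (by positivity)]
  have hind : IsPer (E.indicator f) := by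
    intro v hv x
    by_cases hx : x ∈ E
    · rw [Set.indicator_of_mem ((hper v hv x).2 hx), Set.indicator_of_mem hx, hp v hv x]
    · rw [Set.indicator_of_notMem (fun h => hx ((hper v hv x).1 h)), Set.indicator_of_notMem hx]
  have hzero : ∀ k : ℕ, ∫ x in E ∩ unitCell n,
      ((k : ℝ) + 1) • (f (x + ((k : ℝ) + 1)⁻¹ • w) - f x) = 0 := by
    intro k
    have i1 : IntegrableOn f (E ∩ unitCell n) :=
      (integrable_cell hf.continuous).mono_set Set.inter_subset_right
    have i2 : IntegrableOn (fun x => f (x + ((k : ℝ) + 1)⁻¹ • w)) (E ∩ unitCell n) :=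
      (integrable_cell (by have := hf.continuous; fun_prop)).mono_set Set.inter_subset_right
    rw [integral_smul, integral_sub i2 i1]
    have h5 := cell_integral_add hind (((k : ℝ) + 1)⁻¹ • w)
    have h6 : ∀ x, E.indicator f (x + ((k : ℝ) + 1)⁻¹ • w) =
        E.indicator (fun x => f (x + ((k : ℝ) + 1)⁻¹ • w)) x := by
      intro x
      by_cases hx : x ∈ E
      · rw [Set.indicator_of_mem ((hw _ x).2 hx), Set.indicator_of_mem hx]
      · rw [Set.indicator_of_notMem (fun h => hx ((hw _ x).1 h)), Set.indicator_of_notMem hx]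
    simp_rw [h6] at h5
    rw [setIntegral_indicator hE, setIntegral_indicator hE, Set.inter_comm] at h5
    rw [h5, sub_self, smul_zero]
  simp_rw [hzero] at hlim
  exact tendsto_nhds_unique hlim tendsto_const_nhds

end Crest.Agent.R214.Model
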