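import Crest.Agent.R214.ModelC

/-! Row 214, M8: the slab. -/

set_option autoImplicit false

open MeasureTheory Metric Filter Crest.GeometryTopology.PeriodicPerimeter
open scoped Topology ENNReal

noncomputable section

namespace Crest.Agent.R214.Model

lemma slab_measurable (w : ℝ) : MeasurableSet (periodicSlab w) := by
  have h1 : periodicSlab w = ⋃ a : ℤ, ({x : Ev 3 | (a : ℝ) ≤ x 0} ∩ {x : Ev 3 | x 0 < a + w}) := by
    ext x
    simp [periodicSlab]
  rw [h1]
  refine MeasurableSet.iUnion fun a => ?_
  have h2 : Measurable fun x : Ev 3 => x 0 := by fun_prop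
  exact (measurableSet_le measurable_const h2).inter (measurableSet_lt h2 measurable_const)

lemma slab_periodic (w : ℝ) : IsLatticePeriodic (periodicSlab w) := by
  intro v hv x
  obtain ⟨k, hk⟩ := hv 0
  have h0 : (x + v) 0 = x 0 + k := by
    rw [← hk]; rfl
  constructor
  · rintro ⟨a, h1, h2⟩
    refine ⟨a - k, ?_, ?_⟩
    · rw [h0] at h1
      push_cast
      linarith
    · rw [h0] at h2
      push_cast
      linarith
  · rintro ⟨a, h1, h2⟩
    refine ⟨a + k, ?_, ?_⟩
    · rw [h0]
      push_cast
      linarith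
    · rw [h0]
      push_cast
      linarith

/-- volume of a half-open box -/
lemma box_volume {n : ℕ} (b : Fin n → ℝ) (hb : ∀ i, 0 ≤ b i) :
    (volume {x : Ev n | ∀ i, 0 ≤ x i ∧ x i < b i}).toReal = ∏ i, b i := by
  have h1 : {x : Ev n | ∀ i, 0 ≤ x i ∧ x i < b i} =
      (WithLp.ofLp : Ev n → (Fin n → ℝ)) ⁻¹' (Set.univ.pi fun i => Set.Ico 0 (b i)) := by
    ext x
    simp [Set.mem_pi]
  have h2 : MeasurePreserving (WithLp.ofLp : Ev n → (Fin n → ℝ)) volume volume :=
    EuclideanSpace.volume_preserving_symm_measurableEquiv_toLp (Fin n)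
  rw [h1, h2.measure_preimage (MeasurableSet.univ_pi fun i => measurableSet_Ico).nullMeasurableSet,
    Real.volume_pi_Ico, ENNReal.toReal_prod]
  refine Finset.prod_congr rfl fun i _ => ?_
  rw [sub_zero, ENNReal.toReal_ofReal (hb i)]

lemma slab_volume {w : ℝ} (hw : 0 < w) (hw1 : w ≤ 1) : periodicVolume (periodicSlab w) = w := by
  have h1 : periodicSlab w ∩ unitCell 3 =
      {x : Ev 3 | ∀ i, 0 ≤ x i ∧ x i < (![w, 1, 1] : Fin 3 → ℝ) i} := by
    ext x
    constructor
    · rintro ⟨⟨a, h1, h2⟩, hx⟩
      have ha : a = 0 := by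
        have h3 : (a : ℝ) < 1 := lt_of_le_of_lt h1 (hx 0).2
        have h4 : (-1 : ℝ) < a := by linarith [(hx 0).1]
        have h5 : a < 1 := by exact_mod_cast h3
        have h6 : -1 < a := by exact_mod_cast h4
        omega
      rw [ha] at h2
      intro i
      refine ⟨(hx i).1, ?_⟩
      fin_cases i
      · simpa using h2
      · simpa using (hx 1).2
      · simpa using (hx 2).2
    · intro hx
      have h0 : x 0 < w := by simpa using (hx 0).2
      refine ⟨⟨0, by simpa using (hx 0).1, by simpa using h0⟩, fun i => ⟨(hx i).1, ?_⟩⟩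
      fin_cases i
      · exact lt_of_lt_of_le h0 hw1
      · simpa using (hx 1).2
      · simpa using (hx 2).2
  rw [periodicVolume, h1, box_volume]
  · simp [Fin.prod_univ_three]
  · intro i
    fin_cases i
    · simpa using hw.le
    · simp
    · simp

/-- the first basis vector -/
def e0 : Ev 3 := EuclideanSpace.single 0 1

lemma e0_zero (t : ℝ) (x : Ev 3) : (x + t • e0) 0 = x 0 + t := by
  simp [e0]

/-- key pointwise estimate -/
lemma slab_diff {w t : ℝ} (hw : 0 < w) (ht : 0 < t) (x : Ev 3) :
    |(periodicSlab w).indicator (fun _ => (1 : ℝ)) (x + (-t) • e0) -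
      (periodicSlab w).indicator (fun _ => (1 : ℝ)) x| ≤
    (periodicSlab t).indicator (fun _ => (1 : ℝ)) x +
      (periodicSlab t).indicator (fun _ => (1 : ℝ)) (x + (-w) • e0) := by
  have p1 : (0 : ℝ) ≤ (periodicSlab t).indicator (fun _ => (1 : ℝ)) x :=
    Set.indicator_nonneg (fun _ _ => zero_le_one) _
  have p2 : (0 : ℝ) ≤ (periodicSlab t).indicator (fun _ => (1 : ℝ)) (x + (-w) • e0) :=
    Set.indicator_nonneg (fun _ _ => zero_le_one) _
  by_cases h1 : x + (-t) • e0 ∈ periodicSlab w
  · by_cases h2 : x ∈ periodicSlab w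
    · rw [Set.indicator_of_mem h1, Set.indicator_of_mem h2, sub_self, abs_zero]
      linarith
    · have h3 : x + (-w) • e0 ∈ periodicSlab t := by
        obtain ⟨a, ha, hb⟩ := h1
        rw [e0_zero] at ha hb
        refine ⟨a, ?_, ?_⟩
        · rw [e0_zero]
          by_contra hc
          exact h2 ⟨a, by linarith, by linarith⟩
        · rw [e0_zero]
          linarith
      rw [Set.indicator_of_mem h1, Set.indicator_of_notMem h2, Set.indicator_of_mem h3, sub_zero,
        abs_one]
      linarith
  · by_cases h2 : x ∈ periodicSlab w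
    · have h3 : x ∈ periodicSlab t := by
        obtain ⟨a, ha, hb⟩ := h2
        refine ⟨a, ha, ?_⟩
        by_contra hc
        apply h1
        refine ⟨a, ?_, ?_⟩
        · rw [e0_zero]
          linarith
        · rw [e0_zero]
          linarith
      rw [Set.indicator_of_notMem h1, Set.indicator_of_mem h2, Set.indicator_of_mem h3, zero_sub,
        abs_neg, abs_one]
      linarith
    · rw [Set.indicator_of_notMem h1, Set.indicator_of_notMem h2, sub_self, abs_zero]
      linarith

lemma indicator_isPer {n : ℕ} {E : Set (Ev n)} (hper : IsLatticePeriodic E) {f : Ev n → ℝ}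
    (hp : IsPer f) : IsPer (E.indicator f) := by
  intro v hv x
  by_cases hx : x ∈ E
  · rw [Set.indicator_of_mem ((hper v hv x).2 hx), Set.indicator_of_mem hx, hp v hv x]
  · rw [Set.indicator_of_notMem (fun h => hx ((hper v hv x).1 h)), Set.indicator_of_notMem hx]

lemma ind_integrable {n : ℕ} {E : Set (Ev n)} (hE : MeasurableSet E) :
    IntegrableOn (E.indicator fun _ => (1 : ℝ)) (unitCell n) := by
  refine IntegrableOn.indicator ?_ hE
  exact integrable_cell continuous_const

lemma slab_step {w t : ℝ} (hw : 0 < w) (ht : 0 < t) (ht1 : t ≤ 1) {f : Ev 3 → ℝ}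
    (hf : Continuous f) (hp : IsPer f) (hb : ∀ x, |f x| ≤ 1) :
    ∫ x in periodicSlab w ∩ unitCell 3, (f (x + t • e0) - f x) ≤ 2 * t := by
  set E := periodicSlab w with hE
  have mE : MeasurableSet E := slab_measurable w
  have pE : IsLatticePeriodic E := slab_periodic w
  have mS : MeasurableSet (periodicSlab t) := slab_measurable t
  have pS : IsLatticePeriodic (periodicSlab t) := slab_periodic t
  have mtr : ∀ s : ℝ, Measurable fun x : Ev 3 => x + s • e0 := fun s => by fun_prop
  have i1 : IntegrableOn f (E ∩ unitCell 3) :=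
    (integrable_cell hf).mono_set Set.inter_subset_right
  have i2 : IntegrableOn (fun x => f (x + t • e0)) (E ∩ unitCell 3) :=
    (integrable_cell (by fun_prop)).mono_set Set.inter_subset_right
  rw [integral_sub i2 i1]
  -- rewrite both integrals over the cell
  have a1 : ∫ x in E ∩ unitCell 3, f x = ∫ x in unitCell 3, E.indicator (fun _ => (1 : ℝ)) x * f x := by
    rw [Set.inter_comm, ← setIntegral_indicator mE]
    congr 1
    funext x
    by_cases hx : x ∈ E
    · rw [Set.indicator_of_mem hx, Set.indicator_of_mem hx, one_mul]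
    · rw [Set.indicator_of_notMem hx, Set.indicator_of_notMem hx, zero_mul]
  have a2 : ∫ x in E ∩ unitCell 3, f (x + t • e0) =
      ∫ x in unitCell 3, E.indicator (fun _ => (1 : ℝ)) (x + (-t) • e0) * f x := by
    rw [Set.inter_comm, ← setIntegral_indicator mE]
    have hper2 : IsPer (fun x => E.indicator (fun _ => (1 : ℝ)) (x + (-t) • e0) * f x) := by
      intro v hv x
      have h1 : x + v + (-t) • e0 = (x + (-t) • e0) + v := by abel
      have h2 := indicator_isPer pE (f := fun _ => (1 : ℝ)) (fun _ _ _ => rfl) v hv (x + (-t) • e0)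
      simp only [h1, h2, hp v hv x]
    have h3 := cell_integral_add hper2 (t • e0)
    rw [← h3]
    congr 1
    funext x
    have h4 : x + t • e0 + (-t) • e0 = x := by
      rw [add_assoc, ← add_smul]
      simp
    rw [h4]
    by_cases hx : x ∈ E
    · rw [Set.indicator_of_mem hx, Set.indicator_of_mem hx, one_mul]
    · rw [Set.indicator_of_notMem hx, Set.indicator_of_notMem hx, zero_mul]
  have j1 : IntegrableOn (fun x => E.indicator (fun _ => (1 : ℝ)) x * f x) (unitCell 3) := by
    have : (fun x => E.indicator (fun _ => (1 : ℝ)) x * f x) = E.indicator f := by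
      funext x
      by_cases hx : x ∈ E
      · rw [Set.indicator_of_mem hx, Set.indicator_of_mem hx, one_mul]
      · rw [Set.indicator_of_notMem hx, Set.indicator_of_notMem hx, zero_mul]
    rw [this]
    exact (integrable_cell hf).indicator mE
  have tr_ind : ∀ (s : ℝ) (F : Set (Ev 3)) (g : Ev 3 → ℝ) (x : Ev 3),
      F.indicator (fun _ => (1 : ℝ)) (x + s • e0) * g x =
        ((fun x : Ev 3 => x + s • e0) ⁻¹' F).indicator g x := by
    intro s F g x
    by_cases hx : x + s • e0 ∈ F
    · rw [Set.indicator_of_mem hx, Set.indicator_of_mem (by exact hx), one_mul]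
    · rw [Set.indicator_of_notMem hx, Set.indicator_of_notMem (by exact hx), zero_mul]
  have j2 : IntegrableOn (fun x => E.indicator (fun _ => (1 : ℝ)) (x + (-t) • e0) * f x)
      (unitCell 3) := by
    simp_rw [tr_ind]
    exact (integrable_cell hf).indicator (mtr _ mE)
  rw [a1, a2, ← integral_sub j2 j1]
  have k1 : IntegrableOn ((periodicSlab t).indicator fun _ => (1 : ℝ)) (unitCell 3) :=
    ind_integrable mS
  have k2 : IntegrableOn (fun x => (periodicSlab t).indicator (fun _ => (1 : ℝ)) (x + (-w) • e0))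
      (unitCell 3) := by
    have : (fun x => (periodicSlab t).indicator (fun _ => (1 : ℝ)) (x + (-w) • e0)) =
        ((fun x : Ev 3 => x + (-w) • e0) ⁻¹' (periodicSlab t)).indicator (fun _ => (1 : ℝ)) := by
      funext x
      rw [← tr_ind]
      ring
    rw [this]
    exact ind_integrable (mtr _ mS)
  have v1 : ∫ x in unitCell 3, (periodicSlab t).indicator (fun _ => (1 : ℝ)) x = t := by
    rw [setIntegral_indicator mS, Set.inter_comm]
    have := slab_volume ht ht1
    simpa [periodicVolume, Measure.real] using this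
  have v2 : ∫ x in unitCell 3, (periodicSlab t).indicator (fun _ => (1 : ℝ)) (x + (-w) • e0) = t := by
    rw [cell_integral_add (indicator_isPer pS (f := fun _ => (1 : ℝ)) (fun _ _ _ => rfl))]
    exact v1
  calc ∫ x in unitCell 3, (E.indicator (fun _ => (1 : ℝ)) (x + (-t) • e0) * f x -
        E.indicator (fun _ => (1 : ℝ)) x * f x)
      ≤ ∫ x in unitCell 3, ((periodicSlab t).indicator (fun _ => (1 : ℝ)) x +
          (periodicSlab t).indicator (fun _ => (1 : ℝ)) (x + (-w) • e0)) := by
        apply setIntegral_mono (j2.sub j1) (k1.add k2)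
        intro x
        have h5 := slab_diff hw ht x
        have h6 := hb x
        calc E.indicator (fun _ => (1 : ℝ)) (x + (-t) • e0) * f x -
              E.indicator (fun _ => (1 : ℝ)) x * f x
            = (E.indicator (fun _ => (1 : ℝ)) (x + (-t) • e0) -
              E.indicator (fun _ => (1 : ℝ)) x) * f x := by ring
          _ ≤ |(E.indicator (fun _ => (1 : ℝ)) (x + (-t) • e0) -
              E.indicator (fun _ => (1 : ℝ)) x) * f x| := le_abs_self _
          _ = |E.indicator (fun _ => (1 : ℝ)) (x + (-t) • e0) -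
              E.indicator (fun _ => (1 : ℝ)) x| * |f x| := abs_mul _ _
          _ ≤ |E.indicator (fun _ => (1 : ℝ)) (x + (-t) • e0) -
              E.indicator (fun _ => (1 : ℝ)) x| * 1 :=
              mul_le_mul_of_nonneg_left h6 (abs_nonneg _)
          _ ≤ _ := by rw [mul_one]; exact h5
    _ = t + t := by rw [integral_add k1 k2, v1, v2]
    _ = 2 * t := by ring

/-- the flux of a derivative in the direction `e0` -/
lemma slab_fderiv {w : ℝ} (hw : 0 < w) {f : Ev 3 → ℝ}
    (hf : ContDiff ℝ 1 f) (hp : IsPer f) (hb : ∀ x, |f x| ≤ 1) :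
    ∫ x in periodicSlab w ∩ unitCell 3, fderiv ℝ f x e0 ≤ 2 := by
  obtain ⟨R, hR0, hR⟩ := exists_cell_bound 3
  have hc : Continuous fun x => fderiv ℝ f x := hf.continuous_fderiv one_ne_zero
  have hd : Differentiable ℝ f := hf.differentiable one_ne_zero
  obtain ⟨M, hM⟩ := (isCompact_closedBall (0 : Ev 3) (R + ‖e0‖)).exists_bound_of_continuousOn
    hc.continuousOn
  have hlim : Tendsto (fun k : ℕ => ∫ x in periodicSlab w ∩ unitCell 3,
      ((k : ℝ) + 1) • (f (x + ((k : ℝ) + 1)⁻¹ • e0) - f x)) atTop
      (𝓝 (∫ x in periodicSlab w ∩ unitCell 3, fderiv ℝ f x e0)) := by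
    apply tendsto_integral_of_dominated_convergence (fun _ => M * ‖e0‖)
    · intro k
      apply Continuous.aestronglyMeasurable
      have := hf.continuous
      fun_prop
    · apply integrable_const_iff.2
      right
      exact ⟨by
        rw [Measure.restrict_apply_univ]
        exact (measure_mono Set.inter_subset_right).trans_lt (cell_finite 3)⟩
    · intro k
      filter_upwards [ae_restrict_mem ((slab_measurable w).inter (measurableSet_cell 3))] with x hx
      have hk : (0 : ℝ) < (k : ℝ) + 1 := by positivity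
      have hx1 : x ∈ Metric.closedBall (0 : Ev 3) (R + ‖e0‖) := by
        have := hR hx.2
        rw [mem_closedBall_zero_iff] at this ⊢
        linarith [norm_nonneg e0]
      have hx2 : x + ((k : ℝ) + 1)⁻¹ • e0 ∈ Metric.closedBall (0 : Ev 3) (R + ‖e0‖) := by
        have h1 := hR hx.2
        rw [mem_closedBall_zero_iff] at h1 ⊢
        refine (norm_add_le _ _).trans (add_le_add h1 ?_)
        rw [norm_smul, Real.norm_of_nonneg (inv_nonneg.2 hk.le)]
        have h2 : ((k : ℝ) + 1)⁻¹ ≤ 1 := by
          apply inv_le_one_of_one_le₀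
          have : (0 : ℝ) ≤ k := Nat.cast_nonneg k
          linarith
        exact mul_le_of_le_one_left (norm_nonneg e0) h2
      have h3 := (convex_closedBall (0 : Ev 3) (R + ‖e0‖)).norm_image_sub_le_of_norm_fderiv_le
        (f := f) (C := M) (fun y _ => hd y) (fun y hy => hM y hy) hx1 hx2
      rw [norm_smul, Real.norm_of_nonneg hk.le]
      have h4 : x + ((k : ℝ) + 1)⁻¹ • e0 - x = ((k : ℝ) + 1)⁻¹ • e0 := by abel
      rw [h4, norm_smul, Real.norm_of_nonneg (inv_nonneg.2 hk.le)] at h3
      calc ((k : ℝ) + 1) * ‖f (x + ((k : ℝ) + 1)⁻¹ • e0) - f x‖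
          ≤ ((k : ℝ) + 1) * (M * (((k : ℝ) + 1)⁻¹ * ‖e0‖)) := by gcongr
        _ = M * ‖e0‖ := by field_simp
    · refine Eventually.of_forall fun x => ?_
      refine (hd x).hasFDerivAt.lim e0 (c := fun k : ℕ => (k : ℝ) + 1) ?_
      have h1 : Tendsto (fun k : ℕ => (k : ℝ) + 1) atTop atTop :=
        tendsto_atTop_add_const_right _ _ tendsto_natCast_atTop_atTop
      refine h1.congr fun k => ?_
      rw [Real.norm_of_nonneg (by positivity)]
  refine le_of_tendsto' hlim fun k => ?_
  have hk : (0 : ℝ) < (k : ℝ) + 1 := by positivity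
  have hk1 : ((k : ℝ) + 1)⁻¹ ≤ 1 := by
    apply inv_le_one_of_one_le₀
    have : (0 : ℝ) ≤ k := Nat.cast_nonneg k
    linarith
  rw [integral_smul, smul_eq_mul]
  have h7 := slab_step hw (inv_pos.2 hk) hk1 hf.continuous hp hb
  calc ((k : ℝ) + 1) * _ ≤ ((k : ℝ) + 1) * (2 * ((k : ℝ) + 1)⁻¹) :=
        mul_le_mul_of_nonneg_left h7 hk.le
    _ = 2 := by field_simp

lemma admissible_coord {n : ℕ} {φ : Ev n → Ev n} (h : IsAdmissibleField φ) (i : Fin n) :
    ContDiff ℝ 1 (fun x => φ x i) ∧ IsPer (fun x => φ x i) ∧ ∀ x, |φ x i| ≤ 1 := by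
  refine ⟨(EuclideanSpace.proj i : Ev n →L[ℝ] ℝ).contDiff.comp h.1, fun v hv x => ?_, fun x => ?_⟩
  · show φ (x + v) i = φ x i
    rw [h.2.1 v hv x]
  · have h1 := PiLp.norm_apply_le (φ x) i
    rw [Real.norm_eq_abs] at h1
    exact h1.trans (h.2.2 x)

lemma divergence_three {φ : Ev 3 → Ev 3} (h : IsAdmissibleField φ) {s : Set (Ev 3)}
    (hs : s ⊆ unitCell 3) :
    ∫ x in s, divergence φ x =
      ∑ i : Fin 3, ∫ x in s, fderiv ℝ (fun x => φ x i) x (EuclideanSpace.single i 1) := by
  have hd : Differentiable ℝ φ := h.1.differentiable one_ne_zero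
  have e1 : ∀ x, divergence φ x =
      ∑ i : Fin 3, fderiv ℝ (fun x => φ x i) x (EuclideanSpace.single i 1) := by
    intro x
    unfold divergence
    refine Finset.sum_congr rfl fun i _ => ?_
    rw [R214.fderiv_coord (hd x)]
  simp_rw [e1]
  rw [integral_finsetSum]
  intro i _
  have hc := (admissible_coord h i).1.continuous_fderiv one_ne_zero
  exact (integrable_cell (by fun_prop)).mono_set hs

theorem slab_perim {w : ℝ} (hw : 0 < w) :
    periodicPerimeter (periodicSlab w) ≤ ENNReal.ofReal 2 := by
  apply perim_le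
  intro φ hφ
  rw [divergence_three hφ Set.inter_subset_right, Fin.sum_univ_three]
  have z : ∀ i : Fin 3, i ≠ 0 → ∫ x in periodicSlab w ∩ unitCell 3,
      fderiv ℝ (fun x => φ x i) x (EuclideanSpace.single i 1) = 0 := by
    intro i hi
    obtain ⟨c1, c2, c3⟩ := admissible_coord hφ i
    refine inv_integral_fderiv (slab_measurable w) (slab_periodic w) c1 c2 _ ?_
    intro t x
    have h0 : (x + t • (EuclideanSpace.single i (1 : ℝ) : Ev 3)) 0 = x 0 := by
      simp [hi.symm]
    simp only [periodicSlab, Set.mem_ofPred_eq, h0]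
  rw [z 1 (by decide), z 2 (by decide), add_zero, add_zero]
  obtain ⟨c1, c2, c3⟩ := admissible_coord hφ 0
  exact slab_fderiv hw c1 c2 c3

theorem slab_facts {w : ℝ} (hw : 0 < w) (hw1 : w ≤ 1) :
    MeasurableSet (periodicSlab w) ∧ IsLatticePeriodic (periodicSlab w) ∧
      periodicVolume (periodicSlab w) = w ∧
      periodicPerimeter (periodicSlab w) ≤ ENNReal.ofReal 2 :=
  ⟨slab_measurable w, slab_periodic w, slab_volume hw hw1, slab_perim hw⟩

end Crest.Agent.R214.Model
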