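import Crest.Agent.R214.ModelS

/-! Row 214, M8: the tube. -/

set_option autoImplicit false

open MeasureTheory Metric Filter Crest.GeometryTopology.PeriodicPerimeter
open scoped Topology ENNReal

noncomputable section

namespace Crest.Agent.R214.Model

lemma tube_measurable (r : ℝ) : MeasurableSet (periodicTube r) := by
  have h1 : periodicTube r = ⋃ a : ℤ, ⋃ b : ℤ,
      {x : Ev 3 | (x 0 - a) ^ 2 + (x 1 - b) ^ 2 < r ^ 2} := by
    ext x
    simp [periodicTube]
  rw [h1]
  refine MeasurableSet.iUnion fun a => MeasurableSet.iUnion fun b => ?_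
  have h2 : Measurable fun x : Ev 3 => (x 0 - a) ^ 2 + (x 1 - b) ^ 2 := by fun_prop
  exact measurableSet_lt h2 measurable_const

lemma tube_periodic (r : ℝ) : IsLatticePeriodic (periodicTube r) := by
  intro v hv x
  obtain ⟨k, hk⟩ := hv 0
  obtain ⟨l, hl⟩ := hv 1
  have h0 : (x + v) 0 = x 0 + k := by
    rw [← hk]; rfl
  have h1 : (x + v) 1 = x 1 + l := by
    rw [← hl]; rfl
  constructor
  · rintro ⟨a, b, h⟩
    refine ⟨a - k, b - l, ?_⟩
    rw [h0, h1] at h
    push_cast
    calc (x 0 - (a - k)) ^ 2 + (x 1 - (b - l)) ^ 2 = (x 0 + k - a) ^ 2 + (x 1 + l - b) ^ 2 := by ring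
      _ < r ^ 2 := h
  · rintro ⟨a, b, h⟩
    refine ⟨a + k, b + l, ?_⟩
    rw [h0, h1]
    push_cast
    calc (x 0 + k - (a + k)) ^ 2 + (x 1 + l - (b + l)) ^ 2 = (x 0 - a) ^ 2 + (x 1 - b) ^ 2 := by ring
      _ < r ^ 2 := h

/-- the shift -/
def cT : Ev 3 := WithLp.toLp 2 ![-(1 / 2 : ℝ), -(1 / 2 : ℝ), 0]

/-- the truncated cylinder -/
def cyl (r : ℝ) : Set (Ev 3) := {x | x 0 ^ 2 + x 1 ^ 2 < r ^ 2 ∧ 0 ≤ x 2 ∧ x 2 < 1}

lemma tube_inter {r : ℝ} (hr : 0 < r) (hr2 : r < 1 / 2) :
    periodicTube r ∩ ((fun x => x + cT) '' unitCell 3) = cyl r := by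
  ext x
  constructor
  · rintro ⟨⟨a, b, h⟩, y, hy, rfl⟩
    have e0 : (y + cT) 0 = y 0 - 1 / 2 := by
      show y 0 + -(1 / 2) = _
      ring
    have e1 : (y + cT) 1 = y 1 - 1 / 2 := by
      show y 1 + -(1 / 2) = _
      ring
    have e2 : (y + cT) 2 = y 2 := by
      show y 2 + 0 = _
      ring
    have hh : (y 0 - 1 / 2 - a) ^ 2 + (y 1 - 1 / 2 - b) ^ 2 < r ^ 2 := by
      have := h
      rw [e0, e1] at this
      exact this
    have key : ∀ (s : ℝ) (k : ℤ), 0 ≤ s → s < 1 → (s - 1 / 2 - k) ^ 2 < r ^ 2 → k = 0 := by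
      intro s k h1 h2 h3
      have h4 : |s - 1 / 2 - k| < r := by
        have := sq_lt_sq.1 h3
        rwa [abs_of_pos hr] at this
      rw [abs_lt] at h4
      have h5 : (k : ℝ) < 1 := by linarith [h4.1]
      have h6 : (-1 : ℝ) < k := by linarith [h4.2]
      have h7 : k < 1 := by exact_mod_cast h5
      have h8 : -1 < k := by exact_mod_cast h6
      omega
    have ha : a = 0 := key (y 0) a (hy 0).1 (hy 0).2 (by nlinarith [sq_nonneg (y 1 - 1 / 2 - b)])
    have hb : b = 0 := key (y 1) b (hy 1).1 (hy 1).2 (by nlinarith [sq_nonneg (y 0 - 1 / 2 - a)])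
    rw [ha, hb] at hh
    refine ⟨?_, ?_, ?_⟩
    · show (y + cT) 0 ^ 2 + (y + cT) 1 ^ 2 < r ^ 2
      rw [e0, e1]
      simpa using hh
    · show 0 ≤ (y + cT) 2
      rw [e2]
      exact (hy 2).1
    · show (y + cT) 2 < 1
      rw [e2]
      exact (hy 2).2
  · rintro ⟨h1, h2, h3⟩
    refine ⟨⟨0, 0, by simpa using h1⟩, x - cT, ?_, by simp⟩
    have k0 : |x 0| < 1 / 2 := by
      have : x 0 ^ 2 < r ^ 2 := by nlinarith [sq_nonneg (x 1)]
      have h4 := sq_lt_sq.1 this
      rw [abs_of_pos hr] at h4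
      linarith
    have k1 : |x 1| < 1 / 2 := by
      have : x 1 ^ 2 < r ^ 2 := by nlinarith [sq_nonneg (x 0)]
      have h4 := sq_lt_sq.1 this
      rw [abs_of_pos hr] at h4
      linarith
    rw [abs_lt] at k0 k1
    intro i
    fin_cases i
    · show 0 ≤ x 0 - -(1 / 2) ∧ x 0 - -(1 / 2) < 1
      constructor <;> linarith [k0.1, k0.2]
    · show 0 ≤ x 1 - -(1 / 2) ∧ x 1 - -(1 / 2) < 1
      constructor <;> linarith [k1.1, k1.2]
    · show 0 ≤ x 2 - 0 ∧ x 2 - 0 < 1
      constructor <;> linarith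

/-- splitting off the third coordinate -/
def Q : Ev 3 ≃ᵐ ℝ × Ev 2 :=
  (MeasurableEquiv.toLp 2 (Fin 3 → ℝ)).symm.trans
    ((MeasurableEquiv.piFinSuccAbove (fun _ : Fin 3 => ℝ) 2).trans
      (MeasurableEquiv.prodCongr (MeasurableEquiv.refl ℝ) (MeasurableEquiv.toLp 2 (Fin 2 → ℝ))))

lemma Q_mp : MeasurePreserving Q volume (volume.prod volume) := by
  have h1 : MeasurePreserving (MeasurableEquiv.toLp 2 (Fin 3 → ℝ)).symm volume volume :=
    EuclideanSpace.volume_preserving_symm_measurableEquiv_toLp (Fin 3)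
  have h2 := volume_preserving_piFinSuccAbove (fun _ : Fin 3 => ℝ) 2
  have h3 : MeasurePreserving (MeasurableEquiv.toLp 2 (Fin 2 → ℝ)) volume volume :=
    (EuclideanSpace.volume_preserving_symm_measurableEquiv_toLp (Fin 2)).symm
  exact ((MeasurePreserving.id volume).prod h3).comp (h2.comp h1)

lemma Q_apply (x : Ev 3) : Q x = (x 2, WithLp.toLp 2 ![x 0, x 1]) := by
  have h : Q x = (x 2, WithLp.toLp 2 fun j => x ((2 : Fin 3).succAbove j)) := rfl
  rw [h]
  congr 2
  funext j
  fin_cases j <;> rfl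

/-- the inverse -/
def P (t : ℝ) (y : Ev 2) : Ev 3 := WithLp.toLp 2 ![y 0, y 1, t]

lemma Q_symm_apply (p : ℝ × Ev 2) : Q.symm p = P p.1 p.2 := by
  rw [MeasurableEquiv.symm_apply_eq, Q_apply]
  ext i
  · rfl
  · fin_cases i <;> rfl

lemma Q_symm_mp : MeasurePreserving Q.symm (volume.prod volume) volume := Q_mp.symm Q

lemma cyl_preimage {r : ℝ} (hr : 0 < r) :
    Q.symm ⁻¹' (cyl r) = Set.Ico (0 : ℝ) 1 ×ˢ ball (0 : Ev 2) r := by
  ext p
  rw [Set.mem_preimage, Q_symm_apply]
  have h1 : ‖p.2‖ ^ 2 = p.2 0 ^ 2 + p.2 1 ^ 2 := by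
    rw [EuclideanSpace.norm_sq_eq, Fin.sum_univ_two]
    simp
  have h2 : (p.2 ∈ ball (0 : Ev 2) r) ↔ p.2 0 ^ 2 + p.2 1 ^ 2 < r ^ 2 := by
    rw [mem_ball_zero_iff, ← h1]
    constructor
    · intro h
      nlinarith [norm_nonneg p.2]
    · intro h
      exact lt_of_pow_lt_pow_left₀ 2 hr.le h
  constructor
  · rintro ⟨h3, h4, h5⟩
    exact ⟨⟨h4, h5⟩, h2.2 h3⟩
  · rintro ⟨⟨h4, h5⟩, h6⟩
    exact ⟨h2.1 h6, h4, h5⟩

lemma cyl_measurable (r : ℝ) : MeasurableSet (cyl r) := by
  have m0 : Measurable fun x : Ev 3 => x 0 ^ 2 + x 1 ^ 2 := by fun_prop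
  have m2 : Measurable fun x : Ev 3 => x 2 := by fun_prop
  exact (measurableSet_lt m0 measurable_const).inter
    ((measurableSet_le measurable_const m2).inter (measurableSet_lt m2 measurable_const))

theorem tube_volume {r : ℝ} (hr : 0 < r) (hr2 : r < 1 / 2) :
    periodicVolume (periodicTube r) = Real.pi * r ^ 2 := by
  rw [shift_volume (tube_measurable r) (tube_periodic r) cT, tube_inter hr hr2,
    ← Q_symm_mp.measure_preimage (cyl_measurable r).nullMeasurableSet, cyl_preimage hr,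
    Measure.prod_prod, Real.volume_Ico, EuclideanSpace.volume_ball_fin_two, ENNReal.toReal_mul,
    ENNReal.toReal_mul, ENNReal.toReal_pow, ENNReal.toReal_ofReal hr.le,
    ENNReal.toReal_ofReal Real.pi_pos.le, ENNReal.toReal_ofReal (by norm_num)]
  ring

/-- the affine embedding of the plane, linear part -/
def PL : Ev 2 →L[ℝ] Ev 3 :=
  LinearMap.toContinuousLinearMap
    { toFun := fun y => WithLp.toLp 2 ![y 0, y 1, 0]
      map_add' := fun x y => by
        ext i
        fin_cases i <;> simp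
      map_smul' := fun c y => by
        ext i
        fin_cases i <;> simp }

/-- vertical vector -/
def vT (t : ℝ) : Ev 3 := WithLp.toLp 2 ![0, 0, t]

lemma P_eq (t : ℝ) (y : Ev 2) : P t y = PL y + vT t := by
  ext i
  fin_cases i <;> simp [P, PL, vT]

/-- projection to the plane -/
def pr : Ev 3 →L[ℝ] Ev 2 :=
  LinearMap.toContinuousLinearMap
    { toFun := fun y => WithLp.toLp 2 ![y 0, y 1]
      map_add' := fun x y => by
        ext i
        fin_cases i <;> simp
      map_smul' := fun c y => by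
        ext i
        fin_cases i <;> simp }

lemma pr_norm (x : Ev 3) : ‖pr x‖ ≤ ‖x‖ := by
  have h1 : ‖pr x‖ ^ 2 ≤ ‖x‖ ^ 2 := by
    rw [EuclideanSpace.norm_sq_eq, EuclideanSpace.norm_sq_eq, Fin.sum_univ_two, Fin.sum_univ_three]
    have e0 : (pr x) 0 = x 0 := rfl
    have e1 : (pr x) 1 = x 1 := rfl
    rw [e0, e1]
    nlinarith [sq_nonneg ‖x 2‖]
  exact le_of_sq_le_sq h1 (norm_nonneg x)

/-- the slice field -/
def sl (φ : Ev 3 → Ev 3) (t : ℝ) (y : Ev 2) : Ev 2 := pr (φ (P t y))

lemma sl_contDiff {φ : Ev 3 → Ev 3} (h : ContDiff ℝ 1 φ) (t : ℝ) : ContDiff ℝ 1 (sl φ t) := by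
  unfold sl
  have h1 : ContDiff ℝ 1 (fun y => P t y) := by
    have : (fun y => P t y) = fun y => PL y + vT t := funext (P_eq t)
    rw [this]
    exact PL.contDiff.add contDiff_const
  exact pr.contDiff.comp (h.comp h1)

lemma PL_single (i : Fin 2) : PL (EuclideanSpace.single i 1) =
    EuclideanSpace.single (i.castSucc) 1 := by
  ext j
  fin_cases i <;> fin_cases j <;> simp [PL]

lemma sl_divergence {φ : Ev 3 → Ev 3} (h : ContDiff ℝ 1 φ) (t : ℝ) (y : Ev 2) :
    divergence (sl φ t) y =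
      fderiv ℝ φ (P t y) (EuclideanSpace.single 0 1) 0 +
        fderiv ℝ φ (P t y) (EuclideanSpace.single 1 1) 1 := by
  have h1 : HasFDerivAt (fun y => P t y) PL y := by
    have : (fun y => P t y) = fun y => PL y + vT t := funext (P_eq t)
    rw [this]
    exact PL.hasFDerivAt.add_const _
  have h2 : HasFDerivAt φ (fderiv ℝ φ (P t y)) (P t y) :=
    (h.differentiable one_ne_zero _).hasFDerivAt
  have h3 : HasFDerivAt (sl φ t) (pr.comp ((fderiv ℝ φ (P t y)).comp PL)) y :=
    pr.hasFDerivAt.comp y (h2.comp y h1)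
  unfold divergence
  rw [h3.fderiv, Fin.sum_univ_two]
  simp only [ContinuousLinearMap.comp_apply, PL_single]
  rfl

theorem tube_perim {r : ℝ} (hr : 0 < r) (hr2 : r < 1 / 2) :
    periodicPerimeter (periodicTube r) ≤ ENNReal.ofReal (2 * Real.pi * r) := by
  apply perim_le
  intro φ hφ
  have hdd : Differentiable ℝ φ := hφ.1.differentiable one_ne_zero
  have hfc : Continuous fun x => fderiv ℝ φ x := hφ.1.continuous_fderiv one_ne_zero
  rw [divergence_three hφ Set.inter_subset_right, Fin.sum_univ_three]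
  have z : ∫ x in periodicTube r ∩ unitCell 3,
      fderiv ℝ (fun x => φ x 2) x (EuclideanSpace.single 2 1) = 0 := by
    obtain ⟨c1, c2, c3⟩ := admissible_coord hφ 2
    refine inv_integral_fderiv (tube_measurable r) (tube_periodic r) c1 c2 _ ?_
    intro t x
    have h0 : (x + t • (EuclideanSpace.single 2 (1 : ℝ) : Ev 3)) 0 = x 0 := by
      simp
    have h1 : (x + t • (EuclideanSpace.single 2 (1 : ℝ) : Ev 3)) 1 = x 1 := by
      simp
    simp only [periodicTube, Set.mem_ofPred_eq, h0, h1]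
  rw [z, add_zero]
  -- the two remaining terms
  set G : Ev 3 → ℝ := fun x => fderiv ℝ φ x (EuclideanSpace.single 0 1) 0 +
    fderiv ℝ φ x (EuclideanSpace.single 1 1) 1 with hG
  have hGc : Continuous G := by
    have h1 : ∀ i : Fin 3, Continuous fun x => fderiv ℝ φ x (EuclideanSpace.single i 1) := fun i => by
      fun_prop
    have h2 : ∀ i : Fin 3, Continuous fun y : Ev 3 => y i := fun i => by fun_prop
    exact ((h2 0).comp (h1 0)).add ((h2 1).comp (h1 1))
  have hGp : IsPer G := by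
    intro v hv x
    have h1 : fderiv ℝ φ (x + v) = fderiv ℝ φ x := by
      have h2 : φ = fun y => φ (y + v) := by
        funext y
        exact (hφ.2.1 v hv y).symm
      conv_rhs => rw [h2]
      rw [fderiv_comp_add_right]
    simp only [hG, h1]
  have e1 : (∫ x in periodicTube r ∩ unitCell 3,
        fderiv ℝ (fun x => φ x 0) x (EuclideanSpace.single 0 1)) +
      ∫ x in periodicTube r ∩ unitCell 3,
        fderiv ℝ (fun x => φ x 1) x (EuclideanSpace.single 1 1) =
      ∫ x in periodicTube r ∩ unitCell 3, G x := by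
    rw [← integral_add]
    · congr 1
      funext x
      rw [R214.fderiv_coord (hdd x), R214.fderiv_coord (hdd x)]
    · have hc := (admissible_coord hφ 0).1.continuous_fderiv one_ne_zero
      exact (integrable_cell (by fun_prop)).mono_set Set.inter_subset_right
    · have hc := (admissible_coord hφ 1).1.continuous_fderiv one_ne_zero
      exact (integrable_cell (by fun_prop)).mono_set Set.inter_subset_right
  rw [e1, shift_integral (tube_measurable r) (tube_periodic r) hGp cT, tube_inter hr hr2,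
    ← Q_symm_mp.setIntegral_preimage_emb Q.symm.measurableEmbedding G (cyl r), cyl_preimage hr]
  have hint : IntegrableOn (fun p : ℝ × Ev 2 => G (Q.symm p)) (Set.Ico (0 : ℝ) 1 ×ˢ ball (0 : Ev 2) r)
      (volume.prod volume) := by
    have h1 : (fun p : ℝ × Ev 2 => G (Q.symm p)) = fun p : ℝ × Ev 2 => G (P p.1 p.2) := by
      funext p
      rw [Q_symm_apply]
    rw [h1]
    have h2 : Continuous fun p : ℝ × Ev 2 => G (P p.1 p.2) := by
      refine hGc.comp ?_
      unfold P
      refine (PiLp.continuous_toLp 2 _).comp ?_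
      refine continuous_pi fun i => ?_
      fin_cases i
      · show Continuous fun p : ℝ × Ev 2 => p.2 0
        fun_prop
      · show Continuous fun p : ℝ × Ev 2 => p.2 1
        fun_prop
      · show Continuous fun p : ℝ × Ev 2 => p.1
        fun_prop
    have h3 : IsCompact (Set.Icc (0 : ℝ) 1 ×ˢ closedBall (0 : Ev 2) r) :=
      isCompact_Icc.prod (isCompact_closedBall _ _)
    exact (h2.continuousOn.integrableOn_compact h3).mono_set
      (Set.prod_mono Set.Ico_subset_Icc_self ball_subset_closedBall)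
  rw [setIntegral_prod _ hint]
  have hsl : ∀ t : ℝ, ∫ y in ball (0 : Ev 2) r, G (Q.symm (t, y)) ≤ 2 * Real.pi * r := by
    intro t
    have h1 := ball_div_le (n := 2) (by norm_num) (sl φ t) (sl_contDiff hφ.1 t)
      (fun y => (pr_norm _).trans (hφ.2.2 _)) hr
    have h2 : ∀ y, G (Q.symm (t, y)) = divergence (sl φ t) y := by
      intro y
      rw [sl_divergence hφ.1, Q_symm_apply]
    simp_rw [h2]
    refine h1.trans (le_of_eq ?_)
    rw [Measure.real, EuclideanSpace.volume_ball_fin_two, ENNReal.toReal_mul, ENNReal.toReal_pow,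
      ENNReal.toReal_ofReal zero_le_one, ENNReal.toReal_ofReal Real.pi_pos.le]
    simp only [Nat.add_one_sub_one]
    push_cast
    ring
  have hint2 : IntegrableOn (fun t : ℝ => ∫ y in ball (0 : Ev 2) r, G (Q.symm (t, y)))
      (Set.Ico (0 : ℝ) 1) := by
    have h4 : Integrable (fun p : ℝ × Ev 2 => G (Q.symm p))
        ((volume.restrict (Set.Ico (0 : ℝ) 1)).prod (volume.restrict (ball (0 : Ev 2) r))) := by
      rw [Measure.prod_restrict]
      exact hint
    exact h4.integral_prod_left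
  calc ∫ t in Set.Ico (0 : ℝ) 1, ∫ y in ball (0 : Ev 2) r, G (Q.symm (t, y))
      ≤ ∫ t in Set.Ico (0 : ℝ) 1, 2 * Real.pi * r := by
        apply setIntegral_mono hint2
        · exact integrableOn_const (by simp)
        · exact fun t => hsl t
    _ = 2 * Real.pi * r := by simp

theorem tube_facts {r : ℝ} (hr : 0 < r) (hr2 : r < 1 / 2) :
    MeasurableSet (periodicTube r) ∧ IsLatticePeriodic (periodicTube r) ∧
      periodicVolume (periodicTube r) = Real.pi * r ^ 2 ∧
      periodicPerimeter (periodicTube r) ≤ ENNReal.ofReal (2 * Real.pi * r) :=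
  ⟨tube_measurable r, tube_periodic r, tube_volume hr hr2, tube_perim hr hr2⟩

end Crest.Agent.R214.Model
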