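import Crest.Agent.R214.N5A
import Crest.Agent.R214.N5B
import Crest.Agent.R214.N5C
import Crest.Agent.R214.N5D
import Crest.Agent.R214.N5E
import Crest.Agent.R214.N5F

/-!
# Row 214, N5: three type II directions
-/

set_option autoImplicit false

namespace Crest.Agent.R214

namespace N5

theorem lo_of_pi' {a2 : ℝ} (h2 : 1 / Real.pi ≤ a2) : ((3183 : ℤ) : ℝ) / 10 ^ 4 ≤ a2 := by
  refine le_trans ?_ h2
  have hpi := Real.pi_lt_d4
  rw [le_div_iff₀ Real.pi_pos]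
  push_cast
  nlinarith

/-- **N5**, one-dimensional part -/
theorem good5 {V c0 a1 a2 : ℝ} (hV : 26 / 100 ≤ V) (hV' : V ≤ 366 / 1000) (h1 : 4 / 100 ≤ a1)
    (h1V : a1 ≤ V) (h2V : V ≤ a2) (h2 : 1 / Real.pi ≤ a2) (h2' : a2 ≤ 1) (hc : a1 ≤ c0) :
    Good5 V c0 a1 a2 := by
  rcases le_total V (28 / 100) with k | k
  · refine Tr5.sound trA _ trA_chk ⟨?_, ?_, lo_of_pi' h2, ?_, ?_, ?_⟩ h1V h2V hc
    all_goals (push_cast; linarith)
  rcases le_total V (30 / 100) with k1 | k1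
  · refine Tr5.sound trB _ trB_chk ⟨?_, ?_, lo_of_pi' h2, ?_, ?_, ?_⟩ h1V h2V hc
    all_goals (push_cast; linarith)
  rcases le_total V (31 / 100) with k2 | k2
  · refine Tr5.sound trC _ trC_chk ⟨?_, ?_, lo_of_pi' h2, ?_, ?_, ?_⟩ h1V h2V hc
    all_goals (push_cast; linarith)
  rcases le_total V (32 / 100) with k3 | k3
  · refine Tr5.sound trD _ trD_chk ⟨?_, ?_, lo_of_pi' h2, ?_, ?_, ?_⟩ h1V h2V hc
    all_goals (push_cast; linarith)
  rcases le_total V (33 / 100) with k4 | k4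
  · refine Tr5.sound trE _ trE_chk ⟨?_, ?_, lo_of_pi' h2, ?_, ?_, ?_⟩ h1V h2V hc
    all_goals (push_cast; linarith)
  · refine Tr5.sound trF _ trF_chk ⟨?_, ?_, lo_of_pi' h2, ?_, ?_, ?_⟩ h1V h2V hc
    all_goals (push_cast; linarith)

end N5

end Crest.Agent.R214
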