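import Crest.Agent.R214.Box

/-!
# Row 214, NTa: lines through the origin for a direction with `a1 ≤ 1/250` whose area function
oscillates twice between `1/250` and `3/100`; uniform in `V`
-/

set_option autoImplicit false

open MeasureTheory Set

namespace Crest.Agent.R214.NT

def M0 : Lf :=
  ⟨0, 28168, [(40, 9949), (392, 9492), (739, 9018), (1077, 8532), (1402, 8036), (1711, 7535), (1998, 7038), (2260, 6551), (2495, 6081), (2699, 5642), (2869, 5247), (3004, 4912), (3101, 4656), (3160, 4493), (3180, 4436)], 1417/1875, 3, 458/1875, 9/4⟩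

def M1 : Lf :=
  ⟨0, 26246, [(40, 9956), (433, 9513), (821, 9055), (1199, 8585), (1563, 8107), (1907, 7627), (2228, 7151), (2522, 6685), (2784, 6241), (3012, 5827), (3202, 5419), (3353, 4749), (3462, 4175), (3528, 3776), (3550, 3631)], 1873/3750, 3, 1877/3750, 9/4⟩

def M2 : Lf :=
  ⟨0, 24937, [(40, 9960), (462, 9531), (879, 9088), (1285, 8635), (1676, 8174), (2046, 7713), (2391, 7257), (2706, 6814), (2988, 6391), (3232, 5919), (3437, 5151), (3598, 4415), (3715, 3765), (3786, 3296), (3810, 3119)], 2437/7500, 3, 5063/7500, 9/4⟩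

def M3 : Lf :=
  ⟨0, 23809, [(40, 9963), (484, 9553), (923, 9129), (1351, 8696), (1763, 8257), (2152, 7821), (2515, 7390), (2847, 6973), (3144, 6577), (3401, 5867), (3617, 5083), (3787, 4324), (3910, 3651), (3985, 3159), (4010, 2974)], 1309/7500, 3, 6191/7500, 9/4⟩

def M4 : Lf :=
  ⟨0, 22623, [(40, 9967), (506, 9578), (966, 9179), (1414, 8772), (1845, 8363), (2253, 7955), (2634, 7555), (2982, 7170), (3292, 6673), (3562, 5921), (3788, 5153), (3967, 4411), (4096, 3759), (4174, 3291), (4200, 3117)], 41/2500, 3, 2459/2500, 9/4⟩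

def M5 : Lf :=
  ⟨0, 21230, [(40, 9971), (530, 9612), (1015, 9243), (1487, 8869), (1940, 8495), (2370, 8123), (2771, 7761), (3137, 7415), (3464, 6776), (3749, 6054), (3986, 5328), (4174, 4634), (4310, 4034), (4392, 3613), (4420, 3456)], 0, 1, 1, 2123/1000⟩

def M6 : Lf :=
  ⟨0, 19762, [(40, 9975), (563, 9643), (1079, 9305), (1582, 8962), (2066, 8620), (2525, 8283), (2952, 7956), (3342, 7508), (3691, 6840), (3994, 6140), (4248, 5433), (4448, 4767), (4593, 4196), (4681, 3798), (4710, 3655)], 0, 1, 1, 9881/5000⟩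

def M7 : Lf :=
  ⟨0, 18281, [(40, 9978), (602, 9674), (1157, 9364), (1698, 9051), (2218, 8741), (2711, 8435), (3170, 8141), (3590, 7545), (3965, 6889), (4291, 6202), (4563, 5515), (4778, 4868), (4934, 4317), (5028, 3938), (5060, 3799)], 0, 1, 1, 18281/10000⟩

def M8 : Lf :=
  ⟨0, 16877, [(40, 9981), (648, 9701), (1248, 9417), (1833, 9131), (2396, 8847), (2929, 8569), (3426, 8158), (3880, 7557), (4285, 6906), (4638, 6223), (4932, 5542), (5165, 4900), (5334, 4354), (5436, 3978), (5470, 3843)], 0, 1, 1, 16877/10000⟩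

def M9 : Lf :=
  ⟨0, 15539, [(40, 9984), (699, 9727), (1350, 9466), (1984, 9206), (2593, 8948), (3171, 8696), (3709, 8172), (4201, 7575), (4641, 6927), (5023, 6251), (5342, 5576), (5595, 4940), (5777, 4406), (5888, 4035), (5925, 3903)], 0, 1, 15539/15708, 3927/2500⟩

def M10 : Lf :=
  ⟨0, 13976, [(40, 9987), (756, 9762), (1463, 9534), (2152, 9306), (2815, 9082), (3442, 8766), (4027, 8265), (4562, 7703), (5040, 7098), (5455, 6471), (5802, 5852), (6076, 5281), (6275, 4805), (6395, 4485), (6435, 4372)], 0, 1, 3494/3927, 3927/2500⟩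

def M11 : Lf :=
  ⟨0, 11855, [(40, 9991), (816, 9815), (1583, 9639), (2330, 9464), (3049, 9293), (3730, 8969), (4364, 8557), (4944, 8102), (5462, 7620), (5912, 7132), (6288, 6665), (6586, 6248), (6801, 5915), (6931, 5475), (6975, 5296)], 0, 1, 11855/15708, 3927/2500⟩

def M12 : Lf :=
  ⟨0, 9722, [(40, 9993), (874, 9867), (1698, 9741), (2501, 9616), (3272, 9480), (4004, 9211), (4685, 8902), (5308, 8565), (5865, 8215), (6348, 7868), (6752, 7543), (7072, 6972), (7303, 6364), (7443, 5900), (7490, 5723)], 0, 1, 4861/7854, 3927/2500⟩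

def M13 : Lf :=
  ⟨0, 7290, [(40, 9996), (937, 9920), (1822, 9844), (2686, 9770), (3515, 9666), (4302, 9495), (5034, 9302), (5704, 9094), (6302, 8882), (6822, 8673), (7257, 8217), (7601, 7698), (7849, 7179), (8000, 6772), (8050, 6616)], 0, 1, 1215/2618, 3927/2500⟩

def M14 : Lf :=
  ⟨0, 4286, [(40, 9998), (1011, 9970), (1970, 9942), (2905, 9914), (3804, 9866), (4655, 9798), (5449, 9723), (6174, 9643), (6822, 9562), (7385, 9370), (7856, 9119), (8228, 8812), (8497, 8480), (8660, 8202), (8715, 8089)], 0, 1, 2143/7854, 3927/2500⟩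

def M15 : Lf :=
  ⟨0, 1125, [(40, 9999), (1096, 9997), (2139, 9995), (3156, 9993), (4134, 9989), (5060, 9983), (5923, 9977), (6712, 9971), (7417, 9957), (8029, 9933), (8541, 9898), (8946, 9845), (9238, 9771), (9416, 9689), (9475, 9649)], 0, 1, 375/5236, 3927/2500⟩

def M16 : Lf :=
  ⟨0, 0, [(40, 10000), (1151, 10000), (2247, 10000), (3316, 10000), (4344, 10000), (5318, 10000), (6225, 10000), (7054, 10000), (7796, 10000), (8440, 10000), (8978, 10000), (9403, 10000), (9711, 10000), (9898, 10000), (9960, 10000)], 0, 1, 0, 1⟩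

def ntree : Tr :=
  (.sb 5470 (.sb 4200 (.sb 3810 (.sb 3550 (.leaf M0) (.leaf M1)) (.sb 4010 (.leaf M2) (.leaf M3))) (.sb 4710 (.sb 4420 (.leaf M4) (.leaf M5)) (.sb 5060 (.leaf M6) (.leaf M7)))) (.sb 7490 (.sb 6435 (.sb 5925 (.leaf M8) (.leaf M9)) (.sb 6975 (.leaf M10) (.leaf M11))) (.sb 8715 (.sb 8050 (.leaf M12) (.leaf M13)) (.sb 9475 (.leaf M14) (.sb 9960 (.leaf M15) (.leaf M16))))))

/-- test of the leaves -/
def pr (L : Lf) : Bool := decide (L.S = 0) && decide (0 ≤ L.T) && decide (L.T ≤ 28200)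

theorem ntree_chk : ntree.chkU pr (-(247 / 10000)) ⟨0, 40, 3180, 10000, 0, 5000⟩ = true := by
  decide +kernel

theorem nt_line {A : ℝ} (h1 : 0.318 ≤ A) (h2 : A ≤ 1) :
    ∃ sg : ℝ, 0 ≤ sg ∧ sg ≤ 2.82 ∧ (∀ a ∈ Icc (1 / 250 : ℝ) A, sg * a ≤ I2 a) ∧
      ∀ V : ℝ, 0 ≤ V → V ≤ 1 / 2 →
        mm V < sg * V + (∫ a in (1 / 250 : ℝ)..A, hL 0 sg a) + 247 / 10000 := by
  obtain ⟨L, hL1, hL2, hL3⟩ := Tr.soundU pr (-(247 / 10000)) ntree _ ntree_chk
    (a1 := 1 / 250) (a2 := A) (by norm_num) (by norm_num) (by norm_num at h1 ⊢; linarith)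
    (by norm_num; linarith) (by norm_num at h1 ⊢; linarith)
  simp only [pr, Bool.and_eq_true, decide_eq_true_eq] at hL1
  obtain ⟨⟨hS, hT1⟩, hT2⟩ := hL1
  have hT1' : (0 : ℝ) ≤ L.T := by exact_mod_cast hT1
  have hT2' : (L.T : ℝ) ≤ 28200 := by exact_mod_cast hT2
  have hS' : ((L.S : ℤ) : ℝ) / 10 ^ 4 = 0 := by rw [hS]; norm_num
  rw [hS'] at hL2 hL3
  refine ⟨(L.T : ℝ) / 10 ^ 4, ?_, ?_, ?_, fun V v1 v2 => ?_⟩
  · positivity
  · norm_num
    linarith
  · intro a ha
    have := hL2 a ha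
    linarith
  · have := hL3 V (by simpa using v1) (by norm_num; linarith)
    push_cast at this
    linarith

theorem hL_zero (x : ℝ) : hL 0 0 x = 1 := by
  unfold hL
  simp

/-- the case `A ≈ 1` -/
theorem nt_last : ∀ V : ℝ, mm V < 0 * V + (∫ a in (1 / 250 : ℝ)..(999 / 1000), hL 0 0 a) +
    247 / 10000 := by
  intro V
  have h := mm_le_one V
  simp only [hL_zero]
  rw [intervalIntegral.integral_const]
  norm_num
  linarith

/-- lower bound of `h` on `[1/250, 3/100]` -/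
theorem hL_ge {sg x : ℝ} (h0 : 0 ≤ sg) (h1 : sg ≤ 2.82) (hx0 : 1 / 250 ≤ x) (hx1 : x ≤ 3 / 100) :
    95 / 100 ≤ hL 0 sg x := by
  have hpi := Real.pi_gt_d2
  have hpi' := Real.pi_lt_d2
  unfold hL
  apply Real.le_sqrt_of_sq_le
  have e1 : I2 x = √(Real.pi * x) := by
    unfold I2 w2
    rw [min_eq_left]
    refine le_min ?_ ?_
    · nlinarith
    · nlinarith
  have e2 : max (0 + sg * x) 0 = sg * x := by
    rw [zero_add]
    exact max_eq_left (by positivity)
  rw [e1, e2, div_pow (sg * x), Real.sq_sqrt (by positivity)]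
  have e3 : (sg * x) ^ 2 / (Real.pi * x) = sg ^ 2 * x / Real.pi := by
    have : x ≠ 0 := by linarith
    field_simp
  rw [e3]
  have e4 : sg ^ 2 * x / Real.pi ≤ 76 / 1000 := by
    rw [div_le_iff₀ Real.pi_pos]
    have : sg ^ 2 ≤ 2.82 ^ 2 := by gcongr
    have : sg ^ 2 * x ≤ 2.82 ^ 2 * (3 / 100) := by gcongr
    norm_num at this ⊢
    nlinarith
  norm_num at e4 ⊢
  linarith

end Crest.Agent.R214.NT
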