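import Crest.Agent.R214.T3
import Crest.Agent.R214.NTa

/-!
# Row 214, NTb: a direction with `a1 ≤ 1/250` whose area function oscillates twice between
`1/250` and `3/100` is good
-/

set_option autoImplicit false

open MeasureTheory Set Filter Topology

namespace Crest.Agent.R214

section lm4

variable {P : ℝ} {a J : ℝ → ℝ} {an Tn : ℕ → ℝ → ℝ}

/-- line method with four points of convergence -/
lemma SQ.lm4 (Q : SQ P a J an Tn) (S : SD P a J) (c h : ℝ → ℝ) (hc : Continuous c)
    (hh : Continuous h) (c0 : ∀ s, 0 ≤ c s) (h0 : ∀ s, 0 ≤ h s)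
    (hch : ∀ s, c s ^ 2 + h s ^ 2 ≤ 1) {u0 u1 u2 u3 : ℝ} (h01 : u0 ≤ u1) (h12 : u1 ≤ u2)
    (h23 : u2 ≤ u3) (h30 : u3 ≤ u0 + 1)
    (k0 : Tendsto (fun n => an n u0) atTop (𝓝 (a u0)))
    (k1 : Tendsto (fun n => an n u1) atTop (𝓝 (a u1)))
    (k2 : Tendsto (fun n => an n u2) atTop (𝓝 (a u2)))
    (k3 : Tendsto (fun n => an n u3) atTop (𝓝 (a u3))) :
    2 * (∫ x in (0 : ℝ)..1, c (a x) * J x) + (|∫ s in (a u0)..(a u1), h s| +
      |∫ s in (a u1)..(a u2), h s| + |∫ s in (a u2)..(a u3), h s| +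
      |∫ s in (a u3)..(a u0), h s|) ≤ P := by
  have c1 : ∀ s, c s ≤ 1 := fun s => by nlinarith [hch s, sq_nonneg (h s), c0 s]
  have hHc : Continuous fun p : ℝ × ℝ => ∫ s in p.1..p.2, h s := by
    have e : (fun p : ℝ × ℝ => ∫ s in p.1..p.2, h s) =
        fun p : ℝ × ℝ => (∫ s in (0:ℝ)..p.2, h s) - ∫ s in (0:ℝ)..p.1, h s := by
      funext p
      rw [intervalIntegral.integral_interval_sub_left (hh.intervalIntegrable _ _)
        (hh.intervalIntegrable _ _)]
    rw [e]
    have hp : Continuous fun y => ∫ s in (0:ℝ)..y, h s :=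
      intervalIntegral.continuous_primitive (fun _ _ => hh.intervalIntegrable _ _) 0
    exact (hp.comp continuous_snd).sub (hp.comp continuous_fst)
  have ht : ∀ {u v : ℝ}, Tendsto (fun n => an n u) atTop (𝓝 (a u)) →
      Tendsto (fun n => an n v) atTop (𝓝 (a v)) →
      Tendsto (fun n => |∫ s in (an n u)..(an n v), h s|) atTop
      (𝓝 |∫ s in (a u)..(a v), h s|) := fun {u v} hu hv =>
    (hHc.abs.tendsto (a u, a v)).comp (hu.prodMk_nhds hv)
  have hb : Tendsto (fun n => P - (|∫ s in (an n u0)..(an n u1), h s| +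
      |∫ s in (an n u1)..(an n u2), h s| + |∫ s in (an n u2)..(an n u3), h s| +
      |∫ s in (an n u3)..(an n u0), h s|)) atTop
      (𝓝 (P - (|∫ s in (a u0)..(a u1), h s| +
      |∫ s in (a u1)..(a u2), h s| + |∫ s in (a u2)..(a u3), h s| +
      |∫ s in (a u3)..(a u0), h s|))) :=
    tendsto_const_nhds.sub ((((ht k0 k1).add (ht k1 k2)).add (ht k2 k3)).add (ht k3 k0))
  have hle : ∀ n, ∫ x in u0..(u0 + 1), c (an n x) * Tn n x ≤
      P - (|∫ s in (an n u0)..(an n u1), h s| +
      |∫ s in (an n u1)..(an n u2), h s| + |∫ s in (an n u2)..(an n u3), h s| +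
      |∫ s in (an n u3)..(an n u0), h s|) := by
    intro n
    have q1 := Q.key n c h hc hh (fun s _ => h0 s) (fun s _ => hch s) h01
    have q2 := Q.key n c h hc hh (fun s _ => h0 s) (fun s _ => hch s) h12
    have q3 := Q.key n c h hc hh (fun s _ => h0 s) (fun s _ => hch s) h23
    have q4 := Q.key n c h hc hh (fun s _ => h0 s) (fun s _ => hch s) h30
    rw [Q.per n u0] at q4
    have i1 : ∀ x y, IntervalIntegrable (fun x => c (an n x) * Tn n x) volume x y := fun x y =>
      ((hc.comp (Q.cont n)).mul (Q.contT n)).intervalIntegrable _ _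
    have e1 : (∫ x in u0..u1, c (an n x) * Tn n x) + (∫ x in u1..u2, c (an n x) * Tn n x) =
        ∫ x in u0..u2, c (an n x) * Tn n x :=
      intervalIntegral.integral_add_adjacent_intervals (i1 _ _) (i1 _ _)
    have e2 : (∫ x in u0..u2, c (an n x) * Tn n x) + (∫ x in u2..u3, c (an n x) * Tn n x) =
        ∫ x in u0..u3, c (an n x) * Tn n x :=
      intervalIntegral.integral_add_adjacent_intervals (i1 _ _) (i1 _ _)
    have e3 : (∫ x in u0..u3, c (an n x) * Tn n x) + (∫ x in u3..(u0 + 1), c (an n x) * Tn n x) =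
        ∫ x in u0..(u0 + 1), c (an n x) * Tn n x :=
      intervalIntegral.integral_add_adjacent_intervals (i1 _ _) (i1 _ _)
    have f1 := Q.Fn_add n u0 u1 u2
    have f2 := Q.Fn_add n u0 u2 u3
    have f3 := Q.Fn_add n u0 u3 (u0 + 1)
    have f4 := Q.Fn_per n u0
    linarith
  obtain ⟨-, f2⟩ := Q.fatou S.meas_J S.J0 (fun n x => c (an n x)) (fun x => c (a x))
    (fun n => (hc.comp (Q.cont n)).measurable) (hc.measurable.comp S.meas_a)
    (fun n x => c0 _) (fun n x => c1 _)
    (by filter_upwards [Q.conv] with x hx; exact (hc.tendsto _).comp hx)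
    _ _ hb (by linarith : u0 ≤ u0 + 1) (Eventually.of_forall hle)
  have hper : Function.Periodic (fun x => c (a x) * J x) 1 := by
    intro x; simp only [S.per_a x, S.per_J x]
  have hI := hper.intervalIntegral_add_eq u0 0
  rw [zero_add] at hI
  rw [hI] at f2
  linarith

end lm4

namespace NT

open T3

/-- the line through the origin, clamped: horizontal part -/
theorem coreB {P V A B sg δ : ℝ} {a J : ℝ → ℝ} {an Tn : ℕ → ℝ → ℝ} (Q : SQ P a J an Tn)
    (S : SD P a J) (hJ : ∀ᵐ x : ℝ, I2 (a x) ≤ J x) (haA : ∀ᵐ x : ℝ, a x ≤ A)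
    (hV : ∫ x in (0 : ℝ)..1, a x = V) (hB0 : 3 / 100 ≤ B) (hBA : B ≤ A) (hB1 : B < 1)
    (hs0 : 0 ≤ sg) (hs1 : sg ≤ 2.82)
    (hg : ∀ x ∈ Icc (1 / 250 : ℝ) B, sg * x ≤ I2 x)
    (hgB : B = A ∨ sg = 0)
    (hval : mm V + δ < sg * V + (∫ x in (1 / 250 : ℝ)..B, hL 0 sg x) + 247 / 10000)
    (hδ : 0 ≤ δ)
    {u0 u1 u2 u3 : ℝ} (h01 : u0 ≤ u1) (h12 : u1 ≤ u2) (h23 : u2 ≤ u3) (h30 : u3 ≤ u0 + 1)
    (k0 : Tendsto (fun n => an n u0) atTop (𝓝 (a u0)))
    (k1 : Tendsto (fun n => an n u1) atTop (𝓝 (a u1)))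
    (k2 : Tendsto (fun n => an n u2) atTop (𝓝 (a u2)))
    (k3 : Tendsto (fun n => an n u3) atTop (𝓝 (a u3)))
    (v0 : a u0 ≤ 1 / 250) (v1 : A - δ ≤ a u1) (v2 : a u2 ≤ 1 / 250) (v3 : 3 / 100 ≤ a u3) :
    mm V < P / 2 := by
  have hB2 : 1 / 250 ≤ B := by linarith
  have hclc : Continuous (cl B) := by unfold cl; fun_prop
  have hclpos : ∀ x, 0 < I2 (cl B x) := fun x => by
    obtain ⟨h3, h4⟩ := cl_mem hB2 x
    exact I2_pos (by linarith) (by linarith)
  set c : ℝ → ℝ := cc 0 sg B with hc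
  set h : ℝ → ℝ := fun x => hL 0 sg (cl B x) with hh
  have hcc : Continuous c := by
    have := continuous_I2
    show Continuous fun x => max (0 + sg * cl B x) 0 / I2 (cl B x)
    exact Continuous.div (by fun_prop) (by fun_prop) fun x => (hclpos x).ne'
  have c0 : ∀ x, 0 ≤ c x := fun x => div_nonneg (le_max_right _ _) (hclpos x).le
  have c1 : ∀ x, c x ≤ 1 := fun x => by
    refine div_le_one_of_le₀ (max_le ?_ (hclpos x).le) (hclpos x).le
    have := hg _ (cl_mem hB2 x)
    linarith
  have hhx : ∀ x, h x = √(1 - c x ^ 2) := fun x => rfl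
  have hhc : Continuous h := by
    have : h = fun x => √(1 - c x ^ 2) := funext hhx
    rw [this]
    fun_prop
  have h0 : ∀ x, 0 ≤ h x := fun x => Real.sqrt_nonneg _
  have h1 : ∀ x, h x ≤ 1 := fun x => hL_le_one _ _ _
  have hch : ∀ s, c s ^ 2 + h s ^ 2 ≤ 1 := fun s => by
    rw [hhx, Real.sq_sqrt]
    · linarith
    · nlinarith [c0 s, c1 s]
  have ii : ∀ x y, IntervalIntegrable h volume x y := fun x y => hhc.intervalIntegrable _ _
  obtain ⟨i1, -⟩ := S.lm c h hcc hhc c0 h0 hch (a1 := 2) (a2 := -1)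
    (fun δ hδ => by
      have : {x | a x < 2 + δ} = univ := by
        ext x; simp only [mem_setOf_eq, mem_univ, iff_true]; linarith [(S.a01 x).2]
      rw [this]; simp)
    (fun δ hδ => by
      have : {x | -1 - δ < a x} = univ := by
        ext x; simp only [mem_setOf_eq, mem_univ, iff_true]; linarith [(S.a01 x).1]
      rw [this]; simp)
  have hlm := Q.lm4 S c h hcc hhc c0 h0 hch h01 h12 h23 h30 k0 k1 k2 k3
  -- the vertical part
  have hmono : ∀ {x y x' y' : ℝ}, x ≤ x' → x' ≤ y' → y' ≤ y →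
      ∫ s in x'..y', h s ≤ ∫ s in x..y, h s := by
    intro x y x' y' hx hxy hy
    refine intervalIntegral.integral_mono_interval hx hxy hy ?_ (ii _ _)
    filter_upwards with x using h0 x
  have eB : ∫ x in (1 / 250 : ℝ)..B, hL 0 sg x = ∫ x in (1 / 250 : ℝ)..B, h x := by
    refine intervalIntegral.integral_congr fun x hx => ?_
    rw [uIcc_of_le hB2] at hx
    show hL 0 sg x = hL 0 sg (cl B x)
    have : cl B x = x := by
      unfold cl
      rw [min_eq_left hx.2, max_eq_right hx.1]
    rw [this]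
  have hbump : 247 / 10000 ≤ ∫ x in (1 / 250 : ℝ)..(3 / 100), h x := by
    have e1 : ∫ x in (1 / 250 : ℝ)..(3 / 100), (95 / 100 : ℝ) ≤
        ∫ x in (1 / 250 : ℝ)..(3 / 100), h x := by
      refine intervalIntegral.integral_mono_on (by norm_num) (by simp) (ii _ _) fun x hx => ?_
      have : cl B x = x := by
        unfold cl
        rw [min_eq_left (by linarith [hx.2]), max_eq_right hx.1]
      show 95 / 100 ≤ hL 0 sg (cl B x)
      rw [this]
      exact hL_ge hs0 hs1 hx.1 hx.2
    rw [intervalIntegral.integral_const] at e1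
    norm_num at e1 ⊢
    linarith
  have hAB : (∫ x in (1 / 250 : ℝ)..B, h x) - δ ≤ ∫ x in (1 / 250 : ℝ)..(A - δ), h x := by
    have e1 : (∫ x in (1 / 250 : ℝ)..(A - δ), h x) + ∫ x in (A - δ)..A, h x =
        ∫ x in (1 / 250 : ℝ)..A, h x :=
      intervalIntegral.integral_add_adjacent_intervals (ii _ _) (ii _ _)
    have e2 : ∫ x in (A - δ)..A, h x ≤ δ := by
      have : ∫ x in (A - δ)..A, h x ≤ ∫ x in (A - δ)..A, (1 : ℝ) :=
        intervalIntegral.integral_mono_on (by linarith) (ii _ _) (by simp) fun x _ => h1 x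
      rw [intervalIntegral.integral_const] at this
      simp only [smul_eq_mul, mul_one] at this
      linarith
    have e3 := hmono (le_refl (1 / 250 : ℝ)) hB2 hBA
    linarith
  have key : ∀ {x y p q : ℝ}, x ≤ p → q ≤ y → ∫ s in p..q, h s ≤ ∫ s in x..y, h s := by
    intro x y p q hx hy
    have e1 : (∫ s in x..p, h s) + ∫ s in p..q, h s = ∫ s in x..q, h s :=
      intervalIntegral.integral_add_adjacent_intervals (ii _ _) (ii _ _)
    have e2 : (∫ s in x..q, h s) + ∫ s in q..y, h s = ∫ s in x..y, h s :=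
      intervalIntegral.integral_add_adjacent_intervals (ii _ _) (ii _ _)
    have e3 : 0 ≤ ∫ s in x..p, h s := intervalIntegral.integral_nonneg hx fun s _ => h0 s
    have e4 : 0 ≤ ∫ s in q..y, h s := intervalIntegral.integral_nonneg hy fun s _ => h0 s
    linarith
  have w1 : ∫ x in (1 / 250 : ℝ)..(A - δ), h x ≤ |∫ s in (a u0)..(a u1), h s| :=
    (key v0 v1).trans (le_abs_self _)
  have sy : ∀ x y : ℝ, |∫ s in x..y, h s| = |∫ s in y..x, h s| := fun x y => by
    rw [intervalIntegral.integral_symm, abs_neg]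
  have w2 : ∫ x in (1 / 250 : ℝ)..(A - δ), h x ≤ |∫ s in (a u1)..(a u2), h s| := by
    rw [sy (a u1)]
    exact (key v2 v1).trans (le_abs_self _)
  have w3 : ∫ x in (1 / 250 : ℝ)..(3 / 100), h x ≤ |∫ s in (a u2)..(a u3), h s| :=
    (key v2 v3).trans (le_abs_self _)
  have w4 : ∫ x in (1 / 250 : ℝ)..(3 / 100), h x ≤ |∫ s in (a u3)..(a u0), h s| := by
    rw [sy (a u3)]
    exact (key v0 v3).trans (le_abs_self _)
  -- the horizontal part
  have hai : IntervalIntegrable a volume 0 1 := by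
    rw [intervalIntegrable_iff_integrableOn_Ioc_of_le zero_le_one]
    refine Integrable.mono' (g := fun _ => (1:ℝ)) (by simp) S.meas_a.aestronglyMeasurable ?_
    refine Eventually.of_forall fun x => ?_
    rw [Real.norm_eq_abs, abs_of_nonneg (S.a01 x).1]
    exact (S.a01 x).2
  have hpt : ∀ᵐ x : ℝ, sg * a x ≤ c (a x) * J x := by
    filter_upwards [hJ, haA] with x hx1 hx2
    have hx0 := (S.a01 x).1
    refine le_trans ?_ (mul_le_mul_of_nonneg_left hx1 (c0 (a x)))
    rcases le_or_gt (a x) (1 / 250) with h5 | h5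
    · have e1 : cl B (a x) = 1 / 250 := by
        unfold cl
        exact max_eq_left ((min_le_left _ _).trans h5)
      have e2 : c (a x) * I2 (a x) = (sg / 250) * √(250 * a x) := by
        show max (0 + sg * cl B (a x)) 0 / I2 (cl B (a x)) * I2 (a x) = _
        rw [e1, I2_small hx0 h5, I2_small (by norm_num) le_rfl]
        have e3 : √(Real.pi * a x) = √(250 * a x) * √(Real.pi * (1 / 250)) := by
          rw [← Real.sqrt_mul (by positivity)]
          congr 1
          ring
        have e4 : (0 : ℝ) < √(Real.pi * (1 / 250)) := Real.sqrt_pos.mpr (by positivity)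
        rw [e3, max_eq_left (by positivity)]
        field_simp
        ring
      rw [e2]
      have hu0 : 0 ≤ √(250 * a x) := Real.sqrt_nonneg _
      have hu1 : √(250 * a x) ≤ 1 := by
        apply Real.sqrt_le_one.2
        linarith
      have hu2 : a x = √(250 * a x) ^ 2 / 250 := by
        rw [Real.sq_sqrt (by linarith)]
        ring
      set u := √(250 * a x) with hu
      rw [hu2]
      nlinarith [mul_nonneg hs0 (mul_nonneg hu0 (sub_nonneg.2 hu1))]
    · rcases le_or_gt (a x) B with h6 | h6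
      · have e1 : cl B (a x) = a x := by
          unfold cl
          rw [min_eq_left h6, max_eq_right h5.le]
        have e2 : c (a x) * I2 (a x) = max (0 + sg * a x) 0 := by
          show max (0 + sg * cl B (a x)) 0 / I2 (cl B (a x)) * I2 (a x) = _
          rw [e1]
          have : I2 (a x) ≠ 0 := (I2_pos (by linarith) (by linarith)).ne'
          field_simp
        rw [e2]
        have := le_max_left (0 + sg * a x) 0
        linarith
      · rcases hgB with hgB | hgB
        · linarith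
        · rw [hgB, zero_mul]
          exact mul_nonneg (c0 _) (I2_nonneg _)
  have hhor : sg * V ≤ ∫ x in (0 : ℝ)..1, c (a x) * J x := by
    have e2 := intervalIntegral.integral_mono_ae zero_le_one (hai.const_mul sg) i1 hpt
    rw [intervalIntegral.integral_const_mul, hV] at e2
    exact e2
  linarith

end NT

end Crest.Agent.R214
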