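import Crest.Agent.R214.SD

/-!
# Row 214, NTc: the growth lemma for non-truncatable directions
-/

set_option autoImplicit false

open MeasureTheory Set Filter Topology

namespace Crest.Agent.R214.NT

/-- the constant `2 / (k √π)`, `k = 129/100` -/
noncomputable def tau (s : ℝ) : ℝ := 7 / 8 * √s

/-- growth: if `k ∫_0^x √(π f) ≤ f x` a.e. then `f x ≥ π k² x² / 4` a.e. -/
theorem growth {f : ℝ → ℝ} {L : ℝ} (hm : Measurable f) (f01 : ∀ x, 0 ≤ f x ∧ f x ≤ 1)
    (hpos : ∀ᵐ x : ℝ, 0 < f x)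
    (hk : ∀ᵐ x : ℝ, x ∈ Ioo 0 L → 129 / 100 * ∫ t in (0 : ℝ)..x, √(Real.pi * f t) ≤ f x) :
    ∀ᵐ x : ℝ, x ∈ Ioo 0 L → Real.pi * (129 / 100) ^ 2 * x ^ 2 / 4 ≤ f x := by
  set k : ℝ := 129 / 100 with hkdef
  have hk0 : 0 < k := by norm_num [hkdef]
  have hpi := Real.pi_pos
  set w : ℝ → ℝ := fun t => √(Real.pi * f t) with hw
  have hwm : Measurable w := (measurable_const.mul hm).sqrt
  have hw0 : ∀ t, 0 ≤ w t := fun t => Real.sqrt_nonneg _
  have hwb : ∀ t, w t ≤ √Real.pi := fun t => by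
    apply Real.sqrt_le_sqrt
    have := (f01 t).2
    nlinarith
  have hwi : ∀ x y, IntervalIntegrable w volume x y := by
    intro x y
    refine (intervalIntegrable_const (c := √Real.pi)).mono_fun hwm.aestronglyMeasurable ?_
    refine Eventually.of_forall fun t => ?_
    show ‖w t‖ ≤ ‖√Real.pi‖
    rw [Real.norm_of_nonneg (hw0 t), Real.norm_of_nonneg (Real.sqrt_nonneg _)]
    exact hwb t
  set Φ : ℝ → ℝ := fun x => ∫ t in (0 : ℝ)..x, w t with hΦ
  have hΦc : Continuous Φ := intervalIntegral.continuous_primitive hwi 0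
  have hΦpos : ∀ x, 0 < x → 0 < Φ x := by
    intro x hx
    refine (intervalIntegral.integral_pos_iff_support_of_nonneg_ae
      (Eventually.of_forall fun t => hw0 t) (hwi 0 x)).2 ⟨hx, ?_⟩
    have hsup : ∀ᵐ t : ℝ, t ∈ Function.support w := by
      filter_upwards [hpos] with t ht
      exact (Real.sqrt_pos.mpr (by positivity)).ne'
    have : volume (Function.support w ∩ Ioc 0 x) = volume (Ioc 0 x) := by
      refine measure_congr ?_
      have h1 : (Function.support w : Set ℝ) =ᵐ[volume] (univ : Set ℝ) :=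
        eventuallyEq_univ.2 hsup
      have := h1.inter (ae_eq_refl (Ioc 0 x))
      rwa [univ_inter] at this
    rw [this]
    simpa using hx
  set v : ℝ → ℝ := fun x => √(Real.pi * k * Φ x) with hv
  have hvc : Continuous v := by
    show Continuous fun x => √(Real.pi * k * Φ x)
    fun_prop
  have hv0 : ∀ x, 0 ≤ v x := fun x => Real.sqrt_nonneg _
  have hvpos : ∀ x, 0 < x → 0 < v x := fun x hx => Real.sqrt_pos.mpr (by have := hΦpos x hx; positivity)
  set Ψ : ℝ → ℝ := fun x => ∫ t in (0 : ℝ)..x, v t with hΨ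
  have hΨd : ∀ x, HasDerivAt Ψ (v x) x := fun x =>
    intervalIntegral.integral_hasDerivAt_right (hvc.intervalIntegrable _ _)
      (hvc.stronglyMeasurableAtFilter _ _) hvc.continuousAt
  have hΨpos : ∀ x, 0 < x → 0 < Ψ x := by
    intro x hx
    exact intervalIntegral.intervalIntegral_pos_of_pos_on (hvc.intervalIntegrable _ _)
      (fun t ht => hvpos t ht.1) hx
  have hΨΦ : ∀ x ∈ Icc 0 L, Ψ x ≤ Φ x := by
    intro x hx
    refine intervalIntegral.integral_mono_ae_restrict hx.1 (hvc.intervalIntegrable _ _) (hwi _ _) ?_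
    rw [Filter.EventuallyLE, ae_restrict_iff' measurableSet_Icc]
    have hne : ∀ᵐ t : ℝ, t ≠ 0 ∧ t ≠ L := by
      rw [ae_iff]
      refine measure_mono_null (t := {0, L}) ?_ ((Set.toFinite {0, L}).measure_zero _)
      intro t ht
      simp only [mem_ofPred_eq, not_and_or, not_not] at ht
      exact ht
    filter_upwards [hk, hne] with t ht htn hti
    have h1 : t ∈ Ioo 0 L := ⟨lt_of_le_of_ne hti.1 (Ne.symm htn.1),
      lt_of_le_of_ne (hti.2.trans hx.2) htn.2⟩
    have h2 := ht h1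
    apply Real.sqrt_le_sqrt
    have h3 : k * Φ t ≤ f t := h2
    nlinarith
  -- the square root grows linearly
  have hroot : ∀ x ∈ Ioo 0 L, √(Real.pi * k) / 2 * x ≤ √(Ψ x) := by
    intro x hx
    have hmono : MonotoneOn (fun y => √(Ψ y) - √(Real.pi * k) / 2 * y) (Icc 0 x) := by
      refine monotoneOn_of_deriv_nonneg (convex_Icc 0 x) ?_ ?_ ?_
      · have : Continuous Ψ := intervalIntegral.continuous_primitive
          (fun _ _ => hvc.intervalIntegrable _ _) 0
        fun_prop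
      · rw [interior_Icc]
        intro y hy
        have hy1 := hΨpos y hy.1
        exact (((hΨd y).sqrt hy1.ne').sub
          ((hasDerivAt_id y).const_mul (√(Real.pi * k) / 2))).differentiableAt.differentiableWithinAt
      · rw [interior_Icc]
        intro y hy
        have hy1 := hΨpos y hy.1
        have hd := ((hΨd y).sqrt hy1.ne').sub
          ((hasDerivAt_id y).const_mul (√(Real.pi * k) / 2))
        have e : deriv (fun y => √(Ψ y) - √(Real.pi * k) / 2 * y) y =
            v y / (2 * √(Ψ y)) - √(Real.pi * k) / 2 * 1 := hd.deriv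
        rw [e]
        have h1 : √(Real.pi * k) * √(Ψ y) ≤ v y := by
          rw [← Real.sqrt_mul (by positivity)]
          apply Real.sqrt_le_sqrt
          have := hΨΦ y ⟨hy.1.le, (hy.2.trans hx.2).le⟩
          have : 0 < Real.pi * k := by positivity
          nlinarith
        have h2 : 0 < √(Ψ y) := Real.sqrt_pos.mpr hy1
        rw [sub_nonneg, mul_one, div_le_div_iff₀ two_pos (by positivity)]
        nlinarith
    have := hmono ⟨le_rfl, hx.1.le⟩ ⟨hx.1.le, le_rfl⟩ hx.1.le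
    simp only [mul_zero, sub_zero] at this
    have h0 := Real.sqrt_nonneg (Ψ 0)
    linarith
  filter_upwards [hk] with x hx hxi
  have h1 := hx hxi
  have h2 := hΨΦ x ⟨hxi.1.le, hxi.2.le⟩
  have h3 := hroot x hxi
  have h4 : (√(Real.pi * k) / 2 * x) ^ 2 ≤ Ψ x := by
    have h5 : 0 ≤ √(Real.pi * k) / 2 * x := mul_nonneg (by positivity) hxi.1.le
    calc (√(Real.pi * k) / 2 * x) ^ 2 ≤ √(Ψ x) ^ 2 := by gcongr
      _ = Ψ x := Real.sq_sqrt (hΨpos x hxi.1).le
  have h6 : (√(Real.pi * k) / 2 * x) ^ 2 = Real.pi * k * x ^ 2 / 4 := by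
    rw [mul_pow, div_pow, Real.sq_sqrt (by positivity)]
    ring
  rw [h6] at h4
  have h7 : k * Φ x ≤ f x := h1
  have h8 := mul_le_mul_of_nonneg_left (h4.trans h2) hk0.le
  have h9 : k * (Real.pi * k * x ^ 2 / 4) = Real.pi * k ^ 2 * x ^ 2 / 4 := by ring
  rw [h9] at h8
  exact h8.trans h7

/-- the sublevel sets are short -/
theorem growth_short {f : ℝ → ℝ} {L s : ℝ} (hm : Measurable f) (f01 : ∀ x, 0 ≤ f x ∧ f x ≤ 1)
    (hpos : ∀ᵐ x : ℝ, 0 < f x)
    (hk : ∀ᵐ x : ℝ, x ∈ Ioo 0 L → 129 / 100 * ∫ t in (0 : ℝ)..x, √(Real.pi * f t) ≤ f x) :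
    ∀ᵐ x : ℝ, x ∈ Ioo 0 L → f x ≤ s → x ≤ tau s := by
  filter_upwards [growth hm f01 hpos hk] with x hx hxi hxs
  have h1 := hx hxi
  have hs : 0 ≤ s := (f01 x).1.trans hxs
  unfold tau
  have hpi := Real.pi_gt_d4
  by_contra hcon
  push Not at hcon
  have h2 : (7 / 8 * √s) ^ 2 < x ^ 2 := by
    have : 0 ≤ 7 / 8 * √s := by positivity
    nlinarith
  rw [mul_pow, Real.sq_sqrt hs] at h2
  have hx0 : 0 < x := hxi.1
  have h3 : 3.1415 * (129 / 100) ^ 2 * x ^ 2 / 4 ≤ Real.pi * (129 / 100) ^ 2 * x ^ 2 / 4 := by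
    have : 0 ≤ x ^ 2 := by positivity
    nlinarith
  norm_num at h2 h3
  nlinarith

end Crest.Agent.R214.NT
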