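import Crest.Agent.R214.NTb
import Crest.Agent.R214.NTc

/-!
# Row 214: a non-truncatable direction with `a1 ≤ 1/250` is good
-/

set_option autoImplicit false

open MeasureTheory Set Filter Topology

namespace Crest.Agent.R214

namespace NT

theorem tau_nonneg (s : ℝ) : 0 ≤ tau s := by unfold tau; positivity

/-- one side of the median -/
theorem half {f : ℝ → ℝ} {L R s : ℝ} (hm : Measurable f) (f01 : ∀ x, 0 ≤ f x ∧ f x ≤ 1)
    (hpos : ∀ᵐ x : ℝ, 0 < f x)
    (hk : ∀ᵐ x : ℝ, x ∈ Ioo 0 L → 129 / 100 * ∫ t in (0 : ℝ)..x, √(Real.pi * f t) ≤ f x)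
    (hout : ∀ᵐ x : ℝ, x ∈ Ioo L R → s < f x) :
    volume ({x | f x ≤ s} ∩ Ioo 0 R) ≤ ENNReal.ofReal (tau s) := by
  have h1 := growth_short (s := s) hm f01 hpos hk
  have hne : ∀ᵐ t : ℝ, t ≠ L := by
    rw [ae_iff]
    simp
  calc volume ({x | f x ≤ s} ∩ Ioo 0 R) ≤ volume (Icc 0 (tau s)) := by
        refine measure_mono_ae ?_
        filter_upwards [h1, hout, hne] with x hx1 hx2 hx3 hx
        obtain ⟨hxs, hx0, hxR⟩ := hx
        refine ⟨hx0.le, ?_⟩
        rcases lt_trichotomy x L with h | h | h
        · exact hx1 ⟨hx0, h⟩ hxs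
        · exact absurd h hx3
        · exact absurd hxs (not_le.mpr (hx2 ⟨h, hxR⟩))
    _ = ENNReal.ofReal (tau s) := by rw [Real.volume_Icc, sub_zero]

end NT

open NT in
/-- a non-truncatable direction with `a1 ≤ 1/250`, `A ≥ 0.318` is good -/
theorem SD.nontrunc {P V A a1 : ℝ} {a J : ℝ → ℝ} (S : SD P a J) (hJ : ∀ᵐ x : ℝ, I2 (a x) ≤ J x)
    (hA0 : 0.318 ≤ A) (hA1 : A ≤ 1) (haA : ∀ᵐ x : ℝ, a x ≤ A)
    (ha1 : ∀ δ > 0, 0 < volume ({x | a x < a1 + δ} ∩ Ico 0 1))
    (ha2 : ∀ δ > 0, 0 < volume ({x | A - δ < a x} ∩ Ico 0 1)) (h1 : a1 ≤ 1 / 250)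
    (hV : ∫ x in (0 : ℝ)..1, a x = V) (hV1 : V ≤ 1 / 2)
    (hpos : ∀ᵐ x : ℝ, 0 < a x) (G : Set ℝ) (hG : ∀ᵐ x : ℝ, x ∈ G)
    (hNT : ∀ y1 ∈ G, ∀ y2 ∈ G, y1 < y2 → y2 < y1 + 1 →
      (∀ᵐ x : ℝ, x ∈ Ioo y1 y2 → a x ≤ 3 / 100) →
      129 / 100 * ∫ x in y1..y2, √(Real.pi * a x) < a y1 + a y2) :
    mm V < P / 2 := by
  obtain ⟨an, Tn, Q⟩ := S.seq
  have hV0 : 0 ≤ V := by
    rw [← hV]
    exact intervalIntegral.integral_nonneg zero_le_one fun x _ => (S.a01 x).1
  norm_num at hA0
  set Cv : Set ℝ := {x | Tendsto (fun n => an n x) atTop (𝓝 (a x))} with hCvdef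
  have hCv : ∀ᵐ x : ℝ, x ∈ Cv := Q.conv
  have hCvk : ∀ x ∈ Cv, ∀ k : ℤ, x + k ∈ Cv ∧ a (x + k) = a x := by
    intro x hx k
    have e1 : ∀ n, an n (x + k) = an n x := fun n => by
      have := (Q.per n).int_mul k x
      simpa using this
    have e2 : a (x + k) = a x := by
      have := S.per_a.int_mul k x
      simpa using this
    refine ⟨?_, e2⟩
    show Tendsto (fun n => an n (x + k)) atTop (𝓝 (a (x + k)))
    simp only [e1, e2]
    exact hx
  by_cases hB : ∃ x1 y1 x2 y2, x1 < y1 ∧ y1 < x2 ∧ x2 < y2 ∧ y2 < x1 + 1 ∧ x1 ∈ Cv ∧ y1 ∈ Cv ∧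
      x2 ∈ Cv ∧ y2 ∈ Cv ∧ a x1 ≤ 1 / 250 ∧ 3 / 100 < a y1 ∧ a x2 ≤ 1 / 250 ∧ 3 / 100 < a y2
  · -- two oscillations
    obtain ⟨x1, y1, x2, y2, o1, o2, o3, o4, c1, c2, c3, c4, v1, v2, v3, v4⟩ := hB
    have main : ∀ B sg : ℝ, 3 / 100 ≤ B → B ≤ A → B < 1 → 0 ≤ sg → sg ≤ 2.82 →
        (∀ x ∈ Icc (1 / 250 : ℝ) B, sg * x ≤ I2 x) → (B = A ∨ sg = 0) →
        (mm V < sg * V + (∫ x in (1 / 250 : ℝ)..B, hL 0 sg x) + 247 / 10000) → mm V < P / 2 := by
      intro B sg hB0 hBA hB1 hs0 hs1 hg hgB hval
      set δ : ℝ := (sg * V + (∫ x in (1 / 250 : ℝ)..B, hL 0 sg x) + 247 / 10000 - mm V) / 2 with hδ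
      have hδ0 : 0 < δ := by rw [hδ]; linarith
      have hval' : mm V + δ < sg * V + (∫ x in (1 / 250 : ℝ)..B, hL 0 sg x) + 247 / 10000 := by
        rw [hδ]; linarith
      obtain ⟨z, hz, hz1, hz2⟩ := exists_of_ae_pos Q.conv (ha2 δ hδ0)
      set k : ℤ := -⌊z - x1⌋ with hk
      obtain ⟨q1, q2⟩ := hCvk z hz1 k
      set z' : ℝ := z + k with hz'
      have hz'1 : x1 ≤ z' := by
        have := Int.floor_le (z - x1)
        rw [hz', hk]; push_cast; linarith
      have hz'2 : z' < x1 + 1 := by
        have := Int.lt_floor_add_one (z - x1)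
        rw [hz', hk]; push_cast; linarith
      have hz'3 : A - δ ≤ a z' := by rw [q2]; exact hz2.le
      rcases le_total z' x2 with hzx | hzx
      · exact coreB Q S hJ haA hV hB0 hBA hB1 hs0 hs1 hg hgB hval' hδ0.le hz'1 hzx o3.le o4.le
          c1 q1 c3 c4 v1 hz'3 v3 v4.le
      · have r1 := hCvk x1 c1 1
        have r2 := hCvk y1 c2 1
        simp only [Int.cast_one] at r1 r2
        exact coreB Q S hJ haA hV hB0 hBA hB1 hs0 hs1 hg hgB hval' hδ0.le hzx hz'2.le
          (by linarith : x1 + 1 ≤ y1 + 1) (by linarith) c3 q1 r1.1 r2.1 v3 hz'3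
          (by rw [r1.2]; exact v1) (by rw [r2.2]; exact v2.le)
    rcases le_or_gt A (999 / 1000) with h | h
    · obtain ⟨sg, hs1, hs2, hg, hval⟩ := nt_line (A := A) (by norm_num; linarith) hA1
      exact main A sg (by linarith) le_rfl (by linarith) hs1 hs2 hg (Or.inl rfl) (hval V hV0 hV1)
    · exact main (999 / 1000) 0 (by norm_num) h.le (by norm_num) le_rfl (by norm_num)
        (fun x _ => by rw [zero_mul]; exact T3.I2_nonneg x) (Or.inr rfl) (nt_last V)
  · -- one oscillation: the time bound
    push Not at hB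
    obtain ⟨ys, hys, hys1, hys2⟩ := exists_of_ae_pos Q.conv (ha2 (1 / 10) (by norm_num))
    have hys3 : 3 / 100 < a ys := by
      have : A - 1 / 10 < a ys := hys2
      linarith
    have hysC : ys + 1 ∈ Cv ∧ a (ys + 1) = a ys := by
      have := hCvk ys hys1 1
      simpa using this
    refine S.t3 hJ (by norm_num; linarith) hA1 haA ha1 ha2 h1 hV hV1 fun s s0 s1 => ?_
    have hm : Measurable a := S.meas_a
    set T : Set ℝ := {x | a x ≤ s} with hT
    have hTm : MeasurableSet T := measurableSet_le hm measurable_const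
    -- the volume as an integral
    set ind : ℝ → ℝ := T.indicator fun _ => (1 : ℝ) with hind
    have hind_m : Measurable ind := measurable_const.indicator hTm
    have hind_i : ∀ u v, IntervalIntegrable ind volume u v := by
      intro u v
      refine (intervalIntegrable_const (c := (1 : ℝ))).mono_fun hind_m.aestronglyMeasurable ?_
      refine Eventually.of_forall fun t => ?_
      simp only [hind, indicator]
      split_ifs <;> simp
    have hint : ∀ u v : ℝ, u ≤ v → ENNReal.ofReal (∫ x in u..v, ind x) = volume (T ∩ Ioo u v) := by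
      intro u v huv
      rw [intervalIntegral.integral_of_le huv, integral_Ioc_eq_integral_Ioo, hind,
        integral_indicator hTm, integral_const, smul_eq_mul, mul_one, measureReal_def,
        Measure.restrict_apply MeasurableSet.univ, univ_inter,
        Measure.restrict_apply hTm, ENNReal.ofReal_toReal]
      exact ((measure_mono inter_subset_right).trans_lt (by simp)).ne
    have hper : Function.Periodic ind 1 := by
      intro x
      have : (x + 1 ∈ T) ↔ x ∈ T := by
        show a (x + 1) ≤ s ↔ a x ≤ s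
        rw [S.per_a x]
      simp only [hind, indicator, this]
    have hvol : volume (T ∩ Ico 0 1) = ENNReal.ofReal (∫ x in ys..(ys + 1), ind x) := by
      have e1 := hper.intervalIntegral_add_eq 0 ys
      rw [zero_add] at e1
      rw [← e1, hint 0 1 zero_le_one]
      exact measure_congr ((ae_eq_refl _).inter Ioo_ae_eq_Ico.symm)
    rw [hvol]
    set m : ℝ := ∫ x in ys..(ys + 1), ind x with hmdef
    by_contra hcon
    push Not at hcon
    have hm2 : 2 * tau s < m := by
      have h2 : 7 / 4 * √s < m := by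
        by_contra h3
        push Not at h3
        exact absurd (ENNReal.ofReal_le_ofReal h3) (not_le.mpr hcon)
      unfold tau
      linarith
    have htau := tau_nonneg s
    have hm0 : 0 < m := by linarith
    -- the median
    obtain ⟨y0, hy0, hy0m⟩ : ∃ y0 ∈ Icc ys (ys + 1), ∫ x in ys..y0, ind x = m / 2 := by
      have hc : ContinuousOn (fun y => ∫ x in ys..y, ind x) (Icc ys (ys + 1)) :=
        (intervalIntegral.continuous_primitive hind_i ys).continuousOn
      have := intermediate_value_Icc (by linarith : ys ≤ ys + 1) hc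
      have hmem : m / 2 ∈ Icc (∫ x in ys..ys, ind x) (∫ x in ys..(ys + 1), ind x) := by
        rw [intervalIntegral.integral_same]
        constructor
        · linarith
        · show m / 2 ≤ m
          linarith
      obtain ⟨y0, h1, h2⟩ := this hmem
      exact ⟨y0, h1, h2⟩
    have hy0r : ∫ x in y0..(ys + 1), ind x = m / 2 := by
      have := intervalIntegral.integral_add_adjacent_intervals (hind_i ys y0) (hind_i y0 (ys + 1))
      rw [hy0m] at this
      linarith
    -- the hull
    set K : Set ℝ := {x | x ∈ Cv ∧ x ∈ Ioo ys (ys + 1) ∧ a x ≤ s} with hK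
    have hKb : BddBelow K := ⟨ys, fun x hx => hx.2.1.1.le⟩
    have hKa : BddAbove K := ⟨ys + 1, fun x hx => hx.2.1.2.le⟩
    set α := sInf K with hα
    set β := sSup K with hβ
    have hKne : K.Nonempty := by
      by_contra hemp
      rw [not_nonempty_iff_eq_empty] at hemp
      have : volume (T ∩ Ioo ys (ys + 1)) = 0 := by
        rw [← le_zero_iff]
        have h0 : volume (Cvᶜ) = 0 := hCv
        rw [← h0]
        refine measure_mono fun x hx => ?_
        intro hxC
        have : x ∈ K := ⟨hxC, hx.2, hx.1⟩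
        rw [hemp] at this
        exact this
      rw [← hint ys (ys + 1) (by linarith), ENNReal.ofReal_eq_zero] at this
      have h3 : m ≤ 0 := this
      linarith
    have hout1 : ∀ x ∈ Cv, x ∈ Ioo ys (ys + 1) → x < α → s < a x := by
      intro x hx1 hx2 hx3
      by_contra h
      push Not at h
      exact absurd (csInf_le hKb ⟨hx1, hx2, h⟩) (not_le.mpr hx3)
    have hout2 : ∀ x ∈ Cv, x ∈ Ioo ys (ys + 1) → β < x → s < a x := by
      intro x hx1 hx2 hx3
      by_contra h
      push Not at h
      exact absurd (le_csSup hKa ⟨hx1, hx2, h⟩) (not_le.mpr hx3)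
    have hin : ∀ x ∈ Cv, α < x → x < β → a x ≤ 3 / 100 := by
      intro x hx hx1 hx2
      obtain ⟨x1, hx1K, hx1x⟩ := exists_lt_of_csInf_lt hKne hx1
      obtain ⟨x2, hx2K, hx2x⟩ := exists_lt_of_lt_csSup hKne hx2
      by_contra h
      push Not at h
      have := hB x1 x x2 (ys + 1) hx1x hx2x hx2K.2.1.2 (by linarith [hx1K.2.1.1]) hx1K.1 hx hx2K.1
        hysC.1 (hx1K.2.2.trans s1) h (hx2K.2.2.trans s1)
      rw [hysC.2] at this
      linarith
    have hαy : α < y0 := by
      by_contra h
      push Not at h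
      have : volume (T ∩ Ioo ys y0) = 0 := by
        rw [← le_zero_iff]
        have h0 : volume (Cvᶜ) = 0 := hCv
        rw [← h0]
        refine measure_mono fun x hx => ?_
        intro hxC
        have h2 := hout1 x hxC ⟨hx.2.1, lt_of_lt_of_le hx.2.2 hy0.2⟩ (lt_of_lt_of_le hx.2.2 h)
        exact absurd hx.1 (not_le.mpr h2)
      rw [← hint ys y0 hy0.1, ENNReal.ofReal_eq_zero, hy0m] at this
      linarith
    have hyβ : y0 < β := by
      by_contra h
      push Not at h
      have : volume (T ∩ Ioo y0 (ys + 1)) = 0 := by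
        rw [← le_zero_iff]
        have h0 : volume (Cvᶜ) = 0 := hCv
        rw [← h0]
        refine measure_mono fun x hx => ?_
        intro hxC
        have h2 := hout2 x hxC ⟨lt_of_le_of_lt hy0.1 hx.2.1, hx.2.2⟩ (lt_of_le_of_lt h hx.2.1)
        exact absurd hx.1 (not_le.mpr h2)
      rw [← hint y0 (ys + 1) hy0.2, ENNReal.ofReal_eq_zero, hy0r] at this
      linarith
    have hαs : ys ≤ α := le_csInf hKne fun x hx => hx.2.1.1.le
    have hβs : β ≤ ys + 1 := csSup_le hKne fun x hx => hx.2.1.2.le
    -- the non-truncatability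
    set w : ℝ → ℝ := fun x => √(Real.pi * a x) with hw
    have hwm : Measurable w := (measurable_const.mul hm).sqrt
    have hwi : ∀ x y, IntervalIntegrable w volume x y := by
      intro x y
      refine (intervalIntegrable_const (c := √Real.pi)).mono_fun hwm.aestronglyMeasurable ?_
      refine Eventually.of_forall fun t => ?_
      show ‖w t‖ ≤ ‖√Real.pi‖
      rw [Real.norm_of_nonneg (Real.sqrt_nonneg _), Real.norm_of_nonneg (Real.sqrt_nonneg _)]
      apply Real.sqrt_le_sqrt
      have := (S.a01 t).2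
      nlinarith [Real.pi_pos]
    have hnt : ∀ y1 ∈ G, ∀ y2 ∈ G, α < y1 → y1 < y0 → y0 < y2 → y2 < β →
        129 / 100 * (∫ x in y1..y0, w x) + 129 / 100 * (∫ x in y0..y2, w x) < a y1 + a y2 := by
      intro y1 g1 y2 g2 l1 l2 l3 l4
      have := hNT y1 g1 y2 g2 (l2.trans l3) (by linarith) (by
        filter_upwards [hCv] with x hx hxi
        exact hin x hx (l1.trans hxi.1) (hxi.2.trans l4))
      have e := intervalIntegral.integral_add_adjacent_intervals (hwi y1 y0) (hwi y0 y2)
      rw [← e, mul_add] at this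
      exact this
    have hqr : Measure.QuasiMeasurePreserving (fun x : ℝ => y0 + x) volume volume :=
      (measurePreserving_add_left volume y0).quasiMeasurePreserving
    have hql : Measure.QuasiMeasurePreserving (fun x : ℝ => y0 - x) volume volume :=
      (Measure.measurePreserving_sub_left volume y0).quasiMeasurePreserving
    by_cases hR : ∀ y2 ∈ G, y0 < y2 → y2 < β → 129 / 100 * (∫ x in y0..y2, w x) ≤ a y2
    · -- the right side
      have hh := half (f := fun x => a (y0 + x)) (L := β - y0) (R := ys + 1 - y0) (s := s)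
        (hm.comp (measurable_const.add measurable_id)) (fun x => S.a01 _)
        (hqr.ae hpos) (by
          filter_upwards [hqr.ae hG] with x hx hxi
          have := hR _ hx (by linarith [hxi.1]) (by linarith [hxi.2])
          have e : ∫ t in (0 : ℝ)..x, √(Real.pi * a (y0 + t)) = ∫ t in y0..(y0 + x), w t := by
            have := intervalIntegral.integral_comp_add_left (a := 0) (b := x) w y0
            rw [add_zero] at this
            exact this
          rw [e]
          exact this) (by
          filter_upwards [hqr.ae hCv] with x hx hxi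
          exact hout2 _ hx ⟨by linarith [hxi.1], by linarith [hxi.2]⟩ (by linarith [hxi.1]))
      have e1 : volume ({x | a (y0 + x) ≤ s} ∩ Ioo 0 (ys + 1 - y0)) =
          volume (T ∩ Ioo y0 (ys + 1)) := by
        have : {x | a (y0 + x) ≤ s} ∩ Ioo 0 (ys + 1 - y0) =
            (fun x => y0 + x) ⁻¹' (T ∩ Ioo y0 (ys + 1)) := by
          ext x
          simp only [mem_inter_iff, mem_setOf_eq, mem_Ioo, mem_preimage, hT]
          constructor
          · rintro ⟨h1, h2, h3⟩; exact ⟨h1, by linarith, by linarith⟩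
          · rintro ⟨h1, h2, h3⟩; exact ⟨h1, by linarith, by linarith⟩
        rw [this, measure_preimage_add]
      rw [e1, ← hint y0 (ys + 1) hy0.2, hy0r] at hh
      have := (ENNReal.ofReal_le_ofReal_iff htau).1 hh
      linarith
    · -- the left side
      push Not at hR
      obtain ⟨y2, g2, l3, l4, l5⟩ := hR
      have hh := half (f := fun x => a (y0 - x)) (L := y0 - α) (R := y0 - ys) (s := s)
        (hm.comp (measurable_const.sub measurable_id)) (fun x => S.a01 _)
        (hql.ae hpos) (by
          filter_upwards [hql.ae hG] with x hx hxi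
          have := hnt _ hx y2 g2 (by linarith [hxi.2]) (by linarith [hxi.1]) l3 l4
          have e : ∫ t in (0 : ℝ)..x, √(Real.pi * a (y0 - t)) = ∫ t in (y0 - x)..y0, w t := by
            have := intervalIntegral.integral_comp_sub_left (a := 0) (b := x) w y0
            rw [sub_zero] at this
            exact this
          rw [e]
          linarith) (by
          filter_upwards [hql.ae hCv] with x hx hxi
          exact hout1 _ hx ⟨by linarith [hxi.2], by linarith [hxi.1]⟩ (by linarith [hxi.1]))
      have e1 : volume ({x | a (y0 - x) ≤ s} ∩ Ioo 0 (y0 - ys)) =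
          volume (T ∩ Ioo ys y0) := by
        have : {x | a (y0 - x) ≤ s} ∩ Ioo 0 (y0 - ys) =
            (fun x => y0 - x) ⁻¹' (T ∩ Ioo ys y0) := by
          ext x
          simp only [mem_inter_iff, mem_setOf_eq, mem_Ioo, mem_preimage, hT]
          constructor
          · rintro ⟨h1, h2, h3⟩; exact ⟨h1, by linarith, by linarith⟩
          · rintro ⟨h1, h2, h3⟩; exact ⟨h1, by linarith, by linarith⟩
        rw [this]
        exact (Measure.measurePreserving_sub_left volume y0).measure_preimage
          ((hTm.inter measurableSet_Ioo).nullMeasurableSet)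
      rw [e1, ← hint ys y0 hy0.1, hy0m] at hh
      have := (ENNReal.ofReal_le_ofReal_iff htau).1 hh
      linarith

end Crest.Agent.R214
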