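import Crest.Agent.R214.Neck

/-! ROW 214: `PhiN 0 = 1` (one copy for all files). -/

set_option autoImplicit false

namespace Crest.Agent.R214

theorem PhiN_zero : PhiN 0 = 1 := by unfold PhiN; simp

end Crest.Agent.R214
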