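import Mathlib

/-!
# Row 214, M7: the profile relation in the equality case of the line method

Abstract one-dimensional statement: `a` is the slice profile, `ak k` the profiles of the mollified
functions, `pk k t` the total variations of their slices, `J` the lower bound of the slice
perimeter as a function of the slice area.  Equality in the line method forces
`|Φ(a z₂) - Φ(a z₁)| ≤ ∫ h v c J (a)` for `Φ' = c² v`, over both arcs between `z₁` and `z₂`.
-/

set_option autoImplicit false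

open MeasureTheory Filter Set
open scoped Topology

namespace Crest.Agent.R214

/-- data of a profile with its approximations -/
structure ProfData (A P : ℝ) (a : ℝ → ℝ) (ak pk : ℕ → ℝ → ℝ) (J : ℝ → ℝ) : Prop where
  meas : Measurable a
  rng : ∀ t, a t ∈ Icc (0 : ℝ) 1
  cd : ∀ k, ContDiff ℝ 1 (ak k)
  per : ∀ k, ak k 0 = ak k 1
  krng : ∀ k t, ak k t ∈ Icc (0 : ℝ) 1
  pint : ∀ k, IntegrableOn (pk k) (Ioc 0 1)
  pnn : ∀ k t, 0 ≤ pk k t
  lim : ∀ᵐ t ∂(volume.restrict (Ioc (0 : ℝ) 1)), Tendsto (fun k => ak k t) atTop (𝓝 (a t))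
  liminf : ∀ᵐ t ∂(volume.restrict (Ioc (0 : ℝ) 1)), ∀ δ > 0, ∀ᶠ k in atTop, J t - δ ≤ pk k t
  perim : ∀ k, ∫ t in Ioc (0 : ℝ) 1, Real.sqrt (pk k t ^ 2 + deriv (ak k) t ^ 2) ≤ P
  sup : ∀ η > 0, ∃ t ∈ Ioc (0 : ℝ) 1, Tendsto (fun k => ak k t) atTop (𝓝 (a t)) ∧ A - η < a t
  inf : ∀ η > 0, ∃ t ∈ Ioc (0 : ℝ) 1, Tendsto (fun k => ak k t) atTop (𝓝 (a t)) ∧ a t < η

/-- primitive -/
noncomputable def prim (w : ℝ → ℝ) (α : ℝ) : ℝ := ∫ β in (0 : ℝ)..α, w β

theorem prim_hasDeriv {w : ℝ → ℝ} (hw : Continuous w) (α : ℝ) : HasDerivAt (prim w) (w α) α :=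
  intervalIntegral.integral_hasDerivAt_right (hw.intervalIntegrable _ _)
    hw.stronglyMeasurable.stronglyMeasurableAtFilter hw.continuousAt

theorem prim_continuous {w : ℝ → ℝ} (hw : Continuous w) : Continuous (prim w) :=
  continuous_iff_continuousAt.2 fun α => (prim_hasDeriv hw α).continuousAt

theorem prim_mono {w : ℝ → ℝ} (hw : Continuous w) (hw0 : ∀ α, 0 ≤ w α) : Monotone (prim w) :=
  monotone_of_deriv_nonneg (fun α => (prim_hasDeriv hw α).differentiableAt)
    fun α => by rw [(prim_hasDeriv hw α).deriv]; exact hw0 α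

/-- variation of `prim w ∘ f` over an interval -/
theorem prim_comp_le {w f : ℝ → ℝ} (hw : Continuous w) (hw0 : ∀ α, 0 ≤ w α) (hf : ContDiff ℝ 1 f)
    {z₁ z₂ : ℝ} (h : z₁ ≤ z₂) :
    |prim w (f z₂) - prim w (f z₁)| ≤ ∫ t in Ioc z₁ z₂, w (f t) * |deriv f t| := by
  have hd : ∀ t, HasDerivAt (fun t => prim w (f t)) (w (f t) * deriv f t) t := fun t =>
    (prim_hasDeriv hw (f t)).comp t (hf.differentiable one_ne_zero t).hasDerivAt
  have hc : Continuous fun t => w (f t) * deriv f t :=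
    (hw.comp hf.continuous).mul (hf.continuous_deriv le_rfl)
  rw [← intervalIntegral.integral_eq_sub_of_hasDerivAt (fun t _ => hd t)
    (hc.intervalIntegrable _ _), intervalIntegral.integral_of_le h]
  rw [← Real.norm_eq_abs]
  refine (norm_integral_le_integral_norm _).trans (le_of_eq ?_)
  refine integral_congr_ae (Eventually.of_forall fun t => ?_)
  dsimp only
  rw [Real.norm_eq_abs, abs_mul, abs_of_nonneg (hw0 _)]

/-- the two arcs -/
theorem two_arcs {w f : ℝ → ℝ} (hw : Continuous w) (hw0 : ∀ α, 0 ≤ w α) (hf : ContDiff ℝ 1 f)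
    (hper : f 0 = f 1) {z₁ z₂ : ℝ} (h0 : 0 ≤ z₁) (h : z₁ ≤ z₂) (h1 : z₂ ≤ 1) :
    |prim w (f z₂) - prim w (f z₁)| ≤
      ∫ t in Ioc 0 z₁ ∪ Ioc z₂ 1, w (f t) * |deriv f t| := by
  have hc : Continuous fun t => w (f t) * |deriv f t| :=
    (hw.comp hf.continuous).mul (hf.continuous_deriv le_rfl).abs
  have hi : ∀ x y : ℝ, IntegrableOn (fun t => w (f t) * |deriv f t|) (Ioc x y) := fun x y =>
    hc.integrableOn_Ioc
  rw [setIntegral_union (by
    rw [Set.disjoint_left]
    intro t ht ht'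
    exact absurd ht.2 (not_le.2 (h.trans_lt ht'.1))) measurableSet_Ioc (hi _ _) (hi _ _)]
  have e1 := prim_comp_le hw hw0 hf h0
  have e2 := prim_comp_le hw hw0 hf h1
  rw [hper] at e1
  have e3 : prim w (f z₂) - prim w (f z₁) =
      -(prim w (f 1) - prim w (f z₂)) - (prim w (f z₁) - prim w (f 1)) := by ring
  rw [e3]
  refine (abs_sub _ _).trans ?_
  rw [abs_neg]
  linarith

/-- twice the oscillation -/
theorem twice_osc {w f : ℝ → ℝ} (hw : Continuous w) (hw0 : ∀ α, 0 ≤ w α) (hf : ContDiff ℝ 1 f)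
    (hper : f 0 = f 1) {z₁ z₂ : ℝ} (h0 : z₁ ∈ Ioc (0 : ℝ) 1) (h1 : z₂ ∈ Ioc (0 : ℝ) 1) :
    2 * (prim w (f z₂) - prim w (f z₁)) ≤ ∫ t in Ioc 0 1, w (f t) * |deriv f t| := by
  have hc : Continuous fun t => w (f t) * |deriv f t| :=
    (hw.comp hf.continuous).mul (hf.continuous_deriv le_rfl).abs
  have hi : ∀ x y : ℝ, IntegrableOn (fun t => w (f t) * |deriv f t|) (Ioc x y) := fun x y =>
    hc.integrableOn_Ioc
  have key : ∀ x y : ℝ, 0 ≤ x → x ≤ y → y ≤ 1 →
      2 * |prim w (f y) - prim w (f x)| ≤ ∫ t in Ioc 0 1, w (f t) * |deriv f t| := by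
    intro x y hx hxy hy
    have e1 := prim_comp_le hw hw0 hf hxy
    have e2 := two_arcs hw hw0 hf hper hx hxy hy
    have e3 : Ioc (0 : ℝ) 1 = (Ioc 0 x ∪ Ioc y 1) ∪ Ioc x y := by
      ext t
      simp only [mem_union, mem_Ioc]
      constructor
      · intro ht
        rcases le_or_gt t x with h2 | h2
        · exact Or.inl (Or.inl ⟨ht.1, h2⟩)
        · rcases le_or_gt t y with h3 | h3
          · exact Or.inr ⟨h2, h3⟩
          · exact Or.inl (Or.inr ⟨h3, ht.2⟩)
      · rintro ((ht | ht) | ht)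
        · exact ⟨ht.1, ht.2.trans (hxy.trans hy)⟩
        · exact ⟨lt_of_le_of_lt (hx.trans hxy) ht.1, ht.2⟩
        · exact ⟨lt_of_le_of_lt hx ht.1, ht.2.trans hy⟩
    rw [e3, setIntegral_union (by
      rw [Set.disjoint_left]
      rintro t (ht | ht) ht'
      · exact absurd ht.2 (not_le.2 ht'.1)
      · exact absurd ht'.2 (not_le.2 ht.1)) measurableSet_Ioc ((hi _ _).union (hi _ _)) (hi _ _)]
    linarith
  rcases le_total z₁ z₂ with h | h
  · have := key z₁ z₂ h0.1.le h h1.2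
    have h2 := le_abs_self (prim w (f z₂) - prim w (f z₁))
    linarith
  · have := key z₂ z₁ h1.1.le h h0.2
    rw [abs_sub_comm] at this
    have h2 := le_abs_self (prim w (f z₂) - prim w (f z₁))
    linarith

end Crest.Agent.R214
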