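import Crest.Agent.R214.Prof

/-!
# Row 214, M7: the profile relation, proof
-/

set_option autoImplicit false

open MeasureTheory Filter Set
open scoped Topology

namespace Crest.Agent.R214

theorem posPart_tendsto {μ : Measure ℝ} {f : ℕ → ℝ → ℝ} {F : ℝ → ℝ} (hF : Integrable F μ)
    (hf : ∀ k, Integrable (f k) μ) (h0 : ∀ k t, 0 ≤ f k t) (hF0 : ∀ t, 0 ≤ F t)
    (hl : ∀ᵐ t ∂μ, ∀ δ > 0, ∀ᶠ k in atTop, F t - δ ≤ f k t) :
    Tendsto (fun k => ∫ t, max (F t - f k t) 0 ∂μ) atTop (𝓝 0) := by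
  have h1 : Tendsto (fun k => ∫ t, max (F t - f k t) 0 ∂μ) atTop (𝓝 (∫ _, (0 : ℝ) ∂μ)) := by
    apply tendsto_integral_of_dominated_convergence F
    · intro k
      exact ((hF.sub (hf k)).pos_part).aestronglyMeasurable
    · exact hF
    · intro k
      refine Eventually.of_forall fun t => ?_
      rw [Real.norm_of_nonneg (le_max_right _ _)]
      exact max_le (by linarith [h0 k t]) (hF0 t)
    · filter_upwards [hl] with t ht
      refine tendsto_order.2 ⟨fun b hb => Eventually.of_forall fun k =>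
        hb.trans_le (le_max_right _ _), fun b hb => ?_⟩
      filter_upwards [ht (b / 2) (half_pos hb)] with k hk
      exact max_lt (by linarith) hb
  simpa using h1

theorem scheffe {μ : Measure ℝ} {f : ℕ → ℝ → ℝ} {F : ℝ → ℝ} (hF : Integrable F μ)
    (hf : ∀ k, Integrable (f k) μ) (h0 : ∀ k t, 0 ≤ f k t) (hF0 : ∀ t, 0 ≤ F t)
    (hl : ∀ᵐ t ∂μ, ∀ δ > 0, ∀ᶠ k in atTop, F t - δ ≤ f k t)
    (hs : ∀ η > 0, ∀ᶠ k in atTop, ∫ t, f k t ∂μ ≤ (∫ t, F t ∂μ) + η) :
    ∀ η > 0, ∀ᶠ k in atTop, ∫ t, |f k t - F t| ∂μ ≤ η := by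
  intro η hη
  have h1 := posPart_tendsto hF hf h0 hF0 hl
  have h2 : ∀ᶠ k in atTop, ∫ t, max (F t - f k t) 0 ∂μ < η / 4 :=
    (tendsto_order.1 h1).2 _ (by linarith)
  filter_upwards [h2, hs (η / 2) (half_pos hη)] with k hk1 hk2
  have h3 : ∀ t, |f k t - F t| = (f k t - F t) + 2 * max (F t - f k t) 0 := by
    intro t
    rcases le_total (f k t) (F t) with h | h
    · rw [abs_of_nonpos (by linarith), max_eq_left (by linarith)]
      ring
    · rw [abs_of_nonneg (by linarith), max_eq_right (by linarith)]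
      ring
  have h5 : Integrable (fun t => f k t - F t) μ := (hf k).sub hF
  have h6 : Integrable (fun t => 2 * max (F t - f k t) 0) μ :=
    ((hF.sub (hf k)).pos_part).const_mul 2
  simp_rw [h3]
  rw [integral_add h5 h6, integral_sub (hf k) hF, integral_const_mul]
  linarith

section
variable {A P : ℝ} {a : ℝ → ℝ} {ak pk : ℕ → ℝ → ℝ} {J : ℝ → ℝ}

theorem ProfData.intR (D : ProfData A P a ak pk J) (k : ℕ) :
    IntegrableOn (fun t => Real.sqrt (pk k t ^ 2 + deriv (ak k) t ^ 2)) (Ioc 0 1) := by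
  have hd : Continuous (deriv (ak k)) := (D.cd k).continuous_deriv le_rfl
  have h1 : IntegrableOn (fun t => pk k t + |deriv (ak k) t|) (Ioc 0 1) :=
    (D.pint k).add hd.abs.integrableOn_Ioc
  refine Integrable.mono' h1 ?_ (Eventually.of_forall fun t => ?_)
  · refine Real.continuous_sqrt.comp_aestronglyMeasurable ?_
    exact ((D.pint k).1.pow 2).add (hd.aestronglyMeasurable.pow 2)
  · rw [Real.norm_of_nonneg (Real.sqrt_nonneg _)]
    have h2 := D.pnn k t
    have h3 := abs_nonneg (deriv (ak k) t)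
    apply Real.sqrt_le_iff.2
    refine ⟨by positivity, ?_⟩
    have h4 : deriv (ak k) t ^ 2 = |deriv (ak k) t| ^ 2 := (sq_abs _).symm
    rw [h4]
    nlinarith

theorem ProfData.P_nonneg (D : ProfData A P a ak pk J) : 0 ≤ P :=
  (integral_nonneg fun _ => Real.sqrt_nonneg _).trans (D.perim 0)

/-- liminf of the product -/
theorem ProfData.liminf_mul (D : ProfData A P a ak pk J) {c : ℝ → ℝ} (hc : Continuous c)
    (hc0 : ∀ α, 0 ≤ c α) : ∀ᵐ t ∂(volume.restrict (Ioc (0 : ℝ) 1)), ∀ δ > 0, ∀ᶠ k in atTop,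
      c (a t) * J t - δ ≤ c (ak k t) * pk k t := by
  filter_upwards [D.lim, D.liminf] with t h1 h2 δ hδ
  have h3 : Tendsto (fun k => c (ak k t)) atTop (𝓝 (c (a t))) := (hc.tendsto _).comp h1
  have h4 : Tendsto (fun k => min (pk k t) (J t)) atTop (𝓝 (J t)) := by
    refine tendsto_order.2 ⟨fun b hb => ?_, fun b hb => Eventually.of_forall fun k =>
      (min_le_right _ _).trans_lt hb⟩
    filter_upwards [h2 ((J t - b) / 2) (by linarith)] with k hk
    exact lt_min (by linarith) hb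
  have h5 := h3.mul h4
  filter_upwards [(tendsto_order.1 h5).1 (c (a t) * J t - δ) (by linarith)] with k hk
  exact hk.le.trans (mul_le_mul_of_nonneg_left (min_le_left _ _) (hc0 _))

/-- pointwise Cauchy-Schwarz with remainder -/
theorem cs_rem {c h p q : ℝ} (hc0 : 0 ≤ c) (hh0 : 0 ≤ h) (hp : 0 ≤ p) (hch : c ^ 2 + h ^ 2 = 1) :
    c * p + h * |q| ≤ Real.sqrt (p ^ 2 + q ^ 2) ∧ ∀ lam : ℝ, 0 < lam →
      abs (h * p - c * |q|) ≤ lam * Real.sqrt (p ^ 2 + q ^ 2) +
        (Real.sqrt (p ^ 2 + q ^ 2) - (c * p + h * |q|)) / (2 * lam) := by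
  have e2 : q ^ 2 = |q| ^ 2 := (sq_abs _).symm
  have e4 : (c * p + h * |q|) ^ 2 + (h * p - c * |q|) ^ 2 = p ^ 2 + |q| ^ 2 := by
    have : (c * p + h * |q|) ^ 2 + (h * p - c * |q|) ^ 2 =
        (c ^ 2 + h ^ 2) * (p ^ 2 + |q| ^ 2) := by ring
    rw [this, hch, one_mul]
  have e1 : c * p + h * |q| ≤ Real.sqrt (p ^ 2 + q ^ 2) := by
    apply Real.le_sqrt_of_sq_le
    rw [e2]
    nlinarith [sq_nonneg (h * p - c * |q|)]
  refine ⟨e1, fun lam hlam => ?_⟩
  have e5 : Real.sqrt (p ^ 2 + q ^ 2) ^ 2 = p ^ 2 + |q| ^ 2 := by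
    rw [Real.sq_sqrt (by positivity), e2]
  have e6 := Real.sqrt_nonneg (p ^ 2 + q ^ 2)
  have e7 : 0 ≤ c * p + h * |q| := add_nonneg (mul_nonneg hc0 hp) (mul_nonneg hh0 (abs_nonneg _))
  rw [← e5] at e4
  generalize Real.sqrt (p ^ 2 + q ^ 2) = R at *
  generalize c * p + h * |q| = G at *
  generalize h * p - c * |q| = w at *
  have e8 : w ^ 2 ≤ (lam * R + (R - G) / (2 * lam)) ^ 2 := by
    have e9 : (lam * R + (R - G) / (2 * lam)) ^ 2 =
        (lam * R - (R - G) / (2 * lam)) ^ 2 + 2 * R * (R - G) := by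
      field_simp
      ring
    rw [e9]
    nlinarith [sq_nonneg (lam * R - (R - G) / (2 * lam))]
  exact abs_le_of_sq_le_sq e8 (add_nonneg (mul_nonneg hlam.le e6)
    (div_nonneg (by linarith) (by linarith)))

/-- **Profile relation** -/
theorem prof_rel (D : ProfData A P a ak pk J) {c h v : ℝ → ℝ}
    (hc : Continuous c) (hh : Continuous h) (hv : Continuous v)
    (hc0 : ∀ α, 0 ≤ c α) (hh0 : ∀ α, 0 ≤ h α) (hv0 : ∀ α, 0 ≤ v α)
    (hch : ∀ α ∈ Icc (0 : ℝ) 1, c α ^ 2 + h α ^ 2 = 1)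
    (hJ : ∀ t, 0 ≤ J t)
    (hF : IntegrableOn (fun t => c (a t) * J t) (Ioc 0 1))
    (heq : P ≤ (∫ t in Ioc (0 : ℝ) 1, c (a t) * J t) + 2 * (prim h A - prim h 0))
    {S : Set ℝ} (hS1 : S ⊆ Ioc 0 1) :
    ∀ η > 0, ∀ᶠ k in atTop, ∫ t in S, c (ak k t) ^ 2 * v (ak k t) * |deriv (ak k) t| ≤
      (∫ t in S, h (a t) * v (a t) * (c (a t) * J t)) + η := by
  set F : ℝ → ℝ := fun t => c (a t) * J t with hFdef
  have hF0 : ∀ t, 0 ≤ F t := fun t => mul_nonneg (hc0 _) (hJ t)
  have hc1 : ∀ α ∈ Icc (0 : ℝ) 1, c α ≤ 1 := fun α hα => by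
    nlinarith [hch α hα, hc0 α, hh0 α, sq_nonneg (h α)]
  have hh1 : ∀ α ∈ Icc (0 : ℝ) 1, h α ≤ 1 := fun α hα => by
    nlinarith [hch α hα, hc0 α, hh0 α, sq_nonneg (c α)]
  -- integrability
  have hfint : ∀ k, IntegrableOn (fun t => c (ak k t) * pk k t) (Ioc 0 1) := by
    intro k
    refine Integrable.mono' (D.pint k) ?_ (Eventually.of_forall fun t => ?_)
    · exact (hc.comp (D.cd k).continuous).aestronglyMeasurable.mul (D.pint k).1
    · rw [Real.norm_of_nonneg (mul_nonneg (hc0 _) (D.pnn k t))]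
      exact mul_le_of_le_one_left (D.pnn k t) (hc1 _ (D.krng k t))
  have hqc : ∀ k, Continuous fun t => |deriv (ak k) t| := fun k =>
    ((D.cd k).continuous_deriv le_rfl).abs
  have hgint : ∀ k, IntegrableOn (fun t => h (ak k t) * |deriv (ak k) t|) (Ioc 0 1) := fun k =>
    ((hh.comp (D.cd k).continuous).mul (hqc k)).integrableOn_Ioc
  have hRint := D.intR
  have hP0 := D.P_nonneg
  have hcs := fun k t => cs_rem (q := deriv (ak k) t) (hc0 (ak k t)) (hh0 (ak k t)) (D.pnn k t)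
    (hch _ (D.krng k t))
  -- liminf of `∫ g`
  have hg : ∀ η > 0, ∀ᶠ k in atTop, 2 * (prim h A - prim h 0) - η ≤
      ∫ t in Ioc (0 : ℝ) 1, h (ak k t) * |deriv (ak k) t| := by
    intro η hη
    have hpc := prim_continuous hh
    -- choose the points
    have h1 : ∀ᶠ x in 𝓝 A, prim h A - η / 8 < prim h x :=
      (tendsto_order.1 (hpc.tendsto A)).1 _ (by linarith)
    have h2 : ∀ᶠ x in 𝓝 (0 : ℝ), prim h x < prim h 0 + η / 8 :=
      (tendsto_order.1 (hpc.tendsto 0)).2 _ (by linarith)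
    obtain ⟨d1, hd1, hb1⟩ := Metric.eventually_nhds_iff.1 h1
    obtain ⟨d2, hd2, hb2⟩ := Metric.eventually_nhds_iff.1 h2
    obtain ⟨t1, ht1, hl1, ha1⟩ := D.sup d1 hd1
    obtain ⟨t2, ht2, hl2, ha2⟩ := D.inf d2 hd2
    have hr1 := D.rng t1
    have hr2 := D.rng t2
    have h3 : prim h A - η / 8 < prim h (a t1) := by
      rcases le_total (a t1) A with hle | hle
      · exact hb1 (by
          rw [Real.dist_eq, abs_lt]
          exact ⟨by linarith, by linarith⟩)
      · have := prim_mono hh hh0 hle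
        linarith
    have h4 : prim h (a t2) < prim h 0 + η / 8 := hb2 (by
      rw [Real.dist_eq, abs_lt]
      exact ⟨by linarith [hr2.1], by linarith⟩)
    have h5 : Tendsto (fun k => prim h (ak k t1)) atTop (𝓝 (prim h (a t1))) :=
      (hpc.tendsto _).comp hl1
    have h6 : Tendsto (fun k => prim h (ak k t2)) atTop (𝓝 (prim h (a t2))) :=
      (hpc.tendsto _).comp hl2
    filter_upwards [(tendsto_order.1 h5).1 (prim h (a t1) - η / 8) (by linarith),
      (tendsto_order.1 h6).2 (prim h (a t2) + η / 8) (by linarith)] with k hk1 hk2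
    have h7 := twice_osc hh hh0 (D.cd k) (D.per k) ht2 ht1
    linarith
  -- liminf of `∫ f`
  have hlf := D.liminf_mul hc hc0
  have hf : ∀ η > 0, ∀ᶠ k in atTop, (∫ t in Ioc (0 : ℝ) 1, F t) - η ≤
      ∫ t in Ioc (0 : ℝ) 1, c (ak k t) * pk k t := by
    intro η hη
    have h1 := posPart_tendsto hF hfint (fun k t => mul_nonneg (hc0 _) (D.pnn k t)) hF0 hlf
    filter_upwards [(tendsto_order.1 h1).2 η hη] with k hk
    have h2 : (∫ t in Ioc (0 : ℝ) 1, F t) - ∫ t in Ioc (0 : ℝ) 1, c (ak k t) * pk k t ≤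
        ∫ t in Ioc (0 : ℝ) 1, max (F t - c (ak k t) * pk k t) 0 := by
      rw [← integral_sub hF (hfint k)]
      exact integral_mono (hF.sub (hfint k)) ((hF.sub (hfint k)).pos_part)
        fun t => le_max_left _ _
    linarith
  -- sum inequality
  have hsum : ∀ k, (∫ t in Ioc (0 : ℝ) 1, c (ak k t) * pk k t) +
      ∫ t in Ioc (0 : ℝ) 1, h (ak k t) * |deriv (ak k) t| ≤
      ∫ t in Ioc (0 : ℝ) 1, Real.sqrt (pk k t ^ 2 + deriv (ak k) t ^ 2) := by
    intro k
    rw [← integral_add (hfint k) (hgint k)]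
    exact integral_mono ((hfint k).add (hgint k)) (hRint k) fun t => (hcs k t).1
  -- `f → F` in `L¹`
  have hL1 := scheffe hF hfint (fun k t => mul_nonneg (hc0 _) (D.pnn k t)) hF0 hlf (by
    intro η hη
    filter_upwards [hg η hη] with k hk
    have h1 := hsum k
    have h2 := D.perim k
    linarith)
  -- the excess
  have hexc : ∀ η > 0, ∀ᶠ k in atTop,
      ∫ t in Ioc (0 : ℝ) 1, abs (h (ak k t) * pk k t - c (ak k t) * |deriv (ak k) t|) ≤ η := by
    intro η hη
    set lam : ℝ := η / (2 * (P + 1)) with hlam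
    have hlam0 : 0 < lam := by positivity
    filter_upwards [hg (lam * η / 2) (by positivity), hf (lam * η / 2) (by positivity)] with k hk1 hk2
    have h1 := hsum k
    have h2 := D.perim k
    have h3 : ∫ t in Ioc (0 : ℝ) 1, abs (h (ak k t) * pk k t - c (ak k t) * |deriv (ak k) t|) ≤
        ∫ t in Ioc (0 : ℝ) 1, (lam * Real.sqrt (pk k t ^ 2 + deriv (ak k) t ^ 2) +
        (Real.sqrt (pk k t ^ 2 + deriv (ak k) t ^ 2) -
          (c (ak k t) * pk k t + h (ak k t) * |deriv (ak k) t|)) / (2 * lam)) := by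
      refine integral_mono_of_nonneg (Eventually.of_forall fun t => abs_nonneg _) ?_
        (Eventually.of_forall fun t => (hcs k t).2 lam hlam0)
      exact ((hRint k).const_mul lam).add
        (((hRint k).sub ((hfint k).add (hgint k))).div_const _)
    have h4 : ∫ t in Ioc (0 : ℝ) 1, (lam * Real.sqrt (pk k t ^ 2 + deriv (ak k) t ^ 2) +
        (Real.sqrt (pk k t ^ 2 + deriv (ak k) t ^ 2) -
          (c (ak k t) * pk k t + h (ak k t) * |deriv (ak k) t|)) / (2 * lam)) =
        lam * (∫ t in Ioc (0 : ℝ) 1, Real.sqrt (pk k t ^ 2 + deriv (ak k) t ^ 2)) +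
        ((∫ t in Ioc (0 : ℝ) 1, Real.sqrt (pk k t ^ 2 + deriv (ak k) t ^ 2)) -
          ((∫ t in Ioc (0 : ℝ) 1, c (ak k t) * pk k t) +
            ∫ t in Ioc (0 : ℝ) 1, h (ak k t) * |deriv (ak k) t|)) / (2 * lam) := by
      have i1 : Integrable (fun t => lam * Real.sqrt (pk k t ^ 2 + deriv (ak k) t ^ 2))
          (volume.restrict (Ioc (0 : ℝ) 1)) := (hRint k).const_mul lam
      have i2 : Integrable (fun t => (Real.sqrt (pk k t ^ 2 + deriv (ak k) t ^ 2) -
          (c (ak k t) * pk k t + h (ak k t) * |deriv (ak k) t|)) / (2 * lam))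
          (volume.restrict (Ioc (0 : ℝ) 1)) :=
        ((hRint k).sub ((hfint k).add (hgint k))).div_const _
      have i3 : Integrable (fun t => c (ak k t) * pk k t + h (ak k t) * |deriv (ak k) t|)
          (volume.restrict (Ioc (0 : ℝ) 1)) := (hfint k).add (hgint k)
      rw [integral_add i1 i2, integral_const_mul, integral_div, integral_sub (hRint k) i3,
        integral_add (hfint k) (hgint k)]
    rw [h4] at h3
    refine h3.trans ?_
    have h5 : lam * (∫ t in Ioc (0 : ℝ) 1, Real.sqrt (pk k t ^ 2 + deriv (ak k) t ^ 2)) ≤ η / 2 := by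
      calc lam * (∫ t in Ioc (0 : ℝ) 1, Real.sqrt (pk k t ^ 2 + deriv (ak k) t ^ 2))
          ≤ lam * P := by gcongr
        _ ≤ lam * (P + 1) := by gcongr; linarith
        _ = η / 2 := by rw [hlam]; field_simp
    have h6 : ((∫ t in Ioc (0 : ℝ) 1, Real.sqrt (pk k t ^ 2 + deriv (ak k) t ^ 2)) -
          ((∫ t in Ioc (0 : ℝ) 1, c (ak k t) * pk k t) +
            ∫ t in Ioc (0 : ℝ) 1, h (ak k t) * |deriv (ak k) t|)) / (2 * lam) ≤ η / 2 := by
      rw [div_le_iff₀ (by positivity)]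
      have h7 : (∫ t in Ioc (0 : ℝ) 1, F t) = ∫ t in Ioc (0 : ℝ) 1, c (a t) * J t := rfl
      nlinarith
    linarith
  -- bound on `v`
  obtain ⟨M, hM⟩ := (isCompact_Icc (a := (0 : ℝ)) (b := 1)).exists_bound_of_continuousOn
    hv.continuousOn
  have hM' : ∀ α ∈ Icc (0 : ℝ) 1, v α ≤ M := fun α hα => (le_abs_self _).trans (hM α hα)
  have hM0 : 0 ≤ M := (hv0 _).trans (hM' _ (D.rng 0))
  -- DCT for the main term
  have hdct : Tendsto (fun k => ∫ t in S, h (ak k t) * v (ak k t) * F t) atTop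
      (𝓝 (∫ t in S, h (a t) * v (a t) * F t)) := by
    have hFS : IntegrableOn F S := hF.mono_set hS1
    apply tendsto_integral_of_dominated_convergence (fun t => M * F t)
    · intro k
      exact (((hh.comp (D.cd k).continuous).mul
        (hv.comp (D.cd k).continuous)).aestronglyMeasurable).mul hFS.1
    · exact hFS.const_mul M
    · intro k
      refine Eventually.of_forall fun t => ?_
      rw [Real.norm_of_nonneg (mul_nonneg (mul_nonneg (hh0 _) (hv0 _)) (hF0 t))]
      refine mul_le_mul_of_nonneg_right ?_ (hF0 t)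
      calc h (ak k t) * v (ak k t) ≤ 1 * M :=
            mul_le_mul (hh1 _ (D.krng k t)) (hM' _ (D.krng k t)) (hv0 _) zero_le_one
        _ = M := one_mul M
    · filter_upwards [ae_mono (Measure.restrict_mono hS1 le_rfl) D.lim] with t ht
      exact (((hh.tendsto _).comp ht).mul ((hv.tendsto _).comp ht)).mul_const _
  intro η hη
  filter_upwards [(tendsto_order.1 hdct).2 ((∫ t in S, h (a t) * v (a t) * F t) + η / 3)
    (by linarith), hL1 (η / (3 * (M + 1))) (by positivity),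
    hexc (η / (3 * (M + 1))) (by positivity)] with k hk1 hk2 hk3
  have hpt : ∀ t, c (ak k t) ^ 2 * v (ak k t) * |deriv (ak k) t| ≤
      h (ak k t) * v (ak k t) * F t + M * |c (ak k t) * pk k t - F t| +
        M * abs (h (ak k t) * pk k t - c (ak k t) * |deriv (ak k) t|) := by
    intro t
    have e1 := hc1 _ (D.krng k t)
    have e2 := hh1 _ (D.krng k t)
    have e3 := hM' _ (D.krng k t)
    have e4 := hc0 (ak k t)
    have e5 := hh0 (ak k t)
    have e6 := hv0 (ak k t)
    have e7 : c (ak k t) * |deriv (ak k) t| ≤ h (ak k t) * pk k t +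
        abs (h (ak k t) * pk k t - c (ak k t) * |deriv (ak k) t|) := by
      have := neg_abs_le (h (ak k t) * pk k t - c (ak k t) * |deriv (ak k) t|)
      linarith
    have e8 : c (ak k t) * pk k t ≤ F t + |c (ak k t) * pk k t - F t| := by
      have := le_abs_self (c (ak k t) * pk k t - F t)
      linarith
    have e9 : c (ak k t) * v (ak k t) ≤ M := by nlinarith
    have e10 : h (ak k t) * v (ak k t) ≤ M := by nlinarith
    calc c (ak k t) ^ 2 * v (ak k t) * |deriv (ak k) t|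
        = (c (ak k t) * v (ak k t)) * (c (ak k t) * |deriv (ak k) t|) := by ring
      _ ≤ (c (ak k t) * v (ak k t)) * (h (ak k t) * pk k t +
          abs (h (ak k t) * pk k t - c (ak k t) * |deriv (ak k) t|)) :=
          mul_le_mul_of_nonneg_left e7 (mul_nonneg e4 e6)
      _ = (h (ak k t) * v (ak k t)) * (c (ak k t) * pk k t) + (c (ak k t) * v (ak k t)) *
          abs (h (ak k t) * pk k t - c (ak k t) * |deriv (ak k) t|) := by ring
      _ ≤ (h (ak k t) * v (ak k t)) * (F t + |c (ak k t) * pk k t - F t|) + M *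
          abs (h (ak k t) * pk k t - c (ak k t) * |deriv (ak k) t|) :=
          add_le_add (mul_le_mul_of_nonneg_left e8 (mul_nonneg e5 e6))
            (mul_le_mul_of_nonneg_right e9 (abs_nonneg _))
      _ ≤ h (ak k t) * v (ak k t) * F t + M * |c (ak k t) * pk k t - F t| + M *
          abs (h (ak k t) * pk k t - c (ak k t) * |deriv (ak k) t|) := by
          have := mul_le_mul_of_nonneg_right e10 (abs_nonneg (c (ak k t) * pk k t - F t))
          linarith
  -- integrability of the three terms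
  have j1 : IntegrableOn (fun t => h (ak k t) * v (ak k t) * F t) (Ioc 0 1) := by
    refine Integrable.mono' (hF.const_mul M) ?_ (Eventually.of_forall fun t => ?_)
    · exact (((hh.comp (D.cd k).continuous).mul
        (hv.comp (D.cd k).continuous)).aestronglyMeasurable).mul hF.1
    · rw [Real.norm_of_nonneg (mul_nonneg (mul_nonneg (hh0 _) (hv0 _)) (hF0 t))]
      refine mul_le_mul_of_nonneg_right ?_ (hF0 t)
      calc h (ak k t) * v (ak k t) ≤ 1 * M :=
            mul_le_mul (hh1 _ (D.krng k t)) (hM' _ (D.krng k t)) (hv0 _) zero_le_one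
        _ = M := one_mul M
  have j2 : IntegrableOn (fun t => |c (ak k t) * pk k t - F t|) (Ioc 0 1) :=
    ((hfint k).sub hF).abs
  have j3 : IntegrableOn
      (fun t => abs (h (ak k t) * pk k t - c (ak k t) * |deriv (ak k) t|)) (Ioc 0 1) := by
    have k1 : IntegrableOn (fun t => h (ak k t) * pk k t) (Ioc 0 1) := by
      refine Integrable.mono' (D.pint k) ?_ (Eventually.of_forall fun t => ?_)
      · exact (hh.comp (D.cd k).continuous).aestronglyMeasurable.mul (D.pint k).1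
      · rw [Real.norm_of_nonneg (mul_nonneg (hh0 _) (D.pnn k t))]
        exact mul_le_of_le_one_left (D.pnn k t) (hh1 _ (D.krng k t))
    have k2 : IntegrableOn (fun t => c (ak k t) * |deriv (ak k) t|) (Ioc 0 1) :=
      ((hc.comp (D.cd k).continuous).mul (hqc k)).integrableOn_Ioc
    exact (k1.sub k2).abs
  have j2M : IntegrableOn (fun t => M * |c (ak k t) * pk k t - F t|) (Ioc 0 1) :=
    j2.const_mul M
  have j3M : IntegrableOn
      (fun t => M * abs (h (ak k t) * pk k t - c (ak k t) * |deriv (ak k) t|)) (Ioc 0 1) :=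
    j3.const_mul M
  have j1S := j1.mono_set hS1
  have j2S := j2M.mono_set hS1
  have j3S := j3M.mono_set hS1
  have hint : ∫ t in S, c (ak k t) ^ 2 * v (ak k t) * |deriv (ak k) t| ≤
      (∫ t in S, h (ak k t) * v (ak k t) * F t) + (∫ t in S, M * |c (ak k t) * pk k t - F t|) +
        ∫ t in S, M * abs (h (ak k t) * pk k t - c (ak k t) * |deriv (ak k) t|) := by
    have i12 : Integrable (fun t => h (ak k t) * v (ak k t) * F t +
        M * |c (ak k t) * pk k t - F t|) (volume.restrict S) := j1S.add j2S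
    rw [← integral_add j1S j2S, ← integral_add i12 j3S]
    refine integral_mono_of_nonneg (Eventually.of_forall fun t => ?_) (i12.add j3S)
      (Eventually.of_forall hpt)
    exact mul_nonneg (mul_nonneg (sq_nonneg _) (hv0 _)) (abs_nonneg _)
  have b2 : ∫ t in S, M * |c (ak k t) * pk k t - F t| ≤ η / 3 := by
    rw [integral_const_mul]
    have h1 : ∫ t in S, |c (ak k t) * pk k t - F t| ≤
        ∫ t in Ioc (0 : ℝ) 1, |c (ak k t) * pk k t - F t| :=
      setIntegral_mono_set j2 (Eventually.of_forall fun t => abs_nonneg _)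
        (LE.le.eventuallyLE hS1)
    calc M * ∫ t in S, |c (ak k t) * pk k t - F t| ≤ M * (η / (3 * (M + 1))) := by
          gcongr
          exact h1.trans hk2
      _ ≤ η / 3 := by
          rw [mul_div_assoc', div_le_div_iff₀ (by positivity) (by norm_num)]
          nlinarith
  have b3 : ∫ t in S, M * abs (h (ak k t) * pk k t - c (ak k t) * |deriv (ak k) t|) ≤ η / 3 := by
    rw [integral_const_mul]
    have h1 : ∫ t in S, abs (h (ak k t) * pk k t - c (ak k t) * |deriv (ak k) t|) ≤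
        ∫ t in Ioc (0 : ℝ) 1, abs (h (ak k t) * pk k t - c (ak k t) * |deriv (ak k) t|) :=
      setIntegral_mono_set j3 (Eventually.of_forall fun t => abs_nonneg _)
        (LE.le.eventuallyLE hS1)
    calc M * ∫ t in S, abs (h (ak k t) * pk k t - c (ak k t) * |deriv (ak k) t|)
        ≤ M * (η / (3 * (M + 1))) := by
          gcongr
          exact h1.trans hk3
      _ ≤ η / 3 := by
          rw [mul_div_assoc', div_le_div_iff₀ (by positivity) (by norm_num)]
          nlinarith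
  linarith

/-- the two arcs in the limit -/
theorem prof_arcs (D : ProfData A P a ak pk J) {c h v : ℝ → ℝ}
    (hc : Continuous c) (hh : Continuous h) (hv : Continuous v)
    (hc0 : ∀ α, 0 ≤ c α) (hh0 : ∀ α, 0 ≤ h α) (hv0 : ∀ α, 0 ≤ v α)
    (hch : ∀ α ∈ Icc (0 : ℝ) 1, c α ^ 2 + h α ^ 2 = 1)
    (hJ : ∀ t, 0 ≤ J t)
    (hF : IntegrableOn (fun t => c (a t) * J t) (Ioc 0 1))
    (heq : P ≤ (∫ t in Ioc (0 : ℝ) 1, c (a t) * J t) + 2 * (prim h A - prim h 0))
    {z₁ z₂ : ℝ} (h0 : 0 ≤ z₁) (h12 : z₁ ≤ z₂) (h1 : z₂ ≤ 1)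
    (hl1 : Tendsto (fun k => ak k z₁) atTop (𝓝 (a z₁)))
    (hl2 : Tendsto (fun k => ak k z₂) atTop (𝓝 (a z₂))) :
    |prim (fun α => c α ^ 2 * v α) (a z₂) - prim (fun α => c α ^ 2 * v α) (a z₁)| ≤
        (∫ t in Ioc z₁ z₂, h (a t) * v (a t) * (c (a t) * J t)) ∧
      |prim (fun α => c α ^ 2 * v α) (a z₂) - prim (fun α => c α ^ 2 * v α) (a z₁)| ≤
        ∫ t in Ioc 0 z₁ ∪ Ioc z₂ 1, h (a t) * v (a t) * (c (a t) * J t) := by
  have hw : Continuous fun α => c α ^ 2 * v α := (hc.pow 2).mul hv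
  have hw0 : ∀ α, 0 ≤ c α ^ 2 * v α := fun α => mul_nonneg (sq_nonneg _) (hv0 α)
  have hpc := prim_continuous hw
  have hlim : Tendsto (fun k => |prim (fun α => c α ^ 2 * v α) (ak k z₂) -
      prim (fun α => c α ^ 2 * v α) (ak k z₁)|) atTop
      (𝓝 |prim (fun α => c α ^ 2 * v α) (a z₂) - prim (fun α => c α ^ 2 * v α) (a z₁)|) :=
    (((hpc.tendsto _).comp hl2).sub ((hpc.tendsto _).comp hl1)).abs
  constructor
  · apply le_of_forall_pos_le_add
    intro η hη
    have hS1 : Ioc z₁ z₂ ⊆ Ioc (0 : ℝ) 1 := Ioc_subset_Ioc h0 h1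
    have h3 := prof_rel D hc hh hv hc0 hh0 hv0 hch hJ hF heq hS1 η hη
    refine le_of_tendsto hlim ?_
    filter_upwards [h3] with k hk
    exact (prim_comp_le hw hw0 (D.cd k) h12).trans hk
  · apply le_of_forall_pos_le_add
    intro η hη
    have hS1 : Ioc 0 z₁ ∪ Ioc z₂ 1 ⊆ Ioc (0 : ℝ) 1 :=
      union_subset (Ioc_subset_Ioc le_rfl (h12.trans h1)) (Ioc_subset_Ioc (h0.trans h12) le_rfl)
    have h3 := prof_rel D hc hh hv hc0 hh0 hv0 hch hJ hF heq hS1 η hη
    refine le_of_tendsto hlim ?_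
    filter_upwards [h3] with k hk
    exact (two_arcs hw hw0 (D.cd k) (D.per k) h0 h12 h1).trans hk

end

end Crest.Agent.R214
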