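import Crest.Agent.R214.Rig

/-!
# Row 214, M7: rigidity of the ball profile (3-D) and of the disc profile (2-D)
-/

set_option autoImplicit false

open MeasureTheory Filter Set
open scoped Topology

namespace Crest.Agent.R214

/-- truncation sequence -/
noncomputable def dl (n : ℕ) : ℝ := 1 / ((n : ℝ) + 1)

theorem dl_pos (n : ℕ) : 0 < dl n := by unfold dl; positivity

theorem dl_tendsto : Tendsto dl atTop (𝓝 0) := tendsto_one_div_add_atTop_nhds_zero_nat

theorem max_dl_tendsto {x : ℝ} (hx : 0 < x) : Tendsto (fun n => max x (dl n)) atTop (𝓝 x) := by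
  have h : Tendsto (fun n => max x (dl n)) atTop (𝓝 (max x 0)) :=
    tendsto_const_nhds.max dl_tendsto
  rwa [max_eq_left hx.le] at h

/-- a periodic property that holds a.e. in `(0,1]` holds a.e. -/
theorem ae_of_periodic' {p : ℝ → Prop} (hp : ∀ t, p (t + 1) ↔ p t)
    (h : ∀ᵐ t ∂(volume.restrict (Ioc (0 : ℝ) 1)), p t) : ∀ᵐ t, p t := by
  have hz : ∀ (m : ℤ) t, p (t + m) ↔ p t := by
    intro m
    induction m using Int.induction_on with
    | zero => intro t; simp
    | succ k ih =>
      intro t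
      have := hp (t + k)
      push_cast
      rw [← add_assoc, this]
      exact_mod_cast ih t
    | pred k ih =>
      intro t
      have := hp (t + (-(k : ℝ) - 1))
      have e : t + (-(k : ℝ) - 1) + 1 = t + (-(k : ℝ)) := by ring
      rw [e] at this
      have h2 := ih t
      push_cast at h2 ⊢
      rw [← this]
      exact h2
  rw [ae_restrict_iff' measurableSet_Ioc] at h
  rw [ae_iff] at h ⊢
  have hcov : {t : ℝ | ¬ p t} ⊆
      ⋃ m : ℤ, (fun t : ℝ => t + (-(m : ℝ))) ⁻¹' {t | ¬ (t ∈ Ioc (0 : ℝ) 1 → p t)} := by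
    intro t ht
    rw [mem_iUnion]
    refine ⟨⌈t⌉ - 1, ?_⟩
    show ¬ (t + (-((⌈t⌉ - 1 : ℤ) : ℝ)) ∈ Ioc (0 : ℝ) 1 → p (t + (-((⌈t⌉ - 1 : ℤ) : ℝ))))
    intro hcon
    apply ht
    have h1 := Int.le_ceil t
    have h2 := Int.ceil_lt_add_one t
    have h3 := hcon ⟨by push_cast; linarith, by push_cast; linarith⟩
    have h4 := (hz (-(⌈t⌉ - 1)) t)
    apply h4.1
    convert h3 using 2
    push_cast
    ring
  refine measure_mono_null hcov (measure_iUnion_null fun m => ?_)
  rw [measure_preimage_add_right]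
  exact h

theorem ae_of_periodic {f g : ℝ → ℝ} (hf : Function.Periodic f 1) (hg : Function.Periodic g 1)
    (h : ∀ᵐ t ∂(volume.restrict (Ioc (0 : ℝ) 1)), f t = g t) : ∀ᵐ t, f t = g t :=
  ae_of_periodic' (fun t => by rw [hf t, hg t]) h

/-- integral over a period of a function of `dZ` -/
theorem integral_dZ {f : ℝ → ℝ} (t0 : ℝ) :
    ∫ t in (0 : ℝ)..1, f (dZ (t - t0)) = ∫ t in (-(1 / 2) : ℝ)..(1 / 2), f |t| := by
  have hp : Function.Periodic (fun t => f (dZ t)) 1 := fun t => by simp only [dZ_per t]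
  have h1 : ∫ t in (0 : ℝ)..1, f (dZ (t - t0)) = ∫ t in (0 - t0)..(1 - t0), f (dZ t) :=
    intervalIntegral.integral_comp_sub_right (fun t => f (dZ t)) t0
  have h2 : (1 : ℝ) - t0 = (0 - t0) + 1 := by ring
  rw [h1, h2, hp.intervalIntegral_add_eq (0 - t0) (-(1 / 2))]
  have h3 : -(1 / 2 : ℝ) + 1 = 1 / 2 := by norm_num
  rw [h3]
  refine intervalIntegral.integral_congr fun t ht => ?_
  rw [uIcc_of_le (by norm_num)] at ht
  rw [dZ_eq_abs (abs_le.2 ht)]

/-- integral of an even function supported in `[-r,r]` -/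
theorem integral_supp {f : ℝ → ℝ} {r : ℝ} (hr : 0 ≤ r) (hr2 : r ≤ 1 / 2)
    (h0 : ∀ t, r < |t| → f |t| = 0) (hc : Continuous f) :
    ∫ t in (-(1 / 2) : ℝ)..(1 / 2), f |t| = ∫ t in (-r : ℝ)..r, f |t| := by
  have hc' : Continuous fun t : ℝ => f |t| := hc.comp continuous_abs
  have hi : ∀ x y : ℝ, IntervalIntegrable (fun t : ℝ => f |t|) volume x y := fun x y =>
    hc'.intervalIntegrable _ _
  rw [← intervalIntegral.integral_add_adjacent_intervals (hi _ (-r)) (hi _ _),
    ← intervalIntegral.integral_add_adjacent_intervals (hi (-r) r) (hi _ _)]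
  have z1 : ∫ t in (-(1 / 2) : ℝ)..(-r), f |t| = 0 := by
    apply intervalIntegral.integral_zero_ae
    have hne : ∀ᵐ x : ℝ, x ≠ -r := by rw [ae_iff]; simp
    filter_upwards [hne] with x hx hx2
    rw [uIoc_of_le (by linarith)] at hx2
    apply h0
    have : x < -r := lt_of_le_of_ne hx2.2 hx
    rw [abs_of_neg (by linarith)]
    linarith
  have z2 : ∫ t in r..(1 / 2 : ℝ), f |t| = 0 := by
    apply intervalIntegral.integral_zero_ae
    refine Eventually.of_forall fun x hx2 => ?_
    rw [uIoc_of_le (by linarith)] at hx2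
    apply h0
    rw [abs_of_pos (by linarith [hx2.1])]
    exact hx2.1
  rw [z1, z2]
  ring

theorem integral_ball {r : ℝ} (hr : 0 ≤ r) (hr2 : r ≤ 1 / 2) (t0 : ℝ) :
    ∫ t in (0 : ℝ)..1, Real.pi * max (r ^ 2 - dZ (t - t0) ^ 2) 0 = 4 * Real.pi * r ^ 3 / 3 := by
  have hc : Continuous fun x : ℝ => Real.pi * max (r ^ 2 - x ^ 2) 0 := by fun_prop
  rw [integral_dZ (f := fun x => Real.pi * max (r ^ 2 - x ^ 2) 0) t0,
    integral_supp (f := fun x => Real.pi * max (r ^ 2 - x ^ 2) 0) hr hr2 _ hc]
  · have h1 : ∫ t in (-r : ℝ)..r, Real.pi * max (r ^ 2 - |t| ^ 2) 0 =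
        ∫ t in (-r : ℝ)..r, Real.pi * (r ^ 2 - t ^ 2) := by
      refine intervalIntegral.integral_congr fun t ht => ?_
      rw [uIcc_of_le (by linarith)] at ht
      rw [sq_abs, max_eq_left]
      have : |t| ≤ r := abs_le.2 ht
      nlinarith [abs_nonneg t, sq_abs t]
    rw [h1, intervalIntegral.integral_const_mul, intervalIntegral.integral_sub
      (by simp) ((continuous_pow 2).intervalIntegrable _ _), integral_pow]
    simp
    ring
  · intro t ht
    rw [max_eq_right]
    · ring
    · nlinarith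

theorem integral_disc {r : ℝ} (hr : 0 < r) (hr2 : r ≤ 1 / 2) (t0 : ℝ) :
    ∫ t in (0 : ℝ)..1, 2 * Real.sqrt (r ^ 2 - dZ (t - t0) ^ 2) = Real.pi * r ^ 2 := by
  have hc : Continuous fun x : ℝ => 2 * Real.sqrt (r ^ 2 - x ^ 2) := by fun_prop
  rw [integral_dZ (f := fun x => 2 * Real.sqrt (r ^ 2 - x ^ 2)) t0,
    integral_supp (f := fun x => 2 * Real.sqrt (r ^ 2 - x ^ 2)) hr.le hr2 _ hc]
  · have h1 : ∀ t : ℝ, 2 * Real.sqrt (r ^ 2 - |t| ^ 2) =
        (2 * r) * Real.sqrt (1 - (t / r) ^ 2) := by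
      intro t
      have : r ^ 2 - |t| ^ 2 = r ^ 2 * (1 - (t / r) ^ 2) := by
        rw [sq_abs]; field_simp
      rw [this, Real.sqrt_mul (by positivity), Real.sqrt_sq hr.le]
      ring
    simp_rw [h1]
    rw [intervalIntegral.integral_const_mul,
      intervalIntegral.integral_comp_div (fun x => Real.sqrt (1 - x ^ 2)) hr.ne']
    rw [neg_div, div_self hr.ne', integral_sqrt_one_sub_sq]
    simp
    ring
  · intro t ht
    rw [Real.sqrt_eq_zero_of_nonpos, mul_zero]
    nlinarith

/-! ### the ball -/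

/-- `c` for the ball -/
noncomputable def cB (A α : ℝ) : ℝ := Real.sqrt (min (|α| / A) 1)
/-- `h` for the ball -/
noncomputable def hB (A α : ℝ) : ℝ := Real.sqrt (1 - min (|α| / A) 1)
/-- `v` for the ball -/
noncomputable def vB (A r : ℝ) (n : ℕ) (α : ℝ) : ℝ :=
  r / (2 * A) / (max (cB A α) (dl n) ^ 2 * max (hB A α) (dl n))

theorem cB_cont (A : ℝ) : Continuous (cB A) := by unfold cB; fun_prop
theorem hB_cont (A : ℝ) : Continuous (hB A) := by unfold hB; fun_prop

theorem vden_pos {x y : ℝ} (n : ℕ) : 0 < max x (dl n) ^ 2 * max y (dl n) :=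
  mul_pos (pow_pos (lt_max_of_lt_right (dl_pos n)) 2) (lt_max_of_lt_right (dl_pos n))

theorem vB_cont (A r : ℝ) (n : ℕ) : Continuous (vB A r n) := by
  unfold vB
  have h1 := cB_cont A
  have h2 := hB_cont A
  refine Continuous.div (by fun_prop) (by fun_prop) fun x => (vden_pos n).ne'

theorem ch_ball {A : ℝ} (hA : 0 < A) (α : ℝ) : cB A α ^ 2 + hB A α ^ 2 = 1 := by
  unfold cB hB
  rw [Real.sq_sqrt (le_min (by positivity) zero_le_one),
    Real.sq_sqrt (by linarith [min_le_right (|α| / A) 1])]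
  ring

theorem cB_eq {A α : ℝ} (hA : 0 < A) (h : α ∈ Icc 0 A) : cB A α = Real.sqrt (α / A) := by
  unfold cB
  rw [abs_of_nonneg h.1, min_eq_left ((div_le_one hA).2 h.2)]

theorem hB_eq {A α : ℝ} (hA : 0 < A) (h : α ∈ Icc 0 A) : hB A α = Real.sqrt (1 - α / A) := by
  unfold hB
  rw [abs_of_nonneg h.1, min_eq_left ((div_le_one hA).2 h.2)]

theorem prim_hB {A : ℝ} (hA : 0 < A) : prim (hB A) A - prim (hB A) 0 = 2 * A / 3 := by
  unfold prim
  rw [intervalIntegral.integral_same, sub_zero]
  have h1 : ∫ β in (0 : ℝ)..A, hB A β = ∫ β in (0 : ℝ)..A, Real.sqrt (1 - β / A) := by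
    refine intervalIntegral.integral_congr fun t ht => ?_
    rw [uIcc_of_le hA.le] at ht
    exact hB_eq hA ht
  rw [h1, intervalIntegral.integral_comp_div (fun x => Real.sqrt (1 - x)) hA.ne', zero_div,
    div_self hA.ne', intervalIntegral.integral_comp_sub_left (fun x => Real.sqrt x)]
  simp_rw [Real.sqrt_eq_rpow]
  rw [integral_rpow (Or.inl (by norm_num))]
  norm_num
  ring

/-- **Rigidity of the ball profile** -/
theorem rig_ball {P : ℝ} {a J : ℝ → ℝ} (S : SD P a J) {r : ℝ} (hr : 0 < r) (hr2 : r ≤ 1 / 2)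
    (hle : ∀ᵐ t, a t ≤ Real.pi * r ^ 2)
    (hsup : ∀ η > 0, volume ({t | Real.pi * r ^ 2 - η < a t} ∩ Ioc 0 1) ≠ 0)
    (hinf : ∀ η > 0, volume ({t | a t < η} ∩ Ioc 0 1) ≠ 0)
    (hJ : ∀ᵐ t, Real.sqrt (Real.pi * a t) ≤ J t)
    (hP : P ≤ 4 * Real.pi * r ^ 2)
    (hV : ∫ t in (0 : ℝ)..1, a t = 4 * Real.pi * r ^ 3 / 3) :
    ∃ t0 : ℝ, ∀ᵐ t, a t = Real.pi * max (r ^ 2 - dZ (t - t0) ^ 2) 0 := by
  set A : ℝ := Real.pi * r ^ 2 with hAdef
  have hA : 0 < A := by positivity
  have hpi := Real.pi_pos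
  -- replace `J`
  have S' : SD P a (fun t => Real.sqrt (Real.pi * a t)) := by
    refine S.mono ?_ ?_ (fun x => Real.sqrt_nonneg _) hJ
    · intro t
      simp only [S.per_a t]
    · exact Real.continuous_sqrt.measurable.comp (S.meas_a.const_mul _)
  have hcJ : ∀ t, a t ≤ A → cB A (a t) * (2 * Real.sqrt (Real.pi * a t)) = 2 / r * a t := by
    intro t ht
    have h0 := (S.a01 t).1
    rw [cB_eq hA ⟨h0, ht⟩]
    have e1 : Real.sqrt (a t / A) * Real.sqrt (Real.pi * a t) = a t / r := by
      rw [← Real.sqrt_mul (by positivity)]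
      have : a t / A * (Real.pi * a t) = (a t / r) ^ 2 := by
        rw [hAdef]; field_simp
      rw [this, Real.sqrt_sq (by positivity)]
    calc Real.sqrt (a t / A) * (2 * Real.sqrt (Real.pi * a t))
        = 2 * (Real.sqrt (a t / A) * Real.sqrt (Real.pi * a t)) := by ring
      _ = 2 / r * a t := by rw [e1]; ring
  have hai : IntegrableOn a (Ioc 0 1) := by
    refine Integrable.mono' (g := fun _ => (1 : ℝ)) (integrableOn_const (by simp))
      S.meas_a.aestronglyMeasurable (Eventually.of_forall fun t => ?_)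
    rw [Real.norm_of_nonneg (S.a01 t).1]
    exact (S.a01 t).2
  have hcJae : ∀ᵐ t ∂(volume.restrict (Ioc (0 : ℝ) 1)),
      2 / r * a t = cB A (a t) * (2 * Real.sqrt (Real.pi * a t)) := by
    refine ae_restrict_of_ae ?_
    filter_upwards [hle] with t ht
    exact (hcJ t ht).symm
  have hF : IntegrableOn (fun t => cB A (a t) * (2 * Real.sqrt (Real.pi * a t))) (Ioc 0 1) :=
    (Integrable.const_mul hai (2 / r)).congr hcJae
  have hFv : ∫ t in Ioc (0 : ℝ) 1, cB A (a t) * (2 * Real.sqrt (Real.pi * a t)) =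
      8 * Real.pi * r ^ 2 / 3 := by
    rw [← integral_congr_ae hcJae, integral_const_mul,
      ← intervalIntegral.integral_of_le zero_le_one, hV]
    field_simp
    ring
  -- the height function
  set s : ℝ → ℝ := fun α => r * Real.sqrt (1 - α / A) with hs
  have hsc : Continuous s := by rw [hs]; fun_prop
  have key := rig_height S' (c := cB A) (h := hB A) (s := s) (v := vB A r) hle hsup hinf
    (cB_cont A) (hB_cont A) (vB_cont A r) (fun α => Real.sqrt_nonneg _)
    (fun α => Real.sqrt_nonneg _) (fun n α => by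
      unfold vB
      exact div_nonneg (by positivity) (vden_pos n).le)
    (fun α _ => ch_ball hA α) hF (by
      rw [hFv, prim_hB hA]
      refine hP.trans (le_of_eq ?_)
      rw [hAdef]
      ring) (by
      intro n
      refine ae_restrict_of_ae ?_
      filter_upwards [hle] with t ht
      have h0 := (S.a01 t).1
      have hm : a t ∈ Icc 0 A := ⟨h0, ht⟩
      have e1 : 2 * Real.sqrt (Real.pi * a t) = 2 * (Real.pi * r) * cB A (a t) := by
        rw [cB_eq hA hm]
        have : Real.pi * a t = (Real.pi * r) ^ 2 * (a t / A) := by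
          rw [hAdef]; field_simp
        rw [this, Real.sqrt_mul (by positivity), Real.sqrt_sq (by positivity)]
        ring
      rw [e1]
      have c0 : 0 ≤ cB A (a t) := Real.sqrt_nonneg _
      have h0' : 0 ≤ hB A (a t) := Real.sqrt_nonneg _
      unfold vB
      generalize cB A (a t) = x at *
      generalize hB A (a t) = y at *
      have hx : x ≤ max x (dl n) := le_max_left _ _
      have hy : y ≤ max y (dl n) := le_max_left _ _
      have hx0 : 0 < max x (dl n) := lt_max_of_lt_right (dl_pos n)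
      have hy0 : 0 < max y (dl n) := lt_max_of_lt_right (dl_pos n)
      generalize max x (dl n) = X at *
      generalize max y (dl n) = Y at *
      have e2 : y * (r / (2 * A) / (X ^ 2 * Y)) * (x * (2 * (Real.pi * r) * x)) =
          (x ^ 2 * y) / (X ^ 2 * Y) := by
        rw [hAdef]; field_simp
      rw [e2]
      apply div_le_one_of_le₀ _ (by positivity)
      exact mul_le_mul (pow_le_pow_left₀ c0 hx 2) hy h0' (by positivity)) (by
      intro α hα
      refine prim_lim (w0 := fun α => r / (2 * A) / hB A α) _ (fun n => ?_) hsc.continuousOn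
        ?_ ?_ ?_ ?_ hα
      · exact ((cB_cont A).pow 2).mul (vB_cont A r n)
      · intro β hβ
        have hpos : 0 < 1 - β / A := by
          have := (div_lt_one hA).2 hβ.2
          linarith
        have h1 : HasDerivAt (fun x : ℝ => 1 - x / A) (-(1 / A)) β := by
          have := ((hasDerivAt_id β).div_const A).const_sub 1
          simpa using this
        have h2 := (h1.sqrt hpos.ne').const_mul r
        have h3 : Real.sqrt (1 - β / A) ≠ 0 := (Real.sqrt_pos.2 hpos).ne'
        have e : -(r / (2 * A) / Real.sqrt (1 - β / A)) =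
            r * (-(1 / A) / (2 * Real.sqrt (1 - β / A))) := by
          field_simp
        show HasDerivAt _ (-(r / (2 * A) / hB A β)) β
        rw [hB_eq hA ⟨hβ.1.le, hβ.2.le⟩, e]
        exact h2
      · intro β hβ
        exact div_nonneg (by positivity) (Real.sqrt_nonneg _)
      · intro n β hβ
        have hy : 0 < hB A β := by
          rw [hB_eq hA ⟨hβ.1.le, hβ.2.le⟩]
          apply Real.sqrt_pos.2
          have := (div_lt_one hA).2 hβ.2
          linarith
        have hx : 0 ≤ cB A β := Real.sqrt_nonneg _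
        unfold vB
        generalize cB A β = x at *
        generalize hB A β = y at *
        have hx1 : x ≤ max x (dl n) := le_max_left _ _
        have hy1 : y ≤ max y (dl n) := le_max_left _ _
        have hx0 : 0 < max x (dl n) := lt_max_of_lt_right (dl_pos n)
        have hy0 : 0 < max y (dl n) := lt_max_of_lt_right (dl_pos n)
        generalize max x (dl n) = X at *
        generalize max y (dl n) = Y at *
        refine ⟨by positivity, ?_⟩
        have e3 : x ^ 2 * (r / (2 * A) / (X ^ 2 * Y)) = (x ^ 2 / X ^ 2) * (r / (2 * A) / Y) := by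
          field_simp
        rw [e3]
        have e4 : x ^ 2 / X ^ 2 ≤ 1 :=
          div_le_one_of_le₀ (pow_le_pow_left₀ hx hx1 2) (by positivity)
        calc (x ^ 2 / X ^ 2) * (r / (2 * A) / Y) ≤ 1 * (r / (2 * A) / Y) := by gcongr
          _ ≤ r / (2 * A) / y := by rw [one_mul]; gcongr
      · intro β hβ
        have hy : 0 < hB A β := by
          rw [hB_eq hA ⟨hβ.1.le, hβ.2.le⟩]
          apply Real.sqrt_pos.2
          have := (div_lt_one hA).2 hβ.2
          linarith
        have hx : 0 < cB A β := by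
          rw [cB_eq hA ⟨hβ.1.le, hβ.2.le⟩]
          apply Real.sqrt_pos.2
          exact div_pos hβ.1 hA
        unfold vB
        have h1 := max_dl_tendsto hx
        have h2 := max_dl_tendsto hy
        have h3 : Tendsto (fun n => cB A β ^ 2 * (r / (2 * A) /
            (max (cB A β) (dl n) ^ 2 * max (hB A β) (dl n)))) atTop
            (𝓝 (cB A β ^ 2 * (r / (2 * A) / (cB A β ^ 2 * hB A β)))) :=
          tendsto_const_nhds.mul (tendsto_const_nhds.div ((h1.pow 2).mul h2)
            (by positivity))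
        have e5 : r / (2 * A) / hB A β =
            cB A β ^ 2 * (r / (2 * A) / (cB A β ^ 2 * hB A β)) := by field_simp
        show Tendsto _ _ (𝓝 (r / (2 * A) / hB A β))
        rw [e5]
        exact h3) hsc.continuousOn (by
      rw [hs]
      simp only
      rw [div_self hA.ne']
      simp) hA.le
  obtain ⟨t0, ht0⟩ := key
  refine ⟨t0, ?_⟩
  -- lower bound of `a`
  have hlow : ∀ᵐ t ∂(volume.restrict (Ioc (0 : ℝ) 1)),
      Real.pi * max (r ^ 2 - dZ (t - t0) ^ 2) 0 ≤ a t := by
    filter_upwards [ht0, ae_restrict_of_ae hle] with t h1 h2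
    have h0 := (S.a01 t).1
    have hd := dZ_nonneg (t - t0)
    have h3 : s (a t) ^ 2 = r ^ 2 * (1 - a t / A) := by
      rw [hs]
      simp only
      rw [mul_pow, Real.sq_sqrt]
      have := div_le_one_of_le₀ h2 hA.le
      linarith
    have h4 : 0 ≤ s (a t) := mul_nonneg hr.le (Real.sqrt_nonneg _)
    have h5 : s (a t) ^ 2 ≤ dZ (t - t0) ^ 2 := pow_le_pow_left₀ h4 h1 2
    have h6 : a t = Real.pi * (r ^ 2 - s (a t) ^ 2) := by
      rw [h3, hAdef]
      field_simp
      ring
    rw [mul_comm]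
    rcases le_total (r ^ 2 - dZ (t - t0) ^ 2) 0 with h7 | h7
    · rw [max_eq_right h7, zero_mul]
      exact h0
    · rw [max_eq_left h7]
      rw [h6]
      nlinarith
  have hgc : Continuous fun t => Real.pi * max (r ^ 2 - dZ (t - t0) ^ 2) 0 := by
    have := dZ_continuous
    fun_prop
  have hgi : IntegrableOn (fun t => Real.pi * max (r ^ 2 - dZ (t - t0) ^ 2) 0) (Ioc 0 1) :=
    hgc.integrableOn_Ioc
  have hdi : ∫ t in Ioc (0 : ℝ) 1, (a t - Real.pi * max (r ^ 2 - dZ (t - t0) ^ 2) 0) = 0 := by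
    rw [integral_sub hai hgi, ← intervalIntegral.integral_of_le zero_le_one,
      ← intervalIntegral.integral_of_le zero_le_one, hV, integral_ball hr.le hr2]
    ring
  have h7 : ∀ᵐ t ∂(volume.restrict (Ioc (0 : ℝ) 1)),
      a t = Real.pi * max (r ^ 2 - dZ (t - t0) ^ 2) 0 := by
    have h8 := (integral_eq_zero_iff_of_nonneg_ae (by
      filter_upwards [hlow] with t ht
      simp only [Pi.zero_apply, Pi.sub_apply]
      linarith) (hai.sub hgi)).1 hdi
    filter_upwards [h8] with t ht
    simp only [Pi.zero_apply, Pi.sub_apply] at ht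
    linarith
  exact ae_of_periodic S.per_a (fun t => by
    have : t + 1 - t0 = (t - t0) + 1 := by ring
    simp only [this, dZ_per (t - t0)]) h7

end Crest.Agent.R214
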