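import Crest.Agent.R214.SD

/-! ROW 214: consequences of the line method (helper10): versions on `[a1,a2]`, affine version,
complement, two-dimensional isoperimetric inequality in abstract form. -/

set_option autoImplicit false
open MeasureTheory Set Filter Topology intervalIntegral

namespace Crest.Agent.R214

/-- complement of a slice datum -/
lemma SD.compl {P : ℝ} {a J : ℝ → ℝ} (S : SD P a J) : SD P (fun x => 1 - a x) J := by
  obtain ⟨an, Tn, Q⟩ := S.seq
  refine ⟨fun x => by simp only [S.per_a x], S.per_J, measurable_const.sub S.meas_a, S.meas_J,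
    fun x => ⟨by linarith [(S.a01 x).2], by linarith [(S.a01 x).1]⟩, S.J0,
    fun n x => 1 - an n x, Tn, ?_⟩
  refine ⟨fun n => contDiff_const.sub (Q.c1 n), fun n x => by simp only [Q.per n x],
    fun n x => ⟨by linarith [(Q.a01 n x).2], by linarith [(Q.a01 n x).1]⟩, Q.contT, Q.perT, Q.T0,
    fun n => ?_, ?_, Q.lower⟩
  · have : (fun x => Real.sqrt ((Tn n x) ^ 2 + (deriv (fun x => 1 - an n x) x) ^ 2)) =
        fun x => Real.sqrt ((Tn n x) ^ 2 + (deriv (an n) x) ^ 2) := by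
      funext x
      rw [deriv_const_sub]
      congr 2
      ring
    rw [this]
    exact Q.bound n
  · filter_upwards [Q.conv] with x hx
    exact tendsto_const_nhds.sub hx

/-- LINE METHOD with `c`, `h` given on the essential range only -/
theorem SD.lm_on {P : ℝ} {a J : ℝ → ℝ} (S : SD P a J) {a1 a2 : ℝ} (h12 : a1 ≤ a2)
    (hae : ∀ᵐ x : ℝ, a1 ≤ a x ∧ a x ≤ a2)
    (ha1 : ∀ δ > 0, 0 < volume ({x | a x < a1 + δ} ∩ Ico 0 1))
    (ha2 : ∀ δ > 0, 0 < volume ({x | a2 - δ < a x} ∩ Ico 0 1))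
    (c h : ℝ → ℝ) (hc : ContinuousOn c (Icc a1 a2)) (hh : ContinuousOn h (Icc a1 a2))
    (c0 : ∀ s ∈ Icc a1 a2, 0 ≤ c s) (h0 : ∀ s ∈ Icc a1 a2, 0 ≤ h s)
    (hch : ∀ s ∈ Icc a1 a2, c s ^ 2 + h s ^ 2 ≤ 1) :
    IntervalIntegrable (fun x => c (a x) * J x) volume 0 1 ∧
      (∫ x in (0:ℝ)..1, c (a x) * J x) + ∫ s in a1..a2, h s ≤ P / 2 := by
  have hp : ∀ s, ((projIcc a1 a2 h12 s : Icc a1 a2) : ℝ) ∈ Icc a1 a2 := fun s => Subtype.coe_prop _
  obtain ⟨f1, f2⟩ := S.lm (fun s => c (projIcc a1 a2 h12 s)) (fun s => h (projIcc a1 a2 h12 s))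
    (hc.comp_continuous (continuous_subtype_val.comp continuous_projIcc) hp)
    (hh.comp_continuous (continuous_subtype_val.comp continuous_projIcc) hp)
    (fun s => c0 _ (hp s)) (fun s => h0 _ (hp s)) (fun s => hch _ (hp s)) ha1 ha2
  have e1 : (fun x => c (projIcc a1 a2 h12 (a x)) * J x) =ᵐ[volume] fun x => c (a x) * J x := by
    filter_upwards [hae] with x hx
    rw [projIcc_of_mem h12 hx]
  have e2 : ∫ s in a1..a2, h (projIcc a1 a2 h12 s) = ∫ s in a1..a2, h s := by
    refine integral_congr fun s hs => ?_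
    rw [uIcc_of_le h12] at hs
    rw [projIcc_of_mem h12 hs]
  refine ⟨f1.congr_ae (ae_restrict_of_ae e1), ?_⟩
  rw [intervalIntegral.integral_congr_ae (e1.mono fun x hx _ => hx), e2] at f2
  exact f2

/-- existence of the essential range bounds -/
lemma SD.exists_range {P : ℝ} {a J : ℝ → ℝ} (S : SD P a J) : ∃ a1 a2 : ℝ, 0 ≤ a1 ∧ a1 ≤ a2 ∧
    a2 ≤ 1 ∧ (∀ᵐ x : ℝ, a1 ≤ a x ∧ a x ≤ a2) ∧
    (∀ δ > 0, 0 < volume ({x | a x < a1 + δ} ∩ Ico 0 1)) ∧
    (∀ δ > 0, 0 < volume ({x | a2 - δ < a x} ∩ Ico 0 1)) := by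
  -- a.e. statements on the cell extend by periodicity
  have hext : ∀ p : ℝ → Prop, (∀ x, p (x + 1) ↔ p x) → volume ({x | ¬ p x} ∩ Ico 0 1) = 0 →
      ∀ᵐ x : ℝ, p x := by
    intro p hp h0
    have hpz : ∀ (k : ℤ) x, p (x + k) ↔ p x := by
      intro k
      induction k using Int.induction_on with
      | zero => intro x; simp
      | succ n ih => intro x; push_cast; rw [← add_assoc, hp]; exact ih x
      | pred n ih =>
        intro x
        rw [← hp]
        push_cast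
        have : x + (-(n:ℝ) - 1) + 1 = x + (-(n:ℝ)) := by ring
        rw [this]
        simpa using ih x
    rw [ae_iff]
    have hcov : {x | ¬ p x} ⊆ ⋃ k : ℤ, (fun x => x + (k : ℝ)) ⁻¹' ({x | ¬ p x} ∩ Ico 0 1) := by
      intro x hx
      refine mem_iUnion.2 ⟨-⌊x⌋, ?_⟩
      refine ⟨?_, ?_⟩
      · show ¬ p _
        rw [hpz]; exact hx
      · have h1 := Int.floor_le x
        have h2 := Int.lt_floor_add_one x
        constructor
        · push_cast; linarith
        · push_cast; linarith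
    refine measure_mono_null hcov (measure_iUnion_null fun k => ?_)
    rw [measure_preimage_add_right]
    exact h0
  set A : Set ℝ := {t | 0 < volume ({x | a x < t} ∩ Ico 0 1)} with hA
  set B : Set ℝ := {t | 0 < volume ({x | t < a x} ∩ Ico 0 1)} with hB
  have hAne : (2:ℝ) ∈ A := by
    have : {x | a x < 2} = univ := by
      ext x; simp only [mem_setOf_eq, mem_univ, iff_true]; linarith [(S.a01 x).2]
    show 0 < volume ({x | a x < 2} ∩ Ico 0 1)
    rw [this]; simp
  have hBne : (-1:ℝ) ∈ B := by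
    have : {x | (-1:ℝ) < a x} = univ := by
      ext x; simp only [mem_setOf_eq, mem_univ, iff_true]; linarith [(S.a01 x).1]
    show 0 < volume ({x | -1 < a x} ∩ Ico 0 1)
    rw [this]; simp
  have hAlb : ∀ t ∈ A, 0 ≤ t := by
    intro t ht
    by_contra hcon
    push Not at hcon
    have : {x | a x < t} = ∅ := by
      ext x; simp only [mem_setOf_eq, mem_empty_iff_false, iff_false]; linarith [(S.a01 x).1]
    have h2 : 0 < volume ({x | a x < t} ∩ Ico 0 1) := ht
    rw [this] at h2; simp at h2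
  have hBub : ∀ t ∈ B, t ≤ 1 := by
    intro t ht
    by_contra hcon
    push Not at hcon
    have : {x | t < a x} = ∅ := by
      ext x; simp only [mem_setOf_eq, mem_empty_iff_false, iff_false]; linarith [(S.a01 x).2]
    have h2 : 0 < volume ({x | t < a x} ∩ Ico 0 1) := ht
    rw [this] at h2; simp at h2
  have bA : BddBelow A := ⟨0, fun t ht => hAlb t ht⟩
  have bB : BddAbove B := ⟨1, fun t ht => hBub t ht⟩
  have k1 : ∀ δ > 0, 0 < volume ({x | a x < sInf A + δ} ∩ Ico 0 1) := by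
    intro δ hδ
    obtain ⟨t, ht, ht'⟩ := exists_lt_of_csInf_lt ⟨2, hAne⟩ (by linarith : sInf A < sInf A + δ)
    exact lt_of_lt_of_le ht (measure_mono (inter_subset_inter_left _ fun x (hx : a x < t) =>
      lt_trans hx ht'))
  have k2 : ∀ δ > 0, 0 < volume ({x | sSup B - δ < a x} ∩ Ico 0 1) := by
    intro δ hδ
    obtain ⟨t, ht, ht'⟩ := exists_lt_of_lt_csSup ⟨-1, hBne⟩ (by linarith : sSup B - δ < sSup B)
    exact lt_of_lt_of_le ht (measure_mono (inter_subset_inter_left _ fun x (hx : t < a x) =>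
      lt_trans ht' hx))
  have m1 : ∀ᵐ x : ℝ, sInf A ≤ a x := by
    have : ∀ k : ℕ, ∀ᵐ x : ℝ, sInf A - 1 / (k + 1) ≤ a x := by
      intro k
      refine hext _ (fun x => by rw [S.per_a x]) ?_
      have hk : (0:ℝ) < 1 / ((k:ℝ) + 1) := by positivity
      have hn : sInf A - 1 / (k + 1) ∉ A := fun hmem => by
        have := csInf_le bA hmem; linarith
      have h0 : volume ({x | a x < sInf A - 1 / (k + 1)} ∩ Ico 0 1) = 0 := by
        by_contra h; exact hn (pos_iff_ne_zero.2 h)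
      simpa only [not_le] using h0
    rw [← ae_all_iff] at this
    filter_upwards [this] with x hx
    refine le_of_forall_pos_lt_add fun ε hε => ?_
    obtain ⟨k, hk⟩ := exists_nat_one_div_lt hε
    have := hx k
    linarith
  have m2 : ∀ᵐ x : ℝ, a x ≤ sSup B := by
    have : ∀ k : ℕ, ∀ᵐ x : ℝ, a x ≤ sSup B + 1 / (k + 1) := by
      intro k
      refine hext _ (fun x => by rw [S.per_a x]) ?_
      have hk : (0:ℝ) < 1 / ((k:ℝ) + 1) := by positivity
      have hn : sSup B + 1 / (k + 1) ∉ B := fun hmem => by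
        have := le_csSup bB hmem; linarith
      have h0 : volume ({x | sSup B + 1 / (k + 1) < a x} ∩ Ico 0 1) = 0 := by
        by_contra h; exact hn (pos_iff_ne_zero.2 h)
      simpa only [not_le] using h0
    rw [← ae_all_iff] at this
    filter_upwards [this] with x hx
    refine le_of_forall_pos_lt_add fun ε hε => ?_
    obtain ⟨k, hk⟩ := exists_nat_one_div_lt hε
    have := hx k
    linarith
  refine ⟨sInf A, sSup B, ?_, ?_, ?_, ?_, k1, k2⟩
  · exact le_csInf ⟨2, hAne⟩ hAlb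
  · obtain ⟨x, hx, hx'⟩ := (m1.and m2).exists
    linarith
  · exact csSup_le ⟨-1, hBne⟩ hBub
  · exact m1.and m2

/-- affine line method -/
theorem SD.lm_affine {P : ℝ} {a J : ℝ → ℝ} (S : SD P a J) {a1 a2 : ℝ} (h12 : a1 ≤ a2)
    (hae : ∀ᵐ x : ℝ, a1 ≤ a x ∧ a x ≤ a2)
    (ha1 : ∀ δ > 0, 0 < volume ({x | a x < a1 + δ} ∩ Ico 0 1))
    (ha2 : ∀ δ > 0, 0 < volume ({x | a2 - δ < a x} ∩ Ico 0 1))
    (c h : ℝ → ℝ) (hc : ContinuousOn c (Icc a1 a2)) (hh : ContinuousOn h (Icc a1 a2))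
    (c0 : ∀ s ∈ Icc a1 a2, 0 ≤ c s) (h0 : ∀ s ∈ Icc a1 a2, 0 ≤ h s)
    (hch : ∀ s ∈ Icc a1 a2, c s ^ 2 + h s ^ 2 ≤ 1) (g0 g1 : ℝ)
    (hg : ∀ᵐ x : ℝ, g0 + g1 * a x ≤ c (a x) * J x) :
    g0 + g1 * (∫ x in (0:ℝ)..1, a x) + ∫ s in a1..a2, h s ≤ P / 2 := by
  obtain ⟨f1, f2⟩ := S.lm_on h12 hae ha1 ha2 c h hc hh c0 h0 hch
  have ia : IntervalIntegrable a volume 0 1 := by
    rw [intervalIntegrable_iff_integrableOn_Ioc_of_le zero_le_one]
    refine Integrable.mono' (g := fun _ => (1:ℝ)) (by simp) S.meas_a.aestronglyMeasurable ?_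
    refine Eventually.of_forall fun x => ?_
    rw [Real.norm_eq_abs, abs_of_nonneg (S.a01 x).1]
    exact (S.a01 x).2
  have h1 : ∫ x in (0:ℝ)..1, (g0 + g1 * a x) ≤ ∫ x in (0:ℝ)..1, c (a x) * J x :=
    intervalIntegral.integral_mono_ae zero_le_one
      ((intervalIntegrable_const).add (ia.const_mul g1)) f1 hg
  have h2 : ∫ x in (0:ℝ)..1, (g0 + g1 * a x) = g0 + g1 * ∫ x in (0:ℝ)..1, a x := by
    rw [intervalIntegral.integral_add intervalIntegrable_const (ia.const_mul g1),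
      intervalIntegral.integral_const, intervalIntegral.integral_const_mul]
    simp
  linarith

end Crest.Agent.R214
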