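import Crest.Agent.R214.Inv2
import Crest.Agent.R214.ArcLem
import Crest.Agent.R214.Bath2

/-!
# Row 214, M7: slabs
-/

set_option autoImplicit false

open MeasureTheory Filter Set Crest.GeometryTopology.PeriodicPerimeter
open scoped Topology ENNReal

namespace Crest.Agent.R214

/-- converse of `ae_ins` -/
theorem ae_of_ins {n : ℕ} (d : Fin (n + 1)) {p : Ev (n + 1) → Prop} (hp : MeasurableSet {x | p x})
    (h : ∀ᵐ t : ℝ, ∀ᵐ y : Ev n, p (ins d t y)) : ∀ᵐ x, p x := by
  rw [ae_iff]
  have hm : MeasurableSet {x | ¬ p x} := hp.compl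
  rw [← (ins_mp d).measure_preimage_emb (ins_emb d), Measure.volume_eq_prod,
    Measure.measure_prod_null ((ins_emb d).measurable hm)]
  filter_upwards [h] with t ht
  exact ae_iff.1 ht

/-- invariance under translations orthogonal to `e_d` -/
theorem inv_trans {n : ℕ} {E : Set (Ev (n + 1))} (d : Fin (n + 1))
    (h : ∀ i, i ≠ d → ∀ s : ℝ, ∀ᵐ x, (x + s • ee i ∈ E ↔ x ∈ E)) (w : Ev n) :
    ∀ᵐ x, (x + ins d 0 w ∈ E ↔ x ∈ E) := by
  have key : ∀ S : Finset (Fin n), ∀ᵐ x,
      (x + ∑ j ∈ S, w j • ee (d.succAbove j) ∈ E ↔ x ∈ E) := by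
    intro S
    induction S using Finset.induction_on with
    | empty => exact Eventually.of_forall fun x => by simp
    | insert i S hi ih =>
      have hmp : MeasurePreserving
          (fun x : Ev (n + 1) => x + ∑ j ∈ S, w j • ee (d.succAbove j)) volume volume :=
        measurePreserving_add_right volume _
      have h1 := hmp.quasiMeasurePreserving.ae (h _ (Fin.succAbove_ne d i) (w i))
      filter_upwards [ih, h1] with x h2 h3
      rw [Finset.sum_insert hi, ← h2, ← h3]
      have : x + (w i • ee (d.succAbove i) + ∑ j ∈ S, w j • ee (d.succAbove j)) =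
          x + ∑ j ∈ S, w j • ee (d.succAbove j) + w i • ee (d.succAbove i) := by abel
      rw [this]
  have h1 : ins d 0 w = ∑ j, w j • (ee (d.succAbove j) : Ev (n + 1)) := by
    ext k
    have h2 : (∑ j, w j • (ee (d.succAbove j) : Ev (n + 1))) k =
        ∑ j, w j * (if d.succAbove j = k then 1 else 0) := by
      rw [WithLp.ofLp_sum, Finset.sum_apply]
      refine Finset.sum_congr rfl fun j _ => ?_
      rw [PiLp.smul_apply, smul_eq_mul]
      simp [ee, eq_comm]
    rw [h2]
    rcases Fin.eq_self_or_eq_succAbove d k with h3 | ⟨i, h3⟩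
    · rw [h3, ins_same]
      rw [Finset.sum_eq_zero]
      intro j _
      rw [if_neg (Fin.succAbove_ne d j), mul_zero]
    · rw [h3, ins_succAbove]
      rw [Finset.sum_eq_single i]
      · simp
      · intro j _ hj
        rw [if_neg fun h4 => hj (Fin.succAbove_right_injective h4), mul_zero]
      · intro h4
        exact absurd (Finset.mem_univ i) h4
  rw [h1]
  exact key Finset.univ

/-- the slices are null or conull -/
theorem slice_trivial {n : ℕ} {E : Set (Ev (n + 1))} (hE : MeasurableSet E) (d : Fin (n + 1))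
    (h : ∀ i, i ≠ d → ∀ s : ℝ, ∀ᵐ x, (x + s • ee i ∈ E ↔ x ∈ E)) :
    ∀ᵐ t : ℝ, (∀ᵐ y : Ev n, y ∉ slice d E t) ∨ (∀ᵐ y : Ev n, y ∈ slice d E t) := by
  have hm1 : MeasurableSet {p : Ev n × Ev (n + 1) | (p.2 + ins d 0 p.1 ∈ E ↔ p.2 ∈ E)} := by
    have a1 : MeasurableSet {p : Ev n × Ev (n + 1) | p.2 + ins d 0 p.1 ∈ E} :=
      (measurable_snd.add ((ins_measurable_right d 0).comp measurable_fst)) hE
    have a2 : MeasurableSet {p : Ev n × Ev (n + 1) | p.2 ∈ E} := measurable_snd hE
    exact a1.iff a2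
  have h1 : ∀ᵐ w : Ev n, ∀ᵐ x : Ev (n + 1), (x + ins d 0 w ∈ E ↔ x ∈ E) :=
    Eventually.of_forall (inv_trans d h)
  have h2 : ∀ᵐ x : Ev (n + 1), ∀ᵐ w : Ev n, (x + ins d 0 w ∈ E ↔ x ∈ E) :=
    (Measure.ae_ae_comm hm1).1 h1
  filter_upwards [ae_ins d h2] with t ht
  obtain ⟨y, hy⟩ := ht.exists
  have h3 : ∀ᵐ w : Ev n, (w + y ∈ slice d E t ↔ y ∈ slice d E t) := by
    filter_upwards [hy] with w hw
    rw [← ins_add_int] at hw
    show ins d t (w + y) ∈ E ↔ ins d t y ∈ E
    rw [add_comm w y]
    exact hw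
  have hmp : MeasurePreserving (fun x : Ev n => x + -y) volume volume :=
    measurePreserving_add_right volume _
  have h4 : ∀ᵐ z : Ev n, (z + -y + y ∈ slice d E t ↔ y ∈ slice d E t) :=
    hmp.quasiMeasurePreserving.ae h3
  by_cases hb : y ∈ slice d E t
  · right
    filter_upwards [h4] with z hz
    rw [neg_add_cancel_right] at hz
    exact hz.2 hb
  · left
    filter_upwards [h4] with z hz
    rw [neg_add_cancel_right] at hz
    exact fun h5 => hb (hz.1 h5)

theorem sl_of_null {n : ℕ} {E : Set (Ev (n + 1))} {d : Fin (n + 1)} {t : ℝ}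
    (h : ∀ᵐ y : Ev n, y ∉ slice d E t) : sl d E t = 0 := by
  unfold sl periodicVolume
  have h1 : volume (slice d E t) = 0 := measure_eq_zero_iff_ae_notMem.2 h
  rw [measure_mono_null inter_subset_left h1]
  simp

theorem sl_of_full {n : ℕ} {E : Set (Ev (n + 1))} {d : Fin (n + 1)} {t : ℝ}
    (h : ∀ᵐ y : Ev n, y ∈ slice d E t) : sl d E t = 1 := by
  unfold sl periodicVolume
  have h1 : (slice d E t ∩ unitCell n : Set (Ev n)) =ᵐ[volume] unitCell n := by
    filter_upwards [h] with y hy
    exact propext ⟨fun h2 => h2.2, fun h2 => ⟨hy, h2⟩⟩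
  rw [measure_congr h1, cell_volume]
  simp

theorem var_le {n : ℕ} {u : Ev (n + 1) → ℝ} (hu : ContDiff ℝ 1 u) (hp : IsPer u)
    (d : Fin (n + 1)) : ∫ t in (0 : ℝ)..1, |deriv (am d u) t| ≤
      ∫ x in unitCell (n + 1), |gr u x d| := by
  have hg := gr_continuous hu
  have hgd : Continuous fun x => |gr u x d| := by fun_prop
  rw [cell_fubini d (integrable_cell hgd), intervalIntegral.integral_of_le zero_le_one,
    intervalIntegral.integral_of_le zero_le_one]
  have hci := continuous_ins d
  have hi2 : Integrable (Function.uncurry fun (t : ℝ) (y : Ev n) =>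
      |gr u (ins d t y) d|) ((volume.restrict (Ioc (0 : ℝ) 1)).prod
        (volume.restrict (unitCell n))) := by
    obtain ⟨C, hC0, hC⟩ := per_bound hgd (fun v hv x => by
      simp only
      rw [gr_isPer hp v hv x])
    refine Integrable.mono' (g := fun _ => C) (integrable_const C)
      (hgd.comp hci).aestronglyMeasurable (Eventually.of_forall fun p => ?_)
    exact hC (ins d p.1 p.2)
  refine integral_mono_of_nonneg (Eventually.of_forall fun t => by positivity)
    hi2.integral_prod_left (Eventually.of_forall fun t => ?_)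
  simp only
  rw [(deriv_am d hu t).deriv]
  exact abs_integral_le_integral_abs

/-- **slab theorem**, in any dimension -/
theorem slab_of_var {n : ℕ} {E : Set (Ev (n + 1))} (hE : MeasurableSet E)
    (hp : IsLatticePeriodic E) {u : ℕ → Ev (n + 1) → ℝ} (M : Moll E u) (d : Fin (n + 1))
    (hfin : periodicPerimeter E ≠ ∞) (hPE : (periodicPerimeter E).toReal ≤ 2)
    (hconv : ∀ᵐ t : ℝ, Tendsto (fun k => am d (u k) t) atTop (𝓝 (sl d E t)))
    (hsup : ∀ η > 0, volume ({t | 1 - η < sl d E t} ∩ Ioc 0 1) ≠ 0)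
    (hinf : ∀ η > 0, volume ({t | sl d E t < η} ∩ Ioc 0 1) ≠ 0)
    (h0 : 0 < periodicVolume E) (h1 : periodicVolume E < 1) :
    ∃ α : ℝ, volume (symmDiff E {x | x d ∈ ArcS α (periodicVolume E)}) = 0 := by
  have hu : ∀ k, ContDiff ℝ 1 (u k) := fun k => M.smooth k 1
  have htriv := slice_trivial hE d fun i hi s =>
    inv_of_osc hE hp M hi hfin hPE hconv hsup hinf s
  obtain ⟨α, hα⟩ := arc_lemma (f := fun k => am d (u k)) (a := sl d E)
    (fun k => am_contDiff d (hu k)) (fun k => am_per d (M.per k)) (sl_per hp) hconv (by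
      filter_upwards [htriv] with t ht
      rcases ht with ht | ht
      · exact Or.inl (sl_of_null ht)
      · exact Or.inr (sl_of_full ht)) (fun k => by
      refine (var_le (hu k) (M.per k) d).trans ?_
      refine (le_trans ?_ (M.energy hfin k)).trans hPE
      have hg := gr_continuous (hu k)
      refine integral_mono (integrable_cell (by fun_prop)) (integrable_cell hg.norm) fun x => ?_
      rw [← Real.norm_eq_abs]
      exact PiLp.norm_apply_le (gr (u k) x) d) (integral_sl hE) h0 h1
  refine ⟨α, ?_⟩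
  have hArc : MeasurableSet (ArcS α (periodicVolume E)) := by
    have : ArcS α (periodicVolume E) = ⋃ m : ℤ, Ico (α + m) (α + m + periodicVolume E) := by
      ext t
      simp [ArcS]
    rw [this]
    exact MeasurableSet.iUnion fun m => measurableSet_Ico
  have hF : MeasurableSet {x : Ev (n + 1) | x d ∈ ArcS α (periodicVolume E)} :=
    (by fun_prop : Measurable fun x : Ev (n + 1) => x d) hArc
  have hall : ∀ᵐ x : Ev (n + 1), (x ∈ E ↔ x d ∈ ArcS α (periodicVolume E)) := by
    refine ae_of_ins d (MeasurableSet.iff hE hF) ?_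
    filter_upwards [htriv, hα] with t h2 h3
    rcases h2 with h2 | h2
    · rw [sl_of_null h2] at h3
      filter_upwards [h2] with y hy
      rw [ins_same]
      refine ⟨fun h4 => absurd h4 hy, fun h4 => ?_⟩
      rw [indicator_of_mem h4] at h3
      exact absurd h3 zero_ne_one
    · rw [sl_of_full h2] at h3
      filter_upwards [h2] with y hy
      rw [ins_same]
      refine ⟨fun _ => ?_, fun _ => hy⟩
      by_contra h4
      rw [indicator_of_notMem h4] at h3
      exact absurd h3 one_ne_zero
  rw [measure_symmDiff_eq_zero_iff]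
  filter_upwards [hall] with x hx
  exact propext hx

/-- slab conclusion in dimension 3 -/
theorem congruent_slab {E : Set (Ev 3)} {d : Fin 3} {α V : ℝ}
    (h : volume (symmDiff E {x | x d ∈ ArcS α V}) = 0) : CongruentModNull E (periodicSlab V) := by
  refine ⟨fun x => WithLp.toLp 2 fun i => 1 * x (Equiv.swap 0 d i) + if i = d then α else 0,
    ⟨Equiv.swap 0 d, fun _ => 1, WithLp.toLp 2 fun i => if i = d then α else 0,
      fun _ => Or.inl rfl, fun x i => rfl⟩, ?_⟩
  have h1 : (fun x : Ev 3 => (WithLp.toLp 2 fun i => 1 * x (Equiv.swap 0 d i) +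
      if i = d then α else 0 : Ev 3)) '' periodicSlab V = {x | x d ∈ ArcS α V} := by
    ext x
    constructor
    · rintro ⟨y, ⟨m, h2, h3⟩, rfl⟩
      refine ⟨m, ?_, ?_⟩
      · show α + m ≤ 1 * y (Equiv.swap 0 d d) + if d = d then α else 0
        rw [Equiv.swap_apply_right, if_pos rfl]
        linarith
      · show 1 * y (Equiv.swap 0 d d) + (if d = d then α else 0) < α + m + V
        rw [Equiv.swap_apply_right, if_pos rfl]
        linarith
    · rintro ⟨m, h2, h3⟩
      refine ⟨WithLp.toLp 2 fun i => x (Equiv.swap 0 d i) -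
        if Equiv.swap 0 d i = d then α else 0, ⟨m, ?_, ?_⟩, ?_⟩
      · show (m : ℝ) ≤ x (Equiv.swap 0 d 0) - if Equiv.swap 0 d 0 = d then α else 0
        rw [Equiv.swap_apply_left, if_pos rfl]
        linarith
      · show x (Equiv.swap 0 d 0) - (if Equiv.swap 0 d 0 = d then α else 0) < m + V
        rw [Equiv.swap_apply_left, if_pos rfl]
        linarith
      · ext i
        show 1 * (x (Equiv.swap 0 d (Equiv.swap 0 d i)) -
          if Equiv.swap 0 d (Equiv.swap 0 d i) = d then α else 0) + (if i = d then α else 0) = x i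
        rw [Equiv.swap_apply_self]
        ring
  rw [h1]
  exact h

end Crest.Agent.R214
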