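import Crest.Agent.R214.Back2
import Crest.Agent.R214.Iface

/-!
# Row 214: `SlabConst` (helper62), without the import of Asm.lean
-/

set_option autoImplicit false

open MeasureTheory Filter Set Crest.GeometryTopology.PeriodicPerimeter
open scoped Topology ENNReal

namespace Crest.Agent.R214

theorem slabConst : SlabConst := by
  intro E d hE hp hfin hP hR h0 h1
  obtain ⟨u, M⟩ := exists_moll hE hp
  obtain ⟨α, hα⟩ := slab_of_var hE hp M d hfin hP (M.am_conv hE d)
    (fun η hη => Ico_Ioc (hR.sup η hη)) (fun η hη => by
      refine Ico_Ioc (p := fun t => sl d E t < η) ?_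
      have := hR.inf η hη
      rwa [zero_add] at this) h0 h1
  obtain ⟨e, he⟩ : ∃ e : Fin 3, e ≠ d := exists_ne d
  exact ⟨e, slab_other hE he hα⟩

end Crest.Agent.R214
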