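import Mathlib

/-!
# Row 214, dual form of Steiner symmetrisation, part 1: measure theory (helper39)

* `layer` : layer cake with atoms (decreasing rearrangement)
* `borel_ext` : from continuous to measurable weights
-/

set_option autoImplicit false
open MeasureTheory Set Filter Topology
open scoped ENNReal

namespace Crest.Agent.R214.StD

section Rearr

variable {X : Type*} [MeasurableSpace X] {m : Measure X} [IsProbabilityMeasure m] {l : X → ℝ}

/-- distribution function -/
noncomputable def Ad (m : Measure X) (l : X → ℝ) (t : ℝ) : ℝ := m.real {x | t < l x}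

lemma Ad_anti : Antitone (Ad m l) := fun _ _ h =>
  measureReal_mono (fun _ hx => lt_of_le_of_lt h hx)

omit [IsProbabilityMeasure m] in
lemma Ad_nonneg (t : ℝ) : 0 ≤ Ad m l t := measureReal_nonneg

lemma Ad_le_one (t : ℝ) : Ad m l t ≤ 1 := measureReal_le_one

/-- right continuity -/
lemma exists_gt {t a : ℝ} (h : a < Ad m l t) : ∃ s > t, a < Ad m l s := by
  have h1 : Tendsto (fun n : ℕ => m {x | t + 1 / ((n : ℝ) + 1) < l x}) atTop
      (𝓝 (m (⋃ n : ℕ, {x | t + 1 / ((n : ℝ) + 1) < l x}))) := by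
    apply tendsto_measure_iUnion_atTop
    intro i j hij x hx
    have hx' : t + 1 / ((i : ℝ) + 1) < l x := hx
    have : (i : ℝ) ≤ j := by exact_mod_cast hij
    have h2 : 1 / ((j : ℝ) + 1) ≤ 1 / ((i : ℝ) + 1) := by
      apply one_div_le_one_div_of_le <;> [positivity; linarith]
    show t + 1 / ((j : ℝ) + 1) < l x
    linarith
  have h2 : (⋃ n : ℕ, {x | t + 1 / ((n : ℝ) + 1) < l x}) = {x | t < l x} := by
    ext x
    simp only [mem_iUnion, mem_ofPred_eq]
    constructor
    · rintro ⟨n, hn⟩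
      have : 0 < 1 / ((n : ℝ) + 1) := by positivity
      linarith
    · intro hx
      obtain ⟨n, hn⟩ := exists_nat_one_div_lt (sub_pos.2 hx)
      exact ⟨n, by linarith⟩
  rw [h2] at h1
  have h3 := (ENNReal.tendsto_toReal (measure_ne_top m _)).comp h1
  have h4 := h3.eventually (lt_mem_nhds h)
  obtain ⟨n, hn⟩ := h4.exists
  exact ⟨t + 1 / ((n : ℝ) + 1), by have : 0 < 1 / ((n : ℝ) + 1) := by positivity
                                   linarith, hn⟩

/-- left limit -/
lemma le_real_of_forall (hl : Measurable l) {t a : ℝ} (h : ∀ s < t, a ≤ Ad m l s) :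
    a ≤ m.real {x | t ≤ l x} := by
  have h1 : Tendsto (fun n : ℕ => m {x | t - 1 / ((n : ℝ) + 1) < l x}) atTop
      (𝓝 (m (⋂ n : ℕ, {x | t - 1 / ((n : ℝ) + 1) < l x}))) := by
    apply tendsto_measure_iInter_atTop
    · intro i
      exact (measurableSet_lt measurable_const hl).nullMeasurableSet
    · intro i j hij x hx
      have hx' : t - 1 / ((j : ℝ) + 1) < l x := hx
      have : (i : ℝ) ≤ j := by exact_mod_cast hij
      have h2 : 1 / ((j : ℝ) + 1) ≤ 1 / ((i : ℝ) + 1) := by
        apply one_div_le_one_div_of_le <;> [positivity; linarith]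
      show t - 1 / ((i : ℝ) + 1) < l x
      linarith
    · exact ⟨0, measure_ne_top m _⟩
  have h2 : (⋂ n : ℕ, {x | t - 1 / ((n : ℝ) + 1) < l x}) = {x | t ≤ l x} := by
    ext x
    simp only [mem_iInter, mem_ofPred_eq]
    constructor
    · intro hx
      by_contra hcon
      push Not at hcon
      obtain ⟨n, hn⟩ := exists_nat_one_div_lt (sub_pos.2 hcon)
      linarith [hx n]
    · intro hx n
      have : 0 < 1 / ((n : ℝ) + 1) := by positivity
      linarith
  rw [h2] at h1
  have h3 := (ENNReal.tendsto_toReal (measure_ne_top m _)).comp h1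
  refine ge_of_tendsto' h3 fun n => ?_
  refine h (t - 1 / ((n : ℝ) + 1)) ?_
  have : 0 < 1 / ((n : ℝ) + 1) := by positivity
  linarith

/-- decreasing rearrangement -/
noncomputable def ls (m : Measure X) (l : X → ℝ) (a : ℝ) : ℝ :=
  sSup {t | (0 ≤ t ∧ t ≤ 1) ∧ (t = 0 ∨ a < Ad m l t)}

omit [IsProbabilityMeasure m] in
lemma ls_bdd (a : ℝ) : BddAbove {t | (0 ≤ t ∧ t ≤ 1) ∧ (t = 0 ∨ a < Ad m l t)} :=
  ⟨1, fun _ ht => ht.1.2⟩

omit [IsProbabilityMeasure m] in
lemma ls_nonempty (a : ℝ) : {t | (0 ≤ t ∧ t ≤ 1) ∧ (t = 0 ∨ a < Ad m l t)}.Nonempty :=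
  ⟨0, ⟨le_rfl, zero_le_one⟩, Or.inl rfl⟩

omit [IsProbabilityMeasure m] in
lemma ls_nonneg (a : ℝ) : 0 ≤ ls m l a :=
  le_csSup (ls_bdd a) ⟨⟨le_rfl, zero_le_one⟩, Or.inl rfl⟩

omit [IsProbabilityMeasure m] in
lemma ls_le_one (a : ℝ) : ls m l a ≤ 1 := csSup_le (ls_nonempty a) fun _ ht => ht.1.2

omit [IsProbabilityMeasure m] in
lemma ls_anti : Antitone (ls m l) := by
  intro a b hab
  refine csSup_le_csSup (ls_bdd a) (ls_nonempty b) fun t ht => ⟨ht.1, ?_⟩
  rcases ht.2 with h | h
  · exact Or.inl h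
  · exact Or.inr (lt_of_le_of_lt hab h)

lemma lt_ls (h1 : ∀ x, l x ≤ 1) {t a : ℝ} (ht : 0 ≤ t) (ha : 0 ≤ a) :
    t < ls m l a ↔ a < Ad m l t := by
  constructor
  · intro h
    obtain ⟨s, hs, hts⟩ := exists_lt_of_lt_csSup (ls_nonempty a) h
    rcases hs.2 with h2 | h2
    · linarith
    · exact lt_of_lt_of_le h2 (Ad_anti hts.le)
  · intro h
    obtain ⟨s, hs, has⟩ := exists_gt h
    have hs1 : s ≤ 1 := by
      by_contra hcon
      push Not at hcon
      have : {x | s < l x} = ∅ := by
        ext x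
        simp only [mem_ofPred_eq, mem_empty_iff_false, iff_false, not_lt]
        linarith [h1 x]
      unfold Ad at has
      rw [this, measureReal_empty] at has
      linarith
    exact lt_of_lt_of_le hs (le_csSup (ls_bdd a) ⟨⟨by linarith, hs1⟩, Or.inr has⟩)

/-- the rearrangement has the same distribution -/
lemma map_ls (hl : Measurable l) (h01 : ∀ x, 0 ≤ l x ∧ l x ≤ 1) :
    Measure.map l m = Measure.map (ls m l) (volume.restrict (Ioo (0:ℝ) 1)) := by
  have hP : IsProbabilityMeasure (volume.restrict (Ioo (0:ℝ) 1)) := ⟨by simp⟩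
  have hls : Measurable (ls m l) := ls_anti.measurable
  have hp1 : IsProbabilityMeasure (Measure.map l m) := Measure.isProbabilityMeasure_map hl.aemeasurable
  have hp2 : IsProbabilityMeasure (Measure.map (ls m l) (volume.restrict (Ioo (0:ℝ) 1))) :=
    Measure.isProbabilityMeasure_map hls.aemeasurable
  have key : ∀ t : ℝ, Measure.map l m (Ioi t) =
      Measure.map (ls m l) (volume.restrict (Ioo (0:ℝ) 1)) (Ioi t) := by
    intro t
    rw [Measure.map_apply hl measurableSet_Ioi, Measure.map_apply hls measurableSet_Ioi]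
    rcases lt_or_ge t 0 with ht | ht
    · have e1 : l ⁻¹' Ioi t = univ := by
        ext x
        simp only [mem_preimage, mem_Ioi, mem_univ, iff_true]
        linarith [(h01 x).1]
      have e2 : ls m l ⁻¹' Ioi t = univ := by
        ext x
        simp only [mem_preimage, mem_Ioi, mem_univ, iff_true]
        linarith [ls_nonneg (m := m) (l := l) x]
      rw [e1, e2, measure_univ, measure_univ]
    · rw [Measure.restrict_apply (hls measurableSet_Ioi)]
      have e1 : ls m l ⁻¹' Ioi t ∩ Ioo 0 1 = Ioo 0 (Ad m l t) := by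
        ext a
        simp only [mem_inter_iff, mem_preimage, mem_Ioi, mem_Ioo]
        constructor
        · rintro ⟨h1, h2, h3⟩
          exact ⟨h2, (lt_ls (fun x => (h01 x).2) ht h2.le).1 h1⟩
        · rintro ⟨h1, h2⟩
          exact ⟨(lt_ls (fun x => (h01 x).2) ht h1.le).2 h2, h1, h2.trans_le (Ad_le_one t)⟩
      rw [e1, Real.volume_Ioo, sub_zero]
      unfold Ad
      rw [ofReal_measureReal]
      rfl
  apply Measure.ext_of_Iic
  intro a
  have e : Iic a = (Ioi a)ᶜ := by simp
  rw [e, prob_compl_eq_one_sub measurableSet_Ioi, prob_compl_eq_one_sub measurableSet_Ioi, key]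

/-- **layer cake with atoms** -/
theorem layer (hl : Measurable l) (h01 : ∀ x, 0 ≤ l x ∧ l x ≤ 1) {H h : ℝ → ℝ}
    (hH : Measurable H) (hH01 : ∀ a, 0 ≤ H a ∧ H a ≤ 1) (hh : Measurable h)
    (hh01 : ∀ a, 0 ≤ h a ∧ h a ≤ 1)
    (hle : ∀ t ∈ Ioo (0:ℝ) 1, ∀ a, Ad m l t ≤ a → a ≤ m.real {x | t ≤ l x} → H a ≤ h t) :
    ∫ a in (m.real {x | 1 ≤ l x})..(Ad m l 0), H a ≤
      ∫ x in {x | 0 < l x ∧ l x < 1}, h (l x) ∂m := by
  have hls : Measurable (ls m l) := ls_anti.measurable
  have hms : MeasurableSet {x | 0 < l x ∧ l x < 1} :=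
    (measurableSet_lt measurable_const hl).inter (measurableSet_lt hl measurable_const)
  have hg : Measurable (indicator (Ioo (0:ℝ) 1) h) := hh.indicator measurableSet_Ioo
  have e1 : ∫ x in {x | 0 < l x ∧ l x < 1}, h (l x) ∂m =
      ∫ a in Ioo (0:ℝ) 1, indicator (Ioo (0:ℝ) 1) h (ls m l a) := by
    rw [← integral_map (φ := ls m l) (f := indicator (Ioo (0:ℝ) 1) h) hls.aemeasurable
      hg.aestronglyMeasurable, ← map_ls hl h01, integral_map hl.aemeasurable
      hg.aestronglyMeasurable, ← integral_indicator hms]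
    refine integral_congr_ae (Eventually.of_forall fun x => ?_)
    by_cases hx : 0 < l x ∧ l x < 1
    · simp only [indicator, mem_ofPred_eq, mem_Ioo, if_pos hx]
    · simp only [indicator, mem_ofPred_eq, mem_Ioo, if_neg hx]
  have hb : m.real {x | 1 ≤ l x} ≤ Ad m l 0 :=
    measureReal_mono fun x hx => by
      simp only [mem_ofPred_eq] at hx ⊢
      linarith
  rw [e1, intervalIntegral.integral_of_le hb, ← integral_Ioc_eq_integral_Ioo]
  have hb0 : 0 ≤ m.real {x | 1 ≤ l x} := measureReal_nonneg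
  have hb1 : Ad m l 0 ≤ 1 := Ad_le_one 0
  have hii : ∀ s : Set ℝ, s ⊆ Ioc 0 1 → IntegrableOn
      (fun a => indicator (Ioo (0:ℝ) 1) h (ls m l a)) s := by
    intro s hs
    have hfin : volume s ≠ ∞ := ((measure_mono hs).trans_lt (by simp)).ne
    refine Measure.integrableOn_of_bounded (M := 1) hfin (hg.comp hls).aestronglyMeasurable ?_
    refine Eventually.of_forall fun a => ?_
    simp only [indicator]
    split_ifs
    · rw [Real.norm_eq_abs, abs_of_nonneg (hh01 _).1]
      exact (hh01 _).2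
    · simp
  calc ∫ a in Ioc (m.real {x | 1 ≤ l x}) (Ad m l 0), H a
      ≤ ∫ a in Ioc (m.real {x | 1 ≤ l x}) (Ad m l 0), indicator (Ioo (0:ℝ) 1) h (ls m l a) := by
        rw [integral_Ioc_eq_integral_Ioo, integral_Ioc_eq_integral_Ioo]
        refine setIntegral_mono_on ?_ ?_ measurableSet_Ioo ?_
        · refine Measure.integrableOn_of_bounded (M := 1) (by simp) hH.aestronglyMeasurable ?_
          refine Eventually.of_forall fun a => ?_
          rw [Real.norm_eq_abs, abs_of_nonneg (hH01 _).1]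
          exact (hH01 _).2
        · exact hii _ fun a ha => ⟨lt_of_le_of_lt hb0 ha.1, ha.2.le.trans hb1⟩
        · intro a ha
          have ha0 : 0 ≤ a := hb0.trans ha.1.le
          have h1 : 0 < ls m l a := (lt_ls (fun x => (h01 x).2) le_rfl ha0).2 ha.2
          have h2 : ls m l a < 1 := by
            refine lt_of_le_of_ne (ls_le_one a) fun hcon => ?_
            have : a ≤ m.real {x | 1 ≤ l x} := by
              refine le_real_of_forall hl fun s hs => ?_
              rcases lt_or_ge s 0 with hs0 | hs0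
              · have h3 := (lt_ls (m := m) (fun x => (h01 x).2) (le_refl (0:ℝ)) ha0).1 h1
                exact h3.le.trans (Ad_anti hs0.le)
              · exact ((lt_ls (fun x => (h01 x).2) hs0 ha0).1 (by rw [hcon]; exact hs)).le
            linarith [ha.1]
          have h3 : ls m l a ∈ Ioo (0:ℝ) 1 := ⟨h1, h2⟩
          rw [indicator_of_mem h3]
          refine hle _ h3 a ?_ ?_
          · by_contra hcon
            push Not at hcon
            exact lt_irrefl _ ((lt_ls (fun x => (h01 x).2) h1.le ha0).2 hcon)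
          · refine le_real_of_forall hl fun s hs => ?_
            rcases lt_or_ge s 0 with hs0 | hs0
            · have h4 := (lt_ls (m := m) (fun x => (h01 x).2) (le_refl (0:ℝ)) ha0).1 h1
              exact h4.le.trans (Ad_anti hs0.le)
            · exact ((lt_ls (fun x => (h01 x).2) hs0 ha0).1 hs).le
    _ ≤ ∫ a in Ioc (0:ℝ) 1, indicator (Ioo (0:ℝ) 1) h (ls m l a) := by
        refine setIntegral_mono_set (hii _ le_rfl) ?_ ?_
        · refine Eventually.of_forall fun a => ?_
          simp only [indicator]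
          split_ifs
          · exact (hh01 _).1
          · exact le_rfl
        · exact (Ioc_subset_Ioc hb0 hb1).eventuallyLE

end Rearr

/-- **from continuous to measurable weights** -/
theorem borel_ext {μ ν : Measure ℝ} [IsFiniteMeasure μ] [IsFiniteMeasure ν] {P : ℝ}
    (HP : ∀ c h : ℝ → ℝ, Continuous c → Continuous h → (∀ t, 0 ≤ c t) → (∀ t, 0 ≤ h t) →
      (∀ t, c t ^ 2 + h t ^ 2 ≤ 1) → ∫ t, c t ∂μ + ∫ t, h t ∂ν ≤ P)
    {c h : ℝ → ℝ} (hc : Measurable c) (hh : Measurable h) (hc0 : ∀ t, 0 ≤ c t)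
    (hh0 : ∀ t, 0 ≤ h t) (hch : ∀ t, c t ^ 2 + h t ^ 2 ≤ 1) :
    ∫ t, c t ∂μ + ∫ t, h t ∂ν ≤ P := by
  have hc1 : ∀ t, c t ≤ 1 := fun t => by nlinarith [hch t, sq_nonneg (h t), hc0 t]
  have hh1 : ∀ t, h t ≤ 1 := fun t => by nlinarith [hch t, sq_nonneg (c t), hh0 t]
  have hci : ∀ κ : Measure ℝ, IsFiniteMeasure κ → Integrable c κ := fun κ _ =>
    Integrable.of_bound hc.aestronglyMeasurable 1 (Eventually.of_forall fun t => by
      rw [Real.norm_eq_abs, abs_of_nonneg (hc0 t)]; exact hc1 t)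
  have hhi : ∀ κ : Measure ℝ, IsFiniteMeasure κ → Integrable h κ := fun κ _ =>
    Integrable.of_bound hh.aestronglyMeasurable 1 (Eventually.of_forall fun t => by
      rw [Real.norm_eq_abs, abs_of_nonneg (hh0 t)]; exact hh1 t)
  refine le_of_forall_pos_le_add fun ε hε => ?_
  have hε8 : 0 < ε / 8 := by linarith
  obtain ⟨g1, hg1, hg1i⟩ := (hci (μ + ν) inferInstance).exists_boundedContinuous_integral_sub_le hε8
  obtain ⟨g2, hg2, hg2i⟩ := (hhi (μ + ν) inferInstance).exists_boundedContinuous_integral_sub_le hε8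
  -- the retraction
  let x : ℝ → ℝ := fun t => max (g1 t) 0
  let y : ℝ → ℝ := fun t => max (g2 t) 0
  let N : ℝ → ℝ := fun t => max 1 (Real.sqrt (x t ^ 2 + y t ^ 2))
  have hxc : Continuous x := g1.continuous.max continuous_const
  have hyc : Continuous y := g2.continuous.max continuous_const
  have hNc : Continuous N := by fun_prop
  have hN1 : ∀ t, 1 ≤ N t := fun t => le_max_left _ _
  have hN0 : ∀ t, 0 < N t := fun t => lt_of_lt_of_le one_pos (hN1 t)
  have hx0 : ∀ t, 0 ≤ x t := fun t => le_max_right _ _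
  have hy0 : ∀ t, 0 ≤ y t := fun t => le_max_right _ _
  have hNs : ∀ t, x t ^ 2 + y t ^ 2 ≤ N t ^ 2 := by
    intro t
    have h1 : Real.sqrt (x t ^ 2 + y t ^ 2) ≤ N t := le_max_right _ _
    have h2 : 0 ≤ x t ^ 2 + y t ^ 2 := by positivity
    calc x t ^ 2 + y t ^ 2 = Real.sqrt (x t ^ 2 + y t ^ 2) ^ 2 := (Real.sq_sqrt h2).symm
      _ ≤ N t ^ 2 := by
        apply pow_le_pow_left₀ (Real.sqrt_nonneg _) h1
  have hdx : ∀ t, |x t - c t| ≤ |c t - g1 t| := by
    intro t
    have := abs_max_sub_max_le_abs (g1 t) (c t) 0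
    rw [max_eq_left (hc0 t)] at this
    rw [abs_sub_comm (c t)]
    exact this
  have hdy : ∀ t, |y t - h t| ≤ |h t - g2 t| := by
    intro t
    have := abs_max_sub_max_le_abs (g2 t) (h t) 0
    rw [max_eq_left (hh0 t)] at this
    rw [abs_sub_comm (h t)]
    exact this
  -- `N - 1 ≤ |x - c| + |y - h|`
  have hdN : ∀ t, N t - 1 ≤ |x t - c t| + |y t - h t| := by
    intro t
    have h0 : 0 ≤ |x t - c t| + |y t - h t| := by positivity
    rcases le_total (Real.sqrt (x t ^ 2 + y t ^ 2)) 1 with h1 | h1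
    · have : N t = 1 := max_eq_left h1
      rw [this]; linarith
    · have h2 : N t = Real.sqrt (x t ^ 2 + y t ^ 2) := max_eq_right h1
      rw [h2, sub_le_iff_le_add]
      apply Real.sqrt_le_iff.2
      refine ⟨by linarith, ?_⟩
      have h3 := hch t
      have h4 : |x t - c t| ^ 2 = (x t - c t) ^ 2 := sq_abs _
      have h5 : |y t - h t| ^ 2 = (y t - h t) ^ 2 := sq_abs _
      have h6 : x t - c t ≤ |x t - c t| := le_abs_self _
      have h7 : y t - h t ≤ |y t - h t| := le_abs_self _
      have h8 := hc0 t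
      have h9 := hh0 t
      have h10 := hc1 t
      have h11 := hh1 t
      nlinarith [mul_nonneg (abs_nonneg (x t - c t)) (abs_nonneg (y t - h t)),
        mul_nonneg h8 (sub_nonneg.2 h6), mul_nonneg h9 (sub_nonneg.2 h7),
        mul_nonneg (sub_nonneg.2 h10) (abs_nonneg (x t - c t)),
        mul_nonneg (sub_nonneg.2 h11) (abs_nonneg (y t - h t))]
  have hx2 : ∀ t, x t / N t ≤ 1 := by
    intro t
    rw [div_le_one (hN0 t)]
    nlinarith [hNs t, hN0 t, sq_nonneg (y t), hx0 t]
  have hy2 : ∀ t, y t / N t ≤ 1 := by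
    intro t
    rw [div_le_one (hN0 t)]
    nlinarith [hNs t, hN0 t, sq_nonneg (x t), hy0 t]
  have hcd : ∀ t, c t - x t / N t ≤ 2 * |c t - g1 t| + |h t - g2 t| := by
    intro t
    have h1 : x t - x t / N t = (x t / N t) * (N t - 1) := by
      have := (hN0 t).ne'
      field_simp
    have h2 : (x t / N t) * (N t - 1) ≤ 1 * (N t - 1) :=
      mul_le_mul_of_nonneg_right (hx2 t) (by linarith [hN1 t])
    have h3 : c t - x t ≤ |x t - c t| := by rw [abs_sub_comm]; exact le_abs_self _
    linarith [hdN t, hdx t, hdy t]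
  have hhd : ∀ t, h t - y t / N t ≤ |c t - g1 t| + 2 * |h t - g2 t| := by
    intro t
    have h1 : y t - y t / N t = (y t / N t) * (N t - 1) := by
      have := (hN0 t).ne'
      field_simp
    have h2 : (y t / N t) * (N t - 1) ≤ 1 * (N t - 1) :=
      mul_le_mul_of_nonneg_right (hy2 t) (by linarith [hN1 t])
    have h3 : h t - y t ≤ |y t - h t| := by rw [abs_sub_comm]; exact le_abs_self _
    linarith [hdN t, hdx t, hdy t]
  have key := HP (fun t => x t / N t) (fun t => y t / N t) (hxc.div hNc fun t => (hN0 t).ne')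
    (hyc.div hNc fun t => (hN0 t).ne') (fun t => div_nonneg (hx0 t) (hN0 t).le)
    (fun t => div_nonneg (hy0 t) (hN0 t).le) (fun t => by
      rw [div_pow, div_pow, ← add_div, div_le_one (pow_pos (hN0 t) 2)]
      exact hNs t)
  -- integrability
  have hxi : ∀ κ : Measure ℝ, IsFiniteMeasure κ → Integrable (fun t => x t / N t) κ := fun κ _ =>
    Integrable.of_bound (hxc.div hNc fun t => (hN0 t).ne').aestronglyMeasurable 1
      (Eventually.of_forall fun t => by
        rw [Real.norm_eq_abs, abs_of_nonneg (div_nonneg (hx0 t) (hN0 t).le)]; exact hx2 t)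
  have hyi : ∀ κ : Measure ℝ, IsFiniteMeasure κ → Integrable (fun t => y t / N t) κ := fun κ _ =>
    Integrable.of_bound (hyc.div hNc fun t => (hN0 t).ne').aestronglyMeasurable 1
      (Eventually.of_forall fun t => by
        rw [Real.norm_eq_abs, abs_of_nonneg (div_nonneg (hy0 t) (hN0 t).le)]; exact hy2 t)
  have ha1 : Integrable (fun t => |c t - g1 t|) (μ + ν) :=
    ((hci (μ + ν) inferInstance).sub hg1i).abs
  have ha2 : Integrable (fun t => |h t - g2 t|) (μ + ν) :=
    ((hhi (μ + ν) inferInstance).sub hg2i).abs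
  have hs1 := integral_add_measure (f := fun t => |c t - g1 t|) ha1.left_of_add_measure
    ha1.right_of_add_measure
  have hs2 := integral_add_measure (f := fun t => |h t - g2 t|) ha2.left_of_add_measure
    ha2.right_of_add_measure
  have hn1 : 0 ≤ ∫ t, |c t - g1 t| ∂μ := integral_nonneg fun t => abs_nonneg _
  have hn2 : 0 ≤ ∫ t, |c t - g1 t| ∂ν := integral_nonneg fun t => abs_nonneg _
  have hn3 : 0 ≤ ∫ t, |h t - g2 t| ∂μ := integral_nonneg fun t => abs_nonneg _
  have hn4 : 0 ≤ ∫ t, |h t - g2 t| ∂ν := integral_nonneg fun t => abs_nonneg _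
  simp only [Real.norm_eq_abs] at hg1 hg2
  have i1 : ∫ t, c t ∂μ - ∫ t, x t / N t ∂μ ≤
      2 * ∫ t, |c t - g1 t| ∂μ + ∫ t, |h t - g2 t| ∂μ := by
    rw [← integral_sub (hci μ inferInstance) (hxi μ inferInstance), ← integral_const_mul,
      ← integral_add (ha1.left_of_add_measure.const_mul 2) ha2.left_of_add_measure]
    exact integral_mono ((hci μ inferInstance).sub (hxi μ inferInstance))
      ((ha1.left_of_add_measure.const_mul 2).add ha2.left_of_add_measure) fun t => hcd t
  have i2 : ∫ t, h t ∂ν - ∫ t, y t / N t ∂ν ≤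
      ∫ t, |c t - g1 t| ∂ν + 2 * ∫ t, |h t - g2 t| ∂ν := by
    rw [← integral_sub (hhi ν inferInstance) (hyi ν inferInstance), ← integral_const_mul,
      ← integral_add ha1.right_of_add_measure (ha2.right_of_add_measure.const_mul 2)]
    exact integral_mono ((hhi ν inferInstance).sub (hyi ν inferInstance))
      (ha1.right_of_add_measure.add (ha2.right_of_add_measure.const_mul 2)) fun t => hhd t
  linarith

end Crest.Agent.R214.StD
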