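import Crest.Agent.R214.StD1

/-!
# Row 214, dual form of Steiner symmetrisation, part 2: abstract coarea and Fatou (helper39)
-/

set_option autoImplicit false
open MeasureTheory Set Filter Topology
open scoped ENNReal

namespace Crest.Agent.R214.StD

lemma ev_of_le_liminf {x : ℝ} {a : ℕ → ℝ} (ha : ∀ n, 0 ≤ a n)
    (h : ENNReal.ofReal x ≤ liminf (fun n => ENNReal.ofReal (a n)) atTop) :
    ∀ s < x, ∀ᶠ n in atTop, s < a n := by
  intro s hs
  rcases lt_or_ge s 0 with h0 | h0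
  · exact Eventually.of_forall fun n => h0.trans_le (ha n)
  · have h1 : ENNReal.ofReal s < liminf (fun n => ENNReal.ofReal (a n)) atTop :=
      lt_of_lt_of_le ((ENNReal.ofReal_lt_ofReal_iff (lt_of_le_of_lt h0 hs)).2 hs) h
    have h2 := eventually_lt_of_lt_liminf h1
    filter_upwards [h2] with n hn
    exact lt_of_not_ge fun hcon => absurd (ENNReal.ofReal_le_ofReal hcon) (not_le.2 hn)

lemma le_liminf_of_ev {x : ℝ} {a : ℕ → ℝ} (h : ∀ s < x, ∀ᶠ n in atTop, s < a n) :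
    ENNReal.ofReal x ≤ liminf (fun n => ENNReal.ofReal (a n)) atTop := by
  refine le_of_forall_lt fun t ht => ?_
  have htop : t ≠ ⊤ := ne_top_of_lt ht
  rw [← ENNReal.ofReal_toReal htop] at ht ⊢
  have h0 : 0 ≤ t.toReal := ENNReal.toReal_nonneg
  have h1 : t.toReal < x := by
    by_contra hcon
    exact absurd (ENNReal.ofReal_le_ofReal (not_lt.1 hcon)) (not_le.2 ht)
  obtain ⟨s, hs1, hs2⟩ := exists_between h1
  refine lt_of_lt_of_le ((ENNReal.ofReal_lt_ofReal_iff (h0.trans_lt hs1)).2 hs1) ?_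
  refine le_liminf_of_le (by isBoundedDefault) ?_
  filter_upwards [h s hs2] with n hn
  exact ENNReal.ofReal_le_ofReal hn.le

/-- Fatou's lemma for real functions -/
theorem fatouR {X : Type*} [MeasurableSpace X] {m : Measure X} {f : ℕ → X → ℝ} {g : X → ℝ}
    (hf : ∀ n, Measurable (f n)) (hf0 : ∀ n x, 0 ≤ f n x) (hfi : ∀ n, Integrable (f n) m)
    (hg : Measurable g) (hg0 : ∀ x, 0 ≤ g x)
    (hle : ∀ᵐ x ∂m, ∀ s < g x, ∀ᶠ n in atTop, s < f n x) {B : ℝ}
    (hB : ∀ᶠ n in atTop, ∫ x, f n x ∂m ≤ B) :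
    Integrable g m ∧ ∀ s < ∫ x, g x ∂m, ∀ᶠ n in atTop, s < ∫ x, f n x ∂m := by
  have h1 : ∫⁻ x, ENNReal.ofReal (g x) ∂m ≤
      liminf (fun n => ENNReal.ofReal (∫ x, f n x ∂m)) atTop := by
    calc ∫⁻ x, ENNReal.ofReal (g x) ∂m
        ≤ ∫⁻ x, liminf (fun n => ENNReal.ofReal (f n x)) atTop ∂m := by
          refine lintegral_mono_ae ?_
          filter_upwards [hle] with x hx
          exact le_liminf_of_ev hx
      _ ≤ liminf (fun n => ∫⁻ x, ENNReal.ofReal (f n x) ∂m) atTop :=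
          lintegral_liminf_le fun n => (hf n).ennreal_ofReal
      _ = liminf (fun n => ENNReal.ofReal (∫ x, f n x ∂m)) atTop := by
          congr 1
          funext n
          rw [ofReal_integral_eq_lintegral_ofReal (hfi n) (Eventually.of_forall fun x => hf0 n x)]
  have h2 : ∫⁻ x, ENNReal.ofReal (g x) ∂m ≤ ENNReal.ofReal B := by
    refine h1.trans ?_
    refine liminf_le_of_le (by isBoundedDefault) fun b hb => ?_
    obtain ⟨n, hn1, hn2⟩ := (hb.and hB).exists
    exact hn1.trans (ENNReal.ofReal_le_ofReal hn2)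
  have hgi : Integrable g m := by
    refine ⟨hg.aestronglyMeasurable, ?_⟩
    rw [hasFiniteIntegral_iff_ofReal (Eventually.of_forall hg0)]
    exact lt_of_le_of_lt h2 ENNReal.ofReal_lt_top
  refine ⟨hgi, ?_⟩
  apply ev_of_le_liminf fun n => integral_nonneg (hf0 n)
  rw [ofReal_integral_eq_lintegral_ofReal hgi (Eventually.of_forall hg0)]
  exact h1

/-- products -/
lemma ev_mul {x y : ℝ} {a b : ℕ → ℝ} (ha0 : ∀ n, 0 ≤ a n) (hb0 : ∀ n, 0 ≤ b n)
    (ha : Tendsto a atTop (𝓝 x)) (hb : ∀ s < y, ∀ᶠ n in atTop, s < b n) :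
    ∀ s < x * y, ∀ᶠ n in atTop, s < a n * b n := by
  intro s hs
  rcases lt_or_ge s 0 with h0 | h0
  · exact Eventually.of_forall fun n => h0.trans_le (mul_nonneg (ha0 n) (hb0 n))
  have hx0 : 0 ≤ x := ge_of_tendsto' ha ha0
  have hx : 0 < x := by
    rcases hx0.eq_or_lt with h | h
    · rw [← h, zero_mul] at hs
      linarith
    · exact h
  have h1 : s / x < y := by
    rw [div_lt_iff₀ hx]
    linarith [mul_comm x y]
  obtain ⟨q, hq1, hq2⟩ := exists_between h1
  have hq0 : 0 < q := lt_of_le_of_lt (div_nonneg h0 hx.le) hq1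
  have h2 : s / q < x := by
    rw [div_lt_iff₀ hx] at hq1
    rw [div_lt_iff₀ hq0]
    linarith [mul_comm q x]
  filter_upwards [ha.eventually (lt_mem_nhds h2), hb q hq2] with n hn1 hn2
  calc s = s / q * q := by field_simp
    _ < a n * q := mul_lt_mul_of_pos_right hn1 hq0
    _ ≤ a n * b n := mul_le_mul_of_nonneg_left hn2.le (ha0 n)

/-- approximate identity -/
structure Ker (ρ : ℕ → ℝ → ℝ) (δ : ℕ → ℝ) : Prop where
  cont : ∀ n, Continuous (ρ n)
  nonneg : ∀ n s, 0 ≤ ρ n s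
  supp : ∀ n s, ρ n s ≠ 0 → |s| ≤ δ n
  int : ∀ n, ∫ s, ρ n s = 1
  lim : Tendsto δ atTop (𝓝 0)

lemma Ker.comp {ρ : ℕ → ℝ → ℝ} {δ : ℕ → ℝ} (K : Ker ρ δ) (n : ℕ) :
    HasCompactSupport (ρ n) := by
  refine HasCompactSupport.intro (K := Icc (-δ n) (δ n)) isCompact_Icc fun x hx => ?_
  by_contra hcon
  exact hx (abs_le.1 (K.supp n x hcon))

lemma Ker.integrable {ρ : ℕ → ℝ → ℝ} {δ : ℕ → ℝ} (K : Ker ρ δ) (n : ℕ) : Integrable (ρ n) :=
  (K.cont n).integrable_of_hasCompactSupport (K.comp n)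

lemma Ker.bdd {ρ : ℕ → ℝ → ℝ} {δ : ℕ → ℝ} (K : Ker ρ δ) (n : ℕ) :
    ∃ M, ∀ s, ρ n s ≤ M := by
  obtain ⟨M, hM⟩ := (K.comp n).exists_bound_of_continuous (K.cont n)
  exact ⟨M, fun s => (le_abs_self _).trans (hM s)⟩

/-- uniform continuity on `[0,1]` -/
lemma unif {c : ℝ → ℝ} (hc : Continuous c) {ε : ℝ} (hε : 0 < ε) :
    ∃ δ > 0, ∀ s ∈ Icc (0:ℝ) 1, ∀ t ∈ Icc (0:ℝ) 1, |s - t| ≤ δ → c t ≤ c s + ε := by
  have h1 : UniformContinuousOn c (Icc (0:ℝ) 1) :=
    isCompact_Icc.uniformContinuousOn_of_continuous hc.continuousOn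
  rw [Metric.uniformContinuousOn_iff] at h1
  obtain ⟨δ, hδ, h2⟩ := h1 ε hε
  refine ⟨δ / 2, by linarith, fun s hs t ht hst => ?_⟩
  have h3 := h2 s hs t ht (by rw [Real.dist_eq]; linarith)
  rw [Real.dist_eq] at h3
  linarith [(abs_lt.1 h3).1]

section main

variable {X : Type*} [MeasurableSpace X] {m : Measure X} [IsFiniteMeasure m]
  {ln w T : ℕ → X → ℝ} {l : X → ℝ} {J : ℝ → ℝ} {P : ℝ} {ρ : ℕ → ℝ → ℝ} {δ : ℕ → ℝ}

/-- hypotheses -/
structure Dat (m : Measure X) (ln w T : ℕ → X → ℝ) (l : X → ℝ) (J : ℝ → ℝ) (P : ℝ)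
    (ρ : ℕ → ℝ → ℝ) (δ : ℕ → ℝ) : Prop where
  K : Ker ρ δ
  mln : ∀ n, Measurable (ln n)
  ln01 : ∀ n x, 0 ≤ ln n x ∧ ln n x ≤ 1
  mw : ∀ n, Measurable (w n)
  w0 : ∀ n x, 0 ≤ w n x
  wi : ∀ n, Integrable (w n) m
  mT : ∀ n, Measurable (T n)
  T0 : ∀ n x, 0 ≤ T n x
  Ti : ∀ n, Integrable (T n) m
  ml : Measurable l
  l01 : ∀ x, 0 ≤ l x ∧ l x ≤ 1
  mJ : Measurable J
  J0 : ∀ t, 0 ≤ J t
  energy : ∀ c h : ℝ → ℝ, Continuous c → Continuous h → (∀ t, 0 ≤ c t) → (∀ t, 0 ≤ h t) →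
    (∀ t, c t ^ 2 + h t ^ 2 ≤ 1) → ∀ n, ∫ x, (c (ln n x) * w n x + h (ln n x) * T n x) ∂m ≤ P
  conv : ∀ᵐ x ∂m, Tendsto (fun n => ln n x) atTop (𝓝 (l x))
  low : ∀ᵐ x ∂m, 0 < l x → l x < 1 → ∀ s < 2, ∀ᶠ n in atTop, s < T n x
  coarea : ∀ᵐ t ∂(volume.restrict (Ioo (0:ℝ) 1)), ∀ s < 2 * J t,
    ∀ᶠ n in atTop, s < ∫ x, ρ n (ln n x - t) * w n x ∂m

/-- the inner integral -/
lemma inner_le (K : Ker ρ δ) {c : ℝ → ℝ} (hc : Continuous c) (hc0 : ∀ t, 0 ≤ c t)
    {ε r : ℝ} (hr : ∀ s ∈ Icc (0:ℝ) 1, ∀ t ∈ Icc (0:ℝ) 1, |s - t| ≤ r → c t ≤ c s + ε)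
    (hε : 0 < ε) {n : ℕ} (hn : δ n ≤ r) {y : ℝ} (hy : y ∈ Icc (0:ℝ) 1) :
    ∫ t in Ioo (0:ℝ) 1, c t * ρ n (y - t) ≤ c y + ε := by
  have hi : Integrable fun t => ρ n (y - t) := (K.integrable n).comp_sub_left y
  have h1 : ∫ t, ρ n (y - t) = 1 := by
    rw [integral_sub_left_eq_self (fun s => ρ n s) volume y]
    exact K.int n
  calc ∫ t in Ioo (0:ℝ) 1, c t * ρ n (y - t)
      ≤ ∫ t in Ioo (0:ℝ) 1, (c y + ε) * ρ n (y - t) := by
        refine setIntegral_mono_on ?_ (hi.const_mul _).integrableOn measurableSet_Ioo ?_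
        · have hc1 : Continuous fun t => c t * ρ n (y - t) :=
            hc.mul ((K.cont n).comp (continuous_const.sub continuous_id))
          exact (hc1.continuousOn.integrableOn_compact isCompact_Icc).mono_set Ioo_subset_Icc_self
        · intro t ht
          by_cases h0 : ρ n (y - t) = 0
          · rw [h0]; simp
          · refine mul_le_mul_of_nonneg_right ?_ (K.nonneg n _)
            exact hr y hy t (Ioo_subset_Icc_self ht) ((K.supp n _ h0).trans hn)
    _ ≤ ∫ t, (c y + ε) * ρ n (y - t) := by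
        refine setIntegral_le_integral (hi.const_mul _) (Eventually.of_forall fun t => ?_)
        exact mul_nonneg (add_nonneg (hc0 y) hε.le) (K.nonneg n _)
    _ = c y + ε := by rw [integral_const_mul, h1, mul_one]

lemma Dat.prod_int (D : Dat m ln w T l J P ρ δ) {c : ℝ → ℝ} (hc : Continuous c) (n : ℕ) :
    Integrable (Function.uncurry fun (t : ℝ) (x : X) => c t * (ρ n (ln n x - t) * w n x))
      ((volume.restrict (Ioo (0:ℝ) 1)).prod m) := by
  obtain ⟨M, hM⟩ := D.K.bdd n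
  obtain ⟨C, hC⟩ := isCompact_Icc.exists_bound_of_continuousOn (s := Icc (0:ℝ) 1) hc.continuousOn
  have h1 : Measurable (Function.uncurry fun (t : ℝ) (x : X) =>
      c t * (ρ n (ln n x - t) * w n x)) := by
    have e1 : Measurable fun p : ℝ × X => c p.1 := hc.measurable.comp measurable_fst
    have e2 : Measurable fun p : ℝ × X => ρ n (ln n p.2 - p.1) :=
      (D.K.cont n).measurable.comp (((D.mln n).comp measurable_snd).sub measurable_fst)
    have e3 : Measurable fun p : ℝ × X => w n p.2 := (D.mw n).comp measurable_snd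
    exact e1.mul (e2.mul e3)
  have h2 : Integrable (fun p : ℝ × X => C * (M * w n p.2))
      ((volume.restrict (Ioo (0:ℝ) 1)).prod m) := by
    exact (((D.wi n).comp_snd (volume.restrict (Ioo (0:ℝ) 1))).const_mul M).const_mul C
  refine h2.mono' h1.aestronglyMeasurable ?_
  have h3 : ∀ᵐ p ∂((volume.restrict (Ioo (0:ℝ) 1)).prod m), p.1 ∈ Ioo (0:ℝ) 1 := by
    have h4 : ∀ᵐ t ∂(volume.restrict (Ioo (0:ℝ) 1)), t ∈ Ioo (0:ℝ) 1 :=
      ae_restrict_mem measurableSet_Ioo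
    exact Measure.quasiMeasurePreserving_fst.ae h4
  filter_upwards [h3] with p hp
  have h5 := hC p.1 (Ioo_subset_Icc_self hp)
  have h6 : 0 ≤ ρ n (ln n p.2 - p.1) * w n p.2 := mul_nonneg (D.K.nonneg n _) (D.w0 n _)
  simp only [Function.uncurry]
  rw [norm_mul, Real.norm_of_nonneg h6]
  refine mul_le_mul h5 (mul_le_mul_of_nonneg_right (hM _) (D.w0 n _)) h6 ?_
  exact (norm_nonneg _).trans h5

/-- coarea upper bound -/
lemma Dat.coarea_le (D : Dat m ln w T l J P ρ δ) {c : ℝ → ℝ} (hc : Continuous c)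
    (hc0 : ∀ t, 0 ≤ c t) {ε r : ℝ}
    (hr : ∀ s ∈ Icc (0:ℝ) 1, ∀ t ∈ Icc (0:ℝ) 1, |s - t| ≤ r → c t ≤ c s + ε)
    (hε : 0 < ε) {n : ℕ} (hn : δ n ≤ r) :
    ∫ t in Ioo (0:ℝ) 1, c t * ∫ x, ρ n (ln n x - t) * w n x ∂m ≤
      ∫ x, c (ln n x) * w n x ∂m + ε * ∫ x, w n x ∂m := by
  obtain ⟨C, hC⟩ := isCompact_Icc.exists_bound_of_continuousOn (s := Icc (0:ℝ) 1) hc.continuousOn
  have e1 : ∫ t in Ioo (0:ℝ) 1, c t * ∫ x, ρ n (ln n x - t) * w n x ∂m =
      ∫ t in Ioo (0:ℝ) 1, ∫ x, c t * (ρ n (ln n x - t) * w n x) ∂m := by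
    refine integral_congr_ae (Eventually.of_forall fun t => ?_)
    exact (integral_const_mul _ _).symm
  have hpi := D.prod_int hc n
  rw [e1, integral_integral_swap hpi]
  have e2 : ∀ x, ∫ t in Ioo (0:ℝ) 1, c t * (ρ n (ln n x - t) * w n x) =
      w n x * ∫ t in Ioo (0:ℝ) 1, c t * ρ n (ln n x - t) := by
    intro x
    rw [← integral_const_mul]
    refine integral_congr_ae (Eventually.of_forall fun t => ?_)
    ring
  simp only [e2]
  have hcw : Integrable (fun x => c (ln n x) * w n x) m := by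
    refine ((D.wi n).const_mul C).mono' ((hc.measurable.comp (D.mln n)).mul
      (D.mw n)).aestronglyMeasurable (Eventually.of_forall fun x => ?_)
    rw [norm_mul, Real.norm_of_nonneg (D.w0 n x)]
    exact mul_le_mul_of_nonneg_right (hC _ (D.ln01 n x)) (D.w0 n x)
  rw [← integral_const_mul, ← integral_add hcw ((D.wi n).const_mul ε)]
  refine integral_mono_ae ?_ (hcw.add ((D.wi n).const_mul ε)) (Eventually.of_forall fun x => ?_)
  · have := hpi.integral_prod_right
    refine this.congr (Eventually.of_forall fun x => ?_)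
    exact e2 x
  · have h1 := inner_le D.K hc hc0 hr hε hn (D.ln01 n x)
    have h2 := mul_le_mul_of_nonneg_left h1 (D.w0 n x)
    simp only
    linarith

/-- **continuous weights** -/
theorem Dat.cont (D : Dat m ln w T l J P ρ δ) {c h : ℝ → ℝ} (hc : Continuous c)
    (hh : Continuous h) (hc0 : ∀ t, 0 ≤ c t) (hh0 : ∀ t, 0 ≤ h t)
    (hch : ∀ t, c t ^ 2 + h t ^ 2 ≤ 1) :
    IntegrableOn (fun t => c t * (2 * J t)) (Ioo (0:ℝ) 1) ∧
    (∫ t in Ioo (0:ℝ) 1, c t * (2 * J t)) + ∫ x in {x | 0 < l x ∧ l x < 1}, h (l x) * 2 ∂m ≤ P := by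
  have hc1 : ∀ t, c t ≤ 1 := fun t => by nlinarith [hch t, sq_nonneg (h t), hc0 t]
  have hh1 : ∀ t, h t ≤ 1 := fun t => by nlinarith [hch t, sq_nonneg (c t), hh0 t]
  have hP0 : ∀ n, ∫ x, w n x ∂m ≤ P := fun n => by
    have := D.energy (fun _ => 1) (fun _ => 0) continuous_const continuous_const
      (fun _ => zero_le_one) (fun _ => le_rfl) (fun _ => by norm_num) n
    simpa using this
  have hP : 0 ≤ P := (integral_nonneg (D.w0 0)).trans (hP0 0)
  have hcw : ∀ n, Integrable (fun x => c (ln n x) * w n x) m := fun n => by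
    refine (D.wi n).mono' ((hc.measurable.comp (D.mln n)).mul
      (D.mw n)).aestronglyMeasurable (Eventually.of_forall fun x => ?_)
    rw [norm_mul, Real.norm_of_nonneg (D.w0 n x), Real.norm_of_nonneg (hc0 _)]
    exact mul_le_of_le_one_left (D.w0 n x) (hc1 _)
  have hhT : ∀ n, Integrable (fun x => h (ln n x) * T n x) m := fun n => by
    refine (D.Ti n).mono' ((hh.measurable.comp (D.mln n)).mul
      (D.mT n)).aestronglyMeasurable (Eventually.of_forall fun x => ?_)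
    rw [norm_mul, Real.norm_of_nonneg (D.T0 n x), Real.norm_of_nonneg (hh0 _)]
    exact mul_le_of_le_one_left (D.T0 n x) (hh1 _)
  have hen : ∀ n, ∫ x, c (ln n x) * w n x ∂m + ∫ x, h (ln n x) * T n x ∂m ≤ P := fun n => by
    rw [← integral_add (hcw n) (hhT n)]
    exact D.energy c h hc hh hc0 hh0 hch n
  have ha0 : ∀ n, 0 ≤ ∫ x, c (ln n x) * w n x ∂m := fun n =>
    integral_nonneg fun x => mul_nonneg (hc0 _) (D.w0 n x)
  have hb0 : ∀ n, 0 ≤ ∫ x, h (ln n x) * T n x ∂m := fun n =>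
    integral_nonneg fun x => mul_nonneg (hh0 _) (D.T0 n x)
  have hms : MeasurableSet {x | 0 < l x ∧ l x < 1} :=
    (measurableSet_lt measurable_const D.ml).inter (measurableSet_lt D.ml measurable_const)
  -- Fatou in t
  have hev : ∀ ε > 0, ∀ᶠ n in atTop,
      ∫ t in Ioo (0:ℝ) 1, c t * ∫ x, ρ n (ln n x - t) * w n x ∂m ≤
      ∫ x, c (ln n x) * w n x ∂m + ε * P := by
    intro ε hε
    obtain ⟨r, hr0, hr⟩ := unif hc hε
    filter_upwards [D.K.lim.eventually (gt_mem_nhds hr0)] with n hn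
    refine (D.coarea_le hc hc0 hr hε hn.le).trans ?_
    have := mul_le_mul_of_nonneg_left (hP0 n) hε.le
    linarith
  have hmF : ∀ n, Measurable fun t : ℝ => c t * ∫ x, ρ n (ln n x - t) * w n x ∂m := by
    intro n
    refine hc.measurable.mul ?_
    have e2 : Measurable fun p : ℝ × X => ρ n (ln n p.2 - p.1) * w n p.2 :=
      ((D.K.cont n).measurable.comp (((D.mln n).comp measurable_snd).sub measurable_fst)).mul
        ((D.mw n).comp measurable_snd)
    exact (e2.stronglyMeasurable.integral_prod_right (ν := m)).measurable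
  have hFi : ∀ n, IntegrableOn (fun t : ℝ => c t * ∫ x, ρ n (ln n x - t) * w n x ∂m)
      (Ioo (0:ℝ) 1) := by
    intro n
    have := (D.prod_int hc n).integral_prod_left
    refine this.congr (Eventually.of_forall fun t => ?_)
    exact integral_const_mul (c t) (fun x => ρ n (ln n x - t) * w n x)
  have f1 := fatouR (m := volume.restrict (Ioo (0:ℝ) 1))
    (f := fun n t => c t * ∫ x, ρ n (ln n x - t) * w n x ∂m) (g := fun t => c t * (2 * J t))
    hmF (fun n t => mul_nonneg (hc0 t) (integral_nonneg fun x =>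
      mul_nonneg (D.K.nonneg n _) (D.w0 n x))) hFi (hc.measurable.mul (D.mJ.const_mul 2))
    (fun t => mul_nonneg (hc0 t) (mul_nonneg zero_le_two (D.J0 t)))
    (by
      filter_upwards [D.coarea] with t ht
      exact ev_mul (fun _ => hc0 t) (fun n => integral_nonneg fun x =>
        mul_nonneg (D.K.nonneg n _) (D.w0 n x)) tendsto_const_nhds ht)
    (B := P + 1 * P)
    (by
      filter_upwards [hev 1 one_pos] with n hn
      refine hn.trans ?_
      linarith [hen n, hb0 n])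
  have f2 := fatouR (m := m)
    (f := fun n x => h (ln n x) * T n x)
    (g := indicator {x | 0 < l x ∧ l x < 1} fun x => h (l x) * 2)
    (fun n => (hh.measurable.comp (D.mln n)).mul (D.mT n))
    (fun n x => mul_nonneg (hh0 _) (D.T0 n x)) hhT
    (((hh.measurable.comp D.ml).mul measurable_const).indicator hms)
    (fun x => indicator_nonneg (fun x _ => mul_nonneg (hh0 _) zero_le_two) x)
    (by
      filter_upwards [D.conv, D.low] with x hx1 hx2
      by_cases hx : 0 < l x ∧ l x < 1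
      · rw [indicator_of_mem (show x ∈ {x | 0 < l x ∧ l x < 1} from hx)]
        exact ev_mul (fun n => hh0 _) (fun n => D.T0 n x) ((hh.tendsto _).comp hx1)
          (hx2 hx.1 hx.2)
      · rw [indicator_of_notMem (show x ∉ {x | 0 < l x ∧ l x < 1} from hx)]
        intro s hs
        exact Eventually.of_forall fun n => hs.trans_le (mul_nonneg (hh0 _) (D.T0 n x)))
    (B := P)
    (by
      refine Eventually.of_forall fun n => ?_
      linarith [hen n, ha0 n])
  refine ⟨f1.1, ?_⟩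
  rw [← integral_indicator hms]
  refine le_of_forall_pos_le_add fun ε hε => ?_
  have hε1 : 0 < ε / (4 * (P + 1)) := by positivity
  have hε2 : ε / (4 * (P + 1)) * P ≤ ε / 4 := by
    have : ε / (4 * (P + 1)) * P = ε / 4 * (P / (P + 1)) := by
      have : P + 1 ≠ 0 := by positivity
      field_simp
    rw [this]
    refine mul_le_of_le_one_right (by linarith) ?_
    rw [div_le_one (by linarith)]
    linarith
  obtain ⟨n, ⟨h1, h2⟩, h3⟩ := (((f1.2 _ (sub_lt_self _ (by linarith : 0 < ε / 4))).and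
    (f2.2 _ (sub_lt_self _ (by linarith : 0 < ε / 4)))).and (hev _ hε1)).exists
  have h4 := hen n
  linarith

end main

end Crest.Agent.R214.StD
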