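import Crest.Agent.R214.StD2

/-!
# Row 214, dual form of Steiner symmetrisation, part 3: the one-dimensional inequality (helper39)
-/

set_option autoImplicit false
open MeasureTheory Set Filter Topology
open scoped ENNReal

namespace Crest.Agent.R214.StD

variable {X : Type*} [MeasurableSpace X] {m : Measure X}
  {ln w T : ℕ → X → ℝ} {l : X → ℝ} {J : ℝ → ℝ} {P : ℝ} {ρ : ℕ → ℝ → ℝ} {δ : ℕ → ℝ}

lemma Dat.J_int [IsFiniteMeasure m] (D : Dat m ln w T l J P ρ δ) :
    IntegrableOn J (Ioo (0:ℝ) 1) := by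
  have := (D.cont (c := fun _ => 1) (h := fun _ => 0) continuous_const continuous_const
    (fun _ => zero_le_one) (fun _ => le_rfl) (fun _ => by norm_num)).1
  have h2 := this.const_mul (1 / 2)
  refine h2.congr (Eventually.of_forall fun t => ?_)
  ring

/-- **measurable weights** -/
theorem Dat.borel [IsFiniteMeasure m] (D : Dat m ln w T l J P ρ δ) {c h : ℝ → ℝ}
    (hc : Measurable c) (hh : Measurable h) (hc0 : ∀ t, 0 ≤ c t) (hh0 : ∀ t, 0 ≤ h t)
    (hch : ∀ t, c t ^ 2 + h t ^ 2 ≤ 1) :
    (∫ t in Ioo (0:ℝ) 1, c t * J t) + ∫ x in {x | 0 < l x ∧ l x < 1}, h (l x) ∂m ≤ P / 2 := by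
  have hfin : IsFiniteMeasure ((volume.restrict (Ioo (0:ℝ) 1)).withDensity
      fun t => ENNReal.ofReal (J t)) := isFiniteMeasure_withDensity_ofReal D.J_int.2
  have e1 : ∀ c : ℝ → ℝ, ∫ t, c t ∂((volume.restrict (Ioo (0:ℝ) 1)).withDensity
      fun t => ENNReal.ofReal (J t)) = ∫ t in Ioo (0:ℝ) 1, c t * J t := by
    intro c
    rw [integral_withDensity_eq_integral_toReal_smul D.mJ.ennreal_ofReal
      (Eventually.of_forall fun t => ENNReal.ofReal_lt_top)]
    refine integral_congr_ae (Eventually.of_forall fun t => ?_)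
    simp only [smul_eq_mul]
    rw [ENNReal.toReal_ofReal (D.J0 t), mul_comm]
  have e2 : ∀ h : ℝ → ℝ, Measurable h →
      ∫ t, h t ∂(Measure.map l (m.restrict {x | 0 < l x ∧ l x < 1})) =
      ∫ x in {x | 0 < l x ∧ l x < 1}, h (l x) ∂m := fun h hm =>
    integral_map D.ml.aemeasurable hm.aestronglyMeasurable
  rw [← e1 c, ← e2 h hh]
  refine borel_ext (fun c h hc hh hc0 hh0 hch => ?_) hc hh hc0 hh0 hch
  rw [e1 c, e2 h hh.measurable]
  have h1 := (D.cont hc hh hc0 hh0 hch).2
  have e3 : ∫ t in Ioo (0:ℝ) 1, c t * (2 * J t) = 2 * ∫ t in Ioo (0:ℝ) 1, c t * J t := by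
    rw [← integral_const_mul]
    refine integral_congr_ae (Eventually.of_forall fun t => ?_)
    ring
  have e4 : ∫ x in {x | 0 < l x ∧ l x < 1}, h (l x) * 2 ∂m =
      2 * ∫ x in {x | 0 < l x ∧ l x < 1}, h (l x) ∂m := by
    rw [← integral_const_mul]
    refine integral_congr_ae (Eventually.of_forall fun t => ?_)
    ring
  rw [e3, e4] at h1
  linarith

/-- **the dual form**: `A t = |{l > t}|`, weights `C`, `H` as functions of the area -/
theorem Dat.dual [IsProbabilityMeasure m] (D : Dat m ln w T l J P ρ δ) {C H : ℝ → ℝ}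
    (hC : Measurable C) (hH : Measurable H) (hC0 : ∀ t, 0 ≤ C t) (hH0 : ∀ t, 0 ≤ H t)
    (hCH : ∀ t, C t ^ 2 + H t ^ 2 ≤ 1) :
    (∫ t in Ioo (0:ℝ) 1, C (Ad m l t) * J t) +
      ∫ a in (m.real {x | 1 ≤ l x})..(Ad m l 0), H a ≤ P / 2 := by
  have hC1 : ∀ t, C t ≤ 1 := fun t => by nlinarith [hCH t, sq_nonneg (H t), hC0 t]
  have hH1 : ∀ t, H t ≤ 1 := fun t => by nlinarith [hCH t, sq_nonneg (C t), hH0 t]
  set S : Set ℝ := {t | 0 < m {x | l x = t}} with hS
  have hSc : S.Countable := Measure.countable_meas_level_set_pos D.ml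
  have hSm : MeasurableSet S := hSc.measurableSet
  have hAm : Measurable (Ad m l) := Ad_anti.measurable
  classical
  have hcm : Measurable (S.piecewise (fun _ => (0:ℝ)) fun t => C (Ad m l t)) :=
    Measurable.piecewise hSm measurable_const (hC.comp hAm)
  have hhm : Measurable (S.piecewise (fun _ => (1:ℝ)) fun t => H (Ad m l t)) :=
    Measurable.piecewise hSm measurable_const (hH.comp hAm)
  have key := D.borel hcm hhm
    (fun t => by by_cases ht : t ∈ S <;> simp [ht, hC0])
    (fun t => by by_cases ht : t ∈ S <;> simp [ht, hH0])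
    (fun t => by
      by_cases ht : t ∈ S
      · simp [ht]
      · simp only [Set.piecewise_eq_of_notMem _ _ _ ht]
        exact hCH _)
  have e1 : ∫ t in Ioo (0:ℝ) 1, (S.piecewise (fun _ => (0:ℝ)) fun t => C (Ad m l t)) t * J t =
      ∫ t in Ioo (0:ℝ) 1, C (Ad m l t) * J t := by
    refine integral_congr_ae ?_
    have : ∀ᵐ t ∂(volume.restrict (Ioo (0:ℝ) 1)), t ∉ S :=
      ae_restrict_of_ae (measure_eq_zero_iff_ae_notMem.1 (hSc.measure_zero _))
    filter_upwards [this] with t ht
    rw [Set.piecewise_eq_of_notMem _ _ _ ht]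
  rw [e1] at key
  refine le_trans ?_ key
  gcongr
  refine layer D.ml D.l01 hH (fun a => ⟨hH0 a, hH1 a⟩) hhm (fun t => ?_) ?_
  · by_cases ht : t ∈ S
    · simp [ht]
    · simp only [Set.piecewise_eq_of_notMem _ _ _ ht]
      exact ⟨hH0 _, hH1 _⟩
  · intro t _ a h1 h2
    by_cases ht : t ∈ S
    · rw [Set.piecewise_eq_of_mem _ _ _ ht]
      exact hH1 a
    · rw [Set.piecewise_eq_of_notMem _ _ _ ht]
      have h3 : m {x | l x = t} = 0 := by
        by_contra hcon
        exact ht (pos_iff_ne_zero.2 hcon)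
      have h4 : m.real {x | t ≤ l x} ≤ Ad m l t := by
        have e : {x | t ≤ l x} ⊆ {x | t < l x} ∪ {x | l x = t} := by
          intro x hx
          rcases (show t ≤ l x from hx).lt_or_eq with h | h
          · exact Or.inl h
          · exact Or.inr h.symm
        refine (measureReal_mono e).trans ((measureReal_union_le _ _).trans ?_)
        have : m.real {x | l x = t} = 0 := by
          unfold Measure.real
          rw [h3]
          rfl
        rw [this, add_zero]
        rfl
      have : a = Ad m l t := le_antisymm (h2.trans h4) h1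
      rw [this]

/-- `∫ A = ∫ l` -/
theorem integral_Ad [IsProbabilityMeasure m] (hl : Measurable l)
    (h01 : ∀ x, 0 ≤ l x ∧ l x ≤ 1) :
    ∫ t in Ioo (0:ℝ) 1, Ad m l t = ∫ x, l x ∂m := by
  have hli : Integrable l m := Integrable.of_bound hl.aestronglyMeasurable 1
    (Eventually.of_forall fun x => by
      rw [Real.norm_eq_abs, abs_of_nonneg (h01 x).1]; exact (h01 x).2)
  rw [hli.integral_eq_integral_meas_lt (Eventually.of_forall fun x => (h01 x).1)]
  have e : Ioi (0:ℝ) = Ioo 0 1 ∪ Ici 1 := (Ioo_union_Ici_eq_Ioi one_pos).symm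
  have hz : ∀ t ∈ Ici (1:ℝ), m.real {x | t < l x} = 0 := by
    intro t ht
    have : {x | t < l x} = ∅ := by
      ext x
      simp only [mem_ofPred_eq, mem_empty_iff_false, iff_false, not_lt]
      exact (h01 x).2.trans ht
    rw [this, measureReal_empty]
  rw [e, setIntegral_union (by
    rw [Set.disjoint_left]; intro x hx hx2; exact absurd hx.2 (not_lt.2 hx2)) measurableSet_Ici]
  · rw [setIntegral_congr_fun measurableSet_Ici hz]
    simp [Ad]
  · refine Measure.integrableOn_of_bounded (M := 1) (by simp)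
      (Ad_anti (m := m) (l := l)).measurable.aestronglyMeasurable ?_
    refine Eventually.of_forall fun t => ?_
    rw [Real.norm_eq_abs, abs_of_nonneg measureReal_nonneg]
    exact measureReal_le_one
  · exact (integrableOn_zero (s := Ici (1:ℝ))).congr_fun (fun t ht => (hz t ht).symm) measurableSet_Ici

end Crest.Agent.R214.StD
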