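import Crest.Agent.R214.Fub
import Crest.Agent.R214.En

/-!
# Row 214, Steiner symmetrisation, part 1: perimeter of a symmetric subgraph (helper39)
-/

set_option autoImplicit false

open MeasureTheory Crest.GeometryTopology.PeriodicPerimeter Filter
open scoped ENNReal Topology

namespace Crest.Agent.R214.StE

variable {n : ℕ}

/-- the other coordinates -/
noncomputable def rem (d : Fin (n + 1)) (x : Ev (n + 1)) : Ev n :=
  WithLp.toLp 2 fun i => x (d.succAbove i)

theorem rem_apply (d : Fin (n + 1)) (x : Ev (n + 1)) (i : Fin n) :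
    rem d x i = x (d.succAbove i) := rfl

theorem rem_ins (d : Fin (n + 1)) (t : ℝ) (y : Ev n) : rem d (ins d t y) = y := by
  ext i
  rw [rem_apply, ins_succAbove]

theorem ins_rem (d : Fin (n + 1)) (x : Ev (n + 1)) : ins d (x d) (rem d x) = x := by
  ext j
  rcases Fin.eq_self_or_eq_succAbove d j with h | ⟨i, h⟩
  · rw [h, ins_same]
  · rw [h, ins_succAbove, rem_apply]

/-- `rem d` as a continuous linear map -/
noncomputable def rl (d : Fin (n + 1)) : Ev (n + 1) →L[ℝ] Ev n :=
  LinearMap.toContinuousLinearMap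
    { toFun := rem d
      map_add' := fun x y => by ext i; rfl
      map_smul' := fun a x => by ext i; rfl }

theorem rl_apply (d : Fin (n + 1)) (x : Ev (n + 1)) : rl d x = rem d x := rfl

/-- `ins d 0` as a continuous linear map -/
noncomputable def il (d : Fin (n + 1)) : Ev n →L[ℝ] Ev (n + 1) :=
  LinearMap.toContinuousLinearMap
    { toFun := fun y => ins d 0 y
      map_add' := fun x y => by
        ext j
        rcases Fin.eq_self_or_eq_succAbove d j with h | ⟨i, h⟩
        · rw [h, PiLp.add_apply, ins_same, ins_same, ins_same, add_zero]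
        · rw [h, PiLp.add_apply, ins_succAbove, ins_succAbove, ins_succAbove, PiLp.add_apply]
      map_smul' := fun a x => by
        ext j
        rcases Fin.eq_self_or_eq_succAbove d j with h | ⟨i, h⟩
        · rw [h, PiLp.smul_apply, ins_same, ins_same]; simp
        · rw [h, PiLp.smul_apply, ins_succAbove, ins_succAbove, PiLp.smul_apply]; simp }

theorem il_apply (d : Fin (n + 1)) (y : Ev n) : il d y = ins d 0 y := rfl

theorem single_same (d : Fin (n + 1)) : (EuclideanSpace.single d (1 : ℝ) : Ev (n + 1)) d = 1 := by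
  simp

theorem ins_eq' (d : Fin (n + 1)) (t : ℝ) (y : Ev n) :
    ins d t y = t • (EuclideanSpace.single d 1 : Ev (n + 1)) + il d y := by
  ext j
  rcases Fin.eq_self_or_eq_succAbove d j with h | ⟨i, h⟩
  · rw [h, ins_same, PiLp.add_apply, PiLp.smul_apply, il_apply, ins_same]; simp
  · rw [h, ins_succAbove, PiLp.add_apply, PiLp.smul_apply, il_apply, ins_succAbove]
    simp [Fin.succAbove_ne]

theorem il_single (d : Fin (n + 1)) (i : Fin n) :
    il d (EuclideanSpace.single i 1) = EuclideanSpace.single (d.succAbove i) 1 := by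
  ext j
  rw [il_apply]
  rcases Fin.eq_self_or_eq_succAbove d j with h | ⟨k, h⟩
  · rw [h, ins_same]; simp [(Fin.succAbove_ne d i).symm]
  · rw [h, ins_succAbove]
    simp [PiLp.single_apply]

theorem continuous_ins' (d : Fin (n + 1)) : Continuous fun p : ℝ × Ev n => ins d p.1 p.2 := by
  have h : (fun p : ℝ × Ev n => ins d p.1 p.2) =
      fun p : ℝ × Ev n => p.1 • (EuclideanSpace.single d 1 : Ev (n + 1)) + il d p.2 := by
    funext p; exact ins_eq' d p.1 p.2
  rw [h]
  fun_prop

/-- vertical part of the divergence -/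
noncomputable def Dv (d : Fin (n + 1)) (X : Ev (n + 1) → Ev (n + 1)) (x : Ev (n + 1)) : ℝ :=
  fderiv ℝ X x (EuclideanSpace.single d 1) d

/-- horizontal part of the divergence -/
noncomputable def Dh (d : Fin (n + 1)) (X : Ev (n + 1) → Ev (n + 1)) (x : Ev (n + 1)) : ℝ :=
  ∑ i : Fin n, fderiv ℝ X x (EuclideanSpace.single (d.succAbove i) 1) (d.succAbove i)

theorem div_split (d : Fin (n + 1)) (X : Ev (n + 1) → Ev (n + 1)) (x : Ev (n + 1)) :
    divergence X x = Dv d X x + Dh d X x := by
  unfold divergence Dv Dh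
  rw [Fin.sum_univ_succAbove _ d]

theorem Dv_cont {d : Fin (n + 1)} {X : Ev (n + 1) → Ev (n + 1)} (hX : ContDiff ℝ 1 X) :
    Continuous (Dv d X) := by
  have hc : Continuous fun x => fderiv ℝ X x := hX.continuous_fderiv one_ne_zero
  unfold Dv
  have h1 : Continuous fun x => fderiv ℝ X x (EuclideanSpace.single d 1) := by fun_prop
  have h2 : Continuous fun y : Ev (n + 1) => y d := by fun_prop
  exact h2.comp h1

theorem Dh_cont {d : Fin (n + 1)} {X : Ev (n + 1) → Ev (n + 1)} (hX : ContDiff ℝ 1 X) :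
    Continuous (Dh d X) := by
  have hc : Continuous fun x => fderiv ℝ X x := hX.continuous_fderiv one_ne_zero
  unfold Dh
  refine continuous_finsetSum _ fun i _ => ?_
  have h1 : Continuous fun x => fderiv ℝ X x (EuclideanSpace.single (d.succAbove i) 1) := by
    fun_prop
  have h2 : Continuous fun y : Ev (n + 1) => y (d.succAbove i) := by fun_prop
  exact h2.comp h1

section graph

variable {d : Fin (n + 1)} {lam : Ev n → ℝ} {X : Ev (n + 1) → Ev (n + 1)}

/-- graph map at relative height `r` -/
noncomputable def gm (d : Fin (n + 1)) (lam : Ev n → ℝ) (r : ℝ) (q : Ev n) : Ev (n + 1) :=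
  ins d (lam q * r) q

/-- derivative of the graph map -/
noncomputable def gm' (d : Fin (n + 1)) (lam : Ev n → ℝ) (r : ℝ) (q : Ev n) :
    Ev n →L[ℝ] Ev (n + 1) :=
  (r • fderiv ℝ lam q).smulRight (EuclideanSpace.single d 1 : Ev (n + 1)) + il d

theorem gm_hasFDerivAt (hl : ContDiff ℝ 1 lam) (r : ℝ) (q : Ev n) :
    HasFDerivAt (gm d lam r) (gm' d lam r q) q := by
  have h1 : HasFDerivAt lam (fderiv ℝ lam q) q := (hl.differentiable one_ne_zero q).hasFDerivAt
  have h2 : HasFDerivAt (fun q => lam q * r) (r • fderiv ℝ lam q) q := h1.mul_const r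
  have h3 := h2.smul_const (EuclideanSpace.single d 1 : Ev (n + 1))
  have h4 := h3.add (il d).hasFDerivAt
  have h5 : gm d lam r = fun q => (lam q * r) • (EuclideanSpace.single d 1 : Ev (n + 1)) + il d q :=
    funext fun q => ins_eq' d _ q
  rw [h5]
  exact h4

theorem gm_cont (hl : Continuous lam) : Continuous fun p : ℝ × Ev n => gm d lam p.1 p.2 := by
  unfold gm
  exact (continuous_ins' d).comp (((hl.comp continuous_snd).mul continuous_fst).prodMk
    continuous_snd)

theorem gm_contDiff (hl : ContDiff ℝ 1 lam) (r : ℝ) : ContDiff ℝ 1 (gm d lam r) := by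
  have h5 : gm d lam r = fun q => (lam q * r) • (EuclideanSpace.single d 1 : Ev (n + 1)) + il d q :=
    funext fun q => ins_eq' d _ q
  rw [h5]
  exact ((hl.mul contDiff_const).smul contDiff_const).add (il d).contDiff

/-- the horizontal field on the graph -/
noncomputable def Wr (d : Fin (n + 1)) (lam : Ev n → ℝ) (X : Ev (n + 1) → Ev (n + 1)) (r : ℝ)
    (q : Ev n) : Ev n := rl d (X (gm d lam r q))

theorem Wr_apply (r : ℝ) (q : Ev n) (i : Fin n) :
    Wr d lam X r q i = X (gm d lam r q) (d.succAbove i) := rfl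

theorem Wr_contDiff (hl : ContDiff ℝ 1 lam) (hX : ContDiff ℝ 1 X) (r : ℝ) :
    ContDiff ℝ 1 (Wr d lam X r) := (rl d).contDiff.comp (hX.comp (gm_contDiff hl r))

theorem gm_add (hp : IsPer lam) (r : ℝ) (v : Ev n) (hv : HasIntegerCoords v) (q : Ev n) :
    gm d lam r (q + v) = gm d lam r q + ins d 0 v := by
  unfold gm
  rw [hp v hv q, ins_add_int]

theorem Wr_isPer (hp : IsPer lam) (hXp : IsPer X) (r : ℝ) : IsPer (Wr d lam X r) := by
  intro v hv q
  unfold Wr
  rw [gm_add hp r v hv q, hXp _ (ins_zero_int d hv)]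

theorem Wr_fderiv (hl : ContDiff ℝ 1 lam) (hX : ContDiff ℝ 1 X) (r : ℝ) (q w : Ev n) :
    fderiv ℝ (Wr d lam X r) q w = rl d (fderiv ℝ X (gm d lam r q)
      ((r * fderiv ℝ lam q w) • (EuclideanSpace.single d 1 : Ev (n + 1)) + il d w)) := by
  have h1 := (rl d).hasFDerivAt.comp q (((hX.differentiable one_ne_zero
    (gm d lam r q)).hasFDerivAt).comp q (gm_hasFDerivAt (d := d) hl r q))
  have h2 : HasFDerivAt (Wr d lam X r) ((rl d).comp ((fderiv ℝ X (gm d lam r q)).comp
      (gm' d lam r q))) q := h1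
  rw [h2.fderiv]
  rfl

theorem div_Wr (hl : ContDiff ℝ 1 lam) (hX : ContDiff ℝ 1 X) (r : ℝ) (q : Ev n) :
    divergence (Wr d lam X r) q =
      r * (∑ i, gr lam q i * fderiv ℝ X (gm d lam r q) (EuclideanSpace.single d 1)
        (d.succAbove i)) + Dh d X (gm d lam r q) := by
  unfold divergence Dh
  rw [Finset.mul_sum, ← Finset.sum_add_distrib]
  refine Finset.sum_congr rfl fun i _ => ?_
  rw [Wr_fderiv hl hX, rl_apply, rem_apply, map_add, map_smul, il_single, PiLp.add_apply,
    PiLp.smul_apply, smul_eq_mul]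
  simp only [gr]
  ring

/-- the primitive -/
noncomputable def ph (d : Fin (n + 1)) (lam : Ev n → ℝ) (X : Ev (n + 1) → Ev (n + 1)) (q : Ev n)
    (r : ℝ) : ℝ := ∑ i, gr lam q i * (r * X (gm d lam r q) (d.succAbove i))

theorem gm_hasDerivAt (q : Ev n) (r : ℝ) :
    HasDerivAt (fun r => gm d lam r q) (lam q • (EuclideanSpace.single d 1 : Ev (n + 1))) r := by
  have h5 : (fun r => gm d lam r q) =
      fun r => (lam q * r) • (EuclideanSpace.single d 1 : Ev (n + 1)) + il d q :=
    funext fun r => ins_eq' d _ q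
  rw [h5]
  have h1 : HasDerivAt (fun r => lam q * r) (lam q) r := by
    simpa using (hasDerivAt_id r).const_mul (lam q)
  exact (h1.smul_const _).add_const _

theorem X_gm_hasDerivAt (hX : ContDiff ℝ 1 X) (q : Ev n) (r : ℝ) (j : Fin (n + 1)) :
    HasDerivAt (fun r => X (gm d lam r q) j)
      (lam q * fderiv ℝ X (gm d lam r q) (EuclideanSpace.single d 1) j) r := by
  have h1 := (hX.differentiable one_ne_zero (gm d lam r q)).hasFDerivAt.comp_hasDerivAt r
    (gm_hasDerivAt (d := d) (lam := lam) q r)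
  have h2 := (EuclideanSpace.proj j : Ev (n + 1) →L[ℝ] ℝ).hasFDerivAt.comp_hasDerivAt r h1
  rw [map_smul, map_smul, smul_eq_mul] at h2
  exact h2

theorem ph_hasDerivAt (hX : ContDiff ℝ 1 X) (q : Ev n) (r : ℝ) :
    HasDerivAt (ph d lam X q)
      ((∑ i, gr lam q i * X (gm d lam r q) (d.succAbove i)) + lam q * (r *
        ∑ i, gr lam q i * fderiv ℝ X (gm d lam r q) (EuclideanSpace.single d 1)
          (d.succAbove i))) r := by
  have h1 : HasDerivAt (ph d lam X q) (∑ i, gr lam q i * (1 * X (gm d lam r q) (d.succAbove i) +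
      r * (lam q * fderiv ℝ X (gm d lam r q) (EuclideanSpace.single d 1) (d.succAbove i)))) r := by
    unfold ph
    refine HasDerivAt.fun_sum fun i _ => ?_
    exact ((hasDerivAt_id r).mul (X_gm_hasDerivAt hX q r _)).const_mul _
  convert h1 using 1
  rw [Finset.mul_sum, Finset.mul_sum, ← Finset.sum_add_distrib]
  refine Finset.sum_congr rfl fun i _ => ?_
  ring

/-- the key identity -/
theorem div_lamW (hl : ContDiff ℝ 1 lam) (hX : ContDiff ℝ 1 X) (r : ℝ) (q : Ev n) :
    divergence (fun q => lam q • Wr d lam X r q) q =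
      ((∑ i, gr lam q i * X (gm d lam r q) (d.succAbove i)) + lam q * (r *
        ∑ i, gr lam q i * fderiv ℝ X (gm d lam r q) (EuclideanSpace.single d 1)
          (d.succAbove i))) + lam q * Dh d X (gm d lam r q) := by
  rw [divergence_smul hl (Wr_contDiff hl hX r), div_Wr hl hX]
  simp only [Wr_apply]
  ring

end graph

end Crest.Agent.R214.StE
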