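import Crest.Agent.R214.StE1

/-!
# Row 214, Steiner symmetrisation, part 2: perimeter of a symmetric subgraph (helper39)
-/

set_option autoImplicit false

open MeasureTheory Crest.GeometryTopology.PeriodicPerimeter Filter Set
open scoped ENNReal Topology

namespace Crest.Agent.R214.StE

variable {n : ℕ}

theorem cell_fubini' (d : Fin (n + 1)) {f : Ev (n + 1) → ℝ}
    (hf : IntegrableOn f (unitCell (n + 1))) :
    ∫ x in unitCell (n + 1), f x = ∫ y in unitCell n, ∫ t in (0 : ℝ)..1, f (ins d t y) := by
  have h1 := (ins_mp d).setIntegral_preimage_emb (ins_emb d) f (unitCell (n + 1))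
  rw [preimage_cell] at h1
  rw [← h1]
  have h2 : IntegrableOn (f ∘ fun p : ℝ × Ev n => ins d p.1 p.2)
      (Set.Ico (0 : ℝ) 1 ×ˢ unitCell n) volume := by
    rw [← preimage_cell d]
    exact ((ins_mp d).integrableOn_comp_preimage (ins_emb d)).2 hf
  rw [Measure.volume_eq_prod] at h2 ⊢
  rw [← Measure.prod_restrict]
  unfold IntegrableOn at h2
  rw [← Measure.prod_restrict] at h2
  have h3 := integral_prod_symm _ h2
  simp only [Function.comp_apply] at h3
  rw [h3]
  refine integral_congr_ae (Eventually.of_forall fun y => ?_)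
  simp only
  rw [intervalIntegral.integral_of_le zero_le_one,
    integral_Ico_eq_integral_Ioo, integral_Ioc_eq_integral_Ioo]

theorem fib_per {d : Fin (n + 1)} {f : Ev (n + 1) → ℝ} (hf : IsPer f) (y : Ev n) :
    Function.Periodic (fun t => f (ins d t y)) 1 := by
  intro t
  show f (ins d (t + 1) y) = f (ins d t y)
  rw [ins_add_left, hf _ (ins_one_int d)]

theorem fib_shift {d : Fin (n + 1)} {f : Ev (n + 1) → ℝ} (hf : IsPer f) (y : Ev n) :
    ∫ t in (0:ℝ)..1, f (ins d t y) = ∫ t in (-(1/2) : ℝ)..(1/2), f (ins d t y) := by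
  have := (fib_per (d := d) hf y).intervalIntegral_add_eq 0 (-(1/2))
  rw [zero_add] at this
  rw [this]
  norm_num

theorem cell_fubini_half (d : Fin (n + 1)) {f : Ev (n + 1) → ℝ} (hp : IsPer f)
    (hf : IntegrableOn f (unitCell (n + 1))) :
    ∫ x in unitCell (n + 1), f x =
      ∫ y in unitCell n, ∫ t in (-(1/2) : ℝ)..(1/2), f (ins d t y) := by
  rw [cell_fubini' d hf]
  refine integral_congr_ae (Eventually.of_forall fun y => ?_)
  exact fib_shift hp y

theorem prod_integrable {F : ℝ × Ev n → ℝ} (hF : Continuous F) (a b : ℝ) :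
    Integrable F ((volume.restrict (Ioc a b)).prod (volume.restrict (unitCell n))) := by
  obtain ⟨R, -, hR⟩ := exists_cell_bound n
  rw [Measure.prod_restrict]
  have hK : IsCompact (Icc a b ×ˢ Metric.closedBall (0 : Ev n) R) :=
    isCompact_Icc.prod (isCompact_closedBall _ _)
  have h1 : IntegrableOn F (Icc a b ×ˢ Metric.closedBall (0 : Ev n) R)
      ((volume : Measure ℝ).prod volume) := by
    rw [← Measure.volume_eq_prod]
    exact hF.continuousOn.integrableOn_compact hK
  exact h1.mono_set (Set.prod_mono Ioc_subset_Icc_self hR)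

section graph

variable {d : Fin (n + 1)} {lam : Ev n → ℝ} {X : Ev (n + 1) → Ev (n + 1)}

theorem lamW_cont (hl : ContDiff ℝ 1 lam) (hX : ContDiff ℝ 1 X) :
    Continuous fun p : ℝ × Ev n => divergence (fun q => lam q • Wr d lam X p.1 q) p.2 := by
  have h : (fun p : ℝ × Ev n => divergence (fun q => lam q • Wr d lam X p.1 q) p.2) =
      fun p : ℝ × Ev n => ((∑ i, gr lam p.2 i * X (gm d lam p.1 p.2) (d.succAbove i)) +
        lam p.2 * (p.1 * ∑ i, gr lam p.2 i * fderiv ℝ X (gm d lam p.1 p.2)
          (EuclideanSpace.single d 1) (d.succAbove i))) + lam p.2 * Dh d X (gm d lam p.1 p.2) :=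
    funext fun p => div_lamW hl hX p.1 p.2
  rw [h]
  have c1 : Continuous fun p : ℝ × Ev n => gm d lam p.1 p.2 := gm_cont hl.continuous
  have c2 : Continuous fun p : ℝ × Ev n => lam p.2 := hl.continuous.comp continuous_snd
  have c3 : Continuous fun p : ℝ × Ev n => gr lam p.2 := (gr_continuous hl).comp continuous_snd
  have c4 : Continuous fun p : ℝ × Ev n => Dh d X (gm d lam p.1 p.2) := (Dh_cont hX).comp c1
  have c5 : ∀ i : Fin n, Continuous fun p : ℝ × Ev n => gr lam p.2 i := fun i => by fun_prop
  have c6 : ∀ j, Continuous fun p : ℝ × Ev n => X (gm d lam p.1 p.2) j := fun j => by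
    have := hX.continuous.comp c1
    fun_prop
  have hc : Continuous fun x => fderiv ℝ X x := hX.continuous_fderiv one_ne_zero
  have c7 : ∀ j, Continuous fun p : ℝ × Ev n =>
      fderiv ℝ X (gm d lam p.1 p.2) (EuclideanSpace.single d 1) j := fun j => by
    have := hc.comp c1
    fun_prop
  refine ((continuous_finsetSum _ fun i _ => (c5 i).mul (c6 _)).add
    (c2.mul (continuous_fst.mul (continuous_finsetSum _ fun i _ => (c5 i).mul (c7 _))))).add
    (c2.mul c4)

/-- the boundary term -/
noncomputable def Kb (d : Fin (n + 1)) (lam : Ev n → ℝ) (X : Ev (n + 1) → Ev (n + 1))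
    (q : Ev n) : ℝ :=
  (X (gm d lam (1/2) q) d - X (gm d lam (-(1/2)) q) d) - (ph d lam X q (1/2) -
    ph d lam X q (-(1/2)))

theorem fiber_div (hl : ContDiff ℝ 1 lam) (hX : ContDiff ℝ 1 X) (q : Ev n) :
    ∫ t in (-(lam q / 2))..(lam q / 2), divergence X (ins d t q) =
      Kb d lam X q + ∫ r in (-(1/2) : ℝ)..(1/2),
        divergence (fun q => lam q • Wr d lam X r q) q := by
  have cv : Continuous fun t => Dv d X (ins d t q) :=
    (Dv_cont hX).comp ((continuous_ins' d).comp (continuous_id.prodMk continuous_const))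
  have ch : Continuous fun t => Dh d X (ins d t q) :=
    (Dh_cont hX).comp ((continuous_ins' d).comp (continuous_id.prodMk continuous_const))
  have e1 : ∫ t in (-(lam q / 2))..(lam q / 2), divergence X (ins d t q) =
      (∫ t in (-(lam q / 2))..(lam q / 2), Dv d X (ins d t q)) +
      ∫ t in (-(lam q / 2))..(lam q / 2), Dh d X (ins d t q) := by
    rw [← intervalIntegral.integral_add (cv.intervalIntegrable _ _) (ch.intervalIntegrable _ _)]
    refine intervalIntegral.integral_congr fun t _ => ?_
    exact div_split d X _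
  have e2 : ∫ t in (-(lam q / 2))..(lam q / 2), Dv d X (ins d t q) =
      X (gm d lam (1/2) q) d - X (gm d lam (-(1/2)) q) d := by
    have h1 : ∀ t ∈ uIcc (-(lam q / 2)) (lam q / 2),
        HasDerivAt (fun t => X (ins d t q) d) (Dv d X (ins d t q)) t := by
      intro t _
      have h2 := X_gm_hasDerivAt (d := d) (lam := fun _ => (1:ℝ)) hX q t d
      simp only [gm, one_mul] at h2
      exact h2
    have g1 : gm d lam (1/2) q = ins d (lam q / 2) q := by
      unfold gm
      rw [mul_one_div]
    have g2 : gm d lam (-(1/2)) q = ins d (-(lam q / 2)) q := by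
      unfold gm
      rw [mul_neg, mul_one_div]
    rw [intervalIntegral.integral_eq_sub_of_hasDerivAt h1 (cv.intervalIntegrable _ _), g1, g2]
  have e3 : ∫ r in (-(1/2) : ℝ)..(1/2), divergence (fun q => lam q • Wr d lam X r q) q =
      (ph d lam X q (1/2) - ph d lam X q (-(1/2))) +
      ∫ t in (-(lam q / 2))..(lam q / 2), Dh d X (ins d t q) := by
    have hcont := (lamW_cont (d := d) hl hX).comp
      (continuous_id.prodMk continuous_const : Continuous fun r : ℝ => (r, q))
    have ch2 : Continuous fun r => lam q * Dh d X (gm d lam r q) :=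
      continuous_const.mul ((Dh_cont hX).comp ((gm_cont hl.continuous).comp
        (continuous_id.prodMk continuous_const)))
    have h0 : ∀ r, divergence (fun q => lam q • Wr d lam X r q) q =
        (divergence (fun q => lam q • Wr d lam X r q) q - lam q * Dh d X (gm d lam r q)) +
        lam q * Dh d X (gm d lam r q) := fun r => by ring
    have hci : Continuous fun r =>
        divergence (fun q => lam q • Wr d lam X r q) q - lam q * Dh d X (gm d lam r q) :=
      Continuous.sub hcont ch2
    rw [intervalIntegral.integral_congr (g := fun r =>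
      (divergence (fun q => lam q • Wr d lam X r q) q - lam q * Dh d X (gm d lam r q)) +
        lam q * Dh d X (gm d lam r q)) fun r _ => h0 r,
      intervalIntegral.integral_add (hci.intervalIntegrable _ _) (ch2.intervalIntegrable _ _)]
    congr 1
    · apply intervalIntegral.integral_eq_sub_of_hasDerivAt (f := ph d lam X q)
      · intro r _
        have h3 := ph_hasDerivAt (d := d) (lam := lam) hX q r
        have h4 := div_lamW (d := d) hl hX r q
        have h5 : divergence (fun q => lam q • Wr d lam X r q) q - lam q * Dh d X (gm d lam r q) =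
            ((∑ i, gr lam q i * X (gm d lam r q) (d.succAbove i)) + lam q * (r *
        ∑ i, gr lam q i * fderiv ℝ X (gm d lam r q) (EuclideanSpace.single d 1)
          (d.succAbove i))) := by rw [h4, add_sub_cancel_right]
        rw [h5]
        exact h3
      · exact hci.intervalIntegrable _ _
    · rw [intervalIntegral.integral_const_mul]
      have h3 := intervalIntegral.mul_integral_comp_mul_left (a := -(1/2 : ℝ)) (b := 1/2)
        (f := fun t => Dh d X (ins d t q)) (lam q)
      unfold gm
      rw [h3]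
      congr 1 <;> ring
  rw [e1, e2, e3]
  unfold Kb
  ring

theorem Kb_cont (hl : ContDiff ℝ 1 lam) (hX : ContDiff ℝ 1 X) : Continuous (Kb d lam X) := by
  have c1 : ∀ r, Continuous fun q : Ev n => gm d lam r q := fun r =>
    (gm_cont hl.continuous).comp (continuous_const.prodMk continuous_id)
  have c2 : ∀ r j, Continuous fun q : Ev n => X (gm d lam r q) j := fun r j => by
    have := hX.continuous.comp (c1 r)
    fun_prop
  have c3 : Continuous (gr lam) := gr_continuous hl
  have c4 : ∀ i, Continuous fun q => gr lam q i := fun i => by fun_prop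
  have c5 : ∀ r, Continuous fun q => ph d lam X q r := fun r => by
    unfold ph
    exact continuous_finsetSum _ fun i _ => (c4 i).mul (continuous_const.mul (c2 r _))
  have c6 : Continuous fun q : Ev n => X (gm d lam (1/2) q) d - X (gm d lam (-(1/2)) q) d :=
    (c2 (1/2) d).sub (c2 (-(1/2)) d)
  have c7 : Continuous fun q : Ev n => ph d lam X q (1/2) - ph d lam X q (-(1/2)) :=
    (c5 (1/2)).sub (c5 (-(1/2)))
  exact c6.sub c7

theorem integral_fiber_div (hl : ContDiff ℝ 1 lam) (hp : IsPer lam) (hX : ContDiff ℝ 1 X)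
    (hXp : IsPer X) :
    ∫ q in unitCell n, ∫ t in (-(lam q / 2))..(lam q / 2), divergence X (ins d t q) =
      ∫ q in unitCell n, Kb d lam X q := by
  simp_rw [fiber_div hl hX]
  have hpi := prod_integrable (lamW_cont (d := d) hl hX) (-(1/2)) (1/2)
  have hle : (-(1/2) : ℝ) ≤ 1/2 := by norm_num
  rw [integral_add (integrable_cell (Kb_cont hl hX))]
  · have h1 : ∫ q in unitCell n, ∫ r in (-(1/2) : ℝ)..(1/2),
        divergence (fun q => lam q • Wr d lam X r q) q = 0 := by
      simp_rw [intervalIntegral.integral_of_le hle]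
      rw [← integral_integral_swap (f := fun (r : ℝ) (q : Ev n) =>
        divergence (fun q => lam q • Wr d lam X r q) q) hpi]
      have h2 : ∀ r : ℝ, ∫ q in unitCell n, divergence (fun q => lam q • Wr d lam X r q) q = 0 := by
        intro r
        apply cell_integral_divergence (hl.smul (Wr_contDiff hl hX r))
        intro v hv q
        show lam (q + v) • Wr d lam X r (q + v) = lam q • Wr d lam X r q
        rw [hp v hv q, Wr_isPer hp hXp r v hv q]
      simp [h2]
    rw [h1, add_zero]
  · have := hpi.integral_prod_right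
    refine this.congr (Eventually.of_forall fun q => ?_)
    simp only
    rw [intervalIntegral.integral_of_le hle]

theorem norm_split (d : Fin (n + 1)) (x : Ev (n + 1)) : ‖x‖ ^ 2 = x d ^ 2 + ‖rem d x‖ ^ 2 := by
  rw [EuclideanSpace.norm_sq_eq, EuclideanSpace.norm_sq_eq, Fin.sum_univ_succAbove _ d]
  simp [rem_apply]

theorem cs_bound (d : Fin (n + 1)) (g : Ev n) (x : Ev (n + 1)) (hx : ‖x‖ ≤ 1) :
    |x d| + 1/2 * |inner ℝ g (rem d x)| ≤ √(‖g‖ ^ 2 + 4) / 2 := by
  have h1 : |inner ℝ g (rem d x)| ≤ ‖g‖ * ‖rem d x‖ := abs_real_inner_le_norm _ _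
  have h2 := norm_split d x
  have h3 : √(‖g‖ ^ 2 + 4) / 2 = √(‖g‖ ^ 2 / 4 + 1) := by
    have h0 : ‖g‖ ^ 2 + 4 = 2 ^ 2 * (‖g‖ ^ 2 / 4 + 1) := by ring
    rw [h0, Real.sqrt_mul (by norm_num), Real.sqrt_sq (by norm_num)]
    ring
  rw [h3]
  apply Real.le_sqrt_of_sq_le
  have h4 : ‖x‖ ^ 2 ≤ 1 := by
    have := norm_nonneg x
    nlinarith
  have h5 : |x d| ^ 2 = x d ^ 2 := sq_abs _
  have h6 : (|x d| + 1/2 * |inner ℝ g (rem d x)|) ^ 2 ≤ (|x d| + 1/2 * (‖g‖ * ‖rem d x‖)) ^ 2 := by
    apply pow_le_pow_left₀ (by positivity)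
    linarith
  refine h6.trans ?_
  nlinarith [sq_nonneg (|x d| * ‖g‖ / 2 - ‖rem d x‖), norm_nonneg g, norm_nonneg (rem d x),
    mul_nonneg (sq_nonneg ‖g‖) (sub_nonneg.2 h4)]

theorem gr_eq_zero {lam : Ev n → ℝ} (h01 : ∀ q, 0 ≤ lam q ∧ lam q ≤ 1) {q : Ev n}
    (hq : lam q = 0 ∨ lam q = 1) : gr lam q = 0 := by
  have h1 : IsLocalExtr lam q := by
    rcases hq with h | h
    · left
      exact Eventually.of_forall fun y => by rw [h]; exact (h01 y).1
    · right
      exact Eventually.of_forall fun y => by rw [h]; exact (h01 y).2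
  have h2 := h1.fderiv_eq_zero
  unfold gr
  rw [h2]
  rfl

theorem Kb_le (h01 : ∀ q, 0 ≤ lam q ∧ lam q ≤ 1) (hX : IsAdmissibleField X) (q : Ev n) :
    Kb d lam X q ≤ √(‖gr lam q‖ ^ 2 + 4 * (if 0 < lam q ∧ lam q < 1 then 1 else 0)) := by
  have e : ∀ r, ph d lam X q r = r * inner ℝ (gr lam q) (rem d (X (gm d lam r q))) := by
    intro r
    unfold ph
    rw [← sum_eq_inner, Finset.mul_sum]
    refine Finset.sum_congr rfl fun i _ => ?_
    rw [rem_apply]
    ring
  by_cases hq : 0 < lam q ∧ lam q < 1
  · rw [if_pos hq, mul_one]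
    have b1 := cs_bound d (gr lam q) (X (gm d lam (1/2) q)) (hX.2.2 _)
    have b2 := cs_bound d (gr lam q) (X (gm d lam (-(1/2)) q)) (hX.2.2 _)
    unfold Kb
    rw [e, e]
    have a1 := le_abs_self (X (gm d lam (1/2) q) d)
    have a2 := neg_abs_le (X (gm d lam (-(1/2)) q) d)
    have a3 := neg_abs_le (inner ℝ (gr lam q) (rem d (X (gm d lam (1/2) q))))
    have a4 := neg_abs_le (inner ℝ (gr lam q) (rem d (X (gm d lam (-(1/2)) q))))
    linarith
  · rw [if_neg hq, mul_zero, add_zero]
    have hq' : lam q = 0 ∨ lam q = 1 := by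
      rcases (h01 q).1.lt_or_eq with h | h
      · right
        by_contra hcon
        exact hq ⟨h, lt_of_le_of_ne (h01 q).2 hcon⟩
      · left; exact h.symm
    have hg := gr_eq_zero h01 hq'
    unfold Kb
    rw [e, e, hg, inner_zero_left, inner_zero_left]
    have hX2 : X (gm d lam (1/2) q) = X (gm d lam (-(1/2)) q) := by
      unfold gm
      rcases hq' with h | h
      · rw [h, zero_mul, zero_mul]
      · rw [h, one_mul, one_mul]
        have h1 : ins d (1/2) q = ins d (-(1/2)) q + ins d 1 0 := by
          rw [← ins_add_left]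
          norm_num
        rw [h1, hX.2.1 _ (ins_one_int d)]
    rw [hX2]
    simp

end graph

/-- the symmetric subgraph -/
def Sg (d : Fin (n + 1)) (lam : Ev n → ℝ) : Set (Ev (n + 1)) :=
  {x | ∃ m : ℤ, 2 * |x d - m| < lam (rem d x)}

theorem ins_mem_Sg {d : Fin (n + 1)} {lam : Ev n → ℝ} (h1 : ∀ q, lam q ≤ 1) {t : ℝ}
    (ht : |t| ≤ 1/2) (q : Ev n) : ins d t q ∈ Sg d lam ↔ 2 * |t| < lam q := by
  unfold Sg
  rw [Set.mem_ofPred_eq, rem_ins, ins_same]
  constructor
  · rintro ⟨m, hm⟩
    by_cases h0 : m = 0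
    · rw [h0, Int.cast_zero, sub_zero] at hm
      exact hm
    · exfalso
      have h2 : (1 : ℝ) ≤ |(m : ℝ)| := by
        rw [← Int.cast_abs]
        exact_mod_cast Int.one_le_abs h0
      have h3 : |(m : ℝ)| ≤ |t - m| + |t| := by
        have := abs_sub_abs_le_abs_sub (m : ℝ) t
        rw [abs_sub_comm] at this
        linarith
      linarith [h1 q]
  · intro h
    exact ⟨0, by simpa using h⟩

theorem measurableSet_Sg {d : Fin (n + 1)} {lam : Ev n → ℝ} (hl : Measurable lam) :
    MeasurableSet (Sg d lam) := by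
  have h : Sg d lam = ⋃ m : ℤ, {x : Ev (n + 1) | 2 * |x d - (m : ℝ)| < lam (rem d x)} := by
    ext x
    simp [Sg]
  rw [h]
  refine MeasurableSet.iUnion fun m => ?_
  have h1 : Measurable fun x : Ev (n + 1) => 2 * |x d - (m : ℝ)| := by fun_prop
  have h2 : Measurable fun x : Ev (n + 1) => lam (rem d x) :=
    hl.comp (rl d).continuous.measurable
  exact measurableSet_lt h1 h2

theorem isPer_Sg {d : Fin (n + 1)} {lam : Ev n → ℝ} (hp : IsPer lam) :
    IsLatticePeriodic (Sg d lam) := by
  have key : ∀ v, HasIntegerCoords v → ∀ x, x ∈ Sg d lam → x + v ∈ Sg d lam := by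
    rintro v hv x ⟨m, hm⟩
    obtain ⟨k, hk⟩ := hv d
    refine ⟨m + k, ?_⟩
    have h1 : rem d (x + v) = rem d x + rem d v := by ext i; rfl
    have h2 : HasIntegerCoords (rem d v) := fun i => hv _
    rw [h1, hp _ h2, PiLp.add_apply, hk]
    push_cast
    have h3 : x d + k - (m + k) = x d - m := by ring
    rw [h3]
    exact hm
  intro v hv x
  refine ⟨fun h => ?_, key v hv x⟩
  have h3 := key (-v) ((Lam (n + 1)).neg_mem hv) _ h
  rwa [add_neg_cancel_right] at h3

/-- fibre integral over the subgraph -/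
theorem fiber_Sg {d : Fin (n + 1)} {lam : Ev n → ℝ} (h01 : ∀ q, 0 ≤ lam q ∧ lam q ≤ 1)
    (f : Ev (n + 1) → ℝ) (q : Ev n) :
    ∫ t in (-(1/2) : ℝ)..(1/2), (Sg d lam).indicator f (ins d t q) =
      ∫ t in (-(lam q / 2))..(lam q / 2), f (ins d t q) := by
  have h0 := h01 q
  rw [intervalIntegral.integral_of_le (by norm_num), intervalIntegral.integral_of_le (by linarith),
    integral_Ioc_eq_integral_Ioo, integral_Ioc_eq_integral_Ioo]
  have h1 : ∀ t ∈ Ioo (-(1/2) : ℝ) (1/2), (Sg d lam).indicator f (ins d t q) =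
      (Ioo (-(lam q / 2)) (lam q / 2)).indicator (fun t => f (ins d t q)) t := by
    intro t ht
    have h2 := ins_mem_Sg (d := d) (fun q => (h01 q).2) (abs_le.2 ⟨ht.1.le, ht.2.le⟩) q
    by_cases h3 : 2 * |t| < lam q
    · rw [indicator_of_mem (h2.2 h3), indicator_of_mem]
      rw [mem_Ioo, ← abs_lt]
      linarith
    · rw [indicator_of_notMem (fun h => h3 (h2.1 h)), indicator_of_notMem]
      rw [mem_Ioo, ← abs_lt]
      intro h4
      exact h3 (by linarith)
  rw [setIntegral_congr_fun measurableSet_Ioo h1, setIntegral_indicator measurableSet_Ioo,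
    inter_eq_right.2 (Ioo_subset_Ioo (by linarith) (by linarith))]

/-- **perimeter of a `C¹` symmetric subgraph, tested with an admissible field** -/
theorem Sg_div_le {d : Fin (n + 1)} {lam : Ev n → ℝ} (hl : ContDiff ℝ 1 lam) (hp : IsPer lam)
    (h01 : ∀ q, 0 ≤ lam q ∧ lam q ≤ 1) {X : Ev (n + 1) → Ev (n + 1)} (hX : IsAdmissibleField X) :
    ∫ x in Sg d lam ∩ unitCell (n + 1), divergence X x ≤
      ∫ q in unitCell n, √(‖gr lam q‖ ^ 2 + 4 * (if 0 < lam q ∧ lam q < 1 then 1 else 0)) := by
  have hms := measurableSet_Sg (d := d) hl.continuous.measurable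
  have hdc := continuous_divergence hX.1
  have hper : IsPer ((Sg d lam).indicator (divergence X)) := by
    intro v hv x
    have h4 : divergence X (x + v) = divergence X x := by
      unfold divergence
      have h5 : fderiv ℝ X (x + v) = fderiv ℝ X x := by
        have h6 : (fun y => X (y + v)) = X := funext fun y => hX.2.1 v hv y
        rw [← fderiv_comp_add_right, h6]
      rw [h5]
    by_cases hx : x ∈ Sg d lam
    · rw [indicator_of_mem hx, indicator_of_mem ((isPer_Sg hp v hv x).2 hx), h4]
    · rw [indicator_of_notMem hx, indicator_of_notMem fun h => hx ((isPer_Sg hp v hv x).1 h)]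
  have e1 : ∫ x in Sg d lam ∩ unitCell (n + 1), divergence X x =
      ∫ q in unitCell n, Kb d lam X q := by
    rw [inter_comm, ← setIntegral_indicator hms,
      cell_fubini_half d hper ((integrable_cell hdc).indicator hms)]
    simp_rw [fiber_Sg h01]
    exact integral_fiber_div hl hp hX.1 hX.2.1
  rw [e1]
  refine integral_mono_ae (integrable_cell (Kb_cont hl hX.1)) ?_
    (Eventually.of_forall fun q => Kb_le h01 hX q)
  have hg : Continuous fun q => √(‖gr lam q‖ ^ 2 + 4) := by
    have := gr_continuous hl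
    fun_prop
  refine (integrable_cell hg).mono' ?_ (Eventually.of_forall fun q => ?_)
  · apply Measurable.aestronglyMeasurable
    have h1 : Measurable fun q => ‖gr lam q‖ ^ 2 := ((gr_continuous hl).norm.pow 2).measurable
    have h2 : MeasurableSet {q | 0 < lam q ∧ lam q < 1} :=
      (measurableSet_lt measurable_const hl.continuous.measurable).inter
        (measurableSet_lt hl.continuous.measurable measurable_const)
    have h3 : Measurable fun q => (if 0 < lam q ∧ lam q < 1 then (1:ℝ) else 0) :=
      Measurable.ite h2 measurable_const measurable_const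
    exact (h1.add (h3.const_mul 4)).sqrt
  · rw [Real.norm_of_nonneg (Real.sqrt_nonneg _)]
    apply Real.sqrt_le_sqrt
    split_ifs <;> norm_num

end Crest.Agent.R214.StE
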