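import Crest.Agent.R214.StE2

/-!
# Row 214, Steiner symmetrisation, part 3: fibre integrals of a `C¹` function (helper39)
-/

set_option autoImplicit false

open MeasureTheory Crest.GeometryTopology.PeriodicPerimeter Filter Set
open scoped ENNReal Topology

namespace Crest.Agent.R214.StE

variable {n : ℕ} {d : Fin (n + 1)} {u : Ev (n + 1) → ℝ}

theorem coord_cont {Y : Type*} [TopologicalSpace Y] {m : ℕ} {f : Y → Ev m} (hf : Continuous f)
    (j : Fin m) : Continuous fun y => f y j :=
  (EuclideanSpace.proj j : Ev m →L[ℝ] ℝ).continuous.comp hf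

theorem cs_real {a b x y S N : ℝ} (hS0 : 0 ≤ S) (hN0 : 0 ≤ N) (hS : S ^ 2 = a ^ 2 + b ^ 2)
    (hN : N ^ 2 = x ^ 2 + y ^ 2) : a * x + b * y ≤ S * N := by
  refine (le_abs_self _).trans (abs_le_of_sq_le_sq ?_ (mul_nonneg hS0 hN0))
  rw [mul_pow, hS, hN]
  nlinarith [sq_nonneg (a * y - b * x)]

/-- fibre integral -/
noncomputable def lm (d : Fin (n + 1)) (u : Ev (n + 1) → ℝ) (q : Ev n) : ℝ :=
  ∫ t in (0:ℝ)..1, u (ins d t q)

/-- fibre variation -/
noncomputable def Tq (d : Fin (n + 1)) (u : Ev (n + 1) → ℝ) (q : Ev n) : ℝ :=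
  ∫ t in (0:ℝ)..1, |gr u (ins d t q) d|

theorem continuous_ins_left (q : Ev n) : Continuous fun t : ℝ => ins d t q :=
  (continuous_ins' d).comp (continuous_id.prodMk continuous_const)

theorem continuous_ins_sw : Continuous fun p : Ev n × ℝ => ins d p.2 p.1 :=
  (continuous_ins' d).comp (continuous_snd.prodMk continuous_fst)

theorem fib_hasFDerivAt (hu : ContDiff ℝ 1 u) (t : ℝ) (q : Ev n) :
    HasFDerivAt (fun q => u (ins d t q)) ((fderiv ℝ u (ins d t q)).comp (il d)) q := by
  have h1 : HasFDerivAt (fun q => ins d t q) (il d) q := by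
    have h5 : (fun q => ins d t q) =
        fun q => t • (EuclideanSpace.single d 1 : Ev (n + 1)) + il d q :=
      funext fun q => ins_eq' d _ q
    rw [h5]
    exact (il d).hasFDerivAt.const_add _
  exact (hu.differentiable one_ne_zero _).hasFDerivAt.comp q h1

theorem lm_hasFDerivAt (hu : ContDiff ℝ 1 u) (q : Ev n) :
    HasFDerivAt (lm d u) (∫ t in (0:ℝ)..1, (fderiv ℝ u (ins d t q)).comp (il d)) q := by
  have hc : Continuous fun x => fderiv ℝ u x := hu.continuous_fderiv one_ne_zero
  have hF : Continuous fun p : Ev n × ℝ => (fderiv ℝ u (ins d p.2 p.1)).comp (il d) := by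
    have h1 : Continuous fun p : Ev n × ℝ => fderiv ℝ u (ins d p.2 p.1) :=
      hc.comp continuous_ins_sw
    exact h1.clm_comp continuous_const
  obtain ⟨C, hC⟩ := ((isCompact_closedBall q 1).prod (isCompact_Icc (a := (0:ℝ)) (b := 1))).exists_bound_of_continuousOn
    hF.continuousOn
  apply intervalIntegral.hasFDerivAt_integral_of_dominated_of_fderiv_le (s := Metric.closedBall q 1)
    (bound := fun _ => C) (F' := fun q t => (fderiv ℝ u (ins d t q)).comp (il d))
  · exact Metric.closedBall_mem_nhds q one_pos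
  · exact Eventually.of_forall fun x =>
      ((hu.continuous.comp (continuous_ins_left x)).aestronglyMeasurable)
  · exact (hu.continuous.comp (continuous_ins_left q)).intervalIntegrable _ _
  · have : Continuous fun t : ℝ => (fderiv ℝ u (ins d t q)).comp (il d) :=
      hF.comp (continuous_const.prodMk continuous_id)
    exact this.aestronglyMeasurable
  · refine Eventually.of_forall fun t ht x hx => ?_
    rw [uIoc_of_le zero_le_one] at ht
    exact hC (x, t) ⟨hx, Ioc_subset_Icc_self ht⟩
  · exact intervalIntegrable_const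
  · exact Eventually.of_forall fun t _ x _ => fib_hasFDerivAt hu t x

theorem lm_contDiff (hu : ContDiff ℝ 1 u) : ContDiff ℝ 1 (lm d u) := by
  rw [contDiff_one_iff_fderiv]
  refine ⟨fun q => (lm_hasFDerivAt hu q).differentiableAt, ?_⟩
  have h1 : fderiv ℝ (lm d u) = fun q => ∫ t in (0:ℝ)..1, (fderiv ℝ u (ins d t q)).comp (il d) :=
    funext fun q => (lm_hasFDerivAt hu q).fderiv
  rw [h1]
  have hc : Continuous fun x => fderiv ℝ u x := hu.continuous_fderiv one_ne_zero
  have hF : Continuous fun p : Ev n × ℝ => (fderiv ℝ u (ins d p.2 p.1)).comp (il d) :=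
    (hc.comp continuous_ins_sw).clm_comp continuous_const
  exact intervalIntegral.continuous_parametric_intervalIntegral_of_continuous'
    (f := fun (q : Ev n) (t : ℝ) => (fderiv ℝ u (ins d t q)).comp (il d)) hF 0 1

theorem lm_isPer (hp : IsPer u) : IsPer (lm d u) := by
  intro v hv q
  unfold lm
  refine intervalIntegral.integral_congr fun t _ => ?_
  show u (ins d t (q + v)) = u (ins d t q)
  rw [ins_add_int, hp _ (ins_zero_int d hv)]

theorem lm_mem (hu : Continuous u) (h0 : ∀ x, 0 ≤ u x) (h1 : ∀ x, u x ≤ 1) (q : Ev n) :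
    0 ≤ lm d u q ∧ lm d u q ≤ 1 := by
  constructor
  · exact intervalIntegral.integral_nonneg zero_le_one fun t _ => h0 _
  · have h2 : lm d u q ≤ ∫ t in (0:ℝ)..1, (1:ℝ) :=
      intervalIntegral.integral_mono_on zero_le_one
        ((hu.comp (continuous_ins_left q)).intervalIntegrable _ _) intervalIntegrable_const
        fun t _ => h1 _
    simpa using h2

theorem gr_lm (hu : ContDiff ℝ 1 u) (q : Ev n) (i : Fin n) :
    gr (lm d u) q i = ∫ t in (0:ℝ)..1, gr u (ins d t q) (d.succAbove i) := by
  have hc : Continuous fun x => fderiv ℝ u x := hu.continuous_fderiv one_ne_zero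
  have hF : Continuous fun t : ℝ => (fderiv ℝ u (ins d t q)).comp (il d) :=
    (hc.comp (continuous_ins_left q)).clm_comp continuous_const
  show fderiv ℝ (lm d u) q (EuclideanSpace.single i 1) = _
  rw [(lm_hasFDerivAt hu q).fderiv, ContinuousLinearMap.intervalIntegral_apply
    (hF.intervalIntegrable _ _)]
  refine intervalIntegral.integral_congr fun t _ => ?_
  simp only [ContinuousLinearMap.comp_apply, il_single]
  rfl

theorem Tq_cont (hu : ContDiff ℝ 1 u) : Continuous (Tq d u) := by
  have h1 : Continuous fun x => gr u x := gr_continuous hu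
  have h2 : Continuous fun p : Ev n × ℝ => gr u (ins d p.2 p.1) := h1.comp continuous_ins_sw
  have hF : Continuous fun p : Ev n × ℝ => |gr u (ins d p.2 p.1) d| := (coord_cont h2 d).abs
  exact intervalIntegral.continuous_parametric_intervalIntegral_of_continuous'
    (f := fun (q : Ev n) (t : ℝ) => |gr u (ins d t q) d|) hF 0 1

theorem Tq_nonneg (q : Ev n) : 0 ≤ Tq d u q :=
  intervalIntegral.integral_nonneg zero_le_one fun _ _ => abs_nonneg _

/-- abstract version of the fibrewise inequality -/
theorem sqrt_abs_le {m : ℕ} {G : Ev m} {g : ℝ → Ev m} {v N : ℝ → ℝ} (hg : Continuous g)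
    (hv : Continuous v) (hN : Continuous N) (hN0 : ∀ t, 0 ≤ N t)
    (hG : ∀ i, G i = ∫ t in (0:ℝ)..1, g t i)
    (hle : ∀ t, N t ^ 2 = ‖g t‖ ^ 2 + v t ^ 2) :
    √(‖G‖ ^ 2 + (∫ t in (0:ℝ)..1, |v t|) ^ 2) ≤ ∫ t in (0:ℝ)..1, N t := by
  obtain ⟨T, hT⟩ : ∃ T, T = ∫ t in (0:ℝ)..1, |v t| := ⟨_, rfl⟩
  rw [← hT]
  obtain ⟨S, hS⟩ : ∃ S, S = √(‖G‖ ^ 2 + T ^ 2) := ⟨_, rfl⟩
  rw [← hS]
  have hS0 : 0 ≤ S := by rw [hS]; exact Real.sqrt_nonneg _
  have hS2 : S ^ 2 = ‖G‖ ^ 2 + T ^ 2 := by rw [hS]; exact Real.sq_sqrt (by positivity)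
  have hI0 : 0 ≤ ∫ t in (0:ℝ)..1, N t :=
    intervalIntegral.integral_nonneg zero_le_one fun t _ => hN0 t
  have hT0 : 0 ≤ T := by
    rw [hT]
    exact intervalIntegral.integral_nonneg zero_le_one fun t _ => abs_nonneg _
  rcases hS0.eq_or_lt with h0 | hpos
  · rw [← h0]; exact hI0
  have c1 : ∀ j, Continuous fun t : ℝ => g t j := fun j => coord_cont hg j
  have c2 : Continuous fun t : ℝ => ∑ i, G i * g t i :=
    continuous_finsetSum _ fun i _ => continuous_const.mul (c1 i)
  have c3 : Continuous fun t : ℝ => T * |v t| := continuous_const.mul hv.abs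
  have e2 : ∫ t in (0:ℝ)..1, ∑ i, G i * g t i = ‖G‖ ^ 2 := by
    have i1 : ∀ i ∈ (Finset.univ : Finset (Fin m)),
        IntervalIntegrable (fun t => G i * g t i) volume 0 1 := fun i _ => by
      have : Continuous fun t => G i * g t i := continuous_const.mul (c1 i)
      exact this.intervalIntegrable (μ := volume) 0 1
    rw [intervalIntegral.integral_finsetSum i1]
    rw [← real_inner_self_eq_norm_sq, ← sum_eq_inner]
    refine Finset.sum_congr rfl fun i _ => ?_
    rw [intervalIntegral.integral_const_mul, ← hG i]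
  have e1 : S ^ 2 = ∫ t in (0:ℝ)..1, ((∑ i, G i * g t i) + T * |v t|) := by
    rw [intervalIntegral.integral_add (c2.intervalIntegrable (μ := volume) 0 1)
      (c3.intervalIntegrable (μ := volume) 0 1), e2, intervalIntegral.integral_const_mul, ← hT, hS2]
    ring
  have h2 : S ^ 2 ≤ ∫ t in (0:ℝ)..1, S * N t := by
    rw [e1]
    apply intervalIntegral.integral_mono_on zero_le_one
    · exact (c2.add c3).intervalIntegrable (μ := volume) 0 1
    · exact (continuous_const.mul hN).intervalIntegrable (μ := volume) 0 1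
    · intro t _
      have h3 : ∑ i, G i * g t i ≤ ‖G‖ * ‖g t‖ := by
        rw [sum_eq_inner]
        exact real_inner_le_norm _ _
      have h6 : ‖G‖ * ‖g t‖ + T * |v t| ≤ S * N t := by
        refine cs_real hS0 (hN0 t) hS2 ?_
        rw [hle t, sq_abs]
      linarith
  rw [intervalIntegral.integral_const_mul, sq] at h2
  exact le_of_mul_le_mul_left h2 hpos

/-- **fibrewise energy inequality** -/
theorem sqrt_fib_le (hu : ContDiff ℝ 1 u) (q : Ev n) :
    √(‖gr (lm d u) q‖ ^ 2 + Tq d u q ^ 2) ≤ ∫ t in (0:ℝ)..1, ‖gr u (ins d t q)‖ := by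
  have hg : Continuous fun t : ℝ => gr u (ins d t q) :=
    (gr_continuous hu).comp (continuous_ins_left q)
  have hg2 : Continuous fun t : ℝ => rem d (gr u (ins d t q)) := (rl d).continuous.comp hg
  exact sqrt_abs_le hg2 (coord_cont hg d) hg.norm (fun t => norm_nonneg _)
    (fun i => gr_lm hu q i) (fun t => by rw [norm_split d, add_comm])

/-- energy of the fibre integral -/
theorem energy_fib_le (hu : ContDiff ℝ 1 u) :
    ∫ q in unitCell n, √(‖gr (lm d u) q‖ ^ 2 + Tq d u q ^ 2) ≤
      ∫ x in unitCell (n + 1), ‖gr u x‖ := by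
  rw [cell_fubini' d (integrable_cell (gr_continuous hu).norm)]
  have hc1 : Continuous fun q => √(‖gr (lm d u) q‖ ^ 2 + Tq d u q ^ 2) := by
    have h1 := gr_continuous (lm_contDiff (d := d) hu)
    have h2 := Tq_cont (d := d) hu
    fun_prop
  have hF : Continuous fun p : Ev n × ℝ => ‖gr u (ins d p.2 p.1)‖ :=
    ((gr_continuous hu).comp continuous_ins_sw).norm
  have hc2 : Continuous fun q : Ev n => ∫ t in (0:ℝ)..1, ‖gr u (ins d t q)‖ :=
    intervalIntegral.continuous_parametric_intervalIntegral_of_continuous'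
      (f := fun (q : Ev n) (t : ℝ) => ‖gr u (ins d t q)‖) hF 0 1
  exact integral_mono (integrable_cell hc1) (integrable_cell hc2) fun q => sqrt_fib_le hu q

/-- periodic variation -/
theorem Tq_ge (hu : ContDiff ℝ 1 u) (hp : IsPer u) (q : Ev n) {s t : ℝ} (hs : 0 ≤ s)
    (hst : s ≤ t) (ht : t ≤ 1) :
    2 * |u (ins d t q) - u (ins d s q)| ≤ Tq d u q := by
  have hg : Continuous fun t : ℝ => gr u (ins d t q) :=
    (gr_continuous hu).comp (continuous_ins_left q)
  have c1 : Continuous fun t : ℝ => gr u (ins d t q) d := coord_cont hg d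
  have hder : ∀ t : ℝ, HasDerivAt (fun t => u (ins d t q)) (gr u (ins d t q) d) t := by
    intro t
    have h1 := gm_hasDerivAt (d := d) (lam := fun _ => (1:ℝ)) q t
    simp only [gm, one_mul, one_smul] at h1
    exact (hu.differentiable one_ne_zero (ins d t q)).hasFDerivAt.comp_hasDerivAt t h1
  have key : ∀ a b : ℝ, a ≤ b → |u (ins d b q) - u (ins d a q)| ≤
      ∫ t in a..b, |gr u (ins d t q) d| := by
    intro a b hab
    have h1 : ∫ t in a..b, gr u (ins d t q) d = u (ins d b q) - u (ins d a q) :=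
      intervalIntegral.integral_eq_sub_of_hasDerivAt (fun t _ => hder t)
        (c1.intervalIntegrable _ _)
    rw [← h1]
    exact intervalIntegral.abs_integral_le_integral_abs hab
  have i := fun a b => (c1.abs).intervalIntegrable (μ := volume) a b
  have e : Tq d u q = (∫ t in (0:ℝ)..s, |gr u (ins d t q) d|) +
      (∫ t in s..t, |gr u (ins d t q) d|) + ∫ t in t..1, |gr u (ins d t q) d| := by
    unfold Tq
    rw [intervalIntegral.integral_add_adjacent_intervals (i _ _) (i _ _),
      intervalIntegral.integral_add_adjacent_intervals (i _ _) (i _ _)]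
  have h0 : u (ins d 1 q) = u (ins d 0 q) := by
    have h2 : ins d 1 q = ins d 0 q + ins d 1 0 := by
      rw [← ins_add_left]; norm_num
    rw [h2, hp _ (ins_one_int d)]
  have k1 := key 0 s hs
  have k2 := key s t hst
  have k3 := key t 1 ht
  have k4 : |u (ins d t q) - u (ins d s q)| ≤
      |u (ins d s q) - u (ins d 0 q)| + |u (ins d 1 q) - u (ins d t q)| := by
    have h5 : u (ins d t q) - u (ins d s q) =
        -((u (ins d s q) - u (ins d 0 q)) + (u (ins d 1 q) - u (ins d t q))) := by
      rw [h0]; ring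
    rw [h5, abs_neg]
    exact abs_add_le _ _
  linarith

end Crest.Agent.R214.StE
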