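import Crest.Agent.R214.StE3

/-!
# Row 214, Steiner symmetrisation, part 4: `P (St d E) ≤ P E` (helper39)
-/

set_option autoImplicit false

open MeasureTheory Crest.GeometryTopology.PeriodicPerimeter Filter Set
open scoped ENNReal Topology

namespace Crest.Agent.R214.StE

variable {n : ℕ} {d : Fin (n + 1)}

/-- length of the fibre -/
noncomputable def fl (d : Fin (n + 1)) (E : Set (Ev (n + 1))) (q : Ev n) : ℝ :=
  ∫ t in (0:ℝ)..1, E.indicator (fun _ => (1 : ℝ)) (ins d t q)

/-- **Steiner symmetrisation** in the direction `d`, centred at `x_d = 0` -/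
def St (d : Fin (n + 1)) (E : Set (Ev (n + 1))) : Set (Ev (n + 1)) := Sg d (fl d E)

section fl

variable {E : Set (Ev (n + 1))}

theorem measurable_fib (hE : MeasurableSet E) (q : Ev n) :
    MeasurableSet {t : ℝ | ins d t q ∈ E} :=
  (continuous_ins_left q).measurable hE

theorem fl_eq (hE : MeasurableSet E) (q : Ev n) :
    fl d E q = volume.real ({t : ℝ | ins d t q ∈ E} ∩ Ioc 0 1) := by
  have h1 : (fun t : ℝ => E.indicator (fun _ => (1 : ℝ)) (ins d t q)) =
      {t : ℝ | ins d t q ∈ E}.indicator (fun _ => (1 : ℝ)) := by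
    funext t
    by_cases ht : ins d t q ∈ E
    · rw [indicator_of_mem ht, indicator_of_mem (show t ∈ {t : ℝ | ins d t q ∈ E} from ht)]
    · rw [indicator_of_notMem ht, indicator_of_notMem (show t ∉ {t : ℝ | ins d t q ∈ E} from ht)]
  unfold fl
  rw [h1, intervalIntegral.integral_of_le zero_le_one, integral_indicator (measurable_fib hE q),
    Measure.restrict_restrict (measurable_fib hE q)]
  simp [Measure.real]

theorem fl_mem (hE : MeasurableSet E) (q : Ev n) : 0 ≤ fl d E q ∧ fl d E q ≤ 1 := by
  rw [fl_eq hE]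
  refine ⟨measureReal_nonneg, ?_⟩
  have h1 : volume.real ({t : ℝ | ins d t q ∈ E} ∩ Ioc 0 1) ≤ volume.real (Ioc (0:ℝ) 1) :=
    measureReal_mono inter_subset_right (by simp)
  simpa using h1

theorem fl_measurable (hE : MeasurableSet E) : Measurable (fl d E) := by
  have h1 : Measurable fun q : Ev n => (volume.restrict (Ioc (0:ℝ) 1)) {t : ℝ | ins d t q ∈ E} := by
    have h2 : MeasurableSet ((fun p : Ev n × ℝ => ins d p.2 p.1) ⁻¹' E) :=
      continuous_ins_sw.measurable hE
    exact measurable_measure_prodMk_left h2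
  have h3 : fl d E = fun q => ((volume.restrict (Ioc (0:ℝ) 1)) {t : ℝ | ins d t q ∈ E}).toReal := by
    funext q
    rw [fl_eq hE, Measure.restrict_apply (measurable_fib hE q)]
    rfl
  rw [h3]
  exact h1.ennreal_toReal

theorem ind_isPer (hper : IsLatticePeriodic E) : IsPer (E.indicator (fun _ => (1 : ℝ))) := by
  intro v hv x
  by_cases hx : x ∈ E
  · rw [indicator_of_mem hx, indicator_of_mem ((hper v hv x).2 hx)]
  · rw [indicator_of_notMem hx, indicator_of_notMem fun h => hx ((hper v hv x).1 h)]

theorem fl_isPer (hper : IsLatticePeriodic E) : IsPer (fl d E) := by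
  intro v hv q
  unfold fl
  refine intervalIntegral.integral_congr fun t _ => ?_
  show E.indicator (fun _ => (1 : ℝ)) (ins d t (q + v)) = E.indicator (fun _ => (1 : ℝ)) (ins d t q)
  rw [ins_add_int, ind_isPer hper _ (ins_zero_int d hv)]

theorem St_measurable (hE : MeasurableSet E) : MeasurableSet (St d E) :=
  measurableSet_Sg (fl_measurable hE)

theorem St_periodic (hper : IsLatticePeriodic E) : IsLatticePeriodic (St d E) :=
  isPer_Sg (fl_isPer hper)

end fl

/-- continuous periodic functions are bounded -/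
theorem per_bdd {m : ℕ} {f : Ev m → ℝ} (hf : Continuous f) (hp : IsPer f) :
    ∃ M, 0 ≤ M ∧ ∀ x, |f x| ≤ M := by
  obtain ⟨R, -, hR⟩ := exists_cell_bound m
  obtain ⟨M, hM⟩ := (isCompact_closedBall (0 : Ev m) R).exists_bound_of_continuousOn
    hf.continuousOn
  refine ⟨max M 0, le_max_right _ _, fun x => ?_⟩
  let v : Ev m := WithLp.toLp 2 fun i => (-(⌊x i⌋ : ℝ))
  have hv : HasIntegerCoords v := fun i => ⟨-⌊x i⌋, by simp [v]⟩
  have hx : x + v ∈ unitCell m := by
    intro i
    have h1 : (x + v) i = x i - ⌊x i⌋ := by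
      rw [PiLp.add_apply]
      show x i + -(⌊x i⌋ : ℝ) = x i - ⌊x i⌋
      ring
    rw [h1]
    constructor
    · linarith [Int.floor_le (x i)]
    · linarith [Int.lt_floor_add_one (x i)]
  rw [← hp v hv x]
  exact (hM _ (hR hx)).trans (le_max_left _ _)

theorem ae_ins' (d : Fin (n + 1)) {p : Ev (n + 1) → Prop} (h : ∀ᵐ x, p x) :
    ∀ᵐ y : Ev n, ∀ᵐ t : ℝ, p (ins d t y) := by
  have h1 : ∀ᵐ q : ℝ × Ev n, p (ins d q.1 q.2) := (ins_mp d).quasiMeasurePreserving.ae h
  rw [Measure.volume_eq_prod] at h1
  have h2 : ∀ᵐ q ∂((volume : Measure (Ev n)).prod (volume : Measure ℝ)), p (ins d q.2 q.1) :=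
    (Measure.measurePreserving_swap (μ := (volume : Measure (Ev n)))
      (ν := (volume : Measure ℝ))).quasiMeasurePreserving.ae h1
  exact Measure.ae_ae_of_ae_prod h2

section limit

variable {E : Set (Ev (n + 1))} {u : ℕ → Ev (n + 1) → ℝ}

theorem lm_conv (hM : Moll E u) : ∀ᵐ q : Ev n,
    Tendsto (fun k => lm d (u k) q) atTop (𝓝 (fl d E q)) := by
  filter_upwards [ae_ins' d hM.conv] with q hq
  apply intervalIntegral.tendsto_integral_filter_of_dominated_convergence (fun _ => (1:ℝ))
  · exact Eventually.of_forall fun k =>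
      (((hM.smooth k 1).continuous.comp (continuous_ins_left q)).aestronglyMeasurable)
  · refine Eventually.of_forall fun k => Eventually.of_forall fun t _ => ?_
    rw [Real.norm_of_nonneg (hM.nonneg k _)]
    exact hM.le_one k _
  · exact intervalIntegrable_const
  · filter_upwards [hq] with t ht _ using ht

theorem Tq_low (hE : MeasurableSet E) (hM : Moll E u) : ∀ᵐ q : Ev n,
    0 < fl d E q → fl d E q < 1 → ∀ s < 2, ∀ᶠ k in atTop, s < Tq d (u k) q := by
  filter_upwards [ae_ins' d hM.conv] with q hq h0 h1 s hs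
  rw [fl_eq hE] at h0 h1
  set F : Set ℝ := {t : ℝ | ins d t q ∈ E} with hF
  have hFm : MeasurableSet F := measurable_fib hE q
  -- a point in `E`
  obtain ⟨a, ha1, ha2, ha3⟩ : ∃ a ∈ Ioc (0:ℝ) 1, a ∈ F ∧ Tendsto (fun k => u k (ins d a q)) atTop
      (𝓝 (E.indicator (fun _ => (1 : ℝ)) (ins d a q))) := by
    by_contra hcon
    push Not at hcon
    have h2 : F ∩ Ioc 0 1 ⊆ {t | ¬ Tendsto (fun k => u k (ins d t q)) atTop
        (𝓝 (E.indicator (fun _ => (1 : ℝ)) (ins d t q)))} := fun t ht => hcon t ht.2 ht.1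
    have h3 : volume (F ∩ Ioc 0 1) = 0 := measure_mono_null h2 hq
    unfold Measure.real at h0
    rw [h3] at h0
    simp at h0
  obtain ⟨b, hb1, hb2, hb3⟩ : ∃ b ∈ Ioc (0:ℝ) 1, b ∉ F ∧ Tendsto (fun k => u k (ins d b q)) atTop
      (𝓝 (E.indicator (fun _ => (1 : ℝ)) (ins d b q))) := by
    by_contra hcon
    push Not at hcon
    have h2 : Fᶜ ∩ Ioc 0 1 ⊆ {t | ¬ Tendsto (fun k => u k (ins d t q)) atTop
        (𝓝 (E.indicator (fun _ => (1 : ℝ)) (ins d t q)))} := fun t ht => hcon t ht.2 ht.1
    have h3 : volume (Fᶜ ∩ Ioc 0 1) = 0 := measure_mono_null h2 hq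
    have h4 : volume.real (Ioc (0:ℝ) 1) ≤ volume.real (F ∩ Ioc 0 1) + volume.real (Fᶜ ∩ Ioc 0 1) := by
      refine (measureReal_mono ?_ ?_).trans (measureReal_union_le _ _)
      · intro t ht
        by_cases h : t ∈ F
        · exact Or.inl ⟨h, ht⟩
        · exact Or.inr ⟨h, ht⟩
      · refine ((measure_union_le _ _).trans_lt ?_).ne
        exact ENNReal.add_lt_top.2 ⟨(measure_mono inter_subset_right).trans_lt (by simp),
          (measure_mono inter_subset_right).trans_lt (by simp)⟩
    have h5 : volume.real (Fᶜ ∩ Ioc 0 1) = 0 := by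
      unfold Measure.real
      rw [h3]; rfl
    rw [h5] at h4
    simp at h4
    linarith
  have ha4 : E.indicator (fun _ => (1 : ℝ)) (ins d a q) = 1 :=
    indicator_of_mem (show ins d a q ∈ E from ha2) _
  have hb4 : E.indicator (fun _ => (1 : ℝ)) (ins d b q) = 0 :=
    indicator_of_notMem (show ins d b q ∉ E from hb2) _
  rw [ha4] at ha3
  rw [hb4] at hb3
  have h6 : Tendsto (fun k => 2 * (u k (ins d a q) - u k (ins d b q))) atTop (𝓝 2) := by
    have := (ha3.sub hb3).const_mul 2
    simpa using this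
  filter_upwards [h6.eventually (lt_mem_nhds hs)] with k hk
  have hC : ContDiff ℝ 1 (u k) := hM.smooth k 1
  rcases le_total a b with hab | hab
  · have := Tq_ge (d := d) hC (hM.per k) q ha1.1.le hab hb1.2
    have h7 := neg_abs_le (u k (ins d b q) - u k (ins d a q))
    linarith
  · have := Tq_ge (d := d) hC (hM.per k) q hb1.1.le hab ha1.2
    have h7 := le_abs_self (u k (ins d a q) - u k (ins d b q))
    linarith

/-- the vertical boundary term -/
noncomputable def Rb (d : Fin (n + 1)) (lam : Ev n → ℝ) (X : Ev (n + 1) → Ev (n + 1))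
    (q : Ev n) : ℝ := |X (gm d lam (1/2) q) d - X (gm d lam (-(1/2)) q) d| / 2

theorem abs_coord_le {X : Ev (n + 1) → Ev (n + 1)} (hX : IsAdmissibleField X) (x : Ev (n + 1)) :
    |X x d| ≤ 1 := by
  have h1 := norm_split d (X x)
  have h2 := hX.2.2 x
  have h3 := norm_nonneg (X x)
  refine abs_le_of_sq_le_sq (by nlinarith [sq_nonneg ‖rem d (X x)‖]) zero_le_one

theorem Kb_le2 {lam : Ev n → ℝ} {X : Ev (n + 1) → Ev (n + 1)} (hX : IsAdmissibleField X)
    (q : Ev n) {T : ℝ} (hT : 0 ≤ T) :
    Kb d lam X q ≤ √(‖gr lam q‖ ^ 2 + T ^ 2) + max (2 - T) 0 * Rb d lam X q := by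
  have e : ∀ r, ph d lam X q r = r * inner ℝ (gr lam q) (rem d (X (gm d lam r q))) := by
    intro r
    unfold ph
    rw [← sum_eq_inner, Finset.mul_sum]
    refine Finset.sum_congr rfl fun i _ => ?_
    rw [rem_apply]
    ring
  have hcs : ∀ x : Ev (n + 1), ‖x‖ ≤ 1 → ‖gr lam q‖ * ‖rem d x‖ + T * |x d| ≤
      √(‖gr lam q‖ ^ 2 + T ^ 2) := by
    intro x hx
    have h1 := cs_real (a := ‖gr lam q‖) (b := T) (x := ‖rem d x‖) (y := |x d|)
      (S := √(‖gr lam q‖ ^ 2 + T ^ 2)) (N := ‖x‖) (Real.sqrt_nonneg _) (norm_nonneg _)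
      (Real.sq_sqrt (by positivity)) (by rw [norm_split d, sq_abs, add_comm])
    exact h1.trans (mul_le_of_le_one_right (Real.sqrt_nonneg _) hx)
  have b1 := hcs _ (hX.2.2 (gm d lam (1/2) q))
  have b2 := hcs _ (hX.2.2 (gm d lam (-(1/2)) q))
  have a1 := abs_real_inner_le_norm (gr lam q) (rem d (X (gm d lam (1/2) q)))
  have a2 := abs_real_inner_le_norm (gr lam q) (rem d (X (gm d lam (-(1/2)) q)))
  have a3 := neg_abs_le (inner ℝ (gr lam q) (rem d (X (gm d lam (1/2) q))))
  have a4 := neg_abs_le (inner ℝ (gr lam q) (rem d (X (gm d lam (-(1/2)) q))))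
  unfold Kb Rb
  rw [e, e]
  generalize hs : X (gm d lam (1/2) q) d = a at *
  generalize ht : X (gm d lam (-(1/2)) q) d = b at *
  have h1 : |a - b| ≤ |a| + |b| := abs_sub a b
  have h2 : a - b ≤ |a - b| := le_abs_self _
  have h3 : 2 - T ≤ max (2 - T) 0 := le_max_left _ _
  have h4 : (2 - T) * (|a - b| / 2) ≤ max (2 - T) 0 * (|a - b| / 2) :=
    mul_le_mul_of_nonneg_right h3 (by positivity)
  have h5 : T * |a - b| ≤ T * (|a| + |b|) := mul_le_mul_of_nonneg_left h1 hT
  linarith

/-- fibre integral form of an integral over `Sg` -/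
theorem Sg_integral {lam : Ev n → ℝ} (hl : Measurable lam) (hp : IsPer lam)
    (h01 : ∀ q, 0 ≤ lam q ∧ lam q ≤ 1) {f : Ev (n + 1) → ℝ} (hf : IsPer f)
    (hfi : IntegrableOn f (unitCell (n + 1))) :
    ∫ x in Sg d lam ∩ unitCell (n + 1), f x =
      ∫ q in unitCell n, ∫ t in (-(lam q / 2))..(lam q / 2), f (ins d t q) := by
  have hms := measurableSet_Sg (d := d) hl
  have hper : IsPer ((Sg d lam).indicator f) := by
    intro v hv x
    by_cases hx : x ∈ Sg d lam
    · rw [indicator_of_mem hx, indicator_of_mem ((isPer_Sg hp v hv x).2 hx), hf v hv x]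
    · rw [indicator_of_notMem hx, indicator_of_notMem fun h => hx ((isPer_Sg hp v hv x).1 h)]
  rw [inter_comm, ← setIntegral_indicator hms, cell_fubini_half d hper (hfi.indicator hms)]
  simp_rw [fiber_Sg h01]

theorem div_isPer {m : ℕ} {X : Ev m → Ev m} (hX : IsPer X) : IsPer (divergence X) := by
  intro v hv x
  unfold divergence
  have h5 : fderiv ℝ X (x + v) = fderiv ℝ X x := by
    have h6 : (fun y => X (y + v)) = X := funext fun y => hX v hv y
    rw [← fderiv_comp_add_right, h6]
  rw [h5]

theorem Rb_cont {lam : Ev n → ℝ} {X : Ev (n + 1) → Ev (n + 1)} (hl : Continuous lam)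
    (hX : Continuous X) : Continuous (Rb d lam X) := by
  have c1 : ∀ r, Continuous fun q : Ev n => gm d lam r q := fun r =>
    (gm_cont hl).comp (continuous_const.prodMk continuous_id)
  have c2 : ∀ r, Continuous fun q : Ev n => X (gm d lam r q) d := fun r =>
    coord_cont (hX.comp (c1 r)) d
  unfold Rb
  exact ((c2 (1/2)).sub (c2 (-(1/2)))).abs.div_const 2

/-- **Steiner symmetrisation decreases the perimeter** (for a mollified sequence) -/
theorem St_perim_aux (hE : MeasurableSet E) (hper : IsLatticePeriodic E)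
    (hP : periodicPerimeter E ≠ ∞) (hM : Moll E u) {X : Ev (n + 1) → Ev (n + 1)}
    (hX : IsAdmissibleField X) :
    ∫ x in St d E ∩ unitCell (n + 1), divergence X x ≤ (periodicPerimeter E).toReal := by
  have hdc := continuous_divergence hX.1
  have hdp : IsPer (divergence X) := div_isPer hX.2.1
  obtain ⟨M, hM0, hMb⟩ := per_bdd hdc hdp
  have hC : ∀ k, ContDiff ℝ 1 (u k) := fun k => hM.smooth k 1
  have hlC : ∀ k, ContDiff ℝ 1 (lm d (u k)) := fun k => lm_contDiff (hC k)
  have hl01 : ∀ k q, 0 ≤ lm d (u k) q ∧ lm d (u k) q ≤ 1 := fun k q =>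
    lm_mem (hC k).continuous (hM.nonneg k) (hM.le_one k) q
  have hf01 : ∀ q, 0 ≤ fl d E q ∧ fl d E q ≤ 1 := fun q => fl_mem hE q
  unfold St
  rw [Sg_integral (fl_measurable hE) (fl_isPer hper) hf01 hdp (integrable_cell hdc)]
  -- primitives
  have hfc : ∀ q : Ev n, Continuous fun t => divergence X (ins d t q) := fun q =>
    hdc.comp (continuous_ins_left q)
  have hGc : ∀ q : Ev n, Continuous fun s : ℝ => ∫ t in (-(s / 2))..(s / 2),
      divergence X (ins d t q) := by
    intro q
    have h1 : Continuous fun y : ℝ => ∫ t in (0:ℝ)..y, divergence X (ins d t q) :=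
      intervalIntegral.continuous_primitive (fun _ _ => (hfc q).intervalIntegrable _ _) 0
    have h2 : (fun s : ℝ => ∫ t in (-(s / 2))..(s / 2), divergence X (ins d t q)) =
        fun s => (∫ t in (0:ℝ)..(s / 2), divergence X (ins d t q)) -
          ∫ t in (0:ℝ)..(-(s / 2)), divergence X (ins d t q) := by
      funext s
      rw [intervalIntegral.integral_interval_sub_left ((hfc q).intervalIntegrable _ _)
        ((hfc q).intervalIntegrable _ _)]
    rw [h2]
    exact (h1.comp (continuous_id.div_const 2)).sub (h1.comp (continuous_id.div_const 2).neg)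
  -- first limit
  have lim1 : Tendsto (fun k => ∫ q in unitCell n, ∫ t in (-(lm d (u k) q / 2))..(lm d (u k) q / 2),
      divergence X (ins d t q)) atTop
      (𝓝 (∫ q in unitCell n, ∫ t in (-(fl d E q / 2))..(fl d E q / 2),
        divergence X (ins d t q))) := by
    apply tendsto_integral_of_dominated_convergence (fun _ => M)
    · intro k
      apply Continuous.aestronglyMeasurable
      have h1 : ∀ q, ∫ t in (-(lm d (u k) q / 2))..(lm d (u k) q / 2), divergence X (ins d t q) =
          Kb d (lm d (u k)) X q + ∫ r in (-(1/2) : ℝ)..(1/2),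
        divergence (fun q => lm d (u k) q • Wr d (lm d (u k)) X r q) q := fun q =>
          fiber_div (hlC k) hX.1 q
      simp_rw [h1]
      refine (Kb_cont (hlC k) hX.1).add ?_
      have h2 := (lamW_cont (d := d) (hlC k) hX.1).comp
        (continuous_snd.prodMk continuous_fst : Continuous fun p : Ev n × ℝ => (p.2, p.1))
      exact intervalIntegral.continuous_parametric_intervalIntegral_of_continuous'
        (f := fun (q : Ev n) (r : ℝ) =>
          divergence (fun q => lm d (u k) q • Wr d (lm d (u k)) X r q) q) h2 _ _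
    · exact integrable_const _
    · intro k
      refine Eventually.of_forall fun q => ?_
      have h1 := intervalIntegral.norm_integral_le_of_norm_le_const (a := -(lm d (u k) q / 2))
        (b := lm d (u k) q / 2) (C := M) (f := fun t => divergence X (ins d t q))
        fun t _ => hMb _
      refine h1.trans ?_
      have h2 : |lm d (u k) q / 2 - -(lm d (u k) q / 2)| = lm d (u k) q := by
        rw [sub_neg_eq_add, add_halves, abs_of_nonneg (hl01 k q).1]
      rw [h2]
      exact mul_le_of_le_one_right hM0 (hl01 k q).2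
    · filter_upwards [ae_restrict_of_ae (lm_conv (d := d) hM)] with q hq
      exact ((hGc q).tendsto _).comp hq
  -- second limit
  have lim2 : Tendsto (fun k => ∫ q in unitCell n, max (2 - Tq d (u k) q) 0 *
      Rb d (lm d (u k)) X q) atTop (𝓝 (∫ q in unitCell n, (0 : ℝ))) := by
    have hR1 : ∀ k q, 0 ≤ Rb d (lm d (u k)) X q ∧ Rb d (lm d (u k)) X q ≤ 1 := by
      intro k q
      unfold Rb
      have h1 := abs_sub (X (gm d (lm d (u k)) (1/2) q) d) (X (gm d (lm d (u k)) (-(1/2)) q) d)
      have h2 := abs_coord_le (d := d) hX (gm d (lm d (u k)) (1/2) q)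
      have h3 := abs_coord_le (d := d) hX (gm d (lm d (u k)) (-(1/2)) q)
      constructor
      · positivity
      · linarith
    have hT1 : ∀ k q, 0 ≤ max (2 - Tq d (u k) q) 0 ∧ max (2 - Tq d (u k) q) 0 ≤ 2 := by
      intro k q
      exact ⟨le_max_right _ _, max_le (by linarith [Tq_nonneg (d := d) (u := u k) q]) zero_le_two⟩
    apply tendsto_integral_of_dominated_convergence (fun _ => (2:ℝ))
    · intro k
      apply Continuous.aestronglyMeasurable
      exact ((continuous_const.sub (Tq_cont (hC k))).max continuous_const).mul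
        (Rb_cont (hlC k).continuous hX.1.continuous)
    · exact integrable_const _
    · intro k
      refine Eventually.of_forall fun q => ?_
      rw [Real.norm_of_nonneg (mul_nonneg (hT1 k q).1 (hR1 k q).1)]
      have := mul_le_mul (hT1 k q).2 (hR1 k q).2 (hR1 k q).1 zero_le_two
      linarith
    · filter_upwards [ae_restrict_of_ae (lm_conv (d := d) hM),
        ae_restrict_of_ae (Tq_low (d := d) hE hM)] with q hq1 hq2
      have hgm : ∀ r : ℝ, Tendsto (fun k => X (gm d (lm d (u k)) r q) d) atTop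
          (𝓝 (X (ins d (fl d E q * r) q) d)) := by
        intro r
        have h1 : Continuous fun s : ℝ => X (ins d (s * r) q) d :=
          coord_cont (hX.1.continuous.comp ((continuous_ins_left q).comp
            (continuous_id.mul continuous_const))) d
        exact (h1.tendsto _).comp hq1
      by_cases hq : 0 < fl d E q ∧ fl d E q < 1
      · -- `T_k → ≥ 2`
        have h1 : Tendsto (fun k => max (2 - Tq d (u k) q) 0) atTop (𝓝 0) := by
          rw [Metric.tendsto_atTop']
          intro ε hε
          obtain ⟨N, hN⟩ := eventually_atTop.1 (hq2 hq.1 hq.2 (2 - ε) (by linarith))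
          refine ⟨N, fun k hk => ?_⟩
          rw [Real.dist_eq, sub_zero, abs_of_nonneg (hT1 k q).1]
          exact max_lt (by linarith [hN k hk.le]) hε
        refine squeeze_zero (fun k => mul_nonneg (hT1 k q).1 (hR1 k q).1) (fun k => ?_) h1
        exact mul_le_of_le_one_right (hT1 k q).1 (hR1 k q).2
      · have hq' : fl d E q = 0 ∨ fl d E q = 1 := by
          rcases (hf01 q).1.lt_or_eq with h | h
          · right
            by_contra hcon
            exact hq ⟨h, lt_of_le_of_ne (hf01 q).2 hcon⟩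
          · left; exact h.symm
        have hXeq : X (ins d (fl d E q * (1/2)) q) d = X (ins d (fl d E q * (-(1/2))) q) d := by
          rcases hq' with h | h
          · rw [h, zero_mul, zero_mul]
          · rw [h, one_mul, one_mul]
            have h1 : ins d (1/2) q = ins d (-(1/2)) q + ins d 1 0 := by
              rw [← ins_add_left]
              norm_num
            rw [h1, hX.2.1 _ (ins_one_int d)]
        have h1 : Tendsto (fun k => Rb d (lm d (u k)) X q) atTop (𝓝 0) := by
          have h2 := (((hgm (1/2)).sub (hgm (-(1/2)))).abs).div_const 2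
          rw [hXeq, sub_self, abs_zero, zero_div] at h2
          exact h2
        have h3 : Tendsto (fun k => 2 * Rb d (lm d (u k)) X q) atTop (𝓝 0) := by
          simpa using h1.const_mul 2
        refine squeeze_zero (fun k => mul_nonneg (hT1 k q).1 (hR1 k q).1) (fun k => ?_) h3
        exact mul_le_mul_of_nonneg_right (hT1 k q).2 (hR1 k q).1
  rw [show ∫ q in unitCell n, (0 : ℝ) = 0 by simp] at lim2
  have lim3 : Tendsto (fun k => (periodicPerimeter E).toReal + ∫ q in unitCell n,
      max (2 - Tq d (u k) q) 0 * Rb d (lm d (u k)) X q) atTop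
      (𝓝 ((periodicPerimeter E).toReal + 0)) := tendsto_const_nhds.add lim2
  rw [add_zero] at lim3
  refine le_of_tendsto_of_tendsto' lim1 lim3 fun k => ?_
  rw [integral_fiber_div (hlC k) (lm_isPer (hM.per k)) hX.1 hX.2.1]
  have c1 : Continuous fun q => √(‖gr (lm d (u k)) q‖ ^ 2 + Tq d (u k) q ^ 2) := by
    have h1 := gr_continuous (hlC k)
    have h2 := Tq_cont (d := d) (hC k)
    fun_prop
  have c2 : Continuous fun q => max (2 - Tq d (u k) q) 0 * Rb d (lm d (u k)) X q :=
    ((continuous_const.sub (Tq_cont (hC k))).max continuous_const).mul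
        (Rb_cont (hlC k).continuous hX.1.continuous)
  calc ∫ q in unitCell n, Kb d (lm d (u k)) X q
      ≤ ∫ q in unitCell n, (√(‖gr (lm d (u k)) q‖ ^ 2 + Tq d (u k) q ^ 2) +
          max (2 - Tq d (u k) q) 0 * Rb d (lm d (u k)) X q) :=
        integral_mono (integrable_cell (Kb_cont (hlC k) hX.1))
          ((integrable_cell c1).add (integrable_cell c2)) fun q => Kb_le2 hX q (Tq_nonneg q)
    _ = (∫ q in unitCell n, √(‖gr (lm d (u k)) q‖ ^ 2 + Tq d (u k) q ^ 2)) +
          ∫ q in unitCell n, max (2 - Tq d (u k) q) 0 * Rb d (lm d (u k)) X q :=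
        integral_add (integrable_cell c1) (integrable_cell c2)
    _ ≤ _ := by
        gcongr
        exact (energy_fib_le (hC k)).trans (hM.energy hP k)

end limit

end Crest.Agent.R214.StE
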