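import Crest.Agent.R214.StE5
import Crest.Agent.R214.Back
import Crest.Agent.R214.Iface

/-!
# Row 214, Steiner symmetrisation, part 6: the interface `ExistsMono` (helper39)
-/

set_option autoImplicit false

open MeasureTheory Crest.GeometryTopology.PeriodicPerimeter Filter Set
open scoped ENNReal Topology

namespace Crest.Agent.R214.StE

variable {n : ℕ} {d : Fin (n + 1)} {E : Set (Ev (n + 1))}

theorem fl_eq_fl (hE : MeasurableSet E) (q : Ev n) : R214.fl d E q = fl d E q := by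
  rw [fl_eq hE]
  unfold R214.fl Measure.real
  rw [Measure.restrict_apply (measurable_fib hE q)]

/-- for a.e. `t` the full fibres are in the slice -/
theorem full_slice (hE : MeasurableSet E) (hper : IsLatticePeriodic E) :
    ∀ᵐ t : ℝ, ∀ᵐ q : Ev n, fl d E q = 1 → ins d t q ∈ E := by
  have h1 : ∀ᵐ q : Ev n, ∀ᵐ t : ℝ, fl d E q = 1 → ins d t q ∈ E := by
    refine Eventually.of_forall fun q => ?_
    by_cases h : fl d E q = 1
    · filter_upwards [fib_full d hE hper (by rw [fl_eq_fl hE]; exact h)] with t ht _ using ht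
    · exact Eventually.of_forall fun t h2 => absurd h2 h
  refine (Measure.ae_ae_comm ?_).1 h1
  have h2 : MeasurableSet ((fun p : Ev n × ℝ => ins d p.2 p.1) ⁻¹' E) :=
    continuous_ins_sw.measurable hE
  have h3 : MeasurableSet {p : Ev n × ℝ | fl d E p.1 = 1} :=
    measurableSet_eq_fun ((fl_measurable hE).comp measurable_fst) measurable_const
  have e : {p : Ev n × ℝ | fl d E p.1 = 1 → ins d p.2 p.1 ∈ E} =
      {p : Ev n × ℝ | fl d E p.1 = 1}ᶜ ∪ ((fun p : Ev n × ℝ => ins d p.2 p.1) ⁻¹' E) := by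
    ext p
    show (fl d E p.1 = 1 → ins d p.2 p.1 ∈ E) ↔ (¬ fl d E p.1 = 1) ∨ ins d p.2 p.1 ∈ E
    exact imp_iff_not_or
  rw [e]
  exact h3.compl.union h2

/-- for a.e. `t` the empty fibres are not in the slice -/
theorem null_slice (hE : MeasurableSet E) (hper : IsLatticePeriodic E) :
    ∀ᵐ t : ℝ, ∀ᵐ q : Ev n, fl d E q = 0 → ins d t q ∉ E := by
  have h1 : ∀ᵐ q : Ev n, ∀ᵐ t : ℝ, fl d E q = 0 → ins d t q ∉ E := by
    refine Eventually.of_forall fun q => ?_
    by_cases h : fl d E q = 0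
    · filter_upwards [fib_null d hE hper (by rw [fl_eq_fl hE]; exact h)] with t ht _ using ht
    · exact Eventually.of_forall fun t h2 => absurd h2 h
  refine (Measure.ae_ae_comm ?_).1 h1
  have h2 : MeasurableSet ((fun p : Ev n × ℝ => ins d p.2 p.1) ⁻¹' E) :=
    continuous_ins_sw.measurable hE
  have h3 : MeasurableSet {p : Ev n × ℝ | fl d E p.1 = 0} :=
    measurableSet_eq_fun ((fl_measurable hE).comp measurable_fst) measurable_const
  have e : {p : Ev n × ℝ | fl d E p.1 = 0 → ins d p.2 p.1 ∉ E} =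
      {p : Ev n × ℝ | fl d E p.1 = 0}ᶜ ∪ ((fun p : Ev n × ℝ => ins d p.2 p.1) ⁻¹' E)ᶜ := by
    ext p
    show (fl d E p.1 = 0 → ¬ ins d p.2 p.1 ∈ E) ↔ (¬ fl d E p.1 = 0) ∨ ¬ ins d p.2 p.1 ∈ E
    exact imp_iff_not_or
  rw [e]
  exact h3.compl.union h2.compl

theorem sl_St (t : ℝ) : sl d (St d E) t = gd (fl d E) (2 * dZ t) := by
  unfold sl gd
  rw [slice_St]

theorem measurableSet_lt_fl (hE : MeasurableSet E) (s : ℝ) : MeasurableSet {y | s < fl d E y} :=
  measurableSet_lt measurable_const (fl_measurable hE)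

theorem le_sl_of_St (hE : MeasurableSet E) (hper : IsLatticePeriodic E) {m : ℝ}
    (h : ∀ᵐ t : ℝ, m ≤ sl d (St d E) t) : ∀ᵐ t : ℝ, m ≤ sl d E t := by
  simp only [sl_St] at h
  -- all levels
  have h1 : ∀ s : ℝ, s < 1 → m ≤ gd (fl d E) s := by
    intro s hs
    obtain ⟨t, ht, ht2⟩ := exists_ae_Ioo h (show max 0 (s / 2) < 1 / 2 from
      max_lt (by norm_num) (by linarith))
    refine ht2.trans (gd_anti _ ?_)
    have h3 : 0 ≤ t := (le_max_left _ _).trans ht.1.le
    rw [two_dZ h3 ht.2.le]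
    have h4 : s / 2 ≤ t := (le_max_right _ _).trans ht.1.le
    linarith
  -- the limit
  set A : ℕ → Set (Ev n) := fun k => {y | 1 - 1 / ((k : ℝ) + 1) < fl d E y} ∩ unitCell n with hA
  have hAm : ∀ k, MeasurableSet (A k) := fun k =>
    (measurableSet_lt_fl hE _).inter (measurableSet_cell n)
  have hAanti : Antitone A := by
    intro k l hkl y hy
    have h5 : (k : ℝ) ≤ l := by exact_mod_cast hkl
    have h6 : 1 / ((l : ℝ) + 1) ≤ 1 / ((k : ℝ) + 1) := by
      apply one_div_le_one_div_of_le <;> linarith [(Nat.cast_nonneg k : (0:ℝ) ≤ k)]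
    have h7 : 1 - 1 / ((l : ℝ) + 1) < fl d E y := hy.1
    refine ⟨?_, hy.2⟩
    show 1 - 1 / ((k : ℝ) + 1) < fl d E y
    linarith
  have hAi : (⋂ k, A k) = {y | fl d E y = 1} ∩ unitCell n := by
    ext y
    rw [mem_iInter]
    constructor
    · intro hy
      refine ⟨le_antisymm (fl_mem hE y).2 ?_, (hy 0).2⟩
      refine le_of_forall_pos_lt_add fun ε hε => ?_
      obtain ⟨k, hk⟩ := exists_nat_one_div_lt hε
      have := (hy k).1
      have h6 : 1 - 1 / ((k : ℝ) + 1) < fl d E y := this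
      linarith
    · rintro ⟨hy1, hy2⟩ k
      refine ⟨?_, hy2⟩
      show 1 - 1 / ((k : ℝ) + 1) < fl d E y
      rw [show fl d E y = 1 from hy1]
      have : 0 < 1 / ((k : ℝ) + 1) := by positivity
      linarith
  have hlim : Tendsto (fun k => volume (A k)) atTop (𝓝 (volume (⋂ k, A k))) :=
    tendsto_measure_iInter_atTop (fun k => (hAm k).nullMeasurableSet) hAanti
      ⟨0, cell_ne_top _⟩
  have hlim2 : Tendsto (fun k => (volume (A k)).toReal) atTop (𝓝 (volume (⋂ k, A k)).toReal) := by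
    refine (ENNReal.tendsto_toReal ?_).comp hlim
    rw [hAi]
    exact cell_ne_top _
  have h2 : m ≤ (volume ({y | fl d E y = 1} ∩ unitCell n)).toReal := by
    rw [← hAi]
    refine ge_of_tendsto' hlim2 fun k => ?_
    have h7 := h1 (1 - 1 / ((k : ℝ) + 1)) (by
      have : 0 < 1 / ((k : ℝ) + 1) := by positivity
      linarith)
    exact h7
  filter_upwards [full_slice (d := d) hE hper] with t ht
  refine h2.trans ?_
  refine ENNReal.toReal_mono (cell_ne_top _) (measure_mono_ae ?_)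
  filter_upwards [ht] with q hq hq2
  exact ⟨hq hq2.1, hq2.2⟩

theorem sl_le_of_St (hE : MeasurableSet E) (hper : IsLatticePeriodic E) {M : ℝ}
    (h : ∀ᵐ t : ℝ, sl d (St d E) t ≤ M) : ∀ᵐ t : ℝ, sl d E t ≤ M := by
  simp only [sl_St] at h
  have h1 : ∀ s : ℝ, 0 < s → gd (fl d E) s ≤ M := by
    intro s hs
    obtain ⟨t, ht, ht2⟩ := exists_ae_Ioo h (show (0 : ℝ) < min (1 / 2) (s / 2) from
      lt_min (by norm_num) (by linarith))
    refine le_trans (gd_anti _ ?_) ht2
    have h3 : t ≤ 1 / 2 := ht.2.le.trans (min_le_left _ _)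
    rw [two_dZ ht.1.le h3]
    have h4 : t ≤ s / 2 := ht.2.le.trans (min_le_right _ _)
    linarith
  set A : ℕ → Set (Ev n) := fun k => {y | 1 / ((k : ℝ) + 1) < fl d E y} ∩ unitCell n with hA
  have hAm : Monotone A := by
    intro k l hkl y hy
    have h5 : (k : ℝ) ≤ l := by exact_mod_cast hkl
    have h6 : 1 / ((l : ℝ) + 1) ≤ 1 / ((k : ℝ) + 1) := by
      apply one_div_le_one_div_of_le <;> linarith [(Nat.cast_nonneg k : (0:ℝ) ≤ k)]
    have h7 : 1 / ((k : ℝ) + 1) < fl d E y := hy.1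
    refine ⟨?_, hy.2⟩
    show 1 / ((l : ℝ) + 1) < fl d E y
    linarith
  have hAi : (⋃ k, A k) = {y | 0 < fl d E y} ∩ unitCell n := by
    ext y
    rw [mem_iUnion]
    constructor
    · rintro ⟨k, hk⟩
      have h7 : 1 / ((k : ℝ) + 1) < fl d E y := hk.1
      have h8 : 0 < 1 / ((k : ℝ) + 1) := by positivity
      refine ⟨?_, hk.2⟩
      show 0 < fl d E y
      linarith
    · rintro ⟨hy1, hy2⟩
      obtain ⟨k, hk⟩ := exists_nat_one_div_lt (show 0 < fl d E y from hy1)
      exact ⟨k, hk, hy2⟩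
  have hlim : Tendsto (fun k => volume (A k)) atTop (𝓝 (volume (⋃ k, A k))) :=
    tendsto_measure_iUnion_atTop hAm
  have hlim2 : Tendsto (fun k => (volume (A k)).toReal) atTop (𝓝 (volume (⋃ k, A k)).toReal) := by
    refine (ENNReal.tendsto_toReal ?_).comp hlim
    rw [hAi]
    exact cell_ne_top _
  have h2 : (volume ({y | 0 < fl d E y} ∩ unitCell n)).toReal ≤ M := by
    rw [← hAi]
    refine le_of_tendsto' hlim2 fun k => ?_
    exact h1 (1 / ((k : ℝ) + 1)) (by positivity)
  filter_upwards [null_slice (d := d) hE hper] with t ht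
  refine le_trans ?_ h2
  refine ENNReal.toReal_mono (cell_ne_top _) (measure_mono_ae ?_)
  filter_upwards [ht] with q hq hq2
  refine ⟨?_, hq2.2⟩
  by_contra hcon
  have h8 : fl d E q = 0 := le_antisymm (not_lt.1 hcon) (fl_mem hE q).1
  exact hq h8 hq2.1

end Crest.Agent.R214.StE

namespace Crest.Agent.R214

/-- the interface of `Iface.lean` -/
theorem exists_mono : ExistsMono := by
  intro E hE hper _
  obtain ⟨F, hF, -, hV, hP, hmono, hFE⟩ := StE.exists_mono E hE hper
  have m2 : MeasurableSet (StE.St 2 E) := StE.St_measurable hE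
  have p2 : IsLatticePeriodic (StE.St 2 E) := StE.St_periodic hper
  have m1 : MeasurableSet (StE.St 1 (StE.St 2 E)) := StE.St_measurable m2
  have p1 : IsLatticePeriodic (StE.St 1 (StE.St 2 E)) := StE.St_periodic p2
  have e10 : ∀ t, sl 1 F t = sl 1 (StE.St 1 (StE.St 2 E)) t := fun t => by
    rw [hFE]; exact StE.sl_St_ne (by decide) m1 p1 t
  have e20 : ∀ t, sl 2 F t = sl 2 (StE.St 1 (StE.St 2 E)) t := fun t => by
    rw [hFE]; exact StE.sl_St_ne (by decide) m1 p1 t
  have e01 : ∀ t, sl 0 (StE.St 1 (StE.St 2 E)) t = sl 0 (StE.St 2 E) t := fun t =>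
    StE.sl_St_ne (by decide) m2 p2 t
  have e21 : ∀ t, sl 2 (StE.St 1 (StE.St 2 E)) t = sl 2 (StE.St 2 E) t := fun t =>
    StE.sl_St_ne (by decide) m2 p2 t
  have e02 : ∀ t, sl 0 (StE.St 2 E) t = sl 0 E t := fun t =>
    StE.sl_St_ne (by decide) hE hper t
  have e12 : ∀ t, sl 1 (StE.St 2 E) t = sl 1 E t := fun t =>
    StE.sl_St_ne (by decide) hE hper t
  refine ⟨F, hF, hmono, hV, hP, fun d m h => ?_, fun d M h => ?_⟩
  · fin_cases d
    · have h' : ∀ᵐ t : ℝ, m ≤ sl 0 F t := h
      rw [hFE] at h'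
      have := StE.le_sl_of_St m1 p1 h'
      simp only [e01, e02] at this
      exact this
    · have h' : ∀ᵐ t : ℝ, m ≤ sl 1 F t := h
      simp only [e10] at h'
      have := StE.le_sl_of_St m2 p2 h'
      simp only [e12] at this
      exact this
    · have h' : ∀ᵐ t : ℝ, m ≤ sl 2 F t := h
      simp only [e20, e21] at h'
      exact StE.le_sl_of_St hE hper h'
  · fin_cases d
    · have h' : ∀ᵐ t : ℝ, sl 0 F t ≤ M := h
      rw [hFE] at h'
      have := StE.sl_le_of_St m1 p1 h'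
      simp only [e01, e02] at this
      exact this
    · have h' : ∀ᵐ t : ℝ, sl 1 F t ≤ M := h
      simp only [e10] at h'
      have := StE.sl_le_of_St m2 p2 h'
      simp only [e12] at this
      exact this
    · have h' : ∀ᵐ t : ℝ, sl 2 F t ≤ M := h
      simp only [e20, e21] at h'
      exact StE.sl_le_of_St hE hper h'

end Crest.Agent.R214
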