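import Crest.Agent.R214.Box

/-!
# Row 214, T3a: one line for every `a2 ∈ [0.318, 1]` (`a1 = 1/250`), uniformly in `V`
-/

set_option autoImplicit false

open MeasureTheory Set

namespace Crest.Agent.R214.T3

def L0 : Lf :=
  ⟨1000, 25459, [(40, 1841), (70, 6072), (160, 7784), (305, 8189), (500, 8192), (738, 8015), (1009, 7734), (1304, 7378), (1610, 6971), (1916, 6526), (2211, 6061), (2482, 5594), (2720, 5148), (2915, 4749), (3060, 4429), (3150, 4218), (3180, 4145)], 2959/7500, 3, 4541/7500, 9/4⟩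

def L1 : Lf :=
  ⟨1000, 23346, [(40, 2205), (74, 6390), (173, 7983), (335, 8356), (552, 8354), (817, 8189), (1119, 7929), (1447, 7604), (1787, 7235), (2128, 6835), (2456, 6421), (2758, 6011), (3023, 5624), (3240, 5162), (3402, 4476), (3501, 3980), (3535, 3792)], 141/1250, 3, 1109/1250, 9/4⟩

def L2 : Lf :=
  ⟨1000, 21403, [(40, 2492), (77, 6626), (185, 8152), (361, 8502), (599, 8504), (888, 8357), (1218, 8124), (1575, 7835), (1947, 7506), (2320, 7153), (2677, 6793), (3007, 6439), (3296, 5926), (3534, 5163), (3710, 4479), (3818, 3985), (3855, 3797)], 0, 1, 1, 21403/10000⟩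

def L3 : Lf :=
  ⟨1000, 19758, [(40, 2710), (80, 6829), (199, 8303), (391, 8626), (650, 8628), (966, 8492), (1326, 8279), (1716, 8015), (2122, 7717), (2529, 7398), (2919, 7075), (3279, 6638), (3595, 5860), (3854, 5078), (4046, 4371), (4165, 3849), (4205, 3654)], 0, 1, 1, 9879/5000⟩

def L4 : Lf :=
  ⟨1000, 18404, [(40, 2876), (83, 7002), (212, 8425), (420, 8727), (701, 8728), (1043, 8601), (1434, 8402), (1857, 8157), (2297, 7882), (2738, 7589), (3161, 7293), (3552, 6572), (3894, 5771), (4175, 4959), (4383, 4218), (4512, 3665), (4555, 3458)], 0, 1, 1, 4601/2500⟩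

def L5 : Lf :=
  ⟨1000, 17357, [(40, 2998), (87, 7178), (225, 8523), (449, 8806), (750, 8804), (1118, 8682), (1537, 8493), (1992, 8261), (2465, 8001), (2938, 7726), (3393, 7248), (3812, 6479), (4180, 5643), (4481, 4790), (4705, 3996), (4843, 3395), (4890, 3160)], 0, 1, 1, 17357/10000⟩

def L6 : Lf :=
  ⟨1000, 16544, [(40, 3088), (89, 7275), (236, 8597), (474, 8866), (793, 8862), (1183, 8744), (1628, 8563), (2111, 8340), (2612, 8092), (3114, 7830), (3597, 7189), (4042, 6395), (4432, 5529), (4751, 4636), (4989, 3790), (5136, 3131), (5185, 2874)], 0, 1, 1, 1034/625⟩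

def L7 : Lf :=
  ⟨1000, 15943, [(40, 3154), (92, 7382), (246, 8655), (495, 8911), (831, 8904), (1240, 8789), (1707, 8612), (2213, 8396), (2740, 8155), (3267, 7839), (3773, 7126), (4240, 6307), (4649, 5407), (4985, 4465), (5234, 3560), (5388, 2833), (5440, 2536)], 0, 1, 1, 15943/10000⟩

def L8 : Lf :=
  ⟨1000, 15503, [(40, 3201), (94, 7453), (253, 8695), (512, 8944), (861, 8935), (1286, 8821), (1770, 8648), (2296, 8436), (2842, 8201), (3389, 7803), (3915, 7072), (4399, 6233), (4824, 5302), (5173, 4317), (5432, 3352), (5591, 2556), (5645, 2215)], 0, 1, 15503/15708, 3927/2500⟩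

def L9 : Lf :=
  ⟨1000, 15138, [(40, 3239), (95, 7494), (259, 8728), (526, 8970), (884, 8961), (1321, 8849), (1819, 8680), (2360, 8473), (2922, 8243), (3485, 7785), (4026, 7047), (4524, 6196), (4961, 5251), (5319, 4250), (5586, 3253), (5750, 2413), (5805, 2050)], 0, 1, 2523/2618, 3927/2500⟩

def L10 : Lf :=
  ⟨1000, 14766, [(40, 3277), (97, 7557), (265, 8760), (538, 8997), (905, 8988), (1352, 8880), (1863, 8715), (2416, 8515), (2992, 8292), (3569, 7790), (4122, 7055), (4633, 6206), (5080, 5266), (5447, 4268), (5720, 3281), (5888, 2453), (5945, 2093)], 0, 1, 2461/2618, 3927/2500⟩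

def L11 : Lf :=
  ⟨1000, 14285, [(40, 3326), (98, 7601), (270, 8795), (550, 9030), (927, 9025), (1386, 8922), (1909, 8765), (2477, 8575), (3067, 8363), (3658, 7825), (4226, 7105), (4749, 6277), (5208, 5364), (5585, 4403), (5865, 3471), (6037, 2716), (6095, 2404)], 0, 1, 14285/15708, 3927/2500⟩

def L12 : Lf :=
  ⟨1000, 13513, [(40, 3404), (100, 7680), (278, 8850), (568, 9082), (957, 9083), (1431, 8991), (1972, 8849), (2559, 8676), (3170, 8483), (3781, 7916), (4368, 7235), (4909, 6459), (5383, 5616), (5772, 4750), (6062, 3938), (6240, 3321), (6300, 3082)], 0, 1, 13513/15708, 3927/2500⟩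

def L13 : Lf :=
  ⟨1000, 11955, [(40, 3553), (104, 7830), (292, 8953), (598, 9183), (1009, 9200), (1511, 9132), (2083, 9021), (2704, 8883), (3350, 8657), (3996, 8162), (4617, 7582), (5189, 6936), (5691, 6253), (6102, 5585), (6408, 4999), (6596, 4587), (6660, 4436)], 0, 1, 3985/5236, 3927/2500⟩

def L14 : Lf :=
  ⟨1000, 9759, [(40, 3753), (108, 7999), (309, 9085), (637, 9319), (1077, 9357), (1613, 9323), (2225, 9252), (2889, 9161), (3580, 8933), (4271, 8561), (4935, 8134), (5547, 7672), (6083, 7203), (6523, 6763), (6851, 6347), (7052, 5737), (7120, 5493)], 0, 1, 3253/5236, 3927/2500⟩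

def L15 : Lf :=
  ⟨1000, 7617, [(40, 3936), (114, 8186), (331, 9215), (685, 9446), (1161, 9500), (1741, 9492), (2403, 9454), (3121, 9400), (3867, 9188), (4614, 8922), (5332, 8624), (5994, 8308), (6574, 7994), (7050, 7497), (7404, 6778), (7621, 6167), (7695, 5915)], 0, 1, 2539/5236, 3927/2500⟩

def L16 : Lf :=
  ⟨1000, 5499, [(40, 4108), (119, 8344), (354, 9336), (736, 9563), (1249, 9630), (1874, 9643), (2588, 9632), (3362, 9585), (4167, 9442), (4973, 9276), (5747, 9093), (6461, 8903), (7086, 8591), (7599, 8027), (7981, 7363), (8216, 6758), (8295, 6500)], 0, 1, 1833/5236, 3927/2500⟩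

def L17 : Lf :=
  ⟨1000, 3141, [(40, 4290), (125, 8514), (377, 9457), (786, 9680), (1337, 9757), (2008, 9786), (2773, 9797), (3604, 9770), (4467, 9706), (5331, 9635), (6162, 9559), (6927, 9463), (7598, 9208), (8149, 8843), (8558, 8365), (8810, 7876), (8895, 7650)], 0, 1, 1047/5236, 3927/2500⟩

def L18 : Lf :=
  ⟨1000, -440, [(40, 4549), (131, 8716), (400, 9608), (837, 9822), (1425, 9901), (2141, 9938), (2958, 9959), (3845, 9965), (4767, 9968), (5690, 9971), (6577, 9974), (7394, 9972), (8110, 9965), (8698, 9953), (9135, 9933), (9404, 9907), (9495, 9892)], 0, 1, 0, 1⟩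

def L19 : Lf :=
  ⟨1000, -1000, [(40, 4588), (136, 8787), (419, 9645), (878, 9848), (1497, 9922), (2251, 9957), (3111, 9975), (4044, 9982), (5015, 9987), (5986, 9991), (6919, 9995), (7779, 9996), (8533, 9997), (9152, 9998), (9611, 9999), (9894, 9999), (9990, 9999)], 0, 1, 0, 1⟩

def t3tree : Tr :=
  (.sb 5945 (.sb 4890 (.sb 3855 (.sb 3535 (.leaf L0) (.leaf L1)) (.sb 4205 (.leaf L2) (.sb 4555 (.leaf L3) (.leaf L4)))) (.sb 5440 (.sb 5185 (.leaf L5) (.leaf L6)) (.sb 5645 (.leaf L7) (.sb 5805 (.leaf L8) (.leaf L9))))) (.sb 7695 (.sb 6300 (.sb 6095 (.leaf L10) (.leaf L11)) (.sb 6660 (.leaf L12) (.sb 7120 (.leaf L13) (.leaf L14)))) (.sb 8895 (.sb 8295 (.leaf L15) (.leaf L16)) (.sb 9495 (.leaf L17) (.sb 9990 (.leaf L18) (.leaf L19))))))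

/-- test of the leaves -/
def pr (L : Lf) : Bool := decide (L.S = 1000) && decide (-1000 ≤ L.T) && decide (L.T ≤ 30000)

theorem t3tree_chk : t3tree.chkU pr (56 / 10000) ⟨40, 40, 3180, 10000, 0, 5000⟩ = true := by
  decide +kernel

/-- the last box, up to `999/1000` -/
def Llast : Lf :=
  ⟨1000, -1000, [(40, 4588), (136, 8787), (419, 9645), (878, 9848), (1497, 9922), (2251, 9957), (3111, 9975), (4044, 9982), (5015, 9987), (5986, 9991), (6919, 9995), (7779, 9996), (8533, 9997), (9152, 9998), (9611, 9999), (9894, 9999), (9990, 9999)], 0, 1, 0, 1⟩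

theorem Llast_chk : Llast.chkd (56 / 10000) ⟨40, 40, 9990, 9990, 0, 5000⟩ = true := by
  decide +kernel

theorem t3_line {A : ℝ} (h1 : 0.318 ≤ A) (h2 : A ≤ 1) :
    ∃ sg : ℝ, -(1 / 10) ≤ sg ∧ sg ≤ 3 ∧ (∀ a ∈ Icc (1 / 250 : ℝ) A, 1 / 10 + sg * a ≤ I2 a) ∧
      ∀ V : ℝ, 0 ≤ V → V ≤ 1 / 2 →
        mm V + 56 / 10000 < 1 / 10 + sg * V + ∫ a in (1 / 250 : ℝ)..A, hL (1 / 10) sg a := by
  obtain ⟨L, hL1, hL2, hL3⟩ := Tr.soundU pr (56 / 10000) t3tree _ t3tree_chk
    (a1 := 1 / 250) (a2 := A) (by norm_num) (by norm_num) (by norm_num at h1 ⊢; linarith)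
    (by norm_num; linarith) (by norm_num at h1 ⊢; linarith)
  simp only [pr, Bool.and_eq_true, decide_eq_true_eq] at hL1
  obtain ⟨⟨hS, hT1⟩, hT2⟩ := hL1
  have hT1' : (-1000 : ℝ) ≤ L.T := by exact_mod_cast hT1
  have hT2' : (L.T : ℝ) ≤ 30000 := by exact_mod_cast hT2
  have hS' : ((L.S : ℤ) : ℝ) / 10 ^ 4 = 1 / 10 := by rw [hS]; norm_num
  rw [hS'] at hL2 hL3
  refine ⟨(L.T : ℝ) / 10 ^ 4, ?_, ?_, hL2, fun V v1 v2 => ?_⟩
  · norm_num
    linarith
  · norm_num
    linarith
  · have := hL3 V (by simpa using v1) (by norm_num; linarith)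
    push_cast at this
    exact this

theorem t3_last : (∀ a ∈ Icc (1 / 250 : ℝ) (999 / 1000), 1 / 10 + (-(1 / 10)) * a ≤ I2 a) ∧
      ∀ V : ℝ, 0 ≤ V → V ≤ 1 / 2 →
        mm V + 56 / 10000 < 1 / 10 + (-(1 / 10)) * V +
          ∫ a in (1 / 250 : ℝ)..(999 / 1000), hL (1 / 10) (-(1 / 10)) a := by
  obtain ⟨h1, h2⟩ := Lf.soundd Llast_chk
  have eS : ((Llast.S : ℤ) : ℝ) / 10 ^ 4 = 1 / 10 := by norm_num [Llast]
  have eT : ((Llast.T : ℤ) : ℝ) / 10 ^ 4 = -(1 / 10) := by norm_num [Llast]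
  rw [eS, eT] at h1
  constructor
  · intro a ha
    exact h1 a ⟨by norm_num; linarith [ha.1], by norm_num; linarith [ha.2]⟩
  · intro V v1 v2
    have h3 := h2 (V := V) (a1 := 1 / 250) (a2 := 999 / 1000)
      ⟨by norm_num, by norm_num, by norm_num, by norm_num, by simpa using v1, by norm_num; linarith⟩
      (by norm_num)
    rw [eS, eT] at h3
    push_cast at h3
    exact h3

end Crest.Agent.R214.T3
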