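import Mathlib

/-!
# Row 214, T3b: the loss of the line method near `a = 0`

`μ` a probability measure (the circle), `a ≥ 0` with `μ {a ≤ s} ≤ (7/4) √s` for `s ≤ 1/250`.
-/

set_option autoImplicit false

open MeasureTheory Set

namespace Crest.Agent.R214

/-- the loss function -/
noncomputable def lossF (x : ℝ) : ℝ := if x ≤ 1 / 250 then max (1 - √(250 * x)) 0 else 0

theorem lossF_nonneg (x : ℝ) : 0 ≤ lossF x := by
  unfold lossF
  split_ifs
  · exact le_max_right _ _
  · exact le_rfl

theorem lossF_le (x : ℝ) : lossF x ≤ 1 := by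
  unfold lossF
  split_ifs
  · have := Real.sqrt_nonneg (250 * x)
    exact max_le (by linarith) (by norm_num)
  · norm_num

theorem measurable_lossF : Measurable lossF := by
  unfold lossF
  refine Measurable.ite (measurableSet_le measurable_id measurable_const) ?_ measurable_const
  fun_prop

theorem t3_loss {T : Type*} [MeasurableSpace T] (μ : Measure T) [IsProbabilityMeasure μ]
    (a : T → ℝ) (ha : Measurable a) (h0 : ∀ t, 0 ≤ a t)
    (hT : ∀ s, 0 ≤ s → s ≤ 1 / 250 → μ.real {t | a t ≤ s} ≤ 7 / 4 * √s) :
    ∫ t, lossF (a t) ∂μ ≤ 554 / 10000 := by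
  set φ : T → ℝ := fun t => lossF (a t) with hφ
  have hφm : Measurable φ := measurable_lossF.comp ha
  have hφ0 : ∀ t, 0 ≤ φ t := fun t => lossF_nonneg _
  have hφ1 : ∀ t, φ t ≤ 1 := fun t => lossF_le _
  have hφi : Integrable φ μ := by
    refine Integrable.of_bound (C := 1) hφm.aestronglyMeasurable ?_
    exact Filter.Eventually.of_forall fun t => by
      rw [Real.norm_of_nonneg (hφ0 t)]
      exact hφ1 t
  rw [hφi.integral_eq_integral_meas_lt (Filter.Eventually.of_forall hφ0)]
  have hs250 : (0 : ℝ) < √250 := Real.sqrt_pos.mpr (by norm_num)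
  set G : ℝ → ℝ := fun y => if y ≤ 1 then 7 / 4 * ((1 - y) / √250) else 0 with hG
  have hGi : IntegrableOn G (Ioi 0) := by
    have h2 : IntegrableOn (fun y : ℝ => 7 / 4 * ((1 - y) / √250)) (Ioc 0 1) :=
      (Continuous.integrableOn_Icc (by fun_prop)).mono_set Ioc_subset_Icc_self
    have h3 : IntegrableOn ((Iic 1).indicator fun y : ℝ => 7 / 4 * ((1 - y) / √250))
        (Ioi 0) := by
      rw [integrableOn_indicator_iff measurableSet_Iic]
      have : Iic (1 : ℝ) ∩ Ioi 0 = Ioc 0 1 := by
        ext y; simp [and_comm]
      rw [this]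
      exact h2
    refine h3.congr_fun (fun y _ => ?_) measurableSet_Ioi
    simp only [hG, indicator, mem_Iic]
  have h4 : ∫ y in Ioi (0 : ℝ), μ.real {t | y < φ t} ≤ ∫ y in Ioi (0 : ℝ), G y := by
    apply integral_mono_of_nonneg
    · exact Filter.Eventually.of_forall fun y => measureReal_nonneg
    · exact hGi
    · refine (ae_restrict_iff' measurableSet_Ioi).mpr (Filter.Eventually.of_forall fun y hy => ?_)
      have hy0 : (0 : ℝ) < y := hy
      simp only [hG]
      split_ifs with hy1
      · set r : ℝ := (1 - y) / √250 with hr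
        have hr0 : 0 ≤ r := div_nonneg (by linarith) hs250.le
        have hsub : {t | y < φ t} ⊆ {t | a t ≤ min (r ^ 2) (1 / 250)} := by
          intro t ht
          have ht' : y < lossF (a t) := ht
          unfold lossF at ht'
          split_ifs at ht' with h250
          · refine le_min ?_ h250
            rcases lt_max_iff.mp ht' with h5 | h5
            · have h7 : √(250 * a t) = √250 * √(a t) := Real.sqrt_mul (by norm_num) _
              have h6 : √(a t) ≤ r := by
                rw [hr, le_div_iff₀ hs250]
                rw [h7] at h5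
                linarith
              calc a t = √(a t) ^ 2 := (Real.sq_sqrt (h0 t)).symm
                _ ≤ r ^ 2 := pow_le_pow_left₀ (Real.sqrt_nonneg _) h6 2
            · linarith
          · linarith
        calc μ.real {t | y < φ t} ≤ μ.real {t | a t ≤ min (r ^ 2) (1 / 250)} :=
              measureReal_mono hsub
          _ ≤ 7 / 4 * √(min (r ^ 2) (1 / 250)) :=
              hT _ (le_min (sq_nonneg r) (by norm_num)) (min_le_right _ _)
          _ ≤ 7 / 4 * r := by
              refine mul_le_mul_of_nonneg_left ?_ (by norm_num)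
              calc √(min (r ^ 2) (1 / 250)) ≤ √(r ^ 2) := Real.sqrt_le_sqrt (min_le_left _ _)
                _ = r := Real.sqrt_sq hr0
      · have hemp : {t | y < φ t} = ∅ := by
          ext t
          simp only [mem_setOf_eq, mem_empty_iff_false, iff_false, not_lt]
          linarith [hφ1 t, not_le.mp hy1]
        show μ.real {t | y < φ t} ≤ 0
        rw [hemp]
        simp
  refine h4.trans ?_
  have h5 : ∫ y in Ioi (0 : ℝ), G y = ∫ y in (0 : ℝ)..1, 7 / 4 * ((1 - y) / √250) := by
    have e1 : G = (Iic 1).indicator fun y : ℝ => 7 / 4 * ((1 - y) / √250) := by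
      funext y
      simp only [hG, indicator, mem_Iic]
    rw [e1, setIntegral_indicator measurableSet_Iic, intervalIntegral.integral_of_le (by norm_num)]
    rw [show Ioi (0 : ℝ) ∩ Iic 1 = Ioc 0 1 from Ioi_inter_Iic]
  rw [h5]
  have h6 : ∫ y in (0 : ℝ)..1, 7 / 4 * ((1 - y) / √250) = 7 / 8 / √250 := by
    have e2 : ∀ y : ℝ, 7 / 4 * ((1 - y) / √250) = 7 / 4 / √250 - 7 / 4 / √250 * y := by
      intro y; ring
    simp_rw [e2]
    rw [intervalIntegral.integral_sub (by simp) (by
      apply Continuous.intervalIntegrable; fun_prop), intervalIntegral.integral_const,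
      intervalIntegral.integral_const_mul, integral_id]
    simp only [smul_eq_mul]
    ring
  rw [h6, div_le_iff₀ hs250]
  have h7 : (15.8 : ℝ) ≤ √250 := by
    apply Real.le_sqrt_of_sq_le
    norm_num
  norm_num at h7 ⊢
  linarith

end Crest.Agent.R214
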