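import Crest.Agent.R214.SD
import Crest.Agent.R214.T3a
import Crest.Agent.R214.T3b

/-!
# Row 214, T3: a direction with `a1 < 1/250` and the time bound `|{a ≤ s}| ≤ (7/4) √s` is good
-/

set_option autoImplicit false

open MeasureTheory Set Filter Topology

namespace Crest.Agent.R214

namespace T3

theorem continuous_I2 : Continuous I2 := by
  unfold I2 w2
  fun_prop

theorem w2_pos {x : ℝ} (h0 : 0 < x) (h1 : x < 1) : 0 < w2 x := by
  unfold w2
  exact lt_min (mul_pos Real.pi_pos h0) (lt_min one_pos (mul_pos Real.pi_pos (by linarith)))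

theorem I2_pos {x : ℝ} (h0 : 0 < x) (h1 : x < 1) : 0 < I2 x := Real.sqrt_pos.mpr (w2_pos h0 h1)

theorem I2_nonneg (x : ℝ) : 0 ≤ I2 x := Real.sqrt_nonneg _

theorem I2_le_one (x : ℝ) : I2 x ≤ 1 := by
  unfold I2 w2
  apply Real.sqrt_le_one.2
  exact (min_le_right _ _).trans (min_le_left _ _)

theorem I2_small {x : ℝ} (h0 : 0 ≤ x) (h1 : x ≤ 1 / 250) : I2 x = √(Real.pi * x) := by
  unfold I2 w2
  have hpi := Real.pi_gt_three
  have hpi' := Real.pi_lt_d2
  rw [min_eq_left]
  refine le_min ?_ ?_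
  · nlinarith
  · nlinarith

/-- the clamp -/
noncomputable def cl (B x : ℝ) : ℝ := max (1 / 250) (min x B)

theorem cl_mem {B : ℝ} (hB : 1 / 250 ≤ B) (x : ℝ) : 1 / 250 ≤ cl B x ∧ cl B x ≤ B :=
  ⟨le_max_left _ _, max_le hB (min_le_right _ _)⟩

/-- the weight of the slices -/
noncomputable def cc (s0 sg B x : ℝ) : ℝ := max (s0 + sg * cl B x) 0 / I2 (cl B x)

theorem core {P V A B a1 sg : ℝ} {a J : ℝ → ℝ} (S : SD P a J) (hJ : ∀ᵐ x : ℝ, I2 (a x) ≤ J x)
    (haA : ∀ᵐ x : ℝ, a x ≤ A)
    (ha1 : ∀ δ > 0, 0 < volume ({x | a x < a1 + δ} ∩ Ico 0 1))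
    (ha2 : ∀ δ > 0, 0 < volume ({x | A - δ < a x} ∩ Ico 0 1)) (h1 : a1 ≤ 1 / 250)
    (hV : ∫ x in (0 : ℝ)..1, a x = V)
    (hT : ∀ s, 0 ≤ s → s ≤ 1 / 250 →
      volume ({x | a x ≤ s} ∩ Ico 0 1) ≤ ENNReal.ofReal (7 / 4 * √s))
    (hB0 : 1 / 250 ≤ B) (hBA : B ≤ A) (hB1 : B < 1) (hs1 : -(1 / 10) ≤ sg)
    (hg : ∀ x ∈ Icc (1 / 250 : ℝ) B, 1 / 10 + sg * x ≤ I2 x)
    (hgB : ∀ x, B < x → x ≤ A → 1 / 10 + sg * x ≤ max (1 / 10 + sg * B) 0 / I2 B * I2 x)
    (hval : mm V + 56 / 10000 < 1 / 10 + sg * V + ∫ x in (1 / 250 : ℝ)..B, hL (1 / 10) sg x) :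
    mm V < P / 2 := by
  have hclc : Continuous (cl B) := by unfold cl; fun_prop
  have hclpos : ∀ x, 0 < I2 (cl B x) := fun x => by
    obtain ⟨h3, h4⟩ := cl_mem hB0 x
    exact I2_pos (by linarith) (by linarith)
  set c : ℝ → ℝ := cc (1 / 10) sg B with hc
  set h : ℝ → ℝ := fun x => hL (1 / 10) sg (cl B x) with hh
  have hcc : Continuous c := by
    have := continuous_I2
    show Continuous fun x => max (1 / 10 + sg * cl B x) 0 / I2 (cl B x)
    exact Continuous.div (by fun_prop) (by fun_prop) fun x => (hclpos x).ne'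
  have c0 : ∀ x, 0 ≤ c x := fun x => div_nonneg (le_max_right _ _) (hclpos x).le
  have c1 : ∀ x, c x ≤ 1 := fun x => by
    refine div_le_one_of_le₀ (max_le ?_ (hclpos x).le) (hclpos x).le
    exact hg _ (cl_mem hB0 x)
  have hhx : ∀ x, h x = √(1 - c x ^ 2) := fun x => rfl
  have hhc : Continuous h := by
    have : h = fun x => √(1 - c x ^ 2) := funext hhx
    rw [this]
    fun_prop
  have h0 : ∀ x, 0 ≤ h x := fun x => Real.sqrt_nonneg _
  have hch : ∀ s, c s ^ 2 + h s ^ 2 ≤ 1 := fun s => by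
    rw [hhx, Real.sq_sqrt]
    · linarith
    · nlinarith [c0 s, c1 s]
  obtain ⟨i1, hlm⟩ := S.lm c h hcc hhc c0 h0 hch ha1 ha2
  -- the vertical part
  have hvert : ∫ x in (1 / 250 : ℝ)..B, hL (1 / 10) sg x ≤ ∫ s in a1..A, h s := by
    have e1 : ∫ x in (1 / 250 : ℝ)..B, hL (1 / 10) sg x = ∫ x in (1 / 250 : ℝ)..B, h x := by
      refine intervalIntegral.integral_congr fun x hx => ?_
      rw [uIcc_of_le hB0] at hx
      show hL (1 / 10) sg x = hL (1 / 10) sg (cl B x)
      have : cl B x = x := by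
        unfold cl
        rw [min_eq_left hx.2, max_eq_right hx.1]
      rw [this]
    rw [e1]
    refine intervalIntegral.integral_mono_interval h1 hB0 hBA ?_ (hhc.intervalIntegrable _ _)
    filter_upwards with x using h0 x
  -- the horizontal part
  have hm : Measurable a := S.meas_a
  set μ : Measure ℝ := volume.restrict (Ioc 0 1) with hμ
  haveI : IsProbabilityMeasure μ := ⟨by simp [hμ]⟩
  have hai : Integrable a μ := by
    refine Integrable.of_bound (C := 1) hm.aestronglyMeasurable ?_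
    exact Eventually.of_forall fun x => by
      rw [Real.norm_of_nonneg (S.a01 x).1]
      exact (S.a01 x).2
  have hLi : Integrable (fun x => lossF (a x)) μ := by
    refine Integrable.of_bound (C := 1) (measurable_lossF.comp hm).aestronglyMeasurable ?_
    exact Eventually.of_forall fun x => by
      rw [Real.norm_of_nonneg (lossF_nonneg _)]
      exact lossF_le _
  have hloss : ∫ x, lossF (a x) ∂μ ≤ 554 / 10000 := by
    refine t3_loss μ a hm (fun x => (S.a01 x).1) fun s s0 s1 => ?_
    have e1 : μ {t | a t ≤ s} = volume ({x | a x ≤ s} ∩ Ico 0 1) := by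
      rw [hμ, Measure.restrict_apply (measurableSet_le hm measurable_const)]
      exact measure_congr ((ae_eq_refl _).inter Ico_ae_eq_Ioc.symm)
    rw [measureReal_def, e1]
    exact ENNReal.toReal_le_of_le_ofReal (by positivity) (hT s s0 s1)
  have hpt : ∀ᵐ x : ℝ, 1 / 10 + sg * a x - 1004 / 10000 * lossF (a x) ≤ c (a x) * J x := by
    filter_upwards [hJ, haA] with x hx1 hx2
    have hx0 := (S.a01 x).1
    refine le_trans ?_ (mul_le_mul_of_nonneg_left hx1 (c0 (a x)))
    rcases le_or_gt (a x) (1 / 250) with h5 | h5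
    · -- small
      have e1 : cl B (a x) = 1 / 250 := by
        unfold cl
        exact max_eq_left ((min_le_left _ _).trans h5)
      have e2 : c (a x) * I2 (a x) = (1 / 10 + sg / 250) * √(250 * a x) := by
        show max (1 / 10 + sg * cl B (a x)) 0 / I2 (cl B (a x)) * I2 (a x) = _
        rw [e1, I2_small hx0 h5, I2_small (by norm_num) le_rfl]
        have e3 : √(Real.pi * a x) = √(250 * a x) * √(Real.pi * (1 / 250)) := by
          rw [← Real.sqrt_mul (by positivity)]
          congr 1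
          ring
        have e4 : (0 : ℝ) < √(Real.pi * (1 / 250)) := Real.sqrt_pos.mpr (by positivity)
        rw [e3, max_eq_left (by linarith)]
        field_simp
      rw [e2]
      have e5 : lossF (a x) = max (1 - √(250 * a x)) 0 := by
        unfold lossF
        rw [if_pos h5]
      have hu0 : 0 ≤ √(250 * a x) := Real.sqrt_nonneg _
      have hu1 : √(250 * a x) ≤ 1 := by
        apply Real.sqrt_le_one.2
        linarith
      have hu2 : a x = √(250 * a x) ^ 2 / 250 := by
        rw [Real.sq_sqrt (by linarith)]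
        ring
      rw [e5, max_eq_left (by linarith)]
      set u := √(250 * a x) with hu
      rw [hu2]
      have e6 : (1 / 10 + sg / 250) * u - (1 / 10 + sg * (u ^ 2 / 250)) + 1004 / 10000 * (1 - u) =
          (1 - u) * (1004 / 10000 - (1 / 10 - sg * u / 250)) := by ring
      have e7 : 0 ≤ (1 - u) * (1004 / 10000 - (1 / 10 - sg * u / 250)) := by
        refine mul_nonneg (by linarith) ?_
        nlinarith
      linarith
    · have e5 : lossF (a x) = 0 := by
        unfold lossF
        rw [if_neg (not_le.mpr h5)]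
      rw [e5]
      rcases le_or_gt (a x) B with h6 | h6
      · have e1 : cl B (a x) = a x := by
          unfold cl
          rw [min_eq_left h6, max_eq_right h5.le]
        have e2 : c (a x) * I2 (a x) = max (1 / 10 + sg * a x) 0 := by
          show max (1 / 10 + sg * cl B (a x)) 0 / I2 (cl B (a x)) * I2 (a x) = _
          rw [e1]
          have : I2 (a x) ≠ 0 := (I2_pos (by linarith) (by linarith)).ne'
          field_simp
        rw [e2]
        have := le_max_left (1 / 10 + sg * a x) 0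
        linarith
      · have e1 : cl B (a x) = B := by
          unfold cl
          rw [min_eq_right h6.le, max_eq_right hB0]
        show _ ≤ max (1 / 10 + sg * cl B (a x)) 0 / I2 (cl B (a x)) * I2 (a x)
        rw [e1]
        have := hgB (a x) h6 hx2
        linarith
  have hhor : 1 / 10 + sg * V - 56 / 10000 ≤ ∫ x in (0 : ℝ)..1, c (a x) * J x := by
    rw [intervalIntegral.integral_of_le zero_le_one]
    have hi2 : Integrable (fun x => c (a x) * J x) μ := i1.1
    have e1 : ∫ x, (1 / 10 + sg * a x - 1004 / 10000 * lossF (a x)) ∂μ =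
        1 / 10 + sg * V - 1004 / 10000 * ∫ x, lossF (a x) ∂μ := by
      rw [integral_sub (by
        exact (integrable_const _).add (hai.const_mul sg)) (hLi.const_mul _),
        integral_add (integrable_const _) (hai.const_mul sg), integral_const_mul,
        integral_const_mul, integral_const]
      have : ∫ x, a x ∂μ = V := by
        rw [← hV, intervalIntegral.integral_of_le zero_le_one]
      rw [this]
      simp
    have e2 : ∫ x, (1 / 10 + sg * a x - 1004 / 10000 * lossF (a x)) ∂μ ≤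
        ∫ x, c (a x) * J x ∂μ := by
      refine integral_mono_ae ?_ hi2 (ae_restrict_of_ae hpt)
      exact ((integrable_const _).add (hai.const_mul sg)).sub (hLi.const_mul _)
    linarith
  linarith

end T3

/-- **T3.** -/
theorem SD.t3 {P V A a1 : ℝ} {a J : ℝ → ℝ} (S : SD P a J) (hJ : ∀ᵐ x : ℝ, I2 (a x) ≤ J x)
    (hA0 : 0.318 ≤ A) (hA1 : A ≤ 1) (haA : ∀ᵐ x : ℝ, a x ≤ A)
    (ha1 : ∀ δ > 0, 0 < volume ({x | a x < a1 + δ} ∩ Ico 0 1))
    (ha2 : ∀ δ > 0, 0 < volume ({x | A - δ < a x} ∩ Ico 0 1)) (h1 : a1 ≤ 1 / 250)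
    (hV : ∫ x in (0 : ℝ)..1, a x = V) (hV1 : V ≤ 1 / 2)
    (hT : ∀ s, 0 ≤ s → s ≤ 1 / 250 →
      volume ({x | a x ≤ s} ∩ Ico 0 1) ≤ ENNReal.ofReal (7 / 4 * √s)) :
    mm V < P / 2 := by
  have hV0 : 0 ≤ V := by
    rw [← hV]
    exact intervalIntegral.integral_nonneg zero_le_one fun x _ => (S.a01 x).1
  norm_num at hA0
  rcases le_or_gt A (999 / 1000) with h | h
  · obtain ⟨sg, hs1, hs2, hg, hval⟩ := T3.t3_line (A := A) (by norm_num; linarith) hA1
    exact T3.core S hJ haA ha1 ha2 h1 hV hT (B := A) (by linarith) le_rfl (by linarith) hs1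
      hg (fun x h2 h3 => by linarith) (hval V hV0 hV1)
  · obtain ⟨hg, hval⟩ := T3.t3_last
    refine T3.core S hJ haA ha1 ha2 h1 hV hT (B := 999 / 1000) (sg := -(1 / 10)) (by norm_num)
      h.le (by norm_num) le_rfl hg (fun x h2 h3 => ?_) (hval V hV0 hV1)
    -- `(1-x)/10 ≤ (g B / I2 B) I2 x`
    have hpi := Real.pi_gt_three
    have hpi' := Real.pi_lt_d2
    have hx1 : x ≤ 1 := h3.trans hA1
    have e1 : ∀ y : ℝ, 999 / 1000 ≤ y → y ≤ 1 → I2 y = √(Real.pi * (1 - y)) := by
      intro y y0 y1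
      unfold I2 w2
      rw [min_eq_right, min_eq_right]
      · nlinarith
      · refine (min_le_right _ _).trans ?_
        nlinarith
    rw [e1 _ le_rfl (by norm_num), e1 x h2.le hx1]
    rw [max_eq_left (by norm_num)]
    have e2 : √(Real.pi * (1 - x)) = √(1000 * (1 - x)) * √(Real.pi * (1 - 999 / 1000)) := by
      rw [← Real.sqrt_mul (by linarith)]
      congr 1
      ring
    have e4 : (0 : ℝ) < √(Real.pi * (1 - 999 / 1000)) := Real.sqrt_pos.mpr (by norm_num; positivity)
    rw [e2]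
    have e5 : (1 / 10 + -(1 / 10) * (999 / 1000)) / √(Real.pi * (1 - 999 / 1000)) *
        (√(1000 * (1 - x)) * √(Real.pi * (1 - 999 / 1000))) = 1 / 10000 * √(1000 * (1 - x)) := by
      field_simp
      ring
    rw [e5]
    have e6 : 1000 * (1 - x) ≤ √(1000 * (1 - x)) := by
      apply Real.le_sqrt_of_sq_le
      have : 0 ≤ 1000 * (1 - x) := by linarith
      have : 1000 * (1 - x) ≤ 1 := by linarith
      nlinarith
    linarith

end Crest.Agent.R214
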