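import Crest.Agent.R214.Box

/-! ROW 214: zero contact, `b0 ∈ [.999, 1)` (helper16; after `N4_corner` of helper11). -/

set_option autoImplicit false
open MeasureTheory Set

namespace Crest.Agent.R214

/-- the corner `a1 = 0`, `a2 = 1 - x`, `0 < x ≤ 1/1000` -/
theorem zc_corner {V x : ℝ} (hx : 0 < x) (hx1 : x ≤ 1 / 1000) (hV0 : 0 ≤ V) :
    Good V 0 (1 - x) := by
  have hpi := Real.pi_gt_d2
  set c : ℝ := √x with hc
  have hc0 : 0 < c := Real.sqrt_pos.2 hx
  have hc2 : c ^ 2 = x := Real.sq_sqrt hx.le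
  have key : ∀ a ∈ Icc (0:ℝ) (1 - x), (c * a) ^ 2 ≤ w2 a * (x * (1 / 3 * (1 - a)⁻¹ + 4 / 3)) ∧
      (c * a) ^ 2 ≤ w2 a ∧ 0 ≤ w2 a := by
    intro a ha
    have ha0 : 0 ≤ a := ha.1
    have ha1 : 0 < 1 - a := by linarith [ha.2]
    have hi : 0 < (1 - a)⁻¹ := inv_pos.2 ha1
    have hai : (1 - a) * (1 - a)⁻¹ = 1 := mul_inv_cancel₀ ha1.ne'
    have hm : (c * a) ^ 2 = x * a ^ 2 := by rw [mul_pow, hc2]
    have h01 : a ^ 2 ≤ 1 := by nlinarith
    refine ⟨?_, ?_, ?_⟩
    · rw [hm]
      unfold w2
      have hB : 0 ≤ x * (1 / 3 * (1 - a)⁻¹ + 4 / 3) := by positivity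
      rcases min_choice (Real.pi * a) (min 1 (Real.pi * (1 - a))) with h | h
      · rw [h]
        have : Real.pi * a * (x * (1 / 3 * (1 - a)⁻¹ + 4 / 3)) =
          x * (a * (Real.pi * (1 / 3 * (1 - a)⁻¹ + 4 / 3))) := by ring
        rw [this]
        apply mul_le_mul_of_nonneg_left _ hx.le
        rw [sq]
        apply mul_le_mul_of_nonneg_left _ ha0
        have h1 : 1 ≤ Real.pi * (4 / 3) := by linarith
        have h3 : Real.pi * (4 / 3) ≤ Real.pi * (1 / 3 * (1 - a)⁻¹ + 4 / 3) := by
          apply mul_le_mul_of_nonneg_left _ (by linarith)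
          linarith
        linarith
      · rw [h]
        rcases min_choice 1 (Real.pi * (1 - a)) with h' | h'
        · rw [h', one_mul]
          apply mul_le_mul_of_nonneg_left _ hx.le
          linarith
        · rw [h']
          have : Real.pi * (1 - a) * (x * (1 / 3 * (1 - a)⁻¹ + 4 / 3)) =
            x * (Real.pi / 3 * ((1 - a) * (1 - a)⁻¹) + 4 / 3 * Real.pi * (1 - a)) := by ring
          rw [this, hai]
          apply mul_le_mul_of_nonneg_left _ hx.le
          nlinarith
    · rw [hm]
      unfold w2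
      have h5 : x ≤ 1 - a := by linarith [ha.2]
      refine le_min ?_ (le_min ?_ ?_)
      · nlinarith
      · nlinarith
      · nlinarith
    · unfold w2
      exact le_min (by positivity) (le_min zero_le_one (by positivity))
  refine ⟨0, c, ?_, ?_⟩
  · intro a ha
    obtain ⟨-, k2, k3⟩ := key a ha
    rw [zero_add]
    exact Real.le_sqrt_of_sq_le k2
  · have hxy : (0:ℝ) ≤ 1 - x := by linarith
    have hcont : ContinuousOn (fun a : ℝ => (1 - a)⁻¹) (uIcc 0 (1 - x)) := by
      rw [uIcc_of_le hxy]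
      intro a ha
      have : (1 - a) ≠ 0 := by
        have := ha.2
        intro h
        linarith
      exact (ContinuousAt.inv₀ (by fun_prop) this).continuousWithinAt
    have hint : IntervalIntegrable (fun a : ℝ => (1 - a)⁻¹) volume 0 (1 - x) :=
      hcont.intervalIntegrable
    have hs : (∫ a in (0:ℝ)..(1 - x), (1 - x * (1 / 3 * (1 - a)⁻¹ + 4 / 3))) ≤
        ∫ a in (0:ℝ)..(1 - x), hL 0 c a := by
      apply intervalIntegral.integral_mono_on hxy
      · apply IntervalIntegrable.sub (by simp)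
        apply IntervalIntegrable.const_mul
        apply IntervalIntegrable.add (hint.const_mul _) (by simp)
      · exact hL_intervalIntegrable _ _ _ _
      · intro a ha
        obtain ⟨k1, k2, k3⟩ := key a ha
        unfold hL
        have e1 : max (0 + c * a) 0 = c * a := by
          rw [zero_add, max_eq_left]
          exact mul_nonneg hc0.le ha.1
        have h1a : 0 < 1 - a := by linarith [ha.2]
        rw [e1, div_pow, I2, Real.sq_sqrt k3]
        have k5 : (c * a) ^ 2 / w2 a ≤ x * (1 / 3 * (1 - a)⁻¹ + 4 / 3) := by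
          rcases k3.eq_or_lt with h | h
          · rw [← h, div_zero]
            have := inv_pos.2 h1a
            positivity
          · rw [div_le_iff₀ h]; linarith
        have k6 : (c * a) ^ 2 / w2 a ≤ 1 := div_le_one_of_le₀ k2 k3
        have k7 : 0 ≤ (c * a) ^ 2 / w2 a := by positivity
        refine (show _ ≤ 1 - (c * a) ^ 2 / w2 a by linarith).trans ?_
        apply Real.le_sqrt_of_sq_le
        nlinarith
    have hval : (∫ a in (0:ℝ)..(1 - x), (1 - x * (1 / 3 * (1 - a)⁻¹ + 4 / 3))) =
        (1 - x) - x * (1 / 3 * Real.log (1 / x) + 4 / 3 * (1 - x)) := by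
      rw [intervalIntegral.integral_sub (by simp)
        ((hint.const_mul _).add (by simp) |>.const_mul _)]
      rw [intervalIntegral.integral_const_mul, intervalIntegral.integral_add
        (hint.const_mul _) (by simp), intervalIntegral.integral_const_mul]
      have e1 : ∫ a in (0:ℝ)..(1 - x), (1 - a)⁻¹ = Real.log (1 / x) := by
        rw [intervalIntegral.integral_comp_sub_left (fun a : ℝ => a⁻¹) 1, sub_zero,
          sub_sub_cancel, integral_inv_of_pos hx one_pos]
      rw [e1]
      simp only [intervalIntegral.integral_const, smul_eq_mul]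
      ring
    rw [hval] at hs
    set t : ℝ := √(√c) with htd
    have ht0 : 0 < t := Real.sqrt_pos.2 (Real.sqrt_pos.2 hc0)
    have ht2 : t ^ 4 = c := by
      have h1 : t ^ 2 = √c := Real.sq_sqrt (Real.sqrt_nonneg _)
      calc t ^ 4 = (t ^ 2) ^ 2 := by ring
        _ = c := by rw [h1]; exact Real.sq_sqrt hc0.le
    have hx8 : x = t ^ 8 := by rw [← hc2, ← ht2]; ring
    have hlog : Real.log (1 / x) ≤ 8 * (1 / t - 1) := by
      have l2 : Real.log (1 / x) = 8 * Real.log (1 / t) := by
        rw [hx8, one_div, one_div, Real.log_inv, Real.log_inv, Real.log_pow]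
        push_cast; ring
      have l3 : Real.log (1 / t) ≤ 1 / t - 1 := Real.log_le_sub_one_of_pos (by positivity)
      rw [l2]
      linarith
    have ht1 : t ≤ 43 / 100 := by
      by_contra hcon
      push Not at hcon
      have : (43 / 100 : ℝ) ^ 8 < t ^ 8 := by gcongr
      rw [← hx8] at this
      norm_num at this
      linarith
    have m1 : x * (1 / 3 * Real.log (1 / x)) ≤ x * (1 / 3 * (8 * (1 / t - 1))) := by
      apply mul_le_mul_of_nonneg_left _ hx.le
      linarith
    have m2 : x * (1 / 3 * (8 * (1 / t - 1))) = 8 / 3 * t ^ 7 - 8 / 3 * t ^ 8 := by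
      rw [hx8]
      field_simp
    have m3 : x * (4 / 3 * (1 - x)) ≤ 4 / 3 * x := by nlinarith
    have ht3 : t ^ 3 ≤ (43 / 100) ^ 3 := by gcongr
    have ht4 : 0 < t ^ 4 := by positivity
    have hbound : 1 + t ^ 4 * (V - 8 / 3 * t ^ 3) ≤ 0 + c * V + ∫ a in (0:ℝ)..(1 - x), hL 0 c a := by
      have e : 1 + t ^ 4 * (V - 8 / 3 * t ^ 3) = 1 + c * V - 8 / 3 * t ^ 7 := by
        rw [← ht2]; ring
      have e8 : t ^ 8 = x := hx8.symm
      rw [e8] at m2
      rw [e]
      linarith
    refine lt_of_lt_of_le ?_ hbound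
    rcases le_total (1 / 4) V with h | h
    · have h1 := mm_le_one V
      have h2 : 0 < t ^ 4 * (V - 8 / 3 * t ^ 3) := mul_pos ht4 (by norm_num at ht3 ⊢; linarith)
      linarith
    · have h1 := mm_le_tube hV0 (p := 17 / 10) (by norm_num)
      have h2 := Real.pi_lt_d2
      have h3 : Real.pi / (4 * (17 / 10)) ≤ 1 / 2 := by
        rw [div_le_iff₀ (by norm_num)]; linarith
      have h4 : t ^ 4 * (8 / 3 * t ^ 3) ≤ 1 / 20 := by
        have : t ^ 4 * (8 / 3 * t ^ 3) = 8 / 3 * t ^ 7 := by ring
        rw [this]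
        have : t ^ 7 ≤ (43 / 100) ^ 7 := by gcongr
        norm_num at this ⊢
        linarith
      have h5 : 0 ≤ t ^ 4 * V := mul_nonneg ht4.le hV0
      nlinarith

end Crest.Agent.R214
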