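import Crest.Agent.R214.ZCyA
import Crest.Agent.R214.MonoDef
import Crest.Agent.R214.StE5
import Crest.Agent.R214.Full

/-! Row 214 (helper33): zero contact, the slices in a direction orthogonal to the zero contact
direction: neck `≤ τ` and no full fibre. -/

set_option autoImplicit false

open MeasureTheory Set Filter Topology Crest.GeometryTopology.PeriodicPerimeter
open scoped ENNReal

namespace Crest.Agent.R214.ZCy

/-- constant vector of `Ev 1` -/
noncomputable def c1 (u : ℝ) : Ev 1 := WithLp.toLp 2 fun _ => u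

theorem c1_apply (u : ℝ) (i : Fin 1) : c1 u i = u := rfl

theorem eq_c1 (w : Ev 1) : w = c1 (w 0) := by
  ext i
  rw [c1_apply, Subsingleton.elim i 0]

theorem swap3 (d : Fin 3) (j : Fin 2) : ∃ k : Fin 2, ∀ t s u : ℝ,
    ins d t (ins j s (c1 u)) = ins (d.succAbove j) s (ins k u (c1 t)) := by
  fin_cases d <;> fin_cases j
  · refine ⟨1, fun t s u => ?_⟩
    ext i
    fin_cases i <;> simp [ins, c1, Fin.insertNth_apply_same] <;> rfl
  · refine ⟨1, fun t s u => ?_⟩
    ext i
    fin_cases i <;> simp [ins, c1, Fin.insertNth_apply_same] <;> rfl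
  · refine ⟨1, fun t s u => ?_⟩
    ext i
    fin_cases i <;> simp [ins, c1, Fin.insertNth_apply_same] <;> rfl
  · refine ⟨0, fun t s u => ?_⟩
    ext i
    fin_cases i <;> simp [ins, c1, Fin.insertNth_apply_same] <;> rfl
  · refine ⟨0, fun t s u => ?_⟩
    ext i
    fin_cases i <;> simp [ins, c1, Fin.insertNth_apply_same] <;> rfl
  · refine ⟨0, fun t s u => ?_⟩
    ext i
    fin_cases i <;> simp [ins, c1, Fin.insertNth_apply_same] <;> rfl

/-- volume of a subset of the circle -/
theorem vol_line {Y : Set ℝ} (hY : MeasurableSet Y) :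
    periodicVolume {w : Ev 1 | w 0 ∈ Y} = volume.real (Y ∩ Ico 0 1) := by
  set Z : Set (Ev 1) := {w | w 0 ∈ Y} with hZdef
  have hc0 : Measurable fun x : Ev 1 => x 0 := by fun_prop
  have hZ : MeasurableSet Z := hc0 hY
  rw [← integral_sl (d := 0) hZ, intervalIntegral.integral_of_le zero_le_one,
    ← integral_Ico_eq_integral_Ioc]
  have h1 : (fun t => sl 0 Z t) = Y.indicator fun _ => (1:ℝ) := by
    funext t
    by_cases ht : t ∈ Y
    · rw [indicator_of_mem ht]
      have : slice 0 Z t = univ := by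
        ext y
        simp only [mem_univ, iff_true]
        show ins 0 t y 0 ∈ Y
        rw [ins_same]; exact ht
      unfold sl periodicVolume
      rw [this, univ_inter, cell_volume]; simp
    · rw [indicator_of_notMem ht]
      have : slice 0 Z t = ∅ := by
        ext y
        simp only [mem_empty_iff_false, iff_false]
        intro hy
        have h1 : ins 0 t y 0 ∈ Y := hy
        rw [ins_same] at h1
        exact ht h1
      unfold sl periodicVolume
      rw [this]; simp
  rw [h1, integral_indicator_const _ hY, smul_eq_mul, mul_one, Measure.real,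
    Measure.restrict_apply hY]
  rfl

theorem meas_line {n : ℕ} {K : Set (Ev (n + 1))} (hK : MeasurableSet K) {g : ℝ → Ev (n + 1)}
    (hg : Continuous g) : MeasurableSet {u : ℝ | g u ∈ K} := hg.measurable hK

theorem cont_c1 : Continuous c1 := by
  unfold c1
  fun_prop

theorem cont_line (d : Fin 3) (j : Fin 2) (t s : ℝ) : Continuous fun u : ℝ =>
    ins d t (ins j s (c1 u)) :=
  (StE.continuous_ins' d).comp (continuous_const.prodMk
    ((StE.continuous_ins' j).comp (continuous_const.prodMk cont_c1)))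

theorem sl_line {F : Set (Ev 3)} (hF : MeasurableSet F) (d : Fin 3) (j : Fin 2) (t s : ℝ) :
    sl j (slice d F t) s = volume.real ({u : ℝ | ins d t (ins j s (c1 u)) ∈ F} ∩ Ico 0 1) := by
  rw [← vol_line (meas_line hF (cont_line d j t s))]
  unfold sl
  congr 1
  ext w
  show ins d t (ins j s w) ∈ F ↔ ins d t (ins j s (c1 (w 0))) ∈ F
  rw [← eq_c1]

theorem band_le {r : ℝ} (h0 : 0 ≤ r) :
    volume.real ({t : ℝ | dZ t < r} ∩ Ico 0 1) ≤ 2 * r := by
  have h1 : {t : ℝ | dZ t < r} ∩ Ico 0 1 ⊆ Ico 0 r ∪ Ioo (1 - r) 1 := by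
    rintro t ⟨h2, h3, h4⟩
    have h2' : dZ t < r := h2
    rcases le_total t (1 / 2) with h | h
    · left
      rw [dZ_eq_abs (by rw [abs_of_nonneg h3]; exact h), abs_of_nonneg h3] at h2'
      exact ⟨h3, h2'⟩
    · right
      have h5 : dZ (t - 1) = dZ t := by
        have := dZ_per (t - 1)
        rw [sub_add_cancel] at this
        exact this.symm
      rw [← h5, dZ_eq_abs (by rw [abs_of_nonpos (by linarith)]; linarith),
        abs_of_nonpos (by linarith)] at h2'
      exact ⟨by linarith, h4⟩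
  refine (measureReal_mono h1 (by
    refine ne_of_lt ((measure_union_le _ _).trans_lt ?_)
    simp)).trans ?_
  refine (measureReal_union_le _ _).trans ?_
  rw [Real.volume_real_Ico, Real.volume_real_Ioo, sub_zero, max_eq_left h0]
  have : 1 - (1 - r) = r := by ring
  rw [this, max_eq_left h0]
  linarith

/-- a point outside of `F` bounds the fibre -/
theorem fibre_le {F : Set (Ev 3)} (hF : MeasurableSet F) (hM : Mono F) {e : Fin 3} {k : Fin 2}
    {s u t : ℝ} (h : ins e s (ins k u (c1 t)) ∉ F) : sl k (slice e F s) u ≤ 2 * dZ t := by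
  rw [sl_line hF]
  refine le_trans (measureReal_mono ?_ ?_) (band_le (dZ_nonneg t))
  · rintro w ⟨hw, hw2⟩
    refine ⟨?_, hw2⟩
    by_contra hcon
    have hcon' : dZ t ≤ dZ w := not_lt.1 hcon
    apply h
    refine hM _ _ (fun i => ?_) hw
    rcases Fin.eq_self_or_eq_succAbove e i with hi | ⟨j, hi⟩
    · rw [hi, ins_same, ins_same]
    · rw [hi, ins_succAbove, ins_succAbove]
      rcases Fin.eq_self_or_eq_succAbove k j with hj | ⟨l, hj⟩
      · rw [hj, ins_same, ins_same]
      · rw [hj, ins_succAbove, ins_succAbove, c1_apply, c1_apply]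
        exact hcon'
  · exact ((measure_mono inter_subset_right).trans_lt (by simp)).ne

/-- slices of a monotone set are nested -/
theorem slice_sub {n : ℕ} {F : Set (Ev (n + 1))} (hM : Mono F) {e : Fin (n + 1)} {s s' : ℝ}
    (h : dZ s ≤ dZ s') : slice e F s' ⊆ slice e F s := by
  intro y hy
  refine hM _ _ (fun i => ?_) hy
  rcases Fin.eq_self_or_eq_succAbove e i with hi | ⟨j, hi⟩
  · rw [hi, ins_same, ins_same]; exact h
  · rw [hi, ins_succAbove, ins_succAbove]

theorem slice_congr {n : ℕ} {F : Set (Ev (n + 1))} (hM : Mono F) {e : Fin (n + 1)} {s s' : ℝ}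
    (h : dZ s = dZ s') : slice e F s = slice e F s' :=
  (slice_sub hM h.ge).antisymm (slice_sub hM h.le)

variable {F : Set (Ev 3)} {d : Fin 3} {j k : Fin 2}

theorem neck_of (hF : MeasurableSet F) (hM : Mono F)
    (hk : ∀ t s u : ℝ, ins d t (ins j s (c1 u)) = ins (d.succAbove j) s (ins k u (c1 t)))
    {τ : ℝ} (hτ0 : 0 ≤ τ) (hτ1 : τ < 1)
    (hf : ∀ t, τ / 2 < t → t < 1 / 2 → fullM (sl j (slice d F t)) = 0) :
    ∀ᵐ s : ℝ, ∀ δ > 0, 0 < volume ({u | sl k (slice (d.succAbove j) F s) u < τ + δ} ∩ Ico 0 1) := by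
  have hper := hM.periodic
  have h1 : ∀ n : ℕ, ∀ᵐ s : ℝ, sl j (slice d F (τ / 2 + (1 / 2 - τ / 2) / (n + 2))) s ≠ 1 := by
    intro n
    set t := τ / 2 + (1 / 2 - τ / 2) / (n + 2) with ht
    have h2 : τ / 2 < t := by
      have : 0 < (1 / 2 - τ / 2) / ((n : ℝ) + 2) := by
        apply div_pos (by linarith) (by positivity)
      linarith
    have h3 : t < 1 / 2 := by
      have : (1 / 2 - τ / 2) / ((n : ℝ) + 2) < 1 / 2 - τ / 2 := by
        rw [div_lt_iff₀ (by positivity)]
        have : (0:ℝ) ≤ n := Nat.cast_nonneg n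
        nlinarith
      linarith
    have h4 := hf t h2 h3
    have hK : MeasurableSet (slice d F t) := slice_measurable hF t
    have hm : Measurable (sl j (slice d F t)) := sl_measurable hK
    rw [fullM_eq hm] at h4
    have h5 : volume ({x | sl j (slice d F t) x = 1} ∩ Ico 0 1) = 0 := by
      rcases (ENNReal.toReal_eq_zero_iff _).1 h4 with h | h
      · exact h
      · exfalso
        exact ((measure_mono inter_subset_right).trans_lt
          (by simp : volume (Ico (0:ℝ) 1) < ⊤)).ne h
    have h6 : ∀ᵐ x ∂(volume.restrict (Ioc (0:ℝ) 1)), sl j (slice d F t) x ≠ 1 := by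
      rw [← restrict_Ico_eq_restrict_Ioc, ae_iff, Measure.restrict_apply']
      · simpa using h5
      · exact measurableSet_Ico
    refine ae_of_periodic' (fun x => ?_) h6
    rw [sl_per (d := j) (slice_periodic hper t) x]
  filter_upwards [ae_all_iff.2 h1] with s hs δ hδ
  obtain ⟨n, hn⟩ := exists_nat_gt (1 / δ)
  set t := τ / 2 + (1 / 2 - τ / 2) / ((n : ℝ) + 2) with ht
  have hn0 : (0:ℝ) ≤ n := Nat.cast_nonneg n
  have hdt : 2 * t < τ + δ := by
    have h2 : (1 / 2 - τ / 2) / ((n : ℝ) + 2) < δ / 2 := by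
      rw [div_lt_iff₀ (by positivity)]
      have h3 : 1 < n * δ := by
        rwa [div_lt_iff₀ hδ] at hn
      nlinarith
    linarith
  have ht0 : 0 ≤ t := by
    have : 0 ≤ (1 / 2 - τ / 2) / ((n : ℝ) + 2) := div_nonneg (by linarith) (by positivity)
    linarith
  have htd : dZ t ≤ t := by
    have := dZ_le t 0
    rwa [Int.cast_zero, sub_zero, abs_of_nonneg ht0] at this
  set A : Set ℝ := {u : ℝ | ins d t (ins j s (c1 u)) ∈ F} with hA
  have hAm : MeasurableSet A := meas_line hF (cont_line d j t s)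
  have h7 : volume.real (A ∩ Ico 0 1) ≠ 1 := by
    rw [← sl_line hF]; exact hs n
  have h8 : 0 < volume (Aᶜ ∩ Ico 0 1) := by
    rw [pos_iff_ne_zero]
    intro h0
    apply h7
    have h9 : volume (A ∩ Ico 0 1) = 1 := by
      have h10 : volume (Ico (0:ℝ) 1 ∩ A) + volume (Ico (0:ℝ) 1 \ A) = volume (Ico (0:ℝ) 1) :=
        measure_inter_add_sdiff _ hAm
      have h11 : Ico (0:ℝ) 1 \ A = Aᶜ ∩ Ico 0 1 := by
        ext x
        simp only [Set.mem_sdiff, mem_inter_iff, mem_compl_iff]
        tauto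
      rw [h11, h0, add_zero, inter_comm] at h10
      rw [h10]
      simp
    rw [Measure.real, h9]
    rfl
  refine h8.trans_le (measure_mono ?_)
  rintro u ⟨hu, hu2⟩
  refine ⟨?_, hu2⟩
  have hu' : ins d t (ins j s (c1 u)) ∉ F := hu
  rw [hk] at hu'
  have := fibre_le hF hM hu'
  show sl k (slice (d.succAbove j) F s) u < τ + δ
  linarith

theorem full_of (hF : MeasurableSet F) (hM : Mono F)
    (hk : ∀ t s u : ℝ, ins d t (ins j s (c1 u)) = ins (d.succAbove j) s (ins k u (c1 t)))
    (hz : ∀ δ > 0, 0 < volume ({t | sl d F t < δ} ∩ Ico 0 1)) :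
    ∀ᵐ s : ℝ, fullM (sl k (slice (d.succAbove j) F s)) = 0 := by
  have hper := hM.periodic
  have h1 : ∀ n : ℕ, ∃ t : ℝ, dZ t < 1 / 2 ∧ sl d F t < 1 / ((n : ℝ) + 1) := by
    intro n
    have h2 := hz (1 / ((n : ℝ) + 1)) (by positivity)
    have h3 : ∀ᵐ t : ℝ, t ≠ 1 / 2 := by
      rw [ae_iff]
      have : {a : ℝ | ¬ a ≠ 1 / 2} = {1 / 2} := by ext; simp
      rw [this]; simp
    obtain ⟨t, ht3, ht1, ht2⟩ := exists_of_ae_pos h3 h2
    refine ⟨t, ?_, ht2⟩
    rcases lt_or_gt_of_ne ht1 with h | h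
    · rw [dZ_eq_abs (by rw [abs_of_nonneg ht3.1]; exact h.le), abs_of_nonneg ht3.1]
      exact h
    · have h5 : dZ (t - 1) = dZ t := by
        have := dZ_per (t - 1)
        rw [sub_add_cancel] at this
        exact this.symm
      have h6 := ht3.2
      rw [← h5, dZ_eq_abs (by rw [abs_of_nonpos (by linarith)]; linarith),
        abs_of_nonpos (by linarith)]
      linarith
  choose t ht1 ht2 using h1
  have h2 : ∀ n s, fullM (sl k (slice (d.succAbove j) F s)) ≤ sl j (slice d F (t n)) s := by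
    intro n s
    rw [fullM_eq (sl_measurable (slice_measurable hF s)), sl_line hF d j]
    refine measureReal_mono ?_ ((measure_mono inter_subset_right).trans_lt (by simp)).ne
    rintro u ⟨hu, hu2⟩
    refine ⟨?_, hu2⟩
    by_contra hcon
    have hcon' : ins d (t n) (ins j s (c1 u)) ∉ F := hcon
    rw [hk] at hcon'
    have h3 := fibre_le hF hM hcon'
    have h4 : sl k (slice (d.succAbove j) F s) u = 1 := hu
    have := ht1 n
    linarith
  have h3 : ∀ n, ∫⁻ s in Ioc (0:ℝ) 1, ENNReal.ofReal (sl j (slice d F (t n)) s) ≤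
      ENNReal.ofReal (1 / ((n : ℝ) + 1)) := by
    intro n
    have hK : MeasurableSet (slice d F (t n)) := slice_measurable hF (t n)
    have hm : Measurable (sl j (slice d F (t n))) := sl_measurable hK
    have hi : IntegrableOn (sl j (slice d F (t n))) (Ioc (0:ℝ) 1) := by
      refine Integrable.mono' (g := fun _ => (1:ℝ)) (integrable_const _)
        hm.aestronglyMeasurable (Eventually.of_forall fun s => ?_)
      have h0 : 0 ≤ sl j (slice d F (t n)) s := vol_nonneg' _
      rw [Real.norm_of_nonneg h0]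
      exact vol_le_one _
    rw [← ofReal_integral_eq_lintegral_ofReal hi
      (Eventually.of_forall fun s => vol_nonneg' _)]
    refine ENNReal.ofReal_le_ofReal ?_
    rw [← intervalIntegral.integral_of_le zero_le_one, integral_sl hK]
    exact (ht2 n).le
  have h4 : ∫⁻ s in Ioc (0:ℝ) 1, ⨅ n, ENNReal.ofReal (sl j (slice d F (t n)) s) = 0 := by
    refine le_antisymm ?_ bot_le
    refine ge_of_tendsto' (x := atTop) (f := fun n : ℕ => ENNReal.ofReal (1 / ((n : ℝ) + 1))) ?_
      fun n => (lintegral_mono fun s => iInf_le _ n).trans (h3 n)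
    rw [← ENNReal.ofReal_zero]
    exact (ENNReal.continuous_ofReal.tendsto 0).comp tendsto_one_div_add_atTop_nhds_zero_nat
  have hm2 : Measurable fun s : ℝ => ⨅ n, ENNReal.ofReal (sl j (slice d F (t n)) s) :=
    Measurable.iInf fun n => (sl_measurable (slice_measurable hF (t n))).ennreal_ofReal
  rw [lintegral_eq_zero_iff hm2] at h4
  refine ae_of_periodic' (fun s => ?_) ?_
  · rw [slice_congr hM (dZ_per s)]
  · filter_upwards [h4] with s hs
    refine le_antisymm ?_ (fullM_nonneg _)
    have h5 : ENNReal.ofReal (fullM (sl k (slice (d.succAbove j) F s))) ≤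
        ⨅ n, ENNReal.ofReal (sl j (slice d F (t n)) s) :=
      le_iInf fun n => ENNReal.ofReal_le_ofReal (h2 n s)
    have h6 : (⨅ n, ENNReal.ofReal (sl j (slice d F (t n)) s)) = 0 := hs
    rw [h6] at h5
    exact ENNReal.ofReal_eq_zero.1 (le_antisymm h5 bot_le)

end Crest.Agent.R214.ZCy
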