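import Crest.Agent.R214.SD2
import Crest.Agent.R214.M5f
import Crest.Agent.R214.Planar

/-! Row 214 (helper33): the line method for a general profile `I` with `I 0 = 0` and `√ y ≤ I y`
on `[0,1]`, and the slice datum in a direction all of whose slices have a neck `≤ τ`. -/

set_option autoImplicit false

open MeasureTheory Set Filter Topology Crest.GeometryTopology.PeriodicPerimeter
open scoped ENNReal

namespace Crest.Agent.R214

/-- the horizontal weight for the profile `I` -/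
noncomputable def cG (I : ℝ → ℝ) (s0 sg a : ℝ) : ℝ := max (s0 + sg * a) 0 / I a

/-- the vertical weight for the profile `I` -/
noncomputable def hG (I : ℝ → ℝ) (s0 sg a : ℝ) : ℝ := √(1 - (max (s0 + sg * a) 0 / I a) ^ 2)

theorem hG_eq (I : ℝ → ℝ) (s0 sg a : ℝ) : hG I s0 sg a = √(1 - cG I s0 sg a ^ 2) := rfl

theorem hG_nonneg (I : ℝ → ℝ) (s0 sg a : ℝ) : 0 ≤ hG I s0 sg a := Real.sqrt_nonneg _

theorem cG_continuousOn {I : ℝ → ℝ} (hIc : ContinuousOn I (Icc 0 1)) (hI0 : I 0 = 0)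
    (hI : ∀ y ∈ Icc (0:ℝ) 1, √y ≤ I y) {s0 sg a1 a2 : ℝ} (h0 : 0 ≤ a1) (h1 : a2 ≤ 1)
    (hg : ∀ a ∈ Icc a1 a2, s0 + sg * a ≤ I a) : ContinuousOn (cG I s0 sg) (Icc a1 a2) := by
  intro y hy
  have hy0 : 0 ≤ y := h0.trans hy.1
  have hy1 : y ≤ 1 := hy.2.trans h1
  have hsub : Icc a1 a2 ⊆ Icc (0:ℝ) 1 := Icc_subset_Icc h0 h1
  rcases hy0.eq_or_lt with h2 | h2
  · subst h2
    have hs : s0 ≤ 0 := by
      have := hg 0 hy
      rw [hI0] at this
      linarith
    have e0 : cG I s0 sg 0 = 0 := by unfold cG; rw [hI0, div_zero]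
    show Tendsto (cG I s0 sg) (𝓝[Icc a1 a2] 0) (𝓝 (cG I s0 sg 0))
    rw [e0]
    have ht : Tendsto (fun y : ℝ => |sg| * √y) (𝓝[Icc a1 a2] 0) (𝓝 0) := by
      have hc : Continuous fun y : ℝ => |sg| * √y := by fun_prop
      have := hc.tendsto 0
      simp only [Real.sqrt_zero, mul_zero] at this
      exact this.mono_left nhdsWithin_le_nhds
    refine squeeze_zero' ?_ ?_ ht
    · filter_upwards [self_mem_nhdsWithin] with z hz
      exact div_nonneg (le_max_right _ _) ((Real.sqrt_nonneg _).trans (hI z (hsub hz)))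
    · filter_upwards [self_mem_nhdsWithin] with z hz
      have hz0 : 0 ≤ z := h0.trans hz.1
      rcases hz0.eq_or_lt with h3 | h3
      · rw [← h3]
        unfold cG
        rw [hI0, div_zero]
        positivity
      have h4 := hI z (hsub hz)
      have h5 : 0 < √z := Real.sqrt_pos.2 h3
      unfold cG
      rw [div_le_iff₀ (h5.trans_le h4)]
      have h6 : |sg| * √z * √z = |sg| * z := by rw [mul_assoc, Real.mul_self_sqrt hz0]
      have h7 : |sg| * √z * √z ≤ |sg| * √z * I z := mul_le_mul_of_nonneg_left h4 (by positivity)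
      rw [h6] at h7
      refine (max_le ?_ (by positivity)).trans h7
      have := le_abs_self sg
      nlinarith
  · have hpos : 0 < I y := (Real.sqrt_pos.2 h2).trans_le (hI y (hsub hy))
    unfold cG
    refine ContinuousWithinAt.div ?_ ((hIc y (hsub hy)).mono hsub) hpos.ne'
    exact (Continuous.continuousAt (by fun_prop)).continuousWithinAt

/-- **LINE METHOD** for a general profile -/
theorem SD.lineG {P a1 a2 s0 sg : ℝ} {a J I : ℝ → ℝ} (S : SD P a J)
    (hIc : ContinuousOn I (Icc 0 1)) (hI0 : I 0 = 0) (hI : ∀ y ∈ Icc (0:ℝ) 1, √y ≤ I y)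
    (hJ : ∀ᵐ x : ℝ, I (a x) ≤ J x) (h0 : 0 ≤ a1) (h12 : a1 ≤ a2) (h1 : a2 ≤ 1)
    (hae : ∀ᵐ x : ℝ, a1 ≤ a x ∧ a x ≤ a2)
    (ha1 : ∀ δ > 0, 0 < volume ({x | a x < a1 + δ} ∩ Ico 0 1))
    (ha2 : ∀ δ > 0, 0 < volume ({x | a2 - δ < a x} ∩ Ico 0 1))
    (hg : ∀ x ∈ Icc a1 a2, s0 + sg * x ≤ I x) :
    s0 + sg * (∫ x in (0:ℝ)..1, a x) + ∫ x in a1..a2, hG I s0 sg x ≤ P / 2 := by
  have hc := cG_continuousOn hIc hI0 hI h0 h1 hg
  have hnn : ∀ x ∈ Icc a1 a2, 0 ≤ I x := fun x hx =>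
    (Real.sqrt_nonneg _).trans (hI x (Icc_subset_Icc h0 h1 hx))
  have hcn : ∀ x ∈ Icc a1 a2, 0 ≤ cG I s0 sg x := fun x hx =>
    div_nonneg (le_max_right _ _) (hnn x hx)
  refine S.lm_affine h12 hae ha1 ha2 (cG I s0 sg) (hG I s0 sg) hc ?_ hcn
    (fun x _ => hG_nonneg _ _ _ _) (fun x hx => ?_) s0 sg ?_
  · show ContinuousOn (fun x => √(1 - cG I s0 sg x ^ 2)) (Icc a1 a2)
    exact (continuousOn_const.sub (hc.pow 2)).sqrt
  · rw [hG_eq, Real.sq_sqrt]
    · linarith
    · have h2 : cG I s0 sg x ≤ 1 := div_le_one_of_le₀ (max_le (hg x hx) (hnn x hx)) (hnn x hx)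
      have h3 := hcn x hx
      nlinarith
  · filter_upwards [hae, hJ] with x hx hJx
    have h2 : s0 + sg * a x ≤ cG I s0 sg (a x) * I (a x) := by
      rcases (hnn (a x) hx).eq_or_lt with h3 | h3
      · have := hg _ hx
        rw [← h3] at this ⊢
        rw [mul_zero]
        exact this
      · unfold cG
        rw [div_mul_cancel₀ _ h3.ne']
        exact le_max_left _ _
    exact h2.trans (mul_le_mul_of_nonneg_left hJx (hcn _ hx))

/-- the profile of a direction with necks `≤ τ`; `D` = (a lower bound of) the Dido function -/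
noncomputable def Iy (D : ℝ → ℝ) (τ a : ℝ) : ℝ := min (√(Real.pi * a)) (D (a - τ))

theorem Iy_zero {D : ℝ → ℝ} {τ : ℝ} (hD1 : ∀ x, 1 ≤ D x) : Iy D τ 0 = 0 := by
  unfold Iy
  rw [mul_zero, Real.sqrt_zero]
  exact min_eq_left (zero_le_one.trans (hD1 _))

theorem sqrt_le_Iy {D : ℝ → ℝ} {τ : ℝ} (hD1 : ∀ x, 1 ≤ D x) :
    ∀ y ∈ Icc (0:ℝ) 1, √y ≤ Iy D τ y := by
  intro y hy
  refine le_min (Real.sqrt_le_sqrt ?_) ?_
  · nlinarith [Real.pi_gt_three, hy.1]
  · exact (Real.sqrt_le_one.2 hy.2).trans (hD1 _)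

theorem Iy_continuous {D : ℝ → ℝ} {τ : ℝ} (hDc : Continuous D) : Continuous (Iy D τ) := by
  unfold Iy
  fun_prop

/-- **slice datum of a direction all of whose slices have a neck `≤ τ` and no full fibre** -/
theorem sd_neck {F : Set (Ev 3)} (hF : MeasurableSet F) (hper : IsLatticePeriodic F)
    (hP : periodicPerimeter F ≠ ∞) (e : Fin 3) (d : Fin 2) {τ : ℝ} {D : ℝ → ℝ}
    (hDc : Continuous D) (hD1 : ∀ x, 1 ≤ D x)
    (hD : ∀ x, ∃ s : ℝ, 0 ≤ s ∧ s ≤ 1 ∧ D x ≤ s * x + PhiN s)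
    (hfull : ∀ᵐ y : ℝ, fullM (sl d (slice e F y)) = 0)
    (hneck : ∀ᵐ y : ℝ, ∀ δ > 0, 0 < volume ({x | sl d (slice e F y) x < τ + δ} ∩ Ico 0 1)) :
    SD (periodicPerimeter F).toReal (sl e F) (fun y => Iy D τ (sl e F y)) := by
  refine sd_of_perim hF hper hP e ((Iy_continuous hDc).measurable.comp (sl_measurable (d := e) hF))
    (fun t => by simp only [sl_per (d := e) hper t])
    (fun t => le_min (Real.sqrt_nonneg _) (zero_le_one.trans (hD1 _))) ?_
  filter_upwards [hfull, hneck] with y h1 h2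
  have hK : MeasurableSet (slice e F y) := slice_measurable (d := e) hF y
  have hKp : IsLatticePeriodic (slice e F y) := slice_periodic (d := e) hper y
  rcases neck2 hK hKp d h2 with h | h
  · rw [h1, sub_zero] at h
    refine le_trans (ENNReal.ofReal_le_ofReal ?_) h
    exact mul_le_mul_of_nonneg_left (min_le_left _ _) (by norm_num)
  · obtain ⟨s, hs0, hs1, hs⟩ := hD (sl e F y - τ)
    have h3 := h s hs0 hs1
    rw [h1, sub_zero] at h3
    refine le_trans (ENNReal.ofReal_le_ofReal ?_) h3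
    exact mul_le_mul_of_nonneg_left ((min_le_right _ _).trans hs) (by norm_num)

end Crest.Agent.R214
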