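import Crest.Agent.R214.ZYsd
import Crest.Agent.R214.ZTree
import Crest.Agent.R214.ZHigh
import Crest.Agent.R214.ZCc

/-! Row 214 (helper11): the `(z)` branch is complete: `ZCaseThm`, hence `ZeroContact'`. -/

set_option autoImplicit false

open MeasureTheory Set Filter Topology

namespace Crest.Agent.R214

theorem zf_V_le {P V b0 : ℝ} {a J : ℝ → ℝ} (S : SD P a J)
    (hae : ∀ᵐ x : ℝ, 0 ≤ a x ∧ a x ≤ b0) (hV : ∫ x in (0 : ℝ)..1, a x = V) : V ≤ b0 := by
  have ia : IntervalIntegrable a volume 0 1 := by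
    rw [intervalIntegrable_iff_integrableOn_Ioc_of_le zero_le_one]
    refine Integrable.mono' (g := fun _ => (1:ℝ)) (by simp) S.meas_a.aestronglyMeasurable ?_
    refine Eventually.of_forall fun x => ?_
    rw [Real.norm_eq_abs, abs_of_nonneg (S.a01 x).1]
    exact (S.a01 x).2
  have := intervalIntegral.integral_mono_ae (μ := volume) (f := a) (g := fun _ => b0)
    zero_le_one ia intervalIntegrable_const (by filter_upwards [hae] with x hx using hx.2)
  rw [hV] at this
  simpa using this

theorem zcase_thm' : ZCaseThm := by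
  intro P V b0 φ a J U S hI hV0 hV1 hae ha1 ha2 hb0 hb1 hφ0 hφ1 hU hUv hJ1 hJ2
  have hpi : 0 < 1 / Real.pi := by positivity
  rcases le_or_gt b0 (999 / 1000) with h | h
  · exact S.of_GoodZ (by linarith) (by filter_upwards [hae] with x hx using hx.2) ha1 ha2 hI U hU
      hUv hJ1 hJ2 (goodZ_mid hV0 hV1 hφ0 hφ1 hb0 h (zf_V_le S hae hI))
  · exact zcase_high S hI (by linarith) hae ha1 ha2 h.le hb1 hJ1 hJ2

theorem zero_contact' : ZeroContact' := zero_contact_of zcase_thm'

end Crest.Agent.R214
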