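import Crest.Agent.R214.ZSound
import Crest.Agent.R214.ZHigh
import Crest.Agent.R214.ZCc

/-! ROW 214: `ZCaseThm` from the root box of the Z certificate (helper10). -/

set_option autoImplicit false
open MeasureTheory Set Filter Topology

namespace Crest.Agent.R214
namespace ZS

/-- root box -/
def rootR : ZRc := ⟨0, 10000, 3183, 9990, 1200, 3600⟩

theorem zCaseThm_of (h : ZGood rootR) : ZCaseThm := by
  intro P V b0 φ a J U S hI hV0 hV1 hae hinf hsup hb0 hb1 hφ0 hφ1 hU hτ hJ1 hJ2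
  rcases le_total (999 / 1000) b0 with hc | hc
  · exact zcase_high S hI (by linarith) hae hinf hsup hc hb1 hJ1 hJ2
  · have hpi := Real.pi_lt_d4
    have h3 : (3183 : ℝ) / 10 ^ 4 ≤ 1 / Real.pi := by
      rw [le_div_iff₀ Real.pi_pos]
      norm_num at hpi ⊢
      nlinarith
    refine h P V b0 φ a J U S hI ?_ ?_ ?_ ?_ ?_ ?_ hae hinf hsup hU hτ hJ1 hJ2
    · show ((1200 : ℤ) : ℝ) / 10 ^ 4 ≤ V
      norm_num; linarith
    · show V ≤ ((3600 : ℤ) : ℝ) / 10 ^ 4
      norm_num; linarith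
    · show ((3183 : ℤ) : ℝ) / 10 ^ 4 ≤ b0
      refine le_trans ?_ (h3.trans hb0)
      norm_num
    · show b0 ≤ ((9990 : ℤ) : ℝ) / 10 ^ 4
      norm_num; linarith
    · show ((0 : ℤ) : ℝ) / 10 ^ 4 ≤ φ
      simpa using hφ0
    · show φ ≤ ((10000 : ℤ) : ℝ) / 10 ^ 4
      norm_num; linarith

end ZS
end Crest.Agent.R214
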