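import Crest.Agent.R214.LM2
import Crest.Agent.R214.NeckAlt
import Crest.Agent.R214.PhiTab
import Crest.Agent.R214.Box

/-! ROW 214: soundness of the Z certificate (helper10).

Box `R = (pl, ph, lo, hi, vl, vh)` (unit `10⁻⁴`): `φ ∈ [pl, ph]`, `b0 ∈ [lo, hi]`, `V ∈ [vl, vh]`. -/

set_option autoImplicit false
open MeasureTheory Set Filter Topology intervalIntegral

namespace Crest.Agent.R214
namespace ZS

/-- pointwise certificate -/
def OKg (g q W : ℝ) : Prop := 0 ≤ q ∧ q ≤ 1 ∧ 0 ≤ W ∧ (max g 0) ^ 2 ≤ (1 - q ^ 2) * W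

lemma OKg.interp {g1 g2 q r W1 W2 t gm Wm : ℝ} (hx : OKg g1 q W1) (hy : OKg g2 r W2)
    (ht : 0 ≤ t) (ht1 : t ≤ 1) (hg : gm ≤ (1 - t) * g1 + t * g2)
    (hW : (1 - t) * W1 + t * W2 ≤ Wm) : OKg gm ((1 - t) * q + t * r) Wm := by
  obtain ⟨h0, h1, h2, h3⟩ := hx
  obtain ⟨k0, k1, k2, k3⟩ := hy
  have h6 : 0 ≤ 1 - t := by linarith
  have hw0 : 0 ≤ (1 - t) * W1 + t * W2 := by positivity
  refine ⟨by positivity, by nlinarith, hw0.trans hW, ?_⟩
  have e1 : 0 ≤ 1 - q ^ 2 := by nlinarith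
  have e2 : 0 ≤ 1 - r ^ 2 := by nlinarith
  have h7 := cs_aux e1 e2 h2 k2 ht ht1 h3 k3
  have h8 : max gm 0 ≤ (1 - t) * max g1 0 + t * max g2 0 := by
    apply max_le
    · have a1 := le_max_left g1 0
      have a2 := le_max_left g2 0
      nlinarith [mul_le_mul_of_nonneg_left a1 h6, mul_le_mul_of_nonneg_left a2 ht]
    · have a1 := le_max_right g1 0
      have a2 := le_max_right g2 0
      positivity
  have h9 : (max gm 0) ^ 2 ≤ ((1 - t) * max g1 0 + t * max g2 0) ^ 2 :=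
    pow_le_pow_left₀ (le_max_right _ _) h8 2
  have h10 : (1 - t) * (1 - q ^ 2) + t * (1 - r ^ 2) ≤ 1 - ((1 - t) * q + t * r) ^ 2 := by
    nlinarith [mul_nonneg (mul_nonneg h6 ht) (sq_nonneg (q - r))]
  have h11 : 0 ≤ (1 - t) * (1 - q ^ 2) + t * (1 - r ^ 2) := by positivity
  calc _ ≤ _ := h9
    _ ≤ _ := h7
    _ ≤ (1 - ((1 - t) * q + t * r) ^ 2) * ((1 - t) * W1 + t * W2) :=
        mul_le_mul_of_nonneg_right h10 hw0
    _ ≤ _ := mul_le_mul_of_nonneg_left hW (h11.trans h10)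

lemma OKg.le {g q W J : ℝ} (h : OKg g q W) (hJ : 0 ≤ J) (hW : W ≤ J ^ 2) :
    g ≤ Real.sqrt (1 - q ^ 2) * J := by
  obtain ⟨h0, h1, h2, h3⟩ := h
  have e1 : 0 ≤ 1 - q ^ 2 := by nlinarith
  have h4 : (max g 0) ^ 2 ≤ (Real.sqrt (1 - q ^ 2) * J) ^ 2 := by
    rw [mul_pow, Real.sq_sqrt e1]
    exact h3.trans (mul_le_mul_of_nonneg_left hW e1)
  exact (le_max_left g 0).trans (abs_le_of_sq_le_sq' h4 (by positivity)).2

lemma okg_of {G Wn Q W : ℝ} (hQ0 : 0 ≤ Q) (hQ1 : Q ≤ 10 ^ 4) (hW0 : 0 ≤ Wn)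
    (hW : Wn / 10 ^ 10 ≤ W) (hG : G ≤ 0 ∨ G ^ 2 * 100 ≤ (10 ^ 8 - Q ^ 2) * Wn) :
    OKg (G / 10 ^ 8) (Q / 10 ^ 4) W := by
  have hW1 : 0 ≤ W := le_trans (by positivity) hW
  have hq1 : Q / 10 ^ 4 ≤ 1 := by rw [div_le_one (by norm_num)]; exact hQ1
  have hq0 : 0 ≤ Q / 10 ^ 4 := by positivity
  have e1 : 0 ≤ 1 - (Q / 10 ^ 4) ^ 2 := by nlinarith
  refine ⟨hq0, hq1, hW1, ?_⟩
  rcases hG with h | h
  · rw [max_eq_right (by apply div_nonpos_of_nonpos_of_nonneg h (by norm_num))]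
    have : 0 ≤ (1 - (Q / 10 ^ 4) ^ 2) * W := mul_nonneg e1 hW1
    simpa using this
  · have h1 : (max (G / 10 ^ 8) 0) ^ 2 ≤ (G / 10 ^ 8) ^ 2 := by
      rcases le_total (G / 10 ^ 8) 0 with h2 | h2
      · rw [max_eq_right h2]
        have := sq_nonneg (G / 10 ^ 8)
        simpa using this
      · rw [max_eq_left h2]
    have h2 : (G / 10 ^ 8) ^ 2 ≤ (1 - (Q / 10 ^ 4) ^ 2) * (Wn / 10 ^ 10) := by
      have e2 : (1 - (Q / 10 ^ 4) ^ 2) * (Wn / 10 ^ 10) = (10 ^ 8 - Q ^ 2) * Wn / 10 ^ 18 := by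
        ring
      have e3 : (G / 10 ^ 8) ^ 2 = G ^ 2 * 100 / 10 ^ 18 := by ring
      rw [e2, e3]
      exact div_le_div_of_nonneg_right h (by norm_num)
    exact h1.trans (h2.trans (mul_le_mul_of_nonneg_left hW e1))

/-- node; the parameters concern the segment which starts at this node -/
structure Sg where
  X : ℤ
  Q : ℤ
  k1 : ℕ
  Qs : ℤ
  k : ℕ
  Vs : ℤ

/-- lower bound of `J²` on `U` -/
noncomputable def W1r (e : ℝ) (s : Sg) (a : ℝ) : ℝ :=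
  if s.k1 = 0 then Real.pi * (1 - a)
  else 2 * ((s.Qs : ℝ) / 10 ^ 4) * ((1 - a) / e + Real.pi * e / 4) - ((s.Qs : ℝ) / 10 ^ 4) ^ 2

/-- lower bound of `J²` off `U` -/
noncomputable def W2r (p : ℝ) (s : Sg) (a : ℝ) : ℝ :=
  min (Real.pi * a) (2 * ((s.Vs : ℝ) / 10 ^ 4) * ((s.k : ℝ) / 20 * (a - p) +
    ((phiT s.k : ℤ) : ℝ) / 10 ^ 6) - ((s.Vs : ℝ) / 10 ^ 4) ^ 2)

lemma W1r_affine (e : ℝ) (s : Sg) (x y t : ℝ) :
    (1 - t) * W1r e s x + t * W1r e s y = W1r e s ((1 - t) * x + t * y) := by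
  unfold W1r
  split_ifs
  · ring
  · ring

lemma W2r_concave (p : ℝ) (s : Sg) {x y t : ℝ} (ht : 0 ≤ t) (ht1 : t ≤ 1) :
    (1 - t) * W2r p s x + t * W2r p s y ≤ W2r p s ((1 - t) * x + t * y) := by
  have h1 : 0 ≤ 1 - t := by linarith
  unfold W2r
  refine le_min ?_ ?_
  · have a1 := mul_le_mul_of_nonneg_left (min_le_left (Real.pi * x)
      (2 * ((s.Vs : ℝ) / 10 ^ 4) * ((s.k : ℝ) / 20 * (x - p) +
        ((phiT s.k : ℤ) : ℝ) / 10 ^ 6) - ((s.Vs : ℝ) / 10 ^ 4) ^ 2)) h1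
    have a2 := mul_le_mul_of_nonneg_left (min_le_left (Real.pi * y)
      (2 * ((s.Vs : ℝ) / 10 ^ 4) * ((s.k : ℝ) / 20 * (y - p) +
        ((phiT s.k : ℤ) : ℝ) / 10 ^ 6) - ((s.Vs : ℝ) / 10 ^ 4) ^ 2)) ht
    refine (add_le_add a1 a2).trans (le_of_eq ?_)
    ring
  · have a1 := mul_le_mul_of_nonneg_left (min_le_right (Real.pi * x)
      (2 * ((s.Vs : ℝ) / 10 ^ 4) * ((s.k : ℝ) / 20 * (x - p) +
        ((phiT s.k : ℤ) : ℝ) / 10 ^ 6) - ((s.Vs : ℝ) / 10 ^ 4) ^ 2)) h1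
    have a2 := mul_le_mul_of_nonneg_left (min_le_right (Real.pi * y)
      (2 * ((s.Vs : ℝ) / 10 ^ 4) * ((s.k : ℝ) / 20 * (y - p) +
        ((phiT s.k : ℤ) : ℝ) / 10 ^ 6) - ((s.Vs : ℝ) / 10 ^ 4) ^ 2)) ht
    refine (add_le_add a1 a2).trans (le_of_eq ?_)
    ring

/-- side condition of `W1r` on `[.., x]` -/
def side (e : ℝ) (s : Sg) (x : ℝ) : Prop :=
  s.k1 = 0 ∨ (0 < e ∧ 0 ≤ s.Qs ∧ (Real.pi * e ^ 2 ≤ 4 * (1 - x) ∨
    Real.pi * e / 2 ≤ (s.Qs : ℝ) / 10 ^ 4))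

lemma W1r_le {e φ a J x : ℝ} {s : Sg} (hs : side e s x) (hax : a ≤ x) (ha0 : 0 ≤ a) (ha1 : a ≤ 1)
    (he : 1 - φ ≤ e) (hJ : WrapAlt (1 - φ) a J) : W1r e s a ≤ J ^ 2 := by
  have hpi := Real.pi_pos
  obtain ⟨L, hL0, hL1, hL⟩ := hJ
  have hH : 0 ≤ 1 - a := by linarith
  have hLe : L ≤ e := hL1.trans he
  have hJ1 := amgm_disc hL0 hH hL
  have hJ0 : 0 ≤ J := (Real.sqrt_nonneg _).trans hJ1
  have hJ2 : Real.pi * (1 - a) ≤ J ^ 2 := by
    have := pow_le_pow_left₀ (Real.sqrt_nonneg _) hJ1 2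
    rwa [Real.sq_sqrt (by positivity)] at this
  unfold W1r
  split_ifs with hk
  · exact hJ2
  · rcases hs with hs | ⟨he0, hQ0, hs⟩
    · exact absurd hs hk
    have hQ : (0:ℝ) ≤ (s.Qs : ℝ) / 10 ^ 4 := by
      have : (0:ℝ) ≤ s.Qs := by exact_mod_cast hQ0
      positivity
    set q : ℝ := (s.Qs : ℝ) / 10 ^ 4 with hq
    by_cases hc : Real.pi * e ^ 2 ≤ 4 * (1 - a)
    · -- monotonicity in `L`
      have h1 : (1 - a) / e + Real.pi * e / 4 ≤ (1 - a) / L + Real.pi * L / 4 := by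
        rw [← sub_nonneg]
        have e1 : (1 - a) / L + Real.pi * L / 4 - ((1 - a) / e + Real.pi * e / 4) =
            (e - L) * (4 * (1 - a) - Real.pi * e * L) / (4 * L * e) := by
          field_simp; ring
        rw [e1]
        apply div_nonneg (mul_nonneg (by linarith) ?_) (by positivity)
        have : Real.pi * e * L ≤ Real.pi * e * e :=
          mul_le_mul_of_nonneg_left hLe (by positivity)
        nlinarith
      have h2 := h1.trans hL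
      nlinarith [sq_nonneg (J - q)]
    · push Not at hc
      have hs2 : Real.pi * e / 2 ≤ q := by
        rcases hs with hs | hs
        · exfalso; nlinarith
        · exact hs
      -- `(q - 2 H / e) (q - π e / 2) ≥ 0`
      have h3 : 2 * (1 - a) / e ≤ Real.pi * e / 2 := by
        rw [div_le_iff₀ he0]; nlinarith
      have h4 : 0 ≤ (q - 2 * (1 - a) / e) * (q - Real.pi * e / 2) :=
        mul_nonneg (by linarith) (by linarith)
      have h5 : (q - 2 * (1 - a) / e) * (q - Real.pi * e / 2) =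
          q ^ 2 - 2 * q * ((1 - a) / e + Real.pi * e / 4) + Real.pi * (1 - a) := by
        field_simp; ring
      linarith

lemma W2r_le {p φ a J : ℝ} {s : Sg} (hk : s.k ≤ 20) (hV : 0 ≤ s.Vs) (ha0 : 0 ≤ a) (hJ0 : 0 ≤ J)
    (hp : φ ≤ p) (hJ : NeckAlt φ a J) : W2r p s a ≤ J ^ 2 := by
  have hpi := Real.pi_pos
  unfold W2r
  rcases hJ with h | h
  · refine (min_le_left _ _).trans ?_
    have := pow_le_pow_left₀ (Real.sqrt_nonneg _) h 2
    rwa [Real.sq_sqrt (by positivity)] at this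
  · refine (min_le_right _ _).trans ?_
    have hv : (0:ℝ) ≤ (s.Vs : ℝ) / 10 ^ 4 := by
      have : (0:ℝ) ≤ s.Vs := by exact_mod_cast hV
      positivity
    have hk' : (s.k : ℝ) ≤ 20 := by exact_mod_cast hk
    have hs0 : (0:ℝ) ≤ (s.k : ℝ) / 20 := by positivity
    have h1 := h ((s.k : ℝ) / 20) hs0 (by rw [div_le_one (by norm_num)]; exact hk')
    have h2 := phiT_le s.k hk
    have h3 : (s.k : ℝ) / 20 * (a - p) ≤ (s.k : ℝ) / 20 * (a - φ) :=
      mul_le_mul_of_nonneg_left (by linarith) hs0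
    have h4 : (s.k : ℝ) / 20 * (a - p) + ((phiT s.k : ℤ) : ℝ) / 10 ^ 6 ≤ J := by linarith
    set v : ℝ := (s.Vs : ℝ) / 10 ^ 4
    nlinarith [sq_nonneg (J - v), mul_le_mul_of_nonneg_left h4 (by linarith : 0 ≤ 2 * v)]

/-! ### integer checks -/

def Wn1 (E : ℤ) (s : Sg) (X : ℤ) : ℤ :=
  40000000000 * s.Qs * (10000 - X) + 3141592 * s.Qs * E ^ 2 - 2000000 * s.Qs ^ 2 * E

def Wn2 (PH : ℤ) (s : Sg) (X : ℤ) : ℤ :=
  min (3141592 * X) (2 * s.Vs * (5 * s.k * (X - PH) + phiT s.k) - 100 * s.Vs ^ 2)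

/-- check on `U` at the abscissa `X` with value `Q`, parameters of `s` -/
def n1 (E B T : ℤ) (s : Sg) (X Q : ℤ) : Bool :=
  if s.k1 = 0 then
    decide (B * 10000 + T * X ≤ 0) ||
      decide ((B * 10000 + T * X) ^ 2 * 100 ≤ (100000000 - Q ^ 2) * (3141592 * (10000 - X)))
  else
    decide (0 < E) && (decide (0 ≤ s.Qs) && (decide (0 ≤ Wn1 E s X) &&
      (decide (B * 10000 + T * X ≤ 0) ||
        decide ((B * 10000 + T * X) ^ 2 * (2000000 * E) ≤ (100000000 - Q ^ 2) * Wn1 E s X))))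

/-- check off `U` -/
def n2 (PH B T : ℤ) (s : Sg) (X Q : ℤ) : Bool :=
  decide (0 ≤ Wn2 PH s X) && (decide (B * 10000 + T * X ≤ 0) ||
    decide ((B * 10000 + T * X) ^ 2 * 100 ≤ (100000000 - Q ^ 2) * Wn2 PH s X))

def sideB (E : ℤ) (s : Sg) (X : ℤ) : Bool :=
  decide (s.k1 = 0) || (decide (0 < E) && (decide (0 ≤ s.Qs) &&
    (decide (3141593 * E ^ 2 ≤ 40000000000 * (10000 - X)) ||
      decide (3141593 * E ≤ 2000000 * s.Qs))))

def nQ (X Q : ℤ) : Bool :=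
  decide (0 ≤ Q) && (decide (Q ≤ 10000) && (decide (0 ≤ X) && decide (X ≤ 10000)))

lemma n1_sound {E B T : ℤ} {s : Sg} {X Q : ℤ} (hq : nQ X Q = true) (h : n1 E B T s X Q = true) :
    OKg ((B : ℝ) / 10 ^ 4 + (T : ℝ) / 10 ^ 4 * ((X : ℝ) / 10 ^ 4)) ((Q : ℝ) / 10 ^ 4)
      (W1r ((E : ℝ) / 10 ^ 4) s ((X : ℝ) / 10 ^ 4)) := by
  simp only [nQ, Bool.and_eq_true, decide_eq_true_eq] at hq
  obtain ⟨q1, q2, q3, q4⟩ := hq
  have q1' : (0:ℝ) ≤ Q := by exact_mod_cast q1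
  have q2' : (Q : ℝ) ≤ 10 ^ 4 := by norm_num; exact_mod_cast q2
  have q4' : (X : ℝ) ≤ 10000 := by exact_mod_cast q4
  have hpi := Real.pi_gt_d6
  have eg : (B : ℝ) / 10 ^ 4 + (T : ℝ) / 10 ^ 4 * ((X : ℝ) / 10 ^ 4) =
      ((B : ℝ) * 10000 + T * X) / 10 ^ 8 := by ring
  rw [eg]
  unfold n1 at h
  split_ifs at h with hk
  · simp only [Bool.or_eq_true, decide_eq_true_eq] at h
    refine okg_of (Wn := 3141592 * (10000 - (X:ℝ))) q1' q2' (by nlinarith) ?_ ?_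
    · unfold W1r
      rw [if_pos hk]
      have : (3141592:ℝ) / 10 ^ 6 * (1 - (X:ℝ) / 10 ^ 4) ≤ Real.pi * (1 - (X:ℝ) / 10 ^ 4) := by
        apply mul_le_mul_of_nonneg_right (by norm_num at hpi ⊢; linarith)
        rw [sub_nonneg, div_le_one (by norm_num)]; norm_num; exact q4'
      refine le_trans (le_of_eq ?_) this
      ring
    · rcases h with h | h
      · left; exact_mod_cast h
      · right
        have h' : ((B : ℝ) * 10000 + T * X) ^ 2 * 100 ≤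
          (100000000 - (Q:ℝ) ^ 2) * (3141592 * (10000 - X)) := by exact_mod_cast h
        norm_num at h' ⊢
        exact h'
  · simp only [Bool.and_eq_true, Bool.or_eq_true, decide_eq_true_eq] at h
    obtain ⟨h1, h2, h3, h4⟩ := h
    have hE : (0:ℝ) < E := by exact_mod_cast h1
    have hQs : (0:ℝ) ≤ s.Qs := by exact_mod_cast h2
    have h3' : (0:ℝ) ≤ (Wn1 E s X : ℤ) := by exact_mod_cast h3
    refine okg_of (Wn := ((Wn1 E s X : ℤ) : ℝ) / (20000 * E)) q1' q2' (by positivity) ?_ ?_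
    · unfold W1r
      rw [if_neg hk]
      have e1 : ((Wn1 E s X : ℤ) : ℝ) / (20000 * E) / 10 ^ 10 =
          2 * ((s.Qs : ℝ) / 10 ^ 4) * ((1 - (X : ℝ) / 10 ^ 4) / ((E : ℝ) / 10 ^ 4) +
            (3141592 / 10 ^ 6) * ((E : ℝ) / 10 ^ 4) / 4) - ((s.Qs : ℝ) / 10 ^ 4) ^ 2 := by
        unfold Wn1
        push_cast
        field_simp
        ring
      rw [e1]
      have h5 : (3141592:ℝ) / 10 ^ 6 ≤ Real.pi := by norm_num at hpi ⊢; linarith
      have h6 : (3141592:ℝ) / 10 ^ 6 * ((E : ℝ) / 10 ^ 4) ≤ Real.pi * ((E : ℝ) / 10 ^ 4) :=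
        mul_le_mul_of_nonneg_right h5 (by positivity)
      have h7 : 0 ≤ 2 * ((s.Qs : ℝ) / 10 ^ 4) := by positivity
      have h8 := mul_le_mul_of_nonneg_left (show (1 - (X : ℝ) / 10 ^ 4) / ((E : ℝ) / 10 ^ 4) +
            (3141592 / 10 ^ 6) * ((E : ℝ) / 10 ^ 4) / 4 ≤ (1 - (X : ℝ) / 10 ^ 4) / ((E : ℝ) / 10 ^ 4) +
            Real.pi * ((E : ℝ) / 10 ^ 4) / 4 by linarith) h7
      linarith
    · rcases h4 with h4 | h4
      · left; exact_mod_cast h4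
      · right
        have h' : ((B : ℝ) * 10000 + T * X) ^ 2 * (2000000 * E) ≤
          (100000000 - (Q:ℝ) ^ 2) * ((Wn1 E s X : ℤ) : ℝ) := by exact_mod_cast h4
        rw [← mul_div_assoc, le_div_iff₀ (by positivity)]
        norm_num at h' ⊢
        nlinarith

lemma n2_sound {PH B T : ℤ} {s : Sg} {X Q : ℤ} (hq : nQ X Q = true)
    (h : n2 PH B T s X Q = true) :
    OKg ((B : ℝ) / 10 ^ 4 + (T : ℝ) / 10 ^ 4 * ((X : ℝ) / 10 ^ 4)) ((Q : ℝ) / 10 ^ 4)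
      (W2r ((PH : ℝ) / 10 ^ 4) s ((X : ℝ) / 10 ^ 4)) := by
  simp only [nQ, Bool.and_eq_true, decide_eq_true_eq] at hq
  obtain ⟨q1, q2, q3, q4⟩ := hq
  have q1' : (0:ℝ) ≤ Q := by exact_mod_cast q1
  have q2' : (Q : ℝ) ≤ 10 ^ 4 := by norm_num; exact_mod_cast q2
  have q3' : (0 : ℝ) ≤ X := by exact_mod_cast q3
  have hpi := Real.pi_gt_d6
  have eg : (B : ℝ) / 10 ^ 4 + (T : ℝ) / 10 ^ 4 * ((X : ℝ) / 10 ^ 4) =
      ((B : ℝ) * 10000 + T * X) / 10 ^ 8 := by ring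
  rw [eg]
  simp only [n2, Bool.and_eq_true, Bool.or_eq_true, decide_eq_true_eq] at h
  obtain ⟨h3, h4⟩ := h
  have h3' : (0:ℝ) ≤ (Wn2 PH s X : ℤ) := by exact_mod_cast h3
  refine okg_of (Wn := ((Wn2 PH s X : ℤ) : ℝ)) q1' q2' h3' ?_ ?_
  · unfold W2r
    refine le_min ?_ ?_
    · have h5 : ((Wn2 PH s X : ℤ) : ℝ) ≤ 3141592 * X := by
        have : Wn2 PH s X ≤ 3141592 * X := min_le_left _ _
        exact_mod_cast this
      have h6 : (3141592:ℝ) / 10 ^ 6 * ((X:ℝ) / 10 ^ 4) ≤ Real.pi * ((X:ℝ) / 10 ^ 4) :=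
        mul_le_mul_of_nonneg_right (by norm_num at hpi ⊢; linarith) (by positivity)
      refine le_trans ?_ h6
      have e1 : (3141592:ℝ) / 10 ^ 6 * ((X:ℝ) / 10 ^ 4) = 3141592 * X / 10 ^ 10 := by ring
      rw [e1]
      exact div_le_div_of_nonneg_right h5 (by norm_num)
    · have h5 : ((Wn2 PH s X : ℤ) : ℝ) ≤
          2 * s.Vs * (5 * s.k * (X - PH) + ((phiT s.k : ℤ) : ℝ)) - 100 * (s.Vs : ℝ) ^ 2 := by
        have : Wn2 PH s X ≤ 2 * s.Vs * (5 * s.k * (X - PH) + phiT s.k) - 100 * s.Vs ^ 2 :=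
          min_le_right _ _
        exact_mod_cast this
      have e1 : 2 * ((s.Vs : ℝ) / 10 ^ 4) * ((s.k : ℝ) / 20 * ((X:ℝ) / 10 ^ 4 - (PH : ℝ) / 10 ^ 4) +
          ((phiT s.k : ℤ) : ℝ) / 10 ^ 6) - ((s.Vs : ℝ) / 10 ^ 4) ^ 2 =
          (2 * s.Vs * (5 * s.k * (X - PH) + ((phiT s.k : ℤ) : ℝ)) - 100 * (s.Vs : ℝ) ^ 2) /
            10 ^ 10 := by ring
      rw [e1]
      exact div_le_div_of_nonneg_right h5 (by norm_num)
  · rcases h4 with h4 | h4
    · left; exact_mod_cast h4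
    · right
      have h' : ((B : ℝ) * 10000 + T * X) ^ 2 * 100 ≤
        (100000000 - (Q:ℝ) ^ 2) * ((Wn2 PH s X : ℤ) : ℝ) := by exact_mod_cast h4
      norm_num at h' ⊢
      exact h'

lemma sideB_sound {E : ℤ} {s : Sg} {X : ℤ} (h : sideB E s X = true) :
    side ((E : ℝ) / 10 ^ 4) s ((X : ℝ) / 10 ^ 4) := by
  simp only [sideB, Bool.and_eq_true, Bool.or_eq_true, decide_eq_true_eq] at h
  have hpi := Real.pi_lt_d6
  have h5 : Real.pi ≤ (3141593:ℝ) / 10 ^ 6 := by norm_num at hpi ⊢; linarith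
  rcases h with h | ⟨h1, h2, h3⟩
  · exact Or.inl h
  · right
    have hE : (0:ℝ) < E := by exact_mod_cast h1
    refine ⟨by positivity, h2, ?_⟩
    rcases h3 with h3 | h3
    · left
      have h3' : 3141593 * (E:ℝ) ^ 2 ≤ 40000000000 * (10000 - X) := by exact_mod_cast h3
      have h6 : Real.pi * ((E:ℝ) / 10 ^ 4) ^ 2 ≤ (3141593:ℝ) / 10 ^ 6 * ((E:ℝ) / 10 ^ 4) ^ 2 :=
        mul_le_mul_of_nonneg_right h5 (by positivity)
      refine h6.trans ?_
      have e1 : (3141593:ℝ) / 10 ^ 6 * ((E:ℝ) / 10 ^ 4) ^ 2 = 3141593 * (E:ℝ) ^ 2 / 10 ^ 14 := by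
        ring
      have e2 : 4 * (1 - (X:ℝ) / 10 ^ 4) = 40000000000 * (10000 - X) / 10 ^ 14 := by ring
      rw [e1, e2]
      exact div_le_div_of_nonneg_right h3' (by norm_num)
    · right
      have h3' : 3141593 * (E:ℝ) ≤ 2000000 * s.Qs := by exact_mod_cast h3
      have h6 : Real.pi * ((E:ℝ) / 10 ^ 4) ≤ (3141593:ℝ) / 10 ^ 6 * ((E:ℝ) / 10 ^ 4) :=
        mul_le_mul_of_nonneg_right h5 (by positivity)
      have e1 : (3141593:ℝ) / 10 ^ 6 * ((E:ℝ) / 10 ^ 4) = 3141593 * (E:ℝ) / 10 ^ 10 := by ring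
      have e2 : 2 * ((s.Qs:ℝ) / 10 ^ 4) = 2000000 * s.Qs / 10 ^ 10 := by ring
      have h7 : 3141593 * (E:ℝ) / 10 ^ 10 ≤ 2000000 * s.Qs / 10 ^ 10 :=
        div_le_div_of_nonneg_right h3' (by norm_num)
      rw [← e1, ← e2] at h7
      linarith

/-- linear interpolation between two nodes -/
noncomputable def lin (s s' : Sg) (a : ℝ) : ℝ :=
  (s.Q : ℝ) / 10 ^ 4 + ((s'.Q : ℝ) / 10 ^ 4 - (s.Q : ℝ) / 10 ^ 4) /
    ((s'.X : ℝ) / 10 ^ 4 - (s.X : ℝ) / 10 ^ 4) * (a - (s.X : ℝ) / 10 ^ 4)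

/-- piecewise linear function -/
noncomputable def qf : List Sg → ℝ → ℝ
  | [], _ => 0
  | [s], _ => (s.Q : ℝ) / 10 ^ 4
  | s :: s' :: l, a => if a ≤ (s'.X : ℝ) / 10 ^ 4 then lin s s' a else qf (s' :: l) a

/-- check of the polyline -/
def chkZ (E PH B1 B2 T : ℤ) : List Sg → Bool
  | [] => false
  | [s] => nQ s.X s.Q
  | s :: s' :: l => nQ s.X s.Q && (nQ s'.X s'.Q && (decide (s.X < s'.X) &&
      (decide (s.k ≤ 20) && (decide (0 ≤ s.Vs) && (sideB E s s'.X &&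
      (n1 E B1 T s s.X s.Q && (n1 E B1 T s s'.X s'.Q && (n2 PH B2 T s s.X s.Q &&
      (n2 PH B2 T s s'.X s'.Q && chkZ E PH B1 B2 T (s' :: l))))))))))

/-- last abscissa -/
def lastX : List Sg → ℤ
  | [] => 0
  | [s] => s.X
  | _ :: s' :: l => lastX (s' :: l)

/-- trapezoid sum of the segments which end before `lo` -/
def trapTo (lo : ℤ) : List Sg → ℤ
  | [] => 0
  | [_] => 0
  | s :: s' :: l => if s'.X ≤ lo then (s'.X - s.X) * (s.Q + s'.Q) + trapTo lo (s' :: l) else 0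

section poly

variable {E PH B1 B2 T : ℤ}

lemma chkZ_head {s : Sg} {l : List Sg} (h : chkZ E PH B1 B2 T (s :: l) = true) :
    nQ s.X s.Q = true := by
  cases l with
  | nil => exact h
  | cons s' l =>
    simp only [chkZ, Bool.and_eq_true] at h
    exact h.1

lemma qf_head : ∀ (l : List Sg) (s : Sg), chkZ E PH B1 B2 T (s :: l) = true →
    qf (s :: l) ((s.X : ℝ) / 10 ^ 4) = (s.Q : ℝ) / 10 ^ 4 := by
  intro l s h
  cases l with
  | nil => rfl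
  | cons s' l =>
    simp only [chkZ, Bool.and_eq_true, decide_eq_true_eq] at h
    have h1 : (s.X : ℝ) < s'.X := by exact_mod_cast h.2.2.1
    show (if (s.X : ℝ) / 10 ^ 4 ≤ (s'.X : ℝ) / 10 ^ 4 then lin s s' ((s.X : ℝ) / 10 ^ 4)
      else qf (s' :: l) ((s.X : ℝ) / 10 ^ 4)) = _
    rw [if_pos (by exact div_le_div_of_nonneg_right h1.le (by norm_num))]
    unfold lin
    simp

lemma lin_right {s s' : Sg} (h : s.X < s'.X) : lin s s' ((s'.X : ℝ) / 10 ^ 4) = (s'.Q : ℝ) / 10 ^ 4 := by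
  have h1 : (s.X : ℝ) < s'.X := by exact_mod_cast h
  have h2 : (s'.X : ℝ) / 10 ^ 4 - (s.X : ℝ) / 10 ^ 4 ≠ 0 := by
    have : (s.X : ℝ) / 10 ^ 4 < (s'.X : ℝ) / 10 ^ 4 := div_lt_div_of_pos_right h1 (by norm_num)
    linarith
  unfold lin
  rw [div_mul_cancel₀ _ h2]
  ring

lemma qf_cont : ∀ (l : List Sg) (s : Sg), chkZ E PH B1 B2 T (s :: l) = true →
    Continuous (qf (s :: l)) := by
  intro l
  induction l with
  | nil => intro s _; exact continuous_const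
  | cons s' l ih =>
    intro s h
    have h0 := h
    simp only [chkZ, Bool.and_eq_true, decide_eq_true_eq] at h
    have hlt := h.2.2.1
    have hrest := h.2.2.2.2.2.2.2.2.2.2
    have hc := ih s' hrest
    have hl : Continuous (lin s s') := by unfold lin; fun_prop
    show Continuous fun a => if a ≤ (s'.X : ℝ) / 10 ^ 4 then lin s s' a else qf (s' :: l) a
    refine Continuous.if_le hl hc continuous_id continuous_const fun x hx => ?_
    rw [show x = (s'.X : ℝ) / 10 ^ 4 from hx, lin_right hlt, qf_head l s' hrest]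

/-- the certificate at every point -/
lemma qf_ok {φ : ℝ} (hE : 1 - φ ≤ (E : ℝ) / 10 ^ 4) (hPH : φ ≤ (PH : ℝ) / 10 ^ 4) :
    ∀ (l : List Sg) (s : Sg), chkZ E PH B1 B2 T (s :: l) = true →
      ∀ a : ℝ, (s.X : ℝ) / 10 ^ 4 ≤ a → a ≤ (lastX (s :: l) : ℝ) / 10 ^ 4 →
        s.X < lastX (s :: l) →
        0 ≤ qf (s :: l) a ∧ qf (s :: l) a ≤ 1 ∧
        (∀ J : ℝ, 0 ≤ J → WrapAlt (1 - φ) a J → (B1 : ℝ) / 10 ^ 4 + (T : ℝ) / 10 ^ 4 * a ≤
          Real.sqrt (1 - qf (s :: l) a ^ 2) * J) ∧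
        (∀ J : ℝ, 0 ≤ J → NeckAlt φ a J → (B2 : ℝ) / 10 ^ 4 + (T : ℝ) / 10 ^ 4 * a ≤
          Real.sqrt (1 - qf (s :: l) a ^ 2) * J) := by
  intro l
  induction l with
  | nil => intro s _ a _ _ h3; exact absurd h3 (lt_irrefl _)
  | cons s' l ih =>
    intro s h a h1 h2 _
    simp only [chkZ, Bool.and_eq_true, decide_eq_true_eq] at h
    obtain ⟨c1, c2, c3, c4, c5, c6, c7, c8, c9, c10, c11⟩ := h
    by_cases ha : a ≤ (s'.X : ℝ) / 10 ^ 4
    · have e0 : qf (s :: s' :: l) a = lin s s' a := by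
        show (if a ≤ (s'.X : ℝ) / 10 ^ 4 then lin s s' a else qf (s' :: l) a) = _
        rw [if_pos ha]
      have hlt : (s.X : ℝ) / 10 ^ 4 < (s'.X : ℝ) / 10 ^ 4 := by
        have : (s.X : ℝ) < s'.X := by exact_mod_cast c3
        exact div_lt_div_of_pos_right this (by norm_num)
      set x : ℝ := (s.X : ℝ) / 10 ^ 4 with hx
      set y : ℝ := (s'.X : ℝ) / 10 ^ 4 with hy
      have hd : 0 < y - x := by linarith
      set t : ℝ := (a - x) / (y - x) with ht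
      have ht0 : 0 ≤ t := div_nonneg (by linarith) hd.le
      have ht1 : t ≤ 1 := by rw [ht, div_le_one hd]; linarith
      have ea : (1 - t) * x + t * y = a := by rw [ht]; field_simp; ring
      have eq : lin s s' a = (1 - t) * ((s.Q : ℝ) / 10 ^ 4) + t * ((s'.Q : ℝ) / 10 ^ 4) := by
        unfold lin
        rw [← hx, ← hy, ht]
        field_simp
        ring
      have hc1 := c1
      have hc2 := c2
      simp only [nQ, Bool.and_eq_true, decide_eq_true_eq] at hc1 hc2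
      have hx0 : 0 ≤ x := by
        have : (0:ℝ) ≤ s.X := by exact_mod_cast hc1.2.2.1
        rw [hx]; positivity
      have hy1 : y ≤ 1 := by
        have : (s'.X : ℝ) ≤ 10000 := by exact_mod_cast hc2.2.2.2
        rw [hy, div_le_one (by norm_num)]; norm_num; exact this
      have ha0 : 0 ≤ a := hx0.trans h1
      have ha1 : a ≤ 1 := ha.trans hy1
      have o1 := (n1_sound c1 c7).interp (n1_sound c2 c8) ht0 ht1
        (gm := (B1 : ℝ) / 10 ^ 4 + (T : ℝ) / 10 ^ 4 * a) (Wm := W1r ((E : ℝ) / 10 ^ 4) s a)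
        (by rw [← ea]; apply le_of_eq; ring)
        (by rw [W1r_affine, ea])
      have o2 := (n2_sound c1 c9).interp (n2_sound c2 c10) ht0 ht1
        (gm := (B2 : ℝ) / 10 ^ 4 + (T : ℝ) / 10 ^ 4 * a) (Wm := W2r ((PH : ℝ) / 10 ^ 4) s a)
        (by rw [← ea]; apply le_of_eq; ring)
        (by
          have := W2r_concave ((PH : ℝ) / 10 ^ 4) s (x := x) (y := y) ht0 ht1
          rw [ea] at this
          exact this)
      rw [e0, eq]
      refine ⟨o1.1, o1.2.1, fun J hJ hw => ?_, fun J hJ hn => ?_⟩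
      · exact o1.le hJ (W1r_le (sideB_sound c6) ha ha0 ha1 hE hw)
      · exact o2.le hJ (W2r_le c4 c5 ha0 hJ hPH hn)
    · push Not at ha
      have e0 : qf (s :: s' :: l) a = qf (s' :: l) a := by
        show (if a ≤ (s'.X : ℝ) / 10 ^ 4 then lin s s' a else qf (s' :: l) a) = _
        rw [if_neg (not_le.2 ha)]
      rw [e0]
      have hl : lastX (s :: s' :: l) = lastX (s' :: l) := rfl
      rw [hl] at h2
      refine ih s' c11 a ha.le h2 ?_
      have h3 : (s'.X : ℝ) / 10 ^ 4 < (lastX (s' :: l) : ℝ) / 10 ^ 4 := lt_of_lt_of_le ha h2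
      have h4 : (s'.X : ℝ) < (lastX (s' :: l) : ℝ) := by
        rw [div_lt_div_iff_of_pos_right (by norm_num)] at h3
        exact h3
      exact_mod_cast h4

lemma qf_nonneg : ∀ (l : List Sg) (s : Sg), chkZ E PH B1 B2 T (s :: l) = true →
    ∀ a : ℝ, (s.X : ℝ) / 10 ^ 4 ≤ a → 0 ≤ qf (s :: l) a := by
  intro l
  induction l with
  | nil =>
    intro s h a _
    simp only [chkZ, nQ, Bool.and_eq_true, decide_eq_true_eq] at h
    have : (0:ℝ) ≤ s.Q := by exact_mod_cast h.1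
    show 0 ≤ (s.Q : ℝ) / 10 ^ 4
    positivity
  | cons s' l ih =>
    intro s h a h1
    have hc := h
    simp only [chkZ, Bool.and_eq_true, decide_eq_true_eq] at h
    obtain ⟨c1, c2, c3, -, -, -, -, -, -, -, c11⟩ := h
    by_cases ha : a ≤ (s'.X : ℝ) / 10 ^ 4
    · have e0 : qf (s :: s' :: l) a = lin s s' a := by
        show (if a ≤ (s'.X : ℝ) / 10 ^ 4 then lin s s' a else qf (s' :: l) a) = _
        rw [if_pos ha]
      simp only [nQ, Bool.and_eq_true, decide_eq_true_eq] at c1 c2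
      have q0 : (0:ℝ) ≤ s.Q := by exact_mod_cast c1.1
      have q1 : (0:ℝ) ≤ s'.Q := by exact_mod_cast c2.1
      have hlt : (s.X : ℝ) / 10 ^ 4 < (s'.X : ℝ) / 10 ^ 4 := by
        have : (s.X : ℝ) < s'.X := by exact_mod_cast c3
        exact div_lt_div_of_pos_right this (by norm_num)
      have hd : 0 < (s'.X : ℝ) / 10 ^ 4 - (s.X : ℝ) / 10 ^ 4 := by linarith
      have ht0 : 0 ≤ (a - (s.X : ℝ) / 10 ^ 4) / ((s'.X : ℝ) / 10 ^ 4 - (s.X : ℝ) / 10 ^ 4) :=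
        div_nonneg (by linarith) hd.le
      have ht1 : (a - (s.X : ℝ) / 10 ^ 4) / ((s'.X : ℝ) / 10 ^ 4 - (s.X : ℝ) / 10 ^ 4) ≤ 1 := by
        rw [div_le_one hd]; linarith
      rw [e0]
      unfold lin
      have e1 : (s.Q : ℝ) / 10 ^ 4 + ((s'.Q : ℝ) / 10 ^ 4 - (s.Q : ℝ) / 10 ^ 4) /
          ((s'.X : ℝ) / 10 ^ 4 - (s.X : ℝ) / 10 ^ 4) * (a - (s.X : ℝ) / 10 ^ 4) =
          (1 - (a - (s.X : ℝ) / 10 ^ 4) / ((s'.X : ℝ) / 10 ^ 4 - (s.X : ℝ) / 10 ^ 4)) *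
            ((s.Q : ℝ) / 10 ^ 4) +
          (a - (s.X : ℝ) / 10 ^ 4) / ((s'.X : ℝ) / 10 ^ 4 - (s.X : ℝ) / 10 ^ 4) *
            ((s'.Q : ℝ) / 10 ^ 4) := by
        field_simp
        ring
      rw [e1]
      have := sub_nonneg.2 ht1
      positivity
    · push Not at ha
      have e0 : qf (s :: s' :: l) a = qf (s' :: l) a := by
        show (if a ≤ (s'.X : ℝ) / 10 ^ 4 then lin s s' a else qf (s' :: l) a) = _
        rw [if_neg (not_le.2 ha)]
      rw [e0]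
      exact ih s' c11 a ha.le

lemma lin_integral {s s' : Sg} (h : s.X < s'.X) :
    ∫ a in ((s.X : ℝ) / 10 ^ 4)..((s'.X : ℝ) / 10 ^ 4), lin s s' a =
      (((s'.X - s.X) * (s.Q + s'.Q) : ℤ) : ℝ) / (2 * 10 ^ 8) := by
  have hlt : (s.X : ℝ) / 10 ^ 4 < (s'.X : ℝ) / 10 ^ 4 := by
    have : (s.X : ℝ) < s'.X := by exact_mod_cast h
    exact div_lt_div_of_pos_right this (by norm_num)
  set x : ℝ := (s.X : ℝ) / 10 ^ 4 with hx
  set y : ℝ := (s'.X : ℝ) / 10 ^ 4 with hy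
  have hd : 0 < y - x := by linarith
  have h1 : ∫ a in x..y, lin s s' a =
      (y - x) * ((s.Q : ℝ) / 10 ^ 4 + (s'.Q : ℝ) / 10 ^ 4) / 2 := by
    unfold lin
    rw [← hx, ← hy, intervalIntegral.integral_add (by simp) (by
      apply Continuous.intervalIntegrable; fun_prop)]
    rw [intervalIntegral.integral_const_mul]
    rw [intervalIntegral.integral_sub (by simp) (by simp)]
    simp only [intervalIntegral.integral_const, integral_id, smul_eq_mul]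
    field_simp
    ring
  rw [h1, hx, hy]
  push_cast
  ring

lemma qf_trap {lo : ℤ} {b0 : ℝ} (hlo : (lo : ℝ) / 10 ^ 4 ≤ b0) :
    ∀ (l : List Sg) (s : Sg), chkZ E PH B1 B2 T (s :: l) = true → s.X ≤ lo →
      (trapTo lo (s :: l) : ℝ) / (2 * 10 ^ 8) ≤ ∫ a in ((s.X : ℝ) / 10 ^ 4)..b0, qf (s :: l) a := by
  intro l
  induction l with
  | nil =>
    intro s h hs
    have hs' : (s.X : ℝ) / 10 ^ 4 ≤ b0 := by
      refine le_trans ?_ hlo
      exact div_le_div_of_nonneg_right (by exact_mod_cast hs) (by norm_num)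
    have : (trapTo lo [s] : ℝ) / (2 * 10 ^ 8) = 0 := by simp [trapTo]
    rw [this]
    exact intervalIntegral.integral_nonneg hs' fun a ha => qf_nonneg [] s h a ha.1
  | cons s' l ih =>
    intro s h hs
    have hc := h
    have hs' : (s.X : ℝ) / 10 ^ 4 ≤ b0 := by
      refine le_trans ?_ hlo
      exact div_le_div_of_nonneg_right (by exact_mod_cast hs) (by norm_num)
    simp only [chkZ, Bool.and_eq_true, decide_eq_true_eq] at h
    obtain ⟨c1, c2, c3, -, -, -, -, -, -, -, c11⟩ := h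
    by_cases h2 : s'.X ≤ lo
    · have e1 : trapTo lo (s :: s' :: l) = (s'.X - s.X) * (s.Q + s'.Q) + trapTo lo (s' :: l) := by
        show (if s'.X ≤ lo then (s'.X - s.X) * (s.Q + s'.Q) + trapTo lo (s' :: l) else 0) = _
        rw [if_pos h2]
      have h3 := ih s' c11 h2
      have hq := qf_cont (s' :: l) s hc
      have hlt : (s.X : ℝ) / 10 ^ 4 ≤ (s'.X : ℝ) / 10 ^ 4 := by
        have : (s.X : ℝ) < s'.X := by exact_mod_cast c3
        exact (div_lt_div_of_pos_right this (by norm_num)).le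
      have hle2 : (s'.X : ℝ) / 10 ^ 4 ≤ b0 := by
        refine le_trans ?_ hlo
        exact div_le_div_of_nonneg_right (by exact_mod_cast h2) (by norm_num)
      have e2 : (∫ a in ((s.X : ℝ) / 10 ^ 4)..((s'.X : ℝ) / 10 ^ 4), qf (s :: s' :: l) a) +
          ∫ a in ((s'.X : ℝ) / 10 ^ 4)..b0, qf (s :: s' :: l) a =
          ∫ a in ((s.X : ℝ) / 10 ^ 4)..b0, qf (s :: s' :: l) a :=
        integral_add_adjacent_intervals (hq.intervalIntegrable _ _) (hq.intervalIntegrable _ _)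
      have e3 : ∫ a in ((s.X : ℝ) / 10 ^ 4)..((s'.X : ℝ) / 10 ^ 4), qf (s :: s' :: l) a =
          ∫ a in ((s.X : ℝ) / 10 ^ 4)..((s'.X : ℝ) / 10 ^ 4), lin s s' a := by
        refine intervalIntegral.integral_congr fun a ha => ?_
        rw [uIcc_of_le hlt] at ha
        show (if a ≤ (s'.X : ℝ) / 10 ^ 4 then lin s s' a else qf (s' :: l) a) = _
        rw [if_pos ha.2]
      have e4 : ∫ a in ((s'.X : ℝ) / 10 ^ 4)..b0, qf (s :: s' :: l) a =
          ∫ a in ((s'.X : ℝ) / 10 ^ 4)..b0, qf (s' :: l) a := by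
        refine intervalIntegral.integral_congr fun a ha => ?_
        rw [uIcc_of_le hle2] at ha
        show (if a ≤ (s'.X : ℝ) / 10 ^ 4 then lin s s' a else qf (s' :: l) a) = _
        split_ifs with hh
        · have : a = (s'.X : ℝ) / 10 ^ 4 := le_antisymm hh ha.1
          rw [this, lin_right c3, qf_head l s' c11]
        · rfl
      rw [← e2, e3, e4, lin_integral c3, e1]
      push_cast at h3 ⊢
      rw [add_div]
      linarith
    · have e1 : trapTo lo (s :: s' :: l) = 0 := by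
        show (if s'.X ≤ lo then (s'.X - s.X) * (s.Q + s'.Q) + trapTo lo (s' :: l) else 0) = _
        rw [if_neg h2]
      rw [e1]
      simp only [Int.cast_zero, zero_div]
      exact intervalIntegral.integral_nonneg hs' fun a ha => qf_nonneg (s' :: l) s hc a ha.1

end poly

/-- leaf -/
structure ZLf where
  B1 : ℤ
  B2 : ℤ
  T : ℤ
  nd : List Sg
  l1 : ℚ
  p1 : ℚ
  l2 : ℚ
  p2 : ℚ

/-- box: `φ ∈ [pl, ph]`, `b0 ∈ [lo, hi]`, `V ∈ [vl, vh]`, unit `10⁻⁴` -/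
structure ZRc where
  pl : ℤ
  ph : ℤ
  lo : ℤ
  hi : ℤ
  vl : ℤ
  vh : ℤ

/-- the statement for a box -/
def ZGood (R : ZRc) : Prop :=
  ∀ (P V b0 φ : ℝ) (a J : ℝ → ℝ) (U : Set ℝ), SD P a J → (∫ x in (0:ℝ)..1, a x) = V →
    (R.vl : ℝ) / 10 ^ 4 ≤ V → V ≤ (R.vh : ℝ) / 10 ^ 4 →
    (R.lo : ℝ) / 10 ^ 4 ≤ b0 → b0 ≤ (R.hi : ℝ) / 10 ^ 4 →
    (R.pl : ℝ) / 10 ^ 4 ≤ φ → φ ≤ (R.ph : ℝ) / 10 ^ 4 →
    (∀ᵐ x : ℝ, 0 ≤ a x ∧ a x ≤ b0) →
    (∀ δ > 0, 0 < volume ({x | a x < δ} ∩ Ico 0 1)) →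
    (∀ δ > 0, 0 < volume ({x | b0 - δ < a x} ∩ Ico 0 1)) →
    MeasurableSet U → ENNReal.ofReal (1 / 10) ≤ volume (U ∩ Ico 0 1) →
    (∀ᵐ x : ℝ, x ∈ U → WrapAlt (1 - φ) (a x) (J x)) →
    (∀ᵐ x : ℝ, x ∉ U → NeckAlt φ (a x) (J x)) → mm V < P / 2

/-- the value check at the volume `v` -/
def ZLf.val (L : ZLf) (lo v : ℤ) : Bool :=
  decide ((L.l1 * L.p1 + L.l2 * L.p2 - L.T / 10 ^ 4) * (v / 10 ^ 4) + cst L.l1 L.p1 L.l2 L.p2 <
    (L.B1 + 9 * L.B2) / 10 ^ 5 + (trapTo lo L.nd : ℚ) / (2 * 10 ^ 8))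

/-- check of a leaf -/
def ZLf.chk (L : ZLf) (R : ZRc) : Bool :=
  match L.nd with
  | [] => false
  | s :: l => decide (s.X = 0) && (decide (0 ≤ R.lo) && (decide (R.hi ≤ lastX (s :: l)) &&
      (decide (0 < lastX (s :: l)) && (decide (L.B2 ≤ L.B1) &&
      (chkZ (10000 - R.pl) R.ph L.B1 L.B2 L.T (s :: l) &&
      (okS L.l1 L.p1 L.l2 L.p2 && (decide (0 ≤ R.vl) && (L.val R.lo R.vl && L.val R.lo R.vh))))))))

theorem ZLf.sound {L : ZLf} {R : ZRc} (h : L.chk R = true) : ZGood R := by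
  intro P V b0 φ a J U S hI hv1 hv2 hb1 hb2 hp1 hp2 hae hinf hsup hU hτ hJ1 hJ2
  unfold ZLf.chk at h
  cases hnd : L.nd with
  | nil => rw [hnd] at h; exact absurd h (by simp)
  | cons s l =>
    rw [hnd] at h
    simp only [Bool.and_eq_true, decide_eq_true_eq] at h
    obtain ⟨c1, c2, c3, c4, c5, c6, c7, c8, c9, c10⟩ := h
    have hlo0 : (0:ℝ) ≤ (R.lo : ℝ) / 10 ^ 4 := by
      have : (0:ℝ) ≤ R.lo := by exact_mod_cast c2
      positivity
    have hb0 : 0 ≤ b0 := hlo0.trans hb1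
    have hE : 1 - φ ≤ ((10000 - R.pl : ℤ) : ℝ) / 10 ^ 4 := by
      push_cast
      have : ((10000:ℝ) - R.pl) / 10 ^ 4 = 1 - R.pl / 10 ^ 4 := by ring
      rw [this]; linarith
    have hlast : b0 ≤ (lastX (s :: l) : ℝ) / 10 ^ 4 := by
      refine hb2.trans ?_
      exact div_le_div_of_nonneg_right (by exact_mod_cast c3) (by norm_num)
    have hX0 : (s.X : ℝ) / 10 ^ 4 = 0 := by rw [c1]; simp
    have hok := qf_ok (φ := φ) hE hp2 l s c6
    rw [hX0] at hok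
    have hok' : ∀ x : ℝ, 0 ≤ x → x ≤ b0 → _ := fun x h1 h2 =>
      hok x h1 (h2.trans hlast) (by rw [c1]; exact c4)
    have hqc := qf_cont l s c6
    set q := qf (s :: l) with hq
    have hcc : Continuous fun x => Real.sqrt (1 - q x ^ 2) := by fun_prop
    -- measure of `U`
    have hfin : volume (U ∩ Ico 0 1) ≠ ⊤ :=
      ne_top_of_le_ne_top (by simp : volume (Ico (0:ℝ) 1) ≠ ⊤) (measure_mono inter_subset_right)
    set τ := (volume (U ∩ Ico 0 1)).toReal with hτdef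
    have hτ1 : 1 / 10 ≤ τ := by
      rw [hτdef]
      exact (ENNReal.ofReal_le_iff_le_toReal hfin).1 hτ
    have key := S.lm_two (a1 := 0) (a2 := b0) (β := 2) hb0 hae
      (fun δ hδ => by simpa using hinf δ hδ) hsup (fun x => Real.sqrt (1 - q x ^ 2)) q
      hcc.continuousOn hqc.continuousOn (fun x _ => Real.sqrt_nonneg _)
      (fun x hx => (hok' x hx.1 hx.2).1)
      (fun x hx => by
        have h1 := (hok' x hx.1 hx.2).1
        have h2 := (hok' x hx.1 hx.2).2.1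
        rw [Real.sq_sqrt (by nlinarith)]; linarith)
      hU (τ := τ) (β1 := (L.B1 : ℝ) / 10 ^ 4) (β2 := (L.B2 : ℝ) / 10 ^ 4)
      (lam := (L.T : ℝ) / 10 ^ 4) hτdef.symm
      (by
        filter_upwards [hJ1, hae] with x h1 h2 h3
        exact (hok' (a x) h2.1 h2.2).2.2.1 (J x) (S.J0 x) (h1 h3))
      (by
        filter_upwards [hJ2, hae] with x h1 h2 h3
        exact (hok' (a x) h2.1 h2.2).2.2.2 (J x) (S.J0 x) (h1 h3))
    rw [hI] at key
    have htr := qf_trap (B1 := L.B1) (B2 := L.B2) (T := L.T) hb1 l s c6 (by rw [c1]; exact c2)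
    rw [hX0, ← hq] at htr
    have hB : (L.B2 : ℝ) / 10 ^ 4 ≤ (L.B1 : ℝ) / 10 ^ 4 :=
      div_le_div_of_nonneg_right (by exact_mod_cast c5) (by norm_num)
    have hvl0 : (0:ℝ) ≤ (R.vl : ℝ) / 10 ^ 4 := by
      have : (0:ℝ) ≤ R.vl := by exact_mod_cast c8
      positivity
    have hmm := okS_sound c7 (V := V) (hvl0.trans hv1)
    -- the value
    have hval : ∀ v : ℤ, L.val R.lo v = true →
        (((L.l1 * L.p1 + L.l2 * L.p2 : ℚ) : ℝ) - (L.T : ℝ) / 10 ^ 4) * ((v : ℝ) / 10 ^ 4) +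
          ((cst L.l1 L.p1 L.l2 L.p2 : ℚ) : ℝ) <
        ((L.B1 : ℝ) + 9 * L.B2) / 10 ^ 5 + (trapTo R.lo (s :: l) : ℝ) / (2 * 10 ^ 8) := by
      intro v hv
      simp only [ZLf.val, decide_eq_true_eq] at hv
      rw [hnd] at hv
      have h2 : (((L.l1 * L.p1 + L.l2 * L.p2 - L.T / 10 ^ 4) * (v / 10 ^ 4) +
          cst L.l1 L.p1 L.l2 L.p2 : ℚ) : ℝ) <
          (((L.B1 + 9 * L.B2) / 10 ^ 5 + (trapTo R.lo (s :: l) : ℚ) / (2 * 10 ^ 8) : ℚ) : ℝ) := by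
        exact_mod_cast hv
      push_cast at h2 ⊢
      linarith
    have v1 := hval _ c9
    have v2 := hval _ c10
    set m : ℝ := ((L.l1 * L.p1 + L.l2 * L.p2 : ℚ) : ℝ) with hm
    set cc : ℝ := ((cst L.l1 L.p1 L.l2 L.p2 : ℚ) : ℝ) with hcc2
    set tr : ℝ := (trapTo R.lo (s :: l) : ℝ) / (2 * 10 ^ 8) with htrd
    have hV : (m - (L.T : ℝ) / 10 ^ 4) * V + cc < ((L.B1 : ℝ) + 9 * L.B2) / 10 ^ 5 + tr := by
      rcases le_total 0 (m - (L.T : ℝ) / 10 ^ 4) with hs | hs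
      · have := mul_le_mul_of_nonneg_left hv2 hs
        linarith
      · have := mul_le_mul_of_nonpos_left hv1 hs
        linarith
    have hbeta : ((L.B1 : ℝ) + 9 * L.B2) / 10 ^ 5 ≤
        τ * ((L.B1 : ℝ) / 10 ^ 4) + (1 - τ) * ((L.B2 : ℝ) / 10 ^ 4) := by
      have h1 : 0 ≤ (τ - 1 / 10) * ((L.B1 : ℝ) / 10 ^ 4 - (L.B2 : ℝ) / 10 ^ 4) :=
        mul_nonneg (by linarith) (by linarith)
      have e : τ * ((L.B1 : ℝ) / 10 ^ 4) + (1 - τ) * ((L.B2 : ℝ) / 10 ^ 4) -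
          ((L.B1 : ℝ) + 9 * L.B2) / 10 ^ 5 =
          (τ - 1 / 10) * ((L.B1 : ℝ) / 10 ^ 4 - (L.B2 : ℝ) / 10 ^ 4) := by ring
      linarith
    linarith

/-- trees -/
inductive ZTr where
  | leaf (L : ZLf) : ZTr
  | emp : ZTr
  | sp (x : ℤ) (l r : ZTr) : ZTr
  | sb (x : ℤ) (l r : ZTr) : ZTr
  | sv (x : ℤ) (l r : ZTr) : ZTr

def ZTr.chk : ZTr → ZRc → Bool
  | .leaf L, R => L.chk R
  | .emp, R => decide (R.hi < R.vl)
  | .sp x l r, R => l.chk { R with ph := x } && r.chk { R with pl := x }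
  | .sb x l r, R => l.chk { R with hi := x } && r.chk { R with lo := x }
  | .sv x l r, R => l.chk { R with vh := x } && r.chk { R with vl := x }

theorem ZGood.sp {R : ZRc} (x : ℤ) (h1 : ZGood { R with ph := x }) (h2 : ZGood { R with pl := x }) :
    ZGood R := by
  intro P V b0 φ a J U S hI hv1 hv2 hb1 hb2 hp1 hp2 hae hinf hsup hU hτ hJ1 hJ2
  rcases le_total φ ((x : ℝ) / 10 ^ 4) with h | h
  · exact h1 P V b0 φ a J U S hI hv1 hv2 hb1 hb2 hp1 h hae hinf hsup hU hτ hJ1 hJ2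
  · exact h2 P V b0 φ a J U S hI hv1 hv2 hb1 hb2 h hp2 hae hinf hsup hU hτ hJ1 hJ2

theorem ZGood.sb {R : ZRc} (x : ℤ) (h1 : ZGood { R with hi := x }) (h2 : ZGood { R with lo := x }) :
    ZGood R := by
  intro P V b0 φ a J U S hI hv1 hv2 hb1 hb2 hp1 hp2 hae hinf hsup hU hτ hJ1 hJ2
  rcases le_total b0 ((x : ℝ) / 10 ^ 4) with h | h
  · exact h1 P V b0 φ a J U S hI hv1 hv2 hb1 h hp1 hp2 hae hinf hsup hU hτ hJ1 hJ2
  · exact h2 P V b0 φ a J U S hI hv1 hv2 h hb2 hp1 hp2 hae hinf hsup hU hτ hJ1 hJ2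

theorem ZGood.sv {R : ZRc} (x : ℤ) (h1 : ZGood { R with vh := x }) (h2 : ZGood { R with vl := x }) :
    ZGood R := by
  intro P V b0 φ a J U S hI hv1 hv2 hb1 hb2 hp1 hp2 hae hinf hsup hU hτ hJ1 hJ2
  rcases le_total V ((x : ℝ) / 10 ^ 4) with h | h
  · exact h1 P V b0 φ a J U S hI hv1 h hb1 hb2 hp1 hp2 hae hinf hsup hU hτ hJ1 hJ2
  · exact h2 P V b0 φ a J U S hI h hv2 hb1 hb2 hp1 hp2 hae hinf hsup hU hτ hJ1 hJ2

theorem ZGood.emp {R : ZRc} (h : R.hi < R.vl) : ZGood R := by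
  intro P V b0 φ a J U S hI hv1 hv2 hb1 hb2 hp1 hp2 hae hinf hsup hU hτ hJ1 hJ2
  exfalso
  have h1 : V ≤ b0 := by
    rw [← hI]
    have := intervalIntegral.integral_mono_ae zero_le_one (S.intervalIntegrable_a 0 1)
      (intervalIntegrable_const (c := b0)) (hae.mono fun x hx => hx.2)
    simpa using this
  have h2 : (R.hi : ℝ) / 10 ^ 4 < (R.vl : ℝ) / 10 ^ 4 :=
    div_lt_div_of_pos_right (by exact_mod_cast h) (by norm_num)
  linarith

/-- SOUNDNESS of the Z certificate -/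
theorem ZTr.sound : ∀ (t : ZTr) (R : ZRc), t.chk R = true → ZGood R := by
  intro t
  induction t with
  | leaf L => intro R h; exact ZLf.sound h
  | emp => intro R h; exact ZGood.emp (by simpa [ZTr.chk] using h)
  | sp x l r ihl ihr =>
    intro R h
    simp only [ZTr.chk, Bool.and_eq_true] at h
    exact ZGood.sp x (ihl _ h.1) (ihr _ h.2)
  | sb x l r ihl ihr =>
    intro R h
    simp only [ZTr.chk, Bool.and_eq_true] at h
    exact ZGood.sb x (ihl _ h.1) (ihr _ h.2)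
  | sv x l r ihl ihr =>
    intro R h
    simp only [ZTr.chk, Bool.and_eq_true] at h
    exact ZGood.sv x (ihl _ h.1) (ihr _ h.2)

end ZS
end Crest.Agent.R214
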