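import Crest.Agent.R214.ZYsd

/-!
# Row 214: the two theorems for zero-contact sets (helper48)
-/

set_option autoImplicit false

open MeasureTheory Set Filter Topology

namespace Crest.Agent.R214

theorem SD.V_range {P V a1 a2 : ℝ} {a J : ℝ → ℝ} (S : SD P a J)
    (hae : ∀ᵐ x : ℝ, a1 ≤ a x ∧ a x ≤ a2) (hV : ∫ x in (0 : ℝ)..1, a x = V) :
    a1 ≤ V ∧ V ≤ a2 := by
  have ia : IntervalIntegrable a volume 0 1 := S.intervalIntegrable_a 0 1
  constructor
  · have := intervalIntegral.integral_mono_ae (μ := volume) (f := fun _ => a1) (g := a)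
      zero_le_one intervalIntegrable_const ia (by filter_upwards [hae] with x hx using hx.1)
    rw [hV] at this
    simpa using this
  · have := intervalIntegral.integral_mono_ae (μ := volume) (f := a) (g := fun _ => a2)
      zero_le_one ia intervalIntegrable_const (by filter_upwards [hae] with x hx using hx.2)
    rw [hV] at this
    simpa using this

theorem SD.a1_nonneg {P a1 : ℝ} {a J : ℝ → ℝ} (S : SD P a J)
    (ha1 : ∀ δ > 0, 0 < volume ({x | a x < a1 + δ} ∩ Ico 0 1)) : 0 ≤ a1 := by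
  by_contra hc
  push Not at hc
  have h := ha1 (-a1) (by linarith)
  have : ({x | a x < a1 + -a1} ∩ Ico 0 1) = ∅ := by
    ext x
    simp only [mem_inter_iff, mem_setOf_eq, mem_empty_iff_false, iff_false, not_and]
    intro hx
    have := (S.a01 x).1
    linarith
  rw [this] at h
  simp at h

theorem SD.a2_le_one {P a2 : ℝ} {a J : ℝ → ℝ} (S : SD P a J)
    (ha2 : ∀ δ > 0, 0 < volume ({x | a2 - δ < a x} ∩ Ico 0 1)) : a2 ≤ 1 := by
  by_contra hc
  push Not at hc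
  have h := ha2 (a2 - 1) (by linarith)
  have : ({x | a2 - (a2 - 1) < a x} ∩ Ico 0 1) = ∅ := by
    ext x
    simp only [mem_inter_iff, mem_setOf_eq, mem_empty_iff_false, iff_false, not_and]
    intro hx
    have := (S.a01 x).2
    linarith
  rw [this] at h
  simp at h

/-- all the (Z) certificates -/
theorem goodZ_all {V φ b0 : ℝ} (hV0 : 3 / 25 ≤ V) (hV1 : V ≤ 9 / 25) (h0 : 0 ≤ φ) (h1 : φ ≤ 1)
    (h2 : 1 / Real.pi ≤ b0) (h3 : b0 ≤ 1) (h4 : b0 < 1 ∨ V < 1 / Real.pi) (h5 : V ≤ b0) :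
    GoodZ V φ b0 := by
  sorry

/-- direction `z`: zero contact, early slices (`U`, of measure at least `1/10`) wrap in both
directions, late slices are planar or have neck at most `φ` -/
theorem SD.zCase {P V b0 φ : ℝ} {a J : ℝ → ℝ} (S : SD P a J)
    (hae : ∀ᵐ x : ℝ, a x ≤ b0)
    (ha1 : ∀ δ > 0, 0 < volume ({x | a x < δ} ∩ Ico 0 1))
    (ha2 : ∀ δ > 0, 0 < volume ({x | b0 - δ < a x} ∩ Ico 0 1))
    (hV : ∫ x in (0 : ℝ)..1, a x = V) (hV0 : 3 / 25 ≤ V) (hV1 : V ≤ 9 / 25)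
    (hb : 1 / Real.pi ≤ b0) (hb1 : b0 < 1 ∨ V < 1 / Real.pi) (hφ0 : 0 ≤ φ) (hφ1 : φ ≤ 1)
    (U : Set ℝ) (hU : MeasurableSet U)
    (hUv : ENNReal.ofReal (1 / 10) ≤ volume (U ∩ Ico 0 1))
    (hJ1 : ∀ᵐ x : ℝ, x ∈ U → WrapAlt (1 - φ) (a x) (J x))
    (hJ2 : ∀ᵐ x : ℝ, x ∉ U → NeckAlt φ (a x) (J x)) : mm V < P / 2 := by
  have hae' : ∀ᵐ x : ℝ, 0 ≤ a x ∧ a x ≤ b0 := by
    filter_upwards [hae] with x hx
    exact ⟨(S.a01 x).1, hx⟩
  obtain ⟨k1, k2⟩ := S.V_range hae' hV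
  exact S.of_GoodZ (k1.trans k2) hae ha1 ha2 hV U hU hUv hJ1 hJ2
    (goodZ_all hV0 hV1 hφ0 hφ1 hb (S.a2_le_one ha2) hb1 k2)

end Crest.Agent.R214
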