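import Crest.Agent.R214.Box

/-!
# Row 214: certificates (Z) and (Y) — format and soundness (pure one-dimensional part)

All abscissae, coefficients and `q`s are in units of `10⁻⁴`.
-/

set_option autoImplicit false

open MeasureTheory Set

namespace Crest.Agent.R214

namespace ZY

/-- affine function through two points -/
noncomputable def aff (x q y r a : ℝ) : ℝ := q + (r - q) / (y - x) * (a - x)

theorem aff_left (x q y r : ℝ) : aff x q y r x = q := by simp [aff]

theorem aff_right {x y : ℝ} (q r : ℝ) (h : x < y) : aff x q y r y = r := by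
  have : y - x ≠ 0 := by linarith [sub_pos.2 h] |> fun h => (sub_pos.2 ‹x < y›).ne'
  unfold aff
  field_simp
  ring

theorem aff_conv {x y : ℝ} (q r : ℝ) (h : x < y) (a : ℝ) :
    aff x q y r a = (1 - (a - x) / (y - x)) * q + (a - x) / (y - x) * r := by
  unfold aff
  have : y - x ≠ 0 := (sub_pos.2 h).ne'
  field_simp
  ring

/-- interpolation: an affine weight `w` and an affine line `g` -/
theorem interp {g0 g1 w0 w1 x y q r a : ℝ} (hxy : x < y) (hx : x ≤ a) (hy : a ≤ y)
    (q0 : 0 ≤ q) (q1 : q ≤ 1) (r0 : 0 ≤ r) (r1 : r ≤ 1)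
    (wx : 0 ≤ w0 + w1 * x) (wy : 0 ≤ w0 + w1 * y)
    (ex : (max (g0 + g1 * x) 0) ^ 2 ≤ (1 - q ^ 2) * (w0 + w1 * x))
    (ey : (max (g0 + g1 * y) 0) ^ 2 ≤ (1 - r ^ 2) * (w0 + w1 * y)) :
    0 ≤ aff x q y r a ∧ aff x q y r a ≤ 1 ∧ 0 ≤ w0 + w1 * a ∧
      (max (g0 + g1 * a) 0) ^ 2 ≤ (1 - (aff x q y r a) ^ 2) * (w0 + w1 * a) := by
  have hd : 0 < y - x := sub_pos.2 hxy
  set t : ℝ := (a - x) / (y - x) with ht
  have ht0 : 0 ≤ t := div_nonneg (by linarith) hd.le
  have ht1 : t ≤ 1 := by rw [ht, div_le_one hd]; linarith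
  have h6 : 0 ≤ 1 - t := by linarith
  have ea : a = (1 - t) * x + t * y := by rw [ht]; field_simp; ring
  have ec : aff x q y r a = (1 - t) * q + t * r := aff_conv q r hxy a
  rw [ec]
  have ew : w0 + w1 * a = (1 - t) * (w0 + w1 * x) + t * (w0 + w1 * y) := by
    rw [ea]; ring
  have e1 : 0 ≤ 1 - q ^ 2 := by nlinarith
  have e2 : 0 ≤ 1 - r ^ 2 := by nlinarith
  have hw0 : 0 ≤ (1 - t) * (w0 + w1 * x) + t * (w0 + w1 * y) := by positivity
  refine ⟨by positivity, by nlinarith, by rw [ew]; exact hw0, ?_⟩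
  rw [ew]
  have h7 := cs_aux e1 e2 wx wy ht0 ht1 ex ey
  have h8 : max (g0 + g1 * a) 0 ≤
      (1 - t) * max (g0 + g1 * x) 0 + t * max (g0 + g1 * y) 0 := by
    rw [ea]
    apply max_le
    · have a1 := le_max_left (g0 + g1 * x) 0
      have a2 := le_max_left (g0 + g1 * y) 0
      nlinarith [mul_le_mul_of_nonneg_left a1 h6, mul_le_mul_of_nonneg_left a2 ht0]
    · have a1 := le_max_right (g0 + g1 * x) 0
      have a2 := le_max_right (g0 + g1 * y) 0
      positivity
  have h9 : (max (g0 + g1 * a) 0) ^ 2 ≤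
      ((1 - t) * max (g0 + g1 * x) 0 + t * max (g0 + g1 * y) 0) ^ 2 :=
    pow_le_pow_left₀ (le_max_right _ _) h8 2
  have h10 : (1 - t) * (1 - q ^ 2) + t * (1 - r ^ 2) ≤ 1 - ((1 - t) * q + t * r) ^ 2 := by
    nlinarith [mul_nonneg (mul_nonneg h6 ht0) (sq_nonneg (q - r))]
  calc _ ≤ _ := h9
    _ ≤ _ := h7
    _ ≤ _ := mul_le_mul_of_nonneg_right h10 hw0

/-- a node: abscissa, weight, parameter of the early bound, index of the tangent of the late bound
(for the panel which ends at this node) -/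
structure Nd where
  x : ℤ
  q : ℤ
  e : ℤ
  k : ℕ

/-- piecewise affine function through the nodes -/
noncomputable def pl (n : Nd) : List Nd → ℝ → ℝ
  | [], _ => (n.q : ℝ) / 10 ^ 4
  | m :: l, a => if a ≤ (m.x : ℝ) / 10 ^ 4 then
      aff ((n.x : ℝ) / 10 ^ 4) ((n.q : ℝ) / 10 ^ 4) ((m.x : ℝ) / 10 ^ 4) ((m.q : ℝ) / 10 ^ 4) a
      else pl m l a

/-- increasing abscissae -/
def inc (n : Nd) : List Nd → Bool
  | [] => true
  | m :: l => decide (n.x < m.x) && inc m l

/-- last abscissa -/
def lst (n : Nd) : List Nd → ℤ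
  | [] => n.x
  | m :: l => lst m l

theorem pl_start (n : Nd) (l : List Nd) (h : inc n l = true) :
    pl n l ((n.x : ℝ) / 10 ^ 4) = (n.q : ℝ) / 10 ^ 4 := by
  cases l with
  | nil => rfl
  | cons m l =>
    simp only [inc, Bool.and_eq_true, decide_eq_true_eq] at h
    have h1 : (n.x : ℝ) ≤ m.x := by exact_mod_cast h.1.le
    have : (n.x : ℝ) / 10 ^ 4 ≤ (m.x : ℝ) / 10 ^ 4 := by gcongr
    simp only [pl]
    rw [if_pos this, aff_left]

theorem aff_continuous (x q y r : ℝ) : Continuous (aff x q y r) := by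
  unfold aff
  fun_prop

theorem pl_continuous : ∀ (l : List Nd) (n : Nd), inc n l = true → Continuous (pl n l) := by
  intro l
  induction l with
  | nil => intro n _; exact continuous_const
  | cons m l ih =>
    intro n h
    simp only [inc, Bool.and_eq_true, decide_eq_true_eq] at h
    have h1 : (n.x : ℝ) / 10 ^ 4 < (m.x : ℝ) / 10 ^ 4 := by
      have : (n.x : ℝ) < m.x := by exact_mod_cast h.1
      gcongr
    show Continuous fun a => if a ≤ (m.x : ℝ) / 10 ^ 4 then
      aff ((n.x : ℝ) / 10 ^ 4) ((n.q : ℝ) / 10 ^ 4) ((m.x : ℝ) / 10 ^ 4) ((m.q : ℝ) / 10 ^ 4) a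
      else pl m l a
    refine Continuous.if_le (aff_continuous _ _ _ _) (ih m h.2) continuous_id continuous_const ?_
    intro a ha
    rw [ha, aff_right _ _ h1, pl_start m l h.2]

theorem pl_intervalIntegrable {n : Nd} {l : List Nd} (h : inc n l = true) (u v : ℝ) :
    IntervalIntegrable (pl n l) volume u v :=
  (pl_continuous l n h).intervalIntegrable _ _

/-- `pl` beyond the first node of the tail -/
theorem pl_tail {n m : Nd} {l : List Nd} (h : inc n (m :: l) = true) {a : ℝ}
    (ha : (m.x : ℝ) / 10 ^ 4 ≤ a) : pl n (m :: l) a = pl m l a := by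
  simp only [inc, Bool.and_eq_true, decide_eq_true_eq] at h
  have h1 : (n.x : ℝ) / 10 ^ 4 < (m.x : ℝ) / 10 ^ 4 := by
    have : (n.x : ℝ) < m.x := by exact_mod_cast h.1
    gcongr
  rcases ha.eq_or_lt with h2 | h2
  · subst h2
    simp only [pl]
    rw [if_pos le_rfl, aff_right _ _ h1, pl_start m l h.2]
  · simp only [pl]
    rw [if_neg (not_le.2 h2)]

theorem lst_ge : ∀ (l : List Nd) (n : Nd), inc n l = true → n.x ≤ lst n l := by
  intro l
  induction l with
  | nil => intro n _; exact le_rfl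
  | cons m l ih =>
    intro n h
    simp only [inc, Bool.and_eq_true, decide_eq_true_eq] at h
    exact h.1.le.trans (ih m h.2)

/-- trapezoid sum over the panels inside `[A, B]`, units `10⁻⁸/2` -/
def tr (A B : ℤ) (n : Nd) : List Nd → ℤ
  | [] => 0
  | m :: l => (if A ≤ n.x ∧ m.x ≤ B then (m.x - n.x) * (n.q + m.q) else 0) + tr A B m l

/-- a property of all panels -/
def allP (P : Nd → Nd → Bool) (n : Nd) : List Nd → Bool
  | [] => true
  | m :: l => P n m && allP P m l

theorem allP_find {P : Nd → Nd → Bool} : ∀ (l : List Nd) (n : Nd), inc n l = true →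
    allP P n l = true → ∀ {a : ℝ}, (n.x : ℝ) / 10 ^ 4 ≤ a → a ≤ (lst n l : ℝ) / 10 ^ 4 → l ≠ [] →
    ∃ u v : Nd, P u v = true ∧ (u.x : ℝ) / 10 ^ 4 < (v.x : ℝ) / 10 ^ 4 ∧
      (u.x : ℝ) / 10 ^ 4 ≤ a ∧ a ≤ (v.x : ℝ) / 10 ^ 4 ∧
      pl n l a = aff ((u.x : ℝ) / 10 ^ 4) ((u.q : ℝ) / 10 ^ 4) ((v.x : ℝ) / 10 ^ 4)
        ((v.q : ℝ) / 10 ^ 4) a := by
  intro l
  induction l with
  | nil => intro n _ _ a _ _ h; exact absurd rfl h
  | cons m l ih =>
    intro n h hP a h1 h2 _
    have h0 := h
    simp only [inc, Bool.and_eq_true, decide_eq_true_eq] at h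
    simp only [allP, Bool.and_eq_true] at hP
    have hnm : (n.x : ℝ) / 10 ^ 4 < (m.x : ℝ) / 10 ^ 4 := by
      have : (n.x : ℝ) < m.x := by exact_mod_cast h.1
      gcongr
    rcases le_or_gt a ((m.x : ℝ) / 10 ^ 4) with h3 | h3
    · refine ⟨n, m, hP.1, hnm, h1, h3, ?_⟩
      simp only [pl]
      rw [if_pos h3]
    · have hne : l ≠ [] := by
        rintro rfl
        simp only [lst] at h2
        linarith
      obtain ⟨u, v, k1, k2, k3, k4, k5⟩ := ih m h.2 hP.2 h3.le (by simpa only [lst] using h2) hne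
      refine ⟨u, v, k1, k2, k3, k4, ?_⟩
      rw [pl_tail h0 h3.le, k5]

/-- `0 ≤ q ≤ 10⁴` for a panel -/
def okq (n m : Nd) : Bool :=
  decide (0 ≤ n.q) && (decide (n.q ≤ 10000) && (decide (0 ≤ m.q) && decide (m.q ≤ 10000)))

theorem aff_bounds {x q y r a : ℝ} (hxy : x < y) (hx : x ≤ a) (hy : a ≤ y)
    (q0 : 0 ≤ q) (q1 : q ≤ 1) (r0 : 0 ≤ r) (r1 : r ≤ 1) :
    0 ≤ aff x q y r a ∧ aff x q y r a ≤ 1 := by
  have hd : 0 < y - x := sub_pos.2 hxy
  have ht0 : 0 ≤ (a - x) / (y - x) := div_nonneg (by linarith) hd.le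
  have ht1 : (a - x) / (y - x) ≤ 1 := by rw [div_le_one hd]; linarith
  rw [aff_conv q r hxy a]
  constructor
  · have : 0 ≤ 1 - (a - x) / (y - x) := by linarith
    positivity
  · nlinarith

theorem okq_real {n m : Nd} (h : okq n m = true) : 0 ≤ (n.q : ℝ) / 10 ^ 4 ∧
    (n.q : ℝ) / 10 ^ 4 ≤ 1 ∧ 0 ≤ (m.q : ℝ) / 10 ^ 4 ∧ (m.q : ℝ) / 10 ^ 4 ≤ 1 := by
  simp only [okq, Bool.and_eq_true, decide_eq_true_eq] at h
  obtain ⟨h1, h2, h3, h4⟩ := h
  have h1' : (0 : ℝ) ≤ n.q := by exact_mod_cast h1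
  have h2' : (n.q : ℝ) ≤ 10000 := by exact_mod_cast h2
  have h3' : (0 : ℝ) ≤ m.q := by exact_mod_cast h3
  have h4' : (m.q : ℝ) ≤ 10000 := by exact_mod_cast h4
  refine ⟨by positivity, ?_, by positivity, ?_⟩
  · rw [div_le_one (by positivity)]; norm_num; exact h2'
  · rw [div_le_one (by positivity)]; norm_num; exact h4'

theorem pl_bounds {n : Nd} {l : List Nd} (h : inc n l = true) (hq : allP okq n l = true)
    (hne : l ≠ []) {a : ℝ} (h1 : (n.x : ℝ) / 10 ^ 4 ≤ a) (h2 : a ≤ (lst n l : ℝ) / 10 ^ 4) :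
    0 ≤ pl n l a ∧ pl n l a ≤ 1 := by
  obtain ⟨u, v, k1, k2, k3, k4, k5⟩ := allP_find l n h hq h1 h2 hne
  rw [k5]
  obtain ⟨r1, r2, r3, r4⟩ := okq_real k1
  exact aff_bounds k2 k3 k4 r1 r2 r3 r4

theorem integral_aff {x y : ℝ} (q r : ℝ) (h : x < y) :
    ∫ a in x..y, aff x q y r a = (y - x) * (q + r) / 2 := by
  have hd : 0 < y - x := sub_pos.2 h
  unfold aff
  rw [intervalIntegral.integral_add (by simp) (by
    apply Continuous.intervalIntegrable; fun_prop)]
  rw [intervalIntegral.integral_const_mul]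
  rw [intervalIntegral.integral_sub (by simp) (by simp)]
  simp only [intervalIntegral.integral_const, integral_id, smul_eq_mul]
  field_simp
  ring

/-- the trapezoid sum bounds the integral from below -/
theorem tr_le {A B : ℤ} {a1 a2 : ℝ} (hA : a1 ≤ (A : ℝ) / 10 ^ 4) (hB : (B : ℝ) / 10 ^ 4 ≤ a2) :
    ∀ (l : List Nd) (n : Nd), inc n l = true → allP okq n l = true →
    ∀ u : ℝ, (n.x : ℝ) / 10 ^ 4 ≤ u → u ≤ a2 → (u = a1 ∨ u = (n.x : ℝ) / 10 ^ 4) →
      a1 ≤ u → a2 ≤ (lst n l : ℝ) / 10 ^ 4 →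
      (tr A B n l : ℝ) / (2 * 10 ^ 8) ≤ ∫ a in u..a2, pl n l a := by
  intro l
  induction l with
  | nil =>
    intro n h hq u h1 h2 h3 h4 h5
    simp only [lst] at h5
    have : u = a2 := by linarith
    subst this
    simp [tr]
  | cons m l ih =>
    intro n h hq u h1 h2 h3 h4 h5
    have h0 := h
    have hq0 := hq
    simp only [inc, Bool.and_eq_true, decide_eq_true_eq] at h
    simp only [allP, Bool.and_eq_true] at hq
    have hnm : (n.x : ℝ) / 10 ^ 4 < (m.x : ℝ) / 10 ^ 4 := by
      have : (n.x : ℝ) < m.x := by exact_mod_cast h.1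
      gcongr
    have hlst : (lst n (m :: l) : ℝ) = lst m l := by simp only [lst]
    rw [hlst] at h5
    obtain ⟨r1, r2, r3, r4⟩ := okq_real hq.1
    have hnn : ∀ s t : ℝ, (n.x : ℝ) / 10 ^ 4 ≤ s → s ≤ t → t ≤ a2 →
        0 ≤ ∫ a in s..t, pl n (m :: l) a := by
      intro s t hs hst ht
      apply intervalIntegral.integral_nonneg hst
      intro a ha
      exact (pl_bounds h0 hq0 (List.cons_ne_nil _ _) (hs.trans ha.1)
        ((ha.2.trans ht).trans (by rw [hlst]; exact h5))).1
    simp only [tr]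
    rcases le_total a2 ((m.x : ℝ) / 10 ^ 4) with h6 | h6
    · -- the rest of the sum vanishes unless ...
      have hrest : ∀ (l : List Nd) (m : Nd), inc m l = true → a2 ≤ (m.x : ℝ) / 10 ^ 4 →
          tr A B m l = 0 := by
        intro l
        induction l with
        | nil => intro m _ _; rfl
        | cons k l ih2 =>
          intro m hm hm2
          simp only [inc, Bool.and_eq_true, decide_eq_true_eq] at hm
          have hmk : (m.x : ℝ) / 10 ^ 4 < (k.x : ℝ) / 10 ^ 4 := by
            have : (m.x : ℝ) < k.x := by exact_mod_cast hm.1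
            gcongr
          simp only [tr]
          rw [ih2 k hm.2 (hm2.trans hmk.le), add_zero, if_neg]
          rintro ⟨-, hc⟩
          have : (k.x : ℝ) / 10 ^ 4 ≤ (B : ℝ) / 10 ^ 4 := by
            have : (k.x : ℝ) ≤ B := by exact_mod_cast hc
            gcongr
          linarith
      rw [hrest l m h.2 h6, add_zero]
      split_ifs with hc
      · obtain ⟨hc1, hc2⟩ := hc
        have e1 : (A : ℝ) / 10 ^ 4 ≤ (n.x : ℝ) / 10 ^ 4 := by
          have : (A : ℝ) ≤ n.x := by exact_mod_cast hc1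
          gcongr
        have e2 : (m.x : ℝ) / 10 ^ 4 ≤ (B : ℝ) / 10 ^ 4 := by
          have : (m.x : ℝ) ≤ B := by exact_mod_cast hc2
          gcongr
        have e3 : a2 = (m.x : ℝ) / 10 ^ 4 := by linarith
        have e4 : u = (n.x : ℝ) / 10 ^ 4 := by
          rcases h3 with h3 | h3
          · linarith
          · exact h3
        rw [e3, e4]
        have e5 : ∫ a in (n.x : ℝ) / 10 ^ 4..(m.x : ℝ) / 10 ^ 4, pl n (m :: l) a =
            ∫ a in (n.x : ℝ) / 10 ^ 4..(m.x : ℝ) / 10 ^ 4,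
              aff ((n.x : ℝ) / 10 ^ 4) ((n.q : ℝ) / 10 ^ 4) ((m.x : ℝ) / 10 ^ 4)
                ((m.q : ℝ) / 10 ^ 4) a := by
          apply intervalIntegral.integral_congr
          intro a ha
          rw [uIcc_of_le hnm.le] at ha
          simp only [pl]
          rw [if_pos ha.2]
        rw [e5, integral_aff _ _ hnm]
        push_cast
        apply le_of_eq
        ring
      · simp only [Int.cast_zero, zero_div]
        exact hnn u a2 h1 h2 le_rfl
    · -- split at `m.x`
      rcases le_total u ((m.x : ℝ) / 10 ^ 4) with h7 | h7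
      · have i1 := ih m h.2 hq.2 ((m.x : ℝ) / 10 ^ 4) le_rfl h6 (Or.inr rfl)
          (h4.trans h7) h5
        have e6 : ∫ a in (m.x : ℝ) / 10 ^ 4..a2, pl n (m :: l) a =
            ∫ a in (m.x : ℝ) / 10 ^ 4..a2, pl m l a := by
          apply intervalIntegral.integral_congr
          intro a ha
          rw [uIcc_of_le h6] at ha
          exact pl_tail h0 ha.1
        rw [← intervalIntegral.integral_add_adjacent_intervals
          (pl_intervalIntegrable h0 u ((m.x : ℝ) / 10 ^ 4))
          (pl_intervalIntegrable h0 ((m.x : ℝ) / 10 ^ 4) a2), e6]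
        have i2 : ((if A ≤ n.x ∧ m.x ≤ B then (m.x - n.x) * (n.q + m.q) else 0 : ℤ) : ℝ) /
            (2 * 10 ^ 8) ≤ ∫ a in u..(m.x : ℝ) / 10 ^ 4, pl n (m :: l) a := by
          split_ifs with hc
          · obtain ⟨hc1, hc2⟩ := hc
            have e1 : (A : ℝ) / 10 ^ 4 ≤ (n.x : ℝ) / 10 ^ 4 := by
              have : (A : ℝ) ≤ n.x := by exact_mod_cast hc1
              gcongr
            have e4 : u = (n.x : ℝ) / 10 ^ 4 := by
              rcases h3 with h3 | h3
              · linarith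
              · exact h3
            rw [e4]
            have e5 : ∫ a in (n.x : ℝ) / 10 ^ 4..(m.x : ℝ) / 10 ^ 4, pl n (m :: l) a =
                ∫ a in (n.x : ℝ) / 10 ^ 4..(m.x : ℝ) / 10 ^ 4,
                  aff ((n.x : ℝ) / 10 ^ 4) ((n.q : ℝ) / 10 ^ 4) ((m.x : ℝ) / 10 ^ 4)
                    ((m.q : ℝ) / 10 ^ 4) a := by
              apply intervalIntegral.integral_congr
              intro a ha
              rw [uIcc_of_le hnm.le] at ha
              simp only [pl]
              rw [if_pos ha.2]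
            rw [e5, integral_aff _ _ hnm]
            push_cast
            apply le_of_eq
            ring
          · simp only [Int.cast_zero, zero_div]
            exact hnn u _ h1 h7 h6
        have e7 : (((if A ≤ n.x ∧ m.x ≤ B then (m.x - n.x) * (n.q + m.q) else 0) + tr A B m l :
            ℤ) : ℝ) / (2 * 10 ^ 8) =
            ((if A ≤ n.x ∧ m.x ≤ B then (m.x - n.x) * (n.q + m.q) else 0 : ℤ) : ℝ) /
            (2 * 10 ^ 8) + (tr A B m l : ℝ) / (2 * 10 ^ 8) := by
          push_cast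
          ring
        rw [e7]
        exact add_le_add i2 i1
      · -- the first panel is left of `u`
        rcases h7.eq_or_lt with h8 | h8
        · -- u = m.x
          have i1 := ih m h.2 hq.2 u h8.le h2 (Or.inr h8.symm) h4 h5
          have hz : ¬ (A ≤ n.x ∧ m.x ≤ B) ∨ u ≠ a1 := by
            by_contra hcon
            push Not at hcon
            obtain ⟨⟨hc1, hc2⟩, hc3⟩ := hcon
            have e1 : (A : ℝ) / 10 ^ 4 ≤ (n.x : ℝ) / 10 ^ 4 := by
              have : (A : ℝ) ≤ n.x := by exact_mod_cast hc1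
              gcongr
            linarith
          have hua : u = a1 := by
            rcases h3 with h3 | h3
            · exact h3
            · linarith
          have hz' : ¬ (A ≤ n.x ∧ m.x ≤ B) := by
            rcases hz with hz | hz
            · exact hz
            · exact absurd hua hz
          rw [if_neg hz', zero_add]
          have e6 : ∫ a in u..a2, pl n (m :: l) a = ∫ a in u..a2, pl m l a := by
            apply intervalIntegral.integral_congr
            intro a ha
            rw [uIcc_of_le h2] at ha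
            exact pl_tail h0 (h7.trans ha.1)
          rw [e6]
          exact i1
        · have hua : u = a1 := by
            rcases h3 with h3 | h3
            · exact h3
            · linarith
          have hz' : ¬ (A ≤ n.x ∧ m.x ≤ B) := by
            rintro ⟨hc1, hc2⟩
            have e1 : (A : ℝ) / 10 ^ 4 ≤ (n.x : ℝ) / 10 ^ 4 := by
              have : (A : ℝ) ≤ n.x := by exact_mod_cast hc1
              gcongr
            linarith
          have i1 := ih m h.2 hq.2 u h7 h2 (Or.inl hua) h4 h5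
          rw [if_neg hz', zero_add]
          have e6 : ∫ a in u..a2, pl n (m :: l) a = ∫ a in u..a2, pl m l a := by
            apply intervalIntegral.integral_congr
            intro a ha
            rw [uIcc_of_le h2] at ha
            exact pl_tail h0 (h7.trans ha.1)
          rw [e6]
          exact i1

end ZY

end Crest.Agent.R214
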