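import Crest.Agent.R214.ZYp

/-!
# Row 214: certificates (Z) and (Y) — leaves and trees
-/

set_option autoImplicit false

open MeasureTheory Set

namespace Crest.Agent.R214

/-- certificate for a direction with slices satisfying `NeckAlt (1/10)` -/
def GoodY (V a1 a2 : ℝ) : Prop :=
  ∃ (g0 g1 : ℝ) (h : ℝ → ℝ), Continuous h ∧ (∀ a ∈ Icc a1 a2, 0 ≤ h a ∧ h a ≤ 1) ∧
    (∀ a ∈ Icc a1 a2, ∀ J : ℝ, NeckAlt (1 / 10) a J → g0 + g1 * a ≤ √(1 - h a ^ 2) * J) ∧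
    mm V < g0 + g1 * V + ∫ a in a1..a2, h a

/-- certificate for the direction `z` with early/late slices -/
def GoodZ (V φ b0 : ℝ) : Prop :=
  ∃ (g0 g1 : ℝ) (h : ℝ → ℝ), 0 ≤ g0 ∧ Continuous h ∧ (∀ a ∈ Icc 0 b0, 0 ≤ h a ∧ h a ≤ 1) ∧
    (∀ a ∈ Icc 0 b0, ∀ J : ℝ, WrapAlt (1 - φ) a J → g0 + g1 * a ≤ √(1 - h a ^ 2) * J) ∧
    (∀ a ∈ Icc 0 b0, ∀ J : ℝ, NeckAlt φ a J → g1 * a ≤ √(1 - h a ^ 2) * J) ∧
    mm V < g0 / 10 + g1 * V + ∫ a in (0 : ℝ)..b0, h a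

namespace ZY

/-- late check at a point -/
def okL (S T p : ℤ) (ab : ℤ × ℤ) (x q : ℤ) : Bool :=
  decide (0 ≤ x) && (decide (0 ≤ ab.1 * 1000000 + ab.2 * (x - p) * 100) &&
    (decide (S * 10000 + T * x ≤ 0) ||
      decide ((S * 10000 + T * x) ^ 2 * 10000 ≤
        (100000000 - q ^ 2) * min (314159200 * x) (ab.1 * 1000000 + ab.2 * (x - p) * 100))))

/-- late check of a panel -/
def PL (S T p : ℤ) (n m : Nd) : Bool :=
  okL S T p (tanT.look m.k) n.x n.q && okL S T p (tanT.look m.k) m.x m.q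

/-- early check, plain -/
def okA (S T x q : ℤ) : Bool :=
  decide (x ≤ 10000) && (decide (S * 10000 + T * x ≤ 0) ||
    decide ((S * 10000 + T * x) ^ 2 * 10000 ≤
      (100000000 - q ^ 2) * (314159200 * (10000 - x))))

/-- early check with the tangent `c` -/
def okB (S T E c x q : ℤ) : Bool :=
  decide (0 ≤ 200000000000 * c * (10000 - x) + 15707960 * c * E ^ 2 - 10000000 * c ^ 2 * E) &&
    (decide (S * 10000 + T * x ≤ 0) ||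
    decide ((S * 10000 + T * x) ^ 2 * 10000000 * E ≤ (100000000 - q ^ 2) *
      (200000000000 * c * (10000 - x) + 15707960 * c * E ^ 2 - 10000000 * c ^ 2 * E)))

/-- early check of a panel -/
def PE (S T E : ℤ) (n m : Nd) : Bool :=
  bif decide (m.e = 0) then okA S T n.x n.q && okA S T m.x m.q else
    decide (0 < E) && (decide (3141593 * E ≤ 2000000 * m.e) &&
      (okB S T E m.e n.x n.q && okB S T E m.e m.x m.q))

theorem final_le {g h J w : ℝ} (h0 : 0 ≤ h) (h1 : h ≤ 1) (hJ : 0 ≤ J) (hw : w ≤ J ^ 2)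
    (hg : (max g 0) ^ 2 ≤ (1 - h ^ 2) * w) : g ≤ √(1 - h ^ 2) * J := by
  have e1 : 0 ≤ 1 - h ^ 2 := by nlinarith
  have h2 : (max g 0) ^ 2 ≤ (1 - h ^ 2) * J ^ 2 := hg.trans (mul_le_mul_of_nonneg_left hw e1)
  have h3 : max g 0 ≤ √((1 - h ^ 2) * J ^ 2) := Real.le_sqrt_of_sq_le h2
  rw [Real.sqrt_mul e1, Real.sqrt_sq hJ] at h3
  exact (le_max_left _ _).trans h3

/-- the line in real units -/
theorem line_real (S T x : ℤ) : (S : ℝ) / 10 ^ 4 + (T : ℝ) / 10 ^ 4 * ((x : ℝ) / 10 ^ 4) =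
    ((S * 10000 + T * x : ℤ) : ℝ) / 10 ^ 8 := by
  push_cast
  ring

/-- from the integer test to the real test -/
theorem test_real {S T x q : ℤ} {w : ℝ} (q0 : 0 ≤ (q : ℝ) / 10 ^ 4) (q1 : (q : ℝ) / 10 ^ 4 ≤ 1)
    (hw : 0 ≤ w) (h : S * 10000 + T * x ≤ 0 ∨
      ((S * 10000 + T * x : ℤ) : ℝ) ^ 2 / 10 ^ 16 ≤ (1 - ((q : ℝ) / 10 ^ 4) ^ 2) * w) :
    (max ((S : ℝ) / 10 ^ 4 + (T : ℝ) / 10 ^ 4 * ((x : ℝ) / 10 ^ 4)) 0) ^ 2 ≤
      (1 - ((q : ℝ) / 10 ^ 4) ^ 2) * w := by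
  have e1 : 0 ≤ 1 - ((q : ℝ) / 10 ^ 4) ^ 2 := by nlinarith
  rw [line_real]
  rcases h with h | h
  · have h' : ((S * 10000 + T * x : ℤ) : ℝ) ≤ 0 := by exact_mod_cast h
    rw [max_eq_right (div_nonpos_of_nonpos_of_nonneg h' (by positivity))]
    have := mul_nonneg e1 hw
    simpa using this
  · refine le_trans ?_ h
    have e2 : ((S * 10000 + T * x : ℤ) : ℝ) ^ 2 / 10 ^ 16 =
        (((S * 10000 + T * x : ℤ) : ℝ) / 10 ^ 8) ^ 2 := by rw [div_pow]; norm_num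
    rw [e2]
    rcases le_total (((S * 10000 + T * x : ℤ) : ℝ) / 10 ^ 8) 0 with h4 | h4
    · rw [max_eq_right h4]; nlinarith [sq_nonneg (((S * 10000 + T * x : ℤ) : ℝ) / 10 ^ 8)]
    · rw [max_eq_left h4]

/-- late weight, second affine function -/
theorem okL_real {S T p x q : ℤ} {ab : ℤ × ℤ} (h : okL S T p ab x q = true)
    (q0 : 0 ≤ (q : ℝ) / 10 ^ 4) (q1 : (q : ℝ) / 10 ^ 4 ≤ 1) :
    (0 ≤ 0 + 3.141592 * ((x : ℝ) / 10 ^ 4) ∧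
      (max ((S : ℝ) / 10 ^ 4 + (T : ℝ) / 10 ^ 4 * ((x : ℝ) / 10 ^ 4)) 0) ^ 2 ≤
      (1 - ((q : ℝ) / 10 ^ 4) ^ 2) * (0 + 3.141592 * ((x : ℝ) / 10 ^ 4))) ∧
    (0 ≤ ((ab.1 : ℝ) / 10 ^ 6 - (ab.2 : ℝ) / 10 ^ 6 * ((p : ℝ) / 10 ^ 4)) +
        (ab.2 : ℝ) / 10 ^ 6 * ((x : ℝ) / 10 ^ 4) ∧
      (max ((S : ℝ) / 10 ^ 4 + (T : ℝ) / 10 ^ 4 * ((x : ℝ) / 10 ^ 4)) 0) ^ 2 ≤
      (1 - ((q : ℝ) / 10 ^ 4) ^ 2) *
        (((ab.1 : ℝ) / 10 ^ 6 - (ab.2 : ℝ) / 10 ^ 6 * ((p : ℝ) / 10 ^ 4)) +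
        (ab.2 : ℝ) / 10 ^ 6 * ((x : ℝ) / 10 ^ 4))) := by
  simp only [okL, Bool.and_eq_true, Bool.or_eq_true, decide_eq_true_eq] at h
  obtain ⟨h1, h2, h3⟩ := h
  have h1' : (0 : ℝ) ≤ x := by exact_mod_cast h1
  have h2' : (0 : ℝ) ≤ ab.1 * 1000000 + ab.2 * (x - p) * 100 := by exact_mod_cast h2
  have e1 : 0 ≤ 1 - ((q : ℝ) / 10 ^ 4) ^ 2 := by nlinarith
  have w1 : (0 : ℝ) ≤ 0 + 3.141592 * ((x : ℝ) / 10 ^ 4) := by positivity
  have e2 : ((ab.1 : ℝ) / 10 ^ 6 - (ab.2 : ℝ) / 10 ^ 6 * ((p : ℝ) / 10 ^ 4)) +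
        (ab.2 : ℝ) / 10 ^ 6 * ((x : ℝ) / 10 ^ 4) =
        (ab.1 * 1000000 + ab.2 * (x - p) * 100) / 10 ^ 12 := by ring
  have w2 : (0 : ℝ) ≤ ((ab.1 : ℝ) / 10 ^ 6 - (ab.2 : ℝ) / 10 ^ 6 * ((p : ℝ) / 10 ^ 4)) +
        (ab.2 : ℝ) / 10 ^ 6 * ((x : ℝ) / 10 ^ 4) := by
    rw [e2]; positivity
  have key : ∀ w : ℝ, 0 ≤ w → (S * 10000 + T * x ≤ 0 ∨
      ((S * 10000 + T * x : ℤ) : ℝ) ^ 2 / 10 ^ 16 ≤ (1 - ((q : ℝ) / 10 ^ 4) ^ 2) * w) →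
    (max ((S : ℝ) / 10 ^ 4 + (T : ℝ) / 10 ^ 4 * ((x : ℝ) / 10 ^ 4)) 0) ^ 2 ≤
      (1 - ((q : ℝ) / 10 ^ 4) ^ 2) * w := fun w hw h => test_real q0 q1 hw h
  refine ⟨⟨w1, key _ w1 ?_⟩, ⟨w2, key _ w2 ?_⟩⟩
  · rcases h3 with h3 | h3
    · exact Or.inl h3
    · right
      have h4 : ((S * 10000 + T * x : ℤ) : ℝ) ^ 2 * 10000 ≤
          (100000000 - (q : ℝ) ^ 2) * min (314159200 * (x : ℝ))
            (ab.1 * 1000000 + ab.2 * (x - p) * 100) := by exact_mod_cast h3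
      have h5 : (0 : ℝ) ≤ 100000000 - (q : ℝ) ^ 2 := by
        have : 1 - ((q : ℝ) / 10 ^ 4) ^ 2 = (100000000 - (q : ℝ) ^ 2) / 10 ^ 8 := by ring
        rw [this] at e1
        by_contra hc
        push Not at hc
        have := div_neg_of_neg_of_pos hc (by positivity : (0 : ℝ) < 10 ^ 8)
        linarith
      have h6 := h4.trans (mul_le_mul_of_nonneg_left (min_le_left _ _) h5)
      have e3 : (1 - ((q : ℝ) / 10 ^ 4) ^ 2) * (0 + 3.141592 * ((x : ℝ) / 10 ^ 4)) =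
          (100000000 - (q : ℝ) ^ 2) * (314159200 * (x : ℝ)) / 10 ^ 20 := by ring
      rw [e3, div_le_div_iff₀ (by positivity) (by positivity)]
      nlinarith
  · rcases h3 with h3 | h3
    · exact Or.inl h3
    · right
      have h4 : ((S * 10000 + T * x : ℤ) : ℝ) ^ 2 * 10000 ≤
          (100000000 - (q : ℝ) ^ 2) * min (314159200 * (x : ℝ))
            (ab.1 * 1000000 + ab.2 * (x - p) * 100) := by exact_mod_cast h3
      have h5 : (0 : ℝ) ≤ 100000000 - (q : ℝ) ^ 2 := by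
        have : 1 - ((q : ℝ) / 10 ^ 4) ^ 2 = (100000000 - (q : ℝ) ^ 2) / 10 ^ 8 := by ring
        rw [this] at e1
        by_contra hc
        push Not at hc
        have := div_neg_of_neg_of_pos hc (by positivity : (0 : ℝ) < 10 ^ 8)
        linarith
      have h6 := h4.trans (mul_le_mul_of_nonneg_left (min_le_right _ _) h5)
      rw [e2]
      have e3 : (1 - ((q : ℝ) / 10 ^ 4) ^ 2) *
          ((ab.1 * 1000000 + ab.2 * (x - p) * 100) / 10 ^ 12) =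
          (100000000 - (q : ℝ) ^ 2) * (ab.1 * 1000000 + ab.2 * (x - p) * 100) / 10 ^ 20 := by
        ring
      rw [e3, div_le_div_iff₀ (by positivity) (by positivity)]
      nlinarith

/-- conclusion for a late panel -/
theorem PL_sound {S T p : ℤ} {n m : Nd} (h : PL S T p n m = true) (hq : okq n m = true)
    (hx : (n.x : ℝ) / 10 ^ 4 < (m.x : ℝ) / 10 ^ 4) {a J : ℝ} (h1 : (n.x : ℝ) / 10 ^ 4 ≤ a)
    (h2 : a ≤ (m.x : ℝ) / 10 ^ 4) {ν : ℝ} (hν : ν ≤ (p : ℝ) / 10 ^ 4) (hJ : NeckAlt ν a J) :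
    (S : ℝ) / 10 ^ 4 + (T : ℝ) / 10 ^ 4 * a ≤
      √(1 - aff ((n.x : ℝ) / 10 ^ 4) ((n.q : ℝ) / 10 ^ 4) ((m.x : ℝ) / 10 ^ 4)
        ((m.q : ℝ) / 10 ^ 4) a ^ 2) * J := by
  obtain ⟨r1, r2, r3, r4⟩ := okq_real hq
  simp only [PL, Bool.and_eq_true] at h
  obtain ⟨⟨k1, k2⟩, ⟨k3, k4⟩⟩ := okL_real h.1 r1 r2
  obtain ⟨⟨l1, l2⟩, ⟨l3, l4⟩⟩ := okL_real h.2 r3 r4
  obtain ⟨i1, i2, i3, i4⟩ := interp hx h1 h2 r1 r2 r3 r4 k1 l1 k2 l2
  obtain ⟨-, -, j3, j4⟩ := interp hx h1 h2 r1 r2 r3 r4 k3 l3 k4 l4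
  have ha : 0 ≤ a := by
    have : 0 ≤ 3.141592 * a := by linarith
    linarith
  set hh := aff ((n.x : ℝ) / 10 ^ 4) ((n.q : ℝ) / 10 ^ 4) ((m.x : ℝ) / 10 ^ 4)
        ((m.q : ℝ) / 10 ^ 4) a
  have hpi := Real.pi_gt_d6
  have hmin := neck_tab ha hJ m.k
  obtain ⟨c, s, F, c1, c2, c3, c4, c5⟩ := tan_ok m.k
  have hJ' : NeckAlt ((p : ℝ) / 10 ^ 4) a J := by
    rcases hJ with hJ | hJ
    · exact Or.inl hJ
    · right
      intro s s0 s1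
      have := hJ s s0 s1
      nlinarith [mul_le_mul_of_nonneg_left hν s0]
  have hmin := neck_tab ha hJ' m.k
  have e1 : 0 ≤ 1 - hh ^ 2 := by nlinarith
  rcases le_total (Real.pi * a) (((tanT.look m.k).1 : ℝ) / 10 ^ 6 +
      ((tanT.look m.k).2 : ℝ) / 10 ^ 6 * (a - (p : ℝ) / 10 ^ 4)) with h5 | h5
  · rw [min_eq_left h5] at hmin
    refine final_le i1 i2 hJ.nonneg ?_ i4
    refine le_trans ?_ hmin
    nlinarith
  · rw [min_eq_right h5] at hmin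
    refine final_le i1 i2 hJ.nonneg ?_ j4
    refine le_trans (le_of_eq ?_) hmin
    ring

theorem okA_real {S T x q : ℤ} (h : okA S T x q = true)
    (q0 : 0 ≤ (q : ℝ) / 10 ^ 4) (q1 : (q : ℝ) / 10 ^ 4 ≤ 1) :
    0 ≤ 3.141592 + (-3.141592) * ((x : ℝ) / 10 ^ 4) ∧
      (max ((S : ℝ) / 10 ^ 4 + (T : ℝ) / 10 ^ 4 * ((x : ℝ) / 10 ^ 4)) 0) ^ 2 ≤
      (1 - ((q : ℝ) / 10 ^ 4) ^ 2) * (3.141592 + (-3.141592) * ((x : ℝ) / 10 ^ 4)) := by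
  simp only [okA, Bool.and_eq_true, Bool.or_eq_true, decide_eq_true_eq] at h
  obtain ⟨h1, h3⟩ := h
  have h1' : (x : ℝ) ≤ 10000 := by exact_mod_cast h1
  have e2 : 3.141592 + (-3.141592) * ((x : ℝ) / 10 ^ 4) = 314159200 * (10000 - (x : ℝ)) / 10 ^ 12 := by
    ring
  have w1 : 0 ≤ 3.141592 + (-3.141592) * ((x : ℝ) / 10 ^ 4) := by
    rw [e2]
    have : 0 ≤ 10000 - (x : ℝ) := by linarith
    positivity
  refine ⟨w1, test_real q0 q1 w1 ?_⟩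
  rcases h3 with h3 | h3
  · exact Or.inl h3
  · right
    have h4 : ((S * 10000 + T * x : ℤ) : ℝ) ^ 2 * 10000 ≤
        (100000000 - (q : ℝ) ^ 2) * (314159200 * (10000 - (x : ℝ))) := by exact_mod_cast h3
    rw [e2]
    have e3 : (1 - ((q : ℝ) / 10 ^ 4) ^ 2) * (314159200 * (10000 - (x : ℝ)) / 10 ^ 12) =
        (100000000 - (q : ℝ) ^ 2) * (314159200 * (10000 - (x : ℝ))) / 10 ^ 20 := by ring
    rw [e3, div_le_div_iff₀ (by positivity) (by positivity)]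
    nlinarith

theorem okB_real {S T E c x q : ℤ} (h : okB S T E c x q = true) (hE : 0 < E)
    (q0 : 0 ≤ (q : ℝ) / 10 ^ 4) (q1 : (q : ℝ) / 10 ^ 4 ≤ 1) :
    0 ≤ (2 * (c : ℝ) * 10 ^ 15 + 15707960 * c * E ^ 2 - 10 ^ 7 * c ^ 2 * E) / (10 ^ 15 * E) +
        (-(2 * (c : ℝ) / E)) * ((x : ℝ) / 10 ^ 4) ∧
      (max ((S : ℝ) / 10 ^ 4 + (T : ℝ) / 10 ^ 4 * ((x : ℝ) / 10 ^ 4)) 0) ^ 2 ≤
      (1 - ((q : ℝ) / 10 ^ 4) ^ 2) *
      ((2 * (c : ℝ) * 10 ^ 15 + 15707960 * c * E ^ 2 - 10 ^ 7 * c ^ 2 * E) / (10 ^ 15 * E) +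
        (-(2 * (c : ℝ) / E)) * ((x : ℝ) / 10 ^ 4)) := by
  simp only [okB, Bool.and_eq_true, Bool.or_eq_true, decide_eq_true_eq] at h
  obtain ⟨h1, h3⟩ := h
  have hE' : (0 : ℝ) < E := by exact_mod_cast hE
  have h1' : (0 : ℝ) ≤ 200000000000 * c * (10000 - x) + 15707960 * c * E ^ 2 -
      10000000 * c ^ 2 * E := by exact_mod_cast h1
  have e2 : (2 * (c : ℝ) * 10 ^ 15 + 15707960 * c * E ^ 2 - 10 ^ 7 * c ^ 2 * E) / (10 ^ 15 * E) +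
        (-(2 * (c : ℝ) / E)) * ((x : ℝ) / 10 ^ 4) =
        (200000000000 * c * (10000 - x) + 15707960 * c * E ^ 2 -
      10000000 * c ^ 2 * E) / (10 ^ 15 * E) := by
    field_simp
    ring
  rw [e2]
  have w1 : 0 ≤ (200000000000 * c * (10000 - x) + 15707960 * c * E ^ 2 -
      10000000 * c ^ 2 * E) / (10 ^ 15 * (E : ℝ)) := by positivity
  refine ⟨w1, test_real q0 q1 w1 ?_⟩
  rcases h3 with h3 | h3
  · exact Or.inl h3
  · right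
    have h4 : ((S * 10000 + T * x : ℤ) : ℝ) ^ 2 * 10000000 * E ≤
        (100000000 - (q : ℝ) ^ 2) * (200000000000 * c * (10000 - x) + 15707960 * c * E ^ 2 -
      10000000 * c ^ 2 * E) := by exact_mod_cast h3
    have e3 : (1 - ((q : ℝ) / 10 ^ 4) ^ 2) *
        ((200000000000 * c * (10000 - x) + 15707960 * c * E ^ 2 -
      10000000 * c ^ 2 * E) / (10 ^ 15 * (E : ℝ))) =
        (100000000 - (q : ℝ) ^ 2) * (200000000000 * c * (10000 - x) + 15707960 * c * E ^ 2 -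
      10000000 * c ^ 2 * E) / (10 ^ 23 * E) := by
      field_simp
      ring
    rw [e3, div_le_div_iff₀ (by positivity) (by positivity)]
    nlinarith

/-- conclusion for an early panel -/
theorem PE_sound {S T E : ℤ} {n m : Nd} (h : PE S T E n m = true) (hq : okq n m = true)
    (hx : (n.x : ℝ) / 10 ^ 4 < (m.x : ℝ) / 10 ^ 4) {a J : ℝ} (h1 : (n.x : ℝ) / 10 ^ 4 ≤ a)
    (h2 : a ≤ (m.x : ℝ) / 10 ^ 4) (ha : a ≤ 1) {e : ℝ} (he : e ≤ (E : ℝ) / 10 ^ 4)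
    (hJ : WrapAlt e a J) :
    (S : ℝ) / 10 ^ 4 + (T : ℝ) / 10 ^ 4 * a ≤
      √(1 - aff ((n.x : ℝ) / 10 ^ 4) ((n.q : ℝ) / 10 ^ 4) ((m.x : ℝ) / 10 ^ 4)
        ((m.q : ℝ) / 10 ^ 4) a ^ 2) * J := by
  obtain ⟨r1, r2, r3, r4⟩ := okq_real hq
  have hpi := Real.pi_gt_d6
  have hpi2 := Real.pi_lt_d6
  unfold PE at h
  by_cases hm : m.e = 0
  · simp only [hm, decide_true, cond_true, Bool.and_eq_true] at h
    obtain ⟨k1, k2⟩ := okA_real h.1 r1 r2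
    obtain ⟨l1, l2⟩ := okA_real h.2 r3 r4
    obtain ⟨i1, i2, i3, i4⟩ := interp hx h1 h2 r1 r2 r3 r4 k1 l1 k2 l2
    refine final_le i1 i2 (hJ.nonneg ha) ?_ i4
    refine le_trans ?_ (wrap_basic ha hJ)
    nlinarith
  · simp only [hm, decide_false, cond_false, Bool.and_eq_true, decide_eq_true_eq] at h
    obtain ⟨c1, c2, c3, c4⟩ := h
    obtain ⟨k1, k2⟩ := okB_real c3 c1 r1 r2
    obtain ⟨l1, l2⟩ := okB_real c4 c1 r3 r4
    obtain ⟨i1, i2, i3, i4⟩ := interp hx h1 h2 r1 r2 r3 r4 k1 l1 k2 l2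
    have hE' : (0 : ℝ) < E := by exact_mod_cast c1
    have c2' : 3141593 * (E : ℝ) ≤ 2000000 * m.e := by exact_mod_cast c2
    have hc : Real.pi * ((E : ℝ) / 10 ^ 4) / 2 ≤ (m.e : ℝ) / 10 ^ 4 := by
      rw [div_le_div_iff₀ (by positivity) (by positivity)]
      nlinarith
    have hme : (0 : ℝ) ≤ m.e := by nlinarith
    refine final_le i1 i2 (hJ.nonneg ha) ?_ i4
    refine le_trans ?_ (wrap_tangent ha hJ he hc)
    have e1 : 2 * ((m.e : ℝ) / 10 ^ 4) * ((1 - a) / ((E : ℝ) / 10 ^ 4) +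
        Real.pi * ((E : ℝ) / 10 ^ 4) / 4) - ((m.e : ℝ) / 10 ^ 4) ^ 2 =
        (2 * (m.e : ℝ) * 10 ^ 15 + 5 * 10 ^ 6 * Real.pi * m.e * E ^ 2 -
          10 ^ 7 * (m.e : ℝ) ^ 2 * E) / (10 ^ 15 * E) + (-(2 * (m.e : ℝ) / E)) * a := by
      field_simp
      ring
    rw [e1]
    have e2 : 15707960 * (m.e : ℝ) * E ^ 2 ≤ 5 * 10 ^ 6 * Real.pi * m.e * E ^ 2 := by
      have : 0 ≤ (m.e : ℝ) * E ^ 2 := by positivity
      nlinarith
    gcongr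

/-- leaf -/
structure Lz where
  S : ℤ
  T : ℤ
  n : Nd
  l : List Nd
  l1 : ℚ
  p1 : ℚ
  l2 : ℚ
  p2 : ℚ

/-- not nil -/
def nn : List Nd → Bool
  | [] => false
  | _ :: _ => true

theorem nn_ne {l : List Nd} (h : nn l = true) : l ≠ [] := by
  rintro rfl
  simp [nn] at h

/-- value check at `v` -/
def Lz.val (L : Lz) (G : ℚ) (v : ℤ) : Bool :=
  decide ((L.l1 * L.p1 + L.l2 * L.p2 - L.T / 10 ^ 4) * (v / 10 ^ 4) + cst L.l1 L.p1 L.l2 L.p2 < G)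

def Lz.chkY (L : Lz) (R : Rc) : Bool :=
  inc L.n L.l && (nn L.l && (allP (fun n m => okq n m && PL L.S L.T 1000 n m) L.n L.l &&
    (decide (L.n.x ≤ R.al) && (decide (R.hi ≤ lst L.n L.l) && (okS L.l1 L.p1 L.l2 L.p2 &&
      (decide (0 ≤ R.vl) &&
        (L.val (L.S / 10 ^ 4 + (tr R.al' R.lo L.n L.l : ℚ) / (2 * 10 ^ 8)) R.vl &&
          L.val (L.S / 10 ^ 4 + (tr R.al' R.lo L.n L.l : ℚ) / (2 * 10 ^ 8)) R.vh)))))))

def Lz.chkZ (L : Lz) (R : Rc) : Bool :=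
  inc L.n L.l && (nn L.l && (allP (fun n m => okq n m && (PL 0 L.T R.al' n m &&
      PE L.S L.T (10000 - R.al) n m)) L.n L.l &&
    (decide (L.n.x ≤ 0) && (decide (R.hi ≤ lst L.n L.l) && (okS L.l1 L.p1 L.l2 L.p2 &&
      (decide (0 ≤ R.vl) && (decide (0 ≤ L.S) && (decide (lst L.n L.l ≤ 10000) &&
        (L.val (L.S / 10 ^ 5 + (tr 0 R.lo L.n L.l : ℚ) / (2 * 10 ^ 8)) R.vl &&
          L.val (L.S / 10 ^ 5 + (tr 0 R.lo L.n L.l : ℚ) / (2 * 10 ^ 8)) R.vh)))))))))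

theorem val_sound {L : Lz} {G : ℚ} {vl vh : ℤ} (h1 : L.val G vl = true) (h2 : L.val G vh = true)
    (hs : okS L.l1 L.p1 L.l2 L.p2 = true) (hv : 0 ≤ vl) {V : ℝ} (m5 : (vl : ℝ) / 10 ^ 4 ≤ V)
    (m6 : V ≤ (vh : ℝ) / 10 ^ 4) : mm V < (G : ℝ) + (L.T : ℝ) / 10 ^ 4 * V := by
  have hV0 : 0 ≤ V := by
    refine le_trans ?_ m5
    have : (0 : ℝ) ≤ vl := by exact_mod_cast hv
    positivity
  have hs := okS_sound hs hV0
  simp only [Lz.val, decide_eq_true_eq] at h1 h2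
  have c7' : ((L.l1 * L.p1 + L.l2 * L.p2 : ℚ) - (L.T : ℝ) / 10 ^ 4) * ((vl : ℝ) / 10 ^ 4) +
      (cst L.l1 L.p1 L.l2 L.p2 : ℚ) < (G : ℝ) := by
    have := (Rat.cast_lt (K := ℝ)).2 h1
    push_cast at this ⊢
    exact this
  have c8' : ((L.l1 * L.p1 + L.l2 * L.p2 : ℚ) - (L.T : ℝ) / 10 ^ 4) * ((vh : ℝ) / 10 ^ 4) +
      (cst L.l1 L.p1 L.l2 L.p2 : ℚ) < (G : ℝ) := by
    have := (Rat.cast_lt (K := ℝ)).2 h2
    push_cast at this ⊢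
    exact this
  set D : ℝ := ((L.l1 * L.p1 + L.l2 * L.p2 : ℚ) : ℝ) - (L.T : ℝ) / 10 ^ 4 with hD
  have h3 : D * V + (cst L.l1 L.p1 L.l2 L.p2 : ℚ) < (G : ℝ) := by
    rcases le_total 0 D with hd | hd
    · have := mul_le_mul_of_nonneg_left m6 hd
      linarith
    · have := mul_le_mul_of_nonpos_left m5 hd
      linarith
  have h4 : ((L.l1 * L.p1 + L.l2 * L.p2 : ℚ) : ℝ) * V = D * V + (L.T : ℝ) / 10 ^ 4 * V := by
    rw [hD]; ring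
  linarith

theorem allP_mono {P Q : Nd → Nd → Bool} (h : ∀ n m, P n m = true → Q n m = true) :
    ∀ (l : List Nd) (n : Nd), allP P n l = true → allP Q n l = true := by
  intro l
  induction l with
  | nil => intro n _; rfl
  | cons m l ih =>
    intro n hn
    simp only [allP, Bool.and_eq_true] at hn ⊢
    exact ⟨h _ _ hn.1, ih m hn.2⟩

theorem cdiv {a b : ℤ} (h : a ≤ b) : (a : ℝ) / 10 ^ 4 ≤ (b : ℝ) / 10 ^ 4 := by
  have : (a : ℝ) ≤ b := by exact_mod_cast h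
  gcongr

theorem Lz.soundY {L : Lz} {R : Rc} (h : L.chkY R = true) {V a1 a2 : ℝ} (hm : R.mem V a1 a2)
    (h1 : a1 ≤ V) (h2 : V ≤ a2) : GoodY V a1 a2 := by
  simp only [Lz.chkY, Bool.and_eq_true, decide_eq_true_eq] at h
  obtain ⟨c1, c2, c3, c4, c5, c6, c7, c8, c9⟩ := h
  obtain ⟨m1, m2, m3, m4, m5, m6⟩ := hm
  have hne := nn_ne c2
  have hq : allP okq L.n L.l = true := allP_mono (fun n m h => by
    simp only [Bool.and_eq_true] at h; exact h.1) _ _ c3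
  have hb : ∀ a ∈ Icc a1 a2, (L.n.x : ℝ) / 10 ^ 4 ≤ a ∧ a ≤ (lst L.n L.l : ℝ) / 10 ^ 4 :=
    fun a ha => ⟨((cdiv c4).trans m1).trans ha.1, ha.2.trans (m4.trans (cdiv c5))⟩
  refine ⟨(L.S : ℝ) / 10 ^ 4, (L.T : ℝ) / 10 ^ 4, pl L.n L.l, pl_continuous _ _ c1, ?_, ?_, ?_⟩
  · intro a ha
    exact pl_bounds c1 hq hne (hb a ha).1 (hb a ha).2
  · intro a ha J hJ
    obtain ⟨u, v, k1, k2, k3, k4, k5⟩ := allP_find _ _ c1 c3 (hb a ha).1 (hb a ha).2 hne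
    simp only [Bool.and_eq_true] at k1
    rw [k5]
    exact PL_sound k1.2 k1.1 k2 k3 k4 (ν := 1 / 10) (by norm_num) hJ
  · have h3 := val_sound c8 c9 c6 c7 m5 m6
    have h4 := tr_le m2 m3 L.l L.n c1 hq a1 ((cdiv c4).trans m1) (h1.trans h2) (Or.inl rfl) le_rfl
      (m4.trans (cdiv c5))
    push_cast at h3
    linarith

theorem Lz.soundZ {L : Lz} {R : Rc} (h : L.chkZ R = true) {V φ b0 : ℝ} (hm : R.mem V φ b0)
    (hb0 : 0 ≤ b0) : GoodZ V φ b0 := by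
  simp only [Lz.chkZ, Bool.and_eq_true, decide_eq_true_eq] at h
  obtain ⟨c1, c2, c3, c4, c5, c6, c7, c8, c9, c10, c11⟩ := h
  obtain ⟨m1, m2, m3, m4, m5, m6⟩ := hm
  have hne := nn_ne c2
  have hq : allP okq L.n L.l = true := allP_mono (fun n m h => by
    simp only [Bool.and_eq_true] at h; exact h.1) _ _ c3
  have hn0 : (L.n.x : ℝ) / 10 ^ 4 ≤ 0 := by
    have := cdiv c4
    simpa using this
  have hb : ∀ a ∈ Icc 0 b0, (L.n.x : ℝ) / 10 ^ 4 ≤ a ∧ a ≤ (lst L.n L.l : ℝ) / 10 ^ 4 :=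
    fun a ha => ⟨hn0.trans ha.1, ha.2.trans (m4.trans (cdiv c5))⟩
  have hl1 : (lst L.n L.l : ℝ) / 10 ^ 4 ≤ 1 := by
    have := cdiv c9
    norm_num at this ⊢
    exact this
  have hS : (0 : ℝ) ≤ L.S := by exact_mod_cast c8
  refine ⟨(L.S : ℝ) / 10 ^ 4, (L.T : ℝ) / 10 ^ 4, pl L.n L.l, by positivity,
    pl_continuous _ _ c1, ?_, ?_, ?_, ?_⟩
  · intro a ha
    exact pl_bounds c1 hq hne (hb a ha).1 (hb a ha).2
  · intro a ha J hJ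
    obtain ⟨u, v, k1, k2, k3, k4, k5⟩ := allP_find _ _ c1 c3 (hb a ha).1 (hb a ha).2 hne
    simp only [Bool.and_eq_true] at k1
    rw [k5]
    refine PE_sound k1.2.2 k1.1 k2 k3 k4 ((hb a ha).2.trans hl1) ?_ hJ
    push_cast
    linarith
  · intro a ha J hJ
    obtain ⟨u, v, k1, k2, k3, k4, k5⟩ := allP_find _ _ c1 c3 (hb a ha).1 (hb a ha).2 hne
    simp only [Bool.and_eq_true] at k1
    rw [k5]
    have := PL_sound k1.2.1 k1.1 k2 k3 k4 (ν := φ) m2 hJ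
    simpa using this
  · have h3 := val_sound c10 c11 c6 c7 m5 m6
    have h4 := tr_le (A := 0) (B := R.lo) (a1 := 0) (a2 := b0) (by simp) m3 L.l L.n c1 hq 0 hn0
      hb0 (Or.inl rfl) le_rfl (m4.trans (cdiv c5))
    push_cast at h3
    linarith

/-- decision tree -/
inductive Tz
  | leaf (L : Lz)
  | emp
  | sa (x : ℤ) (l r : Tz)
  | sb (x : ℤ) (l r : Tz)
  | sv (x : ℤ) (l r : Tz)

def Tz.chkY : Tz → Rc → Bool
  | .leaf L, R => L.chkY R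
  | .emp, R => decide (R.vh < R.al) || decide (R.hi < R.vl)
  | .sa x l r, R => l.chkY { R with al' := x } && r.chkY { R with al := x }
  | .sb x l r, R => l.chkY { R with hi := x } && r.chkY { R with lo := x }
  | .sv x l r, R => l.chkY { R with vh := x } && r.chkY { R with vl := x }

def Tz.chkZ : Tz → Rc → Bool
  | .leaf L, R => L.chkZ R
  | .emp, R => decide (R.hi < R.vl)
  | .sa x l r, R => l.chkZ { R with al' := x } && r.chkZ { R with al := x }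
  | .sb x l r, R => l.chkZ { R with hi := x } && r.chkZ { R with lo := x }
  | .sv x l r, R => l.chkZ { R with vh := x } && r.chkZ { R with vl := x }

theorem clt {a b : ℤ} (h : a < b) : (a : ℝ) / 10 ^ 4 < (b : ℝ) / 10 ^ 4 := by
  have : (a : ℝ) < b := by exact_mod_cast h
  gcongr

theorem Tz.soundY : ∀ (t : Tz) (R : Rc), t.chkY R = true → ∀ {V a1 a2 : ℝ}, R.mem V a1 a2 →
    a1 ≤ V → V ≤ a2 → GoodY V a1 a2 := by
  intro t
  induction t with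
  | leaf L => intro R h V a1 a2 hm h1 h2; exact L.soundY h hm h1 h2
  | emp =>
    intro R h V a1 a2 hm h1 h2
    exfalso
    obtain ⟨m1, m2, m3, m4, m5, m6⟩ := hm
    simp only [Tz.chkY, Bool.or_eq_true, decide_eq_true_eq] at h
    rcases h with h | h
    · have := clt h
      linarith
    · have := clt h
      linarith
  | sa x l r ihl ihr =>
    intro R h V a1 a2 hm h1 h2
    obtain ⟨m1, m2, m3, m4, m5, m6⟩ := hm
    simp only [Tz.chkY, Bool.and_eq_true] at h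
    rcases le_total a1 ((x : ℝ) / 10 ^ 4) with hx | hx
    · exact ihl _ h.1 ⟨m1, hx, m3, m4, m5, m6⟩ h1 h2
    · exact ihr _ h.2 ⟨hx, m2, m3, m4, m5, m6⟩ h1 h2
  | sb x l r ihl ihr =>
    intro R h V a1 a2 hm h1 h2
    obtain ⟨m1, m2, m3, m4, m5, m6⟩ := hm
    simp only [Tz.chkY, Bool.and_eq_true] at h
    rcases le_total a2 ((x : ℝ) / 10 ^ 4) with hx | hx
    · exact ihl _ h.1 ⟨m1, m2, m3, hx, m5, m6⟩ h1 h2
    · exact ihr _ h.2 ⟨m1, m2, hx, m4, m5, m6⟩ h1 h2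
  | sv x l r ihl ihr =>
    intro R h V a1 a2 hm h1 h2
    obtain ⟨m1, m2, m3, m4, m5, m6⟩ := hm
    simp only [Tz.chkY, Bool.and_eq_true] at h
    rcases le_total V ((x : ℝ) / 10 ^ 4) with hx | hx
    · exact ihl _ h.1 ⟨m1, m2, m3, m4, m5, hx⟩ h1 h2
    · exact ihr _ h.2 ⟨m1, m2, m3, m4, hx, m6⟩ h1 h2

theorem Tz.soundZ : ∀ (t : Tz) (R : Rc), t.chkZ R = true → ∀ {V φ b0 : ℝ}, R.mem V φ b0 →
    0 ≤ b0 → V ≤ b0 → GoodZ V φ b0 := by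
  intro t
  induction t with
  | leaf L => intro R h V a1 a2 hm h1 h2; exact L.soundZ h hm h1
  | emp =>
    intro R h V a1 a2 hm h1 h2
    exfalso
    obtain ⟨m1, m2, m3, m4, m5, m6⟩ := hm
    simp only [Tz.chkZ, decide_eq_true_eq] at h
    have := clt h
    linarith
  | sa x l r ihl ihr =>
    intro R h V a1 a2 hm h1 h2
    obtain ⟨m1, m2, m3, m4, m5, m6⟩ := hm
    simp only [Tz.chkZ, Bool.and_eq_true] at h
    rcases le_total a1 ((x : ℝ) / 10 ^ 4) with hx | hx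
    · exact ihl _ h.1 ⟨m1, hx, m3, m4, m5, m6⟩ h1 h2
    · exact ihr _ h.2 ⟨hx, m2, m3, m4, m5, m6⟩ h1 h2
  | sb x l r ihl ihr =>
    intro R h V a1 a2 hm h1 h2
    obtain ⟨m1, m2, m3, m4, m5, m6⟩ := hm
    simp only [Tz.chkZ, Bool.and_eq_true] at h
    rcases le_total a2 ((x : ℝ) / 10 ^ 4) with hx | hx
    · exact ihl _ h.1 ⟨m1, m2, m3, hx, m5, m6⟩ h1 h2
    · exact ihr _ h.2 ⟨m1, m2, hx, m4, m5, m6⟩ h1 h2
  | sv x l r ihl ihr =>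
    intro R h V a1 a2 hm h1 h2
    obtain ⟨m1, m2, m3, m4, m5, m6⟩ := hm
    simp only [Tz.chkZ, Bool.and_eq_true] at h
    rcases le_total V ((x : ℝ) / 10 ^ 4) with hx | hx
    · exact ihl _ h.1 ⟨m1, m2, m3, m4, m5, hx⟩ h1 h2
    · exact ihr _ h.2 ⟨m1, m2, m3, m4, hx, m6⟩ h1 h2

end ZY

end Crest.Agent.R214
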