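import Crest.Agent.R214.ZYc
import Crest.Agent.R214.NeckAlt
import Crest.Agent.R214.PhiZero

/-!
# Row 214: certificates (Z) and (Y) — the weights
-/

set_option autoImplicit false

open MeasureTheory Set

namespace Crest.Agent.R214

theorem PhiN_nonneg (s : ℝ) : 0 ≤ PhiN s :=
  intervalIntegral.integral_nonneg zero_le_one fun _ _ => Real.sqrt_nonneg _

theorem NeckAlt.nonneg {n a J : ℝ} (h : NeckAlt n a J) : 0 ≤ J := by
  rcases h with h | h
  · exact (Real.sqrt_nonneg _).trans h
  · have := h 0 le_rfl zero_le_one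
    rw [PhiN_zero] at this
    linarith

theorem WrapAlt.nonneg {e a J : ℝ} (ha : a ≤ 1) (h : WrapAlt e a J) : 0 ≤ J := by
  obtain ⟨L, h1, h2, h3⟩ := h
  have hpi := Real.pi_pos
  have : 0 ≤ (1 - a) / L := div_nonneg (by linarith) h1.le
  have : 0 ≤ Real.pi * L / 4 := by positivity
  linarith

/-- tangent trick -/
theorem tangent_sq {x c J : ℝ} (hc : 0 ≤ c) (hJ : 0 ≤ J) (h : x ≤ J) :
    2 * c * x - c ^ 2 ≤ J ^ 2 := by
  nlinarith [sq_nonneg (J - c), mul_le_mul_of_nonneg_left h hc]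

/-- the neck alternative bounds `J²` from below by the smaller of two affine functions -/
theorem NeckAlt.sq {n a J : ℝ} (ha : 0 ≤ a) (h : NeckAlt n a J) {c s F : ℝ} (hc : 0 ≤ c)
    (hs0 : 0 ≤ s) (hs1 : s ≤ 1) (hF : F ≤ PhiN s) :
    min (Real.pi * a) (2 * c * (s * (a - n) + F) - c ^ 2) ≤ J ^ 2 := by
  have hJ := h.nonneg
  rcases h with h | h
  · refine (min_le_left _ _).trans ?_
    have := pow_le_pow_left₀ (Real.sqrt_nonneg _) h 2
    rwa [Real.sq_sqrt (by positivity)] at this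
  · refine (min_le_right _ _).trans ?_
    have h1 := h s hs0 hs1
    exact tangent_sq hc hJ (by linarith)

theorem wrap_basic {e a J : ℝ} (ha : a ≤ 1) (h : WrapAlt e a J) : Real.pi * (1 - a) ≤ J ^ 2 := by
  have hJ := h.nonneg ha
  obtain ⟨L, h1, h2, h3⟩ := h
  have hpi := Real.pi_pos
  have h4 : Real.pi * (1 - a) ≤ ((1 - a) / L + Real.pi * L / 4) ^ 2 := by
    have e1 : ((1 - a) / L + Real.pi * L / 4) ^ 2 - Real.pi * (1 - a) =
        ((1 - a) / L - Real.pi * L / 4) ^ 2 := by
      field_simp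
      ring
    nlinarith [sq_nonneg ((1 - a) / L - Real.pi * L / 4)]
  have h5 : 0 ≤ (1 - a) / L + Real.pi * L / 4 := by
    have : 0 ≤ (1 - a) / L := div_nonneg (by linarith) h1.le
    positivity
  exact h4.trans (pow_le_pow_left₀ h5 h3 2)

theorem wrap_tangent {e E a J c : ℝ} (ha : a ≤ 1) (h : WrapAlt e a J) (he : e ≤ E)
    (hc : Real.pi * E / 2 ≤ c) :
    2 * c * ((1 - a) / E + Real.pi * E / 4) - c ^ 2 ≤ J ^ 2 := by
  have hJ := h.nonneg ha
  have hb := wrap_basic ha h
  obtain ⟨L, h1, h2, h3⟩ := h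
  have hpi := Real.pi_pos
  have hE : 0 < E := h1.trans_le (h2.trans he)
  have hc0 : 0 ≤ c := le_trans (by positivity) hc
  set H : ℝ := 1 - a with hH
  have hH0 : 0 ≤ H := by rw [hH]; linarith
  rcases le_total (Real.pi * E ^ 2) (4 * H) with h4 | h4
  · -- decreasing region
    apply tangent_sq hc0 hJ
    refine le_trans ?_ h3
    have hLE : L ≤ E := h2.trans he
    have e1 : H / L + Real.pi * L / 4 - (H / E + Real.pi * E / 4) =
        (E - L) * (4 * H - Real.pi * (E * L)) / (4 * E * L) := by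
      field_simp
      ring
    have e2 : 0 ≤ (E - L) * (4 * H - Real.pi * (E * L)) / (4 * E * L) := by
      apply div_nonneg _ (by positivity)
      apply mul_nonneg (by linarith)
      have : Real.pi * (E * L) ≤ Real.pi * E ^ 2 := by
        apply mul_le_mul_of_nonneg_left _ hpi.le
        nlinarith
      linarith
    linarith
  · refine le_trans ?_ hb
    -- πH - (2c(H/E + πE/4) - c²) = (πE/2 - c)² + δ (2c/E - π), δ = πE²/4 - H
    have e1 : Real.pi * H - (2 * c * (H / E + Real.pi * E / 4) - c ^ 2) =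
        (Real.pi * E / 2 - c) ^ 2 + (Real.pi * E ^ 2 / 4 - H) * (2 * c / E - Real.pi) := by
      field_simp
      ring
    have e2 : 0 ≤ 2 * c / E - Real.pi := by
      rw [sub_nonneg, le_div_iff₀ hE]
      linarith
    have e3 : 0 ≤ Real.pi * E ^ 2 / 4 - H := by linarith
    nlinarith [sq_nonneg (Real.pi * E / 2 - c), mul_nonneg e3 e2]

end Crest.Agent.R214
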